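import Vale.Agent.P002.ConeToSL

namespace Vale.Agent.P002

open Matrix NumberField

section sl
variable {L : Type*} [Field L] [NumberField L] (φ : L →+* ℂ) {g r : ℕ}

theorem sl_of_cone_gen (hr : 0 < r) (ζ : 𝓞 L) (hζ : IsPrimitiveRoot ζ r)
    (Q : Tup g r → Prop) (hQ : ∀ κ : Fin g × Bool → ℂ, (∀ v, κ v ≠ 0) → ∀ x, Q x → Q (csAct κ x))
    (f : Tup g r → ℂ) (hf : f ∈ PolyFun (Tup g r))
    (hv : ∀ σ : Fin g → SpecialLinearGroup (Fin r) (𝓞 L) × SpecialLinearGroup (Fin r) (𝓞 L),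
      IsIntRep σ → Q (fun i => (emb φ (σ i).1.1, emb φ (σ i).2.1)) →
      f (fun i => (emb φ (σ i).1.1, emb φ (σ i).2.1)) = 0)
    (x : Tup g r) (hdet : ∀ i, (x i).1.det = 1 ∧ (x i).2.det = 1)
    (hx : ∀ F ∈ PolyFun (Tup g r), (∀ c ∈ Cone φ g r, Q c → F c = 0) → F x = 0) :
    f x = 0 := by
  let ω : ℂ := φ (algebraMap (𝓞 L) L ζ)
  have hω : IsPrimitiveRoot ω r := by
    have h1 : Function.Injective (φ.comp (algebraMap (𝓞 L) L)) :=
      φ.injective.comp (FaithfulSMul.algebraMap_injective (𝓞 L) L)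
    exact hζ.map_of_injective h1
  let S : Set (Tup g r) := {y | ∃ σ : Fin g → SpecialLinearGroup (Fin r) (𝓞 L) ×
    SpecialLinearGroup (Fin r) (𝓞 L), IsIntRep σ ∧
      Q (fun i => (emb φ (σ i).1.1, emb φ (σ i).2.1)) ∧
      y = fun i => (emb φ (σ i).1.1, emb φ (σ i).2.1)}
  have hdet1 : ∀ A : SpecialLinearGroup (Fin r) (𝓞 L), (emb φ A.1).det = 1 := by
    intro A
    have h1 : (emb φ A.1).det = φ (algebraMap (𝓞 L) L A.1.det) := by
      unfold emb
      exact (RingHom.map_det _ _).symm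
    rw [h1, A.2, map_one, map_one]
  have hscal : ∀ n : ℕ, (ζ ^ n • (1 : Matrix (Fin r) (Fin r) (𝓞 L))).det = 1 := by
    intro n
    rw [Matrix.det_smul, Matrix.det_one, mul_one, Fintype.card_fin, ← pow_mul, mul_comm, pow_mul,
      hζ.pow_eq_one, one_pow]
  let sc : ℕ → SpecialLinearGroup (Fin r) (𝓞 L) := fun n =>
    ⟨ζ ^ n • (1 : Matrix (Fin r) (Fin r) (𝓞 L)), hscal n⟩
  have hsc : ∀ n (A : SpecialLinearGroup (Fin r) (𝓞 L)), Commute (sc n) A := by
    intro n A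
    apply Subtype.ext
    show (ζ ^ n • (1 : Matrix (Fin r) (Fin r) (𝓞 L))) * A.1 = A.1 * (ζ ^ n • 1)
    simp
  have hscemb : ∀ n (A : SpecialLinearGroup (Fin r) (𝓞 L)),
      emb φ (sc n * A).1 = ω ^ n • emb φ A.1 := by
    intro n A
    have h1 : (sc n * A).1 = ζ ^ n • A.1 := by
      show (ζ ^ n • (1 : Matrix (Fin r) (Fin r) (𝓞 L))) * A.1 = _
      simp
    rw [h1, cs_emb_smul, map_pow, map_pow]
  refine cs_main hr ω hω S ?_ ?_ f hf ?_ x ?_ ?_
  · rintro y ⟨σ, hσ, hq, rfl⟩ ⟨i, β⟩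
    cases β
    · exact hdet1 _
    · exact hdet1 _
  · rintro y ⟨σ, hσ, hq, rfl⟩ t
    have hω0 : ω ≠ 0 := hω.ne_zero hr.ne'
    refine ⟨fun i => (sc (t (i, false)) * (σ i).1, sc (t (i, true)) * (σ i).2), ?_, ?_, ?_⟩
    · unfold IsIntRep at *
      rw [← hσ]
      congr 2
      funext i
      have c1 := hsc (t (i, false))
      have c2 := hsc (t (i, true))
      have e : ∀ z w A B : SpecialLinearGroup (Fin r) (𝓞 L), (∀ C, Commute z C) →
          (∀ C, Commute w C) → (z * A) * (w * B) * (z * A)⁻¹ * (w * B)⁻¹ = A * B * A⁻¹ * B⁻¹ := by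
        intro z w A B hz hw
        have e1 : (z * A) * (w * B) * (z * A)⁻¹ * (w * B)⁻¹ =
            z * A * (w * B * A⁻¹) * z⁻¹ * (B⁻¹ * w⁻¹) := by group
        have e2 : z * A * (w * B * A⁻¹) * z⁻¹ = A * (w * B * A⁻¹) := by
          have := (hz (A * (w * B * A⁻¹))).eq
          rw [mul_assoc z, this]; group
        rw [e1, e2]
        have e3 : A * (w * B * A⁻¹) * (B⁻¹ * w⁻¹) = (A * w) * (B * A⁻¹ * B⁻¹) * w⁻¹ := by group
        rw [e3, ← (hw A).eq]
        have e4 := (hw (A * (B * A⁻¹ * B⁻¹))).eq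
        have e5 : w * A * (B * A⁻¹ * B⁻¹) * w⁻¹ = (w * (A * (B * A⁻¹ * B⁻¹))) * w⁻¹ := by group
        rw [e5, e4]; group
      exact e _ _ _ _ c1 c2
    · have h5 := hQ (fun v => ω ^ t v) (fun v => pow_ne_zero _ hω0) _ hq
      simp only [hscemb]
      exact h5
    · funext i
      refine Prod.ext ?_ ?_
      · exact (hscemb _ _).symm
      · exact (hscemb _ _).symm
  · rintro y ⟨σ, hσ, hq, rfl⟩
    exact hv σ hσ hq
  · rintro ⟨i, β⟩
    cases β
    · exact (hdet i).1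
    · exact (hdet i).2
  · intro F hF hFc
    apply hx F hF
    rintro c ⟨σ, hσ, κ, μ, hκ, hμ, hc⟩ hqc
    have hc' : c = csAct (fun v => if v.2 then μ v.1 else κ v.1)
        (fun i => (emb φ (σ i).1.1, emb φ (σ i).2.1)) := by
      funext i
      rw [hc i]
      simp [csAct]
    have hκμ : ∀ v : Fin g × Bool, (if v.2 then μ v.1 else κ v.1) ≠ 0 := by
      rintro ⟨i, β⟩
      cases β
      · exact hκ i
      · exact hμ i
    have hq : Q (fun i => (emb φ (σ i).1.1, emb φ (σ i).2.1)) := by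
      have h6 := hQ (fun v => (if v.2 then μ v.1 else κ v.1)⁻¹)
        (fun v => inv_ne_zero (hκμ v)) c hqc
      convert h6 using 1
      funext i
      simp [csAct, hc i, smul_smul, inv_mul_cancel₀ (hκ i), inv_mul_cancel₀ (hμ i)]
    rw [hc']
    exact hFc _ ⟨σ, hσ, hq, rfl⟩ _ hκμ

end sl

end Vale.Agent.P002
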