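import Vale.Agent.P002.GenPoly

namespace Vale.Agent.P002

open Matrix Module MvPolynomial

theorem mapT_tupOf {R S : Type*} [CommRing R] [CommRing S] {n r : ℕ} (φ : R →+* S)
    (c : Ix n r → R) : mapT φ (tupOf c) = tupOf (fun s => φ (c s)) := rfl

noncomputable def psi {σ : Type} (p : Ideal (MvPolynomial σ ℂ)) [p.IsPrime] :
    MvPolynomial σ ℂ →ₐ[ℂ] FractionRing (MvPolynomial σ ℂ ⧸ p) :=
  (IsScalarTower.toAlgHom ℂ (MvPolynomial σ ℂ ⧸ p) (FractionRing (MvPolynomial σ ℂ ⧸ p))).comp
    (Ideal.Quotient.mkₐ ℂ p)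

theorem psi_apply {σ : Type} (p : Ideal (MvPolynomial σ ℂ)) [p.IsPrime] (a : MvPolynomial σ ℂ) :
    psi p a = algebraMap (MvPolynomial σ ℂ ⧸ p) (FractionRing (MvPolynomial σ ℂ ⧸ p))
      (Ideal.Quotient.mk p a) := rfl

theorem psi_eq_zero {σ : Type} (p : Ideal (MvPolynomial σ ℂ)) [p.IsPrime]
    (a : MvPolynomial σ ℂ) : psi p a = 0 ↔ a ∈ p := by
  rw [psi_apply, map_eq_zero_iff _ (IsFractionRing.injective _ _), Ideal.Quotient.eq_zero_iff_mem]

theorem gp_spec {n N r : ℕ} (z : Fin r) (e : Fin n → Fin N)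
    (p : Ideal (MvPolynomial (Ix N r) ℂ)) [p.IsPrime]
    (hcom : finrank (FractionRing (MvPolynomial (Ix N r) ℂ ⧸ p))
      (comT (fun i : Fin n => tupOf (fun s => psi p (X s)) (e i))) ≤ 1) :
    ∃ h : MvPolynomial (Ix N r) ℂ, h ∉ p ∧ ∀ c : Ix N r → ℂ, (∀ q ∈ p, aeval c q = 0) →
      aeval c h ≠ 0 → ∀ M : Mat r,
      (∀ i : Fin n, Commute M (tupOf c (e i)).1 ∧ Commute M (tupOf c (e i)).2) →
      ∃ a : ℂ, M = a • (1 : Mat r) := by
  classical
  let K := FractionRing (MvPolynomial (Ix N r) ℂ ⧸ p)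
  let G : Fin n → MF r (MvPolynomial (Ix N r) ℂ) × MF r (MvPolynomial (Ix N r) ℂ) :=
    fun i => tupOf X (e i)
  let GK : Fin n → MF r K × MF r K := fun i => tupOf (fun s => psi p (X s)) (e i)
  let C := comMat (z := z) GK
  have hinj : Function.Injective C.mulVecLin := by
    rw [← LinearMap.ker_eq_bot, LinearMap.ker_eq_bot']
    intro v hv
    let M : MF r K := Matrix.of fun a b => v (a, b)
    have hv' : (C.mulVec fun q => M q.1 q.2) = 0 := hv
    have hM : M ∈ comT GK := by
      rw [mem_comT]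
      intro i
      constructor
      · ext a b
        have h1 := congrFun hv' (Sum.inl (i, false, a, b))
        rw [comMat_inl] at h1
        simpa [sub_eq_zero] using h1
      · ext a b
        have h1 := congrFun hv' (Sum.inl (i, true, a, b))
        rw [comMat_inl] at h1
        simpa [sub_eq_zero] using h1
    have h1mem : (1 : MF r K) ∈ comT GK := by
      rw [mem_comT]
      intro i
      exact ⟨Commute.one_left _, Commute.one_left _⟩
    have h1ne : (⟨1, h1mem⟩ : comT GK) ≠ 0 := by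
      intro h0
      have := congrFun (congrFun (congrArg Subtype.val h0) z) z
      simp at this
    obtain ⟨c, hc⟩ := finrank_le_one_iff.mp hcom |>.imp fun v hv => hv
    obtain ⟨a1, ha1⟩ := hc ⟨1, h1mem⟩
    obtain ⟨a2, ha2⟩ := hc ⟨M, hM⟩
    have ha10 : a1 ≠ 0 := by
      rintro rfl
      rw [zero_smul] at ha1
      exact h1ne ha1.symm
    have hM2 : M = (a2 * a1⁻¹) • (1 : MF r K) := by
      have h3 := congrArg Subtype.val ha1
      have h4 := congrArg Subtype.val ha2
      simp only [Submodule.coe_smul] at h3 h4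
      rw [← h4, ← h3, smul_smul, mul_assoc, inv_mul_cancel₀ ha10, mul_one]
    have hz := congrFun hv' (Sum.inr ())
    rw [comMat_inr, hM2] at hz
    simp only [Matrix.smul_apply, Matrix.one_apply_eq, smul_eq_mul, mul_one, Pi.zero_apply] at hz
    rw [hz, zero_smul] at hM2
    funext q
    exact congrFun (congrFun hM2 q.1) q.2
  obtain ⟨Bl, hBl⟩ := C.mulVecLin.exists_leftInverse_of_injective (LinearMap.ker_eq_bot.mpr hinj)
  let B := LinearMap.toMatrix' Bl
  have hBC : B * C = 1 := by
    have h1 := congrArg LinearMap.toMatrix' hBl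
    rw [LinearMap.toMatrix'_comp, LinearMap.toMatrix'_id, ← Matrix.toLin'_apply',
      LinearMap.toMatrix'_toLin'] at h1
    exact h1
  obtain ⟨b, hb⟩ := IsLocalization.exist_integer_multiples_of_finite
    (nonZeroDivisors (MvPolynomial (Ix N r) ℂ ⧸ p))
    (fun q : (Fin r × Fin r) × (Ix n r ⊕ Unit) => B q.1 q.2)
  choose b' hb' using hb
  obtain ⟨h, hh⟩ := Ideal.Quotient.mk_surjective (b : MvPolynomial (Ix N r) ℂ ⧸ p)
  choose B' hB' using fun q => Ideal.Quotient.mk_surjective (b' q)
  let BA : Matrix (Fin r × Fin r) (Ix n r ⊕ Unit) (MvPolynomial (Ix N r) ℂ) :=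
    Matrix.of fun i j => B' (i, j)
  have hψh : psi p h = algebraMap _ K (b : MvPolynomial (Ix N r) ℂ ⧸ p) := by
    rw [psi_apply, hh]
  have hψB : BA.map (psi p) = (psi p h) • B := by
    ext i j
    rw [Matrix.map_apply, Matrix.smul_apply, hψh, psi_apply]
    show algebraMap _ K (Ideal.Quotient.mk p (B' (i, j))) = _
    rw [hB', hb' (i, j), Algebra.smul_def, smul_eq_mul]
  refine ⟨h, ?_, ?_⟩
  · intro hhp
    have h1 := (psi_eq_zero p h).mpr hhp
    rw [hψh] at h1
    have h2 : (b : MvPolynomial (Ix N r) ℂ ⧸ p) = 0 := by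
      rwa [map_eq_zero_iff _ (IsFractionRing.injective _ _)] at h1
    exact nonZeroDivisors.ne_zero b.2 h2
  · intro c hc hch M hM
    have hmem : ∀ i j, (BA * comMat (z := z) G - h • (1 : Matrix (Fin r × Fin r) (Fin r × Fin r)
        (MvPolynomial (Ix N r) ℂ)) : Matrix (Fin r × Fin r) (Fin r × Fin r)
        (MvPolynomial (Ix N r) ℂ)) i j ∈ p := by
      intro i j
      rw [← psi_eq_zero]
      have h1 : (BA * comMat (z := z) G).map (psi p) = psi p h • (1 : Matrix _ _ K) := by
        have h2 : (BA * comMat (z := z) G).map (psi p) =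
            BA.map (psi p) * (comMat (z := z) G).map (psi p) :=
          Matrix.map_mul (f := (psi p : MvPolynomial (Ix N r) ℂ →+* K))
        have h3 : (comMat (z := z) G).map (psi p) = C :=
          comMat_map (psi p : MvPolynomial (Ix N r) ℂ →+* K) G
        rw [h2, hψB, h3, Matrix.smul_mul, hBC]
      have h4 := congrFun (congrFun h1 i) j
      rw [Matrix.map_apply] at h4
      rw [Matrix.sub_apply, map_sub, h4, Matrix.smul_apply, Matrix.smul_apply, smul_eq_mul,
        smul_eq_mul, map_mul]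
      by_cases hij : i = j
      · subst hij; simp
      · simp [hij]
    have hev : BA.map (aeval c) * comMat (z := z) (fun i => tupOf c (e i)) =
        aeval c h • (1 : Matrix _ _ ℂ) := by
      have h2 : (BA * comMat (z := z) G).map (aeval c) =
          BA.map (aeval c) * (comMat (z := z) G).map (aeval c) :=
        Matrix.map_mul (f := (aeval c : MvPolynomial (Ix N r) ℂ →ₐ[ℂ] ℂ).toRingHom)
      have h3 : (comMat (z := z) G).map (aeval c) = comMat (z := z) (fun i => tupOf c (e i)) := by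
        have h5 := comMat_map (z := z) (aeval c : MvPolynomial (Ix N r) ℂ →ₐ[ℂ] ℂ).toRingHom G
        refine Eq.trans h5 ?_
        congr 1
        funext i
        show mapT (aeval c : MvPolynomial (Ix N r) ℂ →ₐ[ℂ] ℂ).toRingHom (tupOf X) (e i) = _
        rw [mapT_tupOf]
        congr 1
        funext s
        exact aeval_X c s
      rw [← h3, ← h2]
      ext i j
      have h6 := hc _ (hmem i j)
      rw [Matrix.sub_apply, map_sub, sub_eq_zero] at h6
      rw [Matrix.map_apply, h6, Matrix.smul_apply, Matrix.smul_apply, smul_eq_mul, smul_eq_mul,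
        map_mul]
      by_cases hij : i = j
      · subst hij; simp
      · simp [hij]
    refine ⟨M z z, ?_⟩
    let M' : Mat r := M - M z z • (1 : Mat r)
    have hM' : ∀ i : Fin n, Commute M' (tupOf c (e i)).1 ∧ Commute M' (tupOf c (e i)).2 := by
      intro i
      exact ⟨(hM i).1.sub_left ((Commute.one_left _).smul_left _),
        (hM i).2.sub_left ((Commute.one_left _).smul_left _)⟩
    have h0 : ((comMat (z := z) (fun i => tupOf c (e i))).mulVec fun q => M' q.1 q.2) = 0 := by
      funext j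
      rcases j with ⟨i, β, a, b⟩ | u
      · rw [comMat_inl]
        cases β
        · simp only [Bool.false_eq_true, ↓reduceIte]
          rw [(hM' i).1.eq, sub_self]
          rfl
        · simp only [↓reduceIte]
          rw [(hM' i).2.eq, sub_self]
          rfl
      · rw [comMat_inr]
        simp [M']
    have h7 : (BA.map (aeval c) * comMat (z := z) (fun i => tupOf c (e i))).mulVec
        (fun q => M' q.1 q.2) = (aeval c h • (1 : Matrix (Fin r × Fin r) (Fin r × Fin r) ℂ)).mulVec
        (fun q => M' q.1 q.2) := by rw [hev]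
    rw [← Matrix.mulVec_mulVec, h0, Matrix.mulVec_zero, Matrix.smul_mulVec, Matrix.one_mulVec] at h7
    have h8 : M' = 0 := by
      ext a b
      have h9 := congrFun h7 (a, b)
      simp only [Pi.zero_apply, Pi.smul_apply, smul_eq_mul] at h9
      exact (mul_eq_zero.mp h9.symm).resolve_left hch
    exact sub_eq_zero.mp h8

noncomputable def genEq (n r : ℕ) (z : Fin r) :
    (Fin n × Bool) ⊕ {p : Fin r × Fin r // p ≠ (z, z)} → MvPolynomial (Ix n r) ℂ :=
  Sum.elim (fun q => (if q.2 then (tupOf X q.1).2 else (tupOf X q.1).1).det - 1)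
    (fun p => (kJ (tupOf X) - 1 : MF r (MvPolynomial (Ix n r) ℂ)) p.1.1 p.1.2)

theorem genEq_sat {R : Type*} [CommRing R] {n r : ℕ} {z : Fin r}
    (φ : MvPolynomial (Ix n r) ℂ →+* R) (h : ∀ j, φ (genEq n r z j) = 0) :
    (∀ i, (tupOf (fun s => φ (X s)) i).1.det = 1 ∧ (tupOf (fun s => φ (X s)) i).2.det = 1) ∧
      kJ (tupOf (fun s => φ (X s))) = 1 := by
  have h1 : ∀ i, (tupOf (fun s => φ (X s)) i).1.det = 1 ∧
      (tupOf (fun s => φ (X s)) i).2.det = 1 := by
    intro i
    constructor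
    · have h2 := h (Sum.inl (i, false))
      simp only [genEq, Sum.elim_inl, Bool.false_eq_true, ↓reduceIte, map_sub, map_one,
        sub_eq_zero] at h2
      rw [← h2, RingHom.map_det]
      rfl
    · have h2 := h (Sum.inl (i, true))
      simp only [genEq, Sum.elim_inl, ↓reduceIte, map_sub, map_one, sub_eq_zero] at h2
      rw [← h2, RingHom.map_det]
      rfl
  refine ⟨h1, ?_⟩
  apply one_entry (z := z) _ _ (det_kJ _ h1)
  intro a b hab
  have h2 := h (Sum.inr ⟨(a, b), hab⟩)
  simp only [genEq, Sum.elim_inr, Matrix.sub_apply, map_sub, sub_eq_zero] at h2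
  have h3 := congrFun (congrFun (kJ_map φ (tupOf X)) a) b
  rw [mapT_tupOf] at h3
  rw [← h3]
  refine Eq.trans h2 ?_
  by_cases hab' : a = b
  · subst hab'; simp
  · simp [hab']

theorem genEq_zero {n r : ℕ} {z : Fin r} (c : Ix n r → ℂ)
    (h1 : ∀ i, (tupOf c i).1.det = 1 ∧ (tupOf c i).2.det = 1) (h2 : kJ (tupOf c) = 1) (j) :
    aeval c (genEq n r z j) = 0 := by
  have e : tupOf (fun s => (aeval c : MvPolynomial (Ix n r) ℂ →ₐ[ℂ] ℂ).toRingHom (X s)) =
      tupOf c := by
    congr 1
    funext s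
    exact aeval_X c s
  rcases j with ⟨i, β⟩ | p
  · cases β
    · simp only [genEq, Sum.elim_inl, Bool.false_eq_true, ↓reduceIte, map_sub, map_one,
        sub_eq_zero]
      rw [← (h1 i).1, ← e]
      exact RingHom.map_det (aeval c : MvPolynomial (Ix n r) ℂ →ₐ[ℂ] ℂ).toRingHom _
    · simp only [genEq, Sum.elim_inl, ↓reduceIte, map_sub, map_one, sub_eq_zero]
      rw [← (h1 i).2, ← e]
      exact RingHom.map_det (aeval c : MvPolynomial (Ix n r) ℂ →ₐ[ℂ] ℂ).toRingHom _
  · obtain ⟨⟨a, b⟩, hab⟩ := p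
    simp only [genEq, Sum.elim_inr, Matrix.sub_apply, map_sub, sub_eq_zero]
    have h3 := congrFun (congrFun (kJ_map (aeval c : MvPolynomial (Ix n r) ℂ →ₐ[ℂ] ℂ).toRingHom
      (tupOf X)) a) b
    rw [mapT_tupOf, e, h2] at h3
    refine Eq.trans h3 ?_
    by_cases hab' : a = b
    · subst hab'; simp
    · simp [hab']

theorem gp_gen {N r : ℕ} (p : Ideal (MvPolynomial (Ix N r) ℂ)) [p.IsPrime]
    (L : IntermediateField ℂ (FractionRing (MvPolynomial (Ix N r) ℂ ⧸ p)))
    (h : ∀ s, psi p (X s) ∈ L) : L = ⊤ := by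
  have h1 : ∀ a, psi p a ∈ L := by
    intro a
    induction a using MvPolynomial.induction_on with
    | C c =>
      have : psi p (C c) = algebraMap ℂ _ c := (psi p).commutes c
      rw [this]
      exact L.algebraMap_mem c
    | add f g hf hg => rw [map_add]; exact L.add_mem hf hg
    | mul_X f s hf => rw [map_mul]; exact L.mul_mem hf (h s)
  rw [eq_top_iff]
  intro y _
  obtain ⟨a, b, _, rfl⟩ := IsFractionRing.div_surjective (A := MvPolynomial (Ix N r) ℂ ⧸ p) y
  obtain ⟨a, rfl⟩ := Ideal.Quotient.mk_surjective a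
  obtain ⟨b, rfl⟩ := Ideal.Quotient.mk_surjective b
  exact L.div_mem (h1 a) (h1 b)

theorem generic_commutant {g r : ℕ} (f : Tup (g + 2) r → ℂ) (hf : f ∈ PolyFun (Tup (g + 2) r))
    (hv : ∀ x : Tup (g + 2) r, (∀ i, (x i).1.det = 1 ∧ (x i).2.det = 1) → Kp x = 1 →
      (∀ M : Mat r, (∀ i : Fin (g + 1), Commute M (x i.castSucc).1 ∧ Commute M (x i.castSucc).2) →
        ∃ c : ℂ, M = c • (1 : Mat r)) → f x = 0)
    (x : Tup (g + 2) r) (hx : ∀ i, (x i).1.det = 1 ∧ (x i).2.det = 1) (hk : Kp x = 1) :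
    f x = 0 := by
  classical
  rcases Nat.eq_zero_or_pos r with hr | hr
  · subst hr
    exact hv x hx hk (fun M _ => ⟨0, Subsingleton.elim _ _⟩)
  · let z : Fin r := ⟨0, hr⟩
    obtain ⟨P, hP⟩ := poly_repr f hf
    by_contra hfx
    let ι := (Fin (g + 2) × Bool) ⊕ {p : Fin r × Fin r // p ≠ (z, z)}
    let S' : Fin (Fintype.card ι) → MvPolynomial (Ix (g + 2) r) ℂ :=
      fun j => genEq (g + 2) r z ((Fintype.equivFin ι).symm j)
    let I := Ideal.span (Set.range S')
    let c0 : Ix (g + 2) r → ℂ := fun s => if s.2.1 then (x s.1).2 s.2.2.1 s.2.2.2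
      else (x s.1).1 s.2.2.1 s.2.2.2
    have hc0 : tupOf c0 = x := by
      funext i
      refine Prod.ext ?_ ?_
      · ext a b; simp [tupOf, c0]
      · ext a b; simp [tupOf, c0]
    have hkJ : kJ (tupOf c0) = 1 := by
      rw [hc0, ← kpA_kJ x hx, ← Kp_eq, hk]
    have hPI : P ∉ I.radical := by
      rintro ⟨n, hn⟩
      have h1 : I ≤ RingHom.ker (aeval c0 : MvPolynomial (Ix (g + 2) r) ℂ →ₐ[ℂ] ℂ) := by
        rw [Ideal.span_le]
        rintro _ ⟨j, rfl⟩
        exact genEq_zero c0 (by rw [hc0]; exact hx) hkJ _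
      have h2 : aeval c0 (P ^ n) = 0 := h1 hn
      rw [map_pow] at h2
      have h3 := eq_zero_of_pow_eq_zero h2
      exact hfx (by rw [← hc0, hP]; exact h3)
    have hPI2 : ∃ p : Ideal (MvPolynomial (Ix (g + 2) r) ℂ), p ∈ I.minimalPrimes ∧ P ∉ p := by
      by_contra hno
      push Not at hno
      apply hPI
      rw [← Ideal.sInf_minimalPrimes, Ideal.mem_sInf]
      intro q hq
      exact hno q hq
    obtain ⟨p, hp, hPp⟩ := hPI2
    have hprime : p.IsPrime := hp.1.1
    have hIp : I ≤ p := hp.1.2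
    obtain ⟨d, b, hb, hcard⟩ := P002.exists_basis_rank S' p hp
    let K := FractionRing (MvPolynomial (Ix (g + 2) r) ℂ ⧸ p)
    let XK : Fin (g + 2) → MF r K × MF r K := tupOf (fun s => psi p (X s))
    have hgen0 : ∀ j, genEq (g + 2) r z j ∈ p := by
      intro j
      apply hIp
      apply Ideal.subset_span
      exact ⟨Fintype.equivFin ι j, by simp [S']⟩
    obtain ⟨hdet, hkK⟩ := genEq_sat (z := z) (psi p : MvPolynomial (Ix (g + 2) r) ℂ →+* K)
      (fun j => (psi_eq_zero p _).mpr (hgen0 j))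
    have hkA : kpA XK = 1 := (kpA_kJ XK hdet).trans hkK
    rw [kpA_split] at hkA
    let X1 : Fin (g + 1) → MF r K × MF r K := fun i => XK i.castSucc
    let Y1 : Fin 1 → MF r K × MF r K := fun _ => XK (Fin.last (g + 1))
    have hXY : kpA X1 * kpA Y1 = 1 := hkA
    have hYX : kpA Y1 * kpA X1 = 1 := mul_eq_one_comm.mp hXY
    have hX1 : ∀ i, (X1 i).1.det = 1 ∧ (X1 i).2.det = 1 := fun i => hdet _
    have hY1 : ∀ i, (Y1 i).1.det = 1 ∧ (Y1 i).2.det = 1 := fun i => hdet _
    have hgenL : ∀ L : IntermediateField ℂ K, (∀ i a b, (X1 i).1 a b ∈ L ∧ (X1 i).2 a b ∈ L) →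
        (∀ i a b, (Y1 i).1 a b ∈ L ∧ (Y1 i).2 a b ∈ L) → L = ⊤ := by
      intro L h1 h2
      apply gp_gen p L
      rintro ⟨i, β, a, c⟩
      refine Fin.lastCases ?_ (fun j => ?_) i
      · cases β
        · exact (h2 0 a c).1
        · exact (h2 0 a c).2
      · cases β
        · exact (h1 j a c).1
        · exact (h1 j a c).2
    have hι : Fintype.card ι + 1 = 2 * (g + 2) + r * r := by
      have h1 : Fintype.card {p : Fin r × Fin r // p ≠ (z, z)} + 1 = r * r := by
        have h2 := Fintype.card_subtype_compl (fun p : Fin r × Fin r => p = (z, z))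
        rw [Fintype.card_subtype_eq, Fintype.card_prod, Fintype.card_fin] at h2
        have h3 : 0 < r * r := Nat.mul_pos hr hr
        have h4 : Fintype.card {p : Fin r × Fin r // p ≠ (z, z)} =
          Fintype.card {p : Fin r × Fin r // ¬ p = (z, z)} := rfl
        omega
      rw [Fintype.card_sum, Fintype.card_prod, Fintype.card_bool, Fintype.card_fin]
      omega
    have hσ : Fintype.card (Ix (g + 2) r) = 2 * (g + 2) * (r * r) := by
      simp only [Ix, Fintype.card_prod, Fintype.card_fin, Fintype.card_bool]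
      ring
    have hcount : 2 * (g + 2) * (r * r) + 1 ≤ d + 2 * (g + 2) + r * r := by
      rw [hσ] at hcard
      omega
    have hcomle : finrank K (comT X1) ≤ 1 := by
      by_contra hlt
      push Not at hlt
      have hlt' : 2 ≤ finrank K (comT X1) := hlt
      have e1 : finrank K (comT X1) + 1 ≤ finrank K (comT Y1) :=
        gh_half b hb X1 Y1 hX1 hY1 hXY hgenL
          (by rw [Fintype.card_fin]; exact hcount) (by omega) hlt'
      have e3 : 2 ≤ finrank K (comT Y1) := by omega
      have e2 : finrank K (comT Y1) + 1 ≤ finrank K (comT X1) :=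
        gh_half b hb Y1 X1 hY1 hX1 hYX (fun L h1 h2 => hgenL L h2 h1)
          (by rw [Fintype.card_fin, add_comm 1 (g + 1)]; exact hcount) le_rfl e3
      omega
    obtain ⟨h, hhp, hh⟩ := gp_spec z (fun i : Fin (g + 1) => i.castSucc) p hcomle
    have hPh : P * h ∉ p := fun hmem => (hprime.mem_or_mem hmem).elim hPp hhp
    rw [← MvPolynomial.IsPrime.vanishingIdeal_zeroLocus (K := ℂ) p,
      MvPolynomial.mem_vanishingIdeal_iff] at hPh
    push Not at hPh
    obtain ⟨c, hc, hPc⟩ := hPh
    rw [map_mul] at hPc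
    have hPc1 : aeval c P ≠ 0 := left_ne_zero_of_mul hPc
    have hPc2 : aeval c h ≠ 0 := right_ne_zero_of_mul hPc
    have hcp : ∀ q ∈ p, aeval c q = 0 := hc
    obtain ⟨hd1, hd2⟩ := genEq_sat (z := z)
      (aeval c : MvPolynomial (Ix (g + 2) r) ℂ →ₐ[ℂ] ℂ).toRingHom (fun j => hcp _ (hgen0 j))
    have e : tupOf (fun s => (aeval c : MvPolynomial (Ix (g + 2) r) ℂ →ₐ[ℂ] ℂ).toRingHom (X s)) =
        tupOf c := by
      congr 1
      funext s
      exact aeval_X c s
    rw [e] at hd1 hd2
    apply hPc1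
    rw [← hP]
    apply hv _ hd1
    · rw [Kp_eq, kpA_kJ _ hd1, hd2]
    · intro M hM
      exact hh c hcp hPc2 M hM

end Vale.Agent.P002
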