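import Vale.Agent.P002.Poly

namespace Vale.Agent.P002

open Matrix NumberField

noncomputable def cm {r : ℕ} (p : Mat r × Mat r) : Mat r := p.1 * p.2 * p.1⁻¹ * p.2⁻¹

abbrev Tup (g r : ℕ) := Fin g → Mat r × Mat r

noncomputable def Kp {g r : ℕ} (x : Tup g r) : Mat r := (List.ofFn fun i => cm (x i)).prod

def Inv {g r : ℕ} (x : Tup g r) : Prop := ∀ i, IsUnit (x i).1.det ∧ IsUnit (x i).2.det

def emb {L : Type*} [Field L] [NumberField L] {r : ℕ} (φ : L →+* ℂ)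
    (A : Matrix (Fin r) (Fin r) (𝓞 L)) : Mat r := A.map (φ.comp (algebraMap (𝓞 L) L))

def IsIntRep {L : Type*} [Field L] [NumberField L] {g r : ℕ}
    (σ : Fin g → SpecialLinearGroup (Fin r) (𝓞 L) × SpecialLinearGroup (Fin r) (𝓞 L)) : Prop :=
  (List.ofFn fun i => (σ i).1 * (σ i).2 * (σ i).1⁻¹ * (σ i).2⁻¹).prod = 1

def Cone {L : Type*} [Field L] [NumberField L] (φ : L →+* ℂ) (g r : ℕ) : Set (Tup g r) :=
  {x | ∃ σ : Fin g → SpecialLinearGroup (Fin r) (𝓞 L) × SpecialLinearGroup (Fin r) (𝓞 L),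
    IsIntRep σ ∧ ∃ κ μ : Fin g → ℂ, (∀ i, κ i ≠ 0) ∧ (∀ i, μ i ≠ 0) ∧
      ∀ i, x i = (κ i • emb φ (σ i).1.1, μ i • emb φ (σ i).2.1)}

def WW {L : Type*} [Field L] [NumberField L] (φ : L →+* ℂ) (g r : ℕ) : Set (Tup g r) :=
  {x | ∀ f ∈ PolyFun (Tup g r), (∀ c ∈ Cone φ g r, f c = 0) → f x = 0}

noncomputable def krylov {r : ℕ} (a : Mat r) (v : Fin r → ℂ) : Mat r :=
  Matrix.of fun i j => (a ^ (j : ℕ)).mulVec v i

noncomputable def sysMat {r : ℕ} (y a : Mat r) : Mat r :=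
  Matrix.of fun k j =>
    if (k : ℕ) = 0 then (a.adjugate.mulVec (fun _ => 1)) j
    else (((charmatrix (y * a)).adjugate.mulVec (fun i => Polynomial.C (y.mulVec (fun _ => 1) i)) j)
      - ((charmatrix a).adjugate.mulVec (fun _ => 1) j)).coeff k

def Good {r : ℕ} (p : Mat r × Mat r) : Prop :=
  (sysMat (cm p)⁻¹ p.1).det ≠ 0 ∧ (krylov p.1 (fun _ => 1)).det ≠ 0

end Vale.Agent.P002
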