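import Vale.Agent.P002.Mono
import Vale.Agent.P002.Defs

namespace Vale.Agent.P002

open Matrix Polynomial

section gb
variable {r : ℕ} [NeZero r]

theorem gb_cm (α : Fin r → ℂ) (hα : ∀ i, α i ≠ 0) :
    (cm ((mono 0 α : Mat r), mono 1 1))⁻¹ = diagonal fun i => α (i + 1) * (α i)⁻¹ := by
  have h1 : cm ((mono 0 α : Mat r), mono 1 1) = diagonal fun i => α i * (α (i + 1))⁻¹ := by
    unfold cm
    simp only
    rw [mono_inv 0 α hα, mono_inv 1 1 (fun _ => one_ne_zero), mono_mul, mono_mul, mono_mul,
      ← mono_zero]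
    have h2 : (0 + 1 + -0 + -1 : Fin r) = 0 := by abel
    rw [h2]
    congr 1
    funext i
    simp
  rw [h1]
  apply Matrix.inv_eq_right_inv
  rw [diagonal_mul_diagonal, ← diagonal_one]
  congr 1
  funext i
  field_simp [hα i, hα (i + 1)]

/-- the products of the linear factors over all indices but one -/
noncomputable def gbq (α : Fin r → ℂ) (j : Fin r) : ℂ[X] :=
  ∏ i ∈ Finset.univ.erase j, (X - C (α i))

theorem gb_charmatrix (d : Fin r → ℂ) :
    charmatrix (diagonal d) = diagonal fun i => X - C (d i) := by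
  ext i j
  by_cases h : i = j
  · subst h
    simp [charmatrix_apply]
  · simp [charmatrix_apply, h]

theorem gb_adj (d : Fin r → ℂ) :
    (charmatrix (diagonal d)).adjugate = diagonal (gbq d) := by
  rw [gb_charmatrix, adjugate_diagonal]
  rfl

theorem gbq_shift (α : Fin r → ℂ) (j : Fin r) : gbq (fun i => α (i + 1)) j = gbq α (j + 1) := by
  unfold gbq
  refine Finset.prod_bij (fun i _ => i + 1) ?_ ?_ ?_ ?_
  · intro i hi
    rw [Finset.mem_erase] at hi ⊢
    exact ⟨fun h => hi.1 (add_right_cancel h), Finset.mem_univ _⟩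
  · intro i _ i' _ h
    exact add_right_cancel h
  · intro i hi
    rw [Finset.mem_erase] at hi
    refine ⟨i - 1, ?_, sub_add_cancel i 1⟩
    rw [Finset.mem_erase]
    exact ⟨fun h => hi.1 (by rw [← h, sub_add_cancel]), Finset.mem_univ _⟩
  · intro i _
    rfl

theorem gbq_eval_ne (α : Fin r → ℂ) {i j : Fin r} (h : i ≠ j) : (gbq α j).eval (α i) = 0 := by
  unfold gbq
  rw [eval_prod]
  refine Finset.prod_eq_zero (Finset.mem_erase.mpr ⟨h, Finset.mem_univ i⟩) ?_
  simp

theorem gbq_eval_self (α : Fin r → ℂ) (hinj : Function.Injective α) (j : Fin r) :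
    (gbq α j).eval (α j) ≠ 0 := by
  unfold gbq
  rw [eval_prod]
  refine Finset.prod_ne_zero_iff.mpr fun i hi => ?_
  rw [Finset.mem_erase] at hi
  simp only [eval_sub, eval_X, eval_C]
  exact sub_ne_zero.mpr fun h => hi.1 (hinj h).symm

theorem gbq_eval_zero (α : Fin r → ℂ) (j : Fin r) :
    (gbq α j).eval 0 * (-α j) = ∏ i, (-α i) := by
  unfold gbq
  rw [eval_prod, ← Finset.prod_erase_mul Finset.univ _ (Finset.mem_univ j)]
  congr 1
  refine Finset.prod_congr rfl fun i _ => ?_
  simp

theorem gbq_degree (α : Fin r → ℂ) (j : Fin r) : (gbq α j).natDegree < r := by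
  unfold gbq
  rw [natDegree_finset_prod_X_sub_C_eq_card, Finset.card_erase_of_mem (Finset.mem_univ j)]
  have := NeZero.pos r
  simp
  omega

theorem gb_sys (α : Fin r → ℂ) (hα : ∀ i, α i ≠ 0) (k j : Fin r) :
    sysMat (cm ((mono 0 α : Mat r), mono 1 1))⁻¹ (mono 0 α) k j =
      if (k : ℕ) = 0 then ∏ i ∈ Finset.univ.erase j, α i
      else (gbq α (j + 1) * C (α (j + 1) * (α j)⁻¹) - gbq α j).coeff k := by
  rw [gb_cm α hα, mono_zero, sysMat, Matrix.of_apply, adjugate_diagonal, diagonal_mul_diagonal,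
    gb_adj, gb_adj]
  have h1 : (fun i => α (i + 1) * (α i)⁻¹ * α i) = fun i => α (i + 1) := by
    funext i
    rw [mul_assoc, inv_mul_cancel₀ (hα i), mul_one]
  rw [h1]
  simp only [mulVec_diagonal, mul_one, gbq_shift]

end gb

theorem good_base {r : ℕ} [NeZero r] (α : Fin r → ℂ) (hα : ∀ i, α i ≠ 0)
    (hinj : Function.Injective α) : Good (mono 0 α, mono 1 1) := by
  refine ⟨fun hdet => ?_, ?_⟩
  · obtain ⟨v, hv0, hv⟩ := Matrix.exists_mulVec_eq_zero_iff.mpr hdet
    apply hv0
    have hrow : ∀ k : Fin r, ∑ j, sysMat (cm ((mono 0 α : Mat r), mono 1 1))⁻¹ (mono 0 α) k j * v j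
        = 0 := fun k => congrFun hv k
    simp only [gb_sys α hα] at hrow
    -- the polynomial
    set y : Fin r → ℂ := fun j => α (j + 1) * (α j)⁻¹ with hy
    set p : ℂ[X] := ∑ j, (gbq α (j + 1) * C (y j) - gbq α j) * C (v j) with hp
    have hpk : ∀ k : ℕ, 0 < k → p.coeff k = 0 := by
      intro k hk
      rw [hp, finset_sum_coeff]
      by_cases hkr : k < r
      · have := hrow ⟨k, hkr⟩
        simp only [hk.ne', if_false] at this
        rw [← this]
        refine Finset.sum_congr rfl fun j _ => ?_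
        rw [coeff_mul_C]
      · refine Finset.sum_eq_zero fun j _ => ?_
        rw [coeff_mul_C, coeff_sub, coeff_mul_C,
          coeff_eq_zero_of_natDegree_lt (lt_of_lt_of_le (gbq_degree α (j + 1)) (not_lt.mp hkr)),
          coeff_eq_zero_of_natDegree_lt (lt_of_lt_of_le (gbq_degree α j) (not_lt.mp hkr))]
        simp
    have hpc : p = C (p.coeff 0) := by
      ext k
      rcases Nat.eq_zero_or_pos k with h | h
      · rw [h, coeff_C_zero]
      · rw [hpk k h, coeff_C_ne_zero h.ne']
    set d : Fin r → ℂ := fun j => v (j - 1) * y (j - 1) - v j with hd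
    have hpd : p = ∑ j, gbq α j * C (d j) := by
      have h1 : ∑ j, gbq α (j + 1) * C (y j) * C (v j) = ∑ j, gbq α j * C (y (j - 1)) * C (v (j - 1)) := by
        refine Fintype.sum_equiv (Equiv.addRight 1) _ _ fun j => ?_
        simp
      rw [hp]
      simp only [sub_mul, Finset.sum_sub_distrib]
      rw [h1, ← Finset.sum_sub_distrib]
      refine Finset.sum_congr rfl fun j _ => ?_
      rw [hd]
      simp only [C_sub, C_mul]
      ring
    have hev : ∀ j, d j * (gbq α j).eval (α j) = p.coeff 0 := by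
      intro j
      have h1 : p.eval (α j) = p.coeff 0 := by
        conv_lhs => rw [hpc]
        rw [eval_C]
      rw [← h1, hpd, eval_finset_sum, Finset.sum_eq_single j]
      · rw [eval_mul, eval_C, mul_comm]
      · intro b _ hb
        rw [eval_mul, gbq_eval_ne α (Ne.symm hb), zero_mul]
      · simp
    have hsum : ∑ j, d j * (α j)⁻¹ = 0 := by
      have h1 : ∑ j : Fin r, v (j - 1) * (α (j - 1))⁻¹ = ∑ j, v j * (α j)⁻¹ :=
        Fintype.sum_equiv (Equiv.subRight 1) _ _ fun j => rfl
      have h2 : ∀ j, d j * (α j)⁻¹ = v (j - 1) * (α (j - 1))⁻¹ - v j * (α j)⁻¹ := by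
        intro j
        simp only [hd, hy, sub_add_cancel]
        field_simp [hα j, hα (j - 1)]
      simp only [h2, Finset.sum_sub_distrib]
      rw [h1, sub_self]
    have h0 : p.coeff 0 = 0 := by
      have h1 : p.eval 0 = p.coeff 0 := by
        conv_lhs => rw [hpc]
        rw [eval_C]
      rw [← h1, hpd, eval_finset_sum]
      have h2 : ∀ j, (gbq α j * C (d j)).eval 0 = -(∏ i, (-α i)) * (d j * (α j)⁻¹) := by
        intro j
        rw [eval_mul, eval_C, ← gbq_eval_zero α j]
        field_simp [hα j]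
      simp only [h2, ← Finset.mul_sum]
      rw [hsum, mul_zero]
    have hd0 : ∀ j, d j = 0 := by
      intro j
      have := hev j
      rw [h0] at this
      exact (mul_eq_zero.mp this).resolve_right (gbq_eval_self α hinj j)
    have hu : ∀ j, v j * (α j)⁻¹ = v (j - 1) * (α (j - 1))⁻¹ := by
      intro j
      have h1 := hd0 j
      simp only [hd, hy, sub_add_cancel] at h1
      rw [sub_eq_zero] at h1
      rw [← h1]
      field_simp [hα j, hα (j - 1)]
    have hconst : ∀ n : ℕ, v (n • (1 : Fin r)) * (α (n • (1 : Fin r)))⁻¹ = v 0 * (α 0)⁻¹ := by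
      intro n
      induction n with
      | zero => rw [zero_nsmul]
      | succ n ih => rw [hu, succ_nsmul, add_sub_cancel_right]; exact ih
    have hvj : ∀ j, v j = v 0 * (α 0)⁻¹ * α j := by
      intro j
      have h1 := hconst j.val
      rw [nsmul_val] at h1
      rw [← h1, mul_assoc, inv_mul_cancel₀ (hα j), mul_one]
    have hz := hrow 0
    have h00 : ((0 : Fin r) : ℕ) = 0 := by simp
    simp only [h00, if_true] at hz
    have hz2 : (r : ℂ) * (v 0 * (α 0)⁻¹ * ∏ i, α i) = 0 := by
      rw [← hz]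
      have h1 : ∀ j, (∏ i ∈ Finset.univ.erase j, α i) * v j = v 0 * (α 0)⁻¹ * ∏ i, α i := by
        intro j
        rw [hvj j, ← Finset.prod_erase_mul Finset.univ _ (Finset.mem_univ j)]
        ring
      simp only [h1]
      rw [Finset.sum_const, Finset.card_univ, Fintype.card_fin, nsmul_eq_mul]
    have hr0 : (r : ℂ) ≠ 0 := by exact_mod_cast NeZero.ne r
    have hprod : ∏ i, α i ≠ 0 := Finset.prod_ne_zero_iff.mpr fun i _ => hα i
    have hu0 : v 0 * (α 0)⁻¹ = 0 :=
      (mul_eq_zero.mp ((mul_eq_zero.mp hz2).resolve_left hr0)).resolve_right hprod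
    funext j
    rw [hvj j, hu0, zero_mul]
    rfl
  · have h1 : krylov (mono 0 α : Mat r) (fun _ => 1) = vandermonde α := by
      ext i j
      rw [krylov, Matrix.of_apply, mono_zero_pow, mono_zero, mulVec_diagonal, mul_one,
        vandermonde_apply]
    simp only
    rw [h1]
    exact det_vandermonde_ne_zero_iff.mpr hinj

end Vale.Agent.P002
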