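import Vale.Agent.P002.ParamConn

namespace Vale.Agent.P002

open Matrix Topology Filter

noncomputable def gpath {r : ℕ} (p p1 : Mat r × Mat r) (t : ℂ) : Mat r × Mat r :=
  ((1 - t) • p.1 + t • p1.1, (1 - t) • p.2 + t • p1.2)

theorem good_dense {r : ℕ} (p p1 : Mat r × Mat r) (hp : IsUnit p.1.det ∧ IsUnit p.2.det)
    (hp1 : IsUnit p1.1.det ∧ IsUnit p1.2.det) (hg : Good p1) : ∃ᶠ q in 𝓝 p, Good q := by
  have q0 : gpath p p1 0 = p := by simp [gpath]
  have q1 : gpath p p1 1 = p1 := by simp [gpath]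
  have key : ∀ (𝓑 : Subalgebra ℂ (ℂ → ℂ)) (P : (ℂ → ℂ) → Prop),
      (∀ h ∈ 𝓑, P h → (fun s => (h s)⁻¹) ∈ 𝓑) → ((fun s : ℂ => s) ∈ 𝓑) →
      P (fun t => (gpath p p1 t).1.det) → P (fun t => (gpath p p1 t).2.det) →
      P (fun t => (cm (gpath p p1 t)).det) →
      (fun t => (sysMat (cm (gpath p p1 t))⁻¹ (gpath p p1 t).1).det *
        (krylov (gpath p p1 t).1 (fun _ => 1)).det) ∈ 𝓑 := by
    intro 𝓑 P hP hid h1 h2 h3
    have hid' : (fun s : ℂ => 1 - s) ∈ 𝓑 := mem_sub (mem_const 1) hid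
    have e1 : Ent 𝓑 (fun s => (gpath p p1 s).1) :=
      (Ent.smul hid' (Ent.const _)).add (Ent.smul hid (Ent.const _))
    have e2 : Ent 𝓑 (fun s => (gpath p p1 s).2) :=
      (Ent.smul hid' (Ent.const _)).add (Ent.smul hid (Ent.const _))
    have e3 := ent_cm hP e1 e2 h1 h2
    exact mem_mul (Ent.sysMat (e3.inv hP h3) e1).det (Ent.krylov e1 (VEnt.const _)).det
  set F : ℂ → ℂ := fun t => (sysMat (cm (gpath p p1 t))⁻¹ (gpath p p1 t).1).det *
        (krylov (gpath p p1 t).1 (fun _ => 1)).det with hF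
  have hm : ∀ s, MeromorphicAt F s := key merSub (fun _ => True)
    (fun h hh _ s => (hh s).inv) (fun s => MeromorphicAt.id s) trivial trivial trivial
  have hc : ContinuousAt F 1 := by
    refine key (contSub 1) (fun h => h 1 ≠ 0) (fun h hh h1 => ContinuousAt.inv₀ hh h1)
      continuousAt_id ?_ ?_ ?_
    · beta_reduce; rw [q1]; exact hp1.1.ne_zero
    · beta_reduce; rw [q1]; exact hp1.2.ne_zero
    · beta_reduce; rw [q1, cm_eq, det_cmA _ hp1.1 hp1.2]; exact one_ne_zero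
  have hF1 : F 1 ≠ 0 := by
    rw [hF]; beta_reduce; rw [q1]
    exact mul_ne_zero hg.1 hg.2
  have o1 : meromorphicOrderAt F 1 ≠ ⊤ := by
    intro h
    rw [meromorphicOrderAt_eq_top_iff] at h
    have t1 : Tendsto F (𝓝[≠] 1) (𝓝 (F 1)) := hc.tendsto.mono_left nhdsWithin_le_nhds
    have t2 : Tendsto F (𝓝[≠] 1) (𝓝 0) :=
      tendsto_const_nhds.congr' (by filter_upwards [h] with s hs; exact hs.symm)
    exact hF1 (tendsto_nhds_unique t1 t2)
  have hmo : MeromorphicOn F Set.univ := fun s _ => hm s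
  have o0 : meromorphicOrderAt F 0 ≠ ⊤ :=
    hmo.meromorphicOrderAt_ne_top_of_isPreconnected isPreconnected_univ
      (Set.mem_univ 1) (Set.mem_univ 0) o1
  have hfr : ∃ᶠ t in 𝓝[≠] (0 : ℂ), F t ≠ 0 := by
    intro h
    apply o0
    rw [meromorphicOrderAt_eq_top_iff]
    filter_upwards [h] with t ht
    exact not_not.mp ht
  have hcp : ContinuousAt (gpath p p1) 0 := by
    unfold gpath
    fun_prop
  have ht : Tendsto (gpath p p1) (𝓝[≠] 0) (𝓝 p) := by
    have := hcp.tendsto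
    rw [q0] at this
    exact this.mono_left nhdsWithin_le_nhds
  refine ht.frequently (hfr.mono fun t ht => ?_)
  exact ⟨left_ne_zero_of_mul ht, right_ne_zero_of_mul ht⟩

end Vale.Agent.P002
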