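import Vale.Agent.P002.Defs

namespace Vale.Agent.P002

open Topology

section defs

variable {𝔸 : Type*} [Ring 𝔸]

noncomputable def cmA (p : 𝔸 × 𝔸) : 𝔸 := p.1 * p.2 * Ring.inverse p.1 * Ring.inverse p.2

noncomputable def dcmA (p q : 𝔸 × 𝔸) : 𝔸 :=
  q.1 * p.2 * Ring.inverse p.1 * Ring.inverse p.2 +
    p.1 * q.2 * Ring.inverse p.1 * Ring.inverse p.2
    - p.1 * p.2 * (Ring.inverse p.1 * q.1 * Ring.inverse p.1) * Ring.inverse p.2
    - p.1 * p.2 * Ring.inverse p.1 * (Ring.inverse p.2 * q.2 * Ring.inverse p.2)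

noncomputable def kpA {g : ℕ} (x : Fin g → 𝔸 × 𝔸) : 𝔸 := (List.ofFn fun i => cmA (x i)).prod

theorem kpA_succ {g : ℕ} (x : Fin (g + 1) → 𝔸 × 𝔸) :
    kpA x = cmA (x 0) * kpA (fun i : Fin g => x i.succ) := by
  unfold kpA
  rw [List.ofFn_succ, List.prod_cons]

noncomputable def dkA : (g : ℕ) → (Fin g → 𝔸 × 𝔸) → (Fin g → 𝔸 × 𝔸) → 𝔸
  | 0, _, _ => 0
  | g + 1, x, v => cmA (x 0) * dkA g (fun i => x i.succ) (fun i => v i.succ) +
      dcmA (x 0) (v 0) * kpA (fun i : Fin g => x i.succ)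

end defs

section abstract

set_option linter.unusedSectionVars false

variable {𝔸 : Type*} [NormedRing 𝔸] [NormedAlgebra ℂ 𝔸] [CompleteSpace 𝔸]

theorem os_inv (a : 𝔸) (ha : IsUnit a) :
    ∃ L : 𝔸 →L[ℂ] 𝔸, HasStrictFDerivAt (Ring.inverse : 𝔸 → 𝔸) L a ∧
      ∀ m, L m = -(Ring.inverse a * m * Ring.inverse a) := by
  obtain ⟨u, rfl⟩ := ha
  have h := hasStrictFDerivAt_ringInverse (𝕜 := ℂ) u
  refine ⟨_, h, ?_⟩
  intro m
  simp

theorem os_mul {E : Type*} [NormedAddCommGroup E] [NormedSpace ℂ E] {f g : E → 𝔸} {x : E}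
    {L M : E →L[ℂ] 𝔸} (hf : HasStrictFDerivAt f L x) (hg : HasStrictFDerivAt g M x) :
    ∃ N : E →L[ℂ] 𝔸, HasStrictFDerivAt (fun y => f y * g y) N x ∧
      ∀ v, N v = f x * M v + L v * g x := by
  have h := hf.mul' hg
  refine ⟨_, h, ?_⟩
  intro v
  simp

theorem os_cm (p : 𝔸 × 𝔸) (h1 : IsUnit p.1) (h2 : IsUnit p.2) :
    ∃ L : (𝔸 × 𝔸) →L[ℂ] 𝔸, HasStrictFDerivAt (cmA : 𝔸 × 𝔸 → 𝔸) L p ∧
      ∀ q, L q = dcmA p q := by
  have f1 : HasStrictFDerivAt (fun q : 𝔸 × 𝔸 => q.1)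
      (ContinuousLinearMap.fst ℂ 𝔸 𝔸) p := hasStrictFDerivAt_fst
  have f2 : HasStrictFDerivAt (fun q : 𝔸 × 𝔸 => q.2)
      (ContinuousLinearMap.snd ℂ 𝔸 𝔸) p := hasStrictFDerivAt_snd
  obtain ⟨L1, i1, j1⟩ := os_inv p.1 h1
  obtain ⟨L2, i2, j2⟩ := os_inv p.2 h2
  have g1 := i1.comp p f1
  have g2 := i2.comp p f2
  obtain ⟨M1, k1, l1⟩ := os_mul f1 f2
  obtain ⟨M2, k2, l2⟩ := os_mul k1 g1
  obtain ⟨M3, k3, l3⟩ := os_mul k2 g2
  refine ⟨M3, k3, ?_⟩
  intro q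
  rw [l3, l2, l1]
  simp only [ContinuousLinearMap.comp_apply, j1, j2, ContinuousLinearMap.coe_fst',
    ContinuousLinearMap.coe_snd', dcmA]
  noncomm_ring

theorem os_kp {g : ℕ} (x : Fin g → 𝔸 × 𝔸) (hx : ∀ i, IsUnit (x i).1 ∧ IsUnit (x i).2) :
    ∃ L : (Fin g → 𝔸 × 𝔸) →L[ℂ] 𝔸, HasStrictFDerivAt (kpA : (Fin g → 𝔸 × 𝔸) → 𝔸) L x ∧
      ∀ v, L v = dkA g x v := by
  induction g with
  | zero =>
    refine ⟨0, ?_, fun v => rfl⟩
    have : (kpA : (Fin 0 → 𝔸 × 𝔸) → 𝔸) = fun _ => 1 := by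
      funext y; simp [kpA]
    rw [this]
    exact hasStrictFDerivAt_const _ _
  | succ g ih =>
    obtain ⟨L1, h1, e1⟩ := ih (fun i => x i.succ) (fun i => hx i.succ)
    obtain ⟨L2, h2, e2⟩ := os_cm (x 0) (hx 0).1 (hx 0).2
    let pt : (Fin (g + 1) → 𝔸 × 𝔸) →L[ℂ] (Fin g → 𝔸 × 𝔸) :=
      ContinuousLinearMap.pi fun i => ContinuousLinearMap.proj i.succ
    let p0 : (Fin (g + 1) → 𝔸 × 𝔸) →L[ℂ] (𝔸 × 𝔸) := ContinuousLinearMap.proj 0
    have hpt : HasStrictFDerivAt (fun y : Fin (g + 1) → 𝔸 × 𝔸 => fun i : Fin g => y i.succ)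
        pt x := pt.hasStrictFDerivAt
    have hp0 : HasStrictFDerivAt (fun y : Fin (g + 1) → 𝔸 × 𝔸 => y 0) p0 x :=
      p0.hasStrictFDerivAt
    have c1 := h1.comp x hpt
    have c2 := h2.comp x hp0
    obtain ⟨N, hN, eN⟩ := os_mul c2 c1
    refine ⟨N, ?_, ?_⟩
    · have : (kpA : (Fin (g + 1) → 𝔸 × 𝔸) → 𝔸) =
          fun y => cmA (y 0) * kpA (fun i : Fin g => y i.succ) := by
        funext y; exact kpA_succ y
      rw [this]
      exact hN
    · intro v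
      rw [eN]
      simp only [ContinuousLinearMap.comp_apply, e1, e2, dkA]
      rfl

theorem os_open {g : ℕ} (x : Fin g → 𝔸 × 𝔸) (hx : ∀ i, IsUnit (x i).1 ∧ IsUnit (x i).2)
    (hs : ∀ f : 𝔸 →ₗ[ℂ] ℂ, f (kpA x) = 0 → (∀ v, f (dkA g x v) = 0) → f = 0)
    (V : Set (Fin g → 𝔸 × 𝔸)) (hV : V ∈ 𝓝 x) (W : Set ℂ) (hW : W ∈ 𝓝 (1 : ℂ)) :
    {m : 𝔸 | ∃ y ∈ V, ∃ c ∈ W, c • kpA y = m} ∈ 𝓝 (kpA x) := by
  obtain ⟨L, hL, eL⟩ := os_kp x hx
  have f1 : HasStrictFDerivAt (fun q : (Fin g → 𝔸 × 𝔸) × ℂ => kpA q.1)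
      (L.comp (ContinuousLinearMap.fst ℂ (Fin g → 𝔸 × 𝔸) ℂ)) (x, 1) :=
    HasStrictFDerivAt.comp (x, (1 : ℂ)) (f := Prod.fst) (by exact hL) hasStrictFDerivAt_fst
  have f2 : HasStrictFDerivAt (fun q : (Fin g → 𝔸 × 𝔸) × ℂ => q.2)
      (ContinuousLinearMap.snd ℂ (Fin g → 𝔸 × 𝔸) ℂ) (x, 1) := hasStrictFDerivAt_snd
  have f3 := f2.smul f1
  have hsurj : (((1 : ℂ) • (L.comp (ContinuousLinearMap.fst ℂ (Fin g → 𝔸 × 𝔸) ℂ)) +
      (ContinuousLinearMap.snd ℂ (Fin g → 𝔸 × 𝔸) ℂ).smulRight (kpA x))).range = ⊤ := by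
    by_contra hne
    obtain ⟨f, hf0, hf⟩ := Submodule.exists_le_ker_of_lt_top _ (lt_top_iff_ne_top.mpr hne)
    apply hf0
    apply hs f
    · have h0 : (kpA x) ∈ ((1 : ℂ) • (L.comp (ContinuousLinearMap.fst ℂ (Fin g → 𝔸 × 𝔸) ℂ)) +
        (ContinuousLinearMap.snd ℂ (Fin g → 𝔸 × 𝔸) ℂ).smulRight (kpA x)).range := by
        refine ⟨(0, 1), ?_⟩
        show (1 : ℂ) • L 0 + (1 : ℂ) • kpA x = kpA x
        simp
      exact hf h0
    · intro v
      have h0 : (dkA g x v) ∈ ((1 : ℂ) • (L.comp (ContinuousLinearMap.fst ℂ (Fin g → 𝔸 × 𝔸) ℂ)) +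
        (ContinuousLinearMap.snd ℂ (Fin g → 𝔸 × 𝔸) ℂ).smulRight (kpA x)).range := by
        refine ⟨(v, 0), ?_⟩
        show (1 : ℂ) • L v + (0 : ℂ) • kpA x = dkA g x v
        rw [eL]
        simp
      exact hf h0
  have hmap := HasStrictFDerivAt.map_nhds_eq_of_surj f3 hsurj
  have hprod : V ×ˢ W ∈ 𝓝 (x, (1 : ℂ)) := prod_mem_nhds hV hW
  have him := Filter.image_mem_map (m := fun q : (Fin g → 𝔸 × 𝔸) × ℂ => q.2 • kpA q.1) hprod
  have h4 : Filter.map (fun q : (Fin g → 𝔸 × 𝔸) × ℂ => q.2 • kpA q.1) (𝓝 (x, (1 : ℂ))) =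
      𝓝 (kpA x) := by
    have e : (1 : ℂ) • kpA x = kpA x := one_smul _ _
    rw [← e]
    exact hmap
  rw [h4] at him
  refine Filter.mem_of_superset him ?_
  rintro m ⟨⟨y, c⟩, ⟨hy, hc⟩, rfl⟩
  exact ⟨y, hy, c, hc, rfl⟩

theorem isUnit_cmA {R : Type*} [Ring R] {p : R × R} (h1 : IsUnit p.1) (h2 : IsUnit p.2) :
    IsUnit (cmA p) := by
  unfold cmA
  exact ((h1.mul h2).mul h1.ringInverse).mul h2.ringInverse

theorem os_abs {g : ℕ} (x : Fin g → 𝔸 × 𝔸) (p0 : 𝔸 × 𝔸)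
    (hx : ∀ i, IsUnit (x i).1 ∧ IsUnit (x i).2) (h1 : IsUnit p0.1) (h2 : IsUnit p0.2)
    (hs : ∀ f : 𝔸 →ₗ[ℂ] ℂ, f (kpA x) = 0 → (∀ v, f (dkA g x v) = 0) → f = 0)
    (hk : kpA x * cmA p0 = 1)
    (V : Set (Fin g → 𝔸 × 𝔸)) (hV : V ∈ 𝓝 x) (W : Set ℂ) (hW : W ∈ 𝓝 (1 : ℂ)) :
    ∀ᶠ p in 𝓝 p0, ∃ y ∈ V, ∃ c ∈ W, c • (kpA y * cmA p) = 1 := by
  have hop := os_open x hx hs V hV W hW
  have hu0 := isUnit_cmA h1 h2
  obtain ⟨L, hL, -⟩ := os_cm p0 h1 h2
  have hc1 : ContinuousAt (cmA : 𝔸 × 𝔸 → 𝔸) p0 := hL.continuousAt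
  obtain ⟨L2, hL2, -⟩ := os_inv (cmA p0) hu0
  have hc2 : ContinuousAt (Ring.inverse : 𝔸 → 𝔸) (cmA p0) := hL2.continuousAt
  have hc3 : ContinuousAt (fun p : 𝔸 × 𝔸 => Ring.inverse (cmA p)) p0 :=
    ContinuousAt.comp (f := cmA) (g := Ring.inverse) hc2 hc1
  have hval : Ring.inverse (cmA p0) = kpA x := by
    have := Ring.mul_inverse_cancel (cmA p0) hu0
    calc Ring.inverse (cmA p0) = (kpA x * cmA p0) * Ring.inverse (cmA p0) := by rw [hk, one_mul]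
      _ = kpA x := by rw [mul_assoc, this, mul_one]
  rw [← hval] at hop
  have hev := hc3.eventually_mem hop
  have hunits : ∀ᶠ p : 𝔸 × 𝔸 in 𝓝 p0, IsUnit (cmA p) := hc1.eventually_mem (Units.isOpen.mem_nhds hu0)
  filter_upwards [hev, hunits] with p hp hu
  obtain ⟨y, hy, c, hc, hyc⟩ := hp
  refine ⟨y, hy, c, hc, ?_⟩
  rw [← smul_mul_assoc, hyc]
  exact Ring.inverse_mul_cancel _ hu

end abstract

section algebra

theorem os_alg {R : Type*} [Ring R] (a b : Rˣ) (η : R)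
    (E1 : (b : R) * ↑a⁻¹ * ↑b⁻¹ * η = ↑a⁻¹ * ↑b⁻¹ * η * a * b * ↑a⁻¹)
    (E2 : (↑a⁻¹ : R) * ↑b⁻¹ * η * a = ↑b⁻¹ * η * a * b * ↑a⁻¹ * ↑b⁻¹) :
    Commute ((a : R) * b * ↑a⁻¹ * ↑b⁻¹ * η) a ∧ Commute ((a : R) * b * ↑a⁻¹ * ↑b⁻¹ * η) b ∧
      (a : R) * b * ↑a⁻¹ * ↑b⁻¹ * η = η * (a * b * ↑a⁻¹ * ↑b⁻¹) := by
  set ω : R := (a : R) * b * ↑a⁻¹ * ↑b⁻¹ * η with hω
  have hA : ω = ↑b⁻¹ * η * a * b * ↑a⁻¹ := by
    calc ω = (a : R) * ((b : R) * ↑a⁻¹ * ↑b⁻¹ * η) := by rw [hω]; noncomm_ring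
      _ = (a : R) * (↑a⁻¹ * ↑b⁻¹ * η * a * b * ↑a⁻¹) := by rw [E1]
      _ = ((a : R) * ↑a⁻¹) * (↑b⁻¹ * η * a * b * ↑a⁻¹) := by noncomm_ring
      _ = _ := by rw [Units.mul_inv, one_mul]
  have hB : ω = (↑a⁻¹ : R) * ↑b⁻¹ * η * a * b := by
    calc ω = ↑b⁻¹ * η * a * b * ↑a⁻¹ := hA
      _ = (↑b⁻¹ * η * a * b * ↑a⁻¹ * ↑b⁻¹) * b := by
          rw [mul_assoc _ (↑b⁻¹ : R) (b : R), Units.inv_mul, mul_one]
      _ = _ := by rw [← E2]
  have hca : ω * a = a * ω := by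
    calc ω * a = (↑b⁻¹ * η * a * b) * (↑a⁻¹ * a) := by
          conv_lhs => rw [hA]
          noncomm_ring
      _ = ((a : R) * ↑a⁻¹) * (↑b⁻¹ * η * a * b) := by
          rw [Units.inv_mul, Units.mul_inv, one_mul, mul_one]
      _ = a * ω := by
          conv_rhs => rw [hB]
          noncomm_ring
  have hη : η = (b : R) * a * ↑b⁻¹ * ↑a⁻¹ * ω := by
    have e : (b : R) * a * ↑b⁻¹ * ↑a⁻¹ * ω =
        (b : R) * (a * (↑b⁻¹ * ((↑a⁻¹ * a) * (b * (↑a⁻¹ * (↑b⁻¹ * η)))))) := by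
      rw [hω]; noncomm_ring
    rw [e, Units.inv_mul, one_mul, Units.inv_mul_cancel_left, Units.mul_inv_cancel_left,
      Units.mul_inv_cancel_left]
  have hca' : (↑a⁻¹ : R) * ω * a = ω := by
    rw [mul_assoc, hca, Units.inv_mul_cancel_left]
  have hcb0 : ω = ↑b⁻¹ * ω * b := by
    have e : (↑a⁻¹ : R) * ↑b⁻¹ * η * a * b = ↑b⁻¹ * ((↑a⁻¹ : R) * ω * a) * b := by
      conv_lhs => rw [hη]
      have : (↑a⁻¹ : R) * ↑b⁻¹ * ((b : R) * a * ↑b⁻¹ * ↑a⁻¹ * ω) * a * b =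
          (↑a⁻¹ : R) * (↑b⁻¹ * (b * (a * (↑b⁻¹ * (↑a⁻¹ * ω * a * b))))) := by noncomm_ring
      rw [this, Units.inv_mul_cancel_left, Units.inv_mul_cancel_left]
      noncomm_ring
    rw [hca'] at e
    rw [← e]
    exact hB
  have hcb : ω * b = b * ω := by
    have : b * ω = b * (↑b⁻¹ * ω * b) := by rw [← hcb0]
    rw [this]
    rw [mul_assoc (↑b⁻¹ : R), Units.mul_inv_cancel_left]
  have comA : Commute ω (a : R) := hca
  have comB : Commute ω (b : R) := hcb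
  have comA' : Commute ω (↑a⁻¹ : R) := comA.units_inv_right
  have comB' : Commute ω (↑b⁻¹ : R) := comB.units_inv_right
  refine ⟨comA, comB, ?_⟩
  have hη2 : η = ω * ((b : R) * a * ↑b⁻¹ * ↑a⁻¹) := by
    have hcomm : Commute ω ((b : R) * a * ↑b⁻¹ * ↑a⁻¹) :=
      ((comB.mul_right comA).mul_right comB').mul_right comA'
    rw [hcomm.eq]
    exact hη
  conv_rhs => rw [hη2]
  have : ω * ((b : R) * a * ↑b⁻¹ * ↑a⁻¹) * (a * b * ↑a⁻¹ * ↑b⁻¹) =
      ω * ((b : R) * (a * (↑b⁻¹ * (↑a⁻¹ * (a * (b * (↑a⁻¹ * ↑b⁻¹))))))) := by noncomm_ring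
  rw [this, Units.inv_mul_cancel_left, Units.inv_mul_cancel_left, Units.mul_inv_cancel_left,
    Units.mul_inv, mul_one]

end algebra

section matrices

open Matrix

variable {r : ℕ}

theorem os_handle (p : Mat r × Mat r) (h1 : IsUnit p.1) (h2 : IsUnit p.2) (η : Mat r)
    (h : ∀ q : Mat r × Mat r, trace (η * dcmA p q) = 0) :
    Commute (cmA p * η) p.1 ∧ Commute (cmA p * η) p.2 ∧ cmA p * η = η * cmA p := by
  obtain ⟨a', b'⟩ := p
  simp only at h1 h2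
  obtain ⟨a, rfl⟩ := h1
  obtain ⟨b, rfl⟩ := h2
  have E1 : (b : Mat r) * ↑a⁻¹ * ↑b⁻¹ * η = ↑a⁻¹ * ↑b⁻¹ * η * a * b * ↑a⁻¹ := by
    rw [Matrix.ext_iff_trace_mul_left]
    intro α
    have := h (α, 0)
    simp only [dcmA, Ring.inverse_unit, mul_zero, zero_mul, add_zero, sub_zero] at this
    rw [mul_sub, trace_sub, sub_eq_zero] at this
    have e1 : ∀ B A' B' : Mat r, trace (η * (α * B * A' * B')) =
        trace (α * (B * A' * B' * η)) := by
      intro B A' B'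
      rw [trace_mul_comm]
      congr 1
      noncomm_ring
    have e2 : ∀ A B A' B' : Mat r, trace (η * (A * B * (A' * α * A') * B')) =
        trace (α * (A' * B' * η * A * B * A')) := by
      intro A B A' B'
      have : η * (A * B * (A' * α * A') * B') =
          (η * A * B * A') * (α * (A' * B')) := by noncomm_ring
      rw [this, trace_mul_comm]
      congr 1
      noncomm_ring
    rw [e1, e2] at this
    exact this
  have E2 : (↑a⁻¹ : Mat r) * ↑b⁻¹ * η * a = ↑b⁻¹ * η * a * b * ↑a⁻¹ * ↑b⁻¹ := by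
    rw [Matrix.ext_iff_trace_mul_left]
    intro β
    have := h (0, β)
    simp only [dcmA, Ring.inverse_unit, mul_zero, zero_mul, zero_add, sub_zero] at this
    rw [mul_sub, trace_sub, sub_eq_zero] at this
    have e1 : ∀ A A' B' : Mat r, trace (η * (A * β * A' * B')) =
        trace (β * (A' * B' * η * A)) := by
      intro A A' B'
      have : η * (A * β * A' * B') = (η * A) * (β * (A' * B')) := by noncomm_ring
      rw [this, trace_mul_comm]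
      congr 1
      noncomm_ring
    have e2 : ∀ A B A' B' : Mat r, trace (η * (A * B * A' * (B' * β * B'))) =
        trace (β * (B' * η * A * B * A' * B')) := by
      intro A B A' B'
      have : η * (A * B * A' * (B' * β * B')) =
          (η * A * B * A' * B') * (β * B') := by noncomm_ring
      rw [this, trace_mul_comm]
      congr 1
      noncomm_ring
    rw [e1, e2] at this
    exact this
  have := os_alg a b η E1 E2
  simpa only [cmA, Ring.inverse_unit] using this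

theorem dcmA_zero (p : Mat r × Mat r) : dcmA p 0 = 0 := by
  simp [dcmA]

theorem dkA_zero {g : ℕ} (x : Fin g → Mat r × Mat r) : dkA g x (fun _ => 0) = 0 := by
  induction g with
  | zero => rfl
  | succ g ih =>
    simp only [dkA]
    rw [ih, dcmA_zero]
    simp

theorem os_dual {g : ℕ} (x : Fin g → Mat r × Mat r) (hx : ∀ i, IsUnit (x i).1 ∧ IsUnit (x i).2)
    (η : Mat r) (h : ∀ v, trace (η * dkA g x v) = 0) (i : Fin g) :
    Commute (kpA x * η) (x i).1 ∧ Commute (kpA x * η) (x i).2 := by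
  induction g generalizing η with
  | zero => exact i.elim0
  | succ g ih =>
    have hcons : ∀ (q : Mat r × Mat r) (v : Fin g → Mat r × Mat r),
        trace (η * (cmA (x 0) * dkA g (fun i => x i.succ) v +
          dcmA (x 0) q * kpA (fun i : Fin g => x i.succ))) = 0 := by
      intro q v
      have := h (Fin.cons q v)
      simpa only [dkA, Fin.cons_zero, Fin.cons_succ] using this
    have h1 : ∀ v, trace ((η * cmA (x 0)) * dkA g (fun i => x i.succ) v) = 0 := by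
      intro v
      have := hcons 0 v
      rw [dcmA_zero, zero_mul, add_zero] at this
      rw [mul_assoc]
      exact this
    have h2 : ∀ q, trace ((kpA (fun i : Fin g => x i.succ) * η) * dcmA (x 0) q) = 0 := by
      intro q
      have := hcons q (fun _ => 0)
      rw [dkA_zero, mul_zero, zero_add, ← mul_assoc, trace_mul_comm] at this
      rw [mul_assoc]
      exact this
    obtain ⟨c1, c2, c3⟩ := os_handle (x 0) (hx 0).1 (hx 0).2 _ h2
    have e : kpA x * η = cmA (x 0) * (kpA (fun i : Fin g => x i.succ) * η) := by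
      rw [kpA_succ, mul_assoc]
    rw [e]
    refine Fin.cases ?_ ?_ i
    · exact ⟨c1, c2⟩
    · intro j
      have := ih (fun i => x i.succ) (fun i => hx i.succ) _ h1 j
      rw [c3]
      rw [← mul_assoc] at this
      exact this

theorem os_repr (f : Mat r →ₗ[ℂ] ℂ) : ∃ η : Mat r, ∀ M, f M = trace (η * M) := by
  refine ⟨Matrix.of fun j i => f (Matrix.single i j 1), ?_⟩
  intro M
  conv_lhs => rw [Matrix.matrix_eq_sum_single M]
  rw [map_sum]
  simp only [map_sum]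
  simp only [Matrix.trace, Matrix.diag, Matrix.mul_apply, Matrix.of_apply]
  rw [Finset.sum_comm]
  apply Finset.sum_congr rfl
  intro j _
  apply Finset.sum_congr rfl
  intro i _
  have : Matrix.single i j (M i j) = (M i j) • (Matrix.single i j (1 : ℂ)) := by
    rw [Matrix.smul_single]; simp
  rw [this, map_smul, smul_eq_mul, mul_comm]

theorem os_dualf {g : ℕ} (x : Fin g → Mat r × Mat r) (hx : ∀ i, IsUnit (x i).1 ∧ IsUnit (x i).2)
    (hz : ∀ M : Mat r, (∀ i : Fin g, Commute M (x i).1 ∧ Commute M (x i).2) →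
      ∃ c : ℂ, M = c • (1 : Mat r))
    (f : Mat r →ₗ[ℂ] ℂ) (h0 : f (kpA x) = 0) (h : ∀ v, f (dkA g x v) = 0) : f = 0 := by
  obtain ⟨η, hη⟩ := os_repr f
  have h1 : ∀ v, trace (η * dkA g x v) = 0 := fun v => by rw [← hη]; exact h v
  obtain ⟨c, hc⟩ := hz (kpA x * η) (fun i => os_dual x hx η h1 i)
  have h2 : trace (kpA x * η) = 0 := by
    rw [trace_mul_comm, ← hη]; exact h0
  have hK : IsUnit (kpA x) := by
    clear hz h0 h h1 hc h2
    induction g with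
    | zero => simp [kpA]
    | succ g ih =>
      rw [kpA_succ]
      exact (isUnit_cmA (hx 0).1 (hx 0).2).mul (ih _ (fun i => hx i.succ))
  have h3 : kpA x * η = 0 := by
    rw [hc] at h2 ⊢
    rw [trace_smul, trace_one, Fintype.card_fin, smul_eq_mul] at h2
    rcases mul_eq_zero.mp h2 with h4 | h4
    · rw [h4, zero_smul]
    · have : r = 0 := by exact_mod_cast h4
      subst this
      exact Subsingleton.elim _ _
  have h5 : η = 0 := by
    obtain ⟨u, hu⟩ := hK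
    rw [← hu] at h3
    exact (Units.mul_right_eq_zero u).mp h3
  ext M
  rw [hη, h5]
  simp

end matrices


section final

open Matrix Topology

theorem cm_eq {r : ℕ} (p : Mat r × Mat r) : cm p = cmA p := by
  unfold cm cmA
  rw [Matrix.nonsing_inv_eq_ringInverse, Matrix.nonsing_inv_eq_ringInverse]

theorem Kp_eq {g r : ℕ} (x : Tup g r) : Kp x = kpA x := by
  unfold Kp kpA
  simp only [cm_eq]

theorem Kp_snoc_eq {g r : ℕ} (x : Tup (g + 1) r) :
    Kp x = kpA (fun i : Fin g => x i.castSucc) * cmA (x (Fin.last g)) := by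
  rw [Kp_eq]
  unfold kpA
  rw [List.ofFn_succ', List.concat_eq_append, List.prod_append]
  simp

theorem det_cmA {r : ℕ} (p : Mat r × Mat r) (h1 : IsUnit p.1.det) (h2 : IsUnit p.2.det) :
    (cmA p).det = 1 := by
  rw [← cm_eq]
  unfold cm
  rw [det_mul, det_mul, det_mul, det_nonsing_inv, det_nonsing_inv]
  have e1 := Ring.mul_inverse_cancel _ h1
  have e2 := Ring.mul_inverse_cancel _ h2
  calc p.1.det * p.2.det * Ring.inverse p.1.det * Ring.inverse p.2.det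
      = (p.1.det * Ring.inverse p.1.det) * (p.2.det * Ring.inverse p.2.det) := by ring
    _ = 1 := by rw [e1, e2, one_mul]

theorem det_kpA {g r : ℕ} (x : Fin g → Mat r × Mat r)
    (hx : ∀ i, IsUnit (x i).1.det ∧ IsUnit (x i).2.det) : (kpA x).det = 1 := by
  induction g with
  | zero => simp [kpA]
  | succ g ih =>
    rw [kpA_succ, det_mul, det_cmA _ (hx 0).1 (hx 0).2, ih _ (fun i => hx i.succ), one_mul]

theorem roots_nhds (r : ℕ) (hr : 0 < r) :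
    ∃ W ∈ 𝓝 (1 : ℂ), ∀ c ∈ W, c ^ r = 1 → c = 1 := by
  classical
  let S : Finset ℂ := (Polynomial.nthRootsFinset r (1 : ℂ)).erase 1
  refine ⟨(S : Set ℂ)ᶜ, ?_, ?_⟩
  · apply IsOpen.mem_nhds
    · exact S.finite_toSet.isClosed.isOpen_compl
    · simp [S]
  · intro c hc h
    by_contra hne
    apply hc
    simp only [S, Finset.coe_erase, Set.mem_sdiff, Finset.mem_coe, Set.mem_singleton_iff]
    exact ⟨(Polynomial.mem_nthRootsFinset hr 1).mpr h, hne⟩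

theorem isOpen_inv {g r : ℕ} :
    IsOpen {x : Fin g → Mat r × Mat r | ∀ i, IsUnit (x i).1.det ∧ IsUnit (x i).2.det} := by
  have : {x : Fin g → Mat r × Mat r | ∀ i, IsUnit (x i).1.det ∧ IsUnit (x i).2.det} =
      ⋂ i : Fin g, ({x | (x i).1.det ≠ 0} ∩ {x | (x i).2.det ≠ 0}) := by
    ext x
    simp [isUnit_iff_ne_zero]
  rw [this]
  apply isOpen_iInter_of_finite
  intro i
  apply IsOpen.inter
  · apply isOpen_ne_fun
    · exact Continuous.matrix_det (continuous_fst.comp (continuous_apply i))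
    · exact continuous_const
  · apply isOpen_ne_fun
    · exact Continuous.matrix_det (continuous_snd.comp (continuous_apply i))
    · exact continuous_const

theorem os_absM {g r : ℕ} (x : Fin g → Mat r × Mat r) (p0 : Mat r × Mat r)
    (hx : ∀ i, IsUnit (x i).1 ∧ IsUnit (x i).2) (h1 : IsUnit p0.1) (h2 : IsUnit p0.2)
    (hs : ∀ f : Mat r →ₗ[ℂ] ℂ, f (kpA x) = 0 → (∀ v, f (dkA g x v) = 0) → f = 0)
    (hk : kpA x * cmA p0 = 1)
    (V : Set (Fin g → Mat r × Mat r)) (hV : V ∈ 𝓝 x) (W : Set ℂ) (hW : W ∈ 𝓝 (1 : ℂ)) :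
    ∀ᶠ p in 𝓝 p0, ∃ y ∈ V, ∃ c ∈ W, c • (kpA y * cmA p) = 1 := by
  let _ : NormedRing (Mat r) := Matrix.linftyOpNormedRing
  let _ : NormedAlgebra ℂ (Mat r) := Matrix.linftyOpNormedAlgebra
  exact os_abs (𝔸 := Mat r) x p0 hx h1 h2 hs hk V hV W hW

theorem open_step {g r : ℕ} (x : Tup (g + 1) r) (hx : Inv x) (hk : Kp x = 1)
    (hz : ∀ M : Mat r, (∀ i : Fin g, Commute M (x i.castSucc).1 ∧ Commute M (x i.castSucc).2) →
      ∃ c : ℂ, M = c • (1 : Mat r))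
    (U : Set (Tup (g + 1) r)) (hU : U ∈ 𝓝 x) :
    ∀ᶠ p in 𝓝 (x (Fin.last g)), ∃ y ∈ U, y (Fin.last g) = p ∧ Kp y = 1 := by
  set ρ : Tup g r := fun i => x i.castSucc with hρ
  set p0 : Mat r × Mat r := x (Fin.last g) with hp0
  have hx1 : ∀ i, IsUnit (ρ i).1 ∧ IsUnit (ρ i).2 := fun i =>
    ⟨(Matrix.isUnit_iff_isUnit_det _).mpr (hx i.castSucc).1,
      (Matrix.isUnit_iff_isUnit_det _).mpr (hx i.castSucc).2⟩
  have hp1 : IsUnit p0.1 := (Matrix.isUnit_iff_isUnit_det _).mpr (hx (Fin.last g)).1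
  have hp2 : IsUnit p0.2 := (Matrix.isUnit_iff_isUnit_det _).mpr (hx (Fin.last g)).2
  have hk' : kpA ρ * cmA p0 = 1 := by rw [← hk, Kp_snoc_eq]
  have hsn : Fin.snoc (α := fun _ => Mat r × Mat r) ρ p0 = x := by
    funext i
    refine Fin.lastCases ?_ ?_ i
    · simp [hp0]
    · intro j; simp [hρ]
  have hcont : Continuous (fun q : (Fin g → Mat r × Mat r) × (Mat r × Mat r) =>
      (Fin.snoc (α := fun _ => Mat r × Mat r) q.1 q.2 : Fin (g + 1) → Mat r × Mat r)) :=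
    Continuous.finSnoc continuous_fst continuous_snd
  have hU' : {q : (Fin g → Mat r × Mat r) × (Mat r × Mat r) |
      (Fin.snoc (α := fun _ => Mat r × Mat r) q.1 q.2 : Fin (g + 1) → Mat r × Mat r) ∈ U ∧
        ∀ i, IsUnit ((Fin.snoc (α := fun _ => Mat r × Mat r) q.1 q.2 :
          Fin (g + 1) → Mat r × Mat r) i).1.det ∧
          IsUnit ((Fin.snoc (α := fun _ => Mat r × Mat r) q.1 q.2 :
          Fin (g + 1) → Mat r × Mat r) i).2.det} ∈ 𝓝 (ρ, p0) := by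
    have h1 : U ∩ {x : Fin (g + 1) → Mat r × Mat r |
        ∀ i, IsUnit (x i).1.det ∧ IsUnit (x i).2.det} ∈
        𝓝 (Fin.snoc (α := fun _ => Mat r × Mat r) ρ p0 : Fin (g + 1) → Mat r × Mat r) := by
      rw [hsn]
      exact Filter.inter_mem hU (isOpen_inv.mem_nhds hx)
    exact (hcont.continuousAt (x := (ρ, p0))).preimage_mem_nhds h1
  obtain ⟨V, hV, V', hV', hsub⟩ := mem_nhds_prod_iff.mp hU'
  have key : ∀ W ∈ 𝓝 (1 : ℂ), ∀ᶠ p in 𝓝 p0, p ∈ V' ∧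
      ∃ y ∈ V, ∃ c ∈ W, c • (kpA y * cmA p) = 1 := by
    intro W hW
    filter_upwards [os_absM ρ p0 hx1 hp1 hp2 (fun f h0 h => os_dualf ρ hx1 hz f h0 h) hk'
      V hV W hW, hV'] with p hp hpV
    exact ⟨hpV, hp⟩
  rcases Nat.eq_zero_or_pos r with hr | hr
  · subst hr
    filter_upwards [key Set.univ Filter.univ_mem] with p hp
    obtain ⟨hpV, y, hy, c, -, -⟩ := hp
    have hm := hsub (Set.mk_mem_prod hy hpV)
    refine ⟨Fin.snoc (α := fun _ => Mat 0 × Mat 0) y p, hm.1, by simp, ?_⟩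
    exact Subsingleton.elim _ _
  · obtain ⟨W, hW, hW1⟩ := roots_nhds r hr
    filter_upwards [key W hW] with p hp
    obtain ⟨hpV, y, hy, c, hc, hcy⟩ := hp
    have hm := hsub (Set.mk_mem_prod hy hpV)
    refine ⟨Fin.snoc (α := fun _ => Mat r × Mat r) y p, hm.1, by simp, ?_⟩
    have e1 : ∀ i : Fin g, IsUnit (y i).1.det ∧ IsUnit (y i).2.det := by
      intro i
      have := hm.2 i.castSucc
      simpa using this
    have e2 : IsUnit p.1.det ∧ IsUnit p.2.det := by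
      have := hm.2 (Fin.last g)
      simpa using this
    have e3 : c ^ r = 1 := by
      have := congrArg Matrix.det hcy
      rw [det_smul, det_mul, det_kpA y e1, det_cmA p e2.1 e2.2, det_one, Fintype.card_fin] at this
      simpa using this
    have e4 := hW1 c hc e3
    rw [e4, one_smul] at hcy
    rw [Kp_snoc_eq]
    simpa using hcy

end final

end Vale.Agent.P002
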