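import Vale.Agent.P002.Path

namespace Vale.Agent.P002

open Matrix Topology Filter

def contSub (s0 : ℂ) : Subalgebra ℂ (ℂ → ℂ) where
  carrier := {h | ContinuousAt h s0}
  mul_mem' := fun ha hb => ContinuousAt.mul ha hb
  add_mem' := fun ha hb => ContinuousAt.add ha hb
  algebraMap_mem' := fun _ => continuousAt_const

def merSub : Subalgebra ℂ (ℂ → ℂ) where
  carrier := {h | ∀ s, MeromorphicAt h s}
  mul_mem' := fun ha hb s => (ha s).mul (hb s)
  add_mem' := fun ha hb s => (ha s).add (hb s)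
  algebraMap_mem' := fun c s => MeromorphicAt.const c s

theorem cont_of_lEnt {g r : ℕ} {x : ℂ → Tup g r} {s0 : ℂ} (h : LEnt (contSub s0) x) :
    ContinuousAt x s0 := by
  refine continuousAt_pi.2 fun i => ?_
  have h1 : ContinuousAt (fun s => (x s i).1) s0 := by
    refine continuousAt_pi.2 fun a => continuousAt_pi.2 fun b => ?_
    exact h ((Matrix.entryLinearMap ℂ ℂ a b).comp
      ((LinearMap.fst ℂ (Mat r) (Mat r)).comp (LinearMap.proj i)))
  have h2 : ContinuousAt (fun s => (x s i).2) s0 := by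
    refine continuousAt_pi.2 fun a => continuousAt_pi.2 fun b => ?_
    exact h ((Matrix.entryLinearMap ℂ ℂ a b).comp
      ((LinearMap.snd ℂ (Mat r) (Mat r)).comp (LinearMap.proj i)))
  exact h1.prodMk h2

theorem pEnd_zero {g r : ℕ} (x0 x1 : Tup (g + 1) r) (h0 : Inv x0) (k0 : Kp x0 = 1)
    (m0 : Good (x0 (Fin.last g))) :
    (pS x0 x1 0).det ≠ 0 ∧ (pK x0 x1 0).det ≠ 0 ∧ pX x0 x1 0 = x0 := by
  refine pEnd x0 x1 x0 0 ?_ ?_ ?_ ?_ h0 k0 m0
  · funext i; simp [pRho]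
  · simp [pA]
  · simp [pD]
  · simp [pW]

theorem pEnd_one {g r : ℕ} (x0 x1 : Tup (g + 1) r) (h1 : Inv x1) (k1 : Kp x1 = 1)
    (m1 : Good (x1 (Fin.last g))) :
    (pS x0 x1 1).det ≠ 0 ∧ (pK x0 x1 1).det ≠ 0 ∧ pX x0 x1 1 = x1 := by
  refine pEnd x0 x1 x1 1 ?_ ?_ ?_ ?_ h1 k1 m1
  · funext i; simp [pRho]
  · simp [pA]
  · simp [pD]
  · simp [pW]

theorem param_conn {g r : ℕ} (x0 x1 : Tup (g + 1) r) (h0 : Inv x0) (h1 : Inv x1)
    (k0 : Kp x0 = 1) (k1 : Kp x1 = 1) (m0 : Good (x0 (Fin.last g))) (m1 : Good (x1 (Fin.last g)))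
    (f : Tup (g + 1) r → ℂ) (hf : f ∈ PolyFun (Tup (g + 1) r))
    (hv : ∀ᶠ x in 𝓝 x0, Kp x = 1 → f x = 0) : f x1 = 0 := by
  rcases Nat.eq_zero_or_pos r with hr | hr
  · subst hr
    have : x1 = x0 := Subsingleton.elim _ _
    rw [this]
    exact hv.self_of_nhds k0
  obtain ⟨a1, a2, a3⟩ := pEnd_zero x0 x1 h0 k0 m0
  obtain ⟨b1, b2, b3⟩ := pEnd_one x0 x1 h1 k1 m1
  have hP0 : ∀ s0 : ℂ, ∀ h ∈ contSub s0, (fun h : ℂ → ℂ => h s0 ≠ 0) h →
      (fun s => (h s)⁻¹) ∈ contSub s0 := fun s0 h hh h1 => ContinuousAt.inv₀ hh h1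
  have hid0 : ∀ s0 : ℂ, (fun s : ℂ => s) ∈ contSub s0 := fun s0 => continuousAt_id
  have r0 : pRho x0 x1 0 = fun i => x0 i.castSucc := by funext i; simp [pRho]
  have r1 : pRho x0 x1 1 = fun i => x1 i.castSucc := by funext i; simp [pRho]
  have A := pEnt (P := fun h : ℂ → ℂ => h 0 ≠ 0) (hP0 0) (hid0 0) x0 x1
    (fun i => by beta_reduce; rw [r0]; exact (h0 _).1.ne_zero)
    (fun i => by beta_reduce; rw [r0]; exact (h0 _).2.ne_zero)
    a1 a2
  have B := pEnt (P := fun h : ℂ → ℂ => h 1 ≠ 0) (hP0 1) (hid0 1) x0 x1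
    (fun i => by beta_reduce; rw [r1]; exact (h1 _).1.ne_zero)
    (fun i => by beta_reduce; rw [r1]; exact (h1 _).2.ne_zero)
    b1 b2
  have M := pEnt (𝓑 := merSub) (P := fun _ => True) (fun h hh _ s => (hh s).inv)
    (fun s => MeromorphicAt.id s) x0 x1 (fun _ => trivial) (fun _ => trivial) trivial trivial
  obtain ⟨A1, A2, A3, A4, A5, A6, A7⟩ := A
  have cX0 : ContinuousAt (pX x0 x1) 0 := cont_of_lEnt A1
  have dAA : (pAA x0 x1 0).det ≠ 0 := by
    have : pAA x0 x1 0 = (pX x0 x1 0 (Fin.last g)).1 := by simp [pX]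
    rw [this, a3]
    exact (h0 _).1.ne_zero
  have dB : (pB x0 x1 0).det ≠ 0 := by
    have : pB x0 x1 0 = (pX x0 x1 0 (Fin.last g)).2 := by simp [pX]
    rw [this, a3]
    exact (h0 _).2.ne_zero
  have ev1 : ∀ᶠ s in 𝓝 (0 : ℂ), ∀ i, (pRho x0 x1 s i).1.det ≠ 0 ∧
      (pRho x0 x1 s i).2.det ≠ 0 := by
    rw [eventually_all]
    intro i
    have c1 : ContinuousAt (fun s => (pRho x0 x1 s i).1.det) 0 := (A6 i).det
    have c2 : ContinuousAt (fun s => (pRho x0 x1 s i).2.det) 0 := (A7 i).det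
    have n1 : (pRho x0 x1 0 i).1.det ≠ 0 := by rw [r0]; exact (h0 _).1.ne_zero
    have n2 : (pRho x0 x1 0 i).2.det ≠ 0 := by rw [r0]; exact (h0 _).2.ne_zero
    exact (c1.eventually_ne n1).and (c2.eventually_ne n2)
  have c3 : ContinuousAt (fun s => (pS x0 x1 s).det) 0 := A2.det
  have c4 : ContinuousAt (fun s => (pK x0 x1 s).det) 0 := A3.det
  have c5 : ContinuousAt (fun s => (pAA x0 x1 s).det) 0 := A4.det
  have c6 : ContinuousAt (fun s => (pB x0 x1 s).det) 0 := A5.det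
  have evF : ∀ᶠ s in 𝓝 (0 : ℂ), f (pX x0 x1 s) = 0 := by
    have hv' : ∀ᶠ s in 𝓝 (0 : ℂ), Kp (pX x0 x1 s) = 1 → f (pX x0 x1 s) = 0 := by
      have ht : Tendsto (pX x0 x1) (𝓝 0) (𝓝 x0) := by
        have := cX0.tendsto
        rwa [a3] at this
      exact ht.eventually hv
    filter_upwards [ev1, c3.eventually_ne a1, c4.eventually_ne a2, c5.eventually_ne dAA,
      c6.eventually_ne dB, hv'] with s e1 e3 e4 e5 e6 e7
    apply e7
    exact pValid hr x0 x1 s (fun i => ⟨isUnit_iff_ne_zero.mpr (e1 i).1,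
      isUnit_iff_ne_zero.mpr (e1 i).2⟩) e3 e4 e5 e6
  have mF : ∀ s, MeromorphicAt (fun s => f (pX x0 x1 s)) s := polyFun_lEnt hf M.1
  have mF' : MeromorphicOn (fun s => f (pX x0 x1 s)) Set.univ := fun s _ => mF s
  have o0 : meromorphicOrderAt (fun s => f (pX x0 x1 s)) 0 = ⊤ := by
    rw [meromorphicOrderAt_eq_top_iff]
    exact evF.filter_mono nhdsWithin_le_nhds
  have o1 : meromorphicOrderAt (fun s => f (pX x0 x1 s)) 1 = ⊤ := by
    by_contra hne
    exact mF'.meromorphicOrderAt_ne_top_of_isPreconnected isPreconnected_univ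
      (Set.mem_univ 1) (Set.mem_univ 0) hne o0
  rw [meromorphicOrderAt_eq_top_iff] at o1
  have cF : ContinuousAt (fun s => f (pX x0 x1 s)) 1 := polyFun_lEnt hf B.1
  have t1 : Tendsto (fun s => f (pX x0 x1 s)) (𝓝[≠] 1) (𝓝 (f (pX x0 x1 1))) :=
    cF.tendsto.mono_left nhdsWithin_le_nhds
  have t2 : Tendsto (fun s => f (pX x0 x1 s)) (𝓝[≠] 1) (𝓝 0) :=
    tendsto_const_nhds.congr' (by filter_upwards [o1] with s hs; exact hs.symm)
  have := tendsto_nhds_unique t1 t2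
  rwa [b3] at this

end Vale.Agent.P002
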