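import Vale.Agent.P002.BaseRep
import Vale.Agent.P002.ParamConn
import Vale.Agent.P002.OpenStep
import Vale.Agent.P002.Generic
import Vale.Agent.P002.GoodDense
import Vale.Agent.P002.ConeToSL2
import Vale.Agent.P002.GoodBase

namespace Vale.Agent.P002

open Matrix NumberField Topology Filter

section ltg
variable {g r : ℕ} [NeZero r]

/-- A polynomial function vanishing near one good point of the representation variety vanishes at
all good points. -/
theorem ltg_good (x0 : Tup (g + 1) r) (h0 : Inv x0) (k0 : Kp x0 = 1) (m0 : Good (x0 (Fin.last g)))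
    (F : Tup (g + 1) r → ℂ) (hF : F ∈ PolyFun (Tup (g + 1) r))
    (hv : ∀ᶠ x in 𝓝 x0, Kp x = 1 → F x = 0)
    (x : Tup (g + 1) r) (hx : Inv x) (hk : Kp x = 1) (hgood : Good (x (Fin.last g))) : F x = 0 :=
  param_conn x0 x h0 hx k0 hk m0 hgood F hF hv

theorem ltg_scalar (x0 : Tup (g + 1) r) (h0 : Inv x0) (k0 : Kp x0 = 1)
    (m0 : Good (x0 (Fin.last g))) (F : Tup (g + 1) r → ℂ) (hF : F ∈ PolyFun (Tup (g + 1) r))
    (hv : ∀ᶠ x in 𝓝 x0, Kp x = 1 → F x = 0) (x : Tup (g + 1) r) (hx : Inv x) (hk : Kp x = 1)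
    (hz : ∀ M : Mat r, (∀ i : Fin g, Commute M (x i.castSucc).1 ∧ Commute M (x i.castSucc).2) →
      ∃ c : ℂ, M = c • (1 : Mat r)) : F x = 0 := by
  by_contra hne
  have hU : {y : Tup (g + 1) r | F y ≠ 0 ∧ Inv y} ∈ 𝓝 x := by
    have h1 : ∀ᶠ y in 𝓝 x, F y ≠ 0 := (polyFun_continuous hF).continuousAt.eventually_ne hne
    have h2 : ∀ᶠ y in 𝓝 x, Inv y := isOpen_inv.mem_nhds hx
    filter_upwards [h1, h2] with y a b using ⟨a, b⟩
  have h3 := open_step x hx hk hz _ hU
  have h4 : ∃ᶠ q in 𝓝 (x (Fin.last g)), Good q :=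
    good_dense (x (Fin.last g)) (x0 (Fin.last g)) (hx _) (h0 _) m0
  obtain ⟨q, hq, y, hyU, hyq, hyk⟩ := (h4.and_eventually h3).exists
  exact hyU.1 (ltg_good x0 h0 k0 m0 F hF hv y hyU.2 hyk (by rw [hyq]; exact hq))

theorem ltg_all (x0 : Tup (g + 2) r) (h0 : Inv x0) (k0 : Kp x0 = 1)
    (m0 : Good (x0 (Fin.last (g + 1)))) (F : Tup (g + 2) r → ℂ)
    (hF : F ∈ PolyFun (Tup (g + 2) r))
    (hv : ∀ᶠ x in 𝓝 x0, Kp x = 1 → F x = 0) (x : Tup (g + 2) r)
    (hx : ∀ i, (x i).1.det = 1 ∧ (x i).2.det = 1) (hk : Kp x = 1) : F x = 0 := by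
  refine generic_commutant F hF (fun y hy hky hz => ?_) x hx hk
  exact ltg_scalar x0 h0 k0 m0 F hF hv y (fun i => by
    rw [(hy i).1, (hy i).2]; exact ⟨isUnit_one, isUnit_one⟩) hky hz

end ltg

section irr
variable {r : ℕ}

/-- nonvanishing of this determinant forces the pair `(A, B)` to generate the matrix algebra -/
noncomputable def burn (p : Mat r × Mat r) : ℂ :=
  (Matrix.of fun (s t : Fin r × Fin r) => (p.1 ^ (s.1 : ℕ) * p.2 ^ (s.2 : ℕ)) t.1 t.2).det

theorem burn_polyFun {g : ℕ} (i : Fin g) :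
    (fun x : Tup g r => burn (x i)) ∈ PolyFun (Tup g r) := by
  refine polyFun_det (polyMap_of_entry fun s t => ?_)
  have h1 : PolyMap (fun x : Tup g r => (x i).1) := polyMap_fst (polyMap_apply polyMap_id i)
  have h2 : PolyMap (fun x : Tup g r => (x i).2) := polyMap_snd (polyMap_apply polyMap_id i)
  exact polyFun_entry (polyMap_mul (polyMap_pow h1 _) (polyMap_pow h2 _)) _ _

theorem burn_smul (p : Mat r × Mat r) (κ μ : ℂ) (hκ : κ ≠ 0) (hμ : μ ≠ 0) (h : burn p ≠ 0) :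
    burn (κ • p.1, μ • p.2) ≠ 0 := by
  have : (Matrix.of fun (s t : Fin r × Fin r) =>
      ((κ • p.1) ^ (s.1 : ℕ) * (μ • p.2) ^ (s.2 : ℕ)) t.1 t.2) =
      Matrix.of fun (s t : Fin r × Fin r) => (κ ^ (s.1 : ℕ) * μ ^ (s.2 : ℕ)) *
        (Matrix.of fun (s t : Fin r × Fin r) => (p.1 ^ (s.1 : ℕ) * p.2 ^ (s.2 : ℕ)) t.1 t.2) s t := by
    ext s t
    simp only [Matrix.of_apply, smul_pow, Algebra.smul_mul_assoc, Algebra.mul_smul_comm, smul_smul,
      Matrix.smul_apply, smul_eq_mul]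
    ring
  unfold burn at *
  simp only
  rw [this, Matrix.det_mul_column]
  refine mul_ne_zero (Finset.prod_ne_zero_iff.mpr fun s _ => ?_) h
  exact mul_ne_zero (pow_ne_zero _ hκ) (pow_ne_zero _ hμ)

theorem burn_base [NeZero r] {α : Fin r → ℂ} (hα : Function.Injective α) :
    burn ((mono 0 α : Mat r), mono 1 1) ≠ 0 := by
  unfold burn
  intro hdet
  obtain ⟨v, hv0, hv⟩ := Matrix.exists_vecMul_eq_zero_iff.mpr hdet
  apply hv0
  funext s
  obtain ⟨i0, j0⟩ := s
  have h1 : ∀ k : Fin r, ∑ i : Fin r, v (i, j0) * α k ^ (i : ℕ) = 0 := by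
    intro k
    have h2 := congrFun hv (k, k + j0)
    simp only [Matrix.vecMul, dotProduct, Matrix.of_apply, Pi.zero_apply, Fintype.sum_prod_type] at h2
    rw [← h2]
    refine Finset.sum_congr rfl fun i _ => ?_
    rw [Finset.sum_eq_single j0]
    · congr 1
      rw [mono_zero_pow, mono_pow, mono_mul, mono_apply, nsmul_val, zero_add, if_pos rfl]
      simp
    · intro j _ hj
      rw [mono_zero_pow, mono_pow, mono_mul, mono_apply, nsmul_val, zero_add, if_neg, mul_zero]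
      intro h
      exact hj (add_left_cancel h).symm
    · simp
  have h3 : (fun i => v (i, j0)) = 0 := by
    have hV : (vandermonde α).det ≠ 0 := det_vandermonde_ne_zero_iff.mpr hα
    apply Matrix.eq_zero_of_mulVec_eq_zero hV
    funext k
    have := h1 k
    simp only [Matrix.mulVec, dotProduct, vandermonde_apply, Pi.zero_apply]
    rw [← this]
    exact Finset.sum_congr rfl fun i _ => mul_comm _ _
  exact congrFun h3 i0

/-- the span of the products `A^i B^j` is everything when `burn` does not vanish -/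
theorem burn_span (p : Mat r × Mat r) (h : burn p ≠ 0) (S : Submodule ℂ (Mat r))
    (hS : ∀ i j : ℕ, p.1 ^ i * p.2 ^ j ∈ S) : S = ⊤ := by
  by_contra hne
  obtain ⟨f, hf0, hf⟩ := Submodule.exists_le_ker_of_lt_top S (lt_top_iff_ne_top.mpr hne)
  obtain ⟨η, hη⟩ := os_repr f
  apply hf0
  have h1 : (fun t : Fin r × Fin r => η t.2 t.1) = 0 := by
    apply Matrix.eq_zero_of_mulVec_eq_zero h
    funext s
    have h2 : f (p.1 ^ (s.1 : ℕ) * p.2 ^ (s.2 : ℕ)) = 0 := hf (hS _ _)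
    rw [hη, Matrix.trace] at h2
    simp only [Matrix.mulVec, dotProduct, Matrix.of_apply, Pi.zero_apply, Fintype.sum_prod_type]
    rw [← h2, Finset.sum_comm]
    refine Finset.sum_congr rfl fun i _ => ?_
    rw [Matrix.diag_apply, Matrix.mul_apply]
    exact Finset.sum_congr rfl fun j _ => mul_comm _ _
  have h3 : η = 0 := by
    ext i j
    exact congrFun h1 (j, i)
  ext M
  rw [hη, h3]; simp

theorem burn_irr (p : Mat r × Mat r) (h : burn p ≠ 0) (V : Submodule ℂ (Fin r → ℂ))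
    (h1 : ∀ v ∈ V, p.1.mulVec v ∈ V) (h2 : ∀ v ∈ V, p.2.mulVec v ∈ V) : V = ⊥ ∨ V = ⊤ := by
  by_cases hV : V = ⊥
  · exact Or.inl hV
  right
  let S : Submodule ℂ (Mat r) :=
    { carrier := {M | ∀ v ∈ V, M.mulVec v ∈ V}
      add_mem' := fun {a b} ha hb v hv => by rw [Matrix.add_mulVec]; exact V.add_mem (ha v hv) (hb v hv)
      zero_mem' := fun v _ => by rw [Matrix.zero_mulVec]; exact V.zero_mem
      smul_mem' := fun c M hM v hv => by rw [Matrix.smul_mulVec]; exact V.smul_mem c (hM v hv) }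
  have hS : S = ⊤ := by
    refine burn_span p h S fun i j => ?_
    have e1 : ∀ (n : ℕ) (M : Mat r), (∀ v ∈ V, M.mulVec v ∈ V) → ∀ v ∈ V, (M ^ n).mulVec v ∈ V := by
      intro n M hM
      induction n with
      | zero => intro v hv; simpa using hv
      | succ n ih => intro v hv; rw [pow_succ, ← Matrix.mulVec_mulVec]; exact ih _ (hM v hv)
    intro v hv
    rw [← Matrix.mulVec_mulVec]
    exact e1 i _ h1 _ (e1 j _ h2 _ hv)
  obtain ⟨v, hv, hv0⟩ := Submodule.exists_mem_ne_zero_of_ne_bot hV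
  obtain ⟨k, hk⟩ : ∃ k, v k ≠ 0 := by
    by_contra hcon
    push Not at hcon
    exact hv0 (funext hcon)
  rw [eq_top_iff]
  rintro u -
  have h3 : (Matrix.of fun i j => if j = k then u i * (v k)⁻¹ else 0 : Mat r) ∈ S := by
    rw [hS]; trivial
  have h4 := h3 v hv
  convert h4 using 1
  funext i
  simp only [Matrix.mulVec, dotProduct, Matrix.of_apply]
  rw [Finset.sum_eq_single k]
  · rw [if_pos rfl, mul_assoc, inv_mul_cancel₀ hk, mul_one]
  · intro j _ hj
    rw [if_neg hj, zero_mul]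
  · simp

end irr

section assemble
variable {L : Type*} [Field L] [NumberField L] (φ : L →+* ℂ) {g r : ℕ} [NeZero r]
variable (hφ : ¬ ComplexEmbedding.IsReal φ) (w : InfinitePlace L) (hw : w ≠ InfinitePlace.mk φ)
  (ε : (𝓞 L)ˣ) (hε : ‖φ ((ε : 𝓞 L) : L)‖ ≠ 1) {ζ : 𝓞 L} (hζ : IsPrimitiveRoot ζ (2 * r))
include hφ hw hε hζ

theorem cone_irr (F : Tup (g + 2) r → ℂ) (hF : F ∈ PolyFun (Tup (g + 2) r))
    (hv : ∀ c ∈ Cone φ (g + 2) r, burn (c 0) ≠ 0 → F c = 0)
    (x : Tup (g + 2) r) (hx : ∀ i, (x i).1.det = 1 ∧ (x i).2.det = 1) (hk : Kp x = 1) :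
    F x = 0 := by
  obtain ⟨α, hα, hl, hkp, hcone⟩ := base_exists φ (g := g + 1) ε hε hζ (by omega)
  have h0 : basePt α ∈ WW φ (g + 2) r := cone_subset_WW φ hcone
  have hch := chain_final φ hφ w hw hα hl h0
  have hbc : ∀ᶠ x in 𝓝 (basePt α), burn (x 0) ≠ 0 :=
    (polyFun_continuous (burn_polyFun (r := r) (g := g + 2) 0)).continuousAt.eventually_ne
      (burn_base (hα 0).inj)
  refine ltg_all (basePt α) ?_ (by rw [Kp_eq]; exact hkp) (good_base _ (hα _).ne (hα _).inj) F hF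
    ?_ x hx hk
  · intro i
    exact ⟨mono_isUnit 0 _ (hα _).ne, mono_isUnit 1 1 fun _ => one_ne_zero⟩
  · filter_upwards [hch, hbc] with y hy hb hky
    have h1 : y ∈ WW φ (g + 2) r := hy (by rw [hkp, ← Kp_eq]; exact hky)
    have h2 := h1 (fun y => F y * burn (y 0)) (polyFun_mul hF (burn_polyFun 0)) (fun c hc => by
      by_cases hb : burn (c 0) = 0
      · simp [hb]
      · simp [hv c hc hb])
    exact (mul_eq_zero.mp h2).resolve_right hb

/-- the `SL_r(𝓞 L)`-representations of a closed surface group of genus `g + 2` whose first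
handle generates the matrix algebra are Zariski dense in the representation variety. -/
theorem tuple_dense (f : Tup (g + 2) r → ℂ) (hf : f ∈ PolyFun (Tup (g + 2) r))
    (hv : ∀ σ : Fin (g + 2) → SpecialLinearGroup (Fin r) (𝓞 L) × SpecialLinearGroup (Fin r) (𝓞 L),
      IsIntRep σ → burn (emb φ (σ 0).1.1, emb φ (σ 0).2.1) ≠ 0 →
      f (fun i => (emb φ (σ i).1.1, emb φ (σ i).2.1)) = 0)
    (x : Tup (g + 2) r) (hx : ∀ i, (x i).1.det = 1 ∧ (x i).2.det = 1) (hk : Kp x = 1) :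
    f x = 0 := by
  have hζ2 : IsPrimitiveRoot (ζ ^ 2) r := hζ.pow (by have := NeZero.pos r; omega) rfl
  refine sl_of_cone_gen φ (NeZero.pos r) (ζ ^ 2) hζ2 (fun y => burn (y 0) ≠ 0) ?_ f hf hv x hx ?_
  · intro κ hκ y hy
    exact burn_smul (y 0) _ _ (hκ _) (hκ _) hy
  · intro F hF hFc
    exact cone_irr φ hφ w hw ε hε hζ F hF hFc x hx hk

end assemble

end Vale.Agent.P002
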