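import Vale.Agent.P002.BNear

namespace Vale.Agent.P002

open Matrix NumberField Topology Filter

section ltg
variable {g n r : ℕ} [NeZero r]

theorem det_listprod {J : Fin n → Mat r} (hJ : ∀ j, (J j).det = 1) : ((List.ofFn J).prod).det = 1 := by
  rw [List.ofFn_eq_map]
  generalize List.finRange n = l
  induction l with
  | nil => simp
  | cons a l ih => rw [List.map_cons, List.prod_cons, Matrix.det_mul, hJ, ih, one_mul]

theorem det_bc {J h : Fin n → Mat r} (hJ : ∀ j, (J j).det = 1) (hh : ∀ j, IsUnit (h j).det) (j : Fin n) :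
    (bc J h j).det = 1 := by
  unfold bc
  rw [Matrix.det_mul, Matrix.det_mul, Matrix.det_nonsing_inv, hJ, mul_one,
    Ring.mul_inverse_cancel _ (hh j)]

theorem ltgb_scalar {J : Fin n → Mat r} (hJ : ∀ j, (J j).det = 1)
    (x0 : Tup (g + 1) r) (h0 : Fin n → Mat r) (i0 : Inv x0)
    (u0 : ∀ j, IsUnit (h0 j).det) (k0 : Kb (x0, bc J h0) = 1)
    (m0 : Good (x0 (Fin.last g))) (F : BTup (g + 1) n r → ℂ) (hF : F ∈ PolyFun (BTup (g + 1) n r))
    (hv : ∀ᶠ z in 𝓝 (x0, h0), Kb (z.1, bc J z.2) = 1 → F (z.1, bc J z.2) = 0)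
    (x : Tup (g + 1) r) (h : Fin n → Mat r) (hx : Inv x) (hh : ∀ j, IsUnit (h j).det)
    (hk : Kb (x, bc J h) = 1)
    (hz : ∀ M : Mat r, (∀ i : Fin g, Commute M (x i.castSucc).1 ∧ Commute M (x i.castSucc).2) →
      ∃ c : ℂ, M = c • (1 : Mat r)) : F (x, bc J h) = 0 := by
  by_contra hne
  have hFc : Continuous fun y : Tup (g + 1) r => F (y, bc J h) :=
    (polyFun_continuous hF).comp (continuous_id.prodMk continuous_const)
  have hU : {y : Tup (g + 1) r | F (y, bc J h) ≠ 0 ∧ Inv y} ∈ 𝓝 x := by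
    have h1 : ∀ᶠ y in 𝓝 x, F (y, bc J h) ≠ 0 := hFc.continuousAt.eventually_ne hne
    have h2 : ∀ᶠ y in 𝓝 x, Inv y := isOpen_inv.mem_nhds hx
    filter_upwards [h1, h2] with y a b using ⟨a, b⟩
  have h3 := open_step_b ((List.ofFn (bc J h)).prod) (det_listprod (det_bc hJ hh)) x hx hk hz _ hU
  have h4 : ∃ᶠ q in 𝓝 (x (Fin.last g)), Good q :=
    good_dense (x (Fin.last g)) (x0 (Fin.last g)) (hx _) (i0 _) m0
  obtain ⟨q, hq, y, hyU, hyq, hyk⟩ := (h4.and_eventually h3).exists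
  exact hyU.1 (param_conn_b J hJ x0 y h0 h i0 hyU.2 u0 hh k0 hyk m0 (by rw [hyq]; exact hq) F hF hv)

end ltg

section assemble
variable {L : Type*} [Field L] [NumberField L] (φ : L →+* ℂ) {g n r : ℕ} [NeZero r]
variable (hφ : ¬ ComplexEmbedding.IsReal φ) (w : InfinitePlace L) (hw : w ≠ InfinitePlace.mk φ)
  (ε : (𝓞 L)ˣ) (hε : ‖φ ((ε : 𝓞 L) : L)‖ ≠ 1) {ζ : 𝓞 L} (hζ : IsPrimitiveRoot ζ (2 * r))
include hφ hw hε hζ

theorem coneB_irr (τ : Fin n → SpecialLinearGroup (Fin r) (𝓞 L))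
    (hτ : ∀ j a b, b < a → (τ j).1 a b = 0)
    (θ : Fin r → 𝓞 L) (hθ1 : ∀ i, θ (i + 1) = (∏ j, (τ j).1 i i) * θ i) (hθp : ∏ i, θ i = 1)
    (F : BTup (g + 2) n r → ℂ) (hF : F ∈ PolyFun (BTup (g + 2) n r))
    (hv : ∀ c ∈ ConeB φ (g + 2) (fun j => emb φ (τ j).1), burn (c.1 0) ≠ 0 → F c = 0)
    (z : BTup (g + 2) n r) (hx : ∀ i, (z.1 i).1.det = 1 ∧ (z.1 i).2.det = 1)
    (hc : ∀ j, z.2 j ∈ Cls (emb φ (τ j).1)) (hk : Kb z = 1) : F z = 0 := by
  obtain ⟨α, V, hα, hl, hinj, hVu, hVd, hKb, hW⟩ :=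
    base_curve φ (g := g + 1) ε hε hζ (by omega) τ hτ θ hθ1 hθp
  set J : Fin n → Mat r := fun j => emb φ (τ j).1 with hJdef
  have hJu : ∀ j a b, b < a → J j a b = 0 := fun j a b hab => by
    simp only [hJdef, emb, Matrix.map_apply, hτ j a b hab, map_zero]
  have hJ1 : ∀ j, (J j).det = 1 := fun j => by
    simp only [hJdef, emb_det, (τ j).2, map_one]
  have hnear := near_curve hα hl hJu (fun j => by rw [hJ1]; exact isUnit_one) hinj hVd hKb
    (moveClosedB_WWB φ hφ w hw J) hW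
  have h0last : (0 : Fin (g + 2)) ≠ Fin.last (g + 1) := by
    intro h; have := congrArg Fin.val h; simp at this
  have hb : ∀ s, burn ((cpt α V J s).1 0) ≠ 0 := by
    intro s
    simp only [cpt, Function.update_of_ne h0last]
    exact burn_base (hα 0).inj
  have hl1 : ∀ s, (cpt α V J s).1 (Fin.last (g + 1)) =
      (mono 0 (α (Fin.last (g + 1))), tri V s * mono 1 1) := fun s => by
    simp only [cpt, Function.update_self]
  have hgood : ∀ᶠ s in 𝓝 (0 : ℂ), Good ((cpt α V J s).1 (Fin.last (g + 1))) := by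
    simp only [hl1]
    refine good_curve _ (Ent.const _) ?_ ?_ ?_ ?_
    · refine Ent.mul (fun a b => ?_) (Ent.const _)
      have h1 : Continuous fun s => tri V s a b := by
        have h2 := continuous_tri V
        exact (continuous_apply b).comp ((continuous_apply a).comp h2)
      exact h1.continuousAt
    · exact mono_isUnit 0 _ (hα _).ne
    · rw [tri_unip_zero hVd, one_mul]
      exact mono_isUnit 1 1 fun _ => one_ne_zero
    · rw [tri_unip_zero hVd, one_mul]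
      exact good_base _ (hα _).ne (hα _).inj
  have hex : ∀ᶠ s in 𝓝[≠] (0 : ℂ), _ := (hnear.and hgood).filter_mono nhdsWithin_le_nhds
  obtain ⟨s, ⟨hs1, hs2⟩, hs0⟩ := (hex.and self_mem_nhdsWithin).exists
  have hs0 : s ≠ 0 := hs0
  set J1 : Fin n → Mat r := fun j => tri (J j) s with hJ1def
  have hJ1d : ∀ j, (J1 j).det = 1 := fun j => by
    simp only [hJ1def]; rw [det_tri_eq _ (hJu j), hJ1]
  have hCls : ∀ j, Cls (J j) = Cls (J1 j) := fun j =>
    (Cls_eq (tri_mem_Cls (J j) (hJu j) hs0)).symm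
  have hinv0 : Inv (cpt α V J s).1 := by
    intro i
    refine Fin.lastCases ?_ (fun i => ?_) i
    · rw [hl1]
      refine ⟨mono_isUnit 0 _ (hα _).ne, ?_⟩
      rw [Matrix.det_mul]
      refine IsUnit.mul ?_ (mono_isUnit 1 1 fun _ => one_ne_zero)
      rw [det_tri]
      simp only [hVd, Finset.prod_const_one, isUnit_one]
    · simp only [cpt, Function.update_of_ne (Fin.castSucc_lt_last i).ne]
      exact ⟨mono_isUnit 0 _ (hα _).ne, mono_isUnit 1 1 fun _ => one_ne_zero⟩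
  have hbc1 : bc J1 (fun _ => 1) = (cpt α V J s).2 := bc_one _
  have hk0 : Kb ((cpt α V J s).1, bc J1 (fun _ => 1)) = 1 := by
    rw [hbc1]; exact hKb s
  have hvan : ∀ᶠ y in 𝓝 (((cpt α V J s).1, fun _ => 1) : BTup (g + 2) n r),
      Kb (y.1, bc J1 y.2) = 1 → F (y.1, bc J1 y.2) = 0 := by
    have hbc : ∀ᶠ y in 𝓝 (((cpt α V J s).1, fun _ => 1) : BTup (g + 2) n r), burn (y.1 0) ≠ 0 := by
      have h1 : Continuous fun y : BTup (g + 2) n r => burn (y.1 0) :=
        (polyFun_continuous (burn_polyFun (r := r) (g := g + 2) 0)).comp continuous_fst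
      exact h1.continuousAt.eventually_ne (hb s)
    filter_upwards [hs1, hbc] with y hy hyb hyk
    have h1 := hy hyk
    have h2 := h1 (fun y => F y * burn (y.1 0))
      (polyFun_mul hF (polyFun_comp (burn_polyFun (r := r) (g := g + 2) 0) polyMap_fst'))
      (fun c hc => by
        by_cases hb : burn (c.1 0) = 0
        · simp [hb]
        · simp [hv c hc hb])
    exact (mul_eq_zero.mp h2).resolve_right hyb
  -- the point
  have hc' : ∀ j, ∃ h : Mat r, IsUnit h.det ∧ z.2 j = h * J1 j * h⁻¹ := fun j => by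
    have := hc j
    rw [show emb φ (τ j).1 = J j from rfl, hCls j] at this
    exact this
  choose h hh hzh using hc'
  have hz2 : z.2 = bc J1 h := funext hzh
  have hzz : z = (z.1, bc J1 h) := Prod.ext rfl hz2
  rw [hzz]
  refine generic_commutant_b J1 hJ1d F hF (fun x h hx hh hk hsc => ?_) z.1 h hx hh (by rw [← hzz]; exact hk)
  exact ltgb_scalar hJ1d (cpt α V J s).1 (fun _ => 1) hinv0 (fun j => by simp) hk0 hs2 F hF hvan x h
    (fun i => by rw [(hx i).1, (hx i).2]; exact ⟨isUnit_one, isUnit_one⟩) hh hk hsc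

/-- the integral representations of a punctured surface group of genus at least two with boundary
elements in prescribed classes are Zariski dense in the relative representation variety. -/
theorem tupleB_dense (τ : Fin n → SpecialLinearGroup (Fin r) (𝓞 L))
    (hτ : ∀ j a b, b < a → (τ j).1 a b = 0)
    (θ : Fin r → 𝓞 L) (hθ1 : ∀ i, θ (i + 1) = (∏ j, (τ j).1 i i) * θ i) (hθp : ∏ i, θ i = 1)
    (f : BTup (g + 2) n r → ℂ) (hf : f ∈ PolyFun (BTup (g + 2) n r))
    (hv : ∀ (σ : Fin (g + 2) → SpecialLinearGroup (Fin r) (𝓞 L) × SpecialLinearGroup (Fin r) (𝓞 L))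
      (ν : Fin n → SpecialLinearGroup (Fin r) (𝓞 L)), IsIntRepB σ ν →
      (∀ j, emb φ (ν j).1 ∈ Cls (emb φ (τ j).1)) →
      burn (emb φ (σ 0).1.1, emb φ (σ 0).2.1) ≠ 0 →
      f (fun i => (emb φ (σ i).1.1, emb φ (σ i).2.1), fun j => emb φ (ν j).1) = 0)
    (z : BTup (g + 2) n r) (hx : ∀ i, (z.1 i).1.det = 1 ∧ (z.1 i).2.det = 1)
    (hc : ∀ j, z.2 j ∈ Cls (emb φ (τ j).1)) (hk : Kb z = 1) : f z = 0 := by
  have hζ2 : IsPrimitiveRoot (ζ ^ 2) r := hζ.pow (by have := NeZero.pos r; omega) rfl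
  refine sl_of_cone_b φ (NeZero.pos r) (ζ ^ 2) hζ2 (fun j => emb φ (τ j).1)
    (fun y => burn (y.1 0) ≠ 0) ?_ f hf hv z hx ?_
  · intro κ hκ y hy
    exact burn_smul (y.1 0) _ _ (hκ _) (hκ _) hy
  · intro F hF hFc
    exact coneB_irr φ hφ w hw ε hε hζ τ hτ θ hθ1 hθp F hF hFc z hx hc hk

end assemble

end Vale.Agent.P002
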