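import Vale.Agent.P002.BClosed2

namespace Vale.Agent.P002

open Matrix NumberField

section
variable {L : Type*} [Field L] [NumberField L] (φ : L →+* ℂ) {g n r : ℕ}

theorem emb_inv' (A : SpecialLinearGroup (Fin r) (𝓞 L)) : (emb φ A.1)⁻¹ = emb φ (A⁻¹).1 := by
  apply Matrix.inv_eq_right_inv
  rw [← emb_mul]
  have : A.1 * (A⁻¹).1 = 1 := congrArg Subtype.val (mul_inv_cancel A)
  rw [this, emb_one]

theorem isUnit_emb (A : SpecialLinearGroup (Fin r) (𝓞 L)) : IsUnit (emb φ A.1).det := by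
  rw [emb_det, A.2, map_one]; exact isUnit_one

theorem Cls_conj {J c Q : Mat r} (hc : c ∈ Cls J) (hQ : IsUnit Q.det) : Q * c * Q⁻¹ ∈ Cls J := by
  obtain ⟨h, hh, rfl⟩ := hc
  refine ⟨Q * h, by rw [Matrix.det_mul]; exact hQ.mul hh, ?_⟩
  rw [Matrix.mul_inv_rev]
  simp only [Matrix.mul_assoc]

theorem pre_emb (τ : Fin n → SpecialLinearGroup (Fin r) (𝓞 L)) (c : Fin n → Mat r)
    (hc : ∀ j, c j = emb φ (τ j).1) (j : Fin n) : pre c j = emb φ (preM τ j).1 := by
  have h1 : c = fun j => embH φ r (τ j) := funext hc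
  unfold pre preM
  rw [h1]
  have h2 : (List.ofFn fun j => embH φ r (τ j)) = (List.ofFn τ).map (embH φ r) := by
    rw [List.map_ofFn]; rfl
  rw [h2, ← List.map_take, List.prod_hom]
  rfl

theorem polyMap_list {E : Type*} [AddCommGroup E] [Module ℂ E] (l : List (Fin n))
    {S : E → Fin n → Mat r} (hS : ∀ j, PolyMap (fun x => S x j)) :
    PolyMap (fun x => (l.map (S x)).prod) := by
  induction l with
  | nil => simpa using polyMap_const (1 : Mat r)
  | cons a l ih =>
    simp only [List.map_cons, List.prod_cons]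
    exact polyMap_mul (hS a) ih

theorem polyMap_pre {E : Type*} [AddCommGroup E] [Module ℂ E] (j : Fin n)
    {S : E → Fin n → Mat r} (hS : PolyMap S) : PolyMap (fun x => pre (S x) j) := by
  have h : ∀ c : Fin n → Mat r, pre c j = (((List.finRange n).take j).map c).prod := by
    intro c
    unfold pre
    rw [List.ofFn_eq_map, ← List.map_take]
  simp only [h]
  exact polyMap_list _ fun j => polyMap_apply hS j

theorem det_pre_WWB (J : Fin n → Mat r) {z : BTup g n r} (hz : z ∈ WWB φ g J) (j : Fin n) :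
    (pre z.2 j).det = 1 := by
  have := hz (fun z => (pre z.2 j).det - 1)
    (polyFun_sub (polyFun_det (polyMap_pre j polyMap_snd')) (polyFun_const 1)) (fun c hc => by
      obtain ⟨σ, τ, hσ, hτ, h, hcτ⟩ := (coneB_iff φ J c).mp hc
      rw [pre_emb φ τ c.2 hcτ j, emb_det, (preM τ j).2, map_one, sub_self])
  exact sub_eq_zero.mp this

theorem rinv_adj {A : Mat r} (hA : IsUnit A) : Ring.inverse A = (A.det)⁻¹ • A.adjugate := by
  rw [← Matrix.nonsing_inv_eq_ringInverse, Matrix.inv_def]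
  simp

theorem polyMap_updM {E : Type*} [AddCommGroup E] [Module ℂ E] {S : E → Fin n → Mat r}
    (hS : PolyMap S) (i : Fin n) {p : E → Mat r} (hp : PolyMap p) :
    PolyMap (fun x => Function.update (S x) i (p x)) := by
  refine polyMap_pi fun j => ?_
  by_cases hj : j = i
  · subst hj; simpa using hp
  · simpa [Function.update_of_ne hj] using polyMap_apply hS j

/-- the polynomial form of the new boundary element -/
noncomputable def nb (j : Fin n) (c : Fin n → Mat r) (t : Mat r) (u : ℂ) : Mat r :=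
  u • ((pre c j).adjugate * t * pre c j * c j * ((pre c j).adjugate * t.adjugate * pre c j))

theorem polyMap_nb (j : Fin n) :
    PolyMap (fun p : (BTup g n r × Mat r) × ℂ => nb j p.1.1.2 p.1.2 p.2) := by
  have h1 : PolyMap (fun p : (BTup g n r × Mat r) × ℂ => p.1.1.2) :=
    polyMap_snd (polyMap_fst polyMap_fst')
  have h2 : PolyMap (fun p : (BTup g n r × Mat r) × ℂ => p.1.2) := polyMap_snd polyMap_fst'
  have h3 : (fun p : (BTup g n r × Mat r) × ℂ => p.2) ∈ PolyFun ((BTup g n r × Mat r) × ℂ) :=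
    polyFun_linear (LinearMap.snd ℂ (BTup g n r × Mat r) ℂ)
  have hp := polyMap_pre (E := (BTup g n r × Mat r) × ℂ) j h1
  have hj := polyMap_apply h1 j
  exact polyMap_smul h3 (polyMap_mul (polyMap_mul (polyMap_mul (polyMap_mul
    (polyMap_adjugate hp) h2) hp) hj) (polyMap_mul (polyMap_mul (polyMap_adjugate hp)
      (polyMap_adjugate h2)) hp))

/-- on the cone the new boundary element is the integral one -/
theorem nb_emb [NeZero r] (τ : Fin n → SpecialLinearGroup (Fin r) (𝓞 L)) (c : Fin n → Mat r)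
    (hc : ∀ j, c j = emb φ (τ j).1) (j : Fin n) (t : SpecialLinearGroup (Fin r) (𝓞 L))
    {κ : ℂ} (hκ : κ ≠ 0) : nb j c (κ • emb φ t.1) (κ ^ r)⁻¹ =
    emb φ (((preM τ j)⁻¹ * t * preM τ j) * τ j * ((preM τ j)⁻¹ * t * preM τ j)⁻¹).1 := by
  unfold nb
  rw [pre_emb φ τ c hc j, hc j, Matrix.adjugate_smul, Fintype.card_fin]
  have e1 : ((preM τ j)⁻¹ * t * preM τ j)⁻¹ = (preM τ j)⁻¹ * t⁻¹ * preM τ j := by group
  rw [e1]
  have e2 : ((preM τ j)⁻¹ * t * preM τ j * τ j * ((preM τ j)⁻¹ * t⁻¹ * preM τ j)).1 =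
      ((preM τ j)⁻¹).1 * t.1 * (preM τ j).1 * (τ j).1 *
        (((preM τ j)⁻¹).1 * (t⁻¹).1 * (preM τ j).1) := rfl
  rw [e2]
  simp only [emb_mul, emb_inv]
  simp only [Algebra.smul_mul_assoc, Algebra.mul_smul_comm, smul_smul]
  have e3 : (κ ^ r)⁻¹ * (κ ^ (r - 1) * κ) = 1 := by
    have : κ ^ (r - 1) * κ = κ ^ r := by
      rw [← pow_succ]
      congr 1
      have := NeZero.pos r
      omega
    rw [this, inv_mul_cancel₀ (pow_ne_zero _ hκ)]
  first
    | rw [e3, one_smul]
    | (rw [show (κ ^ r)⁻¹ * (κ * κ ^ (r - 1)) = 1 by rw [mul_comm κ]; exact e3, one_smul])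

/-- the new boundary element agrees with the one of the ring-level move -/
theorem nb_eq {c : Fin n → Mat r} {j : Fin n} (hP : (pre c j).det = 1) {t : Mat r}
    (ht : IsUnit t) : nb j c t (t.det)⁻¹ =
    (Ring.inverse (pre c j) * t * pre c j * 1) * c j *
      Ring.inverse (Ring.inverse (pre c j) * t * pre c j * 1) := by
  have hPu : IsUnit (pre c j) := by
    rw [Matrix.isUnit_iff_isUnit_det, hP]; exact isUnit_one
  rw [mul_one, ring_inv_mul (hPu.ringInverse.mul ht) hPu, ring_inv_mul hPu.ringInverse ht]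
  have e1 : Ring.inverse (Ring.inverse (pre c j)) = pre c j := by
    obtain ⟨P, hP'⟩ := hPu
    rw [← hP', Ring.inverse_unit, Ring.inverse_unit, inv_inv]
  rw [e1, rinv_adj hPu, hP, inv_one, one_smul, rinv_adj ht]
  unfold nb
  simp only [Algebra.smul_mul_assoc, Algebra.mul_smul_comm, mul_assoc]

variable [NeZero r]
variable (hφ : ¬ ComplexEmbedding.IsReal φ) (w : InfinitePlace L) (hw : w ≠ InfinitePlace.mk φ)

theorem intRepB_move {σ : Fin (g + 1) → SpecialLinearGroup (Fin r) (𝓞 L) ×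
    SpecialLinearGroup (Fin r) (𝓞 L)} {τ : Fin n → SpecialLinearGroup (Fin r) (𝓞 L)}
    (hσ : IsIntRepB σ τ) (j : Fin n)
    (p : SpecialLinearGroup (Fin r) (𝓞 L) × SpecialLinearGroup (Fin r) (𝓞 L))
    (t : SpecialLinearGroup (Fin r) (𝓞 L))
    (hp : (p.1 * p.2 * p.1⁻¹ * p.2⁻¹) * (t * (preM τ j * τ j * (preM τ j)⁻¹) * t⁻¹) =
      ((σ (Fin.last g)).1 * (σ (Fin.last g)).2 * (σ (Fin.last g)).1⁻¹ * (σ (Fin.last g)).2⁻¹) *
        (preM τ j * τ j * (preM τ j)⁻¹)) :
    IsIntRepB (Function.update σ (Fin.last g) p) (Function.update τ j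
      (((preM τ j)⁻¹ * t * preM τ j) * τ j * ((preM τ j)⁻¹ * t * preM τ j)⁻¹)) := by
  unfold IsIntRepB at *
  have h1 : (fun i => (Function.update σ (Fin.last g) p i).1 * (Function.update σ (Fin.last g) p i).2 *
      (Function.update σ (Fin.last g) p i).1⁻¹ * (Function.update σ (Fin.last g) p i).2⁻¹) =
      Function.update (cms σ) (Fin.last g) (p.1 * p.2 * p.1⁻¹ * p.2⁻¹) := by
    funext i
    by_cases hi : i = Fin.last g
    · subst hi; simp
    · simp [Function.update_of_ne hi, cms]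
  rw [h1, rel_move]
  · exact hσ
  · set P := preM τ j
    calc p.1 * p.2 * p.1⁻¹ * p.2⁻¹ * P * (P⁻¹ * t * P * τ j * (P⁻¹ * t * P)⁻¹)
        = (p.1 * p.2 * p.1⁻¹ * p.2⁻¹) * (t * (P * τ j * P⁻¹) * t⁻¹) * P := by group
      _ = _ := by rw [hp]; simp only [cms]; group

theorem cls_move {J : Fin n → Mat r} {τ : Fin n → SpecialLinearGroup (Fin r) (𝓞 L)}
    (hτ : ∀ j, emb φ (τ j).1 ∈ Cls (J j)) (j : Fin n) (Q : SpecialLinearGroup (Fin r) (𝓞 L)) :
    ∀ i, emb φ ((Function.update τ j (Q * τ j * Q⁻¹)) i).1 ∈ Cls (J i) := by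
  intro i
  by_cases hi : i = j
  · subst hi
    rw [Function.update_self]
    have e1 : (Q * τ i * Q⁻¹).1 = Q.1 * (τ i).1 * (Q⁻¹).1 := rfl
    rw [e1, emb_mul, emb_mul, ← emb_inv']
    exact Cls_conj (hτ i) (isUnit_emb φ Q)
  · rw [Function.update_of_ne hi]; exact hτ i

include hφ hw

theorem b5_mem (J : Fin n → Mat r) (j : Fin n) {z : BTup (g + 1) n r}
    (hz : z ∈ WWB φ (g + 1) J) (hup : UP (z.1 (Fin.last g)))
    (hgr : gram (e5 (bst z j)) ≠ 0) {t : Mat r} (htu : IsUnit t)
    (ht : Commute t (e5 (bst z j))) :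
    ((Function.update z.1 (Fin.last g) (f5 (bst z j) t).1, Function.update z.2 j
      ((f5 (bst z j) t).2.1 * z.2 j * Ring.inverse (f5 (bst z j) t).2.1)) : BTup (g + 1) n r) ∈
      WWB φ (g + 1) J := by
  have hdt : t.det ≠ 0 := ((Matrix.isUnit_iff_isUnit_det t).mp htu).ne_zero
  have hP := det_pre_WWB φ J hz j
  have hPu : IsUnit (pre z.2 j) := by
    rw [Matrix.isUnit_iff_isUnit_det, hP]; exact isUnit_one
  -- polynomial data
  let e : BTup (g + 1) n r → Mat r := fun z => (z.1 (Fin.last g)).2 *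
    (z.1 (Fin.last g)).1.adjugate * (z.1 (Fin.last g)).2.adjugate *
    (pre z.2 j * z.2 j * (pre z.2 j).adjugate)
  let T : (BTup (g + 1) n r × Mat r) × ℂ → BTup (g + 1) n r := fun p =>
    (Function.update p.1.1.1 (Fin.last g)
      ((p.1.1.1 (Fin.last g)).1, p.1.2 * (p.1.1.1 (Fin.last g)).2),
      Function.update p.1.1.2 j (nb j p.1.1.2 p.1.2 p.2))
  have hpe : Pr (e z) (e5 (bst z j)) := by
    simp only [e, e5, bst, bX, Ring.inverse_one, one_mul, mul_one]
    exact (((Pr.refl _).mul (Pr.of_ringInverse hup.1)).mul (Pr.of_ringInverse hup.2)).mul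
      ((Pr.refl _).mul (Pr.of_ringInverse hPu))
  have hepoly : PolyMap e := by
    have h1 := poly1 (polyMap_fst' (E := Tup (g + 1) r) (E' := Fin n → Mat r)) (Fin.last g)
    have h2 := poly2 (polyMap_fst' (E := Tup (g + 1) r) (E' := Fin n → Mat r)) (Fin.last g)
    have h3 := polyMap_pre j (polyMap_snd' (E := Tup (g + 1) r) (E' := Fin n → Mat r))
    have h4 := polyMap_apply (polyMap_snd' (E := Tup (g + 1) r) (E' := Fin n → Mat r)) j
    exact polyMap_mul (polyMap_mul (polyMap_mul h2 (polyMap_adjugate h1)) (polyMap_adjugate h2))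
      (polyMap_mul (polyMap_mul h3 h4) (polyMap_adjugate h3))
  have hTpoly : PolyMap T := by
    have h0 : PolyMap (fun p : (BTup (g + 1) n r × Mat r) × ℂ => p.1.1) :=
      polyMap_fst polyMap_fst'
    have h1 := poly1 (polyMap_fst h0) (Fin.last g)
    have h2 := poly2 (polyMap_fst h0) (Fin.last g)
    have ht : PolyMap (fun p : (BTup (g + 1) n r × Mat r) × ℂ => p.1.2) := polyMap_snd polyMap_fst'
    exact polyMap_prodMk (polyMap_update1 (polyMap_fst h0) _ (polyMap_prodMk h1 (polyMap_mul ht h2)))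
      (polyMap_updM (polyMap_snd h0) j (polyMap_nb j))
  have key := twist_gen φ hφ w hw (C := ConeB φ (g + 1) J) hepoly hTpoly ?_ hz (hpe.gram_ne hgr) hdt
    (hpe.commute ht)
  · have hT : T ((z, t), (t.det)⁻¹) = (Function.update z.1 (Fin.last g) (f5 (bst z j) t).1,
        Function.update z.2 j ((f5 (bst z j) t).2.1 * z.2 j *
          Ring.inverse (f5 (bst z j) t).2.1)) := by
      simp only [T, f5, bst]
      rw [nb_eq hP htu]
    rw [← hT]
    exact key
  · intro c hc
    obtain ⟨σ, τ, hσ, hτ, h, hcτ⟩ := (coneB_iff φ J c).mp hc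
    have hX : pre c.2 j * c.2 j * (pre c.2 j).adjugate =
        emb φ (preM τ j * τ j * (preM τ j)⁻¹).1 := by
      rw [pre_emb φ τ c.2 hcτ j, hcτ j, ← emb_inv, ← emb_mul, ← emb_mul]
      rfl
    have he : Pr (e c) (emb φ ((σ (Fin.last g)).2 * (σ (Fin.last g)).1⁻¹ * (σ (Fin.last g)).2⁻¹ *
        (preM τ j * τ j * (preM τ j)⁻¹)).1) := by
      have := (((h (Fin.last g)).2.mul (h (Fin.last g)).1.adj).mul (h (Fin.last g)).2.adj).mul
        (Pr.refl (emb φ (preM τ j * τ j * (preM τ j)⁻¹).1))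
      rw [← emb_inv, ← emb_inv, ← emb_mul, ← emb_mul, ← emb_mul] at this
      simp only [e, hX]
      exact this
    obtain ⟨s, hs, hs'⟩ := he
    refine ⟨_, s, hs, hs', ?_⟩
    intro t ht κ hκ
    rw [coneB_iff]
    have ht' : Commute t ((σ (Fin.last g)).2 * (σ (Fin.last g)).1⁻¹ * (σ (Fin.last g)).2⁻¹ *
        (preM τ j * τ j * (preM τ j)⁻¹)) := Subtype.ext ht.eq
    refine ⟨Function.update σ (Fin.last g) ((σ (Fin.last g)).1, t * (σ (Fin.last g)).2),
      Function.update τ j (((preM τ j)⁻¹ * t * preM τ j) * τ j * ((preM τ j)⁻¹ * t * preM τ j)⁻¹),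
      intRepB_move hσ j _ t (grp_B5 _ _ _ _ ht'), cls_move φ hτ j _, fun i => ?_, fun i => ?_⟩
    · have ht1 : Pr (κ • emb φ t.1) (emb φ t.1) := ⟨κ, hκ, rfl⟩
      by_cases hi : i = Fin.last g
      · subst hi
        simp only [T, Function.update_self]
        refine ⟨(h _).1, ?_⟩
        have := ht1.mul (h (Fin.last g)).2
        rwa [← emb_mul] at this
      · simp only [T, Function.update_of_ne hi]
        exact h i
    · by_cases hi : i = j
      · subst hi
        simp only [T, Function.update_self]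
        exact nb_emb φ τ c.2 hcτ i t hκ
      · simp only [T, Function.update_of_ne hi]
        exact hcτ i

theorem b6_mem (J : Fin n → Mat r) (j : Fin n) (m : ℕ) {z : BTup (g + 1) n r}
    (hz : z ∈ WWB φ (g + 1) J) (hup : UP (z.1 (Fin.last g)))
    (hgr : gram (e6 m (bst z j)) ≠ 0) {t : Mat r} (htu : IsUnit t)
    (ht : Commute t (e6 m (bst z j))) :
    ((Function.update z.1 (Fin.last g) (f6 m (bst z j) t).1, Function.update z.2 j
      ((f6 m (bst z j) t).2.1 * z.2 j * Ring.inverse (f6 m (bst z j) t).2.1)) :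
        BTup (g + 1) n r) ∈ WWB φ (g + 1) J := by
  have hdt : t.det ≠ 0 := ((Matrix.isUnit_iff_isUnit_det t).mp htu).ne_zero
  have hP := det_pre_WWB φ J hz j
  have hPu : IsUnit (pre z.2 j) := by
    rw [Matrix.isUnit_iff_isUnit_det, hP]; exact isUnit_one
  let e : BTup (g + 1) n r → Mat r := fun z =>
    ((z.1 (Fin.last g)).2 * (z.1 (Fin.last g)).1 ^ m).adjugate *
    (pre z.2 j * z.2 j * (pre z.2 j).adjugate)
  let T : (BTup (g + 1) n r × Mat r) × ℂ → BTup (g + 1) n r := fun p =>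
    (Function.update p.1.1.1 (Fin.last g)
      ((p.1.1.1 (Fin.last g)).1 * p.1.2.adjugate,
        p.1.2 * ((p.1.1.1 (Fin.last g)).2 * (p.1.1.1 (Fin.last g)).1 ^ m) * p.1.2.adjugate *
          ((p.1.1.1 (Fin.last g)).1 * p.1.2.adjugate).adjugate ^ m),
      Function.update p.1.1.2 j (nb j p.1.1.2 p.1.2 p.2))
  have hpe : Pr (e z) (e6 m (bst z j)) := by
    simp only [e, e6, bst, bX, Ring.inverse_one, one_mul, mul_one]
    exact (Pr.of_ringInverse (hup.2.mul (hup.1.pow m))).mul
      ((Pr.refl _).mul (Pr.of_ringInverse hPu))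
  have hepoly : PolyMap e := by
    have h1 := poly1 (polyMap_fst' (E := Tup (g + 1) r) (E' := Fin n → Mat r)) (Fin.last g)
    have h2 := poly2 (polyMap_fst' (E := Tup (g + 1) r) (E' := Fin n → Mat r)) (Fin.last g)
    have h3 := polyMap_pre j (polyMap_snd' (E := Tup (g + 1) r) (E' := Fin n → Mat r))
    have h4 := polyMap_apply (polyMap_snd' (E := Tup (g + 1) r) (E' := Fin n → Mat r)) j
    exact polyMap_mul (polyMap_adjugate (polyMap_mul h2 (polyMap_pow h1 m)))
      (polyMap_mul (polyMap_mul h3 h4) (polyMap_adjugate h3))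
  have hTpoly : PolyMap T := by
    have h0 : PolyMap (fun p : (BTup (g + 1) n r × Mat r) × ℂ => p.1.1) :=
      polyMap_fst polyMap_fst'
    have h1 := poly1 (polyMap_fst h0) (Fin.last g)
    have h2 := poly2 (polyMap_fst h0) (Fin.last g)
    have ht : PolyMap (fun p : (BTup (g + 1) n r × Mat r) × ℂ => p.1.2) := polyMap_snd polyMap_fst'
    exact polyMap_prodMk (polyMap_update1 (polyMap_fst h0) _
      (polyMap_prodMk (polyMap_mul h1 (polyMap_adjugate ht))
        (polyMap_mul (polyMap_mul (polyMap_mul ht (polyMap_mul h2 (polyMap_pow h1 m)))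
          (polyMap_adjugate ht)) (polyMap_pow (polyMap_adjugate
            (polyMap_mul h1 (polyMap_adjugate ht))) m))))
      (polyMap_updM (polyMap_snd h0) j (polyMap_nb j))
  have key := twist_gen φ hφ w hw (C := ConeB φ (g + 1) J) hepoly hTpoly ?_ hz (hpe.gram_ne hgr) hdt
    (hpe.commute ht)
  · -- compare with the ring-level move, up to scaling of the handle
    have hz1 : ((Function.update z.1 (Fin.last g) (f6 m (bst z j) t).1, Function.update z.2 j
        (nb j z.2 t (t.det)⁻¹)) : BTup (g + 1) n r) ∈ WWB φ (g + 1) J := by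
      refine WWB_pr φ J key fun i => ?_
      by_cases hi : i = Fin.last g
      · subst hi
        simp only [Function.update_self, f6, bst]
        have ha : Pr ((z.1 (Fin.last g)).1 * Ring.inverse t) ((z.1 (Fin.last g)).1 * t.adjugate) :=
          (Pr.refl _).mul (Pr.of_ringInverse htu).symm
        have haa : Pr (Ring.inverse ((z.1 (Fin.last g)).1 * Ring.inverse t))
            (((z.1 (Fin.last g)).1 * t.adjugate).adjugate) := by
          have h1 := (Pr.of_ringInverse (hup.1.mul htu.ringInverse)).symm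
          exact h1.trans ha.adj
        exact ⟨ha, ((Pr.refl _).mul (Pr.of_ringInverse htu).symm).mul (haa.pow m)⟩
      · simp only [Function.update_of_ne hi]
        exact ⟨Pr.refl _, Pr.refl _⟩
    have hb : (f6 m (bst z j) t).2.1 * z.2 j * Ring.inverse (f6 m (bst z j) t).2.1 =
        nb j z.2 t (t.det)⁻¹ := by
      rw [nb_eq hP htu]; rfl
    rw [hb]
    exact hz1
  · intro c hc
    obtain ⟨σ, τ, hσ, hτ, h, hcτ⟩ := (coneB_iff φ J c).mp hc
    have hX : pre c.2 j * c.2 j * (pre c.2 j).adjugate =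
        emb φ (preM τ j * τ j * (preM τ j)⁻¹).1 := by
      rw [pre_emb φ τ c.2 hcτ j, hcτ j, ← emb_inv, ← emb_mul, ← emb_mul]
      rfl
    have he : Pr (e c) (emb φ (((σ (Fin.last g)).2 * (σ (Fin.last g)).1 ^ m)⁻¹ *
        (preM τ j * τ j * (preM τ j)⁻¹)).1) := by
      have := (((h (Fin.last g)).2.mul ((h (Fin.last g)).1.pow m)).adj).mul
        (Pr.refl (emb φ (preM τ j * τ j * (preM τ j)⁻¹).1))
      have e0 : ((σ (Fin.last g)).2 * (σ (Fin.last g)).1 ^ m).1 =
        (σ (Fin.last g)).2.1 * (σ (Fin.last g)).1.1 ^ m := rfl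
      rw [← emb_pow, ← emb_mul, ← e0, ← emb_inv, ← emb_mul] at this
      simp only [e, hX]
      exact this
    obtain ⟨s, hs, hs'⟩ := he
    refine ⟨_, s, hs, hs', ?_⟩
    intro t ht κ hκ
    rw [coneB_iff]
    have ht' : Commute t (((σ (Fin.last g)).2 * (σ (Fin.last g)).1 ^ m)⁻¹ *
        (preM τ j * τ j * (preM τ j)⁻¹)) := Subtype.ext ht.eq
    refine ⟨Function.update σ (Fin.last g) ((σ (Fin.last g)).1 * t⁻¹,
      t * ((σ (Fin.last g)).2 * (σ (Fin.last g)).1 ^ m) * t⁻¹ *
        ((σ (Fin.last g)).1 * t⁻¹)⁻¹ ^ m),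
      Function.update τ j (((preM τ j)⁻¹ * t * preM τ j) * τ j * ((preM τ j)⁻¹ * t * preM τ j)⁻¹),
      intRepB_move hσ j _ t (grp_B6 _ _ _ _ m ht'), cls_move φ hτ j _, fun i => ?_, fun i => ?_⟩
    · have ht1 : Pr (κ • emb φ t.1) (emb φ t.1) := ⟨κ, hκ, rfl⟩
      by_cases hi : i = Fin.last g
      · subst hi
        simp only [T, Function.update_self]
        have ha : Pr ((c.1 (Fin.last g)).1 * (κ • emb φ t.1).adjugate)
            (emb φ ((σ (Fin.last g)).1 * t⁻¹).1) := by
          have := (h (Fin.last g)).1.mul ht1.adj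
          rwa [← emb_inv, ← emb_mul] at this
        refine ⟨ha, ?_⟩
        have h2 := (((ht1.mul ((h (Fin.last g)).2.mul ((h (Fin.last g)).1.pow m)))).mul
          ht1.adj).mul (ha.adj.pow m)
        rw [← emb_inv, ← emb_inv, ← emb_pow, ← emb_pow, ← emb_mul, ← emb_mul, ← emb_mul,
          ← emb_mul] at h2
        exact h2
      · simp only [T, Function.update_of_ne hi]
        exact h i
    · by_cases hi : i = j
      · subst hi
        simp only [T, Function.update_self]
        exact nb_emb φ τ c.2 hcτ i t hκ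
      · simp only [T, Function.update_of_ne hi]
        exact hcτ i

theorem moveClosedB_WWB (J : Fin n → Mat r) : MoveClosedB (WWB φ (g + 1) J) where
  mc := fun c =>
    { pr := fun hx h => WWB_pr φ J hx h
      m1 := fun i m _ hx hg _ htu ht => pF1_memB φ hφ w hw J i m hx hg htu ht
      m2 := fun i _ hx hg _ htu ht => pF2_memB φ hφ w hw J i hx hg htu ht
      m3 := fun i i' hi m _ hx hg _ htu ht => pF3_memB φ hφ w hw J i i' hi m hx hg htu ht
      m4 := fun i i' hi m _ hx hg _ htu ht => pF4_memB φ hφ w hw J i i' hi m hx hg htu ht }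
  b5 := fun j _ hz hup _ hg _ htu ht => b5_mem φ hφ w hw J j hz hup hg htu ht
  b6 := fun j m _ hz hup _ hg _ htu ht => b6_mem φ hφ w hw J j m hz hup hg htu ht

end

end Vale.Agent.P002
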