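import Vale.Agent.P002.BDefs

namespace Vale.Agent.P002

open Matrix NumberField

section conj
variable {K : Type*} [Field K] {r : ℕ}

theorem exists_tri_col (B : Matrix (Fin r) (Fin r) K) (hB : ∀ i j, j < i → B i j = 0)
    (hd : ∀ i j, i ≠ j → B i i ≠ B j j) (k : Fin r) (m : ℕ) :
    ∃ v : Fin r → K, v k = 1 ∧ (∀ i, k < i → v i = 0) ∧
      ∀ i : Fin r, (k : ℕ) ≤ i + m → (B.mulVec v) i = B k k * v i := by
  induction m with
  | zero =>
    refine ⟨Pi.single k 1, by simp, fun i hi => by simp [hi.ne'], fun i hi => ?_⟩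
    rw [Matrix.mulVec_single_one]
    by_cases h : i = k
    · subst h; simp
    · have h2 : k < i := lt_of_le_of_ne (by rw [Fin.le_def]; simpa using hi) (Ne.symm h)
      simp [h, hB i k h2]
  | succ m ih =>
    obtain ⟨v, h1, h2, h3⟩ := ih
    by_cases hk : (k : ℕ) ≤ m
    · exact ⟨v, h1, h2, fun i _ => h3 i (by omega)⟩
    · push Not at hk
      have hlt : (k : ℕ) - m - 1 < r := by have := k.2; omega
      set i0 : Fin r := ⟨(k : ℕ) - m - 1, hlt⟩ with hi0
      have hi0k : i0 < k := by rw [Fin.lt_def]; simp [hi0]; omega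
      have hne : B k k - B i0 i0 ≠ 0 := sub_ne_zero.mpr (hd k i0 hi0k.ne')
      set t : K := ((B.mulVec v) i0 - B k k * v i0) / (B k k - B i0 i0) with ht
      refine ⟨v + Pi.single i0 t, ?_, fun i hi => ?_, fun i hi => ?_⟩
      · simp [h1, hi0k.ne']
      · have : i ≠ i0 := (hi0k.trans hi).ne'
        simp [h2 i hi, this]
      · rw [Matrix.mulVec_add, Matrix.mulVec_single]
        simp only [Pi.add_apply, Pi.smul_apply, MulOpposite.smul_eq_mul_unop,
          MulOpposite.unop_op]
        by_cases h : i = i0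
        · subst h
          simp only [Pi.single_eq_same, Matrix.col_apply]
          rw [ht]
          field_simp
          ring
        · have h4 : (k : ℕ) ≤ i + m := by
            have : (i : ℕ) ≠ (k : ℕ) - m - 1 := fun h' => h (Fin.ext h')
            omega
          have h5 : i0 < i := by rw [Fin.lt_def]; simp [hi0]; omega
          simp [h, h3 i h4, Matrix.col_apply, hB i i0 h5]

theorem exists_tri_conj (B : Matrix (Fin r) (Fin r) K) (hB : ∀ i j, j < i → B i j = 0)
    (hd : ∀ i j, i ≠ j → B i i ≠ B j j) :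
    ∃ V : Matrix (Fin r) (Fin r) K, (∀ i j, j < i → V i j = 0) ∧ (∀ i, V i i = 1) ∧
      B * V = V * diagonal (fun i => B i i) := by
  choose v h1 h2 h3 using fun k => exists_tri_col B hB hd k r
  refine ⟨Matrix.of fun i k => v k i, fun i j hij => h2 j i hij, fun i => h1 i, ?_⟩
  ext i k
  rw [Matrix.mul_diagonal, Matrix.mul_apply]
  have := h3 k i (by have := k.2; omega)
  rw [Matrix.mulVec, dotProduct] at this
  simp only [Matrix.of_apply]
  rw [this, mul_comm]

end conj

section api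
variable {r : ℕ}

theorem tri_apply (M : Mat r) (s : ℂ) (k l : Fin r) :
    tri M s k l = if k ≤ l then s ^ ((l : ℕ) - k) * M k l else 0 := rfl

theorem tri_upper (M : Mat r) (s : ℂ) (i j : Fin r) (h : j < i) : tri M s i j = 0 := by
  rw [tri_apply, if_neg (not_le.mpr h)]

theorem tri_mul (M N : Mat r) (hM : ∀ i j, j < i → M i j = 0) (hN : ∀ i j, j < i → N i j = 0)
    (s : ℂ) : tri (M * N) s = tri M s * tri N s := by
  ext k l
  rw [tri_apply, Matrix.mul_apply, Matrix.mul_apply]
  split_ifs with h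
  · rw [Finset.mul_sum]
    refine Finset.sum_congr rfl fun j _ => ?_
    rw [tri_apply, tri_apply]
    by_cases h1 : k ≤ j
    · by_cases h2 : j ≤ l
      · rw [if_pos h1, if_pos h2]
        have h1' : (k : ℕ) ≤ j := h1
        have h2' : (j : ℕ) ≤ l := h2
        have : s ^ ((l : ℕ) - k) = s ^ ((j : ℕ) - k) * s ^ ((l : ℕ) - j) := by
          rw [← pow_add]; congr 1; omega
        rw [this]; ring
      · rw [if_neg h2, hN j l (not_le.mp h2)]; simp
    · rw [if_neg h1, hM k j (not_le.mp h1)]; simp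
  · symm
    refine Finset.sum_eq_zero fun j _ => ?_
    rw [tri_apply, tri_apply]
    by_cases h1 : k ≤ j
    · have h2 : ¬ j ≤ l := fun h2 => h (h1.trans h2)
      rw [if_neg h2]; simp
    · rw [if_neg h1]; simp

theorem tri_diagonal (d : Fin r → ℂ) (s : ℂ) : tri (diagonal d) s = diagonal d := by
  ext k l
  rw [tri_apply]
  by_cases h : k = l
  · subst h; simp
  · simp [Matrix.diagonal_apply_ne _ h]

theorem tri_one (s : ℂ) : tri (1 : Mat r) s = 1 := by
  rw [← Matrix.diagonal_one, tri_diagonal]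

theorem tri_at_one (M : Mat r) (hM : ∀ i j, j < i → M i j = 0) : tri M 1 = M := by
  ext k l
  rw [tri_apply]
  split_ifs with h
  · simp
  · exact (hM k l (not_le.mp h)).symm

theorem tri_at_zero (M : Mat r) : tri M 0 = diagonal (fun i => M i i) := by
  ext k l
  rw [tri_apply]
  by_cases h : k = l
  · subst h; simp
  · rw [Matrix.diagonal_apply_ne _ h]
    split_ifs with h1
    · have : (l : ℕ) - k ≠ 0 := by
        have : (k : ℕ) < l := lt_of_le_of_ne h1 (fun h' => h (Fin.ext h'))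
        omega
      simp [this]
    · rfl

theorem det_upper {R : Type*} [CommRing R] (M : Matrix (Fin r) (Fin r) R)
    (hM : ∀ i j, j < i → M i j = 0) : M.det = ∏ i, M i i :=
  Matrix.det_of_isUpperTriangular (fun i j h => hM i j h)

theorem tri_diag_apply (M : Mat r) (s : ℂ) (i : Fin r) : tri M s i i = M i i := by
  rw [tri_apply]; simp

theorem det_tri (M : Mat r) (s : ℂ) : (tri M s).det = ∏ i, M i i := by
  rw [det_upper _ (tri_upper M s)]
  simp [tri_diag_apply]

theorem det_tri_eq (M : Mat r) (hM : ∀ i j, j < i → M i j = 0) (s : ℂ) :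
    (tri M s).det = M.det := by
  rw [det_tri, det_upper M hM]

theorem continuous_tri (M : Mat r) : Continuous (tri M) := by
  refine continuous_matrix fun k l => ?_
  simp only [tri_apply]
  split_ifs
  · fun_prop
  · exact continuous_const

theorem polyMap_tri (M : Mat r) : PolyMap (fun s : ℂ => tri M s) := by
  refine polyMap_of_entry fun k l => ?_
  simp only [tri_apply]
  split_ifs
  · refine polyFun_mul (polyFun_pow ?_ _) (polyFun_const _)
    exact polyFun_linear (LinearMap.id : ℂ →ₗ[ℂ] ℂ)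
  · exact polyFun_const _

theorem tri_conj (M : Mat r) (hM : ∀ i j, j < i → M i j = 0) {s : ℂ} (hs : s ≠ 0) :
    ∃ h : Mat r, IsUnit h.det ∧ tri M s = h * M * h⁻¹ := by
  have hu : IsUnit (diagonal (fun k : Fin r => (s⁻¹) ^ (k : ℕ))).det := by
    rw [Matrix.det_diagonal, isUnit_iff_ne_zero, Finset.prod_ne_zero_iff]
    intro i _
    exact pow_ne_zero _ (inv_ne_zero hs)
  refine ⟨diagonal (fun k : Fin r => (s⁻¹) ^ (k : ℕ)), hu, ?_⟩
  have key : tri M s * diagonal (fun k : Fin r => (s⁻¹) ^ (k : ℕ))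
      = diagonal (fun k : Fin r => (s⁻¹) ^ (k : ℕ)) * M := by
    ext k l
    rw [Matrix.mul_diagonal, Matrix.diagonal_mul, tri_apply]
    split_ifs with h
    · have h' : (k : ℕ) ≤ l := h
      have e : (l : ℕ) = ((l : ℕ) - k) + k := by omega
      have : s ^ ((l : ℕ) - k) * (s⁻¹) ^ (l : ℕ) = (s⁻¹) ^ (k : ℕ) := by
        conv_lhs => rw [e, pow_add]
        rw [Nat.add_sub_cancel, ← mul_assoc, ← mul_pow, mul_inv_cancel₀ hs, one_pow, one_mul]
      linear_combination M k l * this
    · rw [hM k l (not_le.mp h)]; simp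
  rw [← key, Matrix.mul_assoc, Matrix.mul_nonsing_inv _ hu, mul_one]

theorem tri_mem_Cls (M : Mat r) (hM : ∀ i j, j < i → M i j = 0) {s : ℂ} (hs : s ≠ 0) :
    tri M s ∈ Cls M := tri_conj M hM hs

theorem inv_upper {R : Type*} [CommRing R] (M : Matrix (Fin r) (Fin r) R)
    (hM : ∀ i j, j < i → M i j = 0) (hu : IsUnit M.det) : ∀ i j, j < i → M⁻¹ i j = 0 := by
  have : Invertible M := (Matrix.isUnit_iff_isUnit_det M).mpr hu |>.invertible
  have h : M.BlockTriangular id := fun i j h => hM i j h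
  have := Matrix.blockTriangular_inv_of_blockTriangular h
  exact fun i j hij => this hij

theorem tri_inv (M : Mat r) (hM : ∀ i j, j < i → M i j = 0) (hu : IsUnit M.det) (s : ℂ) :
    (tri M s)⁻¹ = tri M⁻¹ s := by
  refine Matrix.inv_eq_right_inv ?_
  rw [← tri_mul M M⁻¹ hM (inv_upper M hM hu), Matrix.mul_nonsing_inv _ hu, tri_one]

end api

section integral
variable {L : Type*} [Field L] [NumberField L] {r : ℕ}

theorem exists_int_mul_family {ι : Type*} [Fintype ι] (f : ι → L) :
    ∃ d : ℕ, 0 < d ∧ ∀ i, ∃ z : 𝓞 L, (z : L) = d * f i := by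
  classical
  have alg : Algebra.IsAlgebraic ℤ L :=
    ⟨fun x => (IsFractionRing.isAlgebraic_iff ℤ ℚ L).mpr (Algebra.IsAlgebraic.isAlgebraic x)⟩
  obtain ⟨y, hy0, hy⟩ := Algebra.IsAlgebraic.exists_integral_multiples ℤ
    (A := L) (Finset.univ.image f)
  refine ⟨y.natAbs, Int.natAbs_pos.mpr hy0, fun i => ?_⟩
  have h1 : IsIntegral ℤ (y • f i) := hy (f i) (Finset.mem_image_of_mem f (Finset.mem_univ i))
  have h2 : IsIntegral ℤ ((y.natAbs : L) * f i) := by
    rcases Int.natAbs_eq y with h | h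
    · have : (y : L) = (y.natAbs : L) := by
        conv_lhs => rw [h]
        simp
      rw [← this, ← zsmul_eq_mul]
      exact h1
    · have : (y : L) = -(y.natAbs : L) := by
        conv_lhs => rw [h]
        simp
      have h3 : (y.natAbs : L) * f i = -(y • f i) := by
        rw [zsmul_eq_mul, this]; ring
      rw [h3]
      exact h1.neg
  exact ⟨⟨_, h2⟩, rfl⟩

theorem upper_entry_cast (V : Matrix (Fin r) (Fin r) L) (d : ℕ)
    (hd : ∀ p : Fin r × Fin r, ∃ z : 𝓞 L, (z : L) = d * V p.1 p.2) (m n : ℕ) (i j : Fin r) :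
    ∃ z : 𝓞 L, (z : L) = ((d * m : ℕ) : L) ^ (n + 1) * V i j := by
  obtain ⟨z, hz⟩ := hd (i, j)
  refine ⟨((d * m : ℕ) : 𝓞 L) ^ n * (m : 𝓞 L) * z, ?_⟩
  have h : algebraMap (𝓞 L) L (((d * m : ℕ) : 𝓞 L) ^ n * (m : 𝓞 L) * z)
      = ((d * m : ℕ) : L) ^ (n + 1) * V i j := by
    rw [map_mul, map_mul, map_pow, map_natCast, map_natCast,
      show (algebraMap (𝓞 L) L) z = (z : L) from rfl, hz]
    simp only
    push_cast
    ring
  exact h

theorem exists_integral_tri (φ : L →+* ℂ) (V : Matrix (Fin r) (Fin r) L)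
    (_h0 : ∀ i j, j < i → V i j = 0) (h1 : ∀ i, V i i = 1) :
    ∃ d : ℕ, 0 < d ∧ ∀ m : ℕ, ∃ W : SpecialLinearGroup (Fin r) (𝓞 L),
      emb φ W.1 = tri (V.map φ) ((d * m : ℕ) : ℂ) := by
  obtain ⟨d, hd, hz⟩ := exists_int_mul_family (fun p : Fin r × Fin r => V p.1 p.2)
  refine ⟨d, hd, fun m => ?_⟩
  have hex : ∀ i j : Fin r, ∃ z : 𝓞 L,
      (z : L) = if i ≤ j then ((d * m : ℕ) : L) ^ ((j : ℕ) - i) * V i j else 0 := by
    intro i j
    by_cases h : i = j
    · subst h
      exact ⟨1, by simp [h1]⟩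
    · by_cases h2 : i ≤ j
      · have h3 : (i : ℕ) < j := lt_of_le_of_ne h2 (fun h' => h (Fin.ext h'))
        obtain ⟨z, hz'⟩ := upper_entry_cast V d hz m ((j : ℕ) - i - 1) i j
        refine ⟨z, ?_⟩
        rw [hz', if_pos h2]
        congr 2
        omega
      · exact ⟨0, by simp [h2]⟩
  choose w hw using hex
  have hwu : ∀ i j, j < i → (Matrix.of w) i j = 0 := by
    intro i j hij
    have h := hw i j
    rw [if_neg (not_le.mpr hij)] at h
    exact (FaithfulSMul.algebraMap_injective (𝓞 L) L) (by rw [map_zero]; exact h)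
  have hwd : ∀ i, (Matrix.of w) i i = 1 := by
    intro i
    have h := hw i i
    rw [if_pos le_rfl, h1 i] at h
    simp only [Nat.sub_self, pow_zero, mul_one] at h
    exact (FaithfulSMul.algebraMap_injective (𝓞 L) L) (by rw [map_one]; exact h)
  refine ⟨⟨Matrix.of w, ?_⟩, ?_⟩
  · rw [det_upper _ hwu]
    simp [hwd]
  · ext i j
    simp only [emb, Matrix.map_apply, RingHom.comp_apply, Matrix.of_apply]
    rw [show (algebraMap (𝓞 L) L) (w i j) = ((w i j : 𝓞 L) : L) from rfl, hw, tri_apply]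
    split_ifs
    · rw [map_mul, map_pow, map_natCast, Matrix.map_apply]
    · rw [map_zero]

theorem exists_integral_tri_of_integral (φ : L →+* ℂ) (T : SpecialLinearGroup (Fin r) (𝓞 L))
    (hT : ∀ i j, j < i → T.1 i j = 0) (N : ℕ) :
    ∃ W : SpecialLinearGroup (Fin r) (𝓞 L), emb φ W.1 = tri (emb φ T.1) (N : ℂ) := by
  have hu : ∀ i j, j < i → (Matrix.of fun k l : Fin r =>
      if k ≤ l then ((N : ℕ) : 𝓞 L) ^ ((l : ℕ) - k) * T.1 k l else 0) i j = 0 := by
    intro i j hij
    rw [Matrix.of_apply, if_neg (not_le.mpr hij)]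
  refine ⟨⟨Matrix.of fun k l => if k ≤ l then ((N : ℕ) : 𝓞 L) ^ ((l : ℕ) - k) * T.1 k l else 0,
    ?_⟩, ?_⟩
  · rw [det_upper _ hu]
    simp only [Matrix.of_apply, le_refl, if_true, Nat.sub_self, pow_zero, one_mul]
    rw [← det_upper _ hT]
    exact T.2
  · ext i j
    simp only [emb, Matrix.map_apply, Matrix.of_apply]
    rw [tri_apply]
    split_ifs
    · rw [map_mul, map_pow, map_natCast, Matrix.map_apply]
    · rw [map_zero]

end integral

end Vale.Agent.P002
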