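import Vale.Agent.P002.Base

namespace Vale.Agent.P002

open Matrix NumberField Topology Filter

section diag
variable {L : Type*} [Field L] [NumberField L] {r : ℕ}

theorem prod_zpow' {G ι : Type*} [CommGroup G] (ε : G) (s : Finset ι) (f : ι → ℤ) :
    ∏ j ∈ s, ε ^ f j = ε ^ (∑ j ∈ s, f j) := by
  classical
  induction s using Finset.induction_on with
  | empty => simp
  | insert a s ha ih => rw [Finset.prod_insert ha, Finset.sum_insert ha, _root_.zpow_add, ih]

/-- a one-parameter group of diagonal matrices in `SL_r(𝓞 L)` -/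
noncomputable def dgH (ε : (𝓞 L)ˣ) (d : Fin r → ℤ) (hd : ∑ j, d j = 0) :
    Multiplicative ℤ →* SpecialLinearGroup (Fin r) (𝓞 L) where
  toFun n := ⟨diagonal (fun j => ((ε ^ (n.toAdd * d j) : (𝓞 L)ˣ) : 𝓞 L)), by
    rw [det_diagonal, ← Units.coe_prod, prod_zpow', ← Finset.mul_sum, hd, mul_zero, zpow_zero,
      Units.val_one]⟩
  map_one' := by
    apply Subtype.ext
    simp
  map_mul' m n := by
    apply Subtype.ext
    change diagonal _ = diagonal _ * diagonal _
    simp only [diagonal_mul_diagonal, toAdd_mul, add_mul, _root_.zpow_add, Units.val_mul]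

theorem dgH_val (ε : (𝓞 L)ˣ) (d : Fin r → ℤ) (hd : ∑ j, d j = 0) (n : ℤ) :
    (dgH ε d hd (Multiplicative.ofAdd n)).1 =
      diagonal (fun j => ((ε ^ (n * d j) : (𝓞 L)ˣ) : 𝓞 L)) := rfl

end diag

section cyc
variable {R : Type*} [CommRing R] {r : ℕ} [NeZero r]

def cycM (R : Type*) [CommRing R] (r : ℕ) [NeZero r] : Matrix (Fin r) (Fin r) R :=
  Matrix.of fun i j => if j = i + 1 then 1 else 0

theorem det_cycM : (cycM R r).det = 1 ∨ (cycM R r).det = -1 := by
  have h : cycM R r = (Equiv.addRight (1 : Fin r)).toPEquiv.toMatrix := by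
    ext i j
    simp only [cycM, Matrix.of_apply, PEquiv.toMatrix_apply, Equiv.toPEquiv_apply,
      Option.mem_some_iff, Equiv.coe_addRight]
    by_cases h : j = i + 1
    · rw [if_pos h, if_pos h.symm]
    · rw [if_neg h, if_neg (fun h' => h h'.symm)]
  rw [h, Matrix.det_permutation]
  rcases Int.units_eq_one_or (Equiv.Perm.sign (Equiv.addRight (1 : Fin r))) with h1 | h1
  · left; rw [h1]; simp
  · right; rw [h1]; simp

theorem exists_root {R : Type*} [CommRing R] [IsDomain R] {ζ : R} (hζ : IsPrimitiveRoot ζ (2 * r))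
    {d : R} (hd : d = 1 ∨ d = -1) : ∃ z : R, z ^ r * d = 1 := by
  rcases hd with rfl | rfl
  · exact ⟨1, by simp⟩
  · refine ⟨ζ, ?_⟩
    have h1 : ζ ^ r = -1 := by
      have h2 : IsPrimitiveRoot (ζ ^ r) 2 :=
        hζ.pow (by have := NeZero.pos r; omega) (by ring)
      exact h2.eq_neg_one_of_two_right
    rw [h1]; simp

end cyc

section base
variable {L : Type*} [Field L] [NumberField L] (φ : L →+* ℂ) {g r : ℕ} [NeZero r]

def cexp (r : ℕ) (j : Fin r) : ℤ := r * 2 ^ (j : ℕ) - (2 ^ r - 1)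

theorem sum_cexp : ∑ j, cexp r j = 0 := by
  unfold cexp
  rw [Finset.sum_sub_distrib, ← Finset.mul_sum, Finset.sum_const, Finset.card_univ,
    Fintype.card_fin, nsmul_eq_mul, Fin.sum_univ_eq_sum_range (fun j => (2 : ℤ) ^ j)]
  have : ∑ j ∈ Finset.range r, (2 : ℤ) ^ j = 2 ^ r - 1 := by
    have h : ∀ n : ℕ, ∑ j ∈ Finset.range n, (2 : ℤ) ^ j = 2 ^ n - 1 := by
      intro n
      induction n with
      | zero => simp
      | succ n ih => rw [Finset.sum_range_succ, ih, pow_succ]; ring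
    exact h r
  rw [this]; ring

theorem sum_dexp : ∑ j, (cexp r j - cexp r (j + 1)) = 0 := by
  rw [Finset.sum_sub_distrib, sub_eq_zero]
  exact Fintype.sum_equiv (Equiv.subRight (1 : Fin r)) _ _ fun j => by simp

theorem comm_dg (ε : (𝓞 L)ˣ) (P : SpecialLinearGroup (Fin r) (𝓞 L)) (z : 𝓞 L)
    (hP : P.1 = z • cycM (𝓞 L) r) (n : ℤ) :
    dgH ε (cexp r) sum_cexp (Multiplicative.ofAdd n) * P *
      (dgH ε (cexp r) sum_cexp (Multiplicative.ofAdd n))⁻¹ * P⁻¹ =
    dgH ε (fun j => cexp r j - cexp r (j + 1)) sum_dexp (Multiplicative.ofAdd n) := by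
  have h : dgH ε (cexp r) sum_cexp (Multiplicative.ofAdd n) * P =
      dgH ε (fun j => cexp r j - cexp r (j + 1)) sum_dexp (Multiplicative.ofAdd n) * P *
      dgH ε (cexp r) sum_cexp (Multiplicative.ofAdd n) := by
    apply Subtype.ext
    change diagonal _ * P.1 = diagonal _ * P.1 * diagonal _
    rw [hP]
    refine Matrix.ext fun i j => ?_
    rw [diagonal_mul, mul_diagonal, diagonal_mul]
    simp only [cycM, Matrix.smul_apply, Matrix.of_apply, smul_eq_mul, toAdd_ofAdd]
    by_cases hij : j = i + 1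
    · subst hij
      rw [if_pos rfl]
      have h2 : ε ^ (n * cexp r i) = ε ^ (n * (cexp r i - cexp r (i + 1))) *
          ε ^ (n * cexp r (i + 1)) := by
        rw [← _root_.zpow_add]; congr 1; ring
      rw [h2, Units.val_mul]
      ring
    · rw [if_neg hij]; ring
  rw [h]
  group

theorem base_cone (ε : (𝓞 L)ˣ) {ζ : 𝓞 L} (hζ : IsPrimitiveRoot ζ (2 * r))
    (n : Fin g → ℤ) (hn : ∑ i, n i = 0) :
    basePt (fun i => bα (φ ((ε : 𝓞 L) : L) ^ r) (n i)) ∈ Cone φ g r := by
  obtain ⟨z, hz⟩ := exists_root hζ (det_cycM (R := 𝓞 L) (r := r))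
  let P : SpecialLinearGroup (Fin r) (𝓞 L) := ⟨z • cycM (𝓞 L) r, by
    rw [Matrix.det_smul, Fintype.card_fin, hz]⟩
  have hz0 : z ≠ 0 := by
    rintro rfl
    rw [zero_pow (NeZero.ne r), zero_mul] at hz
    exact zero_ne_one hz
  rw [cone_iff]
  refine ⟨fun i => (dgH ε (cexp r) sum_cexp (Multiplicative.ofAdd (n i)), P), ?_, ?_⟩
  · unfold IsIntRep
    simp only
    rw [show (fun i : Fin g => dgH ε (cexp r) sum_cexp (Multiplicative.ofAdd (n i)) * P *
      (dgH ε (cexp r) sum_cexp (Multiplicative.ofAdd (n i)))⁻¹ * P⁻¹) =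
      fun i => dgH ε (fun j => cexp r j - cexp r (j + 1)) sum_dexp (Multiplicative.ofAdd (n i)) from
      funext fun i => comm_dg ε P z rfl (n i)]
    have h1 : (List.ofFn fun i => dgH ε (fun j => cexp r j - cexp r (j + 1)) sum_dexp
        (Multiplicative.ofAdd (n i))) = (List.ofFn fun i => Multiplicative.ofAdd (n i)).map
          (dgH ε (fun j => cexp r j - cexp r (j + 1)) sum_dexp) := by
      rw [List.map_ofFn]; rfl
    rw [h1, List.prod_hom, List.prod_ofFn, ← ofAdd_sum, hn, ofAdd_zero, map_one]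
  · intro i
    have hε0 : φ ((ε : 𝓞 L) : L) ≠ 0 := by
      have : ((ε : 𝓞 L) : L) ≠ 0 := by simp
      exact (map_ne_zero φ).mpr this
    constructor
    · refine ⟨φ ((ε : 𝓞 L) : L) ^ (n i * (2 ^ r - 1)), zpow_ne_zero _ hε0, ?_⟩
      ext a b
      simp only [basePt, emb, dgH_val, Matrix.smul_apply, Matrix.map_apply, smul_eq_mul]
      rw [mono_zero]
      by_cases hab : a = b
      · subst hab
        rw [diagonal_apply_eq, diagonal_apply_eq]
        have h2 : (φ.comp (algebraMap (𝓞 L) L)) ((ε ^ (n i * cexp r a) : (𝓞 L)ˣ) : 𝓞 L) =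
            φ ((ε : 𝓞 L) : L) ^ (n i * cexp r a) := by
          have h3 := map_zpow (Units.map (φ.comp (algebraMap (𝓞 L) L)).toMonoidHom) ε (n i * cexp r a)
          have h4 := congrArg Units.val h3
          rw [Units.val_zpow_eq_zpow_val] at h4
          exact h4
        rw [h2, ← zpow_add₀ hε0]
        unfold bα cexp
        rw [← zpow_natCast, ← _root_.zpow_mul]
        congr 1
        push_cast
        ring
      · rw [diagonal_apply_ne _ hab, diagonal_apply_ne _ hab, map_zero, mul_zero]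
    · have hφz : φ (z : L) ≠ 0 := by
        refine (map_ne_zero φ).mpr ?_
        simpa using hz0
      refine ⟨(φ (z : L))⁻¹, inv_ne_zero hφz, ?_⟩
      ext a b
      simp only [basePt, emb, Matrix.smul_apply, Matrix.map_apply, smul_eq_mul, P, cycM,
        Matrix.of_apply, mono_apply, Pi.one_apply]
      by_cases hab : b = a + 1
      · rw [if_pos hab, if_pos hab, mul_one]
        exact (inv_mul_cancel₀ hφz).symm
      · rw [if_neg hab, if_neg hab, mul_zero, map_zero, mul_zero]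

theorem base_kp {η : ℂ} (h0 : η ≠ 0) : ∀ {g : ℕ} (n : Fin g → ℤ),
    kpA (basePt (r := r) fun i => bα η (n i)) = mono 0 (fun j => bα η (∑ i, n i) j *
      (bα η (∑ i, n i) (j + 1))⁻¹) := by
  intro g n
  induction g with
  | zero =>
    simp only [kpA, List.ofFn_zero, List.prod_nil, Finset.univ_eq_empty, Finset.sum_empty]
    rw [← mono_zero_one]
    congr 1
    funext j
    simp [bα]
  | succ g ih =>
    rw [kpA_succ]
    have h1 : kpA (fun i : Fin g => basePt (r := r) (fun i => bα η (n i)) i.succ) =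
      kpA (basePt (r := r) fun i : Fin g => bα η (n i.succ)) := rfl
    rw [h1, ih]
    have h2 : basePt (r := r) (fun i => bα η (n i)) 0 = (mono 0 (bα η (n 0)), mono 1 1) := rfl
    rw [h2, cmA_base (α := bα η (n 0)) (fun i => zpow_ne_zero _ h0), mono_mul, Fin.sum_univ_succ]
    congr 1
    funext j
    have h3 : ∀ (a b : ℤ) (j : Fin r), bα η (a + b) j = bα η a j * bα η b j := by
      intro a b j
      unfold bα
      rw [add_mul, zpow_add₀ h0]
    rw [h3, h3, _root_.mul_inv_rev, add_zero]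
    ring

theorem base_exists (ε : (𝓞 L)ˣ) (hε : ‖φ ((ε : 𝓞 L) : L)‖ ≠ 1) {ζ : 𝓞 L}
    (hζ : IsPrimitiveRoot ζ (2 * r)) (hg : 1 ≤ g) :
    ∃ α : Fin (g + 1) → Fin r → ℂ, (∀ i, BaseCond (α i)) ∧
      (∀ (k : ℕ) (hk : k + 1 < g + 1), Linked (α ⟨k, by omega⟩) (α ⟨k + 1, hk⟩)) ∧
      kpA (basePt α) = 1 ∧ basePt α ∈ Cone φ (g + 1) r := by
  have hε0 : φ ((ε : 𝓞 L) : L) ≠ 0 := by
    have : ((ε : 𝓞 L) : L) ≠ 0 := by simp
    exact (map_ne_zero φ).mpr this
  set η : ℂ := φ ((ε : 𝓞 L) : L) ^ r with hη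
  have hη0 : η ≠ 0 := pow_ne_zero _ hε0
  have hη1 : ‖η‖ ≠ 1 := by
    rw [hη, norm_pow]
    intro h
    exact hε ((pow_eq_one_iff_of_nonneg (norm_nonneg _) (NeZero.ne r)).mp h)
  set n : Fin (g + 1) → ℤ := fun i => if i = Fin.last g then -(g : ℤ) else 1 with hn
  have hn0 : ∀ i, n i ≠ 0 := by
    intro i
    simp only [hn]
    split_ifs
    · omega
    · norm_num
  have hsum : ∑ i, n i = 0 := by
    rw [Fin.sum_univ_castSucc]
    have h1 : ∀ i : Fin g, n i.castSucc = 1 := fun i => by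
      simp only [hn, if_neg (Fin.castSucc_lt_last i).ne]
    have h2 : n (Fin.last g) = -(g : ℤ) := by simp [hn]
    rw [h2, Finset.sum_congr rfl fun i _ => h1 i]
    simp
  refine ⟨fun i => bα η (n i), fun i => baseCond_bα hη0 hη1 (hn0 i), fun k hk =>
    linked_bα hη0 hη1 (hn0 _), ?_, base_cone φ ε hζ n hsum⟩
  rw [base_kp hη0, hsum, ← mono_zero_one]
  congr 1
  funext j
  simp [bα]

end base

end Vale.Agent.P002
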