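import Vale.Agent.P002.BLocal
import Vale.Agent.P002.BTri
import Vale.Agent.P002.BaseRep
import Vale.Agent.P002.BClosed3

namespace Vale.Agent.P002

open Matrix NumberField Topology Filter

section norms
variable {r : ℕ} [NeZero r]

theorem win_norm (α : Fin r → ℂ) (k : ℕ) (i : Fin r) :
    win (fun i => ((‖α i‖ : ℝ) : ℂ)) k i = ((‖win α k i‖ : ℝ) : ℂ) := by
  unfold win
  rw [norm_prod, Complex.ofReal_prod]

theorem baseCond_of_norm {α : Fin r → ℂ} (h0 : ∀ i, α i ≠ 0)
    (h : BaseCond (fun i => ((‖α i‖ : ℝ) : ℂ))) : BaseCond α :=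
  ⟨h0, fun i j hij => h.inj (by simp only [hij]), fun k h1 h2 i j hij => h.win k h1 h2 (by
    rw [win_norm, win_norm, hij])⟩

theorem linked_of_norm {α β : Fin r → ℂ} (h : Linked (fun i => ((‖α i‖ : ℝ) : ℂ))
    (fun i => ((‖β i‖ : ℝ) : ℂ))) : Linked α β := by
  obtain ⟨m, hm⟩ := h
  refine ⟨m, fun i j hij => hm ?_⟩
  have := congrArg (fun z : ℂ => ((‖z‖ : ℝ) : ℂ)) hij
  simpa [norm_mul, norm_inv, norm_pow] using this

theorem bα_norm (η : ℂ) (n : ℤ) :
    (fun i : Fin r => ((‖bα η n i‖ : ℝ) : ℂ)) = bα ((‖η‖ : ℝ) : ℂ) n := by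
  funext i
  unfold bα
  rw [norm_zpow, Complex.ofReal_zpow]

/-- a cyclic cocycle `θ (i + 1) = t i * θ i` -/
theorem exists_theta {R : Type*} [CommRing R] (t : Fin r → R) (ht : ∏ i, t i = 1) {M : ℕ}
    (hM : ∀ i, t i ^ M = 1) :
    ∃ θ : Fin r → R, (∀ i, θ (i + 1) = t i * θ i) ∧ ∀ i, θ i ^ M = 1 := by
  set t' : ℕ → R := fun k => if h : k < r then t ⟨k, h⟩ else 1 with ht'
  refine ⟨fun i => ∏ k ∈ Finset.range (i : ℕ), t' k, ?_, ?_⟩
  · intro i
    have hv : ((i + 1 : Fin r) : ℕ) = ((i : ℕ) + 1) % r := by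
      rw [Fin.val_add]
      conv_rhs => rw [Nat.add_mod]
      rw [Nat.mod_eq_of_lt i.2]
      rcases Nat.lt_or_ge 1 r with h | h
      · rw [Fin.val_one', Nat.mod_eq_of_lt h]
      · have h1 : r = 1 := by have := NeZero.pos r; omega
        subst h1
        simp
    have hi : t' i = t i := by simp [ht', i.2]
    rcases Nat.lt_or_ge ((i : ℕ) + 1) r with h | h
    · simp only [hv, Nat.mod_eq_of_lt h]
      rw [Finset.prod_range_succ, hi, mul_comm]
    · have h1 : (i : ℕ) + 1 = r := by have := i.2; omega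
      simp only [hv, h1, Nat.mod_self, Finset.range_zero, Finset.prod_empty]
      rw [mul_comm, ← hi, ← Finset.prod_range_succ, h1, Finset.prod_range, ← ht]
      refine Finset.prod_congr rfl fun j _ => ?_
      simp [ht', j.2]
  · intro i
    rw [← Finset.prod_pow]
    refine Finset.prod_eq_one fun k _ => ?_
    by_cases h : k < r
    · simp only [ht', h, dif_pos]; exact hM _
    · simp only [ht', h, dif_neg, not_false_eq_true, one_pow]

theorem exists_theta_one {R : Type*} [CommRing R] (t : Fin r → R) (ht : ∏ i, t i = 1) {M : ℕ}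
    (hM0 : 0 < M) (hM : ∀ i, t i ^ M = 1) (hroot : ∀ x : R, x ^ M = 1 → ∃ y : R, y ^ r = x) :
    ∃ θ : Fin r → R, (∀ i, θ (i + 1) = t i * θ i) ∧ (∃ K : ℕ, 0 < K ∧ ∀ i, θ i ^ K = 1) ∧
      ∏ i, θ i = 1 := by
  obtain ⟨θ, h1, h2⟩ := exists_theta t ht hM
  have h3 : (∏ i, θ i) ^ M = 1 := by
    rw [← Finset.prod_pow]
    exact Finset.prod_eq_one fun i _ => h2 i
  obtain ⟨y, hy⟩ := hroot ((∏ i, θ i) ^ (M - 1)) (by rw [← pow_mul, mul_comm, pow_mul, h3, one_pow])
  refine ⟨fun i => y * θ i, fun i => by simp only [h1]; ring, ⟨r * M * M, ?_, fun i => ?_⟩, ?_⟩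
  · have := NeZero.pos r
    positivity
  · rw [mul_pow]
    have h4 : y ^ (r * M * M) = 1 := by
      rw [mul_assoc, pow_mul, hy, ← pow_mul, mul_comm, mul_assoc, pow_mul, h3, one_pow]
    have h5 : θ i ^ (r * M * M) = 1 := by
      rw [mul_comm, pow_mul, h2, one_pow]
    rw [h4, h5, one_mul]
  · rw [Finset.prod_mul_distrib, Finset.prod_const, Finset.card_univ, Fintype.card_fin, hy,
      ← pow_succ, Nat.sub_add_cancel hM0, h3]

end norms

section grp

theorem grp_last {G : Type*} [Group G] (δ a b t : G) (h : b * a = t * δ * a * b) :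
    δ * (a * b * a⁻¹ * b⁻¹) * t = 1 := by
  have h1 : a⁻¹ * b⁻¹ = b⁻¹ * a⁻¹ * δ⁻¹ * t⁻¹ := by
    have := congrArg (fun x => x⁻¹) h
    simpa [mul_assoc] using this
  calc δ * (a * b * a⁻¹ * b⁻¹) * t = δ * (a * b * (a⁻¹ * b⁻¹)) * t := by group
    _ = 1 := by rw [h1]; group

theorem ring_last {R : Type*} [Ring R] {δ a b t : R} (hδ : IsUnit δ) (ha : IsUnit a)
    (hb : IsUnit b) (ht : IsUnit t) (h : b * a = t * δ * a * b) :
    δ * (a * b * Ring.inverse a * Ring.inverse b) * t = 1 := by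
  obtain ⟨δ, rfl⟩ := hδ
  obtain ⟨a, rfl⟩ := ha
  obtain ⟨b, rfl⟩ := hb
  obtain ⟨t, rfl⟩ := ht
  rw [Ring.inverse_unit, Ring.inverse_unit]
  have := grp_last δ a b t (Units.ext (by simpa using h))
  have h2 := congrArg Units.val this
  simpa using h2

end grp

section pr
variable {L : Type*} [Field L] [NumberField L] (φ : L →+* ℂ) {g n r : ℕ}

theorem cm_pr {A B A' B' : Mat r} (hA : Pr A A') (hB : Pr B B') (hA' : IsUnit A'.det)
    (hB' : IsUnit B'.det) : cm (A, B) = cm (A', B') := by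
  obtain ⟨κ, hκ, rfl⟩ := hA
  obtain ⟨μ, hμ, rfl⟩ := hB
  unfold cm
  simp only
  have h1 : (κ • A')⁻¹ = κ⁻¹ • A'⁻¹ := by
    apply Matrix.inv_eq_right_inv
    rw [smul_mul_smul_comm, mul_inv_cancel₀ hκ, one_smul, Matrix.mul_nonsing_inv _ hA']
  have h2 : (μ • B')⁻¹ = μ⁻¹ • B'⁻¹ := by
    apply Matrix.inv_eq_right_inv
    rw [smul_mul_smul_comm, mul_inv_cancel₀ hμ, one_smul, Matrix.mul_nonsing_inv _ hB']
  rw [h1, h2, smul_mul_smul_comm, smul_mul_smul_comm, smul_mul_smul_comm]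
  have : κ * μ * κ⁻¹ * μ⁻¹ = 1 := by field_simp
  rw [this, one_smul]

theorem emb_injective : Function.Injective (emb (r := r) φ) := by
  intro A B h
  ext i j
  have h1 : φ ((A i j : 𝓞 L) : L) = φ ((B i j : 𝓞 L) : L) := congrFun (congrFun h i) j
  exact φ.injective h1

theorem intRepB_of_Kb {σ : Fin g → SpecialLinearGroup (Fin r) (𝓞 L) ×
    SpecialLinearGroup (Fin r) (𝓞 L)} {τ : Fin n → SpecialLinearGroup (Fin r) (𝓞 L)}
    {z : BTup g n r}
    (h1 : ∀ i, Pr (z.1 i).1 (emb φ (σ i).1.1) ∧ Pr (z.1 i).2 (emb φ (σ i).2.1))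
    (h2 : ∀ j, z.2 j = emb φ (τ j).1) (hK : Kb z = 1) : IsIntRepB σ τ := by
  unfold IsIntRepB
  apply Subtype.ext
  apply emb_injective φ
  have e1 : ∀ A B : SpecialLinearGroup (Fin r) (𝓞 L), embH φ r (A * B) = embH φ r A * embH φ r B :=
    fun A B => map_mul _ _ _
  have h3 : embH φ r ((List.ofFn fun i => (σ i).1 * (σ i).2 * (σ i).1⁻¹ * (σ i).2⁻¹).prod *
      (List.ofFn τ).prod) = 1 := by
    rw [e1, map_list_prod, map_list_prod, List.map_ofFn, List.map_ofFn, ← hK]
    unfold Kb Kp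
    congr 3
    · funext i
      have := cm_pr (h1 i).1 (h1 i).2 (isUnit_emb φ _) (isUnit_emb φ _)
      rw [show z.1 i = ((z.1 i).1, (z.1 i).2) from rfl, this]
      simp only [Function.comp, e1, cm]
      rw [emb_inv', emb_inv']
      rfl
    · funext j
      rw [h2]; rfl
  rw [show (1 : SpecialLinearGroup (Fin r) (𝓞 L)).1 = 1 from rfl, emb_one]
  exact h3

end pr

section curve
variable {L : Type*} [Field L] [NumberField L] (φ : L →+* ℂ) {g n r : ℕ} [NeZero r]

theorem dg_pr (ε : (𝓞 L)ˣ) (n : ℤ) : Pr (mono 0 (bα (φ ((ε : 𝓞 L) : L) ^ r) n))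
    (emb φ (dgH ε (cexp r) sum_cexp (Multiplicative.ofAdd n)).1) := by
  have hε0 : φ ((ε : 𝓞 L) : L) ≠ 0 := by
    have : ((ε : 𝓞 L) : L) ≠ 0 := by simp
    exact (map_ne_zero φ).mpr this
  refine ⟨φ ((ε : 𝓞 L) : L) ^ (n * (2 ^ r - 1)), zpow_ne_zero _ hε0, ?_⟩
  ext a b
  simp only [emb, dgH_val, Matrix.smul_apply, Matrix.map_apply, smul_eq_mul]
  rw [mono_zero]
  by_cases hab : a = b
  · subst hab
    rw [diagonal_apply_eq, diagonal_apply_eq]
    have h2 : (φ.comp (algebraMap (𝓞 L) L)) ((ε ^ (n * cexp r a) : (𝓞 L)ˣ) : 𝓞 L) =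
        φ ((ε : 𝓞 L) : L) ^ (n * cexp r a) := by
      have h3 := map_zpow (Units.map (φ.comp (algebraMap (𝓞 L) L)).toMonoidHom) ε (n * cexp r a)
      have h4 := congrArg Units.val h3
      rw [Units.val_zpow_eq_zpow_val] at h4
      exact h4
    rw [h2, ← zpow_add₀ hε0]
    unfold bα cexp
    rw [← zpow_natCast, ← _root_.zpow_mul]
    congr 1
    push_cast
    ring
  · rw [diagonal_apply_ne _ hab, diagonal_apply_ne _ hab, map_zero, mul_zero]

theorem cyc_pr {z : 𝓞 L} (hz0 : z ≠ 0) : Pr (mono 1 1 : Mat r) (emb φ (z • cycM (𝓞 L) r)) := by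
  have hφz : φ (z : L) ≠ 0 := by
    refine (map_ne_zero φ).mpr ?_
    simpa using hz0
  refine ⟨(φ (z : L))⁻¹, inv_ne_zero hφz, ?_⟩
  ext a b
  simp only [emb, Matrix.smul_apply, Matrix.map_apply, smul_eq_mul, cycM,
    Matrix.of_apply, mono_apply, Pi.one_apply]
  by_cases hab : b = a + 1
  · rw [if_pos hab, if_pos hab, mul_one]
    exact (inv_mul_cancel₀ hφz).symm
  · rw [if_neg hab, if_neg hab, mul_zero, map_zero, mul_zero]

theorem list_upper {R : Type*} [CommRing R] (l : List (Matrix (Fin r) (Fin r) R))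
    (h : ∀ A ∈ l, ∀ i j, j < i → A i j = 0) :
    (∀ i j, j < i → l.prod i j = 0) ∧ ∀ i, l.prod i i = (l.map fun A => A i i).prod := by
  induction l with
  | nil =>
    refine ⟨fun i j hij => ?_, fun i => ?_⟩
    · rw [List.prod_nil, Matrix.one_apply_ne (ne_of_gt hij)]
    · simp
  | cons A l ih =>
    obtain ⟨h1, h2⟩ := ih fun B hB => h B (List.mem_cons_of_mem _ hB)
    have hA := h A (List.mem_cons_self)
    refine ⟨fun i j hij => ?_, fun i => ?_⟩
    · rw [List.prod_cons, Matrix.mul_apply]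
      refine Finset.sum_eq_zero fun k _ => ?_
      rcases lt_or_ge k i with hk | hk
      · rw [hA i k hk, zero_mul]
      · rw [h1 k j (lt_of_lt_of_le hij hk), mul_zero]
    · rw [List.prod_cons, List.map_cons, List.prod_cons, ← h2, Matrix.mul_apply]
      rw [Finset.sum_eq_single i]
      · intro k _ hk
        rcases lt_or_gt_of_ne hk with hk | hk
        · rw [hA i k hk, zero_mul]
        · rw [h1 k i hk, mul_zero]
      · simp

theorem tri_list (l : List (Mat r)) (h : ∀ A ∈ l, ∀ i j, j < i → A i j = 0) (s : ℂ) :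
    tri l.prod s = (l.map fun A => tri A s).prod := by
  induction l with
  | nil => simp [tri_one]
  | cons A l ih =>
    rw [List.prod_cons, List.map_cons, List.prod_cons, ← ih fun B hB => h B (List.mem_cons_of_mem _ hB)]
    exact tri_mul A l.prod (h A List.mem_cons_self)
      (list_upper l fun B hB => h B (List.mem_cons_of_mem _ hB)).1 s

/-- the curve through the degenerate point -/
noncomputable def cpt (α : Fin (g + 1) → Fin r → ℂ) (V : Mat r) (J : Fin n → Mat r) (s : ℂ) :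
    BTup (g + 1) n r :=
  (Function.update (basePt α) (Fin.last g) (mono 0 (α (Fin.last g)), tri V s * mono 1 1),
    fun j => tri (J j) s)

theorem polyFun_line_poly {h : ℂ → ℂ} (hh : h ∈ PolyFun ℂ) :
    ∃ p : Polynomial ℂ, ∀ s, h s = p.eval s := by
  unfold PolyFun at hh
  induction hh using Algebra.adjoin_induction with
  | mem x hx =>
    obtain ⟨l, rfl⟩ := hx
    refine ⟨Polynomial.C (l 1) * Polynomial.X, fun s => ?_⟩
    have : l s = s * l 1 := by
      rw [← smul_eq_mul, ← map_smul, smul_eq_mul, mul_one]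
    show l s = _
    rw [this, Polynomial.eval_mul, Polynomial.eval_C, Polynomial.eval_X, mul_comm]
  | algebraMap c => exact ⟨Polynomial.C c, fun s => by simp⟩
  | add f g _ _ hf hg =>
    obtain ⟨p, hp⟩ := hf
    obtain ⟨q, hq⟩ := hg
    exact ⟨p + q, fun s => by simp [hp, hq]⟩
  | mul f g _ _ hf hg =>
    obtain ⟨p, hp⟩ := hf
    obtain ⟨q, hq⟩ := hg
    exact ⟨p * q, fun s => by simp [hp, hq]⟩

theorem polyFun_line {h : ℂ → ℂ} (hh : h ∈ PolyFun ℂ) {S : Set ℂ} (hS : S.Infinite)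
    (h0 : ∀ s ∈ S, h s = 0) (s : ℂ) : h s = 0 := by
  obtain ⟨p, hp⟩ := polyFun_line_poly hh
  have : p = 0 := Polynomial.eq_zero_of_infinite_isRoot p (hS.mono fun s hs => by
    show p.IsRoot s
    rw [Polynomial.IsRoot, ← hp, h0 s hs])
  rw [hp, this, Polynomial.eval_zero]

theorem bα_zero_mul {η : ℂ} (h0 : η ≠ 0) (a b : ℤ) (j : Fin r) :
    bα η (a + b) j = bα η a j * bα η b j := by
  unfold bα
  rw [add_mul, zpow_add₀ h0]

theorem bα_neg {η : ℂ} (a : ℤ) (j : Fin r) : bα η (-a) j = (bα η a j)⁻¹ := by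
  unfold bα
  rw [neg_mul, _root_.zpow_neg]

theorem curve_kb {η : ℂ} (h0 : η ≠ 0) {θ : Fin r → ℂ} (hθ : ∀ i, θ i ≠ 0)
    {α : Fin (g + 1) → Fin r → ℂ} (N : ℤ) (hα1 : ∀ i : Fin g, α i.castSucc = bα η N)
    (hα2 : α (Fin.last g) = fun i => bα η (-(g * N : ℤ)) i * θ i)
    {V T : Mat r} {J : Fin n → Mat r} {s : ℂ} (hV : IsUnit (tri V s).det)
    (hT : IsUnit (tri T s).det) (hJT : (List.ofFn fun j => tri (J j) s).prod = tri T s)
    (hE : tri T s * mono 0 (fun i => bα η (-(g * N : ℤ)) (i + 1) * θ i) * tri V s =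
      tri V s * mono 0 (fun i => α (Fin.last g) (i + 1))) :
    Kb (cpt α V J s) = 1 := by
  have hb0 : ∀ n i, bα (r := r) η n i ≠ 0 := fun n i => zpow_ne_zero _ h0
  have hl0 : ∀ i, α (Fin.last g) i ≠ 0 := fun i => by
    rw [hα2]; exact mul_ne_zero (hb0 _ _) (hθ _)
  rw [Kb_eqL]
  simp only [cpt]
  rw [kpA_update_last, hJT]
  have hδ : kpA (fun i : Fin g => basePt (r := r) α i.castSucc) =
      mono 0 (fun j => bα η (g * N : ℤ) j * (bα η (g * N : ℤ) (j + 1))⁻¹) := by
    have h1 : (fun i : Fin g => basePt (r := r) α i.castSucc) =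
        basePt (fun _ : Fin g => bα η N) := by
      funext i
      simp only [basePt, hα1]
    rw [h1]
    have := base_kp (r := r) h0 (fun _ : Fin g => N)
    rw [this]
    simp
  rw [hδ]
  have hu1 : IsUnit (mono 0 (fun j => bα η (g * N : ℤ) j * (bα η (g * N : ℤ) (j + 1))⁻¹) : Mat r) :=
    (Matrix.isUnit_iff_isUnit_det _).mpr
      (mono_isUnit 0 _ fun i => mul_ne_zero (hb0 _ _) (inv_ne_zero (hb0 _ _)))
  have hu2 : IsUnit (mono 0 (α (Fin.last g)) : Mat r) :=
    (Matrix.isUnit_iff_isUnit_det _).mpr (mono_isUnit 0 _ hl0)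
  have hu3 : IsUnit (tri V s * mono 1 1 : Mat r) :=
    ((Matrix.isUnit_iff_isUnit_det _).mpr hV).mul
      ((Matrix.isUnit_iff_isUnit_det _).mpr (mono_isUnit 1 1 fun _ => one_ne_zero))
  have hu4 : IsUnit (tri T s) := (Matrix.isUnit_iff_isUnit_det _).mpr hT
  refine ring_last hu1 hu2 hu3 hu4 ?_
  have e1 : (mono 1 1 : Mat r) * mono 0 (α (Fin.last g)) =
      mono 0 (fun i => α (Fin.last g) (i + 1)) * mono 1 1 := by
    rw [mono_mul, mono_mul, add_zero, zero_add]
    congr 1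
    funext i
    simp
  have e2 : (mono 0 (fun j => bα η (g * N : ℤ) j * (bα η (g * N : ℤ) (j + 1))⁻¹) : Mat r) *
      mono 0 (α (Fin.last g)) = mono 0 (fun i => bα η (-(g * N : ℤ)) (i + 1) * θ i) := by
    rw [mono_mul, add_zero]
    congr 1
    funext i
    rw [hα2]
    simp only [add_zero, bα_neg]
    have := hb0 (g * N : ℤ) i
    field_simp
  calc tri V s * mono 1 1 * mono 0 (α (Fin.last g))
      = tri V s * mono 0 (fun i => α (Fin.last g) (i + 1)) * mono 1 1 := by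
        rw [Matrix.mul_assoc, e1, Matrix.mul_assoc]
    _ = tri T s * mono 0 (fun i => bα η (-(g * N : ℤ)) (i + 1) * θ i) * tri V s * mono 1 1 := by
        rw [hE]
    _ = _ := by
        rw [← e2]
        simp only [Matrix.mul_assoc]

theorem cexp_injective : Function.Injective (cexp r) := by
  intro i j h
  unfold cexp at h
  have h1 : (r : ℤ) * 2 ^ (i : ℕ) = r * 2 ^ (j : ℕ) := by linarith
  have h2 : (r : ℤ) ≠ 0 := by exact_mod_cast (NeZero.ne r)
  have h3 := mul_left_cancel₀ h2 h1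
  have h4 : (2 : ℕ) ^ (i : ℕ) = 2 ^ (j : ℕ) := by exact_mod_cast h3
  exact Fin.ext (Nat.pow_right_injective le_rfl h4)

theorem eventually_inj {η : ℂ} (h0 : η ≠ 0) (h1 : ‖η‖ ≠ 1) {c : Fin r → ℤ}
    (hc : Function.Injective c) {d : Fin r → ℂ} (hd : ∀ i, d i ≠ 0) :
    ∀ᶠ N : ℕ in atTop, Function.Injective fun i => η ^ ((N : ℤ) * c i) * d i := by
  have hbad : ∀ i j : Fin r, i ≠ j →
      {N : ℕ | η ^ ((N : ℤ) * c i) * d i = η ^ ((N : ℤ) * c j) * d j}.Finite := by
    intro i j hij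
    refine Set.Subsingleton.finite ?_
    intro m hm m' hm'
    simp only [Set.mem_ofPred_eq] at hm hm'
    have key : ∀ m : ℕ, η ^ ((m : ℤ) * c i) * d i = η ^ ((m : ℤ) * c j) * d j →
        ‖η‖ ^ ((m : ℤ) * (c i - c j)) = ‖d j‖ / ‖d i‖ := by
      intro m hm
      have h2 := congrArg norm hm
      rw [norm_mul, norm_mul, norm_zpow, norm_zpow] at h2
      have h3 : ‖η‖ ≠ 0 := norm_ne_zero_iff.mpr h0
      have h4 : ‖d i‖ ≠ 0 := norm_ne_zero_iff.mpr (hd i)
      rw [mul_sub, zpow_sub₀ h3]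
      have h5 : ‖η‖ ^ ((m : ℤ) * c j) ≠ 0 := zpow_ne_zero _ h3
      rw [div_eq_div_iff h5 h4, h2, mul_comm]
    have h2 := (key m hm).trans (key m' hm').symm
    have h3 := zpow_right_injective₀ (norm_pos_iff.mpr h0) h1 h2
    have h4 : c i - c j ≠ 0 := sub_ne_zero.mpr fun h => hij (hc h)
    exact_mod_cast mul_right_cancel₀ h4 h3
  have hfin : (⋃ i : Fin r, ⋃ j : Fin r, {N : ℕ | i ≠ j ∧
      η ^ ((N : ℤ) * c i) * d i = η ^ ((N : ℤ) * c j) * d j}).Finite := by
    refine Set.finite_iUnion fun i => Set.finite_iUnion fun j => ?_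
    by_cases hij : i = j
    · simp [hij]
    · exact (hbad i j hij).subset fun m hm => hm.2
  rw [← Nat.cofinite_eq_atTop]
  refine hfin.subset fun N hN => ?_
  simp only [Set.mem_compl_iff, Set.mem_ofPred_eq, Function.Injective, not_forall] at hN
  obtain ⟨i, j, h, hij⟩ := hN
  simp only [Set.mem_iUnion]
  exact ⟨i, j, hij, h⟩

theorem win_mul (α β : Fin r → ℂ) (k : ℕ) (i : Fin r) :
    win (fun i => α i * β i) k i = win α k i * win β k i := by
  unfold win
  rw [Finset.prod_mul_distrib]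

theorem win_bα {η : ℂ} (h0 : η ≠ 0) (m : ℤ) (k : ℕ) (i : Fin r) :
    win (bα η m) k i = η ^ (m * (winSum k i : ℤ)) := by
  unfold win bα winSum
  rw [prod_zpow h0]
  congr 1
  rw [Nat.cast_sum, Finset.mul_sum]
  refine Finset.sum_congr rfl fun j _ => ?_
  push_cast
  rfl

theorem exists_size {η : ℂ} (h0 : η ≠ 0) (h1 : ‖η‖ ≠ 1) (hg : 1 ≤ g) {θ : Fin r → ℂ}
    (hθ : ∀ i, θ i ≠ 0) (d : Fin n → Fin r → ℂ) (hd : ∀ j i, d j i ≠ 0) :
    ∃ N : ℕ, 0 < N ∧ Function.Injective (fun k => bα η (-(g * N : ℤ)) k * θ k) ∧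
      (∀ k, 1 ≤ k → k < r → Function.Injective (win (fun k => bα η (-(g * N : ℤ)) k * θ k) k)) ∧
      Linked (bα η (N : ℤ)) (fun k => bα η (-(g * N : ℤ)) k * θ k) ∧
      ∀ j, Function.Injective fun i => (bα η (-(g * N : ℤ)) (i + 1) * θ (i + 1))⁻¹ * d j i := by
  have hg0 : (g : ℤ) ≠ 0 := by exact_mod_cast (by omega : g ≠ 0)
  have hpow : Function.Injective fun i : Fin r => (2 : ℤ) ^ (i : ℕ) := fun i j h => by
    have h' : (2 : ℤ) ^ (i : ℕ) = 2 ^ (j : ℕ) := h
    have h4 : (2 : ℕ) ^ (i : ℕ) = 2 ^ (j : ℕ) := by exact_mod_cast h'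
    exact Fin.ext (Nat.pow_right_injective le_rfl h4)
  have e1 := eventually_inj h0 h1 (c := fun i : Fin r => -(g : ℤ) * 2 ^ (i : ℕ))
    (fun i j h => hpow (mul_left_cancel₀ (neg_ne_zero.mpr hg0) h)) hθ
  have e2 : ∀ k : Fin r, ∀ᶠ N : ℕ in atTop, 1 ≤ (k : ℕ) → Function.Injective fun i =>
      η ^ ((N : ℤ) * (-(g : ℤ) * (winSum (k : ℕ) i : ℤ))) * win θ k i := by
    intro k
    by_cases hk : 1 ≤ (k : ℕ)
    · have := eventually_inj h0 h1 (c := fun i : Fin r => -(g : ℤ) * (winSum (k : ℕ) i : ℤ))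
        (fun i j h => by
          have h2 := mul_left_cancel₀ (neg_ne_zero.mpr hg0) h
          exact winSum_inj hk k.2 (by exact_mod_cast h2))
        (d := win θ k) (fun i => Finset.prod_ne_zero_iff.mpr fun j _ => hθ _)
      filter_upwards [this] with N hN _ using hN
    · exact Filter.Eventually.of_forall fun N h => absurd h hk
  obtain ⟨m0, hm0⟩ := linked_bα (r := r) h0 h1 (n1 := 1) (n2 := -(g : ℤ)) (neg_ne_zero.mpr hg0)
  have he : ∀ (N : ℤ) (i : Fin r), (bα η N i)⁻¹ * bα η (-(g : ℤ) * N) (i - 1) *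
      bα η (-(g : ℤ) * N) i ^ m0 = η ^ (N * (-(2 ^ (i : ℕ)) + -(g : ℤ) * 2 ^ ((i - 1 : Fin r) : ℕ) +
        -(g : ℤ) * 2 ^ (i : ℕ) * m0)) := by
    intro N i
    unfold bα
    rw [← _root_.zpow_neg, ← zpow_add₀ h0, ← zpow_natCast, ← _root_.zpow_mul, ← zpow_add₀ h0]
    congr 1
    ring
  have hcinj : Function.Injective fun i : Fin r => (-(2 ^ (i : ℕ)) +
      -(g : ℤ) * 2 ^ ((i - 1 : Fin r) : ℕ) + -(g : ℤ) * 2 ^ (i : ℕ) * m0 : ℤ) := by
    intro i j h
    apply hm0
    have h2 := he 1 i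
    have h3 := he 1 j
    simp only [mul_one] at h2 h3
    simp only
    rw [h2, h3]
    simp only at h
    rw [h]
  have e3 := eventually_inj h0 h1 hcinj (d := fun i => θ (i - 1) * θ i ^ m0)
    (fun i => mul_ne_zero (hθ _) (pow_ne_zero _ (hθ _)))
  have e4 : ∀ j, ∀ᶠ N : ℕ in atTop, Function.Injective fun i : Fin r =>
      η ^ ((N : ℤ) * ((g : ℤ) * 2 ^ ((i + 1 : Fin r) : ℕ))) * ((θ (i + 1))⁻¹ * d j i) := by
    intro j
    refine eventually_inj h0 h1 (fun i i' h => ?_) fun i => mul_ne_zero (inv_ne_zero (hθ _)) (hd j i)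
    exact add_right_cancel (hpow (mul_left_cancel₀ hg0 h))
  obtain ⟨N, hN0, h1', h2', h3', h4'⟩ := ((eventually_gt_atTop 0).and (e1.and
    ((Filter.eventually_all.mpr e2).and (e3.and (Filter.eventually_all.mpr e4))))).exists
  have hbN : ∀ i : Fin r, bα η (-(g * N : ℤ)) i = η ^ ((N : ℤ) * (-(g : ℤ) * 2 ^ (i : ℕ))) := by
    intro i
    unfold bα
    congr 1
    ring
  refine ⟨N, hN0, ?_, ?_, ?_, ?_⟩
  · intro i j h
    simp only [hbN] at h
    exact h1' h
  · intro k hk1 hk2 i j h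
    refine h2' ⟨k, hk2⟩ hk1 ?_
    simp only
    rw [win_mul, win_mul, win_bα h0, win_bα h0] at h
    rw [show (N : ℤ) * (-(g : ℤ) * (winSum k i : ℤ)) = -(g * N : ℤ) * (winSum k i : ℤ) by ring,
      show (N : ℤ) * (-(g : ℤ) * (winSum k j : ℤ)) = -(g * N : ℤ) * (winSum k j : ℤ) by ring]
    exact h
  · refine ⟨m0, fun i j h => h3' ?_⟩
    simp only
    rw [← he N i, ← he N j]
    have h5 : (-(g * N : ℤ)) = -(g : ℤ) * N := by ring
    simp only [h5] at h
    linear_combination h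
  · intro j i i' h
    refine h4' j ?_
    simp only [_root_.mul_inv_rev] at h
    simp only
    have h6 : ∀ i : Fin r, (bα η (-(g * N : ℤ)) (i + 1))⁻¹ =
        η ^ ((N : ℤ) * ((g : ℤ) * 2 ^ ((i + 1 : Fin r) : ℕ))) := by
      intro i
      unfold bα
      rw [← _root_.zpow_neg]
      congr 1
      ring
    rw [h6, h6] at h
    linear_combination h

theorem base_curve (ε : (𝓞 L)ˣ) (hε : ‖φ ((ε : 𝓞 L) : L)‖ ≠ 1) {ζ : 𝓞 L}
    (hζ : IsPrimitiveRoot ζ (2 * r)) (hg : 1 ≤ g)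
    (τ : Fin n → SpecialLinearGroup (Fin r) (𝓞 L)) (hτ : ∀ j a b, b < a → (τ j).1 a b = 0)
    (θ : Fin r → 𝓞 L) (hθ1 : ∀ i, θ (i + 1) = (∏ j, (τ j).1 i i) * θ i) (hθp : ∏ i, θ i = 1) :
    ∃ (α : Fin (g + 1) → Fin r → ℂ) (V : Mat r),
      (∀ i, BaseCond (α i)) ∧
      (∀ (k : ℕ) (hk : k + 1 < g + 1), Linked (α ⟨k, by omega⟩) (α ⟨k + 1, hk⟩)) ∧
      (∀ j, Function.Injective fun i => (α (Fin.last g) (i + 1))⁻¹ * emb φ (τ j).1 i i) ∧
      (∀ i j, j < i → V i j = 0) ∧ (∀ i, V i i = 1) ∧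
      (∀ s, Kb (cpt α V (fun j => emb φ (τ j).1) s) = 1) ∧
      ∀ s, cpt α V (fun j => emb φ (τ j).1) s ∈ WWB φ (g + 1) (fun j => emb φ (τ j).1) := by
  have hε0 : φ ((ε : 𝓞 L) : L) ≠ 0 := by
    have : ((ε : 𝓞 L) : L) ≠ 0 := by simp
    exact (map_ne_zero φ).mpr this
  set η : ℂ := φ ((ε : 𝓞 L) : L) ^ r with hη
  have hη0 : η ≠ 0 := pow_ne_zero _ hε0
  have hη1 : ‖η‖ ≠ 1 := by
    rw [hη, norm_pow]
    intro h
    exact hε ((pow_eq_one_iff_of_nonneg (norm_nonneg _) (NeZero.ne r)).mp h)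
  have hηn0 : ((‖η‖ : ℝ) : ℂ) ≠ 0 := by simpa using hη0
  have hηn1 : ‖((‖η‖ : ℝ) : ℂ)‖ ≠ 1 := by simpa using hη1
  -- the product of the boundary matrices
  set T : SpecialLinearGroup (Fin r) (𝓞 L) := (List.ofFn τ).prod with hT
  have hTl : T.1 = (List.ofFn fun j => (τ j).1).prod := by
    have h1 : ∀ l : List (SpecialLinearGroup (Fin r) (𝓞 L)), (l.prod).1 = (l.map fun A => A.1).prod := by
      intro l
      induction l with
      | nil => rfl
      | cons a l ih =>
        rw [List.prod_cons, List.map_cons, List.prod_cons, ← ih]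
        exact Matrix.SpecialLinearGroup.coe_mul a l.prod
    rw [hT, h1, List.map_ofFn]
    rfl
  have hup : ∀ A ∈ (List.ofFn fun j => (τ j).1), ∀ i j, j < i → A i j = 0 := by
    intro A hA
    obtain ⟨j, rfl⟩ := List.mem_ofFn.mp hA
    exact hτ j
  obtain ⟨hTu, hTd⟩ := list_upper _ hup
  rw [← hTl] at hTu hTd
  have hTM : ∀ i, ∏ j, (τ j).1 i i = T.1 i i := by
    intro i
    rw [hTd, List.map_ofFn, List.prod_ofFn]
    rfl
  simp only [hTM] at hθ1
  set θc : Fin r → ℂ := fun i => φ ((θ i : 𝓞 L) : L) with hθc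
  have hθ0 : ∀ i, θ i ≠ 0 := fun i h => by
    rw [Finset.prod_eq_zero (Finset.mem_univ i) h] at hθp
    exact zero_ne_one hθp
  have hθc0 : ∀ i, θc i ≠ 0 := fun i => by
    simp only [hθc]
    exact (map_ne_zero φ).mpr (by simpa using hθ0 i)
  have hτ0 : ∀ j i, emb φ (τ j).1 i i ≠ 0 := fun j i h => by
    have h1 : (emb φ (τ j).1).det = 1 := by rw [emb_det, (τ j).2, map_one]
    rw [det_upper _ (fun a b hab => by
      simp only [emb, Matrix.map_apply, hτ j a b hab, map_zero])] at h1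
    have h2 : ∏ i, emb φ (τ j).1 i i = 0 := Finset.prod_eq_zero (Finset.mem_univ i) h
    exact zero_ne_one (h2.symm.trans h1)
  -- the size of the hyperbolic part
  obtain ⟨N, hN0, hN1, hN2, hN3, hN4⟩ := exists_size hη0 hη1 (r := r) hg hθc0
    (fun j i => emb φ (τ j).1 i i) hτ0
  set α : Fin (g + 1) → Fin r → ℂ := fun i =>
    if i = Fin.last g then fun k => bα η (-(g * N : ℤ)) k * θc k else bα η N with hα
  have hα1 : ∀ i : Fin g, α i.castSucc = bα η N := fun i => by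
    simp only [hα, if_neg (Fin.castSucc_lt_last i).ne]
  have hα2 : α (Fin.last g) = fun i => bα η (-(g * N : ℤ)) i * θc i := by
    simp only [hα, if_true]
  have hN00 : (N : ℤ) ≠ 0 := by exact_mod_cast hN0.ne'
  have hBC : ∀ i, BaseCond (α i) := by
    intro i
    refine Fin.lastCases ?_ (fun i => ?_) i
    · rw [hα2]
      exact ⟨fun k => mul_ne_zero (zpow_ne_zero _ hη0) (hθc0 k), hN1, hN2⟩
    · rw [hα1]
      exact baseCond_bα hη0 hη1 hN00
  have hlink : ∀ (k : ℕ) (hk : k + 1 < g + 1), Linked (α ⟨k, by omega⟩) (α ⟨k + 1, hk⟩) := by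
    intro k hk
    have h1 : (⟨k, by omega⟩ : Fin (g + 1)) = (⟨k, by omega⟩ : Fin g).castSucc := rfl
    rw [h1, hα1]
    by_cases hkg : k + 1 = g
    · have h2 : (⟨k + 1, hk⟩ : Fin (g + 1)) = Fin.last g := Fin.ext hkg
      rw [h2, hα2]
      exact hN3
    · have h2 : (⟨k + 1, hk⟩ : Fin (g + 1)) = (⟨k + 1, by omega⟩ : Fin g).castSucc := rfl
      rw [h2, hα1]
      exact linked_bα hη0 hη1 hN00
  have hinj : ∀ j, Function.Injective fun i =>
      (α (Fin.last g) (i + 1))⁻¹ * emb φ (τ j).1 i i := by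
    intro j
    rw [hα2]
    exact hN4 j
  -- the unipotent conjugator over `L`
  set e : L := ((ε : 𝓞 L) : L) with he
  have he0 : e ≠ 0 := by simp [he]
  set b : Fin r → L := fun i => e ^ (-(g * N : ℤ) * cexp r (i + 1)) * (θ i : L) with hb
  set κ : ℂ := φ e ^ (-(g * N : ℤ) * (2 ^ r - 1)) with hκ
  have hκ0 : κ ≠ 0 := zpow_ne_zero _ hε0
  have hexp : ∀ i : Fin r, κ * φ e ^ (-(g * N : ℤ) * cexp r i) = bα η (-(g * N : ℤ)) i := by
    intro i
    rw [hκ, ← zpow_add₀ hε0, hη]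
    unfold bα cexp
    rw [← zpow_natCast, ← _root_.zpow_mul]
    congr 1
    push_cast
    ring
  have hb1 : ∀ i, κ * φ (b i) = bα η (-(g * N : ℤ)) (i + 1) * θc i := by
    intro i
    rw [← hexp, hb]
    simp only [map_mul, map_zpow₀, hθc]
    ring
  set TL : Matrix (Fin r) (Fin r) L := T.1.map (algebraMap (𝓞 L) L) with hTL
  set B : Matrix (Fin r) (Fin r) L := TL * diagonal b with hB
  have hBu : ∀ i j, j < i → B i j = 0 := by
    intro i j hij
    rw [hB, Matrix.mul_diagonal, hTL, Matrix.map_apply, hTu i j hij, map_zero, zero_mul]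
  have hBd : ∀ i, κ * φ (B i i) = α (Fin.last g) (i + 1) := by
    intro i
    rw [hB, Matrix.mul_diagonal, hTL, Matrix.map_apply, map_mul, mul_left_comm, hb1, hα2]
    simp only
    have h1 : θc (i + 1) = φ ((algebraMap (𝓞 L) L) (T.1 i i)) * θc i := by
      simp only [hθc, hθ1]
      simp
    rw [h1]; ring
  have hBdist : ∀ i j, i ≠ j → B i i ≠ B j j := by
    intro i j hij h
    apply hij
    have h1 := hBd i
    rw [h, hBd j] at h1
    exact (add_right_cancel ((hBC (Fin.last g)).inj h1)).symm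
  obtain ⟨VL, hVu, hVd, hVB⟩ := exists_tri_conj B hBu hBdist
  set V : Mat r := VL.map φ with hV
  have hVup : ∀ i j, j < i → V i j = 0 := fun i j hij => by
    rw [hV, Matrix.map_apply, hVu i j hij, map_zero]
  have hVdi : ∀ i, V i i = 1 := fun i => by rw [hV, Matrix.map_apply, hVd, map_one]
  set Tc : Mat r := emb φ T.1 with hTc
  have hTcu : ∀ i j, j < i → Tc i j = 0 := fun i j hij => by
    simp only [hTc, emb, Matrix.map_apply, hTu i j hij, map_zero]
  have hEq : Tc * mono 0 (fun i => bα η (-(g * N : ℤ)) (i + 1) * θc i) * V =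
      V * mono 0 (fun i => α (Fin.last g) (i + 1)) := by
    have hD1 : (mono 0 (fun i => bα η (-(g * N : ℤ)) (i + 1) * θc i) : Mat r) =
        κ • (diagonal b).map φ := by
      rw [mono_zero, Matrix.diagonal_map (map_zero φ), ← Matrix.diagonal_smul]
      congr 1
      funext i
      exact (hb1 i).symm
    have hD2 : (mono 0 (fun i => α (Fin.last g) (i + 1)) : Mat r) =
        κ • (diagonal fun i => B i i).map φ := by
      rw [mono_zero, Matrix.diagonal_map (map_zero φ), ← Matrix.diagonal_smul]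
      congr 1
      funext i
      exact (hBd i).symm
    have hTT : Tc = TL.map φ := by
      rw [hTc, hTL, Matrix.map_map]; rfl
    have h1 : (TL * diagonal b).map φ * VL.map φ = VL.map φ * (diagonal fun i => B i i).map φ := by
      rw [← Matrix.map_mul, ← Matrix.map_mul, ← hB, hVB]
    rw [hD1, hD2, hTT, Matrix.mul_smul, Matrix.smul_mul, ← Matrix.map_mul, h1, Matrix.mul_smul]
  have hEs : ∀ s, tri Tc s * mono 0 (fun i => bα η (-(g * N : ℤ)) (i + 1) * θc i) * tri V s =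
      tri V s * mono 0 (fun i => α (Fin.last g) (i + 1)) := by
    intro s
    have h1 := congrArg (fun M => tri M s) hEq
    have hdu : ∀ (d : Fin r → ℂ) (i j : Fin r), j < i → (diagonal d : Mat r) i j = 0 :=
      fun d i j hij => Matrix.diagonal_apply_ne _ (ne_of_gt hij)
    simp only [mono_zero] at h1 ⊢
    rw [tri_mul _ _ _ hVup, tri_mul _ _ hTcu (hdu _), tri_mul _ _ hVup (hdu _), tri_diagonal,
      tri_diagonal] at h1
    · exact h1
    · intro i j hij
      rw [Matrix.mul_diagonal, hTcu i j hij, zero_mul]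
  have hJT : ∀ s, (List.ofFn fun j => tri (emb φ (τ j).1) s).prod = tri Tc s := by
    intro s
    have h1 : Tc = (List.ofFn fun j => emb φ (τ j).1).prod := by
      have h2 : embH φ r T = (List.ofFn fun j => emb φ (τ j).1).prod := by
        rw [hT, map_list_prod, List.map_ofFn]; rfl
      exact h2
    rw [h1, tri_list, List.map_ofFn]
    · rfl
    · intro A hA
      obtain ⟨j, rfl⟩ := List.mem_ofFn.mp hA
      intro a b hab
      simp only [emb, Matrix.map_apply, hτ j a b hab, map_zero]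
  have hVdet : ∀ s, (tri V s).det = 1 := fun s => by
    rw [det_tri]; exact Finset.prod_eq_one fun i _ => hVdi i
  have hTdet' : ∀ s, (tri Tc s).det = 1 := fun s => by
    rw [det_tri_eq Tc hTcu, hTc, emb_det, T.2, map_one]
  have hKb : ∀ s, Kb (cpt α V (fun j => emb φ (τ j).1) s) = 1 := fun s =>
    curve_kb hη0 hθc0 N hα1 hα2 (by rw [hVdet]; exact isUnit_one)
      (by rw [hTdet']; exact isUnit_one) (hJT s) (hEs s)
  refine ⟨α, V, hBC, hlink, hinj, hVup, hVdi, hKb, ?_⟩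
  -- integral points
  obtain ⟨d, hd0, hW⟩ := exists_integral_tri φ VL hVu hVd
  obtain ⟨z, hz⟩ := exists_root hζ (det_cycM (R := 𝓞 L) (r := r))
  let P : SpecialLinearGroup (Fin r) (𝓞 L) := ⟨z • cycM (𝓞 L) r, by
    rw [Matrix.det_smul, Fintype.card_fin, hz]⟩
  have hz0 : z ≠ 0 := by
    rintro rfl
    rw [zero_pow (NeZero.ne r), zero_mul] at hz
    exact zero_ne_one hz
  let Θ : SpecialLinearGroup (Fin r) (𝓞 L) := ⟨diagonal θ, by rw [Matrix.det_diagonal, hθp]⟩
  have hmem : ∀ m : ℕ, 0 < m → cpt α V (fun j => emb φ (τ j).1) ((d * m : ℕ) : ℂ) ∈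
      ConeB φ (g + 1) (fun j => emb φ (τ j).1) := by
    intro m hm
    obtain ⟨W, hW⟩ := hW m
    choose τ' hτ' using fun j => exists_integral_tri_of_integral φ (τ j) (hτ j) (d * m)
    have hs0 : ((d * m : ℕ) : ℂ) ≠ 0 := by
      exact_mod_cast (Nat.mul_pos hd0 hm).ne'
    rw [coneB_iff]
    have hh : ∀ i : Fin (g + 1),
        Pr ((cpt α V (fun j => emb φ (τ j).1) ((d * m : ℕ) : ℂ)).1 i).1
          (emb φ ((Function.update (fun _ => (dgH ε (cexp r) sum_cexp (Multiplicative.ofAdd (N : ℤ)), P))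
            (Fin.last g) (dgH ε (cexp r) sum_cexp (Multiplicative.ofAdd (-(g * N : ℤ))) * Θ, W * P) :
            Fin (g + 1) → _ × _) i).1.1) ∧
        Pr ((cpt α V (fun j => emb φ (τ j).1) ((d * m : ℕ) : ℂ)).1 i).2
          (emb φ ((Function.update (fun _ => (dgH ε (cexp r) sum_cexp (Multiplicative.ofAdd (N : ℤ)), P))
            (Fin.last g) (dgH ε (cexp r) sum_cexp (Multiplicative.ofAdd (-(g * N : ℤ))) * Θ, W * P) :
            Fin (g + 1) → _ × _) i).2.1) := by
      intro i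
      refine Fin.lastCases ?_ (fun i => ?_) i
      · simp only [cpt, Function.update_self]
        constructor
        · rw [Matrix.SpecialLinearGroup.coe_mul, emb_mul]
          have h1 : (mono 0 (α (Fin.last g)) : Mat r) = mono 0 (bα η (-(g * N : ℤ))) * mono 0 θc := by
            rw [mono_mul, hα2, add_zero]
            congr 1
            funext i
            rw [add_zero]
          have h2 : emb φ Θ.1 = mono 0 θc := by
            rw [mono_zero]
            ext a b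
            simp only [emb, Matrix.map_apply, Θ]
            by_cases hab : a = b
            · subst hab; simp [hθc]
            · rw [Matrix.diagonal_apply_ne _ hab, Matrix.diagonal_apply_ne _ hab, map_zero]
          rw [h1, h2]
          exact (dg_pr φ ε _).mul (Pr.refl _)
        · rw [Matrix.SpecialLinearGroup.coe_mul, emb_mul, hW]
          exact (Pr.refl _).mul (cyc_pr φ hz0)
      · simp only [cpt, Function.update_of_ne (Fin.castSucc_lt_last i).ne, basePt, hα1]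
        exact ⟨dg_pr φ ε N, cyc_pr φ hz0⟩
    refine ⟨_, τ', intRepB_of_Kb φ hh (fun j => (hτ' j).symm) (hKb _), fun j => ?_, hh,
      fun j => (hτ' j).symm⟩
    rw [hτ' j]
    exact tri_mem_Cls _ (fun a b hab => by simp only [emb, Matrix.map_apply, hτ j a b hab, map_zero])
      hs0
  intro s f hf hfc
  have hpm : PolyMap (fun s : ℂ => cpt α V (fun j => emb φ (τ j).1) s) := by
    unfold cpt
    refine polyMap_prodMk (polyMap_pi fun i => ?_) (polyMap_pi fun j => polyMap_tri _)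
    refine Fin.lastCases ?_ (fun i => ?_) i
    · simp only [Function.update_self]
      exact polyMap_prodMk (polyMap_const _) (polyMap_mul (polyMap_tri _) (polyMap_const _))
    · simp only [Function.update_of_ne (Fin.castSucc_lt_last i).ne]
      exact polyMap_const _
  refine polyFun_line (S := Set.range fun m : ℕ => (((d * (m + 1) : ℕ)) : ℂ)) (polyFun_comp hf hpm)
    (Set.infinite_range_of_injective fun m m' h => ?_) ?_ s
  · have h1 : d * (m + 1) = d * (m' + 1) := by exact_mod_cast h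
    have h2 := Nat.eq_of_mul_eq_mul_left hd0 h1
    omega
  · rintro _ ⟨m, rfl⟩
    exact hfc _ (hmem (m + 1) (Nat.succ_pos m))

end curve

end Vale.Agent.P002
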