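import Vale.Agent.P002.BLocal

namespace Vale.Agent.P002

open Matrix NumberField Topology Filter

section rational
variable {V : Type*} [AddCommGroup V] [Module ℂ V]

theorem clear_denom {G : V × ℂ → ℂ} (hG : G ∈ PolyFun (V × ℂ)) {δ : V → ℂ} (hδ : δ ∈ PolyFun V) :
    ∃ (N : ℕ) (H : V → ℂ), H ∈ PolyFun V ∧ ∀ v, δ v ≠ 0 → H v = δ v ^ N * G (v, (δ v)⁻¹) := by
  unfold PolyFun at hG
  induction hG using Algebra.adjoin_induction with
  | mem x hx =>
    obtain ⟨l, rfl⟩ := hx
    refine ⟨1, fun v => δ v * l (v, 0) + l (0, 1), ?_, ?_⟩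
    · exact polyFun_add (polyFun_mul hδ (polyFun_linear (l.comp (LinearMap.inl ℂ V ℂ))))
        (polyFun_const _)
    · intro v hv
      have h1 : ((v, (δ v)⁻¹) : V × ℂ) = (v, 0) + (δ v)⁻¹ • (0, 1) := by simp
      show δ v * l (v, 0) + l (0, 1) = δ v ^ 1 * l (v, (δ v)⁻¹)
      rw [h1, map_add, map_smul, smul_eq_mul]
      field_simp
  | algebraMap c =>
    exact ⟨0, fun _ => c, polyFun_const c, fun v _ => by simp⟩
  | add f g _ _ hf hg =>
    obtain ⟨N1, H1, h1, h1'⟩ := hf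
    obtain ⟨N2, H2, h2, h2'⟩ := hg
    refine ⟨N1 + N2, fun v => δ v ^ N2 * H1 v + δ v ^ N1 * H2 v,
      polyFun_add (polyFun_mul (polyFun_pow hδ _) h1) (polyFun_mul (polyFun_pow hδ _) h2), ?_⟩
    intro v hv
    simp only [h1' v hv, h2' v hv, Pi.add_apply]
    ring
  | mul f g _ _ hf hg =>
    obtain ⟨N1, H1, h1, h1'⟩ := hf
    obtain ⟨N2, H2, h2, h2'⟩ := hg
    refine ⟨N1 + N2, fun v => H1 v * H2 v, polyFun_mul h1 h2, ?_⟩
    intro v hv
    simp only [h1' v hv, h2' v hv, Pi.mul_apply]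
    ring

end rational

section twist
variable {L : Type*} [Field L] [NumberField L] (φ : L →+* ℂ) {r : ℕ}

theorem twist_gen (hφ : ¬ ComplexEmbedding.IsReal φ) (w : InfinitePlace L)
    (hw : w ≠ InfinitePlace.mk φ) {E : Type*} [AddCommGroup E] [Module ℂ E] {C : Set E}
    {e : E → Mat r} (he : PolyMap e)
    {T : (E × Mat r) × ℂ → E} (hT : PolyMap T)
    (hcone : ∀ c ∈ C, ∃ (E0 : Matrix (Fin r) (Fin r) (𝓞 L)) (s : ℂ), s ≠ 0 ∧
      e c = s • emb φ E0 ∧ ∀ t : SpecialLinearGroup (Fin r) (𝓞 L), Commute t.1 E0 →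
        ∀ κ : ℂ, κ ≠ 0 → T ((c, κ • emb φ t.1), (κ ^ r)⁻¹) ∈ C)
    {x : E} (hx : ∀ f ∈ PolyFun E, (∀ c ∈ C, f c = 0) → f x = 0) (hgr : gram (e x) ≠ 0)
    {t : Mat r} (hdet : t.det ≠ 0) (ht : Commute t (e x)) :
    ∀ f ∈ PolyFun E, (∀ c ∈ C, f c = 0) → f (T ((x, t), (t.det)⁻¹)) = 0 := by
  intro F hF hFc
  have hδ : (fun p : E × Mat r => p.2.det) ∈ PolyFun (E × Mat r) :=
    polyFun_det polyMap_snd'
  obtain ⟨N, H, hH, hH'⟩ := clear_denom (polyFun_comp hF hT) hδ
  obtain ⟨f, hf⟩ := exists_poly_of_commute (e x) hgr t ht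
  have hS : PolyMap (fun y : E => ∑ j : Fin r, f j • (e y) ^ (j : ℕ)) :=
    polyMap_sum _ fun j _ => polyMap_smul (polyFun_const (f j)) (polyMap_pow he _)
  have key := hx (fun y => gram (e y) * H (y, ∑ j : Fin r, f j • (e y) ^ (j : ℕ)))
    (polyFun_mul (gram_polyFun he) (polyFun_comp hH (polyMap_prodMk polyMap_id hS))) ?_
  · have h1 := (mul_eq_zero.mp key).resolve_left hgr
    rw [← hf, hH' (x, t) hdet] at h1
    exact (mul_eq_zero.mp h1).resolve_left (pow_ne_zero _ hdet)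
  · intro c hc
    by_cases hgc : gram (e c) = 0
    · simp [hgc]
    · obtain ⟨E0, s, hs, hes, htw⟩ := hcone c hc
      obtain ⟨h, lam, hh, hl, hd⟩ := exists_diag_of_gram_ne_zero (e c) hgc
      have hE : emb φ E0 = h * diagonal (fun i => s⁻¹ * lam i) * h⁻¹ := by
        have h1 : emb φ E0 = s⁻¹ • e c := by
          rw [hes, smul_smul, inv_mul_cancel₀ hs, one_smul]
        rw [h1, hd]
        have : diagonal (fun i => s⁻¹ * lam i) = s⁻¹ • diagonal lam := by
          ext i j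
          by_cases hij : i = j
          · subst hij; simp
          · simp [hij]
        rw [this, Algebra.mul_smul_comm, Algebra.smul_mul_assoc]
      have h2 : H (c, ∑ j : Fin r, f j • (e c) ^ (j : ℕ)) = 0 := by
        refine unit_density φ hφ w hw E0 h hh (fun i => s⁻¹ * lam i)
          (fun i j hij => hl (mul_left_cancel₀ (inv_ne_zero hs) hij)) hE
          (fun t => H (c, t)) ?_ ?_ _ ?_
        · exact polyFun_comp hH (polyMap_prodMk (polyMap_const c) polyMap_id)
        · intro t ht κ hκ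
          have hdt : (κ • emb φ t.1).det = κ ^ r := by
            rw [Matrix.det_smul, Fintype.card_fin, emb_det, t.2, map_one, mul_one]
          have h3 := hH' (c, κ • emb φ t.1) (by
            show (κ • emb φ t.1).det ≠ 0
            rw [hdt]; exact pow_ne_zero _ hκ)
          simp only [hdt] at h3
          rw [h3, hFc _ (htw t ht κ hκ), mul_zero]
        · have hc1 : Commute (∑ j : Fin r, f j • (e c) ^ (j : ℕ)) (e c) := by
            refine Commute.sum_left _ _ _ fun j _ => ?_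
            exact (Commute.pow_left (Commute.refl _) _).smul_left _
          have h1 : emb φ E0 = s⁻¹ • e c := by
            rw [hes, smul_smul, inv_mul_cancel₀ hs, one_smul]
          rw [h1]
          exact hc1.smul_right _
      rw [h2, mul_zero]

end twist

section rel
variable {M : Type*} [Monoid M] {g n : ℕ}

theorem ofFn_updateM (c : Fin n → M) (j : Fin n) (v : M) :
    List.ofFn (Function.update c j v) = (List.ofFn c).set j v := by
  apply List.ext_getElem
  · simp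
  · intro k h1 h2
    rw [List.getElem_ofFn, List.getElem_set]
    by_cases hk : (j : ℕ) = k
    · have : (⟨k, by simpa using h1⟩ : Fin n) = j := Fin.ext hk.symm
      rw [this]; simp [hk]
    · have : (⟨k, by simpa using h1⟩ : Fin n) ≠ j := fun h => hk (by rw [← h])
      rw [Function.update_of_ne this, if_neg hk, List.getElem_ofFn]

def preM (c : Fin n → M) (j : Fin n) : M := ((List.ofFn c).take j).prod

theorem rel_move (cs : Fin (g + 1) → M) (τ : Fin n → M) (j : Fin n) (c' v' : M)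
    (h : c' * preM τ j * v' = cs (Fin.last g) * preM τ j * τ j) :
    (List.ofFn (Function.update cs (Fin.last g) c')).prod *
      (List.ofFn (Function.update τ j v')).prod = (List.ofFn cs).prod * (List.ofFn τ).prod := by
  have h1 : ∀ c : M, (List.ofFn (Function.update cs (Fin.last g) c)).prod =
      (List.ofFn fun i : Fin g => cs i.castSucc).prod * c := by
    intro c
    rw [List.ofFn_succ', List.concat_eq_append, List.prod_append]
    simp only [Function.update_self, List.prod_cons, List.prod_nil, mul_one]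
    congr 3
    funext i
    rw [Function.update_of_ne (Fin.castSucc_lt_last i).ne]
  have h2 : ∀ v : M, (List.ofFn (Function.update τ j v)).prod =
      preM τ j * v * ((List.ofFn τ).drop (j + 1)).prod := by
    intro v
    rw [ofFn_updateM, List.prod_set, if_pos (by simp)]
    rfl
  have h3 := h1 (cs (Fin.last g))
  have h4 := h2 (τ j)
  rw [Function.update_eq_self] at h3 h4
  rw [h1, h2, h3, h4]
  set A := (List.ofFn fun i : Fin g => cs i.castSucc).prod
  set B := ((List.ofFn τ).drop (j + 1)).prod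
  calc A * c' * (preM τ j * v' * B) = A * (c' * preM τ j * v') * B := by simp only [mul_assoc]
    _ = _ := by rw [h]; simp only [mul_assoc]

end rel

section grp
variable {G : Type*} [Group G]

theorem grp_B5 (a b X t : G) (ht : Commute t (b * a⁻¹ * b⁻¹ * X)) :
    (a * (t * b) * a⁻¹ * (t * b)⁻¹) * (t * X * t⁻¹) = (a * b * a⁻¹ * b⁻¹) * X := by
  calc (a * (t * b) * a⁻¹ * (t * b)⁻¹) * (t * X * t⁻¹) =
      a * (t * (b * a⁻¹ * b⁻¹ * X)) * t⁻¹ := by group
    _ = _ := by rw [ht.eq]; group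

theorem grp_dehn (a b : G) (m : ℕ) :
    a * (b * a ^ m) * a⁻¹ * (b * a ^ m)⁻¹ = a * b * a⁻¹ * b⁻¹ := by
  group

theorem grp_B6 (a b X t : G) (m : ℕ) (ht : Commute t ((b * a ^ m)⁻¹ * X)) :
    ((a * t⁻¹) * (t * (b * a ^ m) * t⁻¹ * (a * t⁻¹)⁻¹ ^ m) * (a * t⁻¹)⁻¹ *
      (t * (b * a ^ m) * t⁻¹ * (a * t⁻¹)⁻¹ ^ m)⁻¹) * (t * X * t⁻¹) =
      (a * b * a⁻¹ * b⁻¹) * X := by
  rw [← grp_dehn (a * t⁻¹) (t * (b * a ^ m) * t⁻¹ * (a * t⁻¹)⁻¹ ^ m) m]
  have h1 : t * (b * a ^ m) * t⁻¹ * (a * t⁻¹)⁻¹ ^ m * (a * t⁻¹) ^ m = t * (b * a ^ m) * t⁻¹ := by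
    rw [inv_pow, inv_mul_cancel_right]
  rw [h1, ← grp_dehn a b m]
  set b' := b * a ^ m
  calc a * t⁻¹ * (t * b' * t⁻¹) * (a * t⁻¹)⁻¹ * (t * b' * t⁻¹)⁻¹ * (t * X * t⁻¹)
      = a * b' * a⁻¹ * (t * (b'⁻¹ * X)) * t⁻¹ := by group
    _ = _ := by rw [ht.eq]; group

end grp

end Vale.Agent.P002
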