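import Vale.Agent.P002.BClosed

namespace Vale.Agent.P002

open Matrix NumberField

section
variable {L : Type*} [Field L] [NumberField L] (φ : L →+* ℂ) {g n r : ℕ}

noncomputable def embH (r : ℕ) : SpecialLinearGroup (Fin r) (𝓞 L) →* Mat r where
  toFun A := emb φ A.1
  map_one' := emb_one φ
  map_mul' A B := emb_mul φ A.1 B.1

theorem coneB_iff (J : Fin n → Mat r) (z : BTup g n r) : z ∈ ConeB φ g J ↔
    ∃ (σ : Fin g → SpecialLinearGroup (Fin r) (𝓞 L) × SpecialLinearGroup (Fin r) (𝓞 L))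
      (τ : Fin n → SpecialLinearGroup (Fin r) (𝓞 L)),
    IsIntRepB σ τ ∧ (∀ j, emb φ (τ j).1 ∈ Cls (J j)) ∧
    (∀ i, Pr (z.1 i).1 (emb φ (σ i).1.1) ∧ Pr (z.1 i).2 (emb φ (σ i).2.1)) ∧
    ∀ j, z.2 j = emb φ (τ j).1 := by
  constructor
  · rintro ⟨σ, τ, h1, h2, κ, μ, hκ, hμ, h3, h4⟩
    exact ⟨σ, τ, h1, h2, fun i => ⟨⟨κ i, hκ i, by rw [h3 i]⟩, ⟨μ i, hμ i, by rw [h3 i]⟩⟩, h4⟩
  · rintro ⟨σ, τ, h1, h2, h3, h4⟩
    choose h5 h6 using h3
    choose κ hκ hκ' using h5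
    choose μ hμ hμ' using h6
    exact ⟨σ, τ, h1, h2, κ, μ, hκ, hμ, fun i => Prod.ext (hκ' i) (hμ' i), h4⟩

theorem WWB_pr (J : Fin n → Mat r) {x y : Tup g r} {c : Fin n → Mat r} (hx : (x, c) ∈ WWB φ g J)
    (h : ∀ i, Pr (y i).1 (x i).1 ∧ Pr (y i).2 (x i).2) : (y, c) ∈ WWB φ g J := by
  choose h1 h2 using h
  choose κ hκ hκ' using h1
  choose μ hμ hμ' using h2
  intro f hf hfc
  have hy : y = fun i => (κ i • (x i).1, μ i • (x i).2) := funext fun i => Prod.ext (hκ' i) (hμ' i)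
  rw [hy]
  refine hx (fun z : BTup g n r => f ((fun i => (κ i • (z.1 i).1, μ i • (z.1 i).2)), z.2))
    (polyFun_comp hf (polyMap_prodMk (polyMap_pi fun i => polyMap_prodMk ?_ ?_) polyMap_snd')) ?_
  · exact polyMap_smul (polyFun_const _) (polyMap_fst (polyMap_apply polyMap_fst' i))
  · exact polyMap_smul (polyFun_const _) (polyMap_snd (polyMap_apply polyMap_fst' i))
  · intro z hz
    refine hfc _ ?_
    rw [coneB_iff] at hz ⊢
    obtain ⟨σ, τ, h1, h2, h3, h4⟩ := hz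
    exact ⟨σ, τ, h1, h2, fun i => ⟨Pr.trans ⟨κ i, hκ i, rfl⟩ (h3 i).1,
      Pr.trans ⟨μ i, hμ i, rfl⟩ (h3 i).2⟩, h4⟩

/-- the commutators of a tuple of pairs -/
def cms {G : Type*} [Group G] (σ : Fin g → G × G) : Fin g → G :=
  fun i => (σ i).1 * (σ i).2 * (σ i).1⁻¹ * (σ i).2⁻¹

theorem intRepB_update {σ : Fin g → SpecialLinearGroup (Fin r) (𝓞 L) ×
    SpecialLinearGroup (Fin r) (𝓞 L)} {τ : Fin n → SpecialLinearGroup (Fin r) (𝓞 L)}
    (hσ : IsIntRepB σ τ) (i : Fin g)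
    (p : SpecialLinearGroup (Fin r) (𝓞 L) × SpecialLinearGroup (Fin r) (𝓞 L))
    (hp : p.1 * p.2 * p.1⁻¹ * p.2⁻¹ = (σ i).1 * (σ i).2 * (σ i).1⁻¹ * (σ i).2⁻¹) :
    IsIntRepB (Function.update σ i p) τ := by
  unfold IsIntRepB at *
  rw [← hσ]
  congr 3
  funext j
  by_cases hj : j = i
  · subst hj; simpa using hp
  · simp [Function.update_of_ne hj]

theorem intRepB_update2 {σ : Fin g → SpecialLinearGroup (Fin r) (𝓞 L) ×
    SpecialLinearGroup (Fin r) (𝓞 L)} {τ : Fin n → SpecialLinearGroup (Fin r) (𝓞 L)}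
    (hσ : IsIntRepB σ τ) (i i' : Fin g) (hi : (i' : ℕ) = i + 1)
    (p p' : SpecialLinearGroup (Fin r) (𝓞 L) × SpecialLinearGroup (Fin r) (𝓞 L))
    (hp : (p.1 * p.2 * p.1⁻¹ * p.2⁻¹) * (p'.1 * p'.2 * p'.1⁻¹ * p'.2⁻¹) =
      ((σ i).1 * (σ i).2 * (σ i).1⁻¹ * (σ i).2⁻¹) *
      ((σ i').1 * (σ i').2 * (σ i').1⁻¹ * (σ i').2⁻¹)) :
    IsIntRepB (Function.update (Function.update σ i p) i' p') τ := by
  unfold IsIntRepB at *
  rw [← hσ]
  congr 1
  have hne : i ≠ i' := fun h => by rw [h] at hi; omega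
  have hlt : (i : ℕ) + 1 < g := by rw [← hi]; exact i'.2
  refine list_prod_adj g _ _ i hlt (fun j hj1 hj2 => ?_) ?_
  · have h1 : j ≠ i' := fun h => hj2 (by rw [h, hi])
    have h2 : j ≠ i := fun h => hj1 (by rw [h])
    simp only [Function.update_of_ne h1, Function.update_of_ne h2]
  · have e1 : (⟨(i : ℕ), by omega⟩ : Fin g) = i := rfl
    have e2 : (⟨(i : ℕ) + 1, hlt⟩ : Fin g) = i' := Fin.ext hi.symm
    rw [e1, e2]
    simp only [Function.update_self, Function.update_of_ne hne]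
    exact hp

/-- the projection used for handle moves with spectators -/
theorem polyMap_spect {T : Tup g r × Mat r → Tup g r} (hT : PolyMap T) :
    PolyMap (fun p : (BTup g n r × Mat r) × ℂ => ((T (p.1.1.1, p.1.2), p.1.1.2) : BTup g n r)) := by
  have h1 : PolyMap (fun p : (BTup g n r × Mat r) × ℂ => p.1.1) := polyMap_fst polyMap_fst'
  exact polyMap_prodMk (polyMap_comp hT (polyMap_prodMk (polyMap_fst h1) (polyMap_snd polyMap_fst')))
    (polyMap_snd h1)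

variable (hφ : ¬ ComplexEmbedding.IsReal φ) (w : InfinitePlace L) (hw : w ≠ InfinitePlace.mk φ)
include hφ hw

theorem pF1_memB (J : Fin n → Mat r) (i : Fin g) (m : ℕ) {x : Tup g r} {c : Fin n → Mat r}
    (hx : (x, c) ∈ WWB φ g J)
    (hgr : gram (eF1 i m x) ≠ 0) {t : Mat r} (htu : IsUnit t) (ht : Commute t (eF1 i m x)) :
    (pF1 i m (x, t), c) ∈ WWB φ g J := by
  have hdt : t.det ≠ 0 := ((Matrix.isUnit_iff_isUnit_det t).mp htu).ne_zero
  refine twist_gen φ hφ w hw (E := BTup g n r) (C := ConeB φ g J) (e := fun z => eF1 i m z.1)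
    (T := fun p => (pF1 i m (p.1.1.1, p.1.2), p.1.1.2))
    (polyMap_comp (polyMap_eF1 i m) polyMap_fst') (polyMap_spect (polyMap_pF1 i m)) ?_ hx hgr hdt ht
  intro c hc
  obtain ⟨σ, τ, hσ, hτ, h, hcτ⟩ := (coneB_iff φ J c).mp hc
  obtain ⟨s, hs, hs'⟩ := (h i).2.mul ((h i).1.pow m)
  refine ⟨(σ i).2.1 * (σ i).1.1 ^ m, s, hs, by rw [emb_mul, emb_pow]; exact hs', ?_⟩
  intro t ht κ hκ
  rw [coneB_iff]
  have ht' : Commute t ((σ i).2 * (σ i).1 ^ m) := by
    apply Subtype.ext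
    simpa using ht.eq
  refine ⟨Function.update σ i ((σ i).1 * t, (σ i).2 * (σ i).1 ^ m * ((σ i).1 * t)⁻¹ ^ m), τ,
    intRepB_update hσ i _ (grp_F1 _ _ _ m ht'), hτ, fun j => ?_, hcτ⟩
  by_cases hj : j = i
  · subst hj
    simp only [pF1, Function.update_self]
    have ht1 : Pr (κ • emb φ t.1) (emb φ t.1) := ⟨κ, hκ, rfl⟩
    have h1 : Pr ((c.1 j).1 * κ • emb φ t.1) (emb φ ((σ j).1 * t).1) := by
      have := (h j).1.mul ht1
      rwa [← emb_mul] at this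
    refine ⟨h1, ?_⟩
    have h2 := ((h j).2.mul ((h j).1.pow m)).mul (h1.adj.pow m)
    rw [← emb_inv, ← emb_pow, ← emb_pow, ← emb_mul, ← emb_mul] at h2
    exact h2
  · simp only [pF1, Function.update_of_ne hj]
    exact h j

theorem pF2_memB (J : Fin n → Mat r) (i : Fin g) {x : Tup g r} {c : Fin n → Mat r}
    (hx : (x, c) ∈ WWB φ g J)
    (hgr : gram (x i).1 ≠ 0) {t : Mat r} (htu : IsUnit t) (ht : Commute t (x i).1) :
    (pF2 i (x, t), c) ∈ WWB φ g J := by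
  have hdt : t.det ≠ 0 := ((Matrix.isUnit_iff_isUnit_det t).mp htu).ne_zero
  refine twist_gen φ hφ w hw (E := BTup g n r) (C := ConeB φ g J) (e := fun z => (z.1 i).1)
    (T := fun p => (pF2 i (p.1.1.1, p.1.2), p.1.1.2))
    (poly1 polyMap_fst' i) (polyMap_spect (polyMap_pF2 i)) ?_ hx hgr hdt ht
  intro c hc
  obtain ⟨σ, τ, hσ, hτ, h, hcτ⟩ := (coneB_iff φ J c).mp hc
  obtain ⟨s, hs, hs'⟩ := (h i).1
  refine ⟨(σ i).1.1, s, hs, hs', ?_⟩
  intro t ht κ hκ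
  rw [coneB_iff]
  have ht' : Commute t (σ i).1 := by
    apply Subtype.ext
    simpa using ht.eq
  refine ⟨Function.update σ i ((σ i).1, (σ i).2 * t), τ,
    intRepB_update hσ i _ (grp_F2 _ _ _ ht'), hτ, fun j => ?_, hcτ⟩
  by_cases hj : j = i
  · subst hj
    simp only [pF2, Function.update_self]
    have ht1 : Pr (κ • emb φ t.1) (emb φ t.1) := ⟨κ, hκ, rfl⟩
    refine ⟨(h j).1, ?_⟩
    have := (h j).2.mul ht1
    rwa [← emb_mul] at this
  · simp only [pF2, Function.update_of_ne hj]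
    exact h j

theorem pF3_memB (J : Fin n → Mat r) (i i' : Fin g) (hi : (i' : ℕ) = i + 1) (m : ℕ)
    {x : Tup g r} {c : Fin n → Mat r} (hx : (x, c) ∈ WWB φ g J)
    (hgr : gram (eF3 i i' m x) ≠ 0) {t : Mat r} (htu : IsUnit t)
    (ht : Commute t (eF3 i i' m x)) : (pF3 i i' m (x, t), c) ∈ WWB φ g J := by
  have hdt : t.det ≠ 0 := ((Matrix.isUnit_iff_isUnit_det t).mp htu).ne_zero
  refine twist_gen φ hφ w hw (E := BTup g n r) (C := ConeB φ g J) (e := fun z => eF3 i i' m z.1)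
    (T := fun p => (pF3 i i' m (p.1.1.1, p.1.2), p.1.1.2))
    (polyMap_comp (polyMap_eF3 i i' m) polyMap_fst') (polyMap_spect (polyMap_pF3 i i' m)) ?_ hx
    hgr hdt ht
  intro c hc
  have hne : i ≠ i' := fun h => by rw [h] at hi; omega
  obtain ⟨σ, τ, hσ, hτ, h, hcτ⟩ := (coneB_iff φ J c).mp hc
  have he : Pr (eF3 i i' m c.1) (emb φ ((σ i).2 * (σ i).1⁻¹ * (σ i).2⁻¹ * (σ i').1 * (σ i').2 *
      (σ i').1 ^ m).1) := by
    have := (((((h i).2.mul (h i).1.adj).mul (h i).2.adj).mul (h i').1).mul (h i').2).mul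
      ((h i').1.pow m)
    rw [← emb_inv, ← emb_inv, ← emb_pow, ← emb_mul, ← emb_mul, ← emb_mul, ← emb_mul,
      ← emb_mul] at this
    exact this
  obtain ⟨s, hs, hs'⟩ := he
  refine ⟨_, s, hs, hs', ?_⟩
  intro t ht κ hκ
  rw [coneB_iff]
  have ht' : Commute t ((σ i).2 * (σ i).1⁻¹ * (σ i).2⁻¹ * (σ i').1 * (σ i').2 *
      (σ i').1 ^ m) := Subtype.ext ht.eq
  refine ⟨Function.update (Function.update σ i ((σ i).1, t * (σ i).2)) i'
    (t * (σ i').1, (σ i').2 * (σ i').1 ^ m * t⁻¹ * (t * (σ i').1)⁻¹ ^ m), τ,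
    intRepB_update2 hσ i i' hi _ _ (grp_F3 _ _ _ _ _ m ht'), hτ, fun j => ?_, hcτ⟩
  have ht1 : Pr (κ • emb φ t.1) (emb φ t.1) := ⟨κ, hκ, rfl⟩
  by_cases hj : j = i'
  · subst hj
    simp only [pF3, Function.update_self]
    have h1 : Pr (κ • emb φ t.1 * (c.1 j).1) (emb φ (t * (σ j).1).1) := by
      have := ht1.mul (h j).1
      rwa [← emb_mul] at this
    refine ⟨h1, ?_⟩
    have h2 := ((((h j).2.mul ((h j).1.pow m)).mul ht1.adj)).mul (h1.adj.pow m)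
    rw [← emb_inv, ← emb_inv, ← emb_pow, ← emb_pow, ← emb_mul, ← emb_mul, ← emb_mul] at h2
    exact h2
  · by_cases hj' : j = i
    · subst hj'
      simp only [pF3, Function.update_of_ne hj, Function.update_self]
      refine ⟨(h j).1, ?_⟩
      have := ht1.mul (h j).2
      rwa [← emb_mul] at this
    · simp only [pF3, Function.update_of_ne hj, Function.update_of_ne hj']
      exact h j

theorem pF4_memB (J : Fin n → Mat r) (i i' : Fin g) (hi : (i' : ℕ) = i + 1) (m : ℕ)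
    {x : Tup g r} {c : Fin n → Mat r} (hx : (x, c) ∈ WWB φ g J)
    (hgr : gram (eF4 i i' m x) ≠ 0) {t : Mat r} (htu : IsUnit t)
    (ht : Commute t (eF4 i i' m x)) : (pF4 i i' m (x, t), c) ∈ WWB φ g J := by
  have hdt : t.det ≠ 0 := ((Matrix.isUnit_iff_isUnit_det t).mp htu).ne_zero
  refine twist_gen φ hφ w hw (E := BTup g n r) (C := ConeB φ g J) (e := fun z => eF4 i i' m z.1)
    (T := fun p => (pF4 i i' m (p.1.1.1, p.1.2), p.1.1.2))
    (polyMap_comp (polyMap_eF4 i i' m) polyMap_fst') (polyMap_spect (polyMap_pF4 i i' m)) ?_ hx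
    hgr hdt ht
  intro c hc
  have hne : i ≠ i' := fun h => by rw [h] at hi; omega
  obtain ⟨σ, τ, hσ, hτ, h, hcτ⟩ := (coneB_iff φ J c).mp hc
  have he : Pr (eF4 i i' m c.1) (emb φ ((σ i).1⁻¹ * (σ i).2⁻¹ * (σ i').1 * (σ i').2 *
      (σ i').1 ^ m).1) := by
    have := ((((h i).1.adj).mul (h i).2.adj).mul (h i').1).mul (h i').2 |>.mul
      ((h i').1.pow m)
    rw [← emb_inv, ← emb_inv, ← emb_pow, ← emb_mul, ← emb_mul, ← emb_mul, ← emb_mul] at this
    exact this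
  obtain ⟨s, hs, hs'⟩ := he
  refine ⟨_, s, hs, hs', ?_⟩
  intro t ht κ hκ
  rw [coneB_iff]
  have ht' : Commute t ((σ i).1⁻¹ * (σ i).2⁻¹ * (σ i').1 * (σ i').2 *
      (σ i').1 ^ m) := Subtype.ext ht.eq
  refine ⟨Function.update (Function.update σ i ((σ i).1 * t⁻¹, t * (σ i).2)) i'
    (t * (σ i').1, (σ i').2 * (σ i').1 ^ m * t⁻¹ * (t * (σ i').1)⁻¹ ^ m), τ,
    intRepB_update2 hσ i i' hi _ _ (grp_F4 _ _ _ _ _ m ht'), hτ, fun j => ?_, hcτ⟩
  have ht1 : Pr (κ • emb φ t.1) (emb φ t.1) := ⟨κ, hκ, rfl⟩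
  by_cases hj : j = i'
  · subst hj
    simp only [pF4, Function.update_self]
    have h1 : Pr (κ • emb φ t.1 * (c.1 j).1) (emb φ (t * (σ j).1).1) := by
      have := ht1.mul (h j).1
      rwa [← emb_mul] at this
    refine ⟨h1, ?_⟩
    have h2 := ((((h j).2.mul ((h j).1.pow m)).mul ht1.adj)).mul (h1.adj.pow m)
    rw [← emb_inv, ← emb_inv, ← emb_pow, ← emb_pow, ← emb_mul, ← emb_mul, ← emb_mul] at h2
    exact h2
  · by_cases hj' : j = i
    · subst hj'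
      simp only [pF4, Function.update_of_ne hj, Function.update_self]
      constructor
      · have := (h j).1.mul ht1.adj
        rwa [← emb_inv, ← emb_mul] at this
      · have := ht1.mul (h j).2
        rwa [← emb_mul] at this
    · simp only [pF4, Function.update_of_ne hj, Function.update_of_ne hj']
      exact h j

end

end Vale.Agent.P002
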