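import Vale.Agent.P002.Mono

namespace Vale.Agent.P002

open Matrix NumberField

/-- handles together with boundary elements -/
abbrev BTup (g n r : ℕ) := Tup g r × (Fin n → Mat r)

/-- product of the commutators of the handles times the product of the boundary elements -/
noncomputable def Kb {g n r : ℕ} (z : BTup g n r) : Mat r := Kp z.1 * (List.ofFn z.2).prod

/-- conjugates of the models `J j` by `h j` -/
noncomputable def bc {n r : ℕ} (J h : Fin n → Mat r) : Fin n → Mat r :=
  fun j => h j * J j * (h j)⁻¹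

/-- the conjugacy class of a matrix -/
def Cls {r : ℕ} (J : Mat r) : Set (Mat r) := {c | ∃ h : Mat r, IsUnit h.det ∧ c = h * J * h⁻¹}

def IsIntRepB {L : Type*} [Field L] [NumberField L] {g n r : ℕ}
    (σ : Fin g → SpecialLinearGroup (Fin r) (𝓞 L) × SpecialLinearGroup (Fin r) (𝓞 L))
    (τ : Fin n → SpecialLinearGroup (Fin r) (𝓞 L)) : Prop :=
  (List.ofFn fun i => (σ i).1 * (σ i).2 * (σ i).1⁻¹ * (σ i).2⁻¹).prod * (List.ofFn τ).prod = 1

/-- integral representations with boundary elements in the classes of `J j`; the handles are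
allowed to be scaled, the boundary elements are not. -/
def ConeB {L : Type*} [Field L] [NumberField L] (φ : L →+* ℂ) (g : ℕ) {n r : ℕ}
    (J : Fin n → Mat r) : Set (BTup g n r) :=
  {z | ∃ (σ : Fin g → SpecialLinearGroup (Fin r) (𝓞 L) × SpecialLinearGroup (Fin r) (𝓞 L))
      (τ : Fin n → SpecialLinearGroup (Fin r) (𝓞 L)),
    IsIntRepB σ τ ∧ (∀ j, emb φ (τ j).1 ∈ Cls (J j)) ∧
    ∃ κ μ : Fin g → ℂ, (∀ i, κ i ≠ 0) ∧ (∀ i, μ i ≠ 0) ∧
      (∀ i, z.1 i = (κ i • emb φ (σ i).1.1, μ i • emb φ (σ i).2.1)) ∧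
      ∀ j, z.2 j = emb φ (τ j).1}

/-- the Zariski closure of `ConeB` -/
def WWB {L : Type*} [Field L] [NumberField L] (φ : L →+* ℂ) (g : ℕ) {n r : ℕ}
    (J : Fin n → Mat r) : Set (BTup g n r) :=
  {z | ∀ f ∈ PolyFun (BTup g n r), (∀ c ∈ ConeB φ g J, f c = 0) → f z = 0}

/-- upper triangular matrices scaled by the one-parameter group `s ↦ diag(1, s⁻¹, s⁻², …)`:
the entry at `(k, l)` is multiplied by `s ^ (l - k)`; polynomial in `s`. -/
noncomputable def tri {r : ℕ} (M : Mat r) (s : ℂ) : Mat r :=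
  Matrix.of fun k l => if k ≤ l then s ^ ((l : ℕ) - k) * M k l else 0

end Vale.Agent.P002
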