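import Vale.Agent.P002.ConeToSL
import Vale.Agent.P002.BDefs

namespace Vale.Agent.P002

open Matrix NumberField

section csb
variable {g r : ℕ} {V : Type} [AddCommGroup V] [Module ℂ V]

def csHomB (F : Tup g r × V → ℂ) (d : Fin g × Bool → ℕ) : Prop :=
  ∀ κ z, F (csAct κ z.1, z.2) = (∏ v, κ v ^ d v) * F z

theorem csb_decomp (f : Tup g r × V → ℂ) (hf : f ∈ PolyFun (Tup g r × V)) :
    ∃ (ι : Type) (_ : Fintype ι) (d : ι → Fin g × Bool → ℕ) (F : ι → Tup g r × V → ℂ),
      (∀ j, F j ∈ PolyFun (Tup g r × V)) ∧ (∀ j, csHomB (F j) (d j)) ∧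
        ∀ x, f x = ∑ j, F j x := by
  classical
  unfold PolyFun at hf
  induction hf using Algebra.adjoin_induction with
  | mem x hx =>
    obtain ⟨l, rfl⟩ := hx
    let P : Fin g × Bool → Tup g r →ₗ[ℂ] Tup g r := fun v =>
      LinearMap.pi fun i => if i = v.1 then
        (if v.2 then (LinearMap.inr ℂ (Mat r) (Mat r)).comp ((LinearMap.snd ℂ (Mat r) (Mat r)).comp
          (LinearMap.proj i))
        else (LinearMap.inl ℂ (Mat r) (Mat r)).comp ((LinearMap.fst ℂ (Mat r) (Mat r)).comp
          (LinearMap.proj i)))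
        else 0
    have hP : ∀ x : Tup g r, x = ∑ v, P v x := by
      intro x
      funext i
      rw [Finset.sum_apply, Fintype.sum_prod_type, Finset.sum_eq_single i]
      · simp [P]
      · intro j _ hj
        simp [P, Ne.symm hj]
      · simp
    have hPh : ∀ v κ (x : Tup g r), P v (csAct κ x) = κ v • P v x := by
      rintro ⟨j, β⟩ κ x
      funext i
      by_cases hi : i = j
      · subst hi
        cases β
        · refine Prod.ext ?_ ?_ <;> simp [P, csAct]
        · refine Prod.ext ?_ ?_ <;> simp [P, csAct]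
      · simp [P, hi]
    refine ⟨Option (Fin g × Bool), inferInstance, fun o => o.elim 0 fun v => Pi.single v 1,
      fun o z => o.elim ((l.comp ((LinearMap.inr ℂ (Tup g r) V).comp (LinearMap.snd ℂ _ V))) z)
        fun v => (l.comp ((LinearMap.inl ℂ (Tup g r) V).comp
          ((P v).comp (LinearMap.fst ℂ _ V)))) z, ?_, ?_, ?_⟩
    · rintro (_ | v)
      · exact polyFun_linear _
      · exact polyFun_linear _
    · rintro (_ | v) κ z
      · simp
      · show l (P v (csAct κ z.1), 0) = _ * l (P v z.1, 0)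
        have e : ((κ v • P v z.1, 0) : Tup g r × V) = κ v • (P v z.1, 0) := by
          rw [Prod.smul_mk, smul_zero]
        rw [hPh, e, map_smul, smul_eq_mul]
        congr 1
        rw [Finset.prod_eq_single v]
        · simp
        · intro w _ hw
          simp [hw]
        · simp
    · intro z
      rw [Fintype.sum_option]
      show l z = l (0, z.2) + ∑ v, l (P v z.1, 0)
      rw [← map_sum, ← map_add]
      congr 1
      refine Prod.ext ?_ ?_
      · rw [Prod.fst_add, Prod.fst_sum, zero_add]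
        exact hP z.1
      · rw [Prod.snd_add, Prod.snd_sum]
        simp
  | algebraMap a =>
    refine ⟨Unit, inferInstance, fun _ => 0, fun _ _ => a, fun _ => polyFun_const a, ?_, ?_⟩
    · intro _ κ x; simp
    · intro x; simp
  | add f g _ _ hf hg =>
    obtain ⟨ι, _, d, F, h1, h2, h3⟩ := hf
    obtain ⟨ι', _, d', F', h1', h2', h3'⟩ := hg
    refine ⟨ι ⊕ ι', inferInstance, Sum.elim d d', Sum.elim F F', ?_, ?_, ?_⟩
    · rintro (j | j)
      · exact h1 j
      · exact h1' j
    · rintro (j | j)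
      · exact h2 j
      · exact h2' j
    · intro x
      rw [Pi.add_apply, h3, h3', Fintype.sum_sum_type]
      rfl
  | mul f g _ _ hf hg =>
    obtain ⟨ι, _, d, F, h1, h2, h3⟩ := hf
    obtain ⟨ι', _, d', F', h1', h2', h3'⟩ := hg
    refine ⟨ι × ι', inferInstance, fun p => d p.1 + d' p.2, fun p x => F p.1 x * F' p.2 x,
      ?_, ?_, ?_⟩
    · intro p
      exact polyFun_mul (h1 p.1) (h1' p.2)
    · intro p κ x
      show F p.1 (csAct κ x.1, x.2) * F' p.2 (csAct κ x.1, x.2) = _
      rw [h2, h2']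
      simp only [Pi.add_apply, pow_add, Finset.prod_mul_distrib]
      ring
    · intro x
      rw [Pi.mul_apply, h3, h3', Finset.sum_mul_sum, Fintype.sum_prod_type]

theorem csb_main (hr : 0 < r) (ω : ℂ) (hω : IsPrimitiveRoot ω r) (S : Set (Tup g r × V))
    (hS1 : ∀ y ∈ S, ∀ v, csDet y.1 v = 1)
    (hS2 : ∀ y ∈ S, ∀ t : Fin g × Bool → ℕ, (csAct (fun v => ω ^ t v) y.1, y.2) ∈ S)
    (f : Tup g r × V → ℂ) (hf : f ∈ PolyFun (Tup g r × V)) (hv : ∀ y ∈ S, f y = 0)
    (x : Tup g r × V) (hx1 : ∀ v, csDet x.1 v = 1)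
    (hx : ∀ F ∈ PolyFun (Tup g r × V), (∀ y ∈ S, ∀ κ : Fin g × Bool → ℂ, (∀ v, κ v ≠ 0) →
      F (csAct κ y.1, y.2) = 0) → F x = 0) : f x = 0 := by
  classical
  obtain ⟨ι, _, d, F, h1, h2, h3⟩ := csb_decomp f hf
  let χ : ι → (Multiplicative (Fin g × Bool → ℕ) →* ℂ) := fun j =>
    { toFun := fun t => ∏ v, (ω ^ (Multiplicative.toAdd t) v) ^ d j v
      map_one' := by simp
      map_mul' := by
        intro a b
        simp only [toAdd_mul, Pi.add_apply, pow_add, mul_pow, Finset.prod_mul_distrib] }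
  have hχ : ∀ j t, χ j (Multiplicative.ofAdd t) = ∏ v, (ω ^ t v) ^ d j v := fun _ _ => rfl
  have key : ∀ y ∈ S, ∀ c, ∑ j with χ j = c, F j y = 0 := by
    intro y hy c
    by_cases hc : c ∈ Finset.univ.image χ
    · have hli := linearIndependent_monoidHom (Multiplicative (Fin g × Bool → ℕ)) ℂ
      rw [linearIndependent_iff'] at hli
      refine hli (Finset.univ.image χ) (fun c => ∑ j with χ j = c, F j y) ?_ c hc
      funext t
      rw [Finset.sum_apply]
      simp only [Pi.smul_apply, smul_eq_mul, Pi.zero_apply]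
      have e1 : ∀ c : Multiplicative (Fin g × Bool → ℕ) →* ℂ,
          (∑ j with χ j = c, F j y) * c t = ∑ j with χ j = c, F j y * χ j t := by
        intro c
        rw [Finset.sum_mul]
        refine Finset.sum_congr rfl fun j hj => ?_
        rw [(Finset.mem_filter.mp hj).2]
      simp only [e1]
      rw [Finset.sum_fiberwise_of_maps_to (fun j _ => Finset.mem_image_of_mem χ (Finset.mem_univ j))]
      have h4 := hv _ (hS2 y hy (Multiplicative.toAdd t))
      rw [h3] at h4
      rw [← h4]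
      refine Finset.sum_congr rfl fun j _ => ?_
      rw [h2 j, mul_comm]
      rfl
    · rw [Finset.filter_false_of_mem, Finset.sum_empty]
      intro j _ hj
      exact hc (Finset.mem_image.mpr ⟨j, Finset.mem_univ j, hj⟩)
  have key2 : ∀ c, ∑ j with χ j = c, F j x = 0 := by
    intro c
    by_cases hne : (Finset.univ.filter fun j => χ j = c).Nonempty
    · obtain ⟨j0, hj0⟩ := hne
      have hj0' : χ j0 = c := (Finset.mem_filter.mp hj0).2
      let M : Fin g × Bool → ℕ := fun v => d j0 v + r * ∑ j, d j v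
      have hmod : ∀ j, χ j = c → ∀ v, ∃ a, M v = d j v + r * a := by
        intro j hj v
        have e1 : χ j (Multiplicative.ofAdd (Pi.single v 1)) =
            χ j0 (Multiplicative.ofAdd (Pi.single v 1)) := by rw [hj, hj0']
        have e2 : ∀ j, χ j (Multiplicative.ofAdd (Pi.single v 1)) = ω ^ d j v := by
          intro j
          rw [hχ, Finset.prod_eq_single v]
          · simp
          · intro w _ hw
            simp [hw]
          · simp
        rw [e2, e2, (hω.isOfFinOrder hr.ne').pow_eq_pow_iff_modEq, ← hω.eq_orderOf] at e1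
        have hle : d j v ≤ ∑ j, d j v :=
          Finset.single_le_sum (f := fun j => d j v) (fun _ _ => Nat.zero_le _) (Finset.mem_univ j)
        have hle2 : d j v ≤ M v := by
          have : 1 * ∑ j, d j v ≤ r * ∑ j, d j v := Nat.mul_le_mul_right _ hr
          show d j v ≤ d j0 v + r * ∑ j, d j v
          omega
        have e3 : d j v ≡ M v [MOD r] := by
          have : M v ≡ d j0 v [MOD r] := by
            show (d j0 v + r * ∑ j, d j v) % r = d j0 v % r
            simp
          exact e1.trans this.symm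
        obtain ⟨a, ha⟩ := (Nat.modEq_iff_dvd' hle2).mp e3
        exact ⟨a, by omega⟩
      choose! a ha using hmod
      let G : Tup g r × V → ℂ := fun y => ∑ j with χ j = c, (∏ v, csDet y.1 v ^ a j v) * F j y
      have hdp : ∀ v, (fun y : Tup g r × V => csDet y.1 v) ∈ PolyFun (Tup g r × V) := fun v =>
        polyFun_comp (cs_det_poly v) (polyMap_fst polyMap_id)
      have hG : G ∈ PolyFun (Tup g r × V) := by
        refine polyFun_sum _ fun j _ => polyFun_mul ?_ (h1 j)
        exact polyFun_prod _ fun v _ => polyFun_pow (hdp v) _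
      have hG0 : G x = 0 := by
        apply hx G hG
        intro y hy κ _
        have e1 : ∀ j, χ j = c → (∏ v, csDet (csAct κ y.1) v ^ a j v) *
            F j (csAct κ y.1, y.2) = (∏ v, κ v ^ M v) * F j y := by
          intro j hj
          rw [h2 j]
          have e2 : ∏ v, csDet (csAct κ y.1) v ^ a j v = ∏ v, (κ v ^ r) ^ a j v := by
            refine Finset.prod_congr rfl fun v _ => ?_
            rw [cs_det_act, hS1 y hy, mul_one]
          rw [e2, ← mul_assoc, ← Finset.prod_mul_distrib]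
          congr 1
          refine Finset.prod_congr rfl fun v _ => ?_
          rw [ha j hj v, pow_add, pow_mul]
          ring
        show ∑ j with χ j = c, (∏ v, csDet (csAct κ y.1) v ^ a j v) *
          F j (csAct κ y.1, y.2) = 0
        rw [Finset.sum_congr rfl fun j hj => e1 j (Finset.mem_filter.mp hj).2, ← Finset.mul_sum,
          key y hy c, mul_zero]
      rw [← hG0]
      refine Finset.sum_congr rfl fun j _ => ?_
      have : ∏ v, csDet x.1 v ^ a j v = 1 := by
        refine Finset.prod_eq_one fun v _ => ?_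
        rw [hx1, one_pow]
      rw [this, one_mul]
    · rw [Finset.not_nonempty_iff_eq_empty.mp hne, Finset.sum_empty]
  rw [h3, ← Finset.sum_fiberwise_of_maps_to
    (fun j _ => Finset.mem_image_of_mem χ (Finset.mem_univ j)) (fun j => F j x)]
  exact Finset.sum_eq_zero fun c _ => key2 c

end csb

theorem sl_of_cone_b {L : Type*} [Field L] [NumberField L] (φ : L →+* ℂ) {g n r : Nat}
    (hr : 0 < r) (ζ : 𝓞 L) (hζ : IsPrimitiveRoot ζ r) (J : Fin n → Mat r)
    (Q : BTup g n r → Prop)
    (hQ : ∀ κ : Fin g × Bool → ℂ, (∀ v, κ v ≠ 0) → ∀ z : BTup g n r, Q z → Q (csAct κ z.1, z.2))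
    (f : BTup g n r → ℂ) (hf : f ∈ PolyFun (BTup g n r))
    (hv : ∀ σ τ, IsIntRepB σ τ → (∀ j, emb φ (τ j).1 ∈ Cls (J j)) →
      Q (fun i => (emb φ (σ i).1.1, emb φ (σ i).2.1), fun j => emb φ (τ j).1) →
      f (fun i => (emb φ (σ i).1.1, emb φ (σ i).2.1), fun j => emb φ (τ j).1) = 0)
    (z : BTup g n r) (hdet : ∀ i, (z.1 i).1.det = 1 ∧ (z.1 i).2.det = 1)
    (hz : ∀ F ∈ PolyFun (BTup g n r), (∀ c ∈ ConeB φ g J, Q c → F c = 0) → F z = 0) :
    f z = 0 := by
  let ω : ℂ := φ (algebraMap (𝓞 L) L ζ)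
  have hω : IsPrimitiveRoot ω r := by
    have h1 : Function.Injective (φ.comp (algebraMap (𝓞 L) L)) :=
      φ.injective.comp (FaithfulSMul.algebraMap_injective (𝓞 L) L)
    exact hζ.map_of_injective h1
  let S : Set (BTup g n r) := {y | ∃ (σ : Fin g → SpecialLinearGroup (Fin r) (𝓞 L) ×
    SpecialLinearGroup (Fin r) (𝓞 L)) (τ : Fin n → SpecialLinearGroup (Fin r) (𝓞 L)),
      IsIntRepB σ τ ∧ (∀ j, emb φ (τ j).1 ∈ Cls (J j)) ∧
      Q (fun i => (emb φ (σ i).1.1, emb φ (σ i).2.1), fun j => emb φ (τ j).1) ∧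
      y = (fun i => (emb φ (σ i).1.1, emb φ (σ i).2.1), fun j => emb φ (τ j).1)}
  have hdet1 : ∀ A : SpecialLinearGroup (Fin r) (𝓞 L), (emb φ A.1).det = 1 := by
    intro A
    have h1 : (emb φ A.1).det = φ (algebraMap (𝓞 L) L A.1.det) := by
      unfold emb
      exact (RingHom.map_det _ _).symm
    rw [h1, A.2, map_one, map_one]
  have hscal : ∀ n : ℕ, (ζ ^ n • (1 : Matrix (Fin r) (Fin r) (𝓞 L))).det = 1 := by
    intro n
    rw [Matrix.det_smul, Matrix.det_one, mul_one, Fintype.card_fin, ← pow_mul, mul_comm, pow_mul,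
      hζ.pow_eq_one, one_pow]
  let sc : ℕ → SpecialLinearGroup (Fin r) (𝓞 L) := fun n =>
    ⟨ζ ^ n • (1 : Matrix (Fin r) (Fin r) (𝓞 L)), hscal n⟩
  have hsc : ∀ n (A : SpecialLinearGroup (Fin r) (𝓞 L)), Commute (sc n) A := by
    intro n A
    apply Subtype.ext
    show (ζ ^ n • (1 : Matrix (Fin r) (Fin r) (𝓞 L))) * A.1 = A.1 * (ζ ^ n • 1)
    simp
  have hscemb : ∀ n (A : SpecialLinearGroup (Fin r) (𝓞 L)),
      emb φ (sc n * A).1 = ω ^ n • emb φ A.1 := by
    intro n A
    have h1 : (sc n * A).1 = ζ ^ n • A.1 := by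
      show (ζ ^ n • (1 : Matrix (Fin r) (Fin r) (𝓞 L))) * A.1 = _
      simp
    rw [h1, cs_emb_smul, map_pow, map_pow]
  refine csb_main hr ω hω S ?_ ?_ f hf ?_ z ?_ ?_
  · rintro y ⟨σ, τ, hσ, hτ, hq, rfl⟩ ⟨i, β⟩
    cases β
    · exact hdet1 _
    · exact hdet1 _
  · rintro y ⟨σ, τ, hσ, hτ, hq, rfl⟩ t
    have hω0 : ω ≠ 0 := hω.ne_zero hr.ne'
    refine ⟨fun i => (sc (t (i, false)) * (σ i).1, sc (t (i, true)) * (σ i).2), τ, ?_, hτ, ?_, ?_⟩
    · unfold IsIntRepB at *
      rw [← hσ]
      congr 3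
      funext i
      have c1 := hsc (t (i, false))
      have c2 := hsc (t (i, true))
      have e : ∀ z w A B : SpecialLinearGroup (Fin r) (𝓞 L), (∀ C, Commute z C) →
          (∀ C, Commute w C) → (z * A) * (w * B) * (z * A)⁻¹ * (w * B)⁻¹ = A * B * A⁻¹ * B⁻¹ := by
        intro z w A B hz hw
        have e1 : (z * A) * (w * B) * (z * A)⁻¹ * (w * B)⁻¹ =
            z * A * (w * B * A⁻¹) * z⁻¹ * (B⁻¹ * w⁻¹) := by group
        have e2 : z * A * (w * B * A⁻¹) * z⁻¹ = A * (w * B * A⁻¹) := by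
          have := (hz (A * (w * B * A⁻¹))).eq
          rw [mul_assoc z, this]; group
        rw [e1, e2]
        have e3 : A * (w * B * A⁻¹) * (B⁻¹ * w⁻¹) = (A * w) * (B * A⁻¹ * B⁻¹) * w⁻¹ := by group
        rw [e3, ← (hw A).eq]
        have e4 := (hw (A * (B * A⁻¹ * B⁻¹))).eq
        have e5 : w * A * (B * A⁻¹ * B⁻¹) * w⁻¹ = (w * (A * (B * A⁻¹ * B⁻¹))) * w⁻¹ := by group
        rw [e5, e4]; group
      exact e _ _ _ _ c1 c2
    · have h5 := hQ (fun v => ω ^ t v) (fun v => pow_ne_zero _ hω0) _ hq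
      simp only [hscemb]
      exact h5
    · refine Prod.ext ?_ rfl
      funext i
      refine Prod.ext ?_ ?_
      · exact (hscemb _ _).symm
      · exact (hscemb _ _).symm
  · rintro y ⟨σ, τ, hσ, hτ, hq, rfl⟩
    exact hv σ τ hσ hτ hq
  · rintro ⟨i, β⟩
    cases β
    · exact (hdet i).1
    · exact (hdet i).2
  · intro F hF hFc
    apply hz F hF
    rintro c ⟨σ, τ, hσ, hτ, κ, μ, hκ, hμ, hc, hc2⟩ hqc
    have hc1 : c.1 = csAct (fun v => if v.2 then μ v.1 else κ v.1)
        (fun i => (emb φ (σ i).1.1, emb φ (σ i).2.1)) := by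
      funext i
      rw [hc i]
      simp [csAct]
    have hc2' : c.2 = fun j => emb φ (τ j).1 := funext hc2
    have hκμ : ∀ v : Fin g × Bool, (if v.2 then μ v.1 else κ v.1) ≠ 0 := by
      rintro ⟨i, β⟩
      cases β
      · exact hκ i
      · exact hμ i
    have hq : Q (fun i => (emb φ (σ i).1.1, emb φ (σ i).2.1), fun j => emb φ (τ j).1) := by
      have h6 := hQ (fun v => (if v.2 then μ v.1 else κ v.1)⁻¹)
        (fun v => inv_ne_zero (hκμ v)) c hqc
      convert h6 using 2
      · funext i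
        simp [csAct, hc i, smul_smul, inv_mul_cancel₀ (hκ i), inv_mul_cancel₀ (hμ i)]
      · exact hc2'.symm
    have hceq : c = (csAct (fun v => if v.2 then μ v.1 else κ v.1)
        (fun i => (emb φ (σ i).1.1, emb φ (σ i).2.1)), fun j => emb φ (τ j).1) :=
      Prod.ext hc1 hc2'
    rw [hceq]
    exact hFc _ ⟨σ, τ, hσ, hτ, hq, rfl⟩ _ hκμ

end Vale.Agent.P002
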