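import Vale.Agent.P002.BFlow

namespace Vale.Agent.P002

open Matrix Topology Filter
open scoped Matrix.Norms.L2Operator

section defs
variable {g n r : ℕ}

/-- prefix product -/
noncomputable def pre (c : Fin n → Mat r) (j : Fin n) : Mat r := ((List.ofFn c).take j).prod

/-- the state attached to a handle and a boundary element -/
noncomputable def bst (z : BTup (g + 1) n r) (j : Fin n) : St (Mat r) :=
  (z.1 (Fin.last g), (1, (pre z.2 j, z.2 j)))

/-- closure under the twists of the handles (for fixed boundary elements) and the twists linking the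
last handle with a boundary element -/
structure MoveClosedB (W : Set (BTup (g + 1) n r)) : Prop where
  mc : ∀ c : Fin n → Mat r, MoveClosed {x | (x, c) ∈ W}
  b5 : ∀ (j : Fin n) {z : BTup (g + 1) n r}, z ∈ W → UP (z.1 (Fin.last g)) → IsUnit (pre z.2 j) →
    gram (e5 (bst z j)) ≠ 0 → ∀ {t : Mat r}, IsUnit t → Commute t (e5 (bst z j)) →
    (Function.update z.1 (Fin.last g) (f5 (bst z j) t).1, Function.update z.2 j
      ((f5 (bst z j) t).2.1 * z.2 j * Ring.inverse (f5 (bst z j) t).2.1)) ∈ W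
  b6 : ∀ (j : Fin n) (m : ℕ) {z : BTup (g + 1) n r}, z ∈ W → UP (z.1 (Fin.last g)) →
    IsUnit (pre z.2 j) → gram (e6 m (bst z j)) ≠ 0 → ∀ {t : Mat r}, IsUnit t →
    Commute t (e6 m (bst z j)) →
    (Function.update z.1 (Fin.last g) (f6 m (bst z j) t).1, Function.update z.2 j
      ((f6 m (bst z j) t).2.1 * z.2 j * Ring.inverse (f6 m (bst z j) t).2.1)) ∈ W

/-- the relation followed by the boundary flows -/
def QB (g : ℕ) (j : Fin n) (s s' : St (Mat r)) : Prop :=
  s'.2.2 = s.2.2 ∧ cmA s'.1 * bX s' = cmA s.1 * bX s ∧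
    ∀ W : Set (BTup (g + 1) n r), MoveClosedB W → ∀ z : BTup (g + 1) n r, pre z.2 j = s.2.2.1 →
      (Function.update z.1 (Fin.last g) s'.1,
        Function.update z.2 j (s'.2.1 * s'.2.2.2 * Ring.inverse s'.2.1)) ∈ W →
      (Function.update z.1 (Fin.last g) s.1,
        Function.update z.2 j (s.2.1 * s.2.2.2 * Ring.inverse s.2.1)) ∈ W

theorem QB.rfl' (j : Fin n) (s : St (Mat r)) : QB g j s s := ⟨rfl, rfl, fun _ _ _ _ h => h⟩

theorem QB.trans' (j : Fin n) (s s' s'' : St (Mat r)) (h : QB g j s s') (h' : QB g j s' s'') :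
    QB g j s s'' :=
  ⟨h'.1.trans h.1, h'.2.1.trans h.2.1, fun W hW z hz hz' =>
    h.2.2 W hW z hz (h'.2.2 W hW z (by rw [h.1]; exact hz) hz')⟩

theorem ofFn_update (c : Fin n → Mat r) (j : Fin n) (v : Mat r) :
    List.ofFn (Function.update c j v) = (List.ofFn c).set j v := by
  apply List.ext_getElem
  · simp
  · intro k h1 h2
    rw [List.getElem_ofFn, List.getElem_set]
    by_cases hk : (j : ℕ) = k
    · have : (⟨k, by simpa using h1⟩ : Fin n) = j := Fin.ext hk.symm
      rw [this]; simp [hk]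
    · have : (⟨k, by simpa using h1⟩ : Fin n) ≠ j := fun h => hk (by rw [← h])
      rw [Function.update_of_ne this, if_neg hk, List.getElem_ofFn]

theorem pre_update (c : Fin n → Mat r) (j : Fin n) (v : Mat r) :
    pre (Function.update c j v) j = pre c j := by
  unfold pre
  rw [ofFn_update, List.take_set_of_le le_rfl]

/-- the state with conjugator `h` describes the same point as the state with conjugator `1` -/
theorem e5_bst {z : BTup (g + 1) n r} {j : Fin n} {s : St (Mat r)} (hp : pre z.2 j = s.2.2.1) :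
    e5 (bst (Function.update z.1 (Fin.last g) s.1,
        Function.update z.2 j (s.2.1 * s.2.2.2 * Ring.inverse s.2.1)) j) = e5 s := by
  simp only [bst, e5, bX, Function.update_self, pre_update, hp, one_mul, mul_one, Ring.inverse_one]

theorem e6_bst {z : BTup (g + 1) n r} {j : Fin n} {s : St (Mat r)} {m : ℕ}
    (hp : pre z.2 j = s.2.2.1) :
    e6 m (bst (Function.update z.1 (Fin.last g) s.1,
        Function.update z.2 j (s.2.1 * s.2.2.2 * Ring.inverse s.2.1)) j) = e6 m s := by
  simp only [bst, e6, bX, Function.update_self, pre_update, hp, one_mul, mul_one, Ring.inverse_one]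

theorem ring_inv_mul {A B : Mat r} (hA : IsUnit A) (hB : IsUnit B) :
    Ring.inverse (A * B) = Ring.inverse B * Ring.inverse A := by
  obtain ⟨A, rfl⟩ := hA
  obtain ⟨B, rfl⟩ := hB
  rw [← Units.val_mul, Ring.inverse_unit, Ring.inverse_unit, Ring.inverse_unit]
  rw [_root_.mul_inv_rev, Units.val_mul]

theorem fwd_f5 (j : Fin n) (s : St (Mat r)) (hs : US s) (hgr : gram (e5 s) ≠ 0) (t : Mat r)
    (htu : IsUnit t) (ht : Commute t (e5 s)) (W : Set (BTup (g + 1) n r)) (hW : MoveClosedB W)
    (z : BTup (g + 1) n r) (hp : pre z.2 j = s.2.2.1)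
    (hz : (Function.update z.1 (Fin.last g) s.1,
        Function.update z.2 j (s.2.1 * s.2.2.2 * Ring.inverse s.2.1)) ∈ W) :
    (Function.update z.1 (Fin.last g) (f5 s t).1,
        Function.update z.2 j ((f5 s t).2.1 * s.2.2.2 * Ring.inverse (f5 s t).2.1)) ∈ W := by
  have h1 := hW.b5 j hz (by simpa using hs.1) (by simpa [pre_update, hp] using hs.2.2)
    (by rw [e5_bst hp]; exact hgr) htu (by rw [e5_bst hp]; exact ht)
  convert h1 using 1
  refine Prod.ext ?_ ?_
  · simp only [bst, f5, Function.update_self, Function.update_idem]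
  · simp only [bst, f5, Function.update_self, Function.update_idem, pre_update, hp, mul_one]
    congr 1
    have hA : IsUnit (Ring.inverse s.2.2.1 * t * s.2.2.1) :=
      (hs.2.2.ringInverse.mul htu).mul hs.2.2
    rw [ring_inv_mul hA hs.2.1]
    simp only [mul_assoc]

theorem fwd_f6 (j : Fin n) (m : ℕ) (s : St (Mat r)) (hs : US s) (hgr : gram (e6 m s) ≠ 0)
    (t : Mat r) (htu : IsUnit t) (ht : Commute t (e6 m s)) (W : Set (BTup (g + 1) n r))
    (hW : MoveClosedB W) (z : BTup (g + 1) n r) (hp : pre z.2 j = s.2.2.1)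
    (hz : (Function.update z.1 (Fin.last g) s.1,
        Function.update z.2 j (s.2.1 * s.2.2.2 * Ring.inverse s.2.1)) ∈ W) :
    (Function.update z.1 (Fin.last g) (f6 m s t).1,
        Function.update z.2 j ((f6 m s t).2.1 * s.2.2.2 * Ring.inverse (f6 m s t).2.1)) ∈ W := by
  have h1 := hW.b6 j m hz (by simpa using hs.1) (by simpa [pre_update, hp] using hs.2.2)
    (by rw [e6_bst hp]; exact hgr) htu (by rw [e6_bst hp]; exact ht)
  convert h1 using 1
  refine Prod.ext ?_ ?_
  · simp only [bst, f6, Function.update_self, Function.update_idem]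
  · simp only [bst, f6, Function.update_self, Function.update_idem, pre_update, hp, mul_one]
    congr 1
    have hA : IsUnit (Ring.inverse s.2.2.1 * t * s.2.2.1) :=
      (hs.2.2.ringInverse.mul htu).mul hs.2.2
    rw [ring_inv_mul hA hs.2.1]
    simp only [mul_assoc]

theorem commute_ringInverse {t e : Mat r} (htu : IsUnit t) (ht : Commute t e) :
    Commute (Ring.inverse t) e := by
  obtain ⟨u, rfl⟩ := htu
  rw [Ring.inverse_unit]
  exact Commute.units_inv_left ht

theorem qB_f5 (j : Fin n) (s : St (Mat r)) (hs : US s) (hgr : gram (e5 s) ≠ 0) (t : Mat r)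
    (htu : IsUnit t) (ht : Commute t (e5 s)) : QB g j s (f5 s t) := by
  refine ⟨rfl, cmA_f5 hs htu ht, fun W hW z hp hz => ?_⟩
  have he := e5_f5 hs htu ht
  have h := fwd_f5 j (f5 s t) (hs.f5 htu) (by rw [he]; exact hgr) (Ring.inverse t) htu.ringInverse
    (by rw [he]; exact commute_ringInverse htu ht) W hW z hp hz
  rw [f5_rev hs htu] at h
  exact h

theorem qB_f6 (j : Fin n) (m : ℕ) (s : St (Mat r)) (hs : US s) (hgr : gram (e6 m s) ≠ 0)
    (t : Mat r) (htu : IsUnit t) (ht : Commute t (e6 m s)) : QB g j s (f6 m s t) := by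
  refine ⟨rfl, cmA_f6 hs htu ht, fun W hW z hp hz => ?_⟩
  have he := e6_f6 hs htu ht
  have h := fwd_f6 j m (f6 m s t) (hs.f6 htu) (by rw [he]; exact hgr) (Ring.inverse t)
    htu.ringInverse (by rw [he]; exact commute_ringInverse htu ht) W hW z hp hz
  rw [f6_rev hs htu] at h
  exact h

theorem qflow5 (j : Fin n) (k : ℕ) (s0 : St (Mat r)) (hs : US s0) (hgr : gram (e5 s0) ≠ 0) :
    ∃ v : St (Mat r), IsFlow (QB g j) s0 v ∧
      v.2.1 = Ring.inverse s0.2.2.1 * (e5 s0) ^ k * s0.2.2.1 * s0.2.1 := by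
  refine isFlow_T5 k s0 hs ?_
  have hc : ContinuousAt (fun s : St (Mat r) => e5 s) s0 :=
    (cd_e5 (𝔸 := Mat r) (E := St (Mat r)) (a := fun p => p.1.1) (b := fun p => p.1.2)
      (h := fun p => p.2.1) (u := fun p => p.2.2.1) (J := fun p => p.2.2.2)
      contDiffAt_fst.fst contDiffAt_fst.snd contDiffAt_snd.fst contDiffAt_snd.snd.fst
      contDiffAt_snd.snd.snd hs.1.1 hs.1.2 hs.2.1 hs.2.2).continuousAt
  have h1 : ∀ᶠ q in 𝓝 (s0, (0 : ℂ)), US q.1 := by
    have hc : ContinuousAt (fun q : St (Mat r) × ℂ => q.1) (s0, 0) := continuousAt_fst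
    exact hc.eventually (eventually_US hs)
  have h2 : ∀ᶠ q in 𝓝 (s0, (0 : ℂ)), gram (e5 q.1) ≠ 0 := by
    have : ContinuousAt (fun q : St (Mat r) × ℂ => gram (e5 q.1)) (s0, 0) :=
      gram_continuous.continuousAt.comp (ContinuousAt.comp (g := fun p => e5 p)
        (f := Prod.fst) hc continuousAt_fst)
    exact this.eventually_ne hgr
  filter_upwards [h1, h2, eventually_unit_t hc k] with q a b c
  exact qB_f5 j q.1 a b _ c (commute_tk _ _ _)

theorem qflow6 (j : Fin n) (m k : ℕ) (s0 : St (Mat r)) (hs : US s0) (hgr : gram (e6 m s0) ≠ 0) :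
    ∃ v : St (Mat r), IsFlow (QB g j) s0 v ∧
      v.2.1 = Ring.inverse s0.2.2.1 * (e6 m s0) ^ k * s0.2.2.1 * s0.2.1 := by
  refine isFlow_T6 m k s0 hs ?_
  have hc : ContinuousAt (fun s : St (Mat r) => e6 m s) s0 :=
    (cd_e6 (𝔸 := Mat r) (E := St (Mat r)) (a := fun p => p.1.1) (b := fun p => p.1.2)
      (h := fun p => p.2.1) (u := fun p => p.2.2.1) (J := fun p => p.2.2.2)
      contDiffAt_fst.fst contDiffAt_fst.snd contDiffAt_snd.fst contDiffAt_snd.snd.fst
      contDiffAt_snd.snd.snd m hs.1.1 hs.1.2 hs.2.1 hs.2.2).continuousAt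
  have h1 : ∀ᶠ q in 𝓝 (s0, (0 : ℂ)), US q.1 := by
    have hc : ContinuousAt (fun q : St (Mat r) × ℂ => q.1) (s0, 0) := continuousAt_fst
    exact hc.eventually (eventually_US hs)
  have h2 : ∀ᶠ q in 𝓝 (s0, (0 : ℂ)), gram (e6 m q.1) ≠ 0 := by
    have : ContinuousAt (fun q : St (Mat r) × ℂ => gram (e6 m q.1)) (s0, 0) :=
      gram_continuous.continuousAt.comp (ContinuousAt.comp (g := fun p => e6 m p)
        (f := Prod.fst) hc continuousAt_fst)
    exact this.eventually_ne hgr
  filter_upwards [h1, h2, eventually_unit_t hc k] with q a b c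
  exact qB_f6 j m q.1 a b _ c (commute_tk _ _ _)

end defs

end Vale.Agent.P002
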