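import Vale.Agent.P002.Chain2
import Vale.Agent.P002.BDefs

namespace Vale.Agent.P002

open Topology Filter

section ring
variable {R : Type*} [Ring R]

/-- states: a handle `(a, b)`, a conjugator `h`, the prefix product `u` and the model `J` -/
abbrev St (R : Type*) := (R × R) × (R × (R × R))

/-- the boundary element `u (h J h⁻¹) u⁻¹` -/
noncomputable def bX (s : St R) : R :=
  s.2.2.1 * (s.2.1 * s.2.2.2 * Ring.inverse s.2.1) * Ring.inverse s.2.2.1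

noncomputable def e5 (s : St R) : R := s.1.2 * Ring.inverse s.1.1 * Ring.inverse s.1.2 * bX s

noncomputable def e6 (m : ℕ) (s : St R) : R := Ring.inverse (s.1.2 * s.1.1 ^ m) * bX s

noncomputable def f5 (s : St R) (t : R) : St R :=
  ((s.1.1, t * s.1.2), (Ring.inverse s.2.2.1 * t * s.2.2.1 * s.2.1, s.2.2))

noncomputable def f6 (m : ℕ) (s : St R) (t : R) : St R :=
  ((s.1.1 * Ring.inverse t,
    t * (s.1.2 * s.1.1 ^ m) * Ring.inverse t * Ring.inverse (s.1.1 * Ring.inverse t) ^ m),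
    (Ring.inverse s.2.2.1 * t * s.2.2.1 * s.2.1, s.2.2))

def US (s : St R) : Prop := UP s.1 ∧ IsUnit s.2.1 ∧ IsUnit s.2.2.1

theorem US.f5 {s : St R} {t : R} (hs : US s) (ht : IsUnit t) : US (f5 s t) :=
  ⟨⟨hs.1.1, ht.mul hs.1.2⟩, ((hs.2.2.ringInverse.mul ht).mul hs.2.2).mul hs.2.1, hs.2.2⟩

theorem US.f6 {m : ℕ} {s : St R} {t : R} (hs : US s) (ht : IsUnit t) : US (f6 m s t) :=
  ⟨⟨hs.1.1.mul ht.ringInverse, ((ht.mul (hs.1.2.mul (hs.1.1.pow m))).mul ht.ringInverse).mul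
    ((hs.1.1.mul ht.ringInverse).ringInverse.pow m)⟩,
    ((hs.2.2.ringInverse.mul ht).mul hs.2.2).mul hs.2.1, hs.2.2⟩

theorem grp_bX {G : Type*} [Group G] (u t h J : G) :
    u * ((u⁻¹ * t * u * h) * J * (u⁻¹ * t * u * h)⁻¹) * u⁻¹ = t * (u * (h * J * h⁻¹) * u⁻¹) * t⁻¹ := by
  group

theorem bX_new {s : St R} (hs : US s) {t : R} (ht : IsUnit t) (J : R) (hJ : J = s.2.2.2) :
    s.2.2.1 * ((Ring.inverse s.2.2.1 * t * s.2.2.1 * s.2.1) * J *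
      Ring.inverse (Ring.inverse s.2.2.1 * t * s.2.2.1 * s.2.1)) * Ring.inverse s.2.2.1 =
    t * bX s * Ring.inverse t := by
  obtain ⟨⟨a, b⟩, ⟨h, ⟨u, J'⟩⟩⟩ := s
  obtain ⟨-, ⟨h, rfl⟩, ⟨u, rfl⟩⟩ := hs
  obtain ⟨t, rfl⟩ := ht
  simp only at hJ
  subst hJ
  simp only [bX]
  simp only [← Units.val_mul, Ring.inverse_unit]
  have e1 : (u⁻¹ * t * u * h)⁻¹ = h⁻¹ * u⁻¹ * t⁻¹ * u := by group
  rw [e1]
  simp only [Units.val_mul, mul_assoc]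
  rw [Units.mul_inv_cancel_left, Units.mul_inv, mul_one]

theorem bX_f5 {s : St R} (hs : US s) {t : R} (ht : IsUnit t) :
    bX (f5 s t) = t * bX s * Ring.inverse t := bX_new hs ht _ rfl

theorem bX_f6 {m : ℕ} {s : St R} (hs : US s) {t : R} (ht : IsUnit t) :
    bX (f6 m s t) = t * bX s * Ring.inverse t := bX_new hs ht _ rfl

theorem conj_of_commute {t e : R} (ht : IsUnit t) (hc : Commute t e) :
    t * e * Ring.inverse t = e := by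
  rw [hc.eq, mul_assoc, Ring.mul_inverse_cancel _ ht, mul_one]

theorem e5_f5 {s : St R} (hs : US s) {t : R} (ht : IsUnit t) (hc : Commute t (e5 s)) :
    e5 (f5 s t) = e5 s := by
  have h1 : e5 (f5 s t) = t * e5 s * Ring.inverse t := by
    unfold e5
    rw [bX_f5 hs ht]
    obtain ⟨⟨a, b⟩, q⟩ := s
    obtain ⟨⟨⟨a, rfl⟩, ⟨b, rfl⟩⟩, -⟩ := hs
    obtain ⟨t, rfl⟩ := ht
    simp only [f5]
    simp only [← Units.val_mul, Ring.inverse_unit, _root_.mul_inv_rev]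
    simp only [Units.val_mul, mul_assoc, Units.inv_mul_cancel_left]
  rw [h1, conj_of_commute ht hc]

theorem cmA_f5 {s : St R} (hs : US s) {t : R} (ht : IsUnit t) (hc : Commute t (e5 s)) :
    cmA (f5 s t).1 * bX (f5 s t) = cmA s.1 * bX s := by
  have h1 : cmA (f5 s t).1 * bX (f5 s t) = (f5 s t).1.1 * e5 (f5 s t) := by
    simp only [cmA, e5, mul_assoc]
  have h2 : cmA s.1 * bX s = s.1.1 * e5 s := by
    simp only [cmA, e5, mul_assoc]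
  rw [h1, h2, e5_f5 hs ht hc]
  rfl

/-- `[a, b a^m] = [a, b]` -/
theorem cmA_dehn {p : R × R} (hp : UP p) (m : ℕ) : cmA (p.1, p.2 * p.1 ^ m) = cmA p := by
  obtain ⟨a, b⟩ := p
  obtain ⟨⟨a, rfl⟩, ⟨b, rfl⟩⟩ := hp
  simp only [cmA]
  simp only [← Units.val_mul, ← Units.val_pow_eq_pow_val, Ring.inverse_unit]
  congr 1
  rw [_root_.mul_inv_rev]
  have h : a ^ m * a⁻¹ * (a ^ m)⁻¹ = a⁻¹ := by
    rw [← zpow_natCast, ← zpow_neg_one, ← zpow_neg, ← zpow_add, ← zpow_add]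
    congr 1
    ring
  calc a * (b * a ^ m) * a⁻¹ * ((a ^ m)⁻¹ * b⁻¹) = a * b * (a ^ m * a⁻¹ * (a ^ m)⁻¹) * b⁻¹ := by
        simp only [mul_assoc]
    _ = _ := by rw [h]

theorem f6_dehn {m : ℕ} {s : St R} (hs : US s) {t : R} (ht : IsUnit t) :
    (f6 m s t).1.2 * (f6 m s t).1.1 ^ m = t * (s.1.2 * s.1.1 ^ m) * Ring.inverse t := by
  obtain ⟨⟨a, b⟩, q⟩ := s
  obtain ⟨⟨⟨a, rfl⟩, ⟨b, rfl⟩⟩, -⟩ := hs
  obtain ⟨t, rfl⟩ := ht
  simp only [f6]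
  simp only [← Units.val_mul, ← Units.val_pow_eq_pow_val, Ring.inverse_unit]
  rw [inv_pow, inv_mul_cancel_right]

theorem e6_f6 {m : ℕ} {s : St R} (hs : US s) {t : R} (ht : IsUnit t) (hc : Commute t (e6 m s)) :
    e6 m (f6 m s t) = e6 m s := by
  have h1 : e6 m (f6 m s t) = t * e6 m s * Ring.inverse t := by
    unfold e6
    rw [bX_f6 hs ht, f6_dehn hs ht]
    obtain ⟨⟨a, b⟩, q⟩ := s
    obtain ⟨⟨⟨a, rfl⟩, ⟨b, rfl⟩⟩, -⟩ := hs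
    obtain ⟨t, rfl⟩ := ht
    simp only [← Units.val_mul, ← Units.val_pow_eq_pow_val, Ring.inverse_unit,
      _root_.mul_inv_rev, inv_inv]
    simp only [Units.val_mul, mul_assoc, Units.inv_mul_cancel_left]
  rw [h1, conj_of_commute ht hc]

theorem cmA_f6 {m : ℕ} {s : St R} (hs : US s) {t : R} (ht : IsUnit t)
    (hc : Commute t (e6 m s)) : cmA (f6 m s t).1 * bX (f6 m s t) = cmA s.1 * bX s := by
  have key : ∀ s : St R, US s → cmA s.1 * bX s =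
      s.1.1 * (s.1.2 * s.1.1 ^ m) * Ring.inverse s.1.1 * e6 m s := by
    intro s hs
    rw [← cmA_dehn hs.1 m]
    simp only [cmA, e6, mul_assoc]
  rw [key _ (hs.f6 ht), key _ hs, e6_f6 hs ht hc, f6_dehn hs ht]
  congr 1
  obtain ⟨⟨a, b⟩, q⟩ := s
  obtain ⟨⟨⟨a, rfl⟩, ⟨b, rfl⟩⟩, -⟩ := hs
  obtain ⟨t, rfl⟩ := ht
  simp only [f6]
  simp only [← Units.val_mul, ← Units.val_pow_eq_pow_val, Ring.inverse_unit,
      _root_.mul_inv_rev, inv_inv]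
  congr 1
  simp only [mul_assoc, inv_mul_cancel_left]

theorem f5_rev {s : St R} (hs : US s) {t : R} (ht : IsUnit t) :
    f5 (f5 s t) (Ring.inverse t) = s := by
  obtain ⟨⟨a, b⟩, ⟨h, ⟨u, J⟩⟩⟩ := s
  obtain ⟨-, -, ⟨u, rfl⟩⟩ := hs
  obtain ⟨t, rfl⟩ := ht
  simp only [f5, Ring.inverse_unit]
  refine Prod.ext (Prod.ext rfl ?_) (Prod.ext ?_ rfl)
  · simp only [Units.inv_mul_cancel_left]
  · simp only [mul_assoc, Units.mul_inv_cancel_left, Units.inv_mul_cancel_left]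

theorem f6_rev {m : ℕ} {s : St R} (hs : US s) {t : R} (ht : IsUnit t) :
    f6 m (f6 m s t) (Ring.inverse t) = s := by
  have h1 := f6_dehn (m := m) hs ht
  obtain ⟨⟨a, b⟩, ⟨h, ⟨u, J⟩⟩⟩ := s
  obtain ⟨⟨⟨a, rfl⟩, ⟨b, rfl⟩⟩, -, ⟨u, rfl⟩⟩ := hs
  obtain ⟨t, rfl⟩ := ht
  rw [f6]
  rw [h1]
  simp only [f6, Ring.inverse_unit]
  simp only [← Units.val_mul, ← Units.val_pow_eq_pow_val, Ring.inverse_unit]
  refine Prod.ext (Prod.ext ?_ ?_) (Prod.ext ?_ rfl)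
  · simp only [inv_inv, inv_mul_cancel_right]
  · simp only [inv_inv, inv_mul_cancel_right]
    congr 1
    rw [inv_pow]
    simp only [mul_assoc, inv_mul_cancel_left, inv_mul_cancel, mul_inv_cancel, mul_one]
  · simp only [Units.val_mul, mul_assoc, Units.mul_inv_cancel_left, Units.inv_mul_cancel_left]

end ring

section abstract

variable {𝔸 : Type*} [NormedRing 𝔸] [NormedAlgebra ℂ 𝔸] [CompleteSpace 𝔸]

noncomputable def T5 (k : ℕ) (q : St 𝔸 × ℂ) : St 𝔸 := f5 q.1 (1 + q.2 • (e5 q.1) ^ k)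

noncomputable def T6 (m k : ℕ) (q : St 𝔸 × ℂ) : St 𝔸 := f6 m q.1 (1 + q.2 • (e6 m q.1) ^ k)

section cds
variable {E : Type*} [NormedAddCommGroup E] [NormedSpace ℂ E]
variable {a b h u J : E → 𝔸} {s : E → ℂ} {x : E} (ha : ContDiffAt ℂ 1 a x)
  (hb : ContDiffAt ℂ 1 b x) (hh : ContDiffAt ℂ 1 h x) (hu : ContDiffAt ℂ 1 u x)
  (hJ : ContDiffAt ℂ 1 J x)

include hh hu hJ in
theorem cd_bX (uh : IsUnit (h x)) (uu : IsUnit (u x)) :
    ContDiffAt ℂ 1 (fun y => bX ((a y, b y), (h y, (u y, J y)))) x :=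
  (hu.mul ((hh.mul hJ).mul (cd_inv hh uh))).mul (cd_inv hu uu)

include ha hb hh hu hJ in
theorem cd_e5 (ua : IsUnit (a x)) (ub : IsUnit (b x)) (uh : IsUnit (h x)) (uu : IsUnit (u x)) :
    ContDiffAt ℂ 1 (fun y => e5 ((a y, b y), (h y, (u y, J y)))) x :=
  ((hb.mul (cd_inv ha ua)).mul (cd_inv hb ub)).mul (cd_bX hh hu hJ uh uu)

include ha hb hh hu hJ in
theorem cd_e6 (m : ℕ) (ua : IsUnit (a x)) (ub : IsUnit (b x)) (uh : IsUnit (h x))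
    (uu : IsUnit (u x)) :
    ContDiffAt ℂ 1 (fun y => e6 m ((a y, b y), (h y, (u y, J y)))) x :=
  (cd_inv (hb.mul (ha.pow m)) (ub.mul (ua.pow m))).mul (cd_bX hh hu hJ uh uu)

end cds

theorem cd_T5 (k : ℕ) (s0 : St 𝔸) (hs : US s0) :
    ContDiffAt ℂ 1 (T5 k : St 𝔸 × ℂ → St 𝔸) (s0, 0) := by
  have ha : ContDiffAt ℂ 1 (fun q : St 𝔸 × ℂ => q.1.1.1) (s0, 0) := contDiffAt_fst.fst.fst
  have hb : ContDiffAt ℂ 1 (fun q : St 𝔸 × ℂ => q.1.1.2) (s0, 0) := contDiffAt_fst.fst.snd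
  have hh : ContDiffAt ℂ 1 (fun q : St 𝔸 × ℂ => q.1.2.1) (s0, 0) := contDiffAt_fst.snd.fst
  have hu : ContDiffAt ℂ 1 (fun q : St 𝔸 × ℂ => q.1.2.2.1) (s0, 0) := contDiffAt_fst.snd.snd.fst
  have hJ : ContDiffAt ℂ 1 (fun q : St 𝔸 × ℂ => q.1.2.2.2) (s0, 0) := contDiffAt_fst.snd.snd.snd
  have hs' : ContDiffAt ℂ 1 (fun q : St 𝔸 × ℂ => q.2) (s0, 0) := contDiffAt_snd
  have ht := cd_t (cd_e5 ha hb hh hu hJ hs.1.1 hs.1.2 hs.2.1 hs.2.2) hs' k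
  exact (ha.prodMk (ht.mul hb)).prodMk
    (((((cd_inv hu hs.2.2).mul ht).mul hu).mul hh).prodMk (hu.prodMk hJ))

theorem cd_T6 (m k : ℕ) (s0 : St 𝔸) (hs : US s0) :
    ContDiffAt ℂ 1 (T6 m k : St 𝔸 × ℂ → St 𝔸) (s0, 0) := by
  have ha : ContDiffAt ℂ 1 (fun q : St 𝔸 × ℂ => q.1.1.1) (s0, 0) := contDiffAt_fst.fst.fst
  have hb : ContDiffAt ℂ 1 (fun q : St 𝔸 × ℂ => q.1.1.2) (s0, 0) := contDiffAt_fst.fst.snd
  have hh : ContDiffAt ℂ 1 (fun q : St 𝔸 × ℂ => q.1.2.1) (s0, 0) := contDiffAt_fst.snd.fst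
  have hu : ContDiffAt ℂ 1 (fun q : St 𝔸 × ℂ => q.1.2.2.1) (s0, 0) := contDiffAt_fst.snd.snd.fst
  have hJ : ContDiffAt ℂ 1 (fun q : St 𝔸 × ℂ => q.1.2.2.2) (s0, 0) := contDiffAt_fst.snd.snd.snd
  have hs' : ContDiffAt ℂ 1 (fun q : St 𝔸 × ℂ => q.2) (s0, 0) := contDiffAt_snd
  have ht := cd_t (cd_e6 ha hb hh hu hJ m hs.1.1 hs.1.2 hs.2.1 hs.2.2) hs' k
  have ut : IsUnit (1 + (0 : ℂ) • (e6 m s0) ^ k) := by simp
  have hti := cd_inv ht ut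
  have hai := cd_inv (ha.mul hti) (hs.1.1.mul ut.ringInverse)
  exact ((ha.mul hti).prodMk (((ht.mul (hb.mul (ha.pow m))).mul hti).mul (hai.pow m))).prodMk
    (((((cd_inv hu hs.2.2).mul ht).mul hu).mul hh).prodMk (hu.prodMk hJ))

theorem f5_one {s : St 𝔸} (hs : US s) : f5 s 1 = s := by
  obtain ⟨⟨a, b⟩, ⟨h, ⟨u, J⟩⟩⟩ := s
  obtain ⟨-, -, ⟨u, rfl⟩⟩ := hs
  simp only [f5, one_mul, mul_one, Ring.inverse_unit, Units.inv_mul]

theorem f6_one {m : ℕ} {s : St 𝔸} (hs : US s) : f6 m s 1 = s := by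
  obtain ⟨⟨a, b⟩, ⟨h, ⟨u, J⟩⟩⟩ := s
  obtain ⟨⟨⟨a, rfl⟩, ⟨b, rfl⟩⟩, -, ⟨u, rfl⟩⟩ := hs
  simp only [f6, one_mul, mul_one, Ring.inverse_unit, Ring.inverse_one, Units.inv_mul]
  refine Prod.ext (Prod.ext rfl ?_) rfl
  simp only [← Units.val_mul, ← Units.val_pow_eq_pow_val]
  simp

theorem T5_zero (k : ℕ) {s : St 𝔸} (hs : US s) : T5 k (s, 0) = s := by
  simp only [T5, zero_smul, add_zero]; exact f5_one hs

theorem T6_zero (m k : ℕ) {s : St 𝔸} (hs : US s) : T6 m k (s, 0) = s := by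
  simp only [T6, zero_smul, add_zero]; exact f6_one hs

theorem eventually_US {s0 : St 𝔸} (h : US s0) : ∀ᶠ s in 𝓝 s0, US s := by
  have h1 : ∀ᶠ s : St 𝔸 in 𝓝 s0, UP s.1 := continuousAt_fst.eventually (eventually_UP h.1)
  have h2 : ∀ᶠ s : St 𝔸 in 𝓝 s0, IsUnit s.2.1 :=
    (continuousAt_fst.comp continuousAt_snd).eventually (Units.isOpen.mem_nhds h.2.1)
  have h3 : ∀ᶠ s : St 𝔸 in 𝓝 s0, IsUnit s.2.2.1 :=
    ((continuousAt_fst.comp continuousAt_snd).comp continuousAt_snd).eventually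
      (Units.isOpen.mem_nhds h.2.2)
  filter_upwards [h1, h2, h3] with s a b c using ⟨a, b, c⟩

variable {Rel : St 𝔸 → St 𝔸 → Prop}

theorem isFlow_T5 (k : ℕ) (s0 : St 𝔸) (h : US s0)
    (hRel : ∀ᶠ q in 𝓝 (s0, (0 : ℂ)), Rel q.1 (T5 k q)) :
    ∃ v : St 𝔸, IsFlow Rel s0 v ∧
      v.2.1 = Ring.inverse s0.2.2.1 * (e5 s0) ^ k * s0.2.2.1 * s0.2.1 := by
  have hcd := cd_T5 k s0 h
  have hd : DifferentiableAt ℂ (fun s : ℂ => T5 k (s0, s)) 0 := by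
    have h1 := hcd.differentiableAt one_ne_zero
    exact DifferentiableAt.comp (g := T5 k) (f := fun s : ℂ => (s0, s)) (0 : ℂ) h1
      (differentiableAt_const _ |>.prodMk differentiableAt_id)
  have hv := hd.hasDerivAt
  set v := deriv (fun s : ℂ => T5 k (s0, s)) 0 with hvdef
  refine ⟨v, isFlow_of_contDiffAt (T5 k) hcd ((eventually_US h).mono fun p hp => T5_zero k hp)
    hv hRel, ?_⟩
  have h1 : HasDerivAt (fun s : ℂ => (T5 k (s0, s)).2.1) v.2.1 0 := by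
    have := ((ContinuousLinearMap.fst ℂ 𝔸 (𝔸 × 𝔸)).comp
      (ContinuousLinearMap.snd ℂ (𝔸 × 𝔸) (𝔸 × (𝔸 × 𝔸)))).hasFDerivAt.comp_hasDerivAt (0 : ℂ) hv
    exact this
  have h2 : HasDerivAt (fun s : ℂ => (T5 k (s0, s)).2.1)
      (Ring.inverse s0.2.2.1 * (e5 s0) ^ k * s0.2.2.1 * s0.2.1) 0 :=
    (((hasDeriv_t ((e5 s0) ^ k)).const_mul (Ring.inverse s0.2.2.1)).mul_const s0.2.2.1).mul_const
      s0.2.1
  exact h1.unique h2

theorem isFlow_T6 (m k : ℕ) (s0 : St 𝔸) (h : US s0)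
    (hRel : ∀ᶠ q in 𝓝 (s0, (0 : ℂ)), Rel q.1 (T6 m k q)) :
    ∃ v : St 𝔸, IsFlow Rel s0 v ∧
      v.2.1 = Ring.inverse s0.2.2.1 * (e6 m s0) ^ k * s0.2.2.1 * s0.2.1 := by
  have hcd := cd_T6 m k s0 h
  have hd : DifferentiableAt ℂ (fun s : ℂ => T6 m k (s0, s)) 0 := by
    have h1 := hcd.differentiableAt one_ne_zero
    exact DifferentiableAt.comp (g := T6 m k) (f := fun s : ℂ => (s0, s)) (0 : ℂ) h1
      (differentiableAt_const _ |>.prodMk differentiableAt_id)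
  have hv := hd.hasDerivAt
  set v := deriv (fun s : ℂ => T6 m k (s0, s)) 0 with hvdef
  refine ⟨v, isFlow_of_contDiffAt (T6 m k) hcd ((eventually_US h).mono fun p hp => T6_zero m k hp)
    hv hRel, ?_⟩
  have h1 : HasDerivAt (fun s : ℂ => (T6 m k (s0, s)).2.1) v.2.1 0 := by
    have := ((ContinuousLinearMap.fst ℂ 𝔸 (𝔸 × 𝔸)).comp
      (ContinuousLinearMap.snd ℂ (𝔸 × 𝔸) (𝔸 × (𝔸 × 𝔸)))).hasFDerivAt.comp_hasDerivAt (0 : ℂ) hv
    exact this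
  have h2 : HasDerivAt (fun s : ℂ => (T6 m k (s0, s)).2.1)
      (Ring.inverse s0.2.2.1 * (e6 m s0) ^ k * s0.2.2.1 * s0.2.1) 0 :=
    (((hasDeriv_t ((e6 m s0) ^ k)).const_mul (Ring.inverse s0.2.2.1)).mul_const s0.2.2.1).mul_const
      s0.2.1
  exact h1.unique h2

end abstract

end Vale.Agent.P002
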