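import Vale.Agent.P002.GenCount

namespace Vale.Agent.P002

open Matrix Module

section bcount

variable {k F : Type*} [CommRing k] [Field F] [Algebra k F] {r : ℕ}

theorem bg_ker {g n : ℕ} (y : Fin g → MF r F × MF r F)
    (hy : ∀ i, IsUnit (y i).1 ∧ IsUnit (y i).2) (P Q : MF r F) (hP : IsUnit P) (hQ : IsUnit Q)
    (T : ((Fin g → MF r F × MF r F) × (Fin n → MF r F)) →ₗ[F] MF r F)
    (hT : ∀ v, T (v, 0) = P * dkA g y v * Q) :
    finrank F (LinearMap.ker T) + r * r ≤
      2 * g * (r * r) + n * (r * r) + finrank F (comT y) := by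
  have h1 := T.finrank_range_add_finrank_ker
  have h0 : finrank F ((Fin g → MF r F × MF r F) × (Fin n → MF r F)) =
      2 * g * (r * r) + n * (r * r) := by
    rw [Module.finrank_prod, gu_finrank_tup, Module.finrank_pi_fintype]
    simp only [gr_finrank_mat, Finset.sum_const, Finset.card_univ, Fintype.card_fin, smul_eq_mul]
  rw [h0] at h1
  have h2 := Subspace.finrank_add_finrank_dualAnnihilator_eq (LinearMap.range T)
  rw [gr_finrank_mat] at h2
  let A : Submodule F (MF r F) := (LinearMap.range T).dualAnnihilator.comap trL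
  have hA : finrank F (LinearMap.range T).dualAnnihilator = finrank F A := by
    have h3 : A.map trL = (LinearMap.range T).dualAnnihilator := by
      rw [Submodule.map_comap_eq_self]
      intro f _
      obtain ⟨η, hη⟩ := gu_repr f
      exact ⟨η, hη⟩
    rw [← h3]
    exact (Submodule.equivMapOfInjective _ trL_injective A).symm.finrank_eq
  let m : MF r F →ₗ[F] MF r F :=
    (LinearMap.mulLeft F (kpA y)).comp ((LinearMap.mulLeft F Q).comp (LinearMap.mulRight F P))
  have hm0 : ∀ η, m η = kpA y * (Q * (η * P)) := fun _ => rfl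
  have hm : Function.Injective m := by
    intro a b hab
    rw [hm0, hm0] at hab
    exact hP.mul_right_cancel (hQ.mul_left_cancel ((gu_isUnit_kpA y hy).mul_left_cancel hab))
  have h4 : A.map m ≤ comT y := by
    rintro _ ⟨η, hη, rfl⟩
    rw [mem_comT, hm0]
    intro i
    apply gu_dual y hy (Q * (η * P))
    intro v
    have h5 : trL η ∈ (LinearMap.range T).dualAnnihilator := hη
    rw [Submodule.mem_dualAnnihilator] at h5
    have h6 := h5 _ ⟨(v, 0), rfl⟩
    rw [trL_apply, hT] at h6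
    rw [← h6, mul_assoc Q, trace_mul_comm Q]
    congr 1
    simp only [mul_assoc]
  have h5 := Submodule.finrank_mono h4
  have h6 : finrank F (A.map m) = finrank F A :=
    (Submodule.equivMapOfInjective _ hm A).symm.finrank_eq
  omega

def hmL (k : Type*) [CommRing k] [Algebra k F] {n : ℕ} (h : Fin n → MF r F) :
    (Derivation k F F × (Fin n → F)) →ₗ[F] (Fin n → MF r F) :=
  LinearMap.pi fun j =>
    (derMap k (h j)).comp (LinearMap.fst _ _ _) +
      (LinearMap.toSpanSingleton F _ (h j)).comp ((LinearMap.proj j).comp (LinearMap.snd _ _ _))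

theorem hmL_apply {n : ℕ} (h : Fin n → MF r F) (D : Derivation k F F) (c : Fin n → F)
    (j : Fin n) : hmL k h (D, c) j = (h j).map D + c j • h j := rfl

theorem bg_count [IsAlgClosed F] [CharZero F] [FiniteDimensional F (Derivation k F F)]
    {n1 n2 n : ℕ} (x : Fin n1 → MF r F × MF r F) (y : Fin n2 → MF r F × MF r F)
    (h : Fin n → MF r F)
    (hx : ∀ i, (x i).1.det = 1 ∧ (x i).2.det = 1) (hy : ∀ i, (y i).1.det = 1 ∧ (y i).2.det = 1)
    (hh : ∀ j, (h j).det = 1)
    (P Q : MF r F) (hP : IsUnit P) (hQ : IsUnit Q) (L : (Fin n → MF r F) →ₗ[F] MF r F)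
    (hL0 : ∀ e : Fin n → F, L (fun j => e j • h j) = 0)
    (hrel : ∀ D : Derivation k F F, (∀ i, (x i).1.map D = 0 ∧ (x i).2.map D = 0) →
      P * dkA n2 y (fun i => ((y i).1.map D, (y i).2.map D)) * Q +
        L (fun j => (h j).map D) = 0)
    (ζ : MF r F) (hζ : ∀ c : F, ζ ≠ c • (1 : MF r F)) (hζx : ζ ∈ comT x)
    (hinj : ∀ D : Derivation k F F, ζ.map D = 0 →
      (∀ i, (x i).1.map D = 0 ∧ (x i).2.map D = 0) →
      (∀ i, (y i).1.map D = 0 ∧ (y i).2.map D = 0) → (∀ j, (h j).map D = 0) → D = 0) :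
    finrank F (Derivation k F F) + 2 * (n1 + n2) + n + 2 * finrank F (LinearMap.ker (adL ζ)) +
        r * r ≤
      2 * (r * r) + 2 * n1 * finrank F (LinearMap.ker (adL ζ)) + 2 * n2 * (r * r) +
        n * (r * r) + finrank F (comT y) := by
  have hr : r ≠ 0 := by
    rintro rfl
    exact hζ 0 (Subsingleton.elim _ _)
  have hyu : ∀ i, IsUnit (y i).1 ∧ IsUnit (y i).2 := fun i =>
    ⟨gc_isUnit (hy i).1, gc_isUnit (hy i).2⟩
  set Z := LinearMap.ker (adL ζ) with hZ
  let V := Derivation k F F × (Fin n1 → F × F) × (Fin n2 → F × F) × (Fin n → F)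
  let Φ1 : V →ₗ[F] MF r F := (derMap k ζ).comp (LinearMap.fst _ _ _)
  let Φ2 : V →ₗ[F] (Fin n1 → MF r F × MF r F) :=
    (twL k x).comp (LinearMap.prod (LinearMap.fst _ _ _)
      ((LinearMap.fst _ _ _).comp (LinearMap.snd _ _ _)))
  let Φ3 : V →ₗ[F] ((Fin n2 → MF r F × MF r F) × (Fin n → MF r F)) :=
    LinearMap.prod
      ((twL k y).comp (LinearMap.prod (LinearMap.fst _ _ _)
        ((LinearMap.fst _ _ _).comp ((LinearMap.snd _ _ _).comp (LinearMap.snd _ _ _)))))
      ((hmL k h).comp (LinearMap.prod (LinearMap.fst _ _ _)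
        ((LinearMap.snd _ _ _).comp ((LinearMap.snd _ _ _).comp (LinearMap.snd _ _ _)))))
  have hΦ2 : ∀ D c c' e i, Φ2 (D, c, c', e) i =
      ((x i).1.map D + (c i).1 • (x i).1, (x i).2.map D + (c i).2 • (x i).2) :=
    fun _ _ _ _ _ => rfl
  have hΦ3 : ∀ D c c' e i, (Φ3 (D, c, c', e)).1 i =
      ((y i).1.map D + (c' i).1 • (y i).1, (y i).2.map D + (c' i).2 • (y i).2) :=
    fun _ _ _ _ _ => rfl
  have hΦ4 : ∀ D c c' e j, (Φ3 (D, c, c', e)).2 j = (h j).map D + e j • h j :=
    fun _ _ _ _ _ => rfl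
  have r1 := gc_rank Φ1 ⊤
  have r2 := gc_rank Φ2 (⊤ ⊓ LinearMap.ker Φ1)
  have r3 := gc_rank Φ3 (⊤ ⊓ LinearMap.ker Φ1 ⊓ LinearMap.ker Φ2)
  have r0 : finrank F (⊤ : Submodule F V) =
      finrank F (Derivation k F F) + 2 * (n1 + n2) + n := by
    rw [finrank_top, Module.finrank_prod, Module.finrank_prod, Module.finrank_prod,
      Module.finrank_pi_fintype, Module.finrank_pi_fintype, Module.finrank_pi_fintype]
    simp only [Module.finrank_prod, Module.finrank_self, Finset.sum_const, Finset.card_univ,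
      Fintype.card_fin, smul_eq_mul]
    ring
  have b1 := gr_main (k := k) ζ hζ (Submodule.map Φ1 ⊤) (by
    rintro _ ⟨⟨D, c, c', e⟩, -, rfl⟩
    exact ⟨D, rfl⟩)
  rw [← hZ] at b1
  have c1 : ∀ D : Derivation k F F, ζ.map D = 0 → ∀ X : MF r F, Commute ζ X →
      Commute ζ (X.map D) := by
    intro D hD X hX
    have := congrArg (fun M : MF r F => M.map D) hX.eq
    simp only [ge_map_mul, hD, zero_mul, mul_zero, zero_add, add_zero] at this
    exact this
  have b2 : finrank F (Submodule.map Φ2 (⊤ ⊓ LinearMap.ker Φ1)) ≤ 2 * n1 * finrank F Z := by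
    let ι : (Fin n1 → Z × Z) →ₗ[F] (Fin n1 → MF r F × MF r F) :=
      LinearMap.pi fun i => (Z.subtype.prodMap Z.subtype).comp (LinearMap.proj i)
    have h1 : Submodule.map Φ2 (⊤ ⊓ LinearMap.ker Φ1) ≤ LinearMap.range ι := by
      rintro _ ⟨⟨D, c, c', e⟩, ⟨-, hD⟩, rfl⟩
      have hD' : ζ.map D = 0 := hD
      have hcom := mem_comT.mp hζx
      have hmem : ∀ X : MF r F, Commute ζ X → ∀ a : F, X.map D + a • X ∈ Z := by
        intro X hX a
        rw [hZ, mem_ker_adL]
        exact ((c1 D hD' X hX).add_right (hX.smul_right a)).eq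
      refine ⟨fun i => (⟨_, hmem (x i).1 (hcom i).1 (c i).1⟩,
        ⟨_, hmem (x i).2 (hcom i).2 (c i).2⟩), ?_⟩
      rfl
    have h2 := (Submodule.finrank_mono h1).trans (LinearMap.finrank_range_le ι)
    have h3 : finrank F (Fin n1 → Z × Z) = 2 * n1 * finrank F Z := by
      rw [Module.finrank_pi_fintype]
      simp only [Module.finrank_prod, Finset.sum_const, Finset.card_univ, Fintype.card_fin,
        smul_eq_mul]
      ring
    rw [h3] at h2
    exact h2
  have c2 : ∀ D c c' e, Φ2 (D, c, c', e) = 0 → ∀ i, ((c i).1 = 0 ∧ (x i).1.map D = 0) ∧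
      ((c i).2 = 0 ∧ (x i).2.map D = 0) := by
    intro D c c' e hz i
    have h1 := congrFun hz i
    rw [hΦ2] at h1
    have h2 := congrArg Prod.fst h1
    have h3 := congrArg Prod.snd h1
    exact ⟨gc_det_one hr D _ _ (hx i).1 h2, gc_det_one hr D _ _ (hx i).2 h3⟩
  let T : ((Fin n2 → MF r F × MF r F) × (Fin n → MF r F)) →ₗ[F] MF r F :=
    ((LinearMap.mulRight F Q).comp ((LinearMap.mulLeft F P).comp
      ((dkL y).comp (LinearMap.fst _ _ _)))) + L.comp (LinearMap.snd _ _ _)
  have hT : ∀ v w, T (v, w) = P * dkA n2 y v * Q + L w := fun _ _ => rfl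
  have b3 : finrank F (Submodule.map Φ3 (⊤ ⊓ LinearMap.ker Φ1 ⊓ LinearMap.ker Φ2)) ≤
      finrank F (LinearMap.ker T) := by
    apply Submodule.finrank_mono
    rintro _ ⟨⟨D, c, c', e⟩, ⟨-, hD2⟩, rfl⟩
    have hX := c2 D c c' e hD2
    have h1 := hrel D (fun i => ⟨(hX i).1.2, (hX i).2.2⟩)
    have h4 := gc_scal_kp y hyu c'
    rw [LinearMap.mem_ker]
    have h5 : Φ3 (D, c, c', e) = ((fun i => ((y i).1.map D, (y i).2.map D)) +
        (fun i => ((c' i).1 • (y i).1, (c' i).2 • (y i).2)),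
        (fun j => (h j).map D) + (fun j => e j • h j)) := by
      refine Prod.ext ?_ ?_
      · funext i
        rw [hΦ3]
        rfl
      · funext j
        rw [hΦ4]
        rfl
    rw [h5, hT, ← dkL_apply, map_add, map_add, hL0, add_zero, dkL_apply, dkL_apply, h4, add_zero]
    exact h1
  have b4 : finrank F (⊤ ⊓ LinearMap.ker Φ1 ⊓ LinearMap.ker Φ2 ⊓ LinearMap.ker Φ3 :
      Submodule F V) = 0 := by
    rw [Submodule.finrank_eq_zero, eq_bot_iff]
    rintro ⟨D, c, c', e⟩ ⟨⟨⟨-, hD1⟩, hD2⟩, hD3⟩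
    have hX := c2 D c c' e hD2
    have hY : ∀ i, ((c' i).1 = 0 ∧ (y i).1.map D = 0) ∧ ((c' i).2 = 0 ∧ (y i).2.map D = 0) := by
      intro i
      have h1 := congrFun (congrArg Prod.fst (show Φ3 (D, c, c', e) = 0 from hD3)) i
      rw [hΦ3] at h1
      have h2 := congrArg Prod.fst h1
      have h3 := congrArg Prod.snd h1
      exact ⟨gc_det_one hr D _ _ (hy i).1 h2, gc_det_one hr D _ _ (hy i).2 h3⟩
    have hH : ∀ j, e j = 0 ∧ (h j).map D = 0 := by
      intro j
      have h1 := congrFun (congrArg Prod.snd (show Φ3 (D, c, c', e) = 0 from hD3)) j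
      rw [hΦ4] at h1
      exact gc_det_one hr D _ _ (hh j) h1
    have hD : D = 0 := hinj D hD1 (fun i => ⟨(hX i).1.2, (hX i).2.2⟩)
      (fun i => ⟨(hY i).1.2, (hY i).2.2⟩) (fun j => (hH j).2)
    have hc : c = 0 := funext fun i => Prod.ext (hX i).1.1 (hX i).2.1
    have hc' : c' = 0 := funext fun i => Prod.ext (hY i).1.1 (hY i).2.1
    have he : e = 0 := funext fun j => (hH j).1
    rw [hD, hc, hc', he]
    exact Submodule.zero_mem _
  have b5 := bg_ker y hyu P Q hP hQ T (fun v => by rw [hT, map_zero, add_zero])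
  have b1' : finrank F (Submodule.map Φ1 ⊤) + 2 * finrank F Z ≤ 2 * (r * r) := b1
  omega

end bcount

end Vale.Agent.P002
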