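import Mathlib

open Polynomial Cardinal

namespace P002

universe u v w

def DimIneq (k : Type u) [Field k] (R : Type v) [CommRing R] [Algebra k R] (n : ℕ) : Prop :=
  ∀ (q : Ideal R), q.IsPrime → ∀ h : ℕ, q.height ≤ (h : ℕ∞) →
    (n : Cardinal.{v}) ≤ Algebra.trdeg k (R ⧸ q) + (h : Cardinal.{v})

lemma trdeg_polynomial {k : Type u} [Field k] {D : Type v} [CommRing D] [IsDomain D]
    [Algebra k D] : Algebra.trdeg k D + 1 = Algebra.trdeg k D[X] := by
  rw [← trdeg_add_eq k D (A := D[X]), Polynomial.trdeg_of_isDomain]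

lemma DimIneq.poly {k : Type u} [Field k] {R : Type v} [CommRing R] [IsNoetherianRing R]
    [Algebra k R] {n : ℕ} (H : DimIneq k R n) : DimIneq k R[X] (n + 1) := by
  intro P hP h hh
  set q : Ideal R := P.comap (algebraMap R R[X]) with hq
  have hqp : q.IsPrime := Ideal.IsPrime.comap _
  have hlies : P.LiesOver q := ⟨rfl⟩
  have hmap_le : q.map (algebraMap R R[X]) ≤ P := Ideal.map_comap_le
  have hmapprime : (q.map (algebraMap R R[X])).IsPrime := Ideal.isPrime_map_C_of_isPrime
  have hht : P.height = q.height +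
      (P.map (Ideal.Quotient.mk (q.map (algebraMap R R[X])))).height :=
    Ideal.height_eq_height_add_of_liesOver_of_hasGoingDown q P
  by_cases hPq : P = q.map (algebraMap R R[X])
  · have h1 : q.height ≤ (h : ℕ∞) := by
      refine le_trans ?_ hh
      rw [hht]
      exact le_self_add
    have h2 := H q hqp h h1
    let e : ((R ⧸ q)[X]) ≃ₐ[k] (R[X] ⧸ P) :=
      AlgEquiv.ofRingEquiv (f := (Ideal.polynomialQuotientEquivQuotientPolynomial q).trans
        (Ideal.quotEquivOfEq hPq.symm)) (by
        intro c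
        have h3 : algebraMap k (R ⧸ q)[X] c
            = (C (algebraMap k R c) : R[X]).map (Ideal.Quotient.mk q) := by
          rw [Polynomial.map_C]; rfl
        rw [h3, RingEquiv.trans_apply,
          Ideal.polynomialQuotientEquivQuotientPolynomial_map_mk]
        rfl)
    rw [← e.trdeg_eq, ← trdeg_polynomial]
    push_cast
    calc ((n : Cardinal) + 1) ≤ (Algebra.trdeg k (R ⧸ q) + h) + 1 := by gcongr
      _ = Algebra.trdeg k (R ⧸ q) + 1 + h := by ring
  · -- the image of P in the domain is nonzero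
    have hne : (P.map (Ideal.Quotient.mk (q.map (algebraMap R R[X])))) ≠ ⊥ := by
      intro h0
      apply hPq
      apply le_antisymm _ hmap_le
      rwa [Ideal.map_eq_bot_iff_le_ker, Ideal.mk_ker] at h0
    have h1 : 1 ≤ (P.map (Ideal.Quotient.mk (q.map (algebraMap R R[X])))).height := by
      rw [Order.one_le_iff_ne_zero]
      intro h0
      exact hne (Ideal.height_eq_zero_iff_eq_bot.mp h0)
    have h2 : q.height + 1 ≤ (h : ℕ∞) := by
      refine le_trans ?_ hh
      rw [hht]
      gcongr
    obtain ⟨h', rfl⟩ : ∃ h', h = h' + 1 := by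
      rcases h with _ | h'
      · exfalso
        simp at h2
      · exact ⟨h', rfl⟩
    have h3 : q.height ≤ (h' : ℕ∞) := by
      push_cast at h2
      exact (ENat.add_le_add_iff_right ENat.one_ne_top).mp h2
    have h4 := H q hqp h' h3
    have h5 : Algebra.trdeg k (R ⧸ q) ≤ Algebra.trdeg k (R[X] ⧸ P) := by
      let f : (R ⧸ q) →ₐ[k] (R[X] ⧸ P) :=
        Ideal.quotientMapₐ P (IsScalarTower.toAlgHom k R R[X]) (by
          intro x hx; exact hx)
      refine trdeg_le_of_injective f ?_
      exact Ideal.quotientMap_injective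
    push_cast
    calc ((n : Cardinal) + 1) ≤ (Algebra.trdeg k (R ⧸ q) + h') + 1 := by gcongr
      _ ≤ (Algebra.trdeg k (R[X] ⧸ P) + h') + 1 := by gcongr
      _ = _ := by ring

lemma DimIneq.equiv {k : Type u} [Field k] {R : Type v} [CommRing R] [Algebra k R]
    {R' : Type w} [CommRing R'] [Algebra k R'] (e : R ≃ₐ[k] R') {n : ℕ} (H : DimIneq k R n) :
    DimIneq k R' n := by
  intro P hP h hh
  set q : Ideal R := P.comap e.toRingEquiv with hq
  have hqp : q.IsPrime := Ideal.IsPrime.comap _
  have h1 : q.height = P.height := RingEquiv.height_comap e.toRingEquiv P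
  have h2 := H q hqp h (h1 ▸ hh)
  let f : (R ⧸ q) ≃ₐ[k] (R' ⧸ P) :=
    Ideal.quotientEquivAlg q P e (by
      rw [hq]
      exact (Ideal.map_comap_of_surjective _ e.surjective _).symm)
  have h3 := f.lift_trdeg_eq
  have h4 : (n : Cardinal.{max v w}) ≤ lift.{w} (Algebra.trdeg k (R ⧸ q)) + h := by
    have := lift_le.{w}.mpr h2
    simpa using this
  rw [h3] at h4
  have h5 : lift.{v} (n : Cardinal.{w}) ≤ lift.{v} (Algebra.trdeg k (R' ⧸ P) + h) := by
    simpa using h4
  exact lift_le.mp h5

lemma dimIneq_mvPolynomial (k : Type u) [Field k] (σ : Type v) [Finite σ] :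
    DimIneq k (MvPolynomial σ k) (Nat.card σ) := by
  induction σ using Finite.induction_empty_option with
  | of_equiv e H =>
    rw [← Nat.card_congr e]
    exact H.equiv (MvPolynomial.renameEquiv k e)
  | h_empty =>
    intro q _ h _
    simp
  | h_option IH =>
    rw [Nat.card_eq_fintype_card, Fintype.card_option, ← Nat.card_eq_fintype_card]
    exact (IH.poly).equiv ((MvPolynomial.optionEquivLeft k _).symm)

theorem trdeg_rank {k : Type u} [Field k] {σ : Type v} [Fintype σ] {m : ℕ}
    (S : Fin m → MvPolynomial σ k) (p : Ideal (MvPolynomial σ k))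
    (hp : p ∈ (Ideal.span (Set.range S)).minimalPrimes) [p.IsPrime] :
    (Fintype.card σ : Cardinal) ≤
      Algebra.trdeg k (FractionRing (MvPolynomial σ k ⧸ p)) + (m : Cardinal) := by
  have hh : p.height ≤ (m : ℕ∞) := by
    refine (Ideal.height_le_card_of_mem_minimalPrimes_span (Set.finite_range S) hp).trans ?_
    have : (Set.range S).ncard ≤ m := by
      rw [← Set.image_univ]
      refine (Set.ncard_image_le (Set.finite_univ)).trans ?_
      simp [Set.ncard_univ]
    exact_mod_cast this
  have h1 := dimIneq_mvPolynomial k σ p inferInstance m hh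
  rw [Nat.card_eq_fintype_card] at h1
  refine h1.trans ?_
  gcongr
  exact trdeg_le_of_injective
    (IsScalarTower.toAlgHom k (MvPolynomial σ k ⧸ p) (FractionRing (MvPolynomial σ k ⧸ p)))
    (IsFractionRing.injective _ _)

theorem exists_basis_rank {k : Type u} [Field k] {σ : Type v} [Fintype σ] {m : ℕ}
    (S : Fin m → MvPolynomial σ k) (p : Ideal (MvPolynomial σ k))
    (hp : p ∈ (Ideal.span (Set.range S)).minimalPrimes) [p.IsPrime] :
    ∃ (d : ℕ) (x : Fin d → FractionRing (MvPolynomial σ k ⧸ p)),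
      IsTranscendenceBasis k x ∧ Fintype.card σ ≤ d + m := by
  have hfs : FaithfulSMul k (FractionRing (MvPolynomial σ k ⧸ p)) := inferInstance
  obtain ⟨s, hs⟩ := exists_isTranscendenceBasis k (FractionRing (MvPolynomial σ k ⧸ p))
  have hcard := hs.cardinalMk_eq_trdeg
  have hfin : Algebra.trdeg k (FractionRing (MvPolynomial σ k ⧸ p)) < ℵ₀ := by
    have h1 : Algebra.trdeg k (MvPolynomial σ k ⧸ p) < ℵ₀ := trdeg_lt_aleph0_of_finiteType
    have h2 := trdeg_add_eq k (MvPolynomial σ k ⧸ p)
      (A := FractionRing (MvPolynomial σ k ⧸ p))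
    have h4 : Algebra.IsAlgebraic (MvPolynomial σ k ⧸ p)
        (FractionRing (MvPolynomial σ k ⧸ p)) :=
      IsLocalization.isAlgebraic _ (nonZeroDivisors (MvPolynomial σ k ⧸ p))
    have h3 : Algebra.trdeg (MvPolynomial σ k ⧸ p) (FractionRing (MvPolynomial σ k ⧸ p)) = 0 :=
      trdeg_eq_zero
    rw [h3, add_zero] at h2
    rwa [← h2]
  have hr := trdeg_rank S p hp
  rw [← hcard] at hr hfin
  have hfs : Finite s := Cardinal.lt_aleph0_iff_finite.mp hfin
  have hft : Fintype s := Fintype.ofFinite s
  refine ⟨Fintype.card s, fun i => ((Fintype.equivFin s).symm i : s), ?_, ?_⟩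
  · exact (hs.comp_equiv (Fintype.equivFin s).symm)
  · rw [Cardinal.mk_fintype] at hr
    exact_mod_cast hr

end P002
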