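import Vale.Agent.P002.GenHalf
import Vale.Agent.P002.DerRank

namespace Vale.Agent.P002

open Matrix Module

abbrev Ix (n r : ℕ) := Fin n × Bool × Fin r × Fin r

section adj

variable {R S : Type*} [CommRing R] [CommRing S] {r n : ℕ}

def tupOf (c : Ix n r → R) : Fin n → MF r R × MF r R := fun i =>
  (Matrix.of fun a b => c (i, false, a, b), Matrix.of fun a b => c (i, true, a, b))

def cmJ (p : MF r R × MF r R) : MF r R := p.1 * p.2 * p.1.adjugate * p.2.adjugate

def kJ (x : Fin n → MF r R × MF r R) : MF r R := (List.ofFn fun i => cmJ (x i)).prod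

def mapT (φ : R →+* S) (x : Fin n → MF r R × MF r R) : Fin n → MF r S × MF r S := fun i =>
  (φ.mapMatrix (x i).1, φ.mapMatrix (x i).2)

theorem cmJ_map (φ : R →+* S) (p : MF r R × MF r R) :
    φ.mapMatrix (cmJ p) = cmJ (φ.mapMatrix p.1, φ.mapMatrix p.2) := by
  simp only [cmJ, map_mul]
  rw [RingHom.map_adjugate, RingHom.map_adjugate]

theorem kJ_map (φ : R →+* S) (x : Fin n → MF r R × MF r R) :
    φ.mapMatrix (kJ x) = kJ (mapT φ x) := by
  unfold kJ
  rw [map_list_prod, List.map_ofFn]
  congr 2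
  funext i
  exact cmJ_map φ (x i)

theorem adj_inverse {X : MF r R} (h : X.det = 1) : Ring.inverse X = X.adjugate := by
  rw [← Matrix.nonsing_inv_eq_ringInverse, Matrix.inv_def, h]
  simp

theorem cmA_cmJ (p : MF r R × MF r R) (h1 : p.1.det = 1) (h2 : p.2.det = 1) : cmA p = cmJ p := by
  unfold cmA cmJ
  rw [adj_inverse h1, adj_inverse h2]

theorem kpA_kJ (x : Fin n → MF r R × MF r R) (h : ∀ i, (x i).1.det = 1 ∧ (x i).2.det = 1) :
    kpA x = kJ x := by
  unfold kpA kJ
  congr 2
  funext i
  exact cmA_cmJ _ (h i).1 (h i).2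

theorem det_adj_one {X : MF r R} (h : X.det = 1) : X.adjugate.det = 1 := by
  have h1 := congrArg Matrix.det (Matrix.mul_adjugate X)
  rw [Matrix.det_mul, h, one_smul, one_mul, Matrix.det_one] at h1
  exact h1

theorem det_kJ (x : Fin n → MF r R × MF r R) (h : ∀ i, (x i).1.det = 1 ∧ (x i).2.det = 1) :
    (kJ x).det = 1 := by
  unfold kJ
  have h1 : ∀ i, (cmJ (x i)).det = 1 := by
    intro i
    simp only [cmJ, Matrix.det_mul, (h i).1, (h i).2, det_adj_one (h i).1, det_adj_one (h i).2,
      mul_one]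
  have h2 : Matrix.detMonoidHom (List.ofFn fun i => cmJ (x i)).prod = 1 := by
    rw [map_list_prod]
    refine List.prod_eq_one ?_
    intro y hy
    rw [List.mem_map] at hy
    obtain ⟨M, hM, rfl⟩ := hy
    rw [List.mem_ofFn] at hM
    obtain ⟨i, rfl⟩ := hM
    exact h1 i
  exact h2

theorem one_entry {z : Fin r} (N : MF r R)
    (h : ∀ a b, (a, b) ≠ (z, z) → N a b = (1 : MF r R) a b) (hd : N.det = 1) : N = 1 := by
  have h1 : N = Matrix.diagonal (Function.update (fun _ => (1 : R)) z (N z z)) := by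
    ext a b
    by_cases hab : a = b
    · subst hab
      by_cases ha : a = z
      · subst ha; simp
      · rw [h a a (fun h' => ha (congrArg Prod.fst h'))]
        simp [Function.update_of_ne ha]
    · rw [h a b (fun h' => hab ((congrArg Prod.fst h').trans (congrArg Prod.snd h').symm))]
      simp [hab]
  have h2 : N z z = 1 := by
    rw [h1, Matrix.det_diagonal, Finset.prod_update_of_mem (Finset.mem_univ z)] at hd
    simpa using hd
  rw [h1, h2, Function.update_eq_self]
  simp

def comMat {z : Fin r} (x : Fin n → MF r R × MF r R) :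
    Matrix (Ix n r ⊕ Unit) (Fin r × Fin r) R :=
  Matrix.of fun j p => Sum.elim (fun q : Ix n r =>
    (if q.2.2.1 = p.1 then (if q.2.1 then (x q.1).2 p.2 q.2.2.2 else (x q.1).1 p.2 q.2.2.2) else 0) -
    (if p.2 = q.2.2.2 then (if q.2.1 then (x q.1).2 q.2.2.1 p.1 else (x q.1).1 q.2.2.1 p.1) else 0))
    (fun _ => if p = (z, z) then 1 else 0) j

theorem comMat_inl {z : Fin r} (x : Fin n → MF r R × MF r R) (M : MF r R) (i : Fin n) (β : Bool)
    (a b : Fin r) :
    ((comMat (z := z) x).mulVec fun p => M p.1 p.2) (Sum.inl (i, β, a, b)) =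
      (M * (if β then (x i).2 else (x i).1) - (if β then (x i).2 else (x i).1) * M) a b := by
  rw [Matrix.mulVec, dotProduct, Fintype.sum_prod_type]
  simp only [comMat, Matrix.of_apply, Sum.elim_inl, sub_mul, ite_mul, zero_mul,
    Finset.sum_sub_distrib, Matrix.sub_apply, Matrix.mul_apply]
  congr 1
  · rw [Finset.sum_eq_single a]
    · refine Finset.sum_congr rfl fun l _ => ?_
      cases β <;> simp [mul_comm]
    · intro c _ hc
      simp [Ne.symm hc]
    · simp
  · cases β
    · simp only [Bool.false_eq_true, ↓reduceIte]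
      rw [Matrix.mul_apply]
      refine Finset.sum_congr rfl fun l _ => ?_
      simp
    · simp only [↓reduceIte]
      rw [Matrix.mul_apply]
      refine Finset.sum_congr rfl fun l _ => ?_
      simp

theorem comMat_inr {z : Fin r} (x : Fin n → MF r R × MF r R) (M : MF r R) :
    ((comMat (z := z) x).mulVec fun p => M p.1 p.2) (Sum.inr ()) = M z z := by
  rw [Matrix.mulVec, dotProduct]
  simp [comMat]

theorem comMat_map {z : Fin r} (φ : R →+* S) (x : Fin n → MF r R × MF r R) :
    (comMat (z := z) x).map φ = comMat (z := z) (mapT φ x) := by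
  ext j p
  rcases j with ⟨i, β, a, b⟩ | u
  · simp only [comMat, Matrix.map_apply, Matrix.of_apply, Sum.elim_inl, mapT]
    cases β <;> split_ifs <;> simp
  · simp only [comMat, Matrix.map_apply, Matrix.of_apply, Sum.elim_inr]
    split_ifs <;> simp

end adj

theorem poly_repr {n r : ℕ} (f : Tup n r → ℂ) (hf : f ∈ PolyFun (Tup n r)) :
    ∃ P : MvPolynomial (Ix n r) ℂ, ∀ c : Ix n r → ℂ, f (tupOf c) = MvPolynomial.aeval c P := by
  unfold PolyFun at hf
  induction hf using Algebra.adjoin_induction with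
  | mem x hx =>
    obtain ⟨l, rfl⟩ := hx
    let T : (Ix n r → ℂ) →ₗ[ℂ] Tup n r :=
      { toFun := tupOf
        map_add' := fun c c' => rfl
        map_smul' := fun a c => rfl }
    refine ⟨∑ s, MvPolynomial.X s * MvPolynomial.C ((l.comp T) fun j => if s = j then 1 else 0),
      ?_⟩
    intro c
    have := LinearMap.pi_apply_eq_sum_univ (l.comp T) c
    rw [map_sum]
    simp only [map_mul, MvPolynomial.aeval_X, MvPolynomial.aeval_C, Algebra.algebraMap_self,
      RingHom.id_apply]
    exact this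
  | algebraMap a => exact ⟨MvPolynomial.C a, fun c => by simp⟩
  | add f g _ _ hf hg =>
    obtain ⟨P, hP⟩ := hf
    obtain ⟨Q, hQ⟩ := hg
    exact ⟨P + Q, fun c => by rw [Pi.add_apply, hP, hQ, map_add]⟩
  | mul f g _ _ hf hg =>
    obtain ⟨P, hP⟩ := hf
    obtain ⟨Q, hQ⟩ := hg
    exact ⟨P * Q, fun c => by rw [Pi.mul_apply, hP, hQ, map_mul]⟩

theorem kpA_split {R : Type*} [Ring R] {n : ℕ} (x : Fin (n + 1) → R × R) :
    kpA x = kpA (fun i : Fin n => x i.castSucc) * kpA (fun _ : Fin 1 => x (Fin.last n)) := by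
  unfold kpA
  rw [List.ofFn_succ', List.concat_eq_append, List.prod_append]
  simp

end Vale.Agent.P002
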