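import Vale.Agent.P002.BGenCount
import Vale.Agent.P002.GenPoly

namespace Vale.Agent.P002

open Matrix Module

section bdefs

variable {R S : Type*} [CommRing R] [CommRing S] {r n : ℕ}

def bJ (J h : Fin n → MF r R) : MF r R :=
  (List.ofFn fun j => h j * J j * (h j).adjugate).prod

theorem bJ_succ (J h : Fin (n + 1) → MF r R) :
    bJ J h = (h 0 * J 0 * (h 0).adjugate) * bJ (fun j : Fin n => J j.succ) (fun j => h j.succ) := by
  unfold bJ
  rw [List.ofFn_succ, List.prod_cons]

theorem bJ_map (φ : R →+* S) (J h : Fin n → MF r R) :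
    φ.mapMatrix (bJ J h) = bJ (fun j => φ.mapMatrix (J j)) (fun j => φ.mapMatrix (h j)) := by
  unfold bJ
  rw [map_list_prod, List.map_ofFn]
  congr 2
  funext i
  simp only [Function.comp, map_mul]
  rw [RingHom.map_adjugate]

theorem det_bJ (J h : Fin n → MF r R) (hJ : ∀ j, (J j).det = 1) (hh : ∀ j, (h j).det = 1) :
    (bJ J h).det = 1 := by
  induction n with
  | zero => simp [bJ]
  | succ n ih =>
    rw [bJ_succ, Matrix.det_mul, ih _ _ (fun j => hJ j.succ) (fun j => hh j.succ),
      Matrix.det_mul, Matrix.det_mul, hJ, hh, det_adj_one (hh 0)]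
    simp

end bdefs

section brel

variable {k F : Type*} [CommRing k] [Field F] [Algebra k F] {r : ℕ}

theorem bJ_der {n : ℕ} (J h : Fin n → MF r F) (hh : ∀ j, (h j).det = 1) :
    ∃ L : (Fin n → MF r F) →ₗ[F] MF r F,
      (∀ D : Derivation k F F, (∀ j, (J j).map D = 0) →
        (bJ J h).map D = L (fun j => (h j).map D)) ∧
      ∀ e : Fin n → F, L (fun j => e j • h j) = 0 := by
  induction n with
  | zero =>
    refine ⟨0, fun D _ => ?_, fun e => rfl⟩
    have : bJ J h = 1 := by simp [bJ]
    rw [this, gc_map_one]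
    rfl
  | succ n ih =>
    obtain ⟨L', h1, h2⟩ := ih (fun j => J j.succ) (fun j => h j.succ) (fun j => hh j.succ)
    let c0 : MF r F := h 0 * J 0 * (h 0).adjugate
    let B : MF r F := bJ (fun j : Fin n => J j.succ) (fun j => h j.succ)
    let t : (Fin (n + 1) → MF r F) →ₗ[F] (Fin n → MF r F) :=
      LinearMap.pi fun j => LinearMap.proj j.succ
    let L : (Fin (n + 1) → MF r F) →ₗ[F] MF r F :=
      (LinearMap.mulLeft F c0).comp (L'.comp t) +
        (LinearMap.mulRight F B).comp
          (((LinearMap.mulRight F (J 0 * (h 0).adjugate)).comp (LinearMap.proj 0)) -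
            ((LinearMap.mulLeft F c0).comp ((LinearMap.mulRight F (h 0).adjugate).comp
              (LinearMap.proj 0))))
    have hL : ∀ w, L w = c0 * L' (fun j => w j.succ) +
        (w 0 * (J 0 * (h 0).adjugate) - c0 * (w 0 * (h 0).adjugate)) * B := fun _ => rfl
    have hu : h 0 * (h 0).adjugate = 1 := by
      rw [Matrix.mul_adjugate, hh 0, one_smul]
    refine ⟨L, ?_, ?_⟩
    · intro D hD
      have e1 : ((h 0).adjugate).map D =
          -((h 0).adjugate * (h 0).map D * (h 0).adjugate) := by
        have := gc_map_inv D (h 0) (gc_isUnit (hh 0))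
        rwa [adj_inverse (hh 0)] at this
      have e2 : c0.map D = (h 0).map D * (J 0 * (h 0).adjugate) -
          c0 * ((h 0).map D * (h 0).adjugate) := by
        show (h 0 * J 0 * (h 0).adjugate).map D = _
        rw [ge_map_mul, ge_map_mul, hD 0, e1]
        show _ = (h 0).map D * (J 0 * (h 0).adjugate) -
          (h 0 * J 0 * (h 0).adjugate) * ((h 0).map D * (h 0).adjugate)
        noncomm_ring
      rw [bJ_succ, ge_map_mul, h1 D (fun j => hD j.succ), hL]
      show c0.map D * B + c0 * _ = _
      rw [e2, add_comm]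
    · intro e
      rw [hL, h2 (fun j => e j.succ), mul_zero, zero_add]
      have : e 0 • h 0 * (J 0 * (h 0).adjugate) - c0 * (e 0 • h 0 * (h 0).adjugate) = 0 := by
        rw [Matrix.smul_mul, Matrix.smul_mul, hu, Matrix.mul_smul, mul_one]
        show e 0 • (h 0 * (J 0 * (h 0).adjugate)) - e 0 • (h 0 * J 0 * (h 0).adjugate) = 0
        rw [mul_assoc, sub_self]
      rw [this, zero_mul]

theorem bh_rel {n1 n2 n : ℕ} (x : Fin n1 → MF r F × MF r F) (y : Fin n2 → MF r F × MF r F)
    (h : Fin n → MF r F)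
    (hx : ∀ i, (x i).1.det = 1 ∧ (x i).2.det = 1) (hy : ∀ i, (y i).1.det = 1 ∧ (y i).2.det = 1)
    (hh : ∀ j, (h j).det = 1) (J : Fin n → MF r F) (hJ : ∀ j, (J j).det = 1)
    (hJD : ∀ (D : Derivation k F F) j, (J j).map D = 0)
    (hxy : kpA x * (kpA y * bJ J h) = 1 ∨ kpA x * (bJ J h * kpA y) = 1) :
    ∃ (P Q : MF r F) (L : (Fin n → MF r F) →ₗ[F] MF r F), IsUnit P ∧ IsUnit Q ∧
      (∀ e : Fin n → F, L (fun j => e j • h j) = 0) ∧
      ∀ D : Derivation k F F, (∀ i, (x i).1.map D = 0 ∧ (x i).2.map D = 0) →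
        P * dkA n2 y (fun i => ((y i).1.map D, (y i).2.map D)) * Q +
          L (fun j => (h j).map D) = 0 := by
  have hxu : ∀ i, IsUnit (x i).1 ∧ IsUnit (x i).2 := fun i =>
    ⟨gc_isUnit (hx i).1, gc_isUnit (hx i).2⟩
  have hyu : ∀ i, IsUnit (y i).1 ∧ IsUnit (y i).2 := fun i =>
    ⟨gc_isUnit (hy i).1, gc_isUnit (hy i).2⟩
  obtain ⟨L, hL1, hL2⟩ := bJ_der (k := k) J h hh
  have hB : IsUnit (bJ J h) := gc_isUnit (det_bJ J h hJ hh)
  have key : ∀ (W : MF r F) (D : Derivation k F F), kpA x * W = 1 →
      (∀ i, (x i).1.map D = 0 ∧ (x i).2.map D = 0) → W.map D = 0 := by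
    intro W D hW hD
    have h1 : (kpA x).map D = 0 := by
      rw [gc_map_kp D x hxu]
      have : (fun i => ((x i).1.map D, (x i).2.map D)) = fun _ => (0 : MF r F × MF r F) := by
        funext i
        rw [(hD i).1, (hD i).2]
        rfl
      rw [this]
      exact gu_dkA_zero x
    have h3 := congrArg (fun M : MF r F => M.map D) hW
    simp only [ge_map_mul, h1, zero_mul, zero_add, gc_map_one] at h3
    exact ((gu_isUnit_kpA x hxu).mul_right_eq_zero).mp h3
  rcases hxy with hxy | hxy
  · refine ⟨1, bJ J h, (LinearMap.mulLeft F (kpA y)).comp L, isUnit_one, hB, ?_, ?_⟩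
    · intro e
      rw [LinearMap.comp_apply, hL2, map_zero]
    · intro D hD
      have h1 := key _ D hxy hD
      rw [ge_map_mul, gc_map_kp D y hyu, hL1 D (hJD D)] at h1
      rw [one_mul]
      exact h1
  · refine ⟨bJ J h, 1, (LinearMap.mulRight F (kpA y)).comp L, hB, isUnit_one, ?_, ?_⟩
    · intro e
      rw [LinearMap.comp_apply, hL2, map_zero]
    · intro D hD
      have h1 := key _ D hxy hD
      rw [ge_map_mul, gc_map_kp D y hyu, hL1 D (hJD D), add_comm] at h1
      rw [mul_one]
      exact h1

end brel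

section bhalf

theorem bh_half {k : Type} [Field k] [CharZero k] {K : Type} [Field K] [Algebra k K] {ι0 : Type}
    [Fintype ι0] (b : ι0 → K) (hb : IsTranscendenceBasis k b) {r n1 n2 n : ℕ}
    (X : Fin n1 → MF r K × MF r K) (Y : Fin n2 → MF r K × MF r K) (H : Fin n → MF r K)
    (J : Fin n → MF r k) (hJ : ∀ j, (J j).det = 1)
    (hX : ∀ i, (X i).1.det = 1 ∧ (X i).2.det = 1) (hY : ∀ i, (Y i).1.det = 1 ∧ (Y i).2.det = 1)
    (hH : ∀ j, (H j).det = 1)
    (hXY : kpA X * (kpA Y * bJ (fun j => (J j).map (algebraMap k K)) H) = 1 ∨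
      kpA X * (bJ (fun j => (J j).map (algebraMap k K)) H * kpA Y) = 1)
    (hgen : ∀ L : IntermediateField k K, (∀ i a b, (X i).1 a b ∈ L ∧ (X i).2 a b ∈ L) →
      (∀ i a b, (Y i).1 a b ∈ L ∧ (Y i).2 a b ∈ L) → (∀ j a b, H j a b ∈ L) → L = ⊤)
    (hcard : 2 * (n1 + n2) * (r * r) + n * (r * r) + 1 ≤
      Fintype.card ι0 + 2 * (n1 + n2) + n + r * r)
    (hn1 : 1 ≤ n1) (hd : 2 ≤ finrank K (comT X)) :
    finrank K (comT X) + 1 ≤ finrank K (comT Y) := by
  classical
  let d := finrank K (comT X)
  let B := Module.finBasis K (comT X)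
  let P := MvPolynomial (Fin d) K
  let Ω := AlgebraicClosure (FractionRing P)
  have hK : CharZero K := charZero_of_injective_algebraMap (algebraMap k K).injective
  have halg0 : Algebra.IsAlgebraic P (FractionRing P) :=
    IsLocalization.isAlgebraic (R := P) (FractionRing P) (nonZeroDivisors P)
  have halg : Algebra.IsAlgebraic P Ω := Algebra.IsAlgebraic.trans P (FractionRing P) Ω
  have hfs : FaithfulSMul P Ω := by
    rw [faithfulSMul_iff_algebraMap_injective, IsScalarTower.algebraMap_eq P (FractionRing P) Ω]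
    exact (algebraMap (FractionRing P) Ω).injective.comp (IsFractionRing.injective P (FractionRing P))
  let t : Fin d → Ω := algebraMap P Ω ∘ MvPolynomial.X
  have ht : IsTranscendenceBasis K t := (IsTranscendenceBasis.mvPolynomial (Fin d) K).algebraMap_comp
  have hbt : IsTranscendenceBasis k (Sum.elim t (algebraMap K Ω ∘ b)) := hb.sumElim_comp ht
  have hk : CharZero Ω := charZero_of_injective_algebraMap (algebraMap k Ω).injective
  obtain ⟨hfd, hfr⟩ := gd_finrank _ hbt
  rw [Fintype.card_sum, Fintype.card_fin] at hfr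
  let φ : MF r K →+* MF r Ω := (algebraMap K Ω).mapMatrix
  let v : Fin d → MF r K := fun i => ((B i : comT X) : MF r K)
  have hv : LinearIndependent K v :=
    B.linearIndependent.map' (comT X).subtype (Submodule.ker_subtype _)
  let x : Fin n1 → MF r Ω × MF r Ω := fun i => (φ (X i).1, φ (X i).2)
  let y : Fin n2 → MF r Ω × MF r Ω := fun i => (φ (Y i).1, φ (Y i).2)
  let ζ : MF r Ω := ∑ i, t i • φ (v i)
  have hdet : ∀ M : MF r K, M.det = 1 → (φ M).det = 1 := by
    intro M hM
    have := RingHom.map_det (algebraMap K Ω) M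
    rw [hM, map_one] at this
    exact this.symm
  have hx : ∀ i, (x i).1.det = 1 ∧ (x i).2.det = 1 := fun i => ⟨hdet _ (hX i).1, hdet _ (hX i).2⟩
  have hy : ∀ i, (y i).1.det = 1 ∧ (y i).2.det = 1 := fun i => ⟨hdet _ (hY i).1, hdet _ (hY i).2⟩
  let w : Fin n → MF r Ω := fun j => φ (H j)
  have hw : ∀ j, (w j).det = 1 := fun j => hdet _ (hH j)
  let JΩ : Fin n → MF r Ω := fun j => (J j).map (algebraMap k Ω)
  have hJφ : ∀ j, φ ((J j).map (algebraMap k K)) = JΩ j := by
    intro j
    ext a a'
    show algebraMap K Ω (algebraMap k K (J j a a')) = algebraMap k Ω (J j a a')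
    rw [← IsScalarTower.algebraMap_apply k K Ω]
  have hJD : ∀ (D : Derivation k Ω Ω) j, (JΩ j).map D = 0 := by
    intro D j
    ext a a'
    exact D.map_algebraMap (J j a a')
  have hJΩ : ∀ j, (JΩ j).det = 1 := by
    intro j
    have := RingHom.map_det (algebraMap k Ω) (J j)
    rw [hJ, map_one] at this
    exact this.symm
  have hxy : kpA x * (kpA y * bJ JΩ w) = 1 ∨ kpA x * (bJ JΩ w * kpA y) = 1 := by
    have h1 := gh_kp_map φ X (fun i => ⟨gc_isUnit (hX i).1, gc_isUnit (hX i).2⟩)
    have h2 := gh_kp_map φ Y (fun i => ⟨gc_isUnit (hY i).1, gc_isUnit (hY i).2⟩)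
    have h3 : φ (bJ (fun j => (J j).map (algebraMap k K)) H) = bJ JΩ w := by
      rw [bJ_map]
      exact congrArg (fun q => bJ q w) (funext hJφ)
    show kpA (fun i => (φ (X i).1, φ (X i).2)) * (kpA (fun i => (φ (Y i).1, φ (Y i).2)) * _) = 1 ∨
      kpA (fun i => (φ (X i).1, φ (X i).2)) * (_ * kpA (fun i => (φ (Y i).1, φ (Y i).2))) = 1
    rw [← h1, ← h2, ← h3, ← map_mul, ← map_mul, ← map_mul, ← map_mul]
    rcases hXY with hXY | hXY
    · left
      rw [hXY, map_one]
    · right
      rw [hXY, map_one]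
  have hζx : ζ ∈ comT x := by
    refine Submodule.sum_mem _ fun i _ => Submodule.smul_mem _ _ ?_
    rw [mem_comT]
    intro j
    have h1 := mem_comT.mp (B i).2 j
    exact ⟨h1.1.map φ, h1.2.map φ⟩
  have hφD : ∀ (D : Derivation k Ω Ω), (∀ c : K, D (algebraMap K Ω c) = 0) →
      ζ.map D = ∑ i, D (t i) • φ (v i) := by
    intro D hD
    ext a a'
    show D ((∑ i, t i • φ (v i) : MF r Ω) a a') = _
    rw [Matrix.sum_apply, Matrix.sum_apply, map_sum]
    refine Finset.sum_congr rfl fun i _ => ?_
    rw [Matrix.smul_apply, Matrix.smul_apply, smul_eq_mul, smul_eq_mul, Derivation.leibniz]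
    have : D (φ (v i) a a') = 0 := hD _
    rw [this, smul_zero, zero_add, smul_eq_mul, mul_comm]
  have hζ : ∀ c : Ω, ζ ≠ c • (1 : MF r Ω) := by
    intro c hc
    have hr : 0 < r := by
      rcases Nat.eq_zero_or_pos r with h0 | h0
      · subst h0
        have : finrank K (comT X) ≤ finrank K (MF 0 K) := Submodule.finrank_le _
        rw [gr_finrank_mat] at this
        omega
      · exact h0
    have hsc : ∀ i, v i ∈ Submodule.span K {(1 : MF r K)} := by
      intro i
      obtain ⟨D, hD⟩ := gd_exists t ht (Pi.single i 1)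
      let D' : Derivation k Ω Ω := Derivation.restrictScalars k D
      have hD' : ∀ c : K, D' (algebraMap K Ω c) = 0 := fun c => D.map_algebraMap c
      have h1 := hφD D' hD'
      have h2 : ∑ j, D' (t j) • φ (v j) = φ (v i) := by
        rw [Finset.sum_eq_single i]
        · have : D' (t i) = 1 := by
            have h9 := hD i
            rw [Pi.single_eq_same] at h9
            exact h9
          rw [this, one_smul]
        · intro j _ hj
          have : D' (t j) = 0 := by
            have h9 := hD j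
            rw [Pi.single_eq_of_ne hj] at h9
            exact h9
          rw [this, zero_smul]
        · simp
      have h3 : φ (v i) = D' c • (1 : MF r Ω) := by
        rw [← h2, ← h1, hc]
        ext a a'
        by_cases h : a = a'
        · subst h; simp
        · simp [h]
      rw [Submodule.mem_span_singleton]
      refine ⟨v i ⟨0, hr⟩ ⟨0, hr⟩, ?_⟩
      have h4 : D' c = algebraMap K Ω (v i ⟨0, hr⟩ ⟨0, hr⟩) := by
        have := congrFun (congrFun h3 ⟨0, hr⟩) ⟨0, hr⟩
        rw [Matrix.smul_apply, Matrix.one_apply_eq, smul_eq_mul, mul_one] at this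
        exact this.symm
      ext a a'
      apply (algebraMap K Ω).injective
      have h5 : algebraMap K Ω (v i a a') = (D' c • (1 : MF r Ω)) a a' := by
        rw [← h3]; rfl
      rw [h5, h4]
      by_cases h : a = a'
      · subst h; simp
      · simp [h]
    have hle : comT X ≤ Submodule.span K {(1 : MF r K)} := by
      intro w hw
      have h1 := B.sum_repr ⟨w, hw⟩
      have h2 := congrArg (fun z : comT X => (z : MF r K)) h1
      simp only [AddSubmonoidClass.coe_finsetSum, Submodule.coe_smul] at h2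
      rw [← h2]
      exact Submodule.sum_mem _ fun i _ => Submodule.smul_mem _ _ (hsc i)
    have h1 := Submodule.finrank_mono hle
    have h2 := finrank_span_le_card (R := K) ({(1 : MF r K)} : Set (MF r K))
    simp only [Set.toFinset_singleton, Finset.card_singleton] at h2
    omega
  have hinj : ∀ D : Derivation k Ω Ω, ζ.map D = 0 →
      (∀ i, (x i).1.map D = 0 ∧ (x i).2.map D = 0) →
      (∀ i, (y i).1.map D = 0 ∧ (y i).2.map D = 0) → (∀ j, (w j).map D = 0) → D = 0 := by
    intro D h1 h2 h3 h3'
    let L : IntermediateField k K :=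
      { carrier := {a | D (algebraMap K Ω a) = 0}
        mul_mem' := by
          intro a b ha hb
          change D _ = 0 at ha hb ⊢
          rw [map_mul, Derivation.leibniz, ha, hb]; simp
        one_mem' := by simp
        add_mem' := by
          intro a b ha hb
          change D _ = 0 at ha hb ⊢
          rw [map_add, map_add, ha, hb, add_zero]
        zero_mem' := by simp
        algebraMap_mem' := by
          intro c
          change D _ = 0
          rw [← IsScalarTower.algebraMap_apply k K Ω]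
          exact D.map_algebraMap c
        inv_mem' := by
          intro a ha
          change D _ = 0 at ha ⊢
          rw [map_inv₀, Derivation.leibniz_inv, ha]; simp }
    have hL : L = ⊤ := by
      apply hgen
      · intro i a b
        exact ⟨congrFun (congrFun (h2 i).1 a) b, congrFun (congrFun (h2 i).2 a) b⟩
      · intro i a b
        exact ⟨congrFun (congrFun (h3 i).1 a) b, congrFun (congrFun (h3 i).2 a) b⟩
      · intro j a b
        exact congrFun (congrFun (h3' j) a) b
    have hD : ∀ c : K, D (algebraMap K Ω c) = 0 := by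
      intro c
      have : c ∈ L := by rw [hL]; exact IntermediateField.mem_top
      exact this
    rw [hφD D hD] at h1
    have h4 := gh_lin v hv (fun i => D (t i)) h1
    apply gd_zero _ hbt
    rintro (i | i)
    · exact h4 i
    · exact hD _
  obtain ⟨P, Q, L, hP, hQ, hL0, hrel⟩ := bh_rel (k := k) x y w hx hy hw JΩ hJΩ hJD hxy
  have hcount := bg_count x y w hx hy hw P Q hP hQ L hL0 hrel ζ hζ hζx hinj
  have hcom := gh_com (Ω := Ω) Y
  rw [hfr] at hcount
  have hz : finrank Ω (LinearMap.ker (adL ζ)) ≤ r * r := by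
    have := Submodule.finrank_le (LinearMap.ker (adL ζ))
    rwa [gr_finrank_mat] at this
  have hcom' : finrank Ω (comT y) ≤ finrank K (comT Y) := hcom
  obtain ⟨m, rfl⟩ : ∃ m, n1 = m + 1 := ⟨n1 - 1, by omega⟩
  have hmz : m * finrank Ω (LinearMap.ker (adL ζ)) ≤ m * (r * r) := Nat.mul_le_mul_left _ hz
  show d + 1 ≤ _
  nlinarith [hcount, hcom', hcard, hmz]

end bhalf

end Vale.Agent.P002
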