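import Vale.Agent.P002.Generic
import Vale.Agent.P002.BGenHalf
import Vale.Agent.P002.BDefs

namespace Vale.Agent.P002

open Matrix Module MvPolynomial

theorem bp_spec {σ : Type} {n r : ℕ} (z : Fin r)
    (G : Fin n → MF r (MvPolynomial σ ℂ) × MF r (MvPolynomial σ ℂ))
    (p : Ideal (MvPolynomial σ ℂ)) [p.IsPrime]
    (hcom : finrank (FractionRing (MvPolynomial σ ℂ ⧸ p))
      (comT (mapT (psi p : MvPolynomial σ ℂ →+* FractionRing (MvPolynomial σ ℂ ⧸ p)) G)) ≤ 1) :
    ∃ h : MvPolynomial σ ℂ, h ∉ p ∧ ∀ c : σ → ℂ, (∀ q ∈ p, aeval c q = 0) →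
      aeval c h ≠ 0 → ∀ M : Mat r,
      (∀ i : Fin n, Commute M (mapT (aeval c : MvPolynomial σ ℂ →ₐ[ℂ] ℂ).toRingHom G i).1 ∧
        Commute M (mapT (aeval c : MvPolynomial σ ℂ →ₐ[ℂ] ℂ).toRingHom G i).2) →
      ∃ a : ℂ, M = a • (1 : Mat r) := by
  classical
  let K := FractionRing (MvPolynomial σ ℂ ⧸ p)
  let GK : Fin n → MF r K × MF r K := mapT (psi p : MvPolynomial σ ℂ →+* K) G
  let C := comMat (z := z) GK
  have hinj : Function.Injective C.mulVecLin := by
    rw [← LinearMap.ker_eq_bot, LinearMap.ker_eq_bot']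
    intro v hv
    let M : MF r K := Matrix.of fun a b => v (a, b)
    have hv' : (C.mulVec fun q => M q.1 q.2) = 0 := hv
    have hM : M ∈ comT GK := by
      rw [mem_comT]
      intro i
      constructor
      · ext a b
        have h1 := congrFun hv' (Sum.inl (i, false, a, b))
        rw [comMat_inl] at h1
        simpa [sub_eq_zero] using h1
      · ext a b
        have h1 := congrFun hv' (Sum.inl (i, true, a, b))
        rw [comMat_inl] at h1
        simpa [sub_eq_zero] using h1
    have h1mem : (1 : MF r K) ∈ comT GK := by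
      rw [mem_comT]
      intro i
      exact ⟨Commute.one_left _, Commute.one_left _⟩
    have h1ne : (⟨1, h1mem⟩ : comT GK) ≠ 0 := by
      intro h0
      have := congrFun (congrFun (congrArg Subtype.val h0) z) z
      simp at this
    obtain ⟨c, hc⟩ := finrank_le_one_iff.mp hcom |>.imp fun v hv => hv
    obtain ⟨a1, ha1⟩ := hc ⟨1, h1mem⟩
    obtain ⟨a2, ha2⟩ := hc ⟨M, hM⟩
    have ha10 : a1 ≠ 0 := by
      rintro rfl
      rw [zero_smul] at ha1
      exact h1ne ha1.symm
    have hM2 : M = (a2 * a1⁻¹) • (1 : MF r K) := by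
      have h3 := congrArg Subtype.val ha1
      have h4 := congrArg Subtype.val ha2
      simp only [Submodule.coe_smul] at h3 h4
      rw [← h4, ← h3, smul_smul, mul_assoc, inv_mul_cancel₀ ha10, mul_one]
    have hz := congrFun hv' (Sum.inr ())
    rw [comMat_inr, hM2] at hz
    simp only [Matrix.smul_apply, Matrix.one_apply_eq, smul_eq_mul, mul_one, Pi.zero_apply] at hz
    rw [hz, zero_smul] at hM2
    funext q
    exact congrFun (congrFun hM2 q.1) q.2
  obtain ⟨Bl, hBl⟩ := C.mulVecLin.exists_leftInverse_of_injective (LinearMap.ker_eq_bot.mpr hinj)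
  let B := LinearMap.toMatrix' Bl
  have hBC : B * C = 1 := by
    have h1 := congrArg LinearMap.toMatrix' hBl
    rw [LinearMap.toMatrix'_comp, LinearMap.toMatrix'_id, ← Matrix.toLin'_apply',
      LinearMap.toMatrix'_toLin'] at h1
    exact h1
  obtain ⟨b, hb⟩ := IsLocalization.exist_integer_multiples_of_finite
    (nonZeroDivisors (MvPolynomial σ ℂ ⧸ p))
    (fun q : (Fin r × Fin r) × (Ix n r ⊕ Unit) => B q.1 q.2)
  choose b' hb' using hb
  obtain ⟨h, hh⟩ := Ideal.Quotient.mk_surjective (b : MvPolynomial σ ℂ ⧸ p)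
  choose B' hB' using fun q => Ideal.Quotient.mk_surjective (b' q)
  let BA : Matrix (Fin r × Fin r) (Ix n r ⊕ Unit) (MvPolynomial σ ℂ) :=
    Matrix.of fun i j => B' (i, j)
  have hψh : psi p h = algebraMap _ K (b : MvPolynomial σ ℂ ⧸ p) := by
    rw [psi_apply, hh]
  have hψB : BA.map (psi p) = (psi p h) • B := by
    ext i j
    rw [Matrix.map_apply, Matrix.smul_apply, hψh, psi_apply]
    show algebraMap _ K (Ideal.Quotient.mk p (B' (i, j))) = _
    rw [hB', hb' (i, j), Algebra.smul_def, smul_eq_mul]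
  refine ⟨h, ?_, ?_⟩
  · intro hhp
    have h1 := (psi_eq_zero p h).mpr hhp
    rw [hψh] at h1
    have h2 : (b : MvPolynomial σ ℂ ⧸ p) = 0 := by
      rwa [map_eq_zero_iff _ (IsFractionRing.injective _ _)] at h1
    exact nonZeroDivisors.ne_zero b.2 h2
  · intro c hc hch M hM
    have hmem : ∀ i j, (BA * comMat (z := z) G - h • (1 : Matrix (Fin r × Fin r) (Fin r × Fin r)
        (MvPolynomial σ ℂ)) : Matrix (Fin r × Fin r) (Fin r × Fin r)
        (MvPolynomial σ ℂ)) i j ∈ p := by
      intro i j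
      rw [← psi_eq_zero]
      have h1 : (BA * comMat (z := z) G).map (psi p) = psi p h • (1 : Matrix _ _ K) := by
        have h2 : (BA * comMat (z := z) G).map (psi p) =
            BA.map (psi p) * (comMat (z := z) G).map (psi p) :=
          Matrix.map_mul (f := (psi p : MvPolynomial σ ℂ →+* K))
        have h3 : (comMat (z := z) G).map (psi p) = C :=
          comMat_map (psi p : MvPolynomial σ ℂ →+* K) G
        rw [h2, hψB, h3, Matrix.smul_mul, hBC]
      have h4 := congrFun (congrFun h1 i) j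
      rw [Matrix.map_apply] at h4
      rw [Matrix.sub_apply, map_sub, h4, Matrix.smul_apply, Matrix.smul_apply, smul_eq_mul,
        smul_eq_mul, map_mul]
      by_cases hij : i = j
      · subst hij; simp
      · simp [hij]
    let Gc : Fin n → Mat r × Mat r := mapT (aeval c : MvPolynomial σ ℂ →ₐ[ℂ] ℂ).toRingHom G
    have hev : BA.map (aeval c) * comMat (z := z) Gc =
        aeval c h • (1 : Matrix _ _ ℂ) := by
      have h2 : (BA * comMat (z := z) G).map (aeval c) =
          BA.map (aeval c) * (comMat (z := z) G).map (aeval c) :=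
        Matrix.map_mul (f := (aeval c : MvPolynomial σ ℂ →ₐ[ℂ] ℂ).toRingHom)
      have h3 : (comMat (z := z) G).map (aeval c) = comMat (z := z) Gc :=
        comMat_map (z := z) (aeval c : MvPolynomial σ ℂ →ₐ[ℂ] ℂ).toRingHom G
      rw [← h3, ← h2]
      ext i j
      have h6 := hc _ (hmem i j)
      rw [Matrix.sub_apply, map_sub, sub_eq_zero] at h6
      rw [Matrix.map_apply, h6, Matrix.smul_apply, Matrix.smul_apply, smul_eq_mul, smul_eq_mul,
        map_mul]
      by_cases hij : i = j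
      · subst hij; simp
      · simp [hij]
    refine ⟨M z z, ?_⟩
    let M' : Mat r := M - M z z • (1 : Mat r)
    have hM' : ∀ i : Fin n, Commute M' (Gc i).1 ∧ Commute M' (Gc i).2 := by
      intro i
      exact ⟨(hM i).1.sub_left ((Commute.one_left _).smul_left _),
        (hM i).2.sub_left ((Commute.one_left _).smul_left _)⟩
    have h0 : ((comMat (z := z) Gc).mulVec fun q => M' q.1 q.2) = 0 := by
      funext j
      rcases j with ⟨i, β, a, b⟩ | u
      · rw [comMat_inl]
        cases β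
        · simp only [Bool.false_eq_true, ↓reduceIte]
          rw [(hM' i).1.eq, sub_self]
          rfl
        · simp only [↓reduceIte]
          rw [(hM' i).2.eq, sub_self]
          rfl
      · rw [comMat_inr]
        simp [M']
    have h7 : (BA.map (aeval c) * comMat (z := z) Gc).mulVec
        (fun q => M' q.1 q.2) = (aeval c h • (1 : Matrix (Fin r × Fin r) (Fin r × Fin r) ℂ)).mulVec
        (fun q => M' q.1 q.2) := by rw [hev]
    rw [← Matrix.mulVec_mulVec, h0, Matrix.mulVec_zero, Matrix.smul_mulVec, Matrix.one_mulVec] at h7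
    have h8 : M' = 0 := by
      ext a b
      have h9 := congrFun h7 (a, b)
      simp only [Pi.zero_apply, Pi.smul_apply, smul_eq_mul] at h9
      exact (mul_eq_zero.mp h9.symm).resolve_left hch
    exact sub_eq_zero.mp h8

theorem bp_gen {σ : Type} (p : Ideal (MvPolynomial σ ℂ)) [p.IsPrime]
    (L : IntermediateField ℂ (FractionRing (MvPolynomial σ ℂ ⧸ p)))
    (h : ∀ s, psi p (X s) ∈ L) : L = ⊤ := by
  have h1 : ∀ a, psi p a ∈ L := by
    intro a
    induction a using MvPolynomial.induction_on with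
    | C c =>
      have : psi p (C c) = algebraMap ℂ _ c := (psi p).commutes c
      rw [this]
      exact L.algebraMap_mem c
    | add f g hf hg => rw [map_add]; exact L.add_mem hf hg
    | mul_X f s hf => rw [map_mul]; exact L.mul_mem hf (h s)
  rw [eq_top_iff]
  intro y _
  obtain ⟨a, b, _, rfl⟩ := IsFractionRing.div_surjective (A := MvPolynomial σ ℂ ⧸ p) y
  obtain ⟨a, rfl⟩ := Ideal.Quotient.mk_surjective a
  obtain ⟨b, rfl⟩ := Ideal.Quotient.mk_surjective b
  exact L.div_mem (h1 a) (h1 b)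

abbrev BIx (N n r : ℕ) := Ix N r ⊕ (Fin n × Fin r × Fin r)

def xOf {R : Type*} {N n r : ℕ} (c : BIx N n r → R) : Fin N → MF r R × MF r R :=
  tupOf fun s => c (Sum.inl s)

def hOf {R : Type*} {N n r : ℕ} (c : BIx N n r → R) : Fin n → MF r R :=
  fun j => Matrix.of fun a b => c (Sum.inr (j, a, b))

theorem b_poly_repr {N n r : ℕ} (f : BTup N n r → ℂ) (hf : f ∈ PolyFun (BTup N n r)) :
    ∃ P : MvPolynomial (BIx N n r) ℂ, ∀ c : BIx N n r → ℂ,
      f (xOf c, hOf c) = MvPolynomial.aeval c P := by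
  unfold PolyFun at hf
  induction hf using Algebra.adjoin_induction with
  | mem x hx =>
    obtain ⟨l, rfl⟩ := hx
    let T : (BIx N n r → ℂ) →ₗ[ℂ] BTup N n r :=
      { toFun := fun c => (xOf c, hOf c)
        map_add' := fun c c' => rfl
        map_smul' := fun a c => rfl }
    refine ⟨∑ s, MvPolynomial.X s * MvPolynomial.C ((l.comp T) fun j => if s = j then 1 else 0),
      ?_⟩
    intro c
    have := LinearMap.pi_apply_eq_sum_univ (l.comp T) c
    rw [map_sum]
    simp only [map_mul, MvPolynomial.aeval_X, MvPolynomial.aeval_C, Algebra.algebraMap_self,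
      RingHom.id_apply]
    exact this
  | algebraMap a => exact ⟨MvPolynomial.C a, fun c => by simp⟩
  | add f g _ _ hf hg =>
    obtain ⟨P, hP⟩ := hf
    obtain ⟨Q, hQ⟩ := hg
    exact ⟨P + Q, fun c => by rw [Pi.add_apply, hP, hQ, map_add]⟩
  | mul f g _ _ hf hg =>
    obtain ⟨P, hP⟩ := hf
    obtain ⟨Q, hQ⟩ := hg
    exact ⟨P * Q, fun c => by rw [Pi.mul_apply, hP, hQ, map_mul]⟩

noncomputable def bEq (N n r : ℕ) (z : Fin r) (J : Fin n → Mat r) :
    (Fin N × Bool) ⊕ (Fin n ⊕ {p : Fin r × Fin r // p ≠ (z, z)}) → MvPolynomial (BIx N n r) ℂ :=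
  Sum.elim (fun q => (if q.2 then (xOf X q.1).2 else (xOf X q.1).1).det - 1)
    (Sum.elim (fun j => (hOf X j).det - 1)
      (fun p => (kJ (xOf X) * bJ (fun j => (C : ℂ →+* _).mapMatrix (J j)) (hOf X) - 1 :
        MF r (MvPolynomial (BIx N n r) ℂ)) p.1.1 p.1.2))

theorem bEq_sat {R : Type*} [CommRing R] {N n r : ℕ} {z : Fin r} (J : Fin n → Mat r)
    (hJ : ∀ j, (J j).det = 1)
    (φ : MvPolynomial (BIx N n r) ℂ →+* R) (h : ∀ j, φ (bEq N n r z J j) = 0) :
    (∀ i, (xOf (fun s => φ (X s)) i).1.det = 1 ∧ (xOf (fun s => φ (X s)) i).2.det = 1) ∧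
      (∀ j, (hOf (N := N) (fun s => φ (X s)) j).det = 1) ∧
      kJ (xOf (fun s => φ (X s))) *
        bJ (fun j => (φ.comp C).mapMatrix (J j)) (hOf (N := N) (fun s => φ (X s))) = 1 := by
  have h1 : ∀ i, (xOf (fun s => φ (X s)) i).1.det = 1 ∧
      (xOf (fun s => φ (X s)) i).2.det = 1 := by
    intro i
    constructor
    · have h2 := h (Sum.inl (i, false))
      simp only [bEq, Sum.elim_inl, Bool.false_eq_true, ↓reduceIte, map_sub, map_one,
        sub_eq_zero] at h2
      rw [← h2, RingHom.map_det]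
      rfl
    · have h2 := h (Sum.inl (i, true))
      simp only [bEq, Sum.elim_inl, ↓reduceIte, map_sub, map_one, sub_eq_zero] at h2
      rw [← h2, RingHom.map_det]
      rfl
  have h1' : ∀ j, (hOf (N := N) (fun s => φ (X s)) j).det = 1 := by
    intro j
    have h2 := h (Sum.inr (Sum.inl j))
    simp only [bEq, Sum.elim_inl, Sum.elim_inr, map_sub, map_one, sub_eq_zero] at h2
    rw [← h2, RingHom.map_det]
    rfl
  refine ⟨h1, h1', ?_⟩
  have hJ' : ∀ j, ((φ.comp C).mapMatrix (J j)).det = 1 := by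
    intro j
    rw [← RingHom.map_det, hJ, map_one]
  apply one_entry (z := z) _ _ (by rw [Matrix.det_mul, det_kJ _ h1, det_bJ _ _ hJ' h1', one_mul])
  intro a b hab
  have h2 := h (Sum.inr (Sum.inr ⟨(a, b), hab⟩))
  simp only [bEq, Sum.elim_inr, Matrix.sub_apply, map_sub, sub_eq_zero] at h2
  have h3 : φ.mapMatrix (kJ (xOf X) * bJ (fun j => (C : ℂ →+* _).mapMatrix (J j)) (hOf X)) =
      kJ (xOf (fun s => φ (X s))) *
        bJ (fun j => (φ.comp C).mapMatrix (J j)) (hOf (N := N) (fun s => φ (X s))) := by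
    rw [map_mul, kJ_map, bJ_map]
    rfl
  rw [← h3]
  refine Eq.trans h2 ?_
  by_cases hab' : a = b
  · subst hab'; simp
  · simp [hab']

theorem bEq_zero {N n r : ℕ} {z : Fin r} (J : Fin n → Mat r) (c : BIx N n r → ℂ)
    (h1 : ∀ i, (xOf c i).1.det = 1 ∧ (xOf c i).2.det = 1) (h1' : ∀ j, (hOf c j).det = 1)
    (h2 : kJ (xOf c) * bJ J (hOf c) = 1) (j) :
    aeval c (bEq N n r z J j) = 0 := by
  have ex : xOf (fun s => (aeval c : MvPolynomial (BIx N n r) ℂ →ₐ[ℂ] ℂ).toRingHom (X s)) =
      xOf c := by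
    congr 1
    funext s
    exact aeval_X c s
  have eh : hOf (fun s => (aeval c : MvPolynomial (BIx N n r) ℂ →ₐ[ℂ] ℂ).toRingHom (X s)) =
      hOf c := by
    congr 1
    funext s
    exact aeval_X c s
  rcases j with ⟨i, β⟩ | j | p
  · cases β
    · simp only [bEq, Sum.elim_inl, Bool.false_eq_true, ↓reduceIte, map_sub, map_one,
        sub_eq_zero]
      rw [← (h1 i).1, ← ex]
      exact RingHom.map_det (aeval c : MvPolynomial (BIx N n r) ℂ →ₐ[ℂ] ℂ).toRingHom _
    · simp only [bEq, Sum.elim_inl, ↓reduceIte, map_sub, map_one, sub_eq_zero]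
      rw [← (h1 i).2, ← ex]
      exact RingHom.map_det (aeval c : MvPolynomial (BIx N n r) ℂ →ₐ[ℂ] ℂ).toRingHom _
  · simp only [bEq, Sum.elim_inl, Sum.elim_inr, map_sub, map_one, sub_eq_zero]
    rw [← h1' j, ← eh]
    exact RingHom.map_det (aeval c : MvPolynomial (BIx N n r) ℂ →ₐ[ℂ] ℂ).toRingHom _
  · obtain ⟨⟨a, b⟩, hab⟩ := p
    simp only [bEq, Sum.elim_inr, Matrix.sub_apply, map_sub, sub_eq_zero]
    have h3 : (aeval c : MvPolynomial (BIx N n r) ℂ →ₐ[ℂ] ℂ).toRingHom.mapMatrix
        (kJ (xOf X) * bJ (fun j => (C : ℂ →+* _).mapMatrix (J j)) (hOf X)) =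
        kJ (xOf c) * bJ J (hOf c) := by
      rw [map_mul, kJ_map, bJ_map, ← ex, ← eh]
      congr 2
      funext j
      ext a b
      exact aeval_C c _
    rw [h2] at h3
    have h4 := congrFun (congrFun h3 a) b
    refine Eq.trans h4 ?_
    by_cases hab' : a = b
    · subst hab'; simp
    · simp [hab']

end Vale.Agent.P002
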