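import Vale.Agent.P002.BGenPoly

namespace Vale.Agent.P002

open Matrix Module MvPolynomial

theorem bc_adj {n r : ℕ} (J h : Fin n → Mat r) (hh : ∀ j, (h j).det = 1) :
    bc J h = fun j => h j * J j * (h j).adjugate := by
  funext j
  unfold bc
  rw [Matrix.nonsing_inv_eq_ringInverse, adj_inverse (hh j)]

theorem Kb_eq {N n r : ℕ} (J h : Fin n → Mat r) (hh : ∀ j, (h j).det = 1) (x : Tup N r)
    (hx : ∀ i, (x i).1.det = 1 ∧ (x i).2.det = 1) : Kb (x, bc J h) = kJ x * bJ J h := by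
  unfold Kb
  show Kp x * (List.ofFn (bc J h)).prod = _
  rw [Kp_eq, kpA_kJ x hx, bc_adj J h hh]
  rfl

theorem generic_b_aux {g n r : ℕ} (hr : 0 < r) (J : Fin n → Mat r) (hJ : ∀ j, (J j).det = 1)
    (f : BTup (g + 2) n r → ℂ) (hf : f ∈ PolyFun (BTup (g + 2) n r))
    (hv : ∀ (x : Tup (g + 2) r) (h : Fin n → Mat r), (∀ i, (x i).1.det = 1 ∧ (x i).2.det = 1) →
      (∀ j, (h j).det = 1) → Kb (x, bc J h) = 1 →
      (∀ M : Mat r, (∀ i : Fin (g + 1), Commute M (x i.castSucc).1 ∧ Commute M (x i.castSucc).2) →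
        ∃ c : ℂ, M = c • (1 : Mat r)) → f (x, bc J h) = 0)
    (x : Tup (g + 2) r) (h : Fin n → Mat r) (hx : ∀ i, (x i).1.det = 1 ∧ (x i).2.det = 1)
    (hh : ∀ j, (h j).det = 1) (hk : Kb (x, bc J h) = 1) : f (x, bc J h) = 0 := by
  classical
  let z : Fin r := ⟨0, hr⟩
  let F : BTup (g + 2) n r → ℂ := fun w => f (w.1, fun j => w.2 j * J j * (w.2 j).adjugate)
  have hFp : F ∈ PolyFun (BTup (g + 2) n r) := by
    have hT : PolyMap (fun w : BTup (g + 2) n r =>
        ((w.1, fun j => w.2 j * J j * (w.2 j).adjugate) : BTup (g + 2) n r)) := by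
      refine polyMap_prodMk (polyMap_fst polyMap_id) (polyMap_pi fun j => ?_)
      have h1 : PolyMap (fun w : BTup (g + 2) n r => w.2 j) :=
        polyMap_apply (polyMap_snd polyMap_id) j
      exact polyMap_mul (polyMap_mul h1 (polyMap_const _)) (polyMap_adjugate h1)
    exact polyFun_comp hf hT
  have hF : ∀ (y : Tup (g + 2) r) (h' : Fin n → Mat r), (∀ j, (h' j).det = 1) →
      F (y, h') = f (y, bc J h') := by
    intro y h' hh'
    rw [bc_adj J h' hh']
  obtain ⟨P, hP⟩ := b_poly_repr F hFp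
  by_contra hfx
  let ι := (Fin (g + 2) × Bool) ⊕ (Fin n ⊕ {p : Fin r × Fin r // p ≠ (z, z)})
  let S' : Fin (Fintype.card ι) → MvPolynomial (BIx (g + 2) n r) ℂ :=
    fun j => bEq (g + 2) n r z J ((Fintype.equivFin ι).symm j)
  let I := Ideal.span (Set.range S')
  let c0 : BIx (g + 2) n r → ℂ := Sum.elim (fun s => if s.2.1 then (x s.1).2 s.2.2.1 s.2.2.2
    else (x s.1).1 s.2.2.1 s.2.2.2) (fun q => h q.1 q.2.1 q.2.2)
  have hc0 : xOf c0 = x := by
    funext i
    refine Prod.ext ?_ ?_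
    · ext a b; simp [xOf, tupOf, c0]
    · ext a b; simp [xOf, tupOf, c0]
  have hc0' : hOf c0 = h := by
    funext j
    ext a b
    simp [hOf, c0]
  have hkJ : kJ (xOf c0) * bJ J (hOf c0) = 1 := by
    rw [hc0, hc0', ← Kb_eq J h hh x hx, hk]
  have hPI : P ∉ I.radical := by
    rintro ⟨m, hm⟩
    have h1 : I ≤ RingHom.ker (aeval c0 : MvPolynomial (BIx (g + 2) n r) ℂ →ₐ[ℂ] ℂ) := by
      rw [Ideal.span_le]
      rintro _ ⟨j, rfl⟩
      exact bEq_zero J c0 (by rw [hc0]; exact hx) (by rw [hc0']; exact hh) hkJ _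
    have h2 : aeval c0 (P ^ m) = 0 := h1 hm
    rw [map_pow] at h2
    have h3 := eq_zero_of_pow_eq_zero h2
    rw [← hP, hc0, hc0', hF x h hh] at h3
    exact hfx h3
  have hPI2 : ∃ p : Ideal (MvPolynomial (BIx (g + 2) n r) ℂ), p ∈ I.minimalPrimes ∧ P ∉ p := by
    by_contra hno
    push Not at hno
    apply hPI
    rw [← Ideal.sInf_minimalPrimes, Ideal.mem_sInf]
    intro q hq
    exact hno q hq
  obtain ⟨p, hp, hPp⟩ := hPI2
  have hprime : p.IsPrime := hp.1.1
  have hIp : I ≤ p := hp.1.2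
  obtain ⟨d, b, hb, hcard⟩ := P002.exists_basis_rank S' p hp
  let K := FractionRing (MvPolynomial (BIx (g + 2) n r) ℂ ⧸ p)
  let XK : Fin (g + 2) → MF r K × MF r K := xOf (fun s => psi p (X s))
  let HK : Fin n → MF r K := hOf (fun s => psi p (X s))
  have hgen0 : ∀ j, bEq (g + 2) n r z J j ∈ p := by
    intro j
    apply hIp
    apply Ideal.subset_span
    exact ⟨Fintype.equivFin ι j, by simp [S']⟩
  obtain ⟨hdet, hdetH, hkK⟩ := bEq_sat (z := z) J hJ
    (psi p : MvPolynomial (BIx (g + 2) n r) ℂ →+* K)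
    (fun j => (psi_eq_zero p _).mpr (hgen0 j))
  have hJK : (fun j => (((psi p : MvPolynomial (BIx (g + 2) n r) ℂ →+* K)).comp C).mapMatrix (J j)) =
      fun j => (J j).map (algebraMap ℂ K) := by
    funext j
    ext a b
    exact (psi p).commutes _
  rw [hJK] at hkK
  have hkA : kpA XK * bJ (fun j => (J j).map (algebraMap ℂ K)) HK = 1 := by
    rw [kpA_kJ XK hdet]
    exact hkK
  rw [kpA_split, mul_assoc] at hkA
  let X1 : Fin (g + 1) → MF r K × MF r K := fun i => XK i.castSucc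
  let Y1 : Fin 1 → MF r K × MF r K := fun _ => XK (Fin.last (g + 1))
  have hXY : kpA X1 * (kpA Y1 * bJ (fun j => (J j).map (algebraMap ℂ K)) HK) = 1 := hkA
  have hYX : kpA Y1 * (bJ (fun j => (J j).map (algebraMap ℂ K)) HK * kpA X1) = 1 := by
    rw [← mul_assoc]
    exact mul_eq_one_comm.mp hXY
  have hX1 : ∀ i, (X1 i).1.det = 1 ∧ (X1 i).2.det = 1 := fun i => hdet _
  have hY1 : ∀ i, (Y1 i).1.det = 1 ∧ (Y1 i).2.det = 1 := fun i => hdet _
  have hgenL : ∀ L : IntermediateField ℂ K, (∀ i a b, (X1 i).1 a b ∈ L ∧ (X1 i).2 a b ∈ L) →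
      (∀ i a b, (Y1 i).1 a b ∈ L ∧ (Y1 i).2 a b ∈ L) → (∀ j a b, HK j a b ∈ L) → L = ⊤ := by
    intro L h1 h2 h3
    apply bp_gen p L
    rintro (⟨i, β, a, c⟩ | ⟨j, a, c⟩)
    · refine Fin.lastCases ?_ (fun j => ?_) i
      · cases β
        · exact (h2 0 a c).1
        · exact (h2 0 a c).2
      · cases β
        · exact (h1 j a c).1
        · exact (h1 j a c).2
    · exact h3 j a c
  have hι : Fintype.card ι + 1 = 2 * (g + 2) + n + r * r := by
    have h1 : Fintype.card {p : Fin r × Fin r // p ≠ (z, z)} + 1 = r * r := by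
      have h2 := Fintype.card_subtype_compl (fun p : Fin r × Fin r => p = (z, z))
      rw [Fintype.card_subtype_eq, Fintype.card_prod, Fintype.card_fin] at h2
      have h3 : 0 < r * r := Nat.mul_pos hr hr
      have h4 : Fintype.card {p : Fin r × Fin r // p ≠ (z, z)} =
        Fintype.card {p : Fin r × Fin r // ¬ p = (z, z)} := rfl
      omega
    rw [Fintype.card_sum, Fintype.card_sum, Fintype.card_prod, Fintype.card_bool,
      Fintype.card_fin, Fintype.card_fin]
    omega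
  have hσ : Fintype.card (BIx (g + 2) n r) = 2 * (g + 2) * (r * r) + n * (r * r) := by
    simp only [BIx, Ix, Fintype.card_sum, Fintype.card_prod, Fintype.card_fin, Fintype.card_bool]
    ring
  have hcount : 2 * (g + 2) * (r * r) + n * (r * r) + 1 ≤ d + 2 * (g + 2) + n + r * r := by
    rw [hσ] at hcard
    omega
  have hcomle : finrank K (comT X1) ≤ 1 := by
    by_contra hlt
    push Not at hlt
    have hlt' : 2 ≤ finrank K (comT X1) := hlt
    have e1 : finrank K (comT X1) + 1 ≤ finrank K (comT Y1) :=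
      bh_half b hb X1 Y1 HK J hJ hX1 hY1 hdetH (Or.inl hXY) hgenL
        (by rw [Fintype.card_fin]; exact hcount) (by omega) hlt'
    have e3 : 2 ≤ finrank K (comT Y1) := by omega
    have e2 : finrank K (comT Y1) + 1 ≤ finrank K (comT X1) :=
      bh_half b hb Y1 X1 HK J hJ hY1 hX1 hdetH (Or.inr hYX) (fun L h1 h2 h3 => hgenL L h2 h1 h3)
        (by rw [Fintype.card_fin, add_comm 1 (g + 1)]; exact hcount) le_rfl e3
    omega
  obtain ⟨q, hqp, hq⟩ := bp_spec z (fun i : Fin (g + 1) => xOf X i.castSucc) p hcomle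
  have hPq : P * q ∉ p := fun hmem => (hprime.mem_or_mem hmem).elim hPp hqp
  rw [← MvPolynomial.IsPrime.vanishingIdeal_zeroLocus (K := ℂ) p,
    MvPolynomial.mem_vanishingIdeal_iff] at hPq
  push Not at hPq
  obtain ⟨c, hc, hPc⟩ := hPq
  rw [map_mul] at hPc
  have hPc1 : aeval c P ≠ 0 := left_ne_zero_of_mul hPc
  have hPc2 : aeval c q ≠ 0 := right_ne_zero_of_mul hPc
  have hcp : ∀ q ∈ p, aeval c q = 0 := hc
  obtain ⟨hd1, hd1', hd2⟩ := bEq_sat (z := z) J hJ
    (aeval c : MvPolynomial (BIx (g + 2) n r) ℂ →ₐ[ℂ] ℂ).toRingHom (fun j => hcp _ (hgen0 j))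
  have ex : xOf (fun s => (aeval c : MvPolynomial (BIx (g + 2) n r) ℂ →ₐ[ℂ] ℂ).toRingHom (X s)) =
      xOf c := by
    congr 1
    funext s
    exact aeval_X c s
  have eh : hOf (fun s => (aeval c : MvPolynomial (BIx (g + 2) n r) ℂ →ₐ[ℂ] ℂ).toRingHom (X s)) =
      hOf c := by
    congr 1
    funext s
    exact aeval_X c s
  have eJ : (fun j => ((aeval c : MvPolynomial (BIx (g + 2) n r) ℂ →ₐ[ℂ] ℂ).toRingHom.comp
      C).mapMatrix (J j)) = J := by
    funext j
    ext a b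
    exact aeval_C c _
  rw [ex] at hd1
  rw [eh] at hd1'
  rw [ex, eh, eJ] at hd2
  apply hPc1
  rw [← hP, hF _ _ hd1']
  apply hv _ _ hd1 hd1'
  · rw [Kb_eq J _ hd1' _ hd1, hd2]
  · intro M hM
    refine hq c hcp hPc2 M fun i => ?_
    have hGi : mapT (aeval c : MvPolynomial (BIx (g + 2) n r) ℂ →ₐ[ℂ] ℂ).toRingHom
        (fun i : Fin (g + 1) => xOf X i.castSucc) i = xOf c i.castSucc := by
      rw [← ex]
      rfl
    rw [hGi]
    exact hM i

theorem generic_commutant_b {g n r : ℕ} (J : Fin n → Mat r) (hJ : ∀ j, (J j).det = 1)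
    (f : BTup (g + 2) n r → ℂ) (hf : f ∈ PolyFun (BTup (g + 2) n r))
    (hv : ∀ (x : Tup (g + 2) r) (h : Fin n → Mat r), (∀ i, (x i).1.det = 1 ∧ (x i).2.det = 1) →
      (∀ j, IsUnit (h j).det) → Kb (x, bc J h) = 1 →
      (∀ M : Mat r, (∀ i : Fin (g + 1), Commute M (x i.castSucc).1 ∧ Commute M (x i.castSucc).2) →
        ∃ c : ℂ, M = c • (1 : Mat r)) → f (x, bc J h) = 0)
    (x : Tup (g + 2) r) (h : Fin n → Mat r) (hx : ∀ i, (x i).1.det = 1 ∧ (x i).2.det = 1)
    (hh : ∀ j, IsUnit (h j).det) (hk : Kb (x, bc J h) = 1) : f (x, bc J h) = 0 := by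
  rcases Nat.eq_zero_or_pos r with hr | hr
  · subst hr
    exact hv x h hx hh hk (fun M _ => ⟨0, Subsingleton.elim _ _⟩)
  · have hs : ∀ j, ∃ s : ℂ, s ≠ 0 ∧ (s • h j).det = 1 := by
      intro j
      obtain ⟨s, hs⟩ := IsAlgClosed.exists_pow_nat_eq ((h j).det)⁻¹ hr
      have hd : (h j).det ≠ 0 := (hh j).ne_zero
      refine ⟨s, ?_, ?_⟩
      · rintro rfl
        rw [zero_pow hr.ne'] at hs
        exact inv_ne_zero hd hs.symm
      · rw [Matrix.det_smul, Fintype.card_fin, hs, inv_mul_cancel₀ hd]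
    choose s hs0 hs1 using hs
    have e : bc J (fun j => s j • h j) = bc J h := by
      funext j
      unfold bc
      have h1 : (s j • h j)⁻¹ = (s j)⁻¹ • (h j)⁻¹ :=
        Matrix.inv_smul' (A := h j) (Units.mk0 (s j) (hs0 j)) (hh j)
      rw [h1, Matrix.smul_mul, Matrix.smul_mul, Matrix.mul_smul, smul_smul,
        mul_inv_cancel₀ (hs0 j), one_smul]
    have key := generic_b_aux hr J hJ f hf
      (fun x h hx hh hk hM => hv x h hx (fun j => by rw [hh j]; exact isUnit_one) hk hM)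
      x (fun j => s j • h j) hx hs1 (by rw [e]; exact hk)
    rwa [e] at key

end Vale.Agent.P002
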