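import Vale.Agent.P002.BDefs

namespace Vale.Agent.P002

open Matrix NumberField

section jordan

variable {V : Type} [AddCommGroup V] [Module ℂ V]

/-- `f` is upper triangular with off-diagonal entries `0` or `1` in some basis, each column having
at most one nonzero off-diagonal entry -/
def JB (f : V →ₗ[ℂ] V) : Prop :=
  ∃ (n : ℕ) (b : Module.Basis (Fin n) ℂ V), ∀ j, ∃ μ : ℂ,
    f (b j) = μ • b j ∨ ∃ i, i < j ∧ f (b j) = μ • b j + b i

theorem bj_step [FiniteDimensional ℂ V] [Nontrivial V] (f : V →ₗ[ℂ] V) :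
    ∃ (m : ℕ) (W : Submodule ℂ V) (e : ((Fin m → ℂ) × W) ≃ₗ[ℂ] V) (μ : ℂ) (v : V) (g : V →ₗ[ℂ] V),
      0 < m ∧ (∀ x, f x = μ • x + g x) ∧ (g ^ m) v = 0 ∧ (∀ x ∈ W, f x ∈ W) ∧
      (∀ w : W, e (0, w) = w) ∧ (∀ j : Fin m, e (Pi.single j 1, 0) = (g ^ (m - 1 - (j : ℕ))) v) := by
  classical
  obtain ⟨μ, hμ⟩ := Module.End.exists_eigenvalue f
  let g : V →ₗ[ℂ] V := f - μ • LinearMap.id
  have hfg : ∀ x, f x = μ • x + g x := by
    intro x
    simp [g]
  obtain ⟨u, hu⟩ := hμ.exists_hasEigenvector
  have hgu : g u = 0 := by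
    have h1 : f u = μ • u := hu.apply_eq_smul
    simp [g, h1]
  have hu0 : u ≠ 0 := hu.2
  -- the index
  have hex : ∃ m : ℕ, LinearMap.ker (g ^ m) = LinearMap.ker (g ^ (m + 1)) := by
    obtain ⟨k, -, hk⟩ := Module.End.exists_ker_pow_eq_ker_pow_succ g
    exact ⟨k, hk⟩
  let m := Nat.find hex
  have hm : LinearMap.ker (g ^ m) = LinearMap.ker (g ^ (m + 1)) := Nat.find_spec hex
  have hm0 : 0 < m := by
    rcases Nat.eq_zero_or_pos m with h | h
    · exfalso
      rw [h] at hm
      have h1 : u ∈ LinearMap.ker (g ^ (0 + 1)) := by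
        rw [LinearMap.mem_ker, zero_add, pow_one]; exact hgu
      rw [← hm, LinearMap.mem_ker, pow_zero] at h1
      exact hu0 h1
    · exact h
  obtain ⟨q, hq⟩ : ∃ q, m = q + 1 := ⟨m - 1, by omega⟩
  have hne : LinearMap.ker (g ^ q) ≠ LinearMap.ker (g ^ (q + 1)) :=
    Nat.find_min hex (show q < m by omega)
  have hle : LinearMap.ker (g ^ q) ≤ LinearMap.ker (g ^ (q + 1)) := by
    intro x hx
    rw [LinearMap.mem_ker] at hx ⊢
    rw [pow_succ', Module.End.mul_apply, hx, map_zero]
  obtain ⟨v, hv1, hv2⟩ : ∃ v, v ∈ LinearMap.ker (g ^ (q + 1)) ∧ v ∉ LinearMap.ker (g ^ q) := by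
    by_contra hcon
    push Not at hcon
    exact hne (le_antisymm hle fun x hx => hcon x hx)
  rw [LinearMap.mem_ker] at hv1 hv2
  have hvr : (g ^ q) v ∉ LinearMap.range (g ^ (q + 1)) := by
    rintro ⟨x, hx⟩
    apply hv2
    have h1 : x ∈ LinearMap.ker (g ^ (m + 1)) := by
      rw [LinearMap.mem_ker, hq, pow_succ', Module.End.mul_apply, hx, ← Module.End.mul_apply,
        ← pow_succ', hv1]
    rw [← hm, LinearMap.mem_ker, hq] at h1
    rw [← hx, h1]
  obtain ⟨l, hl1, hl2⟩ := Submodule.exists_le_ker_of_notMem hvr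
  have hlr : ∀ x, l ((g ^ (q + 1)) x) = 0 := fun x => hl2 ⟨x, rfl⟩
  have hlr' : ∀ k, q + 1 ≤ k → ∀ x, l ((g ^ k) x) = 0 := by
    intro k hk x
    obtain ⟨d, rfl⟩ := Nat.exists_eq_add_of_le hk
    rw [pow_add, Module.End.mul_apply]
    exact hlr _
  let Φ : V →ₗ[ℂ] (Fin (q + 1) → ℂ) := LinearMap.pi (fun k => l ∘ₗ (g ^ (k : ℕ)))
  let ψ : (Fin (q + 1) → ℂ) →ₗ[ℂ] V :=
    ∑ i : Fin (q + 1), (LinearMap.proj i : (Fin (q + 1) → ℂ) →ₗ[ℂ] ℂ).smulRight
      ((g ^ (q - (i : ℕ))) v)
  have hψ : ∀ c, ψ c = ∑ i : Fin (q + 1), c i • (g ^ (q - (i : ℕ))) v := by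
    intro c
    simp [ψ, LinearMap.sum_apply]
  have hΦ : ∀ x k, Φ x k = l ((g ^ (k : ℕ)) x) := fun x k => rfl
  have hΦψ : ∀ c k, Φ (ψ c) k = ∑ i : Fin (q + 1), c i * l ((g ^ ((k : ℕ) + (q - (i : ℕ)))) v) := by
    intro c k
    rw [hΦ, hψ, map_sum, map_sum]
    refine Finset.sum_congr rfl fun i _ => ?_
    rw [map_smul, map_smul, smul_eq_mul, pow_add, Module.End.mul_apply]
  have hinj : Function.Injective (Φ ∘ₗ ψ) := by
    rw [injective_iff_map_eq_zero]
    intro c hc
    by_contra hc0
    have hne' : (Finset.univ.filter (fun i => c i ≠ 0)).Nonempty := by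
      obtain ⟨i, hi⟩ := Function.ne_iff.mp hc0
      exact ⟨i, by simpa using hi⟩
    obtain ⟨k, hk, hkmax⟩ := Finset.exists_max_image _ (fun i : Fin (q + 1) => (i : ℕ)) hne'
    rw [Finset.mem_filter] at hk
    have h1 : Φ (ψ c) k = 0 := by
      have : (Φ ∘ₗ ψ) c = 0 := hc
      have h2 : Φ (ψ c) = 0 := this
      rw [h2]; rfl
    rw [hΦψ, Finset.sum_eq_single k] at h1
    · have h3 : (k : ℕ) + (q - (k : ℕ)) = q := by have := k.2; omega
      rw [h3] at h1
      rcases mul_eq_zero.mp h1 with h4 | h4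
      · exact hk.2 h4
      · exact hl1 h4
    · intro i _ hik
      rcases lt_or_gt_of_ne (fun h => hik (Fin.ext h) : (i : ℕ) ≠ k) with h | h
      · rw [hlr' _ (by have := i.2; have := k.2; omega), mul_zero]
      · have : c i = 0 := by
          by_contra hci
          have := hkmax i (Finset.mem_filter.mpr ⟨Finset.mem_univ _, hci⟩)
          omega
        rw [this, zero_mul]
    · intro h; exact absurd (Finset.mem_univ _) h
  have hbij : Function.Bijective (Φ ∘ₗ ψ) :=
    ⟨hinj, LinearMap.injective_iff_surjective.mp hinj⟩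
  let W : Submodule ℂ V := LinearMap.ker Φ
  let E : ((Fin (q + 1) → ℂ) × W) →ₗ[ℂ] V := LinearMap.coprod ψ W.subtype
  have hE : Function.Bijective E := by
    constructor
    · rw [injective_iff_map_eq_zero]
      rintro ⟨c, w⟩ h
      have h1 : ψ c + (w : V) = 0 := h
      have h2 : Φ (ψ c) = 0 := by
        have h3 : Φ (ψ c + (w : V)) = 0 := by rw [h1, map_zero]
        rw [map_add, LinearMap.mem_ker.mp w.2, add_zero] at h3
        exact h3
      have hc : c = 0 := hinj (by rw [map_zero]; exact h2)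
      subst hc
      rw [map_zero, zero_add] at h1
      have hw : w = 0 := Subtype.ext h1
      rw [hw]; rfl
    · intro x
      obtain ⟨c, hc⟩ := hbij.2 (Φ x)
      have hc' : Φ (ψ c) = Φ x := hc
      refine ⟨(c, ⟨x - ψ c, ?_⟩), ?_⟩
      · rw [LinearMap.mem_ker, map_sub, hc', sub_self]
      · change ψ c + (x - ψ c) = x
        abel
  refine ⟨q + 1, W, LinearEquiv.ofBijective E hE, μ, v, g, by omega, hfg, hv1, ?_, ?_, ?_⟩
  · intro x hx
    rw [LinearMap.mem_ker] at hx ⊢
    rw [hfg, map_add, map_smul, hx, smul_zero, zero_add]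
    ext k
    rw [hΦ, ← Module.End.mul_apply, ← pow_succ]
    by_cases hk : (k : ℕ) + 1 < q + 1
    · have := congrFun hx ⟨(k : ℕ) + 1, hk⟩
      exact this
    · exact hlr' _ (by omega) x
  · intro w
    change ψ 0 + (w : V) = w
    rw [map_zero, zero_add]
  · intro j
    change ψ (Pi.single j 1) + ((0 : W) : V) = _
    rw [hψ, Finset.sum_eq_single j]
    · simp
    · intro i _ hij
      rw [Pi.single_eq_of_ne hij, zero_smul]
    · intro h; exact absurd (Finset.mem_univ _) h

end jordan

theorem jb_all (n : ℕ) : ∀ (V : Type) [AddCommGroup V] [Module ℂ V] [FiniteDimensional ℂ V]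
    (_ : Module.finrank ℂ V = n) (f : V →ₗ[ℂ] V), JB f := by
  induction n using Nat.strong_induction_on with
  | _ n ih =>
    intro V _ _ _ hn f
    rcases subsingleton_or_nontrivial V with hs | hnt
    · exact ⟨0, Module.Basis.empty V, fun j => j.elim0⟩
    · obtain ⟨m, W, e, μ, v, g, hm, hfg, hgm, hW, he0, hej⟩ := bj_step f
      have hdim : Module.finrank ℂ W < n := by
        have h1 := e.finrank_eq
        rw [Module.finrank_prod, Module.finrank_fin_fun] at h1
        omega
      obtain ⟨n', b', hb'⟩ := ih _ hdim W rfl (f.restrict hW)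
      let b : Module.Basis (Fin (m + n')) ℂ V :=
        (((Pi.basisFun ℂ (Fin m)).prod b').map e).reindex finSumFinEquiv
      have hbl : ∀ j : Fin m, b (Fin.castAdd n' j) = (g ^ (m - 1 - (j : ℕ))) v := by
        intro j
        have h1 : finSumFinEquiv.symm (Fin.castAdd n' j) = Sum.inl j :=
          finSumFinEquiv_symm_apply_castAdd j
        simp only [b, Module.Basis.reindex_apply, h1, Module.Basis.map_apply]
        rw [← hej j]
        congr 1
        refine Prod.ext ?_ ?_
        · rw [Module.Basis.prod_apply_inl_fst, Pi.basisFun_apply]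
        · rw [Module.Basis.prod_apply_inl_snd]
      have hbr : ∀ j : Fin n', b (Fin.natAdd m j) = b' j := by
        intro j
        have h1 : finSumFinEquiv.symm (Fin.natAdd m j) = Sum.inr j :=
          finSumFinEquiv_symm_apply_natAdd j
        simp only [b, Module.Basis.reindex_apply, h1, Module.Basis.map_apply]
        rw [← he0 (b' j)]
        congr 1
        refine Prod.ext ?_ ?_
        · rw [Module.Basis.prod_apply_inr_fst]
        · rw [Module.Basis.prod_apply_inr_snd]
      refine ⟨m + n', b, ?_⟩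
      intro j
      refine Fin.addCases (fun j => ?_) (fun j => ?_) j
      · refine ⟨μ, ?_⟩
        rw [hbl, hfg, ← Module.End.mul_apply, ← pow_succ']
        by_cases hj : (j : ℕ) = 0
        · left
          have h1 : m - 1 - (j : ℕ) + 1 = m := by omega
          rw [h1, hgm, add_zero]
        · right
          have hj2 := j.2
          refine ⟨Fin.castAdd n' ⟨(j : ℕ) - 1, by omega⟩, ?_, ?_⟩
          · rw [Fin.lt_def]
            simp only [Fin.val_castAdd]
            omega
          · rw [hbl]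
            have h1 : m - 1 - (j : ℕ) + 1 = m - 1 - ((j : ℕ) - 1) := by omega
            rw [h1]
      · obtain ⟨μ', hμ'⟩ := hb' j
        refine ⟨μ', ?_⟩
        rw [hbr]
        rcases hμ' with h | ⟨i, hij, h⟩
        · left
          have := congrArg Subtype.val h
          exact this
        · right
          refine ⟨Fin.natAdd m i, ?_, ?_⟩
          · rw [Fin.lt_def] at hij ⊢
            simp only [Fin.val_natAdd]
            omega
          · rw [hbr]
            have := congrArg Subtype.val h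
            exact this

theorem exists_triangular {r : ℕ} (C : Mat r) :
    ∃ T : Mat r, (∀ i j, j < i → T i j = 0) ∧ (∀ i j, i < j → T i j = 0 ∨ T i j = 1) ∧
      C ∈ Cls T := by
  obtain ⟨n, b, hb⟩ := jb_all _ (Fin r → ℂ) rfl (Matrix.toLin' C)
  have hn : n = r := by
    have h1 := Module.finrank_eq_card_basis b
    rw [Module.finrank_fin_fun, Fintype.card_fin] at h1
    exact h1.symm
  subst hn
  refine ⟨LinearMap.toMatrix b b (Matrix.toLin' C), ?_, ?_, ?_⟩
  · intro i j hij
    rw [LinearMap.toMatrix_apply]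
    obtain ⟨μ, h | ⟨k, hk, h⟩⟩ := hb j
    · rw [h, map_smul, Finsupp.smul_apply, Module.Basis.repr_self,
        Finsupp.single_eq_of_ne hij.ne', smul_zero]
    · rw [h, map_add, map_smul, Finsupp.add_apply, Finsupp.smul_apply, Module.Basis.repr_self,
        Module.Basis.repr_self, Finsupp.single_eq_of_ne hij.ne',
        Finsupp.single_eq_of_ne (hk.trans hij).ne', smul_zero, add_zero]
  · intro i j hij
    rw [LinearMap.toMatrix_apply]
    obtain ⟨μ, h | ⟨k, hk, h⟩⟩ := hb j
    · left
      rw [h, map_smul, Finsupp.smul_apply, Module.Basis.repr_self,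
        Finsupp.single_eq_of_ne hij.ne, smul_zero]
    · by_cases hik : i = k
      · right
        subst hik
        rw [h, map_add, map_smul, Finsupp.add_apply, Finsupp.smul_apply, Module.Basis.repr_self,
          Module.Basis.repr_self, Finsupp.single_eq_of_ne hij.ne, Finsupp.single_eq_same,
          smul_zero, zero_add]
      · left
        rw [h, map_add, map_smul, Finsupp.add_apply, Finsupp.smul_apply, Module.Basis.repr_self,
          Module.Basis.repr_self, Finsupp.single_eq_of_ne hij.ne,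
          Finsupp.single_eq_of_ne hik, smul_zero, add_zero]
  · let c := Pi.basisFun ℂ (Fin n)
    have h1 := basis_toMatrix_mul_linearMap_toMatrix_mul_basis_toMatrix c b c b (Matrix.toLin' C)
    have h2 : LinearMap.toMatrix c c (Matrix.toLin' C) = C := by
      rw [← Matrix.toLin_eq_toLin', LinearMap.toMatrix_toLin]
    rw [h2] at h1
    have h3 : c.toMatrix b * b.toMatrix c = 1 := Module.Basis.toMatrix_mul_toMatrix_flip c b
    have hdet : IsUnit (c.toMatrix b).det := by
      have h4 := congrArg Matrix.det h3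
      rw [Matrix.det_mul, Matrix.det_one] at h4
      exact IsUnit.of_mul_eq_one _ h4
    refine ⟨c.toMatrix b, hdet, ?_⟩
    have h5 : (c.toMatrix b)⁻¹ = b.toMatrix c := Matrix.inv_eq_right_inv h3
    rw [h5, h1]

theorem exists_integral_model {L : Type*} [Field L] [NumberField L] (φ : L →+* ℂ) {r : ℕ}
    (C : Mat r) (hdet : C.det = 1) (hC : ∀ μ : ℂ, C.charpoly.IsRoot μ → ∃ z : 𝓞 L, φ z = μ) :
    ∃ T : SpecialLinearGroup (Fin r) (𝓞 L), (∀ i j, j < i → T.1 i j = 0) ∧
      (∀ i, C.charpoly.IsRoot (φ (T.1 i i : L))) ∧ C ∈ Cls (emb φ T.1) := by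
  classical
  obtain ⟨T, hlow, hup, h, hh, hCT⟩ := exists_triangular C
  have hhu : IsUnit h := (Matrix.isUnit_iff_isUnit_det h).mpr hh
  have hchar : C.charpoly = T.charpoly := by
    rw [hCT]
    exact Matrix.charpoly_units_conj hhu.unit T
  have htri : T.BlockTriangular id := fun i j hij => hlow i j hij
  have hroot : ∀ i, C.charpoly.IsRoot (T i i) := by
    intro i
    rw [hchar, Matrix.charpoly_of_isUpperTriangular T htri, Polynomial.IsRoot.def,
      Polynomial.eval_prod]
    exact Finset.prod_eq_zero (Finset.mem_univ i) (by simp)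
  choose z hz using fun i => hC (T i i) (hroot i)
  let T' : Matrix (Fin r) (Fin r) (𝓞 L) := Matrix.of fun i j =>
    if i = j then z i else if T i j = 1 then 1 else 0
  have hemb : emb φ T' = T := by
    ext i j
    unfold emb
    rw [Matrix.map_apply]
    change (φ.comp (algebraMap (𝓞 L) L)) (if i = j then z i else if T i j = 1 then 1 else 0) = T i j
    rcases lt_trichotomy i j with hij | hij | hij
    · rw [if_neg hij.ne]
      rcases hup i j hij with h0 | h1
      · rw [if_neg (by rw [h0]; exact zero_ne_one), map_zero, h0]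
      · rw [if_pos h1, map_one, h1]
    · subst hij
      rw [if_pos rfl]
      exact hz i
    · rw [if_neg hij.ne']
      have h0 := hlow i j hij
      rw [if_neg (by rw [h0]; exact zero_ne_one), map_zero, h0]
  have hφinj : Function.Injective (φ.comp (algebraMap (𝓞 L) L)) :=
    φ.injective.comp (FaithfulSMul.algebraMap_injective (𝓞 L) L)
  have hTdet : T.det = 1 := by
    rw [← hdet, hCT, Matrix.det_mul, Matrix.det_mul, mul_comm, ← mul_assoc, ← Matrix.det_mul,
      Matrix.nonsing_inv_mul h hh, Matrix.det_one, one_mul]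
  have hT'det : T'.det = 1 := by
    apply hφinj
    rw [map_one, RingHom.map_det]
    change (emb φ T').det = 1
    rw [hemb, hTdet]
  refine ⟨⟨T', hT'det⟩, ?_, ?_, ?_⟩
  · intro i j hij
    change (if i = j then z i else if T i j = 1 then 1 else 0) = (0 : 𝓞 L)
    rw [if_neg hij.ne', if_neg (by rw [hlow i j hij]; exact zero_ne_one)]
  · intro i
    change C.charpoly.IsRoot (φ ((if i = i then z i else if T i i = 1 then 1 else 0 : 𝓞 L) : L))
    rw [if_pos rfl, hz]
    exact hroot i
  · change C ∈ Cls (emb φ T')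
    rw [hemb]
    exact ⟨h, hh, hCT⟩

end Vale.Agent.P002
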