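import Vale.Agent.P002.BSpan

namespace Vale.Agent.P002

open Matrix Topology Filter
open scoped Matrix.Norms.L2Operator

section lists
variable {g n r : ℕ}

theorem bc_eq (J h : Fin n → Mat r) : bc J h = fun j => h j * J j * Ring.inverse (h j) := by
  funext j
  rw [bc, Matrix.nonsing_inv_eq_ringInverse]

theorem bc_update (J h : Fin n → Mat r) (k : Fin n) (v : Mat r) :
    bc J (Function.update h k v) = Function.update (bc J h) k (v * J k * Ring.inverse v) := by
  rw [bc_eq, bc_eq]
  funext j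
  by_cases hj : j = k
  · subst hj; simp
  · simp [Function.update_of_ne hj]

/-- suffix product -/
noncomputable def post (c : Fin n → Mat r) (j : Fin n) : Mat r := ((List.ofFn c).drop (j + 1)).prod

theorem prod_split (c : Fin n → Mat r) (k : Fin n) (v : Mat r) :
    (List.ofFn (Function.update c k v)).prod = pre c k * v * post c k := by
  rw [ofFn_update, List.prod_set, if_pos (by simp)]
  rfl

theorem prod_split' (c : Fin n → Mat r) (k : Fin n) :
    (List.ofFn c).prod = pre c k * c k * post c k := by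
  conv_lhs => rw [← Function.update_eq_self k c]
  exact prod_split c k (c k)

theorem kpA_update_last (x : Tup (g + 1) r) (p : Mat r × Mat r) :
    kpA (Function.update x (Fin.last g) p) = kpA (fun i : Fin g => x i.castSucc) * cmA p := by
  have s1 : ∀ y : Tup (g + 1) r, kpA y =
      kpA (fun i : Fin g => y i.castSucc) * cmA (y (Fin.last g)) := fun y => by
    rw [← Kp_eq]; exact Kp_snoc_eq y
  rw [s1, Function.update_self]
  congr 2
  funext i
  rw [Function.update_of_ne (Fin.castSucc_lt_last i).ne]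

theorem Kb_eqL (z : BTup g n r) : Kb z = kpA z.1 * (List.ofFn z.2).prod := by
  rw [Kb, Kp_eq]

/-- preservation of the relation under a boundary move -/
theorem Kb_move {z : BTup (g + 1) n r} {k : Fin n} {s s' : St (Mat r)} (hs : US s)
    (hp : pre z.2 k = s.2.2.1) (h22 : s'.2.2 = s.2.2) (hcm : cmA s'.1 * bX s' = cmA s.1 * bX s) :
    Kb (Function.update z.1 (Fin.last g) s'.1,
      Function.update z.2 k (s'.2.1 * s'.2.2.2 * Ring.inverse s'.2.1)) =
    Kb (Function.update z.1 (Fin.last g) s.1,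
      Function.update z.2 k (s.2.1 * s.2.2.2 * Ring.inverse s.2.1)) := by
  rw [Kb_eqL, Kb_eqL]
  simp only
  rw [kpA_update_last, kpA_update_last, prod_split, prod_split, hp]
  have h1 : cmA s'.1 * (s.2.2.1 * (s'.2.1 * s'.2.2.2 * Ring.inverse s'.2.1)) =
      cmA s.1 * (s.2.2.1 * (s.2.1 * s.2.2.2 * Ring.inverse s.2.1)) := by
    have h2 := congrArg (fun M => M * s.2.2.1) hcm
    simp only [bX] at h2
    rw [h22] at h2
    have h3 : Ring.inverse s.2.2.1 * s.2.2.1 = 1 := Ring.inverse_mul_cancel _ hs.2.2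
    rw [h22]
    calc cmA s'.1 * (s.2.2.1 * (s'.2.1 * s.2.2.2 * Ring.inverse s'.2.1))
        = cmA s'.1 * (s.2.2.1 * (s'.2.1 * s.2.2.2 * Ring.inverse s'.2.1) * Ring.inverse s.2.2.1) *
          s.2.2.1 := by
          rw [mul_assoc (cmA s'.1), mul_assoc (s.2.2.1 * _) (Ring.inverse s.2.2.1), h3, mul_one]
      _ = _ := h2
      _ = _ := by
          rw [mul_assoc (cmA s.1), mul_assoc (s.2.2.1 * _) (Ring.inverse s.2.2.1), h3, mul_one]
  calc kpA (fun i : Fin g => z.1 i.castSucc) * cmA s'.1 *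
        (s.2.2.1 * (s'.2.1 * s'.2.2.2 * Ring.inverse s'.2.1) * post z.2 k)
      = kpA (fun i : Fin g => z.1 i.castSucc) * (cmA s'.1 *
        (s.2.2.1 * (s'.2.1 * s'.2.2.2 * Ring.inverse s'.2.1))) * post z.2 k := by
        simp only [mul_assoc]
    _ = _ := by rw [h1]; simp only [mul_assoc]

theorem pre_diag [NeZero r] (d : Fin n → Fin r → ℂ) (k : Fin n) : ∃ U0 : Fin r → ℂ,
    ((∀ j i, d j i ≠ 0) → ∀ i, U0 i ≠ 0) ∧ pre (fun j => mono 0 (d j)) k = mono 0 U0 := by
  unfold pre
  rw [List.ofFn_eq_map, ← List.map_take]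
  generalize (List.finRange n).take k = l
  induction l with
  | nil => exact ⟨1, fun _ i => one_ne_zero, by simp [mono_zero_one]⟩
  | cons a l ih =>
    obtain ⟨U0, h1, h2⟩ := ih
    refine ⟨fun i => d a i * U0 i, fun h i => mul_ne_zero (h a i) (h1 h i), ?_⟩
    rw [List.map_cons, List.prod_cons, h2, mono_mul, add_zero]
    congr 1
    funext i
    rw [add_zero]

end lists

section step
variable {g n r : ℕ} [NeZero r]

theorem bc_continuousAt (J0 : Fin n → Mat r) (j : Fin n) :
    ContinuousAt (fun q : (Fin n → Mat r) × (Fin n → Mat r) => bc q.2 q.1 j)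
      ((fun _ => 1), J0) := by
  simp only [bc_eq]
  have h1 : ContinuousAt (fun q : (Fin n → Mat r) × (Fin n → Mat r) => q.1 j)
      ((fun _ => 1), J0) := ((continuous_apply j).comp continuous_fst).continuousAt
  have h2 : ContinuousAt (fun q : (Fin n → Mat r) × (Fin n → Mat r) => q.2 j)
      ((fun _ => 1), J0) := ((continuous_apply j).comp continuous_snd).continuousAt
  have h3 : ContinuousAt (Ring.inverse : Mat r → Mat r) (1 : Mat r) :=
    NormedRing.inverse_continuousAt (1 : (Mat r)ˣ)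
  have h4 : ContinuousAt (fun q : (Fin n → Mat r) × (Fin n → Mat r) => Ring.inverse (q.1 j))
      ((fun _ => 1), J0) :=
    ContinuousAt.comp (g := Ring.inverse)
      (f := fun q : (Fin n → Mat r) × (Fin n → Mat r) => q.1 j)
      (x := ((fun _ => 1), J0)) h3 h1
  exact (h1.mul h2).mul h4

theorem pre_continuousAt (J0 : Fin n → Mat r) (k : Fin n) :
    ContinuousAt (fun q : (Fin n → Mat r) × (Fin n → Mat r) => pre (bc q.2 q.1) k)
      ((fun _ => 1), J0) := by
  have h : ∀ c : Fin n → Mat r, pre c k = (((List.finRange n).take k).map c).prod := by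
    intro c
    unfold pre
    rw [List.ofFn_eq_map, ← List.map_take]
  simp only [h]
  exact tendsto_list_prod _ fun j _ => bc_continuousAt J0 j

theorem bc_one (J0 : Fin n → Mat r) : bc J0 (fun _ => 1) = J0 := by
  funext j
  simp [bc]

/-- one step: the boundary conjugator number `k` can be moved to any prescribed nearby value -/
theorem bstep (k : Fin n) {α : Fin (g + 1) → Fin r → ℂ} (hα : ∀ i, BaseCond (α i))
    {d : Fin n → Fin r → ℂ} (hd : ∀ j i, d j i ≠ 0)
    (hinj : ∀ j, Function.Injective fun i => (α (Fin.last g) (i + 1))⁻¹ * d j i)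
    {N : Set (BTup (g + 1) n r)}
    (hN : N ∈ 𝓝 ((basePt α, fun _ => 1) : BTup (g + 1) n r)) :
    ∀ᶠ q in 𝓝 (((basePt α, fun _ => 1) : BTup (g + 1) n r),
        (((basePt α, fun _ => 1) : BTup (g + 1) n r), (fun j => (mono 0 (d j) : Mat r)))),
      ∃ z' ∈ N, Kb (z'.1, bc q.2.2 z'.2) = Kb (q.1.1, bc q.2.2 q.1.2) ∧
        (∀ W : Set (BTup (g + 1) n r), MoveClosedB W → (z'.1, bc q.2.2 z'.2) ∈ W →
          (q.1.1, bc q.2.2 q.1.2) ∈ W) ∧
        (∀ j, j ≠ k → z'.2 j = q.1.2 j) ∧ z'.2 k = q.2.1.2 k := by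
  obtain ⟨U0, hU0, hU0'⟩ := pre_diag d k
  have hU := hU0 hd
  let Ump : BTup (g + 1) n r × St (Mat r) → BTup (g + 1) n r := fun p =>
    (Function.update p.1.1 (Fin.last g) p.2.1, Function.update p.1.2 k p.2.2.1)
  have hUc : Continuous Ump := by
    refine Continuous.prodMk ?_ ?_
    · exact Continuous.update (continuous_fst.comp continuous_fst) _
        (continuous_fst.comp continuous_snd)
    · exact Continuous.update (continuous_snd.comp continuous_fst) _
        (continuous_fst.comp (continuous_snd.comp continuous_snd))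
  set s0 : St (Mat r) := st0 (α (Fin.last g)) U0 (d k) with hs0
  have hU0eq : Ump ((basePt α, fun _ => 1), s0) = (basePt α, fun _ => 1) := by
    refine Prod.ext ?_ ?_
    · funext i
      by_cases hi : i = Fin.last g
      · subst hi; simp [Ump, s0, st0, basePt]
      · simp [Ump, Function.update_of_ne hi]
    · funext j
      by_cases hj : j = k
      · subst hj; simp [Ump, s0, st0]
      · simp [Ump, Function.update_of_ne hj]
  have hUN : ∀ᶠ p in 𝓝 (((basePt α, fun _ => 1) : BTup (g + 1) n r), s0), Ump p ∈ N := by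
    refine hUc.continuousAt.eventually (p := fun y => y ∈ N) ?_
    rw [hU0eq]; exact hN
  rw [nhds_prod_eq] at hUN
  obtain ⟨N1, hN1, N3, hN3, hNN⟩ := Filter.mem_prod_iff.mp hUN
  have hB := bcover (g := g) k (hα (Fin.last g)) hU (hd k) (hinj k) hN3
  -- the state as a continuous function
  let stt : BTup (g + 1) n r × (BTup (g + 1) n r × (Fin n → Mat r)) → St (Mat r) := fun q =>
    (q.1.1 (Fin.last g), (q.1.2 k, (pre (bc q.2.2 q.1.2) k, q.2.2 k)))
  have hstc : ContinuousAt stt (((basePt α, fun _ => 1) : BTup (g + 1) n r),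
        (((basePt α, fun _ => 1) : BTup (g + 1) n r), (fun j => (mono 0 (d j) : Mat r)))) := by
    refine ContinuousAt.prodMk ?_ (ContinuousAt.prodMk ?_ (ContinuousAt.prodMk ?_ ?_))
    · exact ((continuous_apply (Fin.last g)).comp
        (continuous_fst.comp continuous_fst)).continuousAt
    · exact ((continuous_apply k).comp (continuous_snd.comp continuous_fst)).continuousAt
    · have h1 := pre_continuousAt (fun j => (mono 0 (d j) : Mat r)) k
      exact ContinuousAt.comp (g := fun q : (Fin n → Mat r) × (Fin n → Mat r) => pre (bc q.2 q.1) k)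
        (f := fun q : BTup (g + 1) n r × (BTup (g + 1) n r × (Fin n → Mat r)) => (q.1.2, q.2.2))
        (x := (((basePt α, fun _ => 1) : BTup (g + 1) n r),
        (((basePt α, fun _ => 1) : BTup (g + 1) n r), (fun j => (mono 0 (d j) : Mat r))))) h1
        ((continuous_snd.comp continuous_fst).prodMk
          (continuous_snd.comp continuous_snd)).continuousAt
    · exact ((continuous_apply k).comp (continuous_snd.comp continuous_snd)).continuousAt
  have hst0 : stt (((basePt α, fun _ => 1) : BTup (g + 1) n r),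
        (((basePt α, fun _ => 1) : BTup (g + 1) n r), (fun j => (mono 0 (d j) : Mat r)))) = s0 := by
    simp only [stt, bc_one, hU0', s0, st0, basePt]
  have hc : ContinuousAt (fun q : BTup (g + 1) n r × (BTup (g + 1) n r × (Fin n → Mat r)) =>
      (stt q, q.2.1.2 k)) (((basePt α, fun _ => 1) : BTup (g + 1) n r),
        (((basePt α, fun _ => 1) : BTup (g + 1) n r), (fun j => (mono 0 (d j) : Mat r)))) :=
    hstc.prodMk ((continuous_apply k).comp
      (continuous_snd.comp (continuous_fst.comp continuous_snd))).continuousAt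
  have hB' := hc.eventually (p := fun q => ∃ s' ∈ N3, QB g k q.1 s' ∧ s'.2.1 = q.2) (by
    simp only [hst0]; exact hB)
  have hUS : ∀ᶠ q in 𝓝 (((basePt α, fun _ => 1) : BTup (g + 1) n r),
        (((basePt α, fun _ => 1) : BTup (g + 1) n r), (fun j => (mono 0 (d j) : Mat r)))),
      US (stt q) := by
    refine hstc.eventually (p := fun s => US s) ?_
    rw [hst0]
    exact eventually_US (us_st0 (hα _).ne hU)
  have hN1' : ∀ᶠ q in 𝓝 (((basePt α, fun _ => 1) : BTup (g + 1) n r),
        (((basePt α, fun _ => 1) : BTup (g + 1) n r), (fun j => (mono 0 (d j) : Mat r)))),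
      q.1 ∈ N1 := continuousAt_fst.eventually (p := fun y => y ∈ N1) hN1
  filter_upwards [hB', hUS, hN1'] with q hq hus hq1
  obtain ⟨s', hs'N, hQB, hs'h⟩ := hq
  have hself : ((Function.update q.1.1 (Fin.last g) (stt q).1,
      Function.update (bc q.2.2 q.1.2) k ((stt q).2.1 * (stt q).2.2.2 *
        Ring.inverse (stt q).2.1)) : BTup (g + 1) n r) = (q.1.1, bc q.2.2 q.1.2) := by
    refine Prod.ext ?_ ?_
    · simp [stt]
    · show Function.update (bc q.2.2 q.1.2) k (q.1.2 k * q.2.2 k * Ring.inverse (q.1.2 k)) = _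
      rw [← bc_update, Function.update_eq_self]
  have hnew : ((Function.update q.1.1 (Fin.last g) s'.1,
      Function.update (bc q.2.2 q.1.2) k (s'.2.1 * s'.2.2.2 *
        Ring.inverse s'.2.1)) : BTup (g + 1) n r) =
      ((Ump (q.1, s')).1, bc q.2.2 (Ump (q.1, s')).2) := by
    refine Prod.ext rfl ?_
    show Function.update (bc q.2.2 q.1.2) k (s'.2.1 * s'.2.2.2 * Ring.inverse s'.2.1) =
      bc q.2.2 (Function.update q.1.2 k s'.2.1)
    rw [bc_update, hQB.1]
  refine ⟨Ump (q.1, s'), hNN ⟨hq1, hs'N⟩, ?_, ?_, ?_, ?_⟩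
  · rw [← hself, ← hnew]
    exact Kb_move (z := (q.1.1, bc q.2.2 q.1.2)) hus rfl hQB.1 hQB.2.1
  · intro W hW hz
    rw [← hnew] at hz
    have := hQB.2.2 W hW (q.1.1, bc q.2.2 q.1.2) rfl hz
    rw [← hself]
    exact this
  · intro j hj
    simp [Ump, Function.update_of_ne hj]
  · simp only [Ump, Function.update_self]
    exact hs'h

theorem bclaim {α : Fin (g + 1) → Fin r → ℂ} (hα : ∀ i, BaseCond (α i))
    {d : Fin n → Fin r → ℂ} (hd : ∀ j i, d j i ≠ 0)
    (hinj : ∀ j, Function.Injective fun i => (α (Fin.last g) (i + 1))⁻¹ * d j i) :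
    ∀ (k : ℕ), k ≤ n → ∀ N ∈ 𝓝 ((basePt α, fun _ => 1) : BTup (g + 1) n r),
    ∀ᶠ q in 𝓝 (((basePt α, fun _ => 1) : BTup (g + 1) n r),
        (((basePt α, fun _ => 1) : BTup (g + 1) n r), (fun j => (mono 0 (d j) : Mat r)))),
      ∃ z' ∈ N, Kb (z'.1, bc q.2.2 z'.2) = Kb (q.1.1, bc q.2.2 q.1.2) ∧
        (∀ W : Set (BTup (g + 1) n r), MoveClosedB W → (z'.1, bc q.2.2 z'.2) ∈ W →
          (q.1.1, bc q.2.2 q.1.2) ∈ W) ∧
        (∀ j : Fin n, (j : ℕ) < k → z'.2 j = q.2.1.2 j)
  | 0, _, N, hN => by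
    have hN' : ∀ᶠ q in 𝓝 (((basePt α, fun _ => 1) : BTup (g + 1) n r),
        (((basePt α, fun _ => 1) : BTup (g + 1) n r), (fun j => (mono 0 (d j) : Mat r)))),
      q.1 ∈ N := continuousAt_fst.eventually (p := fun y => y ∈ N) hN
    filter_upwards [hN'] with q hq
    exact ⟨q.1, hq, rfl, fun _ _ h => h, fun j hj => by omega⟩
  | k + 1, hk, N, hN => by
    have h1 := bstep ⟨k, hk⟩ hα hd hinj hN
    rw [nhds_prod_eq] at h1
    obtain ⟨N1, hN1, N2, hN2, hNN⟩ := Filter.mem_prod_iff.mp h1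
    have h2 := bclaim hα hd hinj k (by omega) N1 hN1
    have h3 : ∀ᶠ q in 𝓝 (((basePt α, fun _ => 1) : BTup (g + 1) n r),
        (((basePt α, fun _ => 1) : BTup (g + 1) n r), (fun j => (mono 0 (d j) : Mat r)))),
      q.2 ∈ N2 := continuousAt_snd.eventually (p := fun y => y ∈ N2) hN2
    filter_upwards [h2, h3] with q hx hq2
    obtain ⟨z', hz'N, hk', hW', hc'⟩ := hx
    obtain ⟨z'', hN'', hk'', hW'', hj'', hc''⟩ :=
      hNN (show (z', q.2) ∈ N1 ×ˢ N2 from ⟨hz'N, hq2⟩)
    refine ⟨z'', hN'', hk''.trans hk', fun W hMC h => hW' W hMC (hW'' W hMC h), fun j hj => ?_⟩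
    rcases Nat.lt_succ_iff_lt_or_eq.mp hj with h | h
    · rw [hj'' j (fun h' => by rw [h'] at h; simp at h), hc' j h]
    · have : j = ⟨k, hk⟩ := Fin.ext h
      rw [this]; exact hc''

/-- two-point local transitivity near the degenerate base point -/
theorem local_trans {α : Fin (g + 1) → Fin r → ℂ} (hα : ∀ i, BaseCond (α i))
    (hl : ∀ (k : ℕ) (hk : k + 1 < g + 1), Linked (α ⟨k, by omega⟩) (α ⟨k + 1, hk⟩))
    {d : Fin n → Fin r → ℂ} (hd : ∀ j i, d j i ≠ 0)
    (hinj : ∀ j, Function.Injective fun i => (α (Fin.last g) (i + 1))⁻¹ * d j i) :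
    ∀ᶠ q in 𝓝 (((basePt α, fun _ => 1) : BTup (g + 1) n r),
        (((basePt α, fun _ => 1) : BTup (g + 1) n r), (fun j => (mono 0 (d j) : Mat r)))),
      Kb (q.1.1, bc q.2.2 q.1.2) = Kb (q.2.1.1, bc q.2.2 q.2.1.2) →
      (∀ j, IsUnit (bc q.2.2 q.2.1.2 j)) →
      ∀ W : Set (BTup (g + 1) n r), MoveClosedB W → (q.2.1.1, bc q.2.2 q.2.1.2) ∈ W →
          (q.1.1, bc q.2.2 q.1.2) ∈ W := by
  have h1 := chain2_final hα hl
  rw [nhds_prod_eq] at h1
  obtain ⟨N1, hN1, N2, hN2, hNN⟩ := Filter.mem_prod_iff.mp h1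
  have hN1' : {z : BTup (g + 1) n r | z.1 ∈ N1} ∈
      𝓝 ((basePt α, fun _ => 1) : BTup (g + 1) n r) :=
    continuousAt_fst.eventually (p := fun y => y ∈ N1) hN1
  have h2 := bclaim hα hd hinj n le_rfl _ hN1'
  have h3 : ∀ᶠ q in 𝓝 (((basePt α, fun _ => 1) : BTup (g + 1) n r),
        (((basePt α, fun _ => 1) : BTup (g + 1) n r), (fun j => (mono 0 (d j) : Mat r)))),
      q.2.1.1 ∈ N2 := by
    have hc : ContinuousAt (fun q : BTup (g + 1) n r × (BTup (g + 1) n r × (Fin n → Mat r)) =>
      q.2.1.1) (((basePt α, fun _ => 1) : BTup (g + 1) n r),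
        (((basePt α, fun _ => 1) : BTup (g + 1) n r), (fun j => (mono 0 (d j) : Mat r)))) :=
      (continuous_fst.comp (continuous_fst.comp continuous_snd)).continuousAt
    exact hc.eventually (p := fun y => y ∈ N2) hN2
  filter_upwards [h2, h3] with q hq hq2 hK hunit W hW hz
  obtain ⟨z', hz'1, hk', hW', hc'⟩ := hq
  have e1 : z'.2 = q.2.1.2 := funext fun j => hc' j j.2
  apply hW' W hW
  rw [e1]
  have hprod : IsUnit (List.ofFn (bc q.2.2 q.2.1.2)).prod := by
    rw [List.ofFn_eq_map]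
    generalize List.finRange n = l
    induction l with
    | nil => simp
    | cons a l ih => rw [List.map_cons, List.prod_cons]; exact (hunit a).mul ih
  have e2 : kpA z'.1 = kpA q.2.1.1 := by
    have e3 := hk'.trans hK
    rw [Kb_eqL, Kb_eqL, e1] at e3
    exact hprod.mul_right_cancel e3
  exact hNN (show (z'.1, q.2.1.1) ∈ N1 ×ˢ N2 from ⟨hz'1, hq2⟩) e2
    {x | (x, bc q.2.2 q.2.1.2) ∈ W} (hW.mc _) hz

end step

end Vale.Agent.P002
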