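import Vale.Agent.P002.OpenStep

namespace Vale.Agent.P002

open Topology

section abstract

variable {𝔸 : Type*} [NormedRing 𝔸] [NormedAlgebra ℂ 𝔸] [CompleteSpace 𝔸]

theorem os_abs_b {g : ℕ} (C : 𝔸) (hC : IsUnit C) (x : Fin g → 𝔸 × 𝔸) (p0 : 𝔸 × 𝔸)
    (hx : ∀ i, IsUnit (x i).1 ∧ IsUnit (x i).2) (h1 : IsUnit p0.1) (h2 : IsUnit p0.2)
    (hs : ∀ f : 𝔸 →ₗ[ℂ] ℂ, f (kpA x) = 0 → (∀ v, f (dkA g x v) = 0) → f = 0)
    (hk : kpA x * (cmA p0 * C) = 1)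
    (V : Set (Fin g → 𝔸 × 𝔸)) (hV : V ∈ 𝓝 x) (W : Set ℂ) (hW : W ∈ 𝓝 (1 : ℂ)) :
    ∀ᶠ p in 𝓝 p0, ∃ y ∈ V, ∃ c ∈ W, c • (kpA y * (cmA p * C)) = 1 := by
  have hop := os_open x hx hs V hV W hW
  have hu0 : IsUnit (cmA p0 * C) := (isUnit_cmA h1 h2).mul hC
  obtain ⟨L, hL, -⟩ := os_cm p0 h1 h2
  have hc0 : ContinuousAt (cmA : 𝔸 × 𝔸 → 𝔸) p0 := hL.continuousAt
  have hc1 : ContinuousAt (fun p : 𝔸 × 𝔸 => cmA p * C) p0 := hc0.mul continuousAt_const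
  obtain ⟨L2, hL2, -⟩ := os_inv (cmA p0 * C) hu0
  have hc2 : ContinuousAt (Ring.inverse : 𝔸 → 𝔸) (cmA p0 * C) := hL2.continuousAt
  have hc3 : ContinuousAt (fun p : 𝔸 × 𝔸 => Ring.inverse (cmA p * C)) p0 :=
    ContinuousAt.comp (f := fun p : 𝔸 × 𝔸 => cmA p * C) (g := Ring.inverse) hc2 hc1
  have hval : Ring.inverse (cmA p0 * C) = kpA x := by
    have := Ring.mul_inverse_cancel (cmA p0 * C) hu0
    calc Ring.inverse (cmA p0 * C) =
        (kpA x * (cmA p0 * C)) * Ring.inverse (cmA p0 * C) := by rw [hk, one_mul]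
      _ = kpA x := by rw [mul_assoc, this, mul_one]
  rw [← hval] at hop
  have hev := hc3.eventually_mem hop
  have hunits : ∀ᶠ p : 𝔸 × 𝔸 in 𝓝 p0, IsUnit (cmA p * C) :=
    hc1.eventually_mem (Units.isOpen.mem_nhds hu0)
  filter_upwards [hev, hunits] with p hp hu
  obtain ⟨y, hy, c, hc, hyc⟩ := hp
  refine ⟨y, hy, c, hc, ?_⟩
  rw [← smul_mul_assoc, hyc]
  exact Ring.inverse_mul_cancel _ hu

end abstract

section final

open Matrix Topology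

theorem os_absM_b {g r : ℕ} (C : Mat r) (hC : IsUnit C) (x : Fin g → Mat r × Mat r)
    (p0 : Mat r × Mat r)
    (hx : ∀ i, IsUnit (x i).1 ∧ IsUnit (x i).2) (h1 : IsUnit p0.1) (h2 : IsUnit p0.2)
    (hs : ∀ f : Mat r →ₗ[ℂ] ℂ, f (kpA x) = 0 → (∀ v, f (dkA g x v) = 0) → f = 0)
    (hk : kpA x * (cmA p0 * C) = 1)
    (V : Set (Fin g → Mat r × Mat r)) (hV : V ∈ 𝓝 x) (W : Set ℂ) (hW : W ∈ 𝓝 (1 : ℂ)) :
    ∀ᶠ p in 𝓝 p0, ∃ y ∈ V, ∃ c ∈ W, c • (kpA y * (cmA p * C)) = 1 := by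
  let _ : NormedRing (Mat r) := Matrix.linftyOpNormedRing
  let _ : NormedAlgebra ℂ (Mat r) := Matrix.linftyOpNormedAlgebra
  exact os_abs_b (𝔸 := Mat r) C hC x p0 hx h1 h2 hs hk V hV W hW

theorem open_step_b {g r : ℕ} (C : Mat r) (hC : C.det = 1) (x : Tup (g + 1) r) (hx : Inv x)
    (hk : Kp x * C = 1)
    (hz : ∀ M : Mat r, (∀ i : Fin g, Commute M (x i.castSucc).1 ∧ Commute M (x i.castSucc).2) →
      ∃ c : ℂ, M = c • (1 : Mat r))
    (U : Set (Tup (g + 1) r)) (hU : U ∈ 𝓝 x) :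
    ∀ᶠ p in 𝓝 (x (Fin.last g)), ∃ y ∈ U, y (Fin.last g) = p ∧ Kp y * C = 1 := by
  have hCu : IsUnit C := (Matrix.isUnit_iff_isUnit_det _).mpr (by rw [hC]; exact isUnit_one)
  set ρ : Tup g r := fun i => x i.castSucc with hρ
  set p0 : Mat r × Mat r := x (Fin.last g) with hp0
  have hx1 : ∀ i, IsUnit (ρ i).1 ∧ IsUnit (ρ i).2 := fun i =>
    ⟨(Matrix.isUnit_iff_isUnit_det _).mpr (hx i.castSucc).1,
      (Matrix.isUnit_iff_isUnit_det _).mpr (hx i.castSucc).2⟩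
  have hp1 : IsUnit p0.1 := (Matrix.isUnit_iff_isUnit_det _).mpr (hx (Fin.last g)).1
  have hp2 : IsUnit p0.2 := (Matrix.isUnit_iff_isUnit_det _).mpr (hx (Fin.last g)).2
  have hk' : kpA ρ * (cmA p0 * C) = 1 := by rw [← hk, Kp_snoc_eq, mul_assoc]
  have hsn : Fin.snoc (α := fun _ => Mat r × Mat r) ρ p0 = x := by
    funext i
    refine Fin.lastCases ?_ ?_ i
    · simp [hp0]
    · intro j; simp [hρ]
  have hcont : Continuous (fun q : (Fin g → Mat r × Mat r) × (Mat r × Mat r) =>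
      (Fin.snoc (α := fun _ => Mat r × Mat r) q.1 q.2 : Fin (g + 1) → Mat r × Mat r)) :=
    Continuous.finSnoc continuous_fst continuous_snd
  have hU' : {q : (Fin g → Mat r × Mat r) × (Mat r × Mat r) |
      (Fin.snoc (α := fun _ => Mat r × Mat r) q.1 q.2 : Fin (g + 1) → Mat r × Mat r) ∈ U ∧
        ∀ i, IsUnit ((Fin.snoc (α := fun _ => Mat r × Mat r) q.1 q.2 :
          Fin (g + 1) → Mat r × Mat r) i).1.det ∧
          IsUnit ((Fin.snoc (α := fun _ => Mat r × Mat r) q.1 q.2 :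
          Fin (g + 1) → Mat r × Mat r) i).2.det} ∈ 𝓝 (ρ, p0) := by
    have h1 : U ∩ {x : Fin (g + 1) → Mat r × Mat r |
        ∀ i, IsUnit (x i).1.det ∧ IsUnit (x i).2.det} ∈
        𝓝 (Fin.snoc (α := fun _ => Mat r × Mat r) ρ p0 : Fin (g + 1) → Mat r × Mat r) := by
      rw [hsn]
      exact Filter.inter_mem hU (isOpen_inv.mem_nhds hx)
    exact (hcont.continuousAt (x := (ρ, p0))).preimage_mem_nhds h1
  obtain ⟨V, hV, V', hV', hsub⟩ := mem_nhds_prod_iff.mp hU'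
  have key : ∀ W ∈ 𝓝 (1 : ℂ), ∀ᶠ p in 𝓝 p0, p ∈ V' ∧
      ∃ y ∈ V, ∃ c ∈ W, c • (kpA y * (cmA p * C)) = 1 := by
    intro W hW
    filter_upwards [os_absM_b C hCu ρ p0 hx1 hp1 hp2 (fun f h0 h => os_dualf ρ hx1 hz f h0 h) hk'
      V hV W hW, hV'] with p hp hpV
    exact ⟨hpV, hp⟩
  rcases Nat.eq_zero_or_pos r with hr | hr
  · subst hr
    filter_upwards [key Set.univ Filter.univ_mem] with p hp
    obtain ⟨hpV, y, hy, c, -, -⟩ := hp
    have hm := hsub (Set.mk_mem_prod hy hpV)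
    refine ⟨Fin.snoc (α := fun _ => Mat 0 × Mat 0) y p, hm.1, by simp, ?_⟩
    exact Subsingleton.elim _ _
  · obtain ⟨W, hW, hW1⟩ := roots_nhds r hr
    filter_upwards [key W hW] with p hp
    obtain ⟨hpV, y, hy, c, hc, hcy⟩ := hp
    have hm := hsub (Set.mk_mem_prod hy hpV)
    refine ⟨Fin.snoc (α := fun _ => Mat r × Mat r) y p, hm.1, by simp, ?_⟩
    have e1 : ∀ i : Fin g, IsUnit (y i).1.det ∧ IsUnit (y i).2.det := by
      intro i
      have := hm.2 i.castSucc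
      simpa using this
    have e2 : IsUnit p.1.det ∧ IsUnit p.2.det := by
      have := hm.2 (Fin.last g)
      simpa using this
    have e3 : c ^ r = 1 := by
      have := congrArg Matrix.det hcy
      rw [det_smul, det_mul, det_mul, hC, det_kpA y e1, det_cmA p e2.1 e2.2, det_one,
        Fintype.card_fin] at this
      simpa using this
    have e4 := hW1 c hc e3
    rw [e4, one_smul] at hcy
    rw [Kp_snoc_eq, mul_assoc]
    simpa using hcy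

end final

end Vale.Agent.P002
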