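import Vale.Agent.P002.BDefs
import Vale.Agent.P002.ParamConn

namespace Vale.Agent.P002

open Matrix Topology Filter

section path

variable {g r : ℕ}

noncomputable def qS (Y : ℂ → Mat r) (x0 x1 : Tup (g + 1) r) (s : ℂ) : Mat r :=
  sysMat (Y s) (pA x0 x1 s)

noncomputable def qV (Y : ℂ → Mat r) (x0 x1 : Tup (g + 1) r) (s : ℂ) : Fin r → ℂ :=
  (qS Y x0 x1 s)⁻¹ *ᵥ rhsVec (Y s) (pA x0 x1 s) (pD x0 x1 s)

noncomputable def qAA (Y : ℂ → Mat r) (x0 x1 : Tup (g + 1) r) (s : ℂ) : Mat r :=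
  pA x0 x1 s + vecMulVec (fun _ => 1) (qV Y x0 x1 s)

noncomputable def qK (Y : ℂ → Mat r) (x0 x1 : Tup (g + 1) r) (s : ℂ) : Mat r :=
  krylov (qAA Y x0 x1 s) (fun _ => 1)

noncomputable def qB (Y : ℂ → Mat r) (x0 x1 : Tup (g + 1) r) (s : ℂ) : Mat r :=
  krylov (Y s * qAA Y x0 x1 s) (pW x0 x1 s) * (qK Y x0 x1 s)⁻¹

noncomputable def qX (Y : ℂ → Mat r) (x0 x1 : Tup (g + 1) r) (s : ℂ) : Tup (g + 1) r :=
  Fin.snoc (α := fun _ => Mat r × Mat r) (pRho x0 x1 s) (qAA Y x0 x1 s, qB Y x0 x1 s)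

theorem qEnd (Y : ℂ → Mat r) (x0 x1 X : Tup (g + 1) r) (s : ℂ)
    (h1 : pRho x0 x1 s = fun i => X i.castSucc)
    (h2 : pA x0 x1 s = (X (Fin.last g)).1) (h3 : pD x0 x1 s = (X (Fin.last g)).1.det)
    (h4 : pW x0 x1 s = (X (Fin.last g)).2 *ᵥ fun _ => 1) (hX : Inv X)
    (hk2 : Y s * cm (X (Fin.last g)) = 1)
    (hg : Good (X (Fin.last g))) :
    (qS Y x0 x1 s).det ≠ 0 ∧ (qK Y x0 x1 s).det ≠ 0 ∧ qX Y x0 x1 s = X := by
  have hy : Y s = (cm (X (Fin.last g)))⁻¹ := (Matrix.inv_eq_left_inv hk2).symm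
  have hS : (qS Y x0 x1 s).det ≠ 0 := by
    rw [qS, hy, h2]; exact hg.1
  have ha := (hX (Fin.last g)).1
  have hb := (hX (Fin.last g)).2
  have hconj := conj_of_mul_cm _ (X (Fin.last g)).1 (X (Fin.last g)).2 hk2 ha hb
  have hch := charpoly_of_conj _ _ _ hconj hb
  have hV : qV Y x0 x1 s = 0 := by
    rw [qV]
    have : rhsVec (Y s) (pA x0 x1 s) (pD x0 x1 s) = 0 := by
      funext k
      rw [rhsVec, h2, h3, hch]
      by_cases hk0 : (k : ℕ) = 0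
      · simp [hk0]
      · simp [hk0]
    rw [this, mulVec_zero]
  have hAA : qAA Y x0 x1 s = (X (Fin.last g)).1 := by
    rw [qAA, hV, h2]
    ext i j
    simp
  have hK : (qK Y x0 x1 s).det ≠ 0 := by
    rw [qK, hAA]; exact hg.2
  refine ⟨hS, hK, ?_⟩
  have hB : qB Y x0 x1 s = (X (Fin.last g)).2 := by
    rw [qB, qK, hAA, h4]
    exact krylov_conj _ _ _ _ hconj (isUnit_iff_ne_zero.mpr hg.2)
  rw [qX, hAA, hB, h1]
  funext i
  refine Fin.lastCases ?_ ?_ i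
  · simp
  · intro j; simp

theorem qValid (hr : 0 < r) (Y : ℂ → Mat r) (x0 x1 : Tup (g + 1) r) (s : ℂ)
    (hy : (Y s).det = 1)
    (h2 : (qS Y x0 x1 s).det ≠ 0) (h3 : (qK Y x0 x1 s).det ≠ 0) (h4 : (qAA Y x0 x1 s).det ≠ 0)
    (h5 : (qB Y x0 x1 s).det ≠ 0) : Y s * cm (qX Y x0 x1 s (Fin.last g)) = 1 := by
  have hv : sysMat (Y s) (pA x0 x1 s) *ᵥ qV Y x0 x1 s =
      rhsVec (Y s) (pA x0 x1 s) (pD x0 x1 s) := by
    rw [qV, mulVec_mulVec]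
    have : sysMat (Y s) (pA x0 x1 s) * (qS Y x0 x1 s)⁻¹ = 1 :=
      Matrix.mul_nonsing_inv _ (isUnit_iff_ne_zero.mpr h2)
    rw [this, one_mulVec]
  obtain ⟨hch, -⟩ := solve_point _ _ _ _ hy hr hv
  have hi := krylov_intertwine (qAA Y x0 x1 s) (Y s * qAA Y x0 x1 s) (fun _ => 1)
    (pW x0 x1 s) (isUnit_iff_ne_zero.mpr h3) hch
  have hm := mul_cm_of_conj (Y s) (qAA Y x0 x1 s) (qB Y x0 x1 s) hi.symm
    (isUnit_iff_ne_zero.mpr h4) (isUnit_iff_ne_zero.mpr h5)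
  simpa [qX] using hm

variable {𝓑 : Subalgebra ℂ (ℂ → ℂ)} {P : (ℂ → ℂ) → Prop}

theorem qEnt (hP : ∀ h ∈ 𝓑, P h → (fun s => (h s)⁻¹) ∈ 𝓑) (hid : (fun s : ℂ => s) ∈ 𝓑)
    (Y : ℂ → Mat r) (e3 : Ent 𝓑 Y)
    (x0 x1 : Tup (g + 1) r) (h3 : P (fun s => (qS Y x0 x1 s).det))
    (h4 : P (fun s => (qK Y x0 x1 s).det)) :
    LEnt 𝓑 (qX Y x0 x1) ∧ Ent 𝓑 (qS Y x0 x1) ∧ Ent 𝓑 (qK Y x0 x1) ∧ Ent 𝓑 (qAA Y x0 x1) ∧
      Ent 𝓑 (qB Y x0 x1) := by
  have hid' : (fun s : ℂ => 1 - s) ∈ 𝓑 := mem_sub (mem_const 1) hid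
  have e1 : ∀ i, Ent 𝓑 (fun s => (pRho x0 x1 s i).1) := fun i =>
    (Ent.smul hid' (Ent.const _)).add (Ent.smul hid (Ent.const _))
  have e2 : ∀ i, Ent 𝓑 (fun s => (pRho x0 x1 s i).2) := fun i =>
    (Ent.smul hid' (Ent.const _)).add (Ent.smul hid (Ent.const _))
  have e4 : Ent 𝓑 (pA x0 x1) :=
    (Ent.smul hid' (Ent.const _)).add (Ent.smul hid (Ent.const _))
  have e5 : pD x0 x1 ∈ 𝓑 :=
    mem_add (mem_mul hid' (mem_const _)) (mem_mul hid (mem_const _))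
  have e6 : Ent 𝓑 (qS Y x0 x1) := Ent.sysMat e3 e4
  have e7 : VEnt 𝓑 (qV Y x0 x1) := Ent.mulVec (e6.inv hP h3) (VEnt.rhsVec e3 e4 e5)
  have e8 : Ent 𝓑 (qAA Y x0 x1) := e4.add (Ent.vecMulVec (VEnt.const _) e7)
  have e9 : VEnt 𝓑 (pW x0 x1) :=
    (VEnt.smul hid' (VEnt.const _)).add (VEnt.smul hid (VEnt.const _))
  have e10 : Ent 𝓑 (qK Y x0 x1) := Ent.krylov e8 (VEnt.const _)
  have e11 : Ent 𝓑 (qB Y x0 x1) := (Ent.krylov (e3.mul e8) e9).mul (e10.inv hP h4)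
  refine ⟨?_, e6, e10, e8, e11⟩
  refine lEnt_pi fun i => ?_
  refine Fin.lastCases ?_ ?_ i
  · have : (fun s => qX Y x0 x1 s (Fin.last g)) = fun s => (qAA Y x0 x1 s, qB Y x0 x1 s) := by
      funext s; simp [qX]
    rw [this]
    exact lEnt_prodMk (lEnt_of_ent e8) (lEnt_of_ent e11)
  · intro j
    have : (fun s => qX Y x0 x1 s j.castSucc) =
        fun s => ((pRho x0 x1 s j).1, (pRho x0 x1 s j).2) := by
      funext s; simp [qX]
    rw [this]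
    exact lEnt_prodMk (lEnt_of_ent (e1 j)) (lEnt_of_ent (e2 j))

end path

section bd

variable {g n r : ℕ}

noncomputable def hPath (h0 h1 : Fin n → Mat r) (s : ℂ) : Fin n → Mat r := fun j =>
  (1 - s) • h0 j + s • h1 j

noncomputable def qY (J h0 h1 : Fin n → Mat r) (x0 x1 : Tup (g + 1) r) (s : ℂ) : Mat r :=
  (List.ofFn (bc J (hPath h0 h1 s))).prod * Kp (pRho x0 x1 s)

theorem ent_prod {𝓑 : Subalgebra ℂ (ℂ → ℂ)} {n : ℕ} {c : ℂ → Fin n → Mat r}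
    (h : ∀ j, Ent 𝓑 (fun s => c s j)) : Ent 𝓑 (fun s => (List.ofFn (c s)).prod) := by
  induction n with
  | zero =>
    have : (fun s => (List.ofFn (c s)).prod) = fun _ => (1 : Mat r) := by
      funext s; simp
    rw [this]
    exact Ent.const _
  | succ n ih =>
    have : (fun s => (List.ofFn (c s)).prod) =
        fun s => c s 0 * (List.ofFn (fun i : Fin n => c s i.succ)).prod := by
      funext s
      rw [List.ofFn_succ, List.prod_cons]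
    rw [this]
    exact (h 0).mul (ih fun j => h j.succ)

theorem ent_hPath {𝓑 : Subalgebra ℂ (ℂ → ℂ)} (hid : (fun s : ℂ => s) ∈ 𝓑)
    (h0 h1 : Fin n → Mat r) (j : Fin n) : Ent 𝓑 (fun s => hPath h0 h1 s j) :=
  (Ent.smul (mem_sub (mem_const 1) hid) (Ent.const _)).add (Ent.smul hid (Ent.const _))

theorem ent_bc {𝓑 : Subalgebra ℂ (ℂ → ℂ)} {P : (ℂ → ℂ) → Prop}
    (hP : ∀ h ∈ 𝓑, P h → (fun s => (h s)⁻¹) ∈ 𝓑) (hid : (fun s : ℂ => s) ∈ 𝓑)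
    (J h0 h1 : Fin n → Mat r) (hd : ∀ j, P (fun s => (hPath h0 h1 s j).det)) (j : Fin n) :
    Ent 𝓑 (fun s => bc J (hPath h0 h1 s) j) := by
  have e := ent_hPath hid h0 h1 j
  exact (e.mul (Ent.const _)).mul (e.inv hP (hd j))

theorem ent_qY {𝓑 : Subalgebra ℂ (ℂ → ℂ)} {P : (ℂ → ℂ) → Prop}
    (hP : ∀ h ∈ 𝓑, P h → (fun s => (h s)⁻¹) ∈ 𝓑) (hid : (fun s : ℂ => s) ∈ 𝓑)
    (J h0 h1 : Fin n → Mat r) (x0 x1 : Tup (g + 1) r)
    (hd : ∀ j, P (fun s => (hPath h0 h1 s j).det))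
    (p1 : ∀ i, P (fun s => (pRho x0 x1 s i).1.det))
    (p2 : ∀ i, P (fun s => (pRho x0 x1 s i).2.det)) :
    Ent 𝓑 (qY J h0 h1 x0 x1) := by
  have hid' : (fun s : ℂ => 1 - s) ∈ 𝓑 := mem_sub (mem_const 1) hid
  have e1 : ∀ i, Ent 𝓑 (fun s => (pRho x0 x1 s i).1) := fun i =>
    (Ent.smul hid' (Ent.const _)).add (Ent.smul hid (Ent.const _))
  have e2 : ∀ i, Ent 𝓑 (fun s => (pRho x0 x1 s i).2) := fun i =>
    (Ent.smul hid' (Ent.const _)).add (Ent.smul hid (Ent.const _))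
  exact (ent_prod fun j => ent_bc hP hid J h0 h1 hd j).mul (ent_Kp hP e1 e2 p1 p2)

theorem det_bc_prod {n : ℕ} (J h : Fin n → Mat r) (hJ : ∀ j, (J j).det = 1)
    (hh : ∀ j, (h j).det ≠ 0) : ((List.ofFn (bc J h)).prod).det = 1 := by
  induction n with
  | zero => simp
  | succ n ih =>
    rw [List.ofFn_succ, List.prod_cons, det_mul]
    have h1 : (bc J h 0).det = 1 := by
      rw [bc, det_mul, det_mul, hJ, mul_one, ← det_mul,
        Matrix.mul_nonsing_inv _ (isUnit_iff_ne_zero.mpr (hh 0)), det_one]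
    rw [h1, one_mul]
    exact ih (fun j => J j.succ) (fun j => h j.succ) (fun j => hJ _) (fun j => hh _)

theorem qY_rel {J h : Fin n → Mat r} {x : Tup (g + 1) r}
    (k : Kb (x, bc J h) = 1) :
    (List.ofFn (bc J h)).prod * Kp (fun i : Fin g => x i.castSucc) * cm (x (Fin.last g)) = 1 := by
  rw [Kb] at k
  rw [Matrix.mul_assoc, ← Kp_last]
  exact mul_eq_one_comm.mp k

theorem qY_rel' {J h : Fin n → Mat r} {x : Tup (g + 1) r}
    (k : (List.ofFn (bc J h)).prod * Kp (fun i : Fin g => x i.castSucc) *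
      cm (x (Fin.last g)) = 1) : Kb (x, bc J h) = 1 := by
  rw [Kb]
  rw [Matrix.mul_assoc, ← Kp_last] at k
  exact mul_eq_one_comm.mp k

theorem param_conn_b (J : Fin n → Mat r) (hJ : ∀ j, (J j).det = 1)
    (x0 x1 : Tup (g + 1) r) (h0 h1 : Fin n → Mat r) (i0 : Inv x0) (i1 : Inv x1)
    (u0 : ∀ j, IsUnit (h0 j).det) (u1 : ∀ j, IsUnit (h1 j).det)
    (k0 : Kb (x0, bc J h0) = 1) (k1 : Kb (x1, bc J h1) = 1)
    (m0 : Good (x0 (Fin.last g))) (m1 : Good (x1 (Fin.last g)))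
    (f : BTup (g + 1) n r → ℂ) (hf : f ∈ PolyFun (BTup (g + 1) n r))
    (hv : ∀ᶠ z in 𝓝 (x0, h0), Kb (z.1, bc J z.2) = 1 → f (z.1, bc J z.2) = 0) :
    f (x1, bc J h1) = 0 := by
  rcases Nat.eq_zero_or_pos r with hr | hr
  · subst hr
    have : (x1, bc J h1) = (x0, bc J h0) := Subsingleton.elim _ _
    rw [this]
    exact hv.self_of_nhds k0
  have z0 : hPath h0 h1 0 = h0 := by funext j; simp [hPath]
  have z1 : hPath h0 h1 1 = h1 := by funext j; simp [hPath]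
  have r0 : pRho x0 x1 0 = fun i => x0 i.castSucc := by funext i; simp [pRho]
  have r1 : pRho x0 x1 1 = fun i => x1 i.castSucc := by funext i; simp [pRho]
  have hY0 : qY J h0 h1 x0 x1 0 * cm (x0 (Fin.last g)) = 1 := by
    rw [qY, z0, r0]; exact qY_rel k0
  have hY1 : qY J h0 h1 x0 x1 1 * cm (x1 (Fin.last g)) = 1 := by
    rw [qY, z1, r1]; exact qY_rel k1
  obtain ⟨a1, a2, a3⟩ := qEnd (qY J h0 h1 x0 x1) x0 x1 x0 0 r0 (by simp [pA]) (by simp [pD])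
    (by simp [pW]) i0 hY0 m0
  obtain ⟨b1, b2, b3⟩ := qEnd (qY J h0 h1 x0 x1) x0 x1 x1 1 r1 (by simp [pA]) (by simp [pD])
    (by simp [pW]) i1 hY1 m1
  have hP0 : ∀ s0 : ℂ, ∀ h ∈ contSub s0, (fun h : ℂ → ℂ => h s0 ≠ 0) h →
      (fun s => (h s)⁻¹) ∈ contSub s0 := fun s0 h hh h1 => ContinuousAt.inv₀ hh h1
  have hid0 : ∀ s0 : ℂ, (fun s : ℂ => s) ∈ contSub s0 := fun s0 => continuousAt_id
  have p01 : ∀ i, (pRho x0 x1 0 i).1.det ≠ 0 := fun i => by rw [r0]; exact (i0 _).1.ne_zero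
  have p02 : ∀ i, (pRho x0 x1 0 i).2.det ≠ 0 := fun i => by rw [r0]; exact (i0 _).2.ne_zero
  have p11 : ∀ i, (pRho x0 x1 1 i).1.det ≠ 0 := fun i => by rw [r1]; exact (i1 _).1.ne_zero
  have p12 : ∀ i, (pRho x0 x1 1 i).2.det ≠ 0 := fun i => by rw [r1]; exact (i1 _).2.ne_zero
  have q0 : ∀ j, (hPath h0 h1 0 j).det ≠ 0 := fun j => by rw [z0]; exact (u0 j).ne_zero
  have q1 : ∀ j, (hPath h0 h1 1 j).det ≠ 0 := fun j => by rw [z1]; exact (u1 j).ne_zero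
  have Y0 : Ent (contSub 0) (qY J h0 h1 x0 x1) :=
    ent_qY (P := fun h : ℂ → ℂ => h 0 ≠ 0) (hP0 0) (hid0 0) J h0 h1 x0 x1 q0 p01 p02
  have Y1 : Ent (contSub 1) (qY J h0 h1 x0 x1) :=
    ent_qY (P := fun h : ℂ → ℂ => h 1 ≠ 0) (hP0 1) (hid0 1) J h0 h1 x0 x1 q1 p11 p12
  have YM : Ent merSub (qY J h0 h1 x0 x1) :=
    ent_qY (𝓑 := merSub) (P := fun _ => True) (fun h hh _ s => (hh s).inv)
      (fun s => MeromorphicAt.id s) J h0 h1 x0 x1 (fun _ => trivial) (fun _ => trivial) (fun _ => trivial)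
  have A := qEnt (P := fun h : ℂ → ℂ => h 0 ≠ 0) (hP0 0) (hid0 0) _ Y0 x0 x1 a1 a2
  have B := qEnt (P := fun h : ℂ → ℂ => h 1 ≠ 0) (hP0 1) (hid0 1) _ Y1 x0 x1 b1 b2
  have M := qEnt (𝓑 := merSub) (P := fun _ => True) (fun h hh _ s => (hh s).inv)
    (fun s => MeromorphicAt.id s) _ YM x0 x1 trivial trivial
  obtain ⟨A1, A2, A3, A4, A5⟩ := A
  have bcM : LEnt merSub (fun s => bc J (hPath h0 h1 s)) := lEnt_pi fun j => lEnt_of_ent
    (ent_bc (𝓑 := merSub) (P := fun _ => True) (fun h hh _ s => (hh s).inv)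
      (fun s => MeromorphicAt.id s) J h0 h1 (fun _ => trivial) j)
  have bcB : LEnt (contSub 1) (fun s => bc J (hPath h0 h1 s)) := lEnt_pi fun j => lEnt_of_ent
    (ent_bc (P := fun h : ℂ → ℂ => h 1 ≠ 0) (hP0 1) (hid0 1) J h0 h1 q1 j)
  have cX0 : ContinuousAt (qX (qY J h0 h1 x0 x1) x0 x1) 0 := cont_of_lEnt A1
  have cH0 : ContinuousAt (hPath h0 h1) 0 := by
    refine continuousAt_pi.2 fun j => continuousAt_pi.2 fun a => continuousAt_pi.2 fun b => ?_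
    exact ent_hPath (hid0 0) h0 h1 j a b
  have dAA : (qAA (qY J h0 h1 x0 x1) x0 x1 0).det ≠ 0 := by
    have : qAA (qY J h0 h1 x0 x1) x0 x1 0 =
        (qX (qY J h0 h1 x0 x1) x0 x1 0 (Fin.last g)).1 := by simp [qX]
    rw [this, a3]
    exact (i0 _).1.ne_zero
  have dB : (qB (qY J h0 h1 x0 x1) x0 x1 0).det ≠ 0 := by
    have : qB (qY J h0 h1 x0 x1) x0 x1 0 =
        (qX (qY J h0 h1 x0 x1) x0 x1 0 (Fin.last g)).2 := by simp [qX]
    rw [this, a3]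
    exact (i0 _).2.ne_zero
  have hid0' : (fun s : ℂ => 1 - s) ∈ contSub 0 := mem_sub (mem_const 1) (hid0 0)
  have A6 : ∀ i, Ent (contSub 0) (fun s => (pRho x0 x1 s i).1) := fun i =>
    (Ent.smul hid0' (Ent.const _)).add (Ent.smul (hid0 0) (Ent.const _))
  have A7 : ∀ i, Ent (contSub 0) (fun s => (pRho x0 x1 s i).2) := fun i =>
    (Ent.smul hid0' (Ent.const _)).add (Ent.smul (hid0 0) (Ent.const _))
  have ev1 : ∀ᶠ s in 𝓝 (0 : ℂ), ∀ i, (pRho x0 x1 s i).1.det ≠ 0 ∧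
      (pRho x0 x1 s i).2.det ≠ 0 := by
    rw [eventually_all]
    intro i
    have c1 : ContinuousAt (fun s => (pRho x0 x1 s i).1.det) 0 := (A6 i).det
    have c2 : ContinuousAt (fun s => (pRho x0 x1 s i).2.det) 0 := (A7 i).det
    exact (c1.eventually_ne (p01 i)).and (c2.eventually_ne (p02 i))
  have ev2 : ∀ᶠ s in 𝓝 (0 : ℂ), ∀ j, (hPath h0 h1 s j).det ≠ 0 := by
    rw [eventually_all]
    intro j
    have c1 : ContinuousAt (fun s => (hPath h0 h1 s j).det) 0 := (ent_hPath (hid0 0) h0 h1 j).det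
    exact c1.eventually_ne (q0 j)
  have c3 : ContinuousAt (fun s => (qS (qY J h0 h1 x0 x1) x0 x1 s).det) 0 := A2.det
  have c4 : ContinuousAt (fun s => (qK (qY J h0 h1 x0 x1) x0 x1 s).det) 0 := A3.det
  have c5 : ContinuousAt (fun s => (qAA (qY J h0 h1 x0 x1) x0 x1 s).det) 0 := A4.det
  have c6 : ContinuousAt (fun s => (qB (qY J h0 h1 x0 x1) x0 x1 s).det) 0 := A5.det
  have evF : ∀ᶠ s in 𝓝 (0 : ℂ),
      f (qX (qY J h0 h1 x0 x1) x0 x1 s, bc J (hPath h0 h1 s)) = 0 := by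
    have hv' : ∀ᶠ s in 𝓝 (0 : ℂ),
        Kb (qX (qY J h0 h1 x0 x1) x0 x1 s, bc J (hPath h0 h1 s)) = 1 →
          f (qX (qY J h0 h1 x0 x1) x0 x1 s, bc J (hPath h0 h1 s)) = 0 := by
      have ht : Tendsto (fun s => (qX (qY J h0 h1 x0 x1) x0 x1 s, hPath h0 h1 s)) (𝓝 0)
          (𝓝 (x0, h0)) := by
        have := (cX0.prodMk cH0).tendsto
        rwa [a3, z0] at this
      exact ht.eventually hv
    filter_upwards [ev1, ev2, c3.eventually_ne a1, c4.eventually_ne a2, c5.eventually_ne dAA,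
      c6.eventually_ne dB, hv'] with s e1 e2 e3 e4 e5 e6 e7
    apply e7
    apply qY_rel'
    have hdet : (qY J h0 h1 x0 x1 s).det = 1 := by
      rw [qY, det_mul, det_bc_prod J _ hJ e2, one_mul]
      exact det_Kp _ (fun i => ⟨isUnit_iff_ne_zero.mpr (e1 i).1,
        isUnit_iff_ne_zero.mpr (e1 i).2⟩)
    have h := qValid hr (qY J h0 h1 x0 x1) x0 x1 s hdet e3 e4 e5 e6
    have hrho : (fun i : Fin g => qX (qY J h0 h1 x0 x1) x0 x1 s i.castSucc) = pRho x0 x1 s := by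
      funext i; simp [qX]
    rw [hrho]
    exact h
  have mF : ∀ s, MeromorphicAt
      (fun s => f (qX (qY J h0 h1 x0 x1) x0 x1 s, bc J (hPath h0 h1 s))) s :=
    polyFun_lEnt hf (lEnt_prodMk M.1 bcM)
  have mF' : MeromorphicOn
      (fun s => f (qX (qY J h0 h1 x0 x1) x0 x1 s, bc J (hPath h0 h1 s))) Set.univ :=
    fun s _ => mF s
  have o0 : meromorphicOrderAt
      (fun s => f (qX (qY J h0 h1 x0 x1) x0 x1 s, bc J (hPath h0 h1 s))) 0 = ⊤ := by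
    rw [meromorphicOrderAt_eq_top_iff]
    exact evF.filter_mono nhdsWithin_le_nhds
  have o1 : meromorphicOrderAt
      (fun s => f (qX (qY J h0 h1 x0 x1) x0 x1 s, bc J (hPath h0 h1 s))) 1 = ⊤ := by
    by_contra hne
    exact mF'.meromorphicOrderAt_ne_top_of_isPreconnected isPreconnected_univ
      (Set.mem_univ 1) (Set.mem_univ 0) hne o0
  rw [meromorphicOrderAt_eq_top_iff] at o1
  have cF : ContinuousAt
      (fun s => f (qX (qY J h0 h1 x0 x1) x0 x1 s, bc J (hPath h0 h1 s))) 1 :=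
    polyFun_lEnt hf (lEnt_prodMk B.1 bcB)
  have t1 := cF.tendsto.mono_left (nhdsWithin_le_nhds (s := {(1 : ℂ)}ᶜ))
  have t2 : Tendsto (fun s => f (qX (qY J h0 h1 x0 x1) x0 x1 s, bc J (hPath h0 h1 s)))
      (𝓝[≠] 1) (𝓝 0) :=
    tendsto_const_nhds.congr' (by filter_upwards [o1] with s hs; exact hs.symm)
  have := tendsto_nhds_unique t1 t2
  beta_reduce at this
  rwa [b3, z1] at this

end bd

end Vale.Agent.P002
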