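import Vale.Agent.P002.BBase
import Vale.Agent.P002.GoodBase
import Vale.Agent.P002.GoodDense
import Vale.Agent.P002.BParam
import Vale.Agent.P002.BOpen
import Vale.Agent.P002.BGeneric
import Vale.Agent.P002.BConeToSL
import Vale.Agent.P002.Assemble

namespace Vale.Agent.P002

open Matrix NumberField Topology Filter

section cls
variable {L : Type*} [Field L] [NumberField L] (φ : L →+* ℂ) {g n r : ℕ}

theorem Cls_symm {c J : Mat r} (h : c ∈ Cls J) : J ∈ Cls c := by
  obtain ⟨h, hh, rfl⟩ := h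
  refine ⟨h⁻¹, by rw [Matrix.det_nonsing_inv]; exact hh.ringInverse, ?_⟩
  rw [Matrix.nonsing_inv_nonsing_inv _ hh]
  calc J = (h⁻¹ * h) * J * (h⁻¹ * h) := by rw [Matrix.nonsing_inv_mul _ hh, one_mul, mul_one]
    _ = _ := by simp only [Matrix.mul_assoc]

theorem Cls_trans {c J K : Mat r} (h1 : c ∈ Cls J) (h2 : J ∈ Cls K) : c ∈ Cls K := by
  obtain ⟨h, hh, rfl⟩ := h1
  exact Cls_conj h2 hh

theorem Cls_eq {c J : Mat r} (h : c ∈ Cls J) : Cls c = Cls J := by
  ext x
  exact ⟨fun hx => Cls_trans hx h, fun hx => Cls_trans hx (Cls_symm h)⟩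

theorem ConeB_congr {J J' : Fin n → Mat r} (h : ∀ j, Cls (J j) = Cls (J' j)) :
    ConeB φ g J = ConeB φ g J' := by
  unfold ConeB
  simp only [h]

theorem WWB_congr {J J' : Fin n → Mat r} (h : ∀ j, Cls (J j) = Cls (J' j)) :
    WWB φ g J = WWB φ g J' := by
  unfold WWB
  rw [ConeB_congr φ h]

end cls

section near
variable {g n r : ℕ} [NeZero r]

theorem good_curve (p : ℂ → Mat r × Mat r) (h1 : Ent (contSub 0) (fun s => (p s).1))
    (h2 : Ent (contSub 0) (fun s => (p s).2)) (u1 : IsUnit (p 0).1.det) (u2 : IsUnit (p 0).2.det)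
    (hg : Good (p 0)) : ∀ᶠ s in 𝓝 0, Good (p s) := by
  have hP : ∀ h ∈ contSub 0, h 0 ≠ 0 → (fun s => (h s)⁻¹) ∈ contSub 0 :=
    fun h hh h1 => ContinuousAt.inv₀ hh h1
  have e3 := ent_cm (P := fun h => h 0 ≠ 0) hP h1 h2 u1.ne_zero u2.ne_zero
  have hF : ContinuousAt (fun t => (sysMat (cm (p t))⁻¹ (p t).1).det *
        (krylov (p t).1 (fun _ => 1)).det) 0 :=
    mem_mul (Ent.sysMat (e3.inv (P := fun h => h 0 ≠ 0) hP (by
      beta_reduce; rw [cm_eq, det_cmA _ u1 u2]; exact one_ne_zero)) h1).det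
      (Ent.krylov h1 (VEnt.const _)).det
  have hF0 := hF.eventually_ne (mul_ne_zero hg.1 hg.2)
  filter_upwards [hF0] with s hs
  exact ⟨left_ne_zero_of_mul hs, right_ne_zero_of_mul hs⟩

theorem tri_unip_zero {V : Mat r} (hVd : ∀ i, V i i = 1) : tri V 0 = 1 := by
  rw [tri_at_zero]
  simp only [hVd]
  exact Matrix.diagonal_one

theorem cpt_zero (α : Fin (g + 1) → Fin r → ℂ) {V : Mat r} (hVd : ∀ i, V i i = 1)
    (J : Fin n → Mat r) : cpt α V J 0 = (basePt α, fun j => mono 0 (fun i => J j i i)) := by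
  unfold cpt
  refine Prod.ext ?_ ?_
  · funext i
    refine Fin.lastCases ?_ (fun i => ?_) i
    · simp only [Function.update_self, tri_unip_zero hVd, one_mul]
      rfl
    · simp only [Function.update_of_ne (Fin.castSucc_lt_last i).ne]
  · funext j
    simp only [tri_at_zero, mono_zero]

theorem cpt_continuous (α : Fin (g + 1) → Fin r → ℂ) (V : Mat r) (J : Fin n → Mat r) :
    Continuous (cpt α V J) := by
  unfold cpt
  refine Continuous.prodMk ?_ (continuous_pi fun j => continuous_tri _)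
  exact Continuous.update continuous_const _
    (continuous_const.prodMk ((continuous_tri V).mul continuous_const))

theorem near_curve {α : Fin (g + 1) → Fin r → ℂ} (hα : ∀ i, BaseCond (α i))
    (hl : ∀ (k : ℕ) (hk : k + 1 < g + 1), Linked (α ⟨k, by omega⟩) (α ⟨k + 1, hk⟩))
    {J : Fin n → Mat r} (hJ : ∀ j a b, b < a → J j a b = 0) (hJd : ∀ j, IsUnit (J j).det)
    (hinj : ∀ j, Function.Injective fun i => (α (Fin.last g) (i + 1))⁻¹ * J j i i)
    {V : Mat r} (hVd : ∀ i, V i i = 1)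
    (hK : ∀ s, Kb (cpt α V J s) = 1) {W : Set (BTup (g + 1) n r)} (hW : MoveClosedB W)
    (hs : ∀ s, cpt α V J s ∈ W) :
    ∀ᶠ s in 𝓝 (0 : ℂ), ∀ᶠ z in 𝓝 (((cpt α V J s).1, fun _ => 1) : BTup (g + 1) n r),
      Kb (z.1, bc (fun j => tri (J j) s) z.2) = 1 → (z.1, bc (fun j => tri (J j) s) z.2) ∈ W := by
  have hd : ∀ j i, J j i i ≠ 0 := by
    intro j i h
    have h1 := (hJd j).ne_zero
    rw [det_upper _ (hJ j)] at h1
    exact h1 (Finset.prod_eq_zero (Finset.mem_univ i) h)
  have h := local_trans (n := n) hα hl (d := fun j i => J j i i) hd hinj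
  rw [nhds_prod_eq] at h
  obtain ⟨N1, hN1, N2, hN2, hNN⟩ := Filter.mem_prod_iff.mp h
  have hc1 : Tendsto (fun s => (((cpt α V J s).1, fun _ => 1) : BTup (g + 1) n r)) (𝓝 0)
      (𝓝 ((basePt α, fun _ => 1) : BTup (g + 1) n r)) := by
    have hcont : Continuous (fun s => (((cpt α V J s).1, fun _ => 1) : BTup (g + 1) n r)) :=
      (continuous_fst.comp (cpt_continuous α V J)).prodMk continuous_const
    have := hcont.tendsto 0
    rw [cpt_zero α hVd J] at this
    exact this
  have hc2 : Tendsto (fun s => (((((cpt α V J s).1, fun _ => 1) : BTup (g + 1) n r),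
      (cpt α V J s).2) : BTup (g + 1) n r × (Fin n → Mat r))) (𝓝 0)
      (𝓝 (((basePt α, fun _ => 1) : BTup (g + 1) n r), (fun j => (mono 0 (fun i => J j i i) : Mat r)))) := by
    have hcont : Continuous (fun s => (((((cpt α V J s).1, fun _ => 1) : BTup (g + 1) n r),
      (cpt α V J s).2) : BTup (g + 1) n r × (Fin n → Mat r))) :=
      ((continuous_fst.comp (cpt_continuous α V J)).prodMk continuous_const).prodMk
        (continuous_snd.comp (cpt_continuous α V J))
    have := hcont.tendsto 0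
    rw [cpt_zero α hVd J] at this
    exact this
  have e1 : ∀ᶠ y in 𝓝 ((basePt α, fun _ => 1) : BTup (g + 1) n r), N1 ∈ 𝓝 y :=
    eventually_mem_nhds_iff.mpr hN1
  filter_upwards [hc1.eventually e1, hc2.eventually hN2] with s hs1 hs2
  filter_upwards [hs1] with z hz hKz
  have h2 := hNN (show (z, ((((cpt α V J s).1, fun _ => 1) : BTup (g + 1) n r),
      (cpt α V J s).2)) ∈ N1 ×ˢ N2 from ⟨hz, hs2⟩)
  have hbc : bc (fun j => tri (J j) s) (fun _ => 1) = (cpt α V J s).2 := bc_one _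
  refine h2 ?_ ?_ W hW ?_
  · show Kb (z.1, bc (fun j => tri (J j) s) z.2) =
      Kb ((cpt α V J s).1, bc (fun j => tri (J j) s) (fun _ => 1))
    rw [hKz, hbc]
    exact (hK s).symm
  · intro j
    show IsUnit (bc (fun j => tri (J j) s) (fun _ => 1) j)
    rw [hbc]
    refine (Matrix.isUnit_iff_isUnit_det _).mpr ?_
    show IsUnit (tri (J j) s).det
    rw [det_tri_eq _ (hJ j)]
    exact hJd j
  · show ((cpt α V J s).1, bc (fun j => tri (J j) s) (fun _ => 1)) ∈ W
    rw [hbc]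
    exact hs s

end near

end Vale.Agent.P002
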