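import Vale.Agent.P002.BCover

namespace Vale.Agent.P002

open Matrix Topology Filter
open scoped Matrix.Norms.L2Operator

section alg
variable {r : ℕ}

theorem gram_inv_ne_zero {A : Mat r} (h : gram A ≠ 0) (hA : IsUnit A.det) : gram A⁻¹ ≠ 0 := by
  obtain ⟨P, lam, hP, hl, hd⟩ := exists_diag_of_gram_ne_zero A h
  have hdet : A.det = ∏ i, lam i := by
    rw [hd, Matrix.det_mul, Matrix.det_mul, Matrix.det_nonsing_inv, Matrix.det_diagonal,
      mul_comm, ← mul_assoc, Ring.inverse_mul_cancel _ hP, one_mul]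
  have hl0 : ∀ i, lam i ≠ 0 := by
    intro i hi
    apply hA.ne_zero
    rw [hdet]
    exact Finset.prod_eq_zero (Finset.mem_univ i) hi
  have hinv : A⁻¹ = P * diagonal (fun i => (lam i)⁻¹) * P⁻¹ := by
    apply Matrix.inv_eq_right_inv
    rw [hd]
    calc P * diagonal lam * P⁻¹ * (P * diagonal (fun i => (lam i)⁻¹) * P⁻¹)
        = P * diagonal lam * (P⁻¹ * P) * diagonal (fun i => (lam i)⁻¹) * P⁻¹ := by
          simp only [Matrix.mul_assoc]
      _ = P * (diagonal lam * diagonal (fun i => (lam i)⁻¹)) * P⁻¹ := by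
          rw [Matrix.nonsing_inv_mul _ hP]; simp only [Matrix.mul_assoc, Matrix.one_mul]
      _ = 1 := by
          rw [Matrix.diagonal_mul_diagonal]
          have : (fun i => lam i * (lam i)⁻¹) = fun _ => (1 : ℂ) := by
            funext i; exact mul_inv_cancel₀ (hl0 i)
          rw [this, Matrix.diagonal_one, Matrix.mul_one, Matrix.mul_nonsing_inv _ hP]
  rw [hinv]
  exact gram_ne_zero_of_diag P _ hP (fun i j hij => hl (inv_injective hij))

variable [NeZero r]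

/-- the base state -/
noncomputable def st0 (α U0 J0 : Fin r → ℂ) : St (Mat r) :=
  ((mono 0 α, mono 1 1), (1, (mono 0 U0, mono 0 J0)))

theorem us_st0 {α U0 J0 : Fin r → ℂ} (hα : ∀ i, α i ≠ 0) (hU : ∀ i, U0 i ≠ 0) :
    US (st0 α U0 J0) := ⟨up_base hα, isUnit_one, mono_isUnit' 0 U0 hU⟩

theorem bX_st0 {α U0 J0 : Fin r → ℂ} (hU : ∀ i, U0 i ≠ 0) : bX (st0 α U0 J0) = mono 0 J0 := by
  simp only [bX, st0, one_mul, Ring.inverse_one, mul_one, ringInverse_mono 0 U0 hU, mono_mul]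
  have hk : (0 : Fin r) + 0 + -0 = 0 := by simp
  rw [hk]
  congr 1
  funext i
  simp only [add_zero, sub_zero]
  have := hU i
  field_simp

theorem e5_st0 {α U0 J0 : Fin r → ℂ} (hα : ∀ i, α i ≠ 0) (hU : ∀ i, U0 i ≠ 0) :
    e5 (st0 α U0 J0) = mono 0 (fun i => (α (i + 1))⁻¹ * J0 i) := by
  have h1' : ∀ i : Fin r, (1 : Fin r → ℂ) i ≠ 0 := fun i => one_ne_zero
  rw [e5, bX_st0 hU]
  simp only [st0, ringInverse_mono 0 α hα, ringInverse_mono 1 1 h1', mono_mul]
  have hk : (1 : Fin r) + -0 + -1 + 0 = 0 := by simp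
  rw [hk]
  congr 1
  funext i
  simp

theorem e6_st0 {α U0 J0 : Fin r → ℂ} (hα : ∀ i, α i ≠ 0) (hU : ∀ i, U0 i ≠ 0) (m : ℕ) :
    e6 m (st0 α U0 J0) = mono (-1) (fun i => (α i ^ m)⁻¹ * J0 (i - 1)) := by
  rw [e6, bX_st0 hU]
  have h1 : (st0 α U0 J0).1.2 * (st0 α U0 J0).1.1 ^ m = mono 1 (fun i => α (i + 1) ^ m) :=
    e1_base α m
  rw [h1, ringInverse_mono 1 _ (fun i => pow_ne_zero _ (hα _)), mono_mul]
  have hk : -(1 : Fin r) + 0 = -1 := by simp
  rw [hk]
  congr 1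
  funext i
  simp [sub_eq_add_neg]

theorem gram_e6_st0 {α U0 J0 : Fin r → ℂ} (hα : ∀ i, α i ≠ 0) (hU : ∀ i, U0 i ≠ 0)
    (hJ : ∀ i, J0 i ≠ 0) (m : ℕ) : gram (e6 m (st0 α U0 J0)) ≠ 0 := by
  rw [e6_st0 hα hU]
  set d : Fin r → ℂ := fun i => (α i ^ m)⁻¹ * J0 (i - 1) with hd
  have hd0 : ∀ i, d i ≠ 0 := fun i => mul_ne_zero (inv_ne_zero (pow_ne_zero _ (hα _))) (hJ _)
  have h1 : mono (-1) d = (mono 1 (fun i => (d (i + 1))⁻¹))⁻¹ := by
    rw [mono_inv 1 _ (fun i => inv_ne_zero (hd0 _))]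
    congr 1
    funext i
    simp
  rw [h1]
  exact gram_inv_ne_zero (gram_mono_one_ne_zero _ fun i => inv_ne_zero (hd0 _))
    (mono_isUnit 1 _ fun i => inv_ne_zero (hd0 _))

theorem win_reflect (α : Fin r → ℂ) (k : ℕ) (i : Fin r) :
    ∏ l ∈ Finset.range k, α (i + l • (-1)) = win α k (i - k • 1) := by
  unfold win
  rw [← Finset.prod_range_reflect]
  refine Finset.prod_congr rfl fun l hl => ?_
  have hl' := Finset.mem_range.mp hl
  congr 1
  obtain ⟨q, rfl⟩ : ∃ q, k = l + 1 + q := ⟨k - (l + 1), by omega⟩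
  have e1 : l + 1 + q - 1 - l = q := by omega
  rw [e1]
  simp only [smul_neg, add_nsmul, one_nsmul]
  abel

theorem surjB_alg {α U0 J0 : Fin r → ℂ} (hα : BaseCond α) (hU : ∀ i, U0 i ≠ 0)
    (hJ : ∀ i, J0 i ≠ 0) (hinj : Function.Injective fun i => (α (i + 1))⁻¹ * J0 i)
    (S : Submodule ℂ (Mat r))
    (h5 : ∀ k : Fin r, Ring.inverse (mono 0 U0) * (e5 (st0 α U0 J0)) ^ (k : ℕ) * mono 0 U0 * 1 ∈ S)
    (h6 : ∀ m k : Fin r, Ring.inverse (mono 0 U0) * (e6 (m : ℕ) (st0 α U0 J0)) ^ (k : ℕ) *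
      mono 0 U0 * 1 ∈ S) : S = ⊤ := by
  by_contra hne
  obtain ⟨f, hf0, hf⟩ := Submodule.exists_le_ker_of_lt_top S (lt_top_iff_ne_top.mpr hne)
  apply hf0
  obtain ⟨η, hη⟩ := os_repr f
  have hfS : ∀ M ∈ S, ∑ i, ∑ j, η i j * M j i = 0 := by
    intro M hM
    have : f M = 0 := hf hM
    rw [hη, Matrix.trace] at this
    simpa [Matrix.mul_apply] using this
  have hconj : ∀ (M : Mat r) (i j : Fin r),
      (Ring.inverse (mono 0 U0) * M * mono 0 U0 * 1) i j = (U0 i)⁻¹ * M i j * U0 j := by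
    intro M i j
    rw [mul_one, ringInverse_mono 0 U0 hU, mul_mono_apply, mono_mul_apply]
    simp
  -- off-diagonal entries
  have hoff : ∀ (k : ℕ), 1 ≤ k → k < r → ∀ i : Fin r, η (i + k • (-1)) i = 0 := by
    intro k hk1 hk2
    set c : Fin r → ℂ := fun i => ∏ l ∈ Finset.range k, J0 (i + l • (-1) - 1) with hc
    set μ : Fin r → ℂ := fun i => (win α k (i - k • 1))⁻¹ with hμ
    have hμinj : Function.Injective μ := by
      intro i j hij
      have := hα.win k hk1 hk2 (inv_injective hij)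
      exact sub_left_injective this
    set y : Fin r → ℂ := fun i => η (i + k • (-1)) i * ((U0 i)⁻¹ * c i * U0 (i + k • (-1))) with hy
    have hpow : ∀ m : ℕ, (e6 m (st0 α U0 J0)) ^ k =
        mono (k • (-1)) (fun i => c i * μ i ^ m) := by
      intro m
      rw [e6_st0 hα.ne hU, mono_pow]
      congr 1
      funext i
      rw [Finset.prod_mul_distrib, hc, hμ]
      simp only
      rw [← win_reflect, inv_pow, ← Finset.prod_pow, mul_comm, Finset.prod_inv_distrib]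
    have hy0 : (fun j => y (j + k • 1)) = 0 := by
      have hμ' : Function.Injective (fun j => μ (j + k • 1)) := fun a b hab =>
        add_right_cancel (hμinj hab)
      refine vander_zero hμ' _ fun m => ?_
      have h7 := hfS _ (h6 m ⟨k, hk2⟩)
      simp only [hconj] at h7
      rw [← h7]
      refine Finset.sum_congr rfl fun i _ => ?_
      rw [Finset.sum_eq_single (i + k • 1)]
      · rw [hpow, mono_apply]
        have e1 : i = i + k • 1 + k • (-1) := by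
          rw [smul_neg]; abel
        rw [if_pos e1, hy]
        simp only
        rw [← e1]
        ring
      · intro b _ hb
        rw [hpow, mono_apply, if_neg, mul_zero, zero_mul, mul_zero]
        intro h
        apply hb
        rw [h, smul_neg]; abel
      · simp
    intro i
    have h8 := congrFun hy0 (i - k • 1)
    simp only [Pi.zero_apply, sub_add_cancel] at h8
    rw [hy] at h8
    have hc0 : c i ≠ 0 := Finset.prod_ne_zero_iff.mpr fun _ _ => hJ _
    exact (mul_eq_zero.mp h8).resolve_right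
      (mul_ne_zero (mul_ne_zero (inv_ne_zero (hU _)) hc0) (hU _))
  have hoff' : ∀ i j : Fin r, j ≠ i → η j i = 0 := by
    intro i j hij
    obtain ⟨k, hk1, hk2, hk⟩ := exists_sh hij
    have e1 : j = i + k • (-1) := by rw [hk, smul_neg]; abel
    rw [e1]
    exact hoff k hk1 hk2 i
  -- diagonal entries
  have hdiag : (fun i => η i i) = 0 := by
    refine vander_zero hinj _ fun k => ?_
    have h7 := hfS _ (h5 k)
    simp only [hconj] at h7
    rw [← h7]
    refine Finset.sum_congr rfl fun i _ => ?_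
    rw [Finset.sum_eq_single i]
    · rw [e5_st0 hα.ne hU, mono_zero_pow, mono_apply, add_zero, if_pos rfl]
      have := hU i
      field_simp
    · intro b _ hb
      rw [hoff' b i hb.symm, zero_mul]
    · simp
  have hη0 : η = 0 := by
    ext i j
    by_cases hij : i = j
    · subst hij
      exact congrFun hdiag i
    · exact hoff' j i hij
  ext M
  rw [hη, hη0]
  simp

end alg

section cover
variable {g n r : ℕ} [NeZero r]

theorem bcover (j : Fin n) {α U0 J0 : Fin r → ℂ} (hα : BaseCond α) (hU : ∀ i, U0 i ≠ 0)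
    (hJ : ∀ i, J0 i ≠ 0) (hinj : Function.Injective fun i => (α (i + 1))⁻¹ * J0 i)
    {N : Set (St (Mat r))} (hN : N ∈ 𝓝 (st0 α U0 J0)) :
    ∀ᶠ q in 𝓝 (st0 α U0 J0, (1 : Mat r)), ∃ s' ∈ N, QB g j q.1 s' ∧ s'.2.1 = q.2 := by
  obtain ⟨s0, hs0⟩ : ∃ s0 : St (Mat r), s0 = st0 α U0 J0 := ⟨_, rfl⟩
  have hUS : US s0 := by rw [hs0]; exact us_st0 hα.ne hU
  have h5 : ∀ k : Fin r, ∃ v : St (Mat r), IsFlow (QB g j) s0 v ∧
      v.2.1 = Ring.inverse s0.2.2.1 * (e5 s0) ^ (k : ℕ) * s0.2.2.1 * s0.2.1 := fun k =>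
    qflow5 j k s0 hUS (by
      rw [hs0, e5_st0 hα.ne hU]
      exact gram_diag hinj)
  have h6 : ∀ m k : Fin r, ∃ v : St (Mat r), IsFlow (QB g j) s0 v ∧
      v.2.1 = Ring.inverse s0.2.2.1 * (e6 (m : ℕ) s0) ^ (k : ℕ) * s0.2.2.1 * s0.2.1 := fun m k =>
    qflow6 j m k s0 hUS (by rw [hs0]; exact gram_e6_st0 hα.ne hU hJ m)
  choose v5 hv5 hv5' using h5
  choose v6 hv6 hv6' using h6
  let v : (Fin r × Fin r) ⊕ Fin r → St (Mat r) := Sum.elim (fun mk => v6 mk.1 mk.2) v5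
  have hv : ∀ a, IsFlow (QB g j) s0 (v a) := by
    rintro (mk | k)
    · exact hv6 mk.1 mk.2
    · exact hv5 k
  obtain ⟨N', ⟨e⟩⟩ : ∃ n : ℕ, Nonempty (Fin n ≃ ((Fin r × Fin r) ⊕ Fin r)) :=
    ⟨_, ⟨(Fintype.equivFin _).symm⟩⟩
  obtain ⟨Φ, hΦ0, hΦ, hRel⟩ := exists_multiflow (QB.rfl' j) (QB.trans' j) s0 N'
    (fun j => v (e j)) (fun j => hv _)
  let ph : St (Mat r) →L[ℂ] Mat r := (ContinuousLinearMap.fst ℂ (Mat r) (Mat r × Mat r)).comp
    (ContinuousLinearMap.snd ℂ (Mat r × Mat r) (Mat r × (Mat r × Mat r)))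
  have hF : HasStrictFDerivAt (fun p => ph (Φ p)) (ph.comp (multiDer fun j => v (e j)))
      (s0, (0 : Fin N' → ℂ)) := ph.hasStrictFDerivAt.comp _ hΦ
  set S : Submodule ℂ (Mat r) := Submodule.span ℂ (Set.range fun j => (v (e j)).2.1) with hS
  have hvS : ∀ a, (v a).2.1 ∈ S := by
    intro a
    have : v a = v (e (e.symm a)) := by simp
    rw [this]
    exact Submodule.subset_span ⟨_, rfl⟩
  have hStop : S = ⊤ := by
    have hvS5 : ∀ k : Fin r, Ring.inverse s0.2.2.1 * (e5 s0) ^ (k : ℕ) * s0.2.2.1 * s0.2.1 ∈ S :=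
      fun k => by rw [← hv5' k]; exact hvS (Sum.inr k)
    have hvS6 : ∀ m k : Fin r, Ring.inverse s0.2.2.1 * (e6 (m : ℕ) s0) ^ (k : ℕ) * s0.2.2.1 *
        s0.2.1 ∈ S := fun m k => by rw [← hv6' m k]; exact hvS (Sum.inl (m, k))
    clear_value S
    subst hs0
    exact surjB_alg hα hU hJ hinj S hvS5 hvS6
  have hsurj : ∀ M, ∃ p, (ph.comp (multiDer fun j => v (e j))) (0, p) = M := by
    intro M
    have hM : M ∈ S := by rw [hStop]; trivial
    obtain ⟨c, hc⟩ := (Submodule.mem_span_range_iff_exists_fun ℂ).mp hM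
    refine ⟨c, ?_⟩
    rw [ContinuousLinearMap.comp_apply, multiDer_apply, zero_add, map_sum, ← hc]
    refine Finset.sum_congr rfl fun a _ => ?_
    rw [map_smul]
    rfl
  have hV : {p : St (Mat r) × (Fin N' → ℂ) | QB g j p.1 (Φ p) ∧ Φ p ∈ N} ∈
      𝓝 (s0, (0 : Fin N' → ℂ)) := by
    have d2 : ∀ᶠ q in 𝓝 (s0, (0 : Fin N' → ℂ)), Φ q ∈ N := by
      refine hΦ.continuousAt.eventually (p := fun y => y ∈ N) ?_
      rw [hΦ0, hs0]; exact hN
    filter_upwards [hRel, d2] with q a b using ⟨a, b⟩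
  have key := param_cover2 hF hsurj hV
  have h1 : ph (Φ (s0, 0)) = 1 := by
    rw [hΦ0, hs0]; rfl
  rw [h1, hs0] at key
  filter_upwards [key] with q hq
  obtain ⟨p, ⟨hp1, hp2⟩, hp3⟩ := hq
  exact ⟨Φ (q.1, p), hp2, hp1, hp3⟩

end cover

end Vale.Agent.P002
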