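import Vale.Agent.P002.Chain

namespace Vale.Agent.P002

open Matrix NumberField Topology Filter

section windows
variable {r : ℕ} [NeZero r]

/-- sum of powers of two over a cyclic window -/
def winSum (k : ℕ) (i : Fin r) : ℕ := ∑ j ∈ Finset.range k, 2 ^ ((i + j • 1 + 1 : Fin r) : ℕ)

theorem nsmul_one_inj {k : ℕ} (hk : k ≤ r) {j j' : ℕ} (hj : j < k) (hj' : j' < k)
    (h : j • (1 : Fin r) = j' • (1 : Fin r)) : j = j' := by
  have := congrArg Fin.val h
  rw [val_nsmul_one, val_nsmul_one, Nat.mod_eq_of_lt (by omega), Nat.mod_eq_of_lt (by omega)] at this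
  exact this

theorem winSum_inj {k : ℕ} (h1 : 1 ≤ k) (h2 : k < r) : Function.Injective (winSum (r := r) k) := by
  intro i i' h
  set A : Fin r → Finset ℕ := fun i =>
    (Finset.range k).image (fun j => ((i + j • 1 + 1 : Fin r) : ℕ)) with hA
  have hsum : ∀ i, winSum k i = ∑ x ∈ A i, 2 ^ x := by
    intro i
    rw [hA, Finset.sum_image]
    · rfl
    · intro j hj j' hj' hjj
      have hj1 := Finset.mem_range.mp (Finset.mem_coe.mp hj)
      have hj2 := Finset.mem_range.mp (Finset.mem_coe.mp hj')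
      refine nsmul_one_inj h2.le hj1 hj2 ?_
      have := Fin.ext hjj
      exact add_left_cancel (add_right_cancel this)
  rw [hsum, hsum] at h
  have hAA : A i = A i' := Finset.geomSum_injective le_rfl h
  -- i' + 1 ∈ A i' = A i
  have hmem : ((i' + 0 • 1 + 1 : Fin r) : ℕ) ∈ A i := by
    rw [hAA, hA]
    exact Finset.mem_image.mpr ⟨0, Finset.mem_range.mpr h1, rfl⟩
  obtain ⟨j, hj, hj'⟩ := Finset.mem_image.mp hmem
  have hj1 := Finset.mem_range.mp hj
  have e1 : i + j • (1 : Fin r) = i' := by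
    have := add_right_cancel (Fin.ext hj')
    simpa using this
  rcases Nat.eq_zero_or_pos j with h0 | h0
  · subst h0; simpa using e1
  · -- then i' ∈ A i = A i', contradiction
    exfalso
    have hmem2 : (i' : ℕ) ∈ A i' := by
      rw [← hAA, hA]
      refine Finset.mem_image.mpr ⟨j - 1, Finset.mem_range.mpr (by omega), ?_⟩
      congr 1
      rw [← e1]
      obtain ⟨j, rfl⟩ : ∃ j0, j = j0 + 1 := ⟨j - 1, by omega⟩
      rw [Nat.add_sub_cancel, succ_nsmul]
      abel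
    obtain ⟨l, hl, hl'⟩ := Finset.mem_image.mp hmem2
    have hl1 := Finset.mem_range.mp hl
    have e2 : l • (1 : Fin r) + 1 = 0 := by
      have := Fin.ext hl'
      rw [add_assoc] at this
      simpa using this
    rw [← succ_nsmul] at e2
    exact nsmul_one_ne_zero (by omega) (by omega) e2

end windows

section powers
variable {r : ℕ} [NeZero r]

noncomputable def bα (η : ℂ) (n : ℤ) : Fin r → ℂ := fun j => η ^ (n * 2 ^ (j : ℕ))

theorem zpow_inj {η : ℂ} (h0 : η ≠ 0) (h1 : ‖η‖ ≠ 1) {a b : ℤ} (h : η ^ a = η ^ b) : a = b := by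
  have h2 : ‖η‖ ^ a = ‖η‖ ^ b := by rw [← norm_zpow, ← norm_zpow, h]
  exact zpow_right_injective₀ (norm_pos_iff.mpr h0) h1 h2

theorem prod_zpow {η : ℂ} (h0 : η ≠ 0) (s : Finset ℕ) (f : ℕ → ℤ) :
    ∏ j ∈ s, η ^ f j = η ^ (∑ j ∈ s, f j) := by
  classical
  induction s using Finset.induction_on with
  | empty => simp
  | insert a s ha ih => rw [Finset.prod_insert ha, Finset.sum_insert ha, zpow_add₀ h0, ih]

theorem baseCond_bα {η : ℂ} (h0 : η ≠ 0) (h1 : ‖η‖ ≠ 1) {n : ℤ} (hn : n ≠ 0) :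
    BaseCond (bα (r := r) η n) := by
  refine ⟨fun i => zpow_ne_zero _ h0, ?_, ?_⟩
  · intro i j h
    have h2 := zpow_inj h0 h1 h
    have h3 := mul_left_cancel₀ hn h2
    have h4 : (2 : ℕ) ^ (i : ℕ) = 2 ^ (j : ℕ) := by exact_mod_cast h3
    exact Fin.ext (Nat.pow_right_injective le_rfl h4)
  · intro k hk1 hk2 i j h
    have hw : ∀ i : Fin r, win (bα η n) k i = η ^ (n * (winSum k i : ℤ)) := by
      intro i
      unfold win bα winSum
      rw [prod_zpow h0]
      congr 1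
      rw [Nat.cast_sum, Finset.mul_sum]
      refine Finset.sum_congr rfl fun j _ => ?_
      push_cast
      rfl
    rw [hw, hw] at h
    have h2 := mul_left_cancel₀ hn (zpow_inj h0 h1 h)
    exact winSum_inj hk1 hk2 (by exact_mod_cast h2)

theorem linked_bα {η : ℂ} (h0 : η ≠ 0) (h1 : ‖η‖ ≠ 1) {n1 n2 : ℤ} (hn2 : n2 ≠ 0) :
    Linked (bα (r := r) η n1) (bα η n2) := by
  set c : Fin r → ℤ := fun i => -(n1 * 2 ^ (i : ℕ)) + n2 * 2 ^ ((i - 1 : Fin r) : ℕ) with hc
  have hbad : ∀ i j : Fin r, i ≠ j →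
      {m : ℕ | c i + n2 * 2 ^ (i : ℕ) * m = c j + n2 * 2 ^ (j : ℕ) * m}.Finite := by
    intro i j hij
    refine Set.Subsingleton.finite ?_
    intro m hm m' hm'
    simp only [Set.mem_ofPred_eq] at hm hm'
    have h2 : n2 * ((2 : ℤ) ^ (i : ℕ) - 2 ^ (j : ℕ)) * ((m : ℤ) - m') = 0 := by
      linear_combination hm - hm'
    have h3 : (2 : ℤ) ^ (i : ℕ) - 2 ^ (j : ℕ) ≠ 0 := by
      rw [sub_ne_zero]
      intro h
      have h4 : (2 : ℕ) ^ (i : ℕ) = 2 ^ (j : ℕ) := by exact_mod_cast h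
      exact hij (Fin.ext (Nat.pow_right_injective le_rfl h4))
    have h5 := (mul_eq_zero.mp h2).resolve_left (mul_ne_zero hn2 h3)
    exact_mod_cast sub_eq_zero.mp h5
  have hfin : (⋃ i : Fin r, ⋃ j : Fin r, {m : ℕ | i ≠ j ∧
      c i + n2 * 2 ^ (i : ℕ) * m = c j + n2 * 2 ^ (j : ℕ) * m}).Finite := by
    refine Set.finite_iUnion fun i => Set.finite_iUnion fun j => ?_
    by_cases hij : i = j
    · simp [hij]
    · exact (hbad i j hij).subset fun m hm => hm.2
  obtain ⟨m0, hm0⟩ := hfin.exists_notMem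
  refine ⟨m0, ?_⟩
  intro i j h
  by_contra hij
  apply hm0
  simp only [Set.mem_iUnion]
  refine ⟨i, j, hij, ?_⟩
  have he : ∀ i : Fin r, (bα η n1 i)⁻¹ * bα η n2 (i - 1) * bα η n2 i ^ m0 =
      η ^ (c i + n2 * 2 ^ (i : ℕ) * m0) := by
    intro i
    unfold bα
    rw [← _root_.zpow_neg, ← zpow_add₀ h0, ← zpow_natCast, ← _root_.zpow_mul, ← zpow_add₀ h0]
  have h' : (bα η n1 i)⁻¹ * bα η n2 (i - 1) * bα η n2 i ^ m0 =
    (bα η n1 j)⁻¹ * bα η n2 (j - 1) * bα η n2 j ^ m0 := h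
  rw [he, he] at h'
  exact zpow_inj h0 h1 h'

end powers

end Vale.Agent.P002
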