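import Mathlib

namespace Vale.Agent.P002

open Topology Filter

theorem fiber_cover {E F P : Type*} [NormedAddCommGroup E] [NormedSpace ℂ E]
    [FiniteDimensional ℂ E] [NormedAddCommGroup F] [NormedSpace ℂ F]
    [NormedAddCommGroup P] [NormedSpace ℂ P] [FiniteDimensional ℂ P]
    {G : E → F} {G' : E →L[ℂ] F} {x0 : E} (hG : HasStrictFDerivAt G G' x0)
    {Φ : P → E} {Φ' : P →L[ℂ] E} (hΦ : HasStrictFDerivAt Φ Φ' 0) (h0 : Φ 0 = x0)
    (hker : ∀ v, G' v = 0 → ∃ s, Φ' s = v) (hconst : ∀ᶠ s in 𝓝 (0 : P), G (Φ s) = G x0)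
    {V : Set P} (hV : V ∈ 𝓝 (0 : P)) :
    ∀ᶠ x in 𝓝 x0, G x = G x0 → ∃ s ∈ V, Φ s = x := by
  have : CompleteSpace E := FiniteDimensional.complete ℂ E
  have : CompleteSpace P := FiniteDimensional.complete ℂ P
  obtain ⟨Q, hQ⟩ := Submodule.exists_isCompl (LinearMap.ker (G' : E →ₗ[ℂ] F))
  have : CompleteSpace Q := FiniteDimensional.complete ℂ Q
  -- the map Θ
  let Θ : P × Q → E := fun p => Φ p.1 + (p.2 : E)
  let Θ' : P × Q →L[ℂ] E := Φ'.comp (ContinuousLinearMap.fst ℂ P Q) +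
    Q.subtypeL.comp (ContinuousLinearMap.snd ℂ P Q)
  have hΘ : HasStrictFDerivAt Θ Θ' (0, 0) := by
    refine HasStrictFDerivAt.add ?_ ?_
    · exact HasStrictFDerivAt.comp (g := Φ) (f := Prod.fst) (0, 0) hΦ hasStrictFDerivAt_fst
    · exact (Q.subtypeL.comp (ContinuousLinearMap.snd ℂ P Q)).hasStrictFDerivAt
  have hΘ0 : Θ (0, 0) = x0 := by simp [Θ, h0]
  have hsurj : Θ'.range = ⊤ := by
    rw [eq_top_iff]
    rintro v -
    have hv : v ∈ LinearMap.ker (G' : E →ₗ[ℂ] F) ⊔ Q := by rw [hQ.sup_eq_top]; trivial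
    obtain ⟨k, hk, q, hq, rfl⟩ := Submodule.mem_sup.mp hv
    obtain ⟨s, hs⟩ := hker k hk
    exact ⟨(s, ⟨q, hq⟩), by simp [Θ', hs]⟩
  have hmap := hΘ.map_nhds_eq_of_surj hsurj
  rw [hΘ0] at hmap
  -- antilipschitz on Q
  have hinj : LinearMap.ker ((G'.comp Q.subtypeL : Q →L[ℂ] F) : Q →ₗ[ℂ] F) = ⊥ := by
    rw [LinearMap.ker_eq_bot']
    intro q hq
    have h1 : (q : E) ∈ LinearMap.ker (G' : E →ₗ[ℂ] F) := hq
    have h2 := Submodule.disjoint_def.mp hQ.disjoint _ h1 q.2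
    exact Subtype.ext h2
  obtain ⟨K, hKpos, hK⟩ := (G'.comp Q.subtypeL).exists_antilipschitzWith hinj
  have hKq : ∀ q : Q, ‖q‖ ≤ K * ‖G' (q : E)‖ := fun q => by
    have := hK.le_mul_dist q 0
    simpa using this
  set c : NNReal := K⁻¹ / 2 with hc
  have hcpos : 0 < c := by positivity
  obtain ⟨S, hS, hSa⟩ := hG.approximates_deriv_on_nhds (Or.inr hcpos)
  have hcont : ContinuousAt Θ (0, 0) := hΘ.continuousAt
  have hΦc : ContinuousAt (fun p : P × Q => Φ p.1) (0, 0) :=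
    ContinuousAt.comp (f := Prod.fst) (g := Φ) hΦ.continuousAt continuousAt_fst
  have hN : ∀ᶠ p in 𝓝 ((0, 0) : P × Q), p.1 ∈ V ∧ G (Φ p.1) = G x0 ∧ Φ p.1 ∈ S ∧ Θ p ∈ S := by
    have e1 : ∀ᶠ p in 𝓝 ((0, 0) : P × Q), p.1 ∈ V := continuousAt_fst.eventually (by simpa using hV)
    have e2 : ∀ᶠ p in 𝓝 ((0, 0) : P × Q), G (Φ p.1) = G x0 :=
      (continuousAt_fst : ContinuousAt Prod.fst ((0, 0) : P × Q)).eventually hconst
    have e3 : ∀ᶠ p in 𝓝 ((0, 0) : P × Q), Φ p.1 ∈ S := by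
      apply hΦc.eventually
      simp only [h0]
      exact hS
    have e4 : ∀ᶠ p in 𝓝 ((0, 0) : P × Q), Θ p ∈ S := by
      apply hcont.eventually
      rw [hΘ0]; exact hS
    filter_upwards [e1, e2, e3, e4] with p h1 h2 h3 h4 using ⟨h1, h2, h3, h4⟩
  have himg : Θ '' {p | p.1 ∈ V ∧ G (Φ p.1) = G x0 ∧ Φ p.1 ∈ S ∧ Θ p ∈ S} ∈ 𝓝 x0 := by
    rw [← hmap]
    exact image_mem_map hN
  filter_upwards [himg] with x hx hGx
  obtain ⟨p, ⟨h1, h2, h3, h4⟩, rfl⟩ := hx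
  refine ⟨p.1, h1, ?_⟩
  have key := hSa _ h4 _ h3
  have hdiff : Θ p - Φ p.1 = (p.2 : E) := by simp [Θ]
  rw [hdiff, hGx, h2, sub_self, zero_sub, norm_neg] at key
  have hle := hKq p.2
  have h5 : ‖p.2‖ ≤ (K : ℝ) * (c * ‖p.2‖) := hle.trans (mul_le_mul_of_nonneg_left key K.2)
  have h6 : (K : ℝ) * c = 1 / 2 := by
    rw [hc]; push_cast
    have : (K : ℝ) ≠ 0 := by exact_mod_cast hKpos.ne'
    field_simp
  have h7 : ‖p.2‖ = 0 := by
    have h8 : ‖p.2‖ ≤ (1 / 2) * ‖p.2‖ := by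
      calc ‖p.2‖ ≤ (K : ℝ) * (c * ‖p.2‖) := h5
        _ = (1 / 2) * ‖p.2‖ := by rw [← mul_assoc, h6]
    have := norm_nonneg p.2
    linarith
  have h9 : p.2 = 0 := norm_eq_zero.mp h7
  simp [Θ, h9]

section flows
variable {X : Type*} [NormedAddCommGroup X] [NormedSpace ℂ X]

noncomputable def flowDer (v : X) : X × ℂ →L[ℂ] X :=
  ContinuousLinearMap.fst ℂ X ℂ +
    (ContinuousLinearMap.toSpanSingleton ℂ v).comp (ContinuousLinearMap.snd ℂ X ℂ)

def IsFlow (Rel : X → X → Prop) (x0 v : X) : Prop :=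
  ∃ T : X × ℂ → X, T (x0, 0) = x0 ∧ HasStrictFDerivAt T (flowDer v) (x0, 0) ∧
    ∀ᶠ p in 𝓝 (x0, (0 : ℂ)), Rel p.1 (T p)

noncomputable def multiDer {N : ℕ} (v : Fin N → X) : X × (Fin N → ℂ) →L[ℂ] X :=
  ContinuousLinearMap.fst ℂ X (Fin N → ℂ) +
    ∑ j, ((ContinuousLinearMap.toSpanSingleton ℂ (v j)).comp
      (ContinuousLinearMap.proj (R := ℂ) (φ := fun _ : Fin N => ℂ) j)).comp
      (ContinuousLinearMap.snd ℂ X (Fin N → ℂ))

theorem multiDer_apply {N : ℕ} (v : Fin N → X) (p : X × (Fin N → ℂ)) :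
    multiDer v p = p.1 + ∑ j, p.2 j • v j := by
  simp [multiDer]

theorem exists_multiflow {Rel : X → X → Prop} (hrefl : ∀ x, Rel x x)
    (htrans : ∀ x y z, Rel x y → Rel y z → Rel x z) (x0 : X) :
    ∀ (N : ℕ) (v : Fin N → X), (∀ j, IsFlow Rel x0 (v j)) →
    ∃ Φ : X × (Fin N → ℂ) → X, Φ (x0, 0) = x0 ∧ HasStrictFDerivAt Φ (multiDer v) (x0, 0) ∧
      ∀ᶠ p in 𝓝 (x0, (0 : Fin N → ℂ)), Rel p.1 (Φ p)
  | 0, v, _ => by
    refine ⟨fun p => p.1, rfl, ?_, Filter.Eventually.of_forall fun p => hrefl _⟩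
    have : multiDer v = ContinuousLinearMap.fst ℂ X (Fin 0 → ℂ) := by
      ext p <;> simp [multiDer]
    rw [this]
    exact (ContinuousLinearMap.fst ℂ X (Fin 0 → ℂ)).hasStrictFDerivAt
  | N + 1, v, hv => by
    obtain ⟨Φ, hΦ0, hΦ, hRel⟩ := exists_multiflow hrefl htrans x0 N (fun j => v j.castSucc)
      (fun j => hv _)
    obtain ⟨T, hT0, hT, hTRel⟩ := hv (Fin.last N)
    -- projection
    let π : X × (Fin (N + 1) → ℂ) →L[ℂ] X × (Fin N → ℂ) :=
      (ContinuousLinearMap.fst ℂ X (Fin (N + 1) → ℂ)).prod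
        ((ContinuousLinearMap.pi fun j : Fin N =>
          (ContinuousLinearMap.proj (R := ℂ) (φ := fun _ : Fin (N + 1) => ℂ) j.castSucc)).comp
          (ContinuousLinearMap.snd ℂ X (Fin (N + 1) → ℂ)))
    let ρ : X × (Fin (N + 1) → ℂ) →L[ℂ] ℂ :=
      (ContinuousLinearMap.proj (R := ℂ) (φ := fun _ : Fin (N + 1) => ℂ) (Fin.last N)).comp
        (ContinuousLinearMap.snd ℂ X (Fin (N + 1) → ℂ))
    have hπ0 : π (x0, 0) = (x0, 0) := by
      ext <;> simp [π]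
    have h1 : HasStrictFDerivAt (fun p => Φ (π p))
        ((multiDer fun j : Fin N => v j.castSucc).comp π) (x0, 0) := by
      refine HasStrictFDerivAt.comp (g := Φ) (f := π) (x0, 0) ?_ π.hasStrictFDerivAt
      rw [hπ0]; exact hΦ
    have h2 : HasStrictFDerivAt (fun p => (Φ (π p), ρ p))
        (((multiDer fun j : Fin N => v j.castSucc).comp π).prod ρ) (x0, 0) :=
      h1.prodMk ρ.hasStrictFDerivAt
    have hval : (Φ (π (x0, 0)), ρ (x0, 0)) = (x0, (0 : ℂ)) := by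
      rw [hπ0, hΦ0]; simp [ρ]
    refine ⟨fun p => T (Φ (π p), ρ p), ?_, ?_, ?_⟩
    · simp only [hval, hT0]
    · have h3 : HasStrictFDerivAt (fun p => T (Φ (π p), ρ p))
          ((flowDer (v (Fin.last N))).comp
            (((multiDer fun j : Fin N => v j.castSucc).comp π).prod ρ)) (x0, 0) := by
        refine HasStrictFDerivAt.comp (g := T) (f := fun p => (Φ (π p), ρ p)) (x0, 0) ?_ h2
        rw [hval]; exact hT
      convert h3 using 1
      refine ContinuousLinearMap.ext fun p => ?_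
      rw [ContinuousLinearMap.comp_apply, multiDer_apply, Fin.sum_univ_castSucc]
      simp only [flowDer, _root_.add_apply, ContinuousLinearMap.coe_fst',
        ContinuousLinearMap.comp_apply, ContinuousLinearMap.coe_snd',
        ContinuousLinearMap.prod_apply, ContinuousLinearMap.toSpanSingleton_apply]
      rw [multiDer_apply]
      simp [π, ρ, add_assoc]
    · have hc1 : ContinuousAt π (x0, 0) := π.continuous.continuousAt
      have hc2 : ContinuousAt (fun p => (Φ (π p), ρ p)) (x0, 0) := h2.continuousAt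
      have e1 : ∀ᶠ p in 𝓝 (x0, (0 : Fin (N + 1) → ℂ)), Rel (π p).1 (Φ (π p)) := by
        refine hc1.eventually (p := fun q => Rel q.1 (Φ q)) ?_
        rw [hπ0]; exact hRel
      have e2 : ∀ᶠ p in 𝓝 (x0, (0 : Fin (N + 1) → ℂ)), Rel (Φ (π p)) (T (Φ (π p), ρ p)) := by
        refine hc2.eventually (p := fun q => Rel q.1 (T q)) ?_
        change ∀ᶠ y in 𝓝 (Φ (π (x0, 0)), ρ (x0, 0)), Rel y.1 (T y)
        rw [hval]; exact hTRel
      filter_upwards [e1, e2] with p h1 h2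
      exact htrans _ _ _ h1 h2

theorem isFlow_of_contDiffAt {Rel : X → X → Prop} {x0 v : X} (T : X × ℂ → X)
    (hT : ContDiffAt ℂ 1 T (x0, 0)) (hid : ∀ᶠ x in 𝓝 x0, T (x, 0) = x)
    (hv : HasDerivAt (fun s => T (x0, s)) v 0)
    (hRel : ∀ᶠ p in 𝓝 (x0, (0 : ℂ)), Rel p.1 (T p)) : IsFlow Rel x0 v := by
  refine ⟨T, hid.self_of_nhds, ?_, hRel⟩
  have h1 := hT.hasStrictFDerivAt one_ne_zero
  set T' : X × ℂ →L[ℂ] X := fderiv ℂ T (x0, 0) with hT'
  have hd := h1.hasFDerivAt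
  suffices hfd : flowDer v = T' by rw [hfd]; exact h1
  refine ContinuousLinearMap.ext fun p => ?_
  have hp : p = (p.1, 0) + (0, p.2) := by simp
  have hA : T' (p.1, 0) = p.1 := by
    have hc : HasFDerivAt (fun x => T (x, 0)) (T'.comp (ContinuousLinearMap.inl ℂ X ℂ)) x0 := by
      have := HasFDerivAt.comp (g := T) (f := fun x : X => (x, (0 : ℂ))) x0 hd
        (hasFDerivAt_prodMk_left x0 0)
      exact this
    have hc2 : HasFDerivAt (fun x => T (x, 0)) (ContinuousLinearMap.id ℂ X) x0 :=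
      (hasFDerivAt_id x0).congr_of_eventuallyEq hid
    have := hc.unique hc2
    have := DFunLike.congr_fun this p.1
    simpa using this
  have hB : T' (0, p.2) = p.2 • v := by
    have hc : HasFDerivAt (fun s => T (x0, s)) (T'.comp (ContinuousLinearMap.inr ℂ X ℂ)) 0 := by
      have := HasFDerivAt.comp (g := T) (f := fun s : ℂ => (x0, s)) 0 hd
        (hasFDerivAt_prodMk_right x0 0)
      exact this
    have := hc.unique hv.hasFDerivAt
    have := DFunLike.congr_fun this p.2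
    simpa using this
  have hsum : T' p = p.1 + p.2 • v := by
    conv_lhs => rw [hp]
    rw [map_add, hA, hB]
  rw [hsum]
  simp [flowDer]

end flows

end Vale.Agent.P002
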