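import Vale.Agent.P002.LemL

namespace Vale.Agent.P002

open Matrix NumberField Topology Filter
open scoped Matrix.Norms.L2Operator

section chain
variable {L : Type*} [Field L] [NumberField L] (φ : L →+* ℂ) {g r : ℕ} [NeZero r]

noncomputable def basePt (α : Fin g → Fin r → ℂ) : Tup g r := fun i => (mono 0 (α i), mono 1 1)

def Linked (α1 α2 : Fin r → ℂ) : Prop :=
  ∃ m0 : ℕ, Function.Injective (fun i => (α1 i)⁻¹ * α2 (i - 1) * α2 i ^ m0)

variable (hφ : ¬ ComplexEmbedding.IsReal φ) (w : InfinitePlace L) (hw : w ≠ InfinitePlace.mk φ)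
include hφ hw

theorem chain_step (k : ℕ) (hk : k + 1 < g) {α : Fin g → Fin r → ℂ} (hα : ∀ i, BaseCond (α i))
    (hl : Linked (α ⟨k, by omega⟩) (α ⟨k + 1, hk⟩)) {N : Set (Tup g r)}
    (hN : N ∈ 𝓝 (basePt α)) :
    ∀ᶠ x in 𝓝 (basePt α), ∃ x' ∈ N, kpA x' = kpA x ∧ (x' ∈ WW φ g r → x ∈ WW φ g r) ∧
      (∀ j : Fin g, (j : ℕ) < k → x' j = x j) ∧
      cmA (x' ⟨k, by omega⟩) = cmA (basePt α ⟨k, by omega⟩) := by
  obtain ⟨m0, hm⟩ := hl
  set i : Fin g := ⟨k, by omega⟩ with hidef
  set i' : Fin g := ⟨k + 1, hk⟩ with hi'def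
  have hi : (i' : ℕ) = i + 1 := rfl
  have hne : i ≠ i' := fun h => by rw [h] at hi; omega
  let U : Tup g r × ((Mat r × Mat r) × (Mat r × Mat r)) → Tup g r := fun p =>
    Function.update (Function.update p.1 i p.2.1) i' p.2.2
  have hUc : Continuous U := by
    refine Continuous.update (Continuous.update continuous_fst i ?_) i' ?_
    · exact continuous_fst.comp continuous_snd
    · exact continuous_snd.comp continuous_snd
  set q0 : (Mat r × Mat r) × (Mat r × Mat r) :=
    (((mono 0 (α i) : Mat r), (mono 1 1 : Mat r)), ((mono 0 (α i') : Mat r), (mono 1 1 : Mat r)))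
    with hq0
  have hU0 : U (basePt α, q0) = basePt α := by
    funext j
    by_cases hj : j = i'
    · subst hj; simp [U, q0, basePt]
    · by_cases hj' : j = i
      · subst hj'; simp [U, q0, basePt, Function.update_of_ne hj]
      · simp only [U, Function.update_of_ne hj, Function.update_of_ne hj']
  have hUN : ∀ᶠ p in 𝓝 (basePt α, q0), U p ∈ N := by
    refine hUc.continuousAt.eventually (p := fun y => y ∈ N) ?_
    rw [hU0]; exact hN
  rw [nhds_prod_eq] at hUN
  obtain ⟨N1, hN1, N3, hN3, hNN⟩ := Filter.mem_prod_iff.mp hUN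
  have hL := lemL φ hφ w hw i i' hi (hα i) (hα i') m0 hm hN3
  have hc : ContinuousAt (fun x : Tup g r => (x i, x i')) (basePt α) :=
    ((continuous_apply i).prodMk (continuous_apply i')).continuousAt
  have hL' := hc.eventually (p := fun q => ∃ q' ∈ N3, RelL φ i i' q q' ∧
    cmA q'.1 = cmA ((mono 0 (α i) : Mat r), (mono 1 1 : Mat r))) hL
  filter_upwards [hL', hN1] with x hx hx1
  obtain ⟨q', hq'N, hrel, hcm⟩ := hx
  refine ⟨U (x, q'), hNN ⟨hx1, hq'N⟩, ?_, ?_, ?_, ?_⟩
  · unfold kpA
    have hlt : (i : ℕ) + 1 < g := hk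
    refine list_prod_adj g _ _ i hlt (fun j hj1 hj2 => ?_) ?_
    · have h1 : j ≠ i' := fun h => hj2 (by rw [h])
      have h2 : j ≠ i := fun h => hj1 (by rw [h])
      simp only [U, Function.update_of_ne h1, Function.update_of_ne h2]
    · have e1 : (⟨(i : ℕ), by omega⟩ : Fin g) = i := rfl
      have e2 : (⟨(i : ℕ) + 1, hlt⟩ : Fin g) = i' := rfl
      rw [e1, e2]
      simp only [U, Function.update_self, Function.update_of_ne hne]
      exact hrel.1
  · intro hW
    have := hrel.2 x hW
    simpa using this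
  · intro j hj
    have h1 : j ≠ i' := fun h => by rw [h] at hj; simp [hi'def] at hj
    have h2 : j ≠ i := fun h => by rw [h] at hj; simp [hidef] at hj
    simp only [U, Function.update_of_ne h1, Function.update_of_ne h2]
  · simp only [U, Function.update_self, Function.update_of_ne hne]
    exact hcm

theorem chain_claim {α : Fin g → Fin r → ℂ} (hα : ∀ i, BaseCond (α i))
    (hl : ∀ (k : ℕ) (hk : k + 1 < g), Linked (α ⟨k, by omega⟩) (α ⟨k + 1, hk⟩)) :
    ∀ (k : ℕ), k < g → ∀ N ∈ 𝓝 (basePt α), ∀ᶠ x in 𝓝 (basePt α), ∃ x' ∈ N,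
      kpA x' = kpA x ∧ (x' ∈ WW φ g r → x ∈ WW φ g r) ∧
      ∀ j : Fin g, (j : ℕ) < k → cmA (x' j) = cmA (basePt α j)
  | 0, _, N, hN => by
    filter_upwards [hN] with x hx
    exact ⟨x, hx, rfl, id, fun j hj => by omega⟩
  | k + 1, hk, N, hN => by
    have h1 := chain_step φ hφ w hw k hk hα (hl k hk) hN
    have h2 := chain_claim hα hl k (by omega) _ h1
    filter_upwards [h2] with x hx
    obtain ⟨x', ⟨x'', hN'', hk'', hW'', hj'', hc''⟩, hk', hW', hc'⟩ := hx
    refine ⟨x'', hN'', hk''.trans hk', fun h => hW' (hW'' h), fun j hj => ?_⟩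
    rcases Nat.lt_succ_iff_lt_or_eq.mp hj with h | h
    · rw [hj'' j h, hc' j h]
    · have : j = ⟨k, by omega⟩ := Fin.ext h
      rw [this]; exact hc''

theorem chain_final {α : Fin (g + 1) → Fin r → ℂ} (hα : ∀ i, BaseCond (α i))
    (hl : ∀ (k : ℕ) (hk : k + 1 < g + 1), Linked (α ⟨k, by omega⟩) (α ⟨k + 1, hk⟩))
    (h0 : basePt α ∈ WW φ (g + 1) r) :
    ∀ᶠ x in 𝓝 (basePt α), kpA x = kpA (basePt α) → x ∈ WW φ (g + 1) r := by
  have hN : {x : Tup (g + 1) r | (∀ i, cmA (x i) = cmA (basePt α i) →
      RelF φ i (basePt α i) (x i)) ∧ ∀ i, UP (x i)} ∈ 𝓝 (basePt α) := by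
    have a1 : ∀ᶠ x in 𝓝 (basePt α), ∀ i, cmA (x i) = cmA (basePt α i) →
      RelF φ i (basePt α i) (x i) := by
      rw [Filter.eventually_all]
      intro i
      have hc : ContinuousAt (fun x : Tup (g + 1) r => x i) (basePt α) :=
        (continuous_apply i).continuousAt
      exact hc.eventually (p := fun p => cmA p = cmA (basePt α i) → RelF φ i (basePt α i) p)
        (lemF φ hφ w hw i (hα i))
    have a2 : ∀ᶠ x in 𝓝 (basePt α), ∀ i, UP (x i) := by
      rw [Filter.eventually_all]
      intro i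
      have hc : ContinuousAt (fun x : Tup (g + 1) r => x i) (basePt α) :=
        (continuous_apply i).continuousAt
      exact hc.eventually (p := fun p => UP p) (eventually_UP (up_base (hα i).ne))
    filter_upwards [a1, a2] with x b c using ⟨b, c⟩
  have key := chain_claim φ hφ w hw hα hl g (Nat.lt_succ_self g) _ hN
  filter_upwards [key] with x hx hkx
  obtain ⟨x', ⟨hF, hup⟩, hk', hW', hc'⟩ := hx
  apply hW'
  -- last commutator
  have hlast : cmA (x' (Fin.last g)) = cmA (basePt α (Fin.last g)) := by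
    have e1 : kpA x' = kpA (basePt α) := hk'.trans hkx
    have s1 : ∀ y : Tup (g + 1) r, kpA y =
        kpA (fun i : Fin g => y i.castSucc) * cmA (y (Fin.last g)) := fun y => by
      rw [← Kp_eq]; exact Kp_snoc_eq y
    rw [s1, s1 (basePt α)] at e1
    have e2 : kpA (fun i : Fin g => x' i.castSucc) =
        kpA (fun i : Fin g => basePt α i.castSucc) := by
      unfold kpA
      congr 2
      funext i
      exact hc' i.castSucc i.2
    rw [e2] at e1
    have hu : IsUnit (kpA (fun i : Fin g => basePt α i.castSucc)) := by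
      rw [Matrix.isUnit_iff_isUnit_det, det_kpA]
      · exact isUnit_one
      · intro i
        exact ⟨mono_isUnit 0 _ (hα _).ne, mono_isUnit 1 1 fun _ => one_ne_zero⟩
    exact hu.mul_left_cancel e1
  have hall : ∀ i, RelF φ i (basePt α i) (x' i) := by
    intro i
    apply hF
    rcases Nat.lt_succ_iff_lt_or_eq.mp i.2 with h | h
    · exact hc' i h
    · have : i = Fin.last g := Fin.ext h
      rw [this]; exact hlast
  -- replace handles one at a time
  have hrep : ∀ k : ℕ, k ≤ g + 1 →
      (fun i : Fin (g + 1) => if (i : ℕ) < k then x' i else basePt α i) ∈ WW φ (g + 1) r := by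
    intro k
    induction k with
    | zero => intro _; simpa using h0
    | succ k ih =>
      intro hk
      have h1 := ih (by omega)
      set y : Tup (g + 1) r := fun i => if (i : ℕ) < k then x' i else basePt α i with hy
      have h2 := (hall ⟨k, hk⟩).2 y (by
        have : Function.update y ⟨k, hk⟩ (basePt α ⟨k, hk⟩) = y := by
          funext j
          by_cases hj : j = ⟨k, hk⟩
          · subst hj; simp [hy]
          · simp [Function.update_of_ne hj]
        rw [this]; exact h1)
      convert h2 using 1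
      funext j
      by_cases hj : j = ⟨k, hk⟩
      · subst hj; simp
      · rw [Function.update_of_ne hj]
        have hjk : (j : ℕ) ≠ k := fun h => hj (Fin.ext h)
        have : (j : ℕ) < k + 1 ↔ (j : ℕ) < k := by omega
        simp only [hy, this]
  have := hrep (g + 1) le_rfl
  convert this using 1
  funext i
  rw [if_pos i.2]

end chain

end Vale.Agent.P002
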