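import Vale.Agent.P002.LemL2

namespace Vale.Agent.P002

open Matrix NumberField Topology Filter
open scoped Matrix.Norms.L2Operator

section chain
variable {g r : ℕ} [NeZero r]

theorem up_basePt {α : Fin g → Fin r → ℂ} (hα : ∀ i, BaseCond (α i)) :
    ∀ᶠ x in 𝓝 (basePt α), ∀ i, UP (x i) := by
  rw [Filter.eventually_all]
  intro i
  have hc : ContinuousAt (fun x : Tup g r => x i) (basePt α) :=
    (continuous_apply i).continuousAt
  exact hc.eventually (p := fun p => UP p) (eventually_UP (up_base (hα i).ne))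

theorem chain2_step (k : ℕ) (hk : k + 1 < g) {α : Fin g → Fin r → ℂ} (hα : ∀ i, BaseCond (α i))
    (hl : Linked (α ⟨k, by omega⟩) (α ⟨k + 1, hk⟩)) {N : Set (Tup g r)}
    (hN : N ∈ 𝓝 (basePt α)) :
    ∀ᶠ q in 𝓝 (basePt α, basePt α), ∃ x' ∈ N, kpA x' = kpA q.1 ∧
      (∀ W, MoveClosed W → x' ∈ W → q.1 ∈ W) ∧
      (∀ j : Fin g, (j : ℕ) < k → x' j = q.1 j) ∧
      cmA (x' ⟨k, by omega⟩) = cmA (q.2 ⟨k, by omega⟩) := by
  obtain ⟨m0, hm⟩ := hl
  set i : Fin g := ⟨k, by omega⟩ with hidef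
  set i' : Fin g := ⟨k + 1, hk⟩ with hi'def
  have hi : (i' : ℕ) = i + 1 := rfl
  have hne : i ≠ i' := fun h => by rw [h] at hi; omega
  let U : Tup g r × ((Mat r × Mat r) × (Mat r × Mat r)) → Tup g r := fun p =>
    Function.update (Function.update p.1 i p.2.1) i' p.2.2
  have hUc : Continuous U := by
    refine Continuous.update (Continuous.update continuous_fst i ?_) i' ?_
    · exact continuous_fst.comp continuous_snd
    · exact continuous_snd.comp continuous_snd
  set q0 : (Mat r × Mat r) × (Mat r × Mat r) :=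
    (((mono 0 (α i) : Mat r), (mono 1 1 : Mat r)), ((mono 0 (α i') : Mat r), (mono 1 1 : Mat r)))
    with hq0
  have hU0 : U (basePt α, q0) = basePt α := by
    funext j
    by_cases hj : j = i'
    · subst hj; simp [U, q0, basePt]
    · by_cases hj' : j = i
      · subst hj'; simp [U, q0, basePt, Function.update_of_ne hj]
      · simp only [U, Function.update_of_ne hj, Function.update_of_ne hj']
  have hUN : ∀ᶠ p in 𝓝 (basePt α, q0), U p ∈ N := by
    refine hUc.continuousAt.eventually (p := fun y => y ∈ N) ?_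
    rw [hU0]; exact hN
  rw [nhds_prod_eq] at hUN
  obtain ⟨N1, hN1, N3, hN3, hNN⟩ := Filter.mem_prod_iff.mp hUN
  have hL := lemL2 i i' hi (hα i) (hα i') m0 hm hN3
  have hcmc : ContinuousAt (cmA : Mat r × Mat r → Mat r) (basePt α i) := by
    obtain ⟨D, hD, -⟩ := os_cm (basePt α i) (up_base (hα i).ne).1 (up_base (hα i).ne).2
    exact hD.continuousAt
  have hc : ContinuousAt (fun q : Tup g r × Tup g r => ((q.1 i, q.1 i'), cmA (q.2 i)))
      (basePt α, basePt α) := by
    refine ContinuousAt.prodMk ?_ ?_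
    · exact (((continuous_apply i).comp continuous_fst).prodMk
        ((continuous_apply i').comp continuous_fst)).continuousAt
    · exact ContinuousAt.comp (g := cmA) (f := fun q : Tup g r × Tup g r => q.2 i)
        (x := (basePt α, basePt α)) hcmc ((continuous_apply i).comp continuous_snd).continuousAt
  have hL' := hc.eventually (p := fun q => q.2.det = 1 → ∃ q' ∈ N3, QL i i' q.1 q' ∧
    cmA q'.1 = q.2) hL
  have hN1' : ∀ᶠ q in 𝓝 (basePt α, basePt α), q.1 ∈ N1 :=
    continuousAt_fst.eventually (p := fun y => y ∈ N1) hN1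
  have hup' : ∀ᶠ q in 𝓝 (basePt α, basePt α), ∀ i, UP (q.2 i) :=
    continuousAt_snd.eventually (p := fun y : Tup g r => ∀ i, UP (y i)) (up_basePt hα)
  filter_upwards [hL', hN1', hup'] with q hx hx1 hup
  obtain ⟨q', hq'N, hrel, hcm⟩ := hx (det_cmA _ ((Matrix.isUnit_iff_isUnit_det _).mp (hup i).1)
    ((Matrix.isUnit_iff_isUnit_det _).mp (hup i).2))
  refine ⟨U (q.1, q'), hNN ⟨hx1, hq'N⟩, ?_, ?_, ?_, ?_⟩
  · unfold kpA
    have hlt : (i : ℕ) + 1 < g := hk
    refine list_prod_adj g _ _ i hlt (fun j hj1 hj2 => ?_) ?_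
    · have h1 : j ≠ i' := fun h => hj2 (by rw [h])
      have h2 : j ≠ i := fun h => hj1 (by rw [h])
      simp only [U, Function.update_of_ne h1, Function.update_of_ne h2]
    · have e1 : (⟨(i : ℕ), by omega⟩ : Fin g) = i := rfl
      have e2 : (⟨(i : ℕ) + 1, hlt⟩ : Fin g) = i' := rfl
      rw [e1, e2]
      simp only [U, Function.update_self, Function.update_of_ne hne]
      exact hrel.1
  · intro W hMC hW
    have := hrel.2 W hMC q.1 hW
    simpa using this
  · intro j hj
    have h1 : j ≠ i' := fun h => by rw [h] at hj; simp [hi'def] at hj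
    have h2 : j ≠ i := fun h => by rw [h] at hj; simp [hidef] at hj
    simp only [U, Function.update_of_ne h1, Function.update_of_ne h2]
  · simp only [U, Function.update_self, Function.update_of_ne hne]
    exact hcm

theorem chain2_claim {α : Fin g → Fin r → ℂ} (hα : ∀ i, BaseCond (α i))
    (hl : ∀ (k : ℕ) (hk : k + 1 < g), Linked (α ⟨k, by omega⟩) (α ⟨k + 1, hk⟩)) :
    ∀ (k : ℕ), k < g → ∀ N ∈ 𝓝 (basePt α), ∀ᶠ q in 𝓝 (basePt α, basePt α), ∃ x' ∈ N,
      kpA x' = kpA q.1 ∧ (∀ W, MoveClosed W → x' ∈ W → q.1 ∈ W) ∧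
      ∀ j : Fin g, (j : ℕ) < k → cmA (x' j) = cmA (q.2 j)
  | 0, _, N, hN => by
    have hN' : ∀ᶠ q in 𝓝 (basePt α, basePt α), q.1 ∈ N :=
      continuousAt_fst.eventually (p := fun y => y ∈ N) hN
    filter_upwards [hN'] with q hx
    exact ⟨q.1, hx, rfl, fun _ _ h => h, fun j hj => by omega⟩
  | k + 1, hk, N, hN => by
    have h1 := chain2_step k hk hα (hl k hk) hN
    rw [nhds_prod_eq] at h1
    obtain ⟨N1, hN1, N2, hN2, hNN⟩ := Filter.mem_prod_iff.mp h1
    have h2 := chain2_claim hα hl k (by omega) N1 hN1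
    have h3 : ∀ᶠ q in 𝓝 (basePt α, basePt α), q.2 ∈ N2 :=
      continuousAt_snd.eventually (p := fun y => y ∈ N2) hN2
    filter_upwards [h2, h3] with q hx hq2
    obtain ⟨x', hx'N, hk', hW', hc'⟩ := hx
    obtain ⟨x'', hN'', hk'', hW'', hj'', hc''⟩ := hNN (show (x', q.2) ∈ N1 ×ˢ N2 from ⟨hx'N, hq2⟩)
    refine ⟨x'', hN'', hk''.trans hk', fun W hMC h => hW' W hMC (hW'' W hMC h), fun j hj => ?_⟩
    rcases Nat.lt_succ_iff_lt_or_eq.mp hj with h | h
    · rw [hj'' j h, hc' j h]
    · have : j = ⟨k, by omega⟩ := Fin.ext h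
      rw [this]; exact hc''

theorem chain2_final {α : Fin (g + 1) → Fin r → ℂ} (hα : ∀ i, BaseCond (α i))
    (hl : ∀ (k : ℕ) (hk : k + 1 < g + 1), Linked (α ⟨k, by omega⟩) (α ⟨k + 1, hk⟩)) :
    ∀ᶠ q in 𝓝 (basePt α, basePt α), kpA q.1 = kpA q.2 → ∀ W, MoveClosed W →
      q.2 ∈ W → q.1 ∈ W := by
  -- neighbourhoods on which RelF works
  have hF : ∀ᶠ q in 𝓝 (basePt α, basePt α), (∀ i : Fin (g + 1), cmA (q.1 i) = cmA (q.2 i) →
      QF i (q.1 i) (q.2 i)) := by
    rw [Filter.eventually_all]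
    intro i
    have hc : ContinuousAt (fun q : Tup (g + 1) r × Tup (g + 1) r => (q.1 i, q.2 i))
        (basePt α, basePt α) :=
      (((continuous_apply i).comp continuous_fst).prodMk
        ((continuous_apply i).comp continuous_snd)).continuousAt
    exact hc.eventually (p := fun p => cmA p.1 = cmA p.2 → QF i p.1 p.2) (lemF2 i (hα i))
  rw [nhds_prod_eq] at hF
  obtain ⟨N2, hN2, N1, hN1, hNN⟩ := Filter.mem_prod_iff.mp hF
  have hN : N1 ∩ {x : Tup (g + 1) r | ∀ i, UP (x i)} ∈ 𝓝 (basePt α) :=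
    Filter.inter_mem hN1 (up_basePt hα)
  have key := chain2_claim hα hl g (Nat.lt_succ_self g) _ hN
  have h3 : ∀ᶠ q in 𝓝 (basePt α, basePt α), q.2 ∈ N2 ∧ ∀ i, UP (q.2 i) := by
    have a : ∀ᶠ q in 𝓝 (basePt α, basePt α), q.2 ∈ N2 :=
      continuousAt_snd.eventually (p := fun y => y ∈ N2) hN2
    have b : ∀ᶠ q in 𝓝 (basePt α, basePt α), ∀ i, UP (q.2 i) :=
      continuousAt_snd.eventually (p := fun y : Tup (g + 1) r => ∀ i, UP (y i)) (up_basePt hα)
    filter_upwards [a, b] with q c d using ⟨c, d⟩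
  filter_upwards [key, h3] with q hx hq2 hkx W hMC hqW
  obtain ⟨x', ⟨hx'1, hup⟩, hk', hW', hc'⟩ := hx
  apply hW' W hMC
  -- last commutator
  have hlast : cmA (x' (Fin.last g)) = cmA (q.2 (Fin.last g)) := by
    have e1 : kpA x' = kpA q.2 := hk'.trans hkx
    have s1 : ∀ y : Tup (g + 1) r, kpA y =
        kpA (fun i : Fin g => y i.castSucc) * cmA (y (Fin.last g)) := fun y => by
      rw [← Kp_eq]; exact Kp_snoc_eq y
    rw [s1, s1 q.2] at e1
    have e2 : kpA (fun i : Fin g => x' i.castSucc) =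
        kpA (fun i : Fin g => q.2 i.castSucc) := by
      unfold kpA
      congr 2
      funext i
      exact hc' i.castSucc i.2
    rw [e2] at e1
    have hu : IsUnit (kpA (fun i : Fin g => q.2 i.castSucc)) := by
      rw [Matrix.isUnit_iff_isUnit_det, det_kpA]
      · exact isUnit_one
      · intro i
        exact ⟨(Matrix.isUnit_iff_isUnit_det _).mp (hq2.2 _).1,
          (Matrix.isUnit_iff_isUnit_det _).mp (hq2.2 _).2⟩
    exact hu.mul_left_cancel e1
  have hall : ∀ i, QF i (q.2 i) (x' i) := by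
    have hh := hNN (show (q.2, x') ∈ N2 ×ˢ N1 from ⟨hq2.1, hx'1⟩)
    intro i
    apply hh i
    rcases Nat.lt_succ_iff_lt_or_eq.mp i.2 with h | h
    · exact (hc' i h).symm
    · have : i = Fin.last g := Fin.ext h
      rw [this]; exact hlast.symm
  -- replace handles one at a time
  have hrep : ∀ k : ℕ, k ≤ g + 1 →
      (fun i : Fin (g + 1) => if (i : ℕ) < k then x' i else q.2 i) ∈ W := by
    intro k
    induction k with
    | zero => intro _; simpa using hqW
    | succ k ih =>
      intro hk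
      have h1 := ih (by omega)
      set y : Tup (g + 1) r := fun i => if (i : ℕ) < k then x' i else q.2 i with hy
      have h2 := (hall ⟨k, hk⟩).2 W hMC y (by
        have : Function.update y ⟨k, hk⟩ (q.2 ⟨k, hk⟩) = y := by
          funext j
          by_cases hj : j = ⟨k, hk⟩
          · subst hj; simp [hy]
          · simp [Function.update_of_ne hj]
        rw [this]; exact h1)
      convert h2 using 1
      funext j
      by_cases hj : j = ⟨k, hk⟩
      · subst hj; simp
      · rw [Function.update_of_ne hj]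
        have hjk : (j : ℕ) ≠ k := fun h => hj (Fin.ext h)
        have : (j : ℕ) < k + 1 ↔ (j : ℕ) < k := by omega
        simp only [hy, this]
  have := hrep (g + 1) le_rfl
  convert this using 1
  funext i
  rw [if_pos i.2]

end chain

end Vale.Agent.P002
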