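import Vale.Agent.P002.Defs

namespace Vale.Agent.P002

open Matrix NumberField

section cs
variable {g r : ℕ}

def csAct (κ : Fin g × Bool → ℂ) (x : Tup g r) : Tup g r := fun i =>
  (κ (i, false) • (x i).1, κ (i, true) • (x i).2)

def csDet (x : Tup g r) (v : Fin g × Bool) : ℂ := if v.2 then (x v.1).2.det else (x v.1).1.det

def csHom (F : Tup g r → ℂ) (d : Fin g × Bool → ℕ) : Prop :=
  ∀ κ x, F (csAct κ x) = (∏ v, κ v ^ d v) * F x

theorem cs_decomp (f : Tup g r → ℂ) (hf : f ∈ PolyFun (Tup g r)) :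
    ∃ (ι : Type) (_ : Fintype ι) (d : ι → Fin g × Bool → ℕ) (F : ι → Tup g r → ℂ),
      (∀ j, F j ∈ PolyFun (Tup g r)) ∧ (∀ j, csHom (F j) (d j)) ∧ ∀ x, f x = ∑ j, F j x := by
  classical
  unfold PolyFun at hf
  induction hf using Algebra.adjoin_induction with
  | mem x hx =>
    obtain ⟨l, rfl⟩ := hx
    let P : Fin g × Bool → Tup g r →ₗ[ℂ] Tup g r := fun v =>
      LinearMap.pi fun i => if i = v.1 then
        (if v.2 then (LinearMap.inr ℂ (Mat r) (Mat r)).comp ((LinearMap.snd ℂ (Mat r) (Mat r)).comp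
          (LinearMap.proj i))
        else (LinearMap.inl ℂ (Mat r) (Mat r)).comp ((LinearMap.fst ℂ (Mat r) (Mat r)).comp
          (LinearMap.proj i)))
        else 0
    have hP : ∀ x : Tup g r, x = ∑ v, P v x := by
      intro x
      funext i
      rw [Finset.sum_apply, Fintype.sum_prod_type, Finset.sum_eq_single i]
      · simp [P]
      · intro j _ hj
        simp [P, Ne.symm hj]
      · simp
    have hPh : ∀ v κ (x : Tup g r), P v (csAct κ x) = κ v • P v x := by
      rintro ⟨j, β⟩ κ x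
      funext i
      by_cases hi : i = j
      · subst hi
        cases β
        · refine Prod.ext ?_ ?_ <;> simp [P, csAct]
        · refine Prod.ext ?_ ?_ <;> simp [P, csAct]
      · simp [P, hi]
    refine ⟨Fin g × Bool, inferInstance, fun v => Pi.single v 1, fun v x => l (P v x), ?_, ?_, ?_⟩
    · intro v
      exact polyFun_linear (l.comp (P v))
    · intro v κ x
      show l (P v (csAct κ x)) = _
      rw [hPh, map_smul, smul_eq_mul]
      congr 1
      rw [Finset.prod_eq_single v]
      · simp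
      · intro w _ hw
        simp [hw]
      · simp
    · intro x
      show l x = _
      conv_lhs => rw [hP x, map_sum]
  | algebraMap a =>
    refine ⟨Unit, inferInstance, fun _ => 0, fun _ _ => a, fun _ => polyFun_const a, ?_, ?_⟩
    · intro _ κ x; simp
    · intro x; simp
  | add f g _ _ hf hg =>
    obtain ⟨ι, _, d, F, h1, h2, h3⟩ := hf
    obtain ⟨ι', _, d', F', h1', h2', h3'⟩ := hg
    refine ⟨ι ⊕ ι', inferInstance, Sum.elim d d', Sum.elim F F', ?_, ?_, ?_⟩
    · rintro (j | j)
      · exact h1 j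
      · exact h1' j
    · rintro (j | j)
      · exact h2 j
      · exact h2' j
    · intro x
      rw [Pi.add_apply, h3, h3', Fintype.sum_sum_type]
      rfl
  | mul f g _ _ hf hg =>
    obtain ⟨ι, _, d, F, h1, h2, h3⟩ := hf
    obtain ⟨ι', _, d', F', h1', h2', h3'⟩ := hg
    refine ⟨ι × ι', inferInstance, fun p => d p.1 + d' p.2, fun p x => F p.1 x * F' p.2 x,
      ?_, ?_, ?_⟩
    · intro p
      exact polyFun_mul (h1 p.1) (h1' p.2)
    · intro p κ x
      show F p.1 (csAct κ x) * F' p.2 (csAct κ x) = _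
      rw [h2, h2']
      simp only [Pi.add_apply, pow_add, Finset.prod_mul_distrib]
      ring
    · intro x
      rw [Pi.mul_apply, h3, h3', Finset.sum_mul_sum, Fintype.sum_prod_type]

theorem cs_det_poly (v : Fin g × Bool) : (fun x : Tup g r => csDet x v) ∈ PolyFun (Tup g r) := by
  obtain ⟨i, β⟩ := v
  cases β
  · exact polyFun_det (polyMap_fst (polyMap_apply polyMap_id i))
  · exact polyFun_det (polyMap_snd (polyMap_apply polyMap_id i))

theorem cs_det_act (κ : Fin g × Bool → ℂ) (x : Tup g r) (v : Fin g × Bool) :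
    csDet (csAct κ x) v = κ v ^ r * csDet x v := by
  obtain ⟨i, β⟩ := v
  cases β <;> simp [csDet, csAct]

theorem cs_main (hr : 0 < r) (ω : ℂ) (hω : IsPrimitiveRoot ω r) (S : Set (Tup g r))
    (hS1 : ∀ y ∈ S, ∀ v, csDet y v = 1)
    (hS2 : ∀ y ∈ S, ∀ t : Fin g × Bool → ℕ, csAct (fun v => ω ^ t v) y ∈ S)
    (f : Tup g r → ℂ) (hf : f ∈ PolyFun (Tup g r)) (hv : ∀ y ∈ S, f y = 0) (x : Tup g r)
    (hx1 : ∀ v, csDet x v = 1)
    (hx : ∀ F ∈ PolyFun (Tup g r), (∀ y ∈ S, ∀ κ : Fin g × Bool → ℂ, (∀ v, κ v ≠ 0) →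
      F (csAct κ y) = 0) → F x = 0) : f x = 0 := by
  classical
  obtain ⟨ι, _, d, F, h1, h2, h3⟩ := cs_decomp f hf
  let χ : ι → (Multiplicative (Fin g × Bool → ℕ) →* ℂ) := fun j =>
    { toFun := fun t => ∏ v, (ω ^ (Multiplicative.toAdd t) v) ^ d j v
      map_one' := by simp
      map_mul' := by
        intro a b
        simp only [toAdd_mul, Pi.add_apply, pow_add, mul_pow, Finset.prod_mul_distrib] }
  have hχ : ∀ j t, χ j (Multiplicative.ofAdd t) = ∏ v, (ω ^ t v) ^ d j v := fun _ _ => rfl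
  have key : ∀ y ∈ S, ∀ c, ∑ j with χ j = c, F j y = 0 := by
    intro y hy c
    by_cases hc : c ∈ Finset.univ.image χ
    · have hli := linearIndependent_monoidHom (Multiplicative (Fin g × Bool → ℕ)) ℂ
      rw [linearIndependent_iff'] at hli
      refine hli (Finset.univ.image χ) (fun c => ∑ j with χ j = c, F j y) ?_ c hc
      funext t
      rw [Finset.sum_apply]
      simp only [Pi.smul_apply, smul_eq_mul, Pi.zero_apply]
      have e1 : ∀ c : Multiplicative (Fin g × Bool → ℕ) →* ℂ,
          (∑ j with χ j = c, F j y) * c t = ∑ j with χ j = c, F j y * χ j t := by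
        intro c
        rw [Finset.sum_mul]
        refine Finset.sum_congr rfl fun j hj => ?_
        rw [(Finset.mem_filter.mp hj).2]
      simp only [e1]
      rw [Finset.sum_fiberwise_of_maps_to (fun j _ => Finset.mem_image_of_mem χ (Finset.mem_univ j))]
      have h4 := hv _ (hS2 y hy (Multiplicative.toAdd t))
      rw [h3] at h4
      rw [← h4]
      refine Finset.sum_congr rfl fun j _ => ?_
      rw [h2 j, mul_comm]
      rfl
    · rw [Finset.filter_false_of_mem, Finset.sum_empty]
      intro j _ hj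
      exact hc (Finset.mem_image.mpr ⟨j, Finset.mem_univ j, hj⟩)
  have key2 : ∀ c, ∑ j with χ j = c, F j x = 0 := by
    intro c
    by_cases hne : (Finset.univ.filter fun j => χ j = c).Nonempty
    · obtain ⟨j0, hj0⟩ := hne
      have hj0' : χ j0 = c := (Finset.mem_filter.mp hj0).2
      let M : Fin g × Bool → ℕ := fun v => d j0 v + r * ∑ j, d j v
      have hmod : ∀ j, χ j = c → ∀ v, ∃ a, M v = d j v + r * a := by
        intro j hj v
        have e1 : χ j (Multiplicative.ofAdd (Pi.single v 1)) =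
            χ j0 (Multiplicative.ofAdd (Pi.single v 1)) := by rw [hj, hj0']
        have e2 : ∀ j, χ j (Multiplicative.ofAdd (Pi.single v 1)) = ω ^ d j v := by
          intro j
          rw [hχ, Finset.prod_eq_single v]
          · simp
          · intro w _ hw
            simp [hw]
          · simp
        rw [e2, e2, (hω.isOfFinOrder hr.ne').pow_eq_pow_iff_modEq, ← hω.eq_orderOf] at e1
        have hle : d j v ≤ ∑ j, d j v :=
          Finset.single_le_sum (f := fun j => d j v) (fun _ _ => Nat.zero_le _) (Finset.mem_univ j)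
        have hle2 : d j v ≤ M v := by
          have : 1 * ∑ j, d j v ≤ r * ∑ j, d j v := Nat.mul_le_mul_right _ hr
          show d j v ≤ d j0 v + r * ∑ j, d j v
          omega
        have e3 : d j v ≡ M v [MOD r] := by
          have : M v ≡ d j0 v [MOD r] := by
            show (d j0 v + r * ∑ j, d j v) % r = d j0 v % r
            simp
          exact e1.trans this.symm
        obtain ⟨a, ha⟩ := (Nat.modEq_iff_dvd' hle2).mp e3
        exact ⟨a, by omega⟩
      choose! a ha using hmod
      let G : Tup g r → ℂ := fun y => ∑ j with χ j = c, (∏ v, csDet y v ^ a j v) * F j y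
      have hG : G ∈ PolyFun (Tup g r) := by
        refine polyFun_sum _ fun j _ => polyFun_mul ?_ (h1 j)
        exact polyFun_prod _ fun v _ => polyFun_pow (cs_det_poly v) _
      have hG0 : G x = 0 := by
        apply hx G hG
        intro y hy κ _
        have e1 : ∀ j, χ j = c → (∏ v, csDet (csAct κ y) v ^ a j v) * F j (csAct κ y) =
            (∏ v, κ v ^ M v) * F j y := by
          intro j hj
          rw [h2 j]
          have e2 : ∏ v, csDet (csAct κ y) v ^ a j v = ∏ v, (κ v ^ r) ^ a j v := by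
            refine Finset.prod_congr rfl fun v _ => ?_
            rw [cs_det_act, hS1 y hy, mul_one]
          rw [e2, ← mul_assoc, ← Finset.prod_mul_distrib]
          congr 1
          refine Finset.prod_congr rfl fun v _ => ?_
          rw [ha j hj v, pow_add, pow_mul]
          ring
        show ∑ j with χ j = c, (∏ v, csDet (csAct κ y) v ^ a j v) * F j (csAct κ y) = 0
        rw [Finset.sum_congr rfl fun j hj => e1 j (Finset.mem_filter.mp hj).2, ← Finset.mul_sum,
          key y hy c, mul_zero]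
      rw [← hG0]
      refine Finset.sum_congr rfl fun j _ => ?_
      have : ∏ v, csDet x v ^ a j v = 1 := by
        refine Finset.prod_eq_one fun v _ => ?_
        rw [hx1, one_pow]
      rw [this, one_mul]
    · rw [Finset.not_nonempty_iff_eq_empty.mp hne, Finset.sum_empty]
  rw [h3, ← Finset.sum_fiberwise_of_maps_to
    (fun j _ => Finset.mem_image_of_mem χ (Finset.mem_univ j)) (fun j => F j x)]
  exact Finset.sum_eq_zero fun c _ => key2 c

end cs

section sl
variable {L : Type*} [Field L] [NumberField L] (φ : L →+* ℂ) {g r : ℕ}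

theorem cs_emb_smul (a : 𝓞 L) (A : Matrix (Fin r) (Fin r) (𝓞 L)) :
    emb φ (a • A) = φ (algebraMap (𝓞 L) L a) • emb φ A := by
  ext i j
  simp [emb]

theorem sl_of_cone (hr : 0 < r) (ζ : 𝓞 L) (hζ : IsPrimitiveRoot ζ r) (f : Tup g r → ℂ)
    (hf : f ∈ PolyFun (Tup g r))
    (hv : ∀ σ : Fin g → SpecialLinearGroup (Fin r) (𝓞 L) × SpecialLinearGroup (Fin r) (𝓞 L),
      IsIntRep σ → f (fun i => (emb φ (σ i).1.1, emb φ (σ i).2.1)) = 0)
    (x : Tup g r) (hdet : ∀ i, (x i).1.det = 1 ∧ (x i).2.det = 1) (hx : x ∈ WW φ g r) :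
    f x = 0 := by
  let ω : ℂ := φ (algebraMap (𝓞 L) L ζ)
  have hω : IsPrimitiveRoot ω r := by
    have h1 : Function.Injective (φ.comp (algebraMap (𝓞 L) L)) :=
      φ.injective.comp (FaithfulSMul.algebraMap_injective (𝓞 L) L)
    exact hζ.map_of_injective h1
  let S : Set (Tup g r) := {y | ∃ σ : Fin g → SpecialLinearGroup (Fin r) (𝓞 L) ×
    SpecialLinearGroup (Fin r) (𝓞 L), IsIntRep σ ∧ y = fun i => (emb φ (σ i).1.1, emb φ (σ i).2.1)}
  have hdet1 : ∀ A : SpecialLinearGroup (Fin r) (𝓞 L), (emb φ A.1).det = 1 := by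
    intro A
    have h1 : (emb φ A.1).det = φ (algebraMap (𝓞 L) L A.1.det) := by
      unfold emb
      exact (RingHom.map_det _ _).symm
    rw [h1, A.2, map_one, map_one]
  have hscal : ∀ n : ℕ, (ζ ^ n • (1 : Matrix (Fin r) (Fin r) (𝓞 L))).det = 1 := by
    intro n
    rw [Matrix.det_smul, Matrix.det_one, mul_one, Fintype.card_fin, ← pow_mul, mul_comm, pow_mul,
      hζ.pow_eq_one, one_pow]
  let sc : ℕ → SpecialLinearGroup (Fin r) (𝓞 L) := fun n =>
    ⟨ζ ^ n • (1 : Matrix (Fin r) (Fin r) (𝓞 L)), hscal n⟩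
  have hsc : ∀ n (A : SpecialLinearGroup (Fin r) (𝓞 L)), Commute (sc n) A := by
    intro n A
    apply Subtype.ext
    show (ζ ^ n • (1 : Matrix (Fin r) (Fin r) (𝓞 L))) * A.1 = A.1 * (ζ ^ n • 1)
    simp
  have hscemb : ∀ n (A : SpecialLinearGroup (Fin r) (𝓞 L)),
      emb φ (sc n * A).1 = ω ^ n • emb φ A.1 := by
    intro n A
    have h1 : (sc n * A).1 = ζ ^ n • A.1 := by
      show (ζ ^ n • (1 : Matrix (Fin r) (Fin r) (𝓞 L))) * A.1 = _
      simp
    rw [h1, cs_emb_smul, map_pow, map_pow]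
  refine cs_main hr ω hω S ?_ ?_ f hf ?_ x ?_ ?_
  · rintro y ⟨σ, hσ, rfl⟩ ⟨i, β⟩
    cases β
    · exact hdet1 _
    · exact hdet1 _
  · rintro y ⟨σ, hσ, rfl⟩ t
    refine ⟨fun i => (sc (t (i, false)) * (σ i).1, sc (t (i, true)) * (σ i).2), ?_, ?_⟩
    · unfold IsIntRep at *
      rw [← hσ]
      congr 2
      funext i
      have c1 := hsc (t (i, false))
      have c2 := hsc (t (i, true))
      have e : ∀ z w A B : SpecialLinearGroup (Fin r) (𝓞 L), (∀ C, Commute z C) →
          (∀ C, Commute w C) → (z * A) * (w * B) * (z * A)⁻¹ * (w * B)⁻¹ = A * B * A⁻¹ * B⁻¹ := by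
        intro z w A B hz hw
        have e1 : (z * A) * (w * B) * (z * A)⁻¹ * (w * B)⁻¹ =
            z * A * (w * B * A⁻¹) * z⁻¹ * (B⁻¹ * w⁻¹) := by group
        have e2 : z * A * (w * B * A⁻¹) * z⁻¹ = A * (w * B * A⁻¹) := by
          have := (hz (A * (w * B * A⁻¹))).eq
          rw [mul_assoc z, this]; group
        rw [e1, e2]
        have e3 : A * (w * B * A⁻¹) * (B⁻¹ * w⁻¹) = (A * w) * (B * A⁻¹ * B⁻¹) * w⁻¹ := by group
        rw [e3, ← (hw A).eq]
        have e4 := (hw (A * (B * A⁻¹ * B⁻¹))).eq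
        have e5 : w * A * (B * A⁻¹ * B⁻¹) * w⁻¹ = (w * (A * (B * A⁻¹ * B⁻¹))) * w⁻¹ := by group
        rw [e5, e4]; group
      exact e _ _ _ _ c1 c2
    · funext i
      refine Prod.ext ?_ ?_
      · exact (hscemb _ _).symm
      · exact (hscemb _ _).symm
  · rintro y ⟨σ, hσ, rfl⟩
    exact hv σ hσ
  · rintro ⟨i, β⟩
    cases β
    · exact (hdet i).1
    · exact (hdet i).2
  · intro F hF hFc
    apply hx F hF
    rintro c ⟨σ, hσ, κ, μ, hκ, hμ, hc⟩
    have := hFc _ ⟨σ, hσ, rfl⟩ (fun v => if v.2 then μ v.1 else κ v.1) (by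
      rintro ⟨i, β⟩
      cases β
      · exact hκ i
      · exact hμ i)
    rw [← this]
    congr 1
    funext i
    rw [hc i]
    simp [csAct]

end sl

end Vale.Agent.P002
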