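import Mathlib

namespace Vale.Agent.P002

open NumberField

section cyc
variable (n : ℕ) [NeZero n] (L : Type) [Field L] [NumberField L] [IsCyclotomicExtension {n} ℚ L]

theorem cyc_not_real (hn : 2 < n) (φ : L →+* ℂ) : ¬ ComplexEmbedding.IsReal φ := by
  intro h
  have h1 : IsTotallyComplex L := IsCyclotomicExtension.Rat.isTotallyComplex (n := n) L hn
  have h2 := h1.isComplex (InfinitePlace.mk φ)
  exact InfinitePlace.not_isReal_iff_isComplex.mpr h2 ⟨φ, h, rfl⟩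

theorem cyc_exists_place (hn : 10 ∣ n) (v : InfinitePlace L) :
    ∃ w : InfinitePlace L, w ≠ v := by
  have h1 : InfinitePlace.nrComplexPlaces L = n.totient / 2 :=
    IsCyclotomicExtension.Rat.nrComplexPlaces_eq_totient_div_two n L
  have h2 : Nat.totient 10 ∣ n.totient := Nat.totient_dvd_of_dvd hn
  have h3 : Nat.totient 10 = 4 := by decide
  have h4 : 0 < n.totient := Nat.totient_pos.mpr (NeZero.pos n)
  rw [h3] at h2
  have h5 : 4 ≤ n.totient := Nat.le_of_dvd h4 h2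
  have h6 : 2 ≤ InfinitePlace.nrComplexPlaces L := by
    rw [h1]; omega
  have h7 : 1 < Fintype.card (InfinitePlace L) := by
    have := InfinitePlace.card_eq_nrRealPlaces_add_nrComplexPlaces L
    omega
  exact Fintype.exists_ne_of_one_lt_card h7 v

theorem cyc_exists_prim {m : ℕ} (hm : m ∣ n) : ∃ ζ : 𝓞 L, IsPrimitiveRoot ζ m := by
  obtain ⟨q, hq⟩ := hm
  have h1 := (IsCyclotomicExtension.zeta_spec n ℚ L).toInteger_isPrimitiveRoot
  refine ⟨_ ^ q, h1.pow (NeZero.pos n) ?_⟩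
  rw [hq, mul_comm]

theorem cyc_main (r M : ℕ) (hn : n = 10 * r * M) (φ : L →+* ℂ) :
    ¬ ComplexEmbedding.IsReal φ ∧ ∃ (w : InfinitePlace L) (ζ : 𝓞 L) (ε : (𝓞 L)ˣ),
      w ≠ InfinitePlace.mk φ ∧ IsPrimitiveRoot ζ (2 * r) ∧ ‖φ ((ε : 𝓞 L) : L)‖ ≠ 1 ∧
      ∀ μ : ℂ, μ ^ M = 1 → ∃ z : 𝓞 L, φ z = μ := by
  have h0 : 0 < n := NeZero.pos n
  have hM : 0 < M := by
    rcases Nat.eq_zero_or_pos M with h | h
    · rw [h] at hn; omega
    · exact h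
  have hrM : n = 10 * (r * M) := by rw [hn]; ring
  refine ⟨cyc_not_real n L (by omega) φ, ?_⟩
  obtain ⟨w, hw⟩ := cyc_exists_place n L ⟨r * M, hrM⟩ (InfinitePlace.mk φ)
  obtain ⟨ζ, hζ⟩ := cyc_exists_prim n L (m := 2 * r) ⟨5 * M, by rw [hn]; ring⟩
  obtain ⟨u, hu⟩ := NumberField.Units.dirichletUnitTheorem.exists_unit L w
  refine ⟨w, ζ, u, hw, hζ, ?_, ?_⟩
  · intro h1
    have h2 := hu (InfinitePlace.mk φ) (Ne.symm hw)
    rw [InfinitePlace.apply, h1, Real.log_one] at h2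
    exact lt_irrefl _ h2
  · intro μ hμ
    obtain ⟨ξ, hξ⟩ := cyc_exists_prim n L (m := M) ⟨10 * r, by rw [hn]; ring⟩
    haveI : NeZero M := ⟨hM.ne'⟩
    have hinj : Function.Injective (φ.comp (algebraMap (𝓞 L) L)) :=
      φ.injective.comp RingOfIntegers.coe_injective
    have h3 := hξ.map_of_injective hinj
    obtain ⟨i, _, hi⟩ := h3.eq_pow_of_pow_eq_one hμ
    refine ⟨ξ ^ i, ?_⟩
    rw [← hi, ← map_pow]
    rfl

end cyc

theorem cyc_inst (n : ℕ) [NeZero n] :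
    @IsCyclotomicExtension {n} ℚ (CyclotomicField n ℚ) _ _ DivisionRing.toRatAlgebra := by
  have h := CyclotomicField.isCyclotomicExtension n ℚ
  have h1 : (CyclotomicField.algebra n ℚ) = DivisionRing.toRatAlgebra := Subsingleton.elim _ _
  rw [h1] at h
  exact h

/-- every embedding of the cyclotomic field of conductor `10 r M` is suitable -/
theorem exists_field_M' (r M : ℕ) (hr : 0 < r) (hM : 0 < M)
    (φ : CyclotomicField (10 * r * M) ℚ →+* ℂ) :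
    ¬ ComplexEmbedding.IsReal φ ∧
    ∃ (w : InfinitePlace (CyclotomicField (10 * r * M) ℚ))
      (ζ : 𝓞 (CyclotomicField (10 * r * M) ℚ)) (ε : (𝓞 (CyclotomicField (10 * r * M) ℚ))ˣ),
      w ≠ InfinitePlace.mk φ ∧ IsPrimitiveRoot ζ (2 * r) ∧
      ‖φ ((ε : 𝓞 (CyclotomicField (10 * r * M) ℚ)) : CyclotomicField (10 * r * M) ℚ)‖ ≠ 1 ∧
      ∀ μ : ℂ, μ ^ M = 1 → ∃ z : 𝓞 (CyclotomicField (10 * r * M) ℚ), φ z = μ := by
  haveI : NeZero (10 * r * M) := ⟨by positivity⟩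
  haveI := cyc_inst (10 * r * M)
  exact cyc_main (10 * r * M) (CyclotomicField (10 * r * M) ℚ) r M rfl φ

theorem exists_field_M (r M : ℕ) (hr : 0 < r) (hM : 0 < M) :
    ∃ (L : Type) (_ : Field L) (_ : NumberField L) (φ : L →+* ℂ) (w : InfinitePlace L)
      (ζ : 𝓞 L) (ε : (𝓞 L)ˣ),
      ¬ ComplexEmbedding.IsReal φ ∧ w ≠ InfinitePlace.mk φ ∧ IsPrimitiveRoot ζ (2 * r) ∧
      ‖φ ((ε : 𝓞 L) : L)‖ ≠ 1 ∧ ∀ μ : ℂ, μ ^ M = 1 → ∃ z : 𝓞 L, φ z = μ := by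
  obtain ⟨φ⟩ : Nonempty (CyclotomicField (10 * r * M) ℚ →+* ℂ) := inferInstance
  obtain ⟨h1, w, ζ, ε, h2, h3, h4, h5⟩ := exists_field_M' r M hr hM φ
  exact ⟨CyclotomicField (10 * r * M) ℚ, inferInstance, inferInstance, φ, w, ζ, ε, h1, h2, h3, h4, h5⟩

theorem exists_field' (r : ℕ) (hr : 0 < r) (φ : CyclotomicField (10 * r) ℚ →+* ℂ) :
    ¬ ComplexEmbedding.IsReal φ ∧
    ∃ (w : InfinitePlace (CyclotomicField (10 * r) ℚ))
      (ζ : 𝓞 (CyclotomicField (10 * r) ℚ)) (ε : (𝓞 (CyclotomicField (10 * r) ℚ))ˣ),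
      w ≠ InfinitePlace.mk φ ∧ IsPrimitiveRoot ζ (2 * r) ∧
      ‖φ ((ε : 𝓞 (CyclotomicField (10 * r) ℚ)) : CyclotomicField (10 * r) ℚ)‖ ≠ 1 := by
  haveI : NeZero (10 * r) := ⟨by positivity⟩
  haveI := cyc_inst (10 * r)
  obtain ⟨h1, w, ζ, ε, h2, h3, h4, -⟩ :=
    cyc_main (10 * r) (CyclotomicField (10 * r) ℚ) r 1 (by rw [mul_one]) φ
  exact ⟨h1, w, ζ, ε, h2, h3, h4⟩

theorem exists_field (r : ℕ) (hr : 0 < r) :
    ∃ (L : Type) (_ : Field L) (_ : NumberField L) (φ : L →+* ℂ) (w : InfinitePlace L)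
      (ζ : 𝓞 L) (ε : (𝓞 L)ˣ),
      ¬ ComplexEmbedding.IsReal φ ∧ w ≠ InfinitePlace.mk φ ∧ IsPrimitiveRoot ζ (2 * r) ∧
      ‖φ ((ε : 𝓞 L) : L)‖ ≠ 1 := by
  obtain ⟨φ⟩ : Nonempty (CyclotomicField (10 * r) ℚ →+* ℂ) := inferInstance
  obtain ⟨h1, w, ζ, ε, h2, h3, h4⟩ := exists_field' r hr φ
  exact ⟨CyclotomicField (10 * r) ℚ, inferInstance, inferInstance, φ, w, ζ, ε, h1, h2, h3, h4⟩

end Vale.Agent.P002
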