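import Vale.Agent.P002.Assemble
import Vale.Agent.P002.FieldExists

namespace Vale.Agent.P002

open Matrix NumberField

theorem polyFun_eval {E : Type*} [AddCommGroup E] [Module ℂ E] {ι : Type*} (c : E → ι → ℂ)
    (hc : ∀ k, (fun x => c x k) ∈ PolyFun E) (P : MvPolynomial ι ℂ) :
    (fun x => MvPolynomial.eval (c x) P) ∈ PolyFun E := by
  induction P using MvPolynomial.induction_on with
  | C a => simpa using polyFun_const a
  | add p q hp hq =>
    simp only [map_add]
    exact polyFun_add hp hq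
  | mul_X p k hp =>
    simp only [map_mul, MvPolynomial.eval_X]
    exact polyFun_mul hp (hc k)

theorem sl_coe_prod {r : ℕ} (l : List (SpecialLinearGroup (Fin r) ℂ)) :
    (l.prod).1 = (l.map fun A => A.1).prod := by
  induction l with
  | nil => simp
  | cons a l ih =>
    rw [List.prod_cons, List.map_cons, List.prod_cons, ← ih]
    exact Matrix.SpecialLinearGroup.coe_mul a l.prod

theorem sl_coe_inv {r : ℕ} (A : SpecialLinearGroup (Fin r) ℂ) : (A⁻¹).1 = A.1⁻¹ := by
  have h : (A⁻¹).1 = A.1.adjugate := Matrix.SpecialLinearGroup.coe_inv A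
  rw [h, Matrix.inv_def, A.2, Ring.inverse_one, one_smul]

theorem final_closed (g r : ℕ) (hr : 0 < r) (φ : CyclotomicField (10 * r) ℚ →+* ℂ)
    (P : MvPolynomial ((Fin (g + 2) × Bool) × Fin r × Fin r) ℂ)
    (hv : ∀ σ : Fin (g + 2) × Bool → SpecialLinearGroup (Fin r) (𝓞 (CyclotomicField (10 * r) ℚ)),
      (List.ofFn fun i => σ (i, false) * σ (i, true) * (σ (i, false))⁻¹ * (σ (i, true))⁻¹).prod
        = 1 →
      (∀ V : Submodule ℂ (Fin r → ℂ), (∀ k, ∀ v ∈ V,
        ((σ k).1.map (φ.comp (algebraMap (𝓞 (CyclotomicField (10 * r) ℚ))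
          (CyclotomicField (10 * r) ℚ)))).mulVec v ∈ V) → V = ⊥ ∨ V = ⊤) →
      MvPolynomial.eval (fun k => φ ((σ k.1).1 k.2.1 k.2.2)) P = 0)
    (τ : Fin (g + 2) × Bool → SpecialLinearGroup (Fin r) ℂ)
    (hτ : (List.ofFn fun i =>
      τ (i, false) * τ (i, true) * (τ (i, false))⁻¹ * (τ (i, true))⁻¹).prod = 1) :
    MvPolynomial.eval (fun k => (τ k.1).1 k.2.1 k.2.2) P = 0 := by
  have : NeZero r := ⟨hr.ne'⟩
  obtain ⟨hφ, w, ζ, ε, hw, hζ, hε⟩ := exists_field' r hr φ
  set c : Tup (g + 2) r → (Fin (g + 2) × Bool) × Fin r × Fin r → ℂ :=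
    fun x k => if k.1.2 then (x k.1.1).2 k.2.1 k.2.2 else (x k.1.1).1 k.2.1 k.2.2 with hc
  have hpoly : (fun x : Tup (g + 2) r => MvPolynomial.eval (c x) P) ∈ PolyFun (Tup (g + 2) r) := by
    refine polyFun_eval c (fun k => ?_) P
    obtain ⟨⟨i, b⟩, a, a'⟩ := k
    have h1 : PolyMap (fun x : Tup (g + 2) r => (x i).1) := polyMap_fst (polyMap_apply polyMap_id i)
    have h2 : PolyMap (fun x : Tup (g + 2) r => (x i).2) := polyMap_snd (polyMap_apply polyMap_id i)
    cases b
    · simpa [hc] using polyFun_entry h1 a a'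
    · simpa [hc] using polyFun_entry h2 a a'
  have h1 := tuple_dense φ hφ w hw ε hε hζ (g := g) (fun x => MvPolynomial.eval (c x) P) hpoly
    (fun σ hσ hb => ?_) (fun i => ((τ (i, false)).1, (τ (i, true)).1)) (fun i => ⟨(τ _).2, (τ _).2⟩) ?_
  · convert h1 using 2
    congr 1
    funext k
    obtain ⟨⟨i, b⟩, a, a'⟩ := k
    cases b <;> simp [hc]
  · have h2 := hv (fun k => if k.2 then (σ k.1).2 else (σ k.1).1) (by simpa [IsIntRep] using hσ)
      (fun V hV => burn_irr _ hb V (fun v hvV => by simpa [emb] using hV (0, false) v hvV)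
        (fun v hvV => by simpa [emb] using hV (0, true) v hvV))
    convert h2 using 2
    congr 1
    funext k
    obtain ⟨⟨i, b⟩, a, a'⟩ := k
    cases b <;> simp [hc, emb]
  · have h3 := congrArg (fun A : SpecialLinearGroup (Fin r) ℂ => A.1) hτ
    simp only [sl_coe_prod, List.map_ofFn] at h3
    rw [Kp, ← Matrix.SpecialLinearGroup.coe_one, ← h3]
    congr 2
    funext i
    simp only [cm, Function.comp, Matrix.SpecialLinearGroup.coe_mul, sl_coe_inv]

end Vale.Agent.P002
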