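import Vale.Agent.P002.BAssemble
import Vale.Agent.P002.Final
import Vale.Agent.P002.BJordan

namespace Vale.Agent.P002

open Matrix NumberField

/-- in the cyclotomic field of conductor `10 r M` every `M`-th root of unity is an `r`-th power -/
theorem cyc_root (r M : ℕ) (hr : 0 < r) (hM : 0 < M)
    (x : 𝓞 (CyclotomicField (10 * r * M) ℚ)) (hx : x ^ M = 1) :
    ∃ y : 𝓞 (CyclotomicField (10 * r * M) ℚ), y ^ r = x := by
  have : NeZero (10 * r * M) := ⟨by positivity⟩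
  have := cyc_inst (10 * r * M)
  obtain ⟨φ⟩ : Nonempty (CyclotomicField (10 * r * M) ℚ →+* ℂ) := inferInstance
  obtain ⟨-, w, ζ, ε, -, -, -, h⟩ :=
    cyc_main (10 * r * M) (CyclotomicField (10 * r * M) ℚ) 1 (r * M) (by ring) φ
  obtain ⟨y0, hy0⟩ := IsAlgClosed.exists_pow_nat_eq (φ (x : CyclotomicField (10 * r * M) ℚ)) hr
  have h1 : y0 ^ (r * M) = 1 := by
    rw [pow_mul, hy0, ← map_pow]
    have : ((x : CyclotomicField (10 * r * M) ℚ)) ^ M = 1 := by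
      have := congrArg (fun z : 𝓞 (CyclotomicField (10 * r * M) ℚ) =>
        (z : CyclotomicField (10 * r * M) ℚ)) hx
      simpa using this
    rw [this, map_one]
  obtain ⟨z, hz⟩ := h y0 h1
  refine ⟨z, RingOfIntegers.ext (φ.injective ?_)⟩
  have h2 : ((z ^ r : 𝓞 (CyclotomicField (10 * r * M) ℚ)) : CyclotomicField (10 * r * M) ℚ) =
      (z : CyclotomicField (10 * r * M) ℚ) ^ r := by simp
  rw [h2, map_pow, hz, hy0]

theorem isConj_of_cls {r : ℕ} (hr : 0 < r) {A B : SpecialLinearGroup (Fin r) ℂ}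
    (h : A.1 ∈ Cls B.1) : IsConj B A := by
  obtain ⟨h, hh, hA⟩ := h
  obtain ⟨s, hs⟩ := IsAlgClosed.exists_pow_nat_eq (h.det)⁻¹ hr
  have hd : h.det ≠ 0 := hh.ne_zero
  have hs0 : s ≠ 0 := by
    rintro rfl
    rw [zero_pow hr.ne'] at hs
    exact inv_ne_zero hd hs.symm
  have hdet : (s • h).det = 1 := by
    rw [Matrix.det_smul, Fintype.card_fin, hs, inv_mul_cancel₀ hd]
  let S : SpecialLinearGroup (Fin r) ℂ := ⟨s • h, hdet⟩
  refine isConj_iff.mpr ⟨S, ?_⟩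
  apply Subtype.ext
  have h1 : (S * B * S⁻¹).1 = (s • h) * B.1 * (s • h)⁻¹ := by
    rw [Matrix.SpecialLinearGroup.coe_mul, Matrix.SpecialLinearGroup.coe_mul, sl_coe_inv]
  rw [h1, hA]
  have h2 : (s • h)⁻¹ = s⁻¹ • h⁻¹ := by
    apply Matrix.inv_eq_right_inv
    rw [smul_mul_smul_comm, mul_inv_cancel₀ hs0, one_smul, Matrix.mul_nonsing_inv _ hh]
  rw [h2, smul_mul_assoc, smul_mul_smul_comm, mul_inv_cancel₀ hs0, one_smul]

theorem cls_of_isConj {r : ℕ} {A B : SpecialLinearGroup (Fin r) ℂ} (h : IsConj B A) :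
    A.1 ∈ Cls B.1 := by
  obtain ⟨c, hc⟩ := isConj_iff.mp h
  refine ⟨c.1, by rw [c.2]; exact isUnit_one, ?_⟩
  rw [← hc, Matrix.SpecialLinearGroup.coe_mul, Matrix.SpecialLinearGroup.coe_mul, sl_coe_inv]

theorem final_core {L : Type*} [Field L] [NumberField L] (φ : L →+* ℂ) {g n r : ℕ} [NeZero r]
    (hφ : ¬ ComplexEmbedding.IsReal φ) (w : InfinitePlace L) (hw : w ≠ InfinitePlace.mk φ)
    (ε : (𝓞 L)ˣ) (hε : ‖φ ((ε : 𝓞 L) : L)‖ ≠ 1) {ζ : 𝓞 L} (hζ : IsPrimitiveRoot ζ (2 * r))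
    (C : Fin n → SpecialLinearGroup (Fin r) ℂ) (τ : Fin n → SpecialLinearGroup (Fin r) (𝓞 L))
    (hτu : ∀ j a b, b < a → (τ j).1 a b = 0) (hτC : ∀ j, (C j).1 ∈ Cls (emb φ (τ j).1))
    (θ : Fin r → 𝓞 L) (hθ1 : ∀ i, θ (i + 1) = (∏ j, (τ j).1 i i) * θ i) (hθp : ∏ i, θ i = 1)
    (P : MvPolynomial (((Fin (g + 2) × Bool) ⊕ Fin n) × Fin r × Fin r) ℂ)
    (hv : ∀ σ : (Fin (g + 2) × Bool) ⊕ Fin n → SpecialLinearGroup (Fin r) (𝓞 L),
      (List.ofFn fun i => σ (.inl (i, false)) * σ (.inl (i, true)) * (σ (.inl (i, false)))⁻¹ *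
        (σ (.inl (i, true)))⁻¹).prod * (List.ofFn fun j => σ (.inr j)).prod = 1 →
      (∀ j, IsConj (C j) (SpecialLinearGroup.map (φ.comp (algebraMap (𝓞 L) L)) (σ (.inr j)))) →
      (∀ V : Submodule ℂ (Fin r → ℂ), (∀ k, ∀ v ∈ V,
        ((σ k).1.map (φ.comp (algebraMap (𝓞 L) L))).mulVec v ∈ V) → V = ⊥ ∨ V = ⊤) →
      MvPolynomial.eval (fun k => φ ((σ k.1).1 k.2.1 k.2.2)) P = 0)
    (ρ : (Fin (g + 2) × Bool) ⊕ Fin n → SpecialLinearGroup (Fin r) ℂ)
    (hρ : (List.ofFn fun i => ρ (.inl (i, false)) * ρ (.inl (i, true)) * (ρ (.inl (i, false)))⁻¹ *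
        (ρ (.inl (i, true)))⁻¹).prod * (List.ofFn fun j => ρ (.inr j)).prod = 1)
    (hρC : ∀ j, IsConj (C j) (ρ (.inr j))) :
    MvPolynomial.eval (fun k => (ρ k.1).1 k.2.1 k.2.2) P = 0 := by
  have hr : 0 < r := NeZero.pos r
  set c : BTup (g + 2) n r → ((Fin (g + 2) × Bool) ⊕ Fin n) × Fin r × Fin r → ℂ :=
    fun x k => match k.1 with
      | .inl (i, false) => (x.1 i).1 k.2.1 k.2.2
      | .inl (i, true) => (x.1 i).2 k.2.1 k.2.2
      | .inr j => x.2 j k.2.1 k.2.2 with hc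
  have hpoly : (fun x : BTup (g + 2) n r => MvPolynomial.eval (c x) P) ∈
      PolyFun (BTup (g + 2) n r) := by
    refine polyFun_eval c (fun k => ?_) P
    obtain ⟨k, a, a'⟩ := k
    have h0 : PolyMap (fun x : BTup (g + 2) n r => x.1) := polyMap_fst'
    rcases k with ⟨i, b⟩ | j
    · have h1 : PolyMap (fun x : BTup (g + 2) n r => (x.1 i).1) := polyMap_fst (polyMap_apply h0 i)
      have h2 : PolyMap (fun x : BTup (g + 2) n r => (x.1 i).2) := polyMap_snd (polyMap_apply h0 i)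
      cases b
      · exact polyFun_entry h1 a a'
      · exact polyFun_entry h2 a a'
    · have h1 : PolyMap (fun x : BTup (g + 2) n r => x.2 j) := polyMap_apply polyMap_snd' j
      exact polyFun_entry h1 a a'
  have h1 := tupleB_dense φ hφ w hw ε hε hζ (g := g) τ hτu θ hθ1 hθp
    (fun x => MvPolynomial.eval (c x) P) hpoly (fun σ ν hσ hν hb => ?_)
    (fun i => ((ρ (.inl (i, false))).1, (ρ (.inl (i, true))).1), fun j => (ρ (.inr j)).1)
    (fun i => ⟨(ρ _).2, (ρ _).2⟩) (fun j => Cls_trans (cls_of_isConj (hρC j)) (hτC j)) ?_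
  · convert h1 using 2
    congr 1
    funext k
    obtain ⟨k, a, a'⟩ := k
    rcases k with ⟨i, b⟩ | j
    · cases b <;> rfl
    · rfl
  · have h2 := hv (fun k => match k with
      | .inl (i, false) => (σ i).1
      | .inl (i, true) => (σ i).2
      | .inr j => ν j) hσ
      (fun j => isConj_of_cls hr (Cls_trans (hν j) (Cls_symm (hτC j))))
      (fun V hV => burn_irr _ hb V (fun v hvV => hV (.inl (0, false)) v hvV)
        (fun v hvV => hV (.inl (0, true)) v hvV))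
    convert h2 using 2
    congr 1
    funext k
    obtain ⟨k, a, a'⟩ := k
    rcases k with ⟨i, b⟩ | j
    · cases b <;> rfl
    · rfl
  · have h3 := congrArg (fun A : SpecialLinearGroup (Fin r) ℂ => A.1) hρ
    simp only [Matrix.SpecialLinearGroup.coe_mul, sl_coe_prod, List.map_ofFn] at h3
    rw [Kb, Kp, ← Matrix.SpecialLinearGroup.coe_one, ← h3]
    congr 3
    funext i
    simp only [cm, Function.comp, Matrix.SpecialLinearGroup.coe_mul, sl_coe_inv]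

theorem final_punctured (g n r M : ℕ) (hr : 0 < r) (hM : 0 < M)
    (φ : CyclotomicField (10 * r * M) ℚ →+* ℂ) (C : Fin n → SpecialLinearGroup (Fin r) ℂ)
    (hC : ∀ j, ∀ μ : ℂ, (C j).1.charpoly.IsRoot μ → μ ^ M = 1)
    (P : MvPolynomial (((Fin (g + 2) × Bool) ⊕ Fin n) × Fin r × Fin r) ℂ)
    (hv : ∀ σ : (Fin (g + 2) × Bool) ⊕ Fin n →
        SpecialLinearGroup (Fin r) (𝓞 (CyclotomicField (10 * r * M) ℚ)),
      (List.ofFn fun i => σ (.inl (i, false)) * σ (.inl (i, true)) * (σ (.inl (i, false)))⁻¹ *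
        (σ (.inl (i, true)))⁻¹).prod * (List.ofFn fun j => σ (.inr j)).prod = 1 →
      (∀ j, IsConj (C j) (SpecialLinearGroup.map (φ.comp (algebraMap
        (𝓞 (CyclotomicField (10 * r * M) ℚ)) (CyclotomicField (10 * r * M) ℚ))) (σ (.inr j)))) →
      (∀ V : Submodule ℂ (Fin r → ℂ), (∀ k, ∀ v ∈ V,
        ((σ k).1.map (φ.comp (algebraMap (𝓞 (CyclotomicField (10 * r * M) ℚ))
          (CyclotomicField (10 * r * M) ℚ)))).mulVec v ∈ V) → V = ⊥ ∨ V = ⊤) →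
      MvPolynomial.eval (fun k => φ ((σ k.1).1 k.2.1 k.2.2)) P = 0)
    (ρ : (Fin (g + 2) × Bool) ⊕ Fin n → SpecialLinearGroup (Fin r) ℂ)
    (hρ : (List.ofFn fun i => ρ (.inl (i, false)) * ρ (.inl (i, true)) * (ρ (.inl (i, false)))⁻¹ *
        (ρ (.inl (i, true)))⁻¹).prod * (List.ofFn fun j => ρ (.inr j)).prod = 1)
    (hρC : ∀ j, IsConj (C j) (ρ (.inr j))) :
    MvPolynomial.eval (fun k => (ρ k.1).1 k.2.1 k.2.2) P = 0 := by
  have : NeZero r := ⟨hr.ne'⟩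
  obtain ⟨hφ, w, ζ, ε, hw, hζ, hε, hμ⟩ := exists_field_M' r M hr hM φ
  have hmod := fun j => exists_integral_model φ (C j).1 (C j).2
    (fun μ h => hμ μ (hC j μ h))
  choose τ hτu hτd hτC using hmod
  have hdM : ∀ j i, (τ j).1 i i ^ M = 1 := fun j i => by
    have h2 := hC j _ (hτd j i)
    refine RingOfIntegers.ext (φ.injective ?_)
    simpa using h2
  obtain ⟨θ, hθ1, -, hθp⟩ := exists_theta_one (fun i => ∏ j, (τ j).1 i i) (by
    rw [Finset.prod_comm]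
    refine Finset.prod_eq_one fun j _ => ?_
    rw [← det_upper _ (hτu j), (τ j).2]) hM (fun i => by
    rw [← Finset.prod_pow]
    exact Finset.prod_eq_one fun j _ => hdM j i) (cyc_root r M hr hM)
  exact final_core φ hφ w hw ε hε hζ C τ hτu hτC θ hθ1 hθp P hv ρ hρ hρC

end Vale.Agent.P002
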