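import Vale.Agent.P002.FinalB

namespace Vale.Agent.P002

open Matrix NumberField

section field
variable {L : Type*} [Field L] [NumberField L]

theorem root_not_real {m : ℕ} (hm : 2 < m) {ξ : 𝓞 L} (hξ : IsPrimitiveRoot ξ m) (φ : L →+* ℂ) :
    ¬ ComplexEmbedding.IsReal φ := by
  intro h
  have hinj : Function.Injective (φ.comp (algebraMap (𝓞 L) L)) :=
    φ.injective.comp RingOfIntegers.coe_injective
  have h1 : IsPrimitiveRoot (φ (ξ : L)) m := hξ.map_of_injective hinj
  have h2 : (starRingEnd ℂ) (φ (ξ : L)) = φ (ξ : L) := by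
    have := congrArg (fun f : L →+* ℂ => f (ξ : L)) h.star_eq
    simpa using this
  have h3 : ‖φ (ξ : L)‖ = 1 := h1.norm'_eq_one (by omega)
  have h4 : φ (ξ : L) * φ (ξ : L) = 1 := by
    have := Complex.mul_conj (φ (ξ : L))
    rw [h2] at this
    rw [this, Complex.normSq_eq_norm_sq, h3]
    norm_num
  have h5 := h1.dvd_of_pow_eq_one 2 (by rw [pow_two]; exact h4)
  have := Nat.le_of_dvd (by norm_num) h5
  omega

theorem field_data (φ : L →+* ℂ) {m : ℕ} (hm : 10 ∣ m) (hm0 : 0 < m) {ξ : 𝓞 L}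
    (hξ : IsPrimitiveRoot ξ m) : ¬ ComplexEmbedding.IsReal φ ∧
    ∃ (w : InfinitePlace L) (ε : (𝓞 L)ˣ), w ≠ InfinitePlace.mk φ ∧ ‖φ ((ε : 𝓞 L) : L)‖ ≠ 1 := by
  have hm2 : 2 < m := by
    have := Nat.le_of_dvd hm0 hm
    omega
  refine ⟨root_not_real hm2 hξ φ, ?_⟩
  have hreal : InfinitePlace.nrRealPlaces L = 0 := by
    rw [NumberField.nrRealPlaces_eq_zero_iff]
    refine ⟨fun v => ?_⟩
    rw [← InfinitePlace.not_isReal_iff_isComplex]
    rintro ⟨ψ, hψ, -⟩
    exact root_not_real hm2 hξ ψ hψ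
  have h1 := InfinitePlace.card_add_two_mul_card_eq_rank L
  have h2 := InfinitePlace.card_eq_nrRealPlaces_add_nrComplexPlaces L
  have h3 : 4 ≤ Module.finrank ℚ L := by
    have hξL : IsPrimitiveRoot (ξ : L) m := hξ.map_of_injective RingOfIntegers.coe_injective
    have e1 := Polynomial.cyclotomic_eq_minpoly_rat hξL hm0
    have e2 := minpoly.natDegree_le (A := ℚ) (ξ : L)
    rw [← e1, Polynomial.natDegree_cyclotomic] at e2
    have e3 : Nat.totient 10 ∣ m.totient := Nat.totient_dvd_of_dvd hm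
    have e4 : Nat.totient 10 = 4 := by decide
    have e5 : 0 < m.totient := Nat.totient_pos.mpr hm0
    rw [e4] at e3
    exact (Nat.le_of_dvd e5 e3).trans e2
  have h4 : 1 < Fintype.card (InfinitePlace L) := by omega
  obtain ⟨w, hw⟩ := Fintype.exists_ne_of_one_lt_card h4 (InfinitePlace.mk φ)
  obtain ⟨u, hu⟩ := NumberField.Units.dirichletUnitTheorem.exists_unit L w
  refine ⟨w, u, hw, ?_⟩
  intro h1
  have h2 := hu (InfinitePlace.mk φ) (Ne.symm hw)
  rw [InfinitePlace.apply, h1, Real.log_one] at h2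
  exact lt_irrefl _ h2

end field

section general

theorem exists_theta_mem {r : ℕ} [NeZero r] {R : Type*} [CommRing R] (t : Fin r → R)
    (ht : ∏ i, t i = 1) (S : Submonoid R) (hS : ∀ i, t i ∈ S) :
    ∃ θ : Fin r → R, (∀ i, θ (i + 1) = t i * θ i) ∧ ∀ i, θ i ∈ S := by
  set t' : ℕ → R := fun k => if h : k < r then t ⟨k, h⟩ else 1 with ht'
  refine ⟨fun i => ∏ k ∈ Finset.range (i : ℕ), t' k, ?_, ?_⟩
  · intro i
    have hv : ((i + 1 : Fin r) : ℕ) = ((i : ℕ) + 1) % r := by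
      rw [Fin.val_add]
      conv_rhs => rw [Nat.add_mod]
      rw [Nat.mod_eq_of_lt i.2]
      rcases Nat.lt_or_ge 1 r with h | h
      · rw [Fin.val_one', Nat.mod_eq_of_lt h]
      · have h1 : r = 1 := by have := NeZero.pos r; omega
        subst h1
        simp
    have hi : t' i = t i := by simp [ht', i.2]
    rcases Nat.lt_or_ge ((i : ℕ) + 1) r with h | h
    · simp only [hv, Nat.mod_eq_of_lt h]
      rw [Finset.prod_range_succ, hi, mul_comm]
    · have h1 : (i : ℕ) + 1 = r := by have := i.2; omega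
      simp only [hv, h1, Nat.mod_self, Finset.range_zero, Finset.prod_empty]
      rw [mul_comm, ← hi, ← Finset.prod_range_succ, h1, Finset.prod_range, ← ht]
      refine Finset.prod_congr rfl fun j _ => ?_
      simp [ht', j.2]
  · intro i
    refine Submonoid.prod_mem _ fun k _ => ?_
    by_cases h : k < r
    · simp only [ht', h, dif_pos]; exact hS _
    · simp only [ht', h, dif_neg, not_false_eq_true]; exact S.one_mem

/-- complex triangular matrices with integral diagonal, together with an integral cocycle, can be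
realised over a number field contained in `ℂ`. -/
theorem exists_realization {r n : ℕ} (hr : 0 < r) (C : Fin n → SpecialLinearGroup (Fin r) ℂ)
    (hC : ∀ j, ∀ μ : ℂ, (C j).1.charpoly.IsRoot μ → IsIntegral ℤ μ) :
    ∃ (L : IntermediateField ℚ ℂ) (_ : FiniteDimensional ℚ L)
      (τ : Fin n → SpecialLinearGroup (Fin r) (𝓞 L)) (θ : Fin r → 𝓞 L) (ξ : 𝓞 L),
      (∀ j a b, b < a → (τ j).1 a b = 0) ∧
      (∀ j, (C j).1 ∈ Cls ((τ j).1.map fun z => ((z : L) : ℂ))) ∧
      (haveI : NeZero r := ⟨hr.ne'⟩; ∀ i, θ (i + 1) = (∏ j, (τ j).1 i i) * θ i) ∧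
      ∏ i, θ i = 1 ∧ IsPrimitiveRoot ξ (10 * r) := by
  have : NeZero r := ⟨hr.ne'⟩
  choose T hTu hT01 hTC using fun j => exists_triangular (C j).1
  have hchar : ∀ j, (C j).1.charpoly = (T j).charpoly := by
    intro j
    obtain ⟨h, hh, hCT⟩ := hTC j
    have hhu : IsUnit h := (Matrix.isUnit_iff_isUnit_det h).mpr hh
    rw [hCT]
    exact Matrix.charpoly_units_conj hhu.unit (T j)
  have hTint : ∀ j i, IsIntegral ℤ (T j i i) := by
    intro j i
    refine hC j _ ?_
    rw [hchar, Matrix.charpoly_of_isUpperTriangular (T j) (fun i j' hij => hTu j i j' hij),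
      Polynomial.IsRoot.def, Polynomial.eval_prod]
    exact Finset.prod_eq_zero (Finset.mem_univ i) (by simp)
  have hTdet : ∀ j, (T j).det = 1 := by
    intro j
    obtain ⟨h, hh, hCT⟩ := hTC j
    rw [← (C j).2, hCT, Matrix.det_mul, Matrix.det_mul, mul_comm, ← mul_assoc, ← Matrix.det_mul,
      Matrix.nonsing_inv_mul h hh, Matrix.det_one, one_mul]
  have htp : ∏ i, ∏ j, T j i i = 1 := by
    rw [Finset.prod_comm]
    refine Finset.prod_eq_one fun j _ => ?_
    rw [← det_upper _ (hTu j), hTdet]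
  let S : Submonoid ℂ :=
    { carrier := {x | x ≠ 0 ∧ IsIntegral ℤ x ∧ IsIntegral ℤ x⁻¹}
      mul_mem' := fun {a b} ha hb => by
        refine ⟨mul_ne_zero ha.1 hb.1, ha.2.1.mul hb.2.1, ?_⟩
        rw [_root_.mul_inv]
        exact ha.2.2.mul hb.2.2
      one_mem' := ⟨one_ne_zero, isIntegral_one, by rw [inv_one]; exact isIntegral_one⟩ }
  have htS : ∀ i, ∏ j, T j i i ∈ S := by
    intro i
    have h2 : (∏ j, T j i i) * ∏ k ∈ Finset.univ.erase i, ∏ j, T j k k = 1 :=
      (Finset.mul_prod_erase Finset.univ (fun k => ∏ j, T j k k) (Finset.mem_univ i)).trans htp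
    refine ⟨left_ne_zero_of_mul_eq_one h2, IsIntegral.prod _ fun j _ => hTint j i, ?_⟩
    have h1 : (∏ j, T j i i)⁻¹ = ∏ k ∈ Finset.univ.erase i, ∏ j, T j k k :=
      inv_eq_of_mul_eq_one_right h2
    rw [h1]
    exact IsIntegral.prod _ fun k _ => IsIntegral.prod _ fun j _ => hTint j k
  obtain ⟨θ', hθ1, hθS⟩ := exists_theta_mem (fun i => ∏ j, T j i i) htp S htS
  have hpS : ∏ i, θ' i ∈ S := Submonoid.prod_mem _ fun i _ => hθS i
  obtain ⟨y, hy⟩ := IsAlgClosed.exists_pow_nat_eq (∏ i, θ' i)⁻¹ hr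
  have hp0 : ∏ i, θ' i ≠ 0 := hpS.1
  have hyint : IsIntegral ℤ y := IsIntegral.of_pow hr (by rw [hy]; exact hpS.2.2)
  have hm0 : 10 * r ≠ 0 := by omega
  set ζ : ℂ := Complex.exp (2 * Real.pi * Complex.I / ((10 * r : ℕ) : ℂ)) with hζdef
  have hζ : IsPrimitiveRoot ζ (10 * r) := Complex.isPrimitiveRoot_exp (10 * r) hm0
  have hζint : IsIntegral ℤ ζ := hζ.isIntegral (by omega)
  set A : Set ℂ := Set.range (fun p : Fin n × Fin r => T p.1 p.2 p.2) ∪ {y, ζ} ∪ Set.range θ'
    with hA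
  have hAfin : Finite A := by
    have : A.Finite := ((Set.finite_range _).union (Set.toFinite _)).union (Set.finite_range _)
    exact this
  have hAint : ∀ x ∈ A, IsIntegral ℤ x := by
    rintro x ((⟨p, rfl⟩ | h) | ⟨i, rfl⟩)
    · exact hTint _ _
    · rcases h with rfl | h
      · exact hyint
      · rw [Set.mem_singleton_iff.mp h]; exact hζint
    · exact (hθS i).2.1
  let L := IntermediateField.adjoin ℚ A
  have hfd : FiniteDimensional ℚ L :=
    IntermediateField.finiteDimensional_adjoin fun x hx => (hAint x hx).tower_top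
  have hmemL : ∀ x ∈ A, x ∈ L := fun x hx => IntermediateField.subset_adjoin ℚ A hx
  have hint : ∀ x : L, IsIntegral ℤ (x : ℂ) → IsIntegral ℤ x := fun x hx =>
    (isIntegral_algebraMap_iff (algebraMap L ℂ).injective).mp hx
  have hlift : ∀ x ∈ A, ∃ z : 𝓞 L, ((z : L) : ℂ) = x := fun x hx =>
    ⟨⟨⟨x, hmemL x hx⟩, hint _ (hAint x hx)⟩, rfl⟩
  have hinj : ∀ {a b : 𝓞 L}, ((a : L) : ℂ) = ((b : L) : ℂ) → a = b := fun h =>
    RingOfIntegers.ext (Subtype.ext h)
  choose z hz using fun p : Fin n × Fin r => hlift (T p.1 p.2 p.2) (Or.inl (Or.inl ⟨p, rfl⟩))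
  obtain ⟨yL, hyL⟩ := hlift y (Or.inl (Or.inr (Or.inl rfl)))
  obtain ⟨ξ, hξ⟩ := hlift ζ (Or.inl (Or.inr (Or.inr rfl)))
  choose θL hθL using fun i => hlift (θ' i) (Or.inr ⟨i, rfl⟩)
  let T' : Fin n → Matrix (Fin r) (Fin r) (𝓞 L) := fun j => Matrix.of fun a b =>
    if a = b then z (j, a) else if T j a b = 1 then 1 else 0
  have hemb : ∀ j, (T' j).map (fun z => ((z : L) : ℂ)) = T j := by
    intro j
    ext a b
    rw [Matrix.map_apply]
    simp only [T', Matrix.of_apply]
    rcases lt_trichotomy a b with hij | hij | hij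
    · rw [if_neg hij.ne]
      rcases hT01 j a b hij with h0 | h1
      · rw [if_neg (by rw [h0]; exact zero_ne_one), h0]; simp
      · rw [if_pos h1, h1]; simp
    · subst hij
      rw [if_pos rfl]
      exact hz (j, a)
    · rw [if_neg hij.ne']
      have h0 := hTu j a b hij
      rw [if_neg (by rw [h0]; exact zero_ne_one), h0]; simp
  have hdet : ∀ j, (T' j).det = 1 := by
    intro j
    apply hinj
    have h1 : (((T' j).det : L) : ℂ) = ((T' j).map (fun z => ((z : L) : ℂ))).det := by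
      have := RingHom.map_det ((algebraMap L ℂ).comp (algebraMap (𝓞 L) L)) (T' j)
      exact this
    rw [h1, hemb, hTdet]
    simp
  refine ⟨L, hfd, fun j => ⟨T' j, hdet j⟩, fun i => yL * θL i, ξ, ?_, ?_, ?_, ?_, ?_⟩
  · intro j a b hab
    apply hinj
    have := congrFun (congrFun (hemb j) a) b
    rw [Matrix.map_apply] at this
    rw [this, hTu j a b hab]
    simp
  · intro j
    rw [hemb]
    exact hTC j
  · intro i
    apply hinj
    have h1 : ∀ j, ((((T' j) i i : 𝓞 L) : L) : ℂ) = T j i i := by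
      intro j
      have := congrFun (congrFun (hemb j) i) i
      rwa [Matrix.map_apply] at this
    simp only [map_mul, map_prod, IntermediateField.coe_mul, IntermediateField.coe_prod, hyL, hθL,
      h1, hθ1]
    ring
  · apply hinj
    simp only [map_mul, map_prod, IntermediateField.coe_mul, IntermediateField.coe_prod, hyL, hθL,
      Finset.prod_mul_distrib, Finset.prod_const, Finset.card_univ, Fintype.card_fin, map_pow,
      IntermediateField.coe_pow, hy, map_one, IntermediateField.coe_one]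
    exact inv_mul_cancel₀ hp0
  · refine IsPrimitiveRoot.of_map_of_injective (f := (algebraMap L ℂ).comp (algebraMap (𝓞 L) L))
      ?_ ((algebraMap L ℂ).injective.comp RingOfIntegers.coe_injective)
    show IsPrimitiveRoot (((ξ : L) : ℂ)) (10 * r)
    rw [hξ]; exact hζ

theorem final_general (g n r : ℕ) (hr : 0 < r) (C : Fin n → SpecialLinearGroup (Fin r) ℂ)
    (hC : ∀ j, ∀ μ : ℂ, (C j).1.charpoly.IsRoot μ → IsIntegral ℤ μ) :
    ∃ (L : IntermediateField ℚ ℂ), FiniteDimensional ℚ L ∧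
    ∀ (P : MvPolynomial (((Fin (g + 2) × Bool) ⊕ Fin n) × Fin r × Fin r) ℂ),
    (∀ σ : (Fin (g + 2) × Bool) ⊕ Fin n → SpecialLinearGroup (Fin r) (𝓞 L),
      (List.ofFn fun i => σ (.inl (i, false)) * σ (.inl (i, true)) * (σ (.inl (i, false)))⁻¹ *
        (σ (.inl (i, true)))⁻¹).prod * (List.ofFn fun j => σ (.inr j)).prod = 1 →
      (∀ j, IsConj (C j) (SpecialLinearGroup.map ((algebraMap L ℂ).comp (algebraMap (𝓞 L) L))
        (σ (.inr j)))) →
      (∀ V : Submodule ℂ (Fin r → ℂ), (∀ k, ∀ v ∈ V,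
        ((σ k).1.map ((algebraMap L ℂ).comp (algebraMap (𝓞 L) L))).mulVec v ∈ V) →
        V = ⊥ ∨ V = ⊤) →
      MvPolynomial.eval (fun k => algebraMap L ℂ ((σ k.1).1 k.2.1 k.2.2)) P = 0) →
    ∀ (ρ : (Fin (g + 2) × Bool) ⊕ Fin n → SpecialLinearGroup (Fin r) ℂ)
    (_ : (List.ofFn fun i => ρ (.inl (i, false)) * ρ (.inl (i, true)) * (ρ (.inl (i, false)))⁻¹ *
        (ρ (.inl (i, true)))⁻¹).prod * (List.ofFn fun j => ρ (.inr j)).prod = 1)
    (_ : ∀ j, IsConj (C j) (ρ (.inr j))),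
    MvPolynomial.eval (fun k => (ρ k.1).1 k.2.1 k.2.2) P = 0 := by
  have hne : NeZero r := ⟨hr.ne'⟩
  obtain ⟨L, hfd, τ, θ, ξ, hτu, hτC, hθ1, hθp, hξ⟩ := exists_realization hr C hC
  have hNF : NumberField L := { to_charZero := inferInstance, to_finiteDimensional := hfd }
  refine ⟨L, hfd, fun P hv ρ hρ hρC => ?_⟩
  obtain ⟨hφ, w, ε, hw, hε⟩ := field_data (algebraMap L ℂ) (m := 10 * r) ⟨r, rfl⟩ (by omega) hξ
  have hζ : IsPrimitiveRoot (ξ ^ 5) (2 * r) := hξ.pow (by omega) (by ring)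
  exact final_core (algebraMap L ℂ) hφ w hw ε hε hζ C τ hτu hτC θ hθ1 hθp P hv ρ hρ hρC

end general

end Vale.Agent.P002

namespace Vale.Agent.P002

open Matrix NumberField

section existence

theorem exists_scale {r : ℕ} (hr : 0 < r) (A : Mat r) (hA : IsUnit A.det) :
    ∃ B : SpecialLinearGroup (Fin r) ℂ, Pr B.1 A := by
  obtain ⟨s, hs⟩ := IsAlgClosed.exists_pow_nat_eq (A.det)⁻¹ hr
  have hd : A.det ≠ 0 := hA.ne_zero
  have hs0 : s ≠ 0 := by
    rintro rfl
    rw [zero_pow hr.ne'] at hs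
    exact inv_ne_zero hd hs.symm
  exact ⟨⟨s • A, by rw [Matrix.det_smul, Fintype.card_fin, hs, inv_mul_cancel₀ hd]⟩, s, hs0, rfl⟩

theorem exists_tuple (g n r : ℕ) (hr : 0 < r) (C : Fin n → SpecialLinearGroup (Fin r) ℂ) :
    ∃ (x : Tup (g + 2) r) (T : Fin n → Mat r), Kb (x, T) = 1 ∧ Inv x ∧ (∀ j, (T j).det = 1) ∧
      (∀ j, (C j).1 ∈ Cls (T j)) ∧ burn (x 0) ≠ 0 := by
  have : NeZero r := ⟨hr.ne'⟩
  choose T hTu hT01 hTC using fun j => exists_triangular (C j).1
  have hTdet : ∀ j, (T j).det = 1 := by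
    intro j
    obtain ⟨h, hh, hCT⟩ := hTC j
    rw [← (C j).2, hCT, Matrix.det_mul, Matrix.det_mul, mul_comm, ← mul_assoc, ← Matrix.det_mul,
      Matrix.nonsing_inv_mul h hh, Matrix.det_one, one_mul]
  set TT : Mat r := (List.ofFn T).prod with hTT
  have hup : ∀ A ∈ List.ofFn T, ∀ i j, j < i → A i j = 0 := by
    intro A hA
    obtain ⟨j, rfl⟩ := List.mem_ofFn.mp hA
    exact hTu j
  have hTTu : ∀ i j, j < i → TT i j = 0 := (list_upper _ hup).1
  have hTTdet : TT.det = 1 := det_listprod hTdet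
  have htp : ∏ i, TT i i = 1 := by rw [← det_upper _ hTTu, hTTdet]
  let S : Submonoid ℂ :=
    { carrier := {x | x ≠ 0}
      mul_mem' := fun {a b} ha hb => mul_ne_zero ha hb
      one_mem' := one_ne_zero }
  obtain ⟨θ, hθ1, hθS⟩ := exists_theta_mem (fun i => TT i i) htp S (fun i h => by
    have h2 : ∏ i, TT i i = 0 := Finset.prod_eq_zero (Finset.mem_univ i) h
    exact zero_ne_one (h2.symm.trans htp))
  have hθ0 : ∀ i, θ i ≠ 0 := hθS
  have hη0 : (2 : ℂ) ≠ 0 := two_ne_zero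
  have hη1 : ‖(2 : ℂ)‖ ≠ 1 := by norm_num
  obtain ⟨N, hN0, hN1, hN2, hN3, hN4⟩ := exists_size (g := g + 1) (n := 0) hη0 hη1 (r := r)
    (by omega) hθ0 (fun j => j.elim0) (fun j => j.elim0)
  set G : ℤ := ((g + 1 : ℕ) : ℤ) * N with hG
  set α : Fin (g + 2) → Fin r → ℂ := fun i =>
    if i = Fin.last (g + 1) then fun k => bα 2 (-G) k * θ k else bα 2 N with hα
  have hα1 : ∀ i : Fin (g + 1), α i.castSucc = bα 2 N := fun i => by
    simp only [hα, if_neg (Fin.castSucc_lt_last i).ne]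
  have hα2 : α (Fin.last (g + 1)) = fun i => bα 2 (-G) i * θ i := by
    simp only [hα, if_true]
  have hα0 : ∀ i k, α i k ≠ 0 := by
    intro i k
    refine Fin.lastCases ?_ (fun i => ?_) i
    · rw [hα2]; exact mul_ne_zero (zpow_ne_zero _ hη0) (hθ0 k)
    · rw [hα1]; exact zpow_ne_zero _ hη0
  set b : Fin r → ℂ := fun i => bα 2 (-G) (i + 1) * θ i with hb
  set B : Mat r := TT * diagonal b with hB
  have hBu : ∀ i j, j < i → B i j = 0 := by
    intro i j hij
    rw [hB, Matrix.mul_diagonal, hTTu i j hij, zero_mul]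
  have hBd : ∀ i, B i i = α (Fin.last (g + 1)) (i + 1) := by
    intro i
    rw [hB, Matrix.mul_diagonal, hα2]
    simp only [hθ1, hb]
    ring
  have hBdist : ∀ i j, i ≠ j → B i i ≠ B j j := by
    intro i j hij h
    apply hij
    rw [hBd, hBd, hα2] at h
    exact add_right_cancel (hN1 h)
  obtain ⟨V, hVu, hVd, hVB⟩ := exists_tri_conj B hBu hBdist
  have hdB : (diagonal fun i => B i i : Mat r) = mono 0 (fun i => α (Fin.last (g + 1)) (i + 1)) := by
    rw [mono_zero]
    congr 1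
    funext i
    exact hBd i
  have hVdet : V.det = 1 := by
    rw [det_upper _ hVu]; exact Finset.prod_eq_one fun i _ => hVd i
  have hE : TT * mono 0 b * V = V * mono 0 (fun i => α (Fin.last (g + 1)) (i + 1)) := by
    rw [← hdB, ← hVB, hB, mono_zero]
  have hK : Kb (cpt α V T 1) = 1 := by
    refine curve_kb (g := g + 1) hη0 hθ0 N hα1 hα2 (T := TT) ?_ ?_ ?_ ?_
    · rw [tri_at_one V hVu, hVdet]; exact isUnit_one
    · rw [tri_at_one TT hTTu, hTTdet]; exact isUnit_one
    · rw [tri_at_one TT hTTu]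
      have : (fun j => tri (T j) 1) = T := funext fun j => tri_at_one (T j) (hTu j)
      rw [this]
    · rw [tri_at_one V hVu, tri_at_one TT hTTu]
      exact hE
  -- scale to determinant one
  set x : Tup (g + 2) r := (cpt α V T 1).1 with hx
  have hx2 : (cpt α V T 1).2 = T := funext fun j => tri_at_one (T j) (hTu j)
  have hlast : x (Fin.last (g + 1)) = (mono 0 (α (Fin.last (g + 1))), V * mono 1 1) := by
    simp only [hx, cpt, Function.update_self, tri_at_one V hVu]
  have hcast : ∀ i : Fin (g + 1), x i.castSucc = (mono 0 (α i.castSucc), mono 1 1) := by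
    intro i
    simp only [hx, cpt, Function.update_of_ne (Fin.castSucc_lt_last i).ne, basePt]
  have hxu : ∀ i, IsUnit (x i).1.det ∧ IsUnit (x i).2.det := by
    intro i
    refine Fin.lastCases ?_ (fun i => ?_) i
    · rw [hlast]
      refine ⟨mono_isUnit 0 _ (hα0 _), ?_⟩
      rw [Matrix.det_mul, hVdet, one_mul]
      exact mono_isUnit 1 1 fun _ => one_ne_zero
    · rw [hcast]
      exact ⟨mono_isUnit 0 _ (hα0 _), mono_isUnit 1 1 fun _ => one_ne_zero⟩
  have h0last : (0 : Fin (g + 2)) = (0 : Fin (g + 1)).castSucc := rfl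
  refine ⟨x, T, ?_, hxu, hTdet, hTC, ?_⟩
  · rw [← hK]
    exact congrArg Kb (Prod.ext rfl hx2.symm)
  · rw [h0last, hcast, hα1]
    exact burn_base (baseCond_bα hη0 hη1 (by exact_mod_cast hN0.ne')).inj

/-- for genus at least two every tuple of classes is realised by an irreducible representation -/
theorem exists_rep (g n r : ℕ) (hr : 0 < r) (C : Fin n → SpecialLinearGroup (Fin r) ℂ) :
    ∃ ρ : (Fin (g + 2) × Bool) ⊕ Fin n → SpecialLinearGroup (Fin r) ℂ,
      (List.ofFn fun i => ρ (.inl (i, false)) * ρ (.inl (i, true)) * (ρ (.inl (i, false)))⁻¹ *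
        (ρ (.inl (i, true)))⁻¹).prod * (List.ofFn fun j => ρ (.inr j)).prod = 1 ∧
      (∀ j, IsConj (C j) (ρ (.inr j))) ∧
      ∀ V : Submodule ℂ (Fin r → ℂ), (∀ k, ∀ v ∈ V, (ρ k).1.mulVec v ∈ V) → V = ⊥ ∨ V = ⊤ := by
  obtain ⟨x, T, hK, hxu, hTdet, hTC, hb⟩ := exists_tuple g n r hr C
  choose A hA using fun i => exists_scale hr (x i).1 (hxu i).1
  choose A' hA' using fun i => exists_scale hr (x i).2 (hxu i).2
  have hTsl : ∀ j, ∃ t : SpecialLinearGroup (Fin r) ℂ, t.1 = T j := fun j => ⟨⟨T j, hTdet j⟩, rfl⟩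
  choose t ht using hTsl
  let ρ : (Fin (g + 2) × Bool) ⊕ Fin n → SpecialLinearGroup (Fin r) ℂ := fun k => match k with
      | .inl (i, false) => A i
      | .inl (i, true) => A' i
      | .inr j => t j
  refine ⟨ρ, ?_, ?_, ?_⟩
  · show (List.ofFn fun i => A i * A' i * (A i)⁻¹ * (A' i)⁻¹).prod * (List.ofFn fun j => t j).prod = 1
    apply Subtype.ext
    have e1 : ((List.ofFn fun i => A i * A' i * (A i)⁻¹ * (A' i)⁻¹).prod).1 = Kp x := by
      rw [sl_coe_prod, List.map_ofFn, Kp]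
      congr 2
      funext i
      simp only [Function.comp, Matrix.SpecialLinearGroup.coe_mul, sl_coe_inv]
      exact cm_pr (hA i) (hA' i) (hxu i).1 (hxu i).2
    have e2 : ((List.ofFn fun j => t j).prod).1 = (List.ofFn T).prod := by
      rw [sl_coe_prod, List.map_ofFn]
      congr 2
      funext j
      exact ht j
    rw [Matrix.SpecialLinearGroup.coe_mul, e1, e2]
    exact hK
  · intro j
    refine isConj_of_cls hr (Cls_symm ?_)
    show (C j).1 ∈ Cls (t j).1
    rw [ht]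
    exact hTC j
  · intro V' hV'
    obtain ⟨κ, hκ, hAκ⟩ := hA 0
    obtain ⟨μ, hμ, hAμ⟩ := hA' 0
    have hb0 : burn ((A 0).1, (A' 0).1) ≠ 0 := by
      rw [hAκ, hAμ]
      exact burn_smul (x 0) κ μ hκ hμ hb
    exact burn_irr _ hb0 V' (fun v hv => hV' (.inl (0, false)) v hv)
      (fun v hv => hV' (.inl (0, true)) v hv)

end existence

end Vale.Agent.P002

namespace Vale.Agent.P002

open Matrix

theorem root_integral {p : Polynomial ℂ} (hp : p.Monic) (h : ∀ k, IsIntegral ℤ (p.coeff k)) {μ : ℂ}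
    (hμ : p.IsRoot μ) : IsIntegral ℤ μ := by
  have h1 : p ∈ Polynomial.lifts (algebraMap (integralClosure ℤ ℂ) ℂ) := by
    rw [Polynomial.lifts_iff_coeff_lifts]
    intro k
    exact ⟨⟨p.coeff k, h k⟩, rfl⟩
  obtain ⟨q, hq, -, hqm⟩ := Polynomial.lifts_and_natDegree_eq_and_monic h1 hp
  have h2 : IsIntegral (integralClosure ℤ ℂ) μ := by
    refine ⟨q, hqm, ?_⟩
    rw [← Polynomial.eval_map, hq]
    exact hμ
  exact isIntegral_trans (R := ℤ) (A := integralClosure ℤ ℂ) μ h2

theorem sl_charpoly_conj {r : ℕ} {A : Type*} [CommRing A] (h M : SpecialLinearGroup (Fin r) A) :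
    (h * M * h⁻¹).1.charpoly = M.1.charpoly := by
  rw [Matrix.SpecialLinearGroup.coe_mul, Matrix.charpoly_mul_comm,
    ← Matrix.SpecialLinearGroup.coe_mul, ← mul_assoc, inv_mul_cancel, one_mul]

theorem charpoly_of_isConj {r : ℕ} {A B : SpecialLinearGroup (Fin r) ℂ} (h : IsConj A B) :
    B.1.charpoly = A.1.charpoly := by
  obtain ⟨c, hc⟩ := isConj_iff.mp h
  rw [← hc, sl_charpoly_conj]

end Vale.Agent.P002
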