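import Vale.Agent.P002.RingMoves
import Vale.Agent.P002.Calc

namespace Vale.Agent.P002

open Topology Filter

section abstract

variable {𝔸 : Type*} [NormedRing 𝔸] [NormedAlgebra ℂ 𝔸] [CompleteSpace 𝔸]
variable {E : Type*} [NormedAddCommGroup E] [NormedSpace ℂ E]

theorem cd_inv {f : E → 𝔸} {x : E} (hf : ContDiffAt ℂ 1 f x) (hu : IsUnit (f x)) :
    ContDiffAt ℂ 1 (fun y => Ring.inverse (f y)) x := by
  obtain ⟨u, hu⟩ := hu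
  have h := contDiffAt_ringInverse ℂ (n := 1) u
  rw [hu] at h
  exact ContDiffAt.comp x h hf

noncomputable def T1 (m k : ℕ) (q : (𝔸 × 𝔸) × ℂ) : 𝔸 × 𝔸 :=
  f1 m q.1 (1 + q.2 • (e1 m q.1) ^ k)

noncomputable def T2 (k : ℕ) (q : (𝔸 × 𝔸) × ℂ) : 𝔸 × 𝔸 :=
  f2 q.1 (1 + q.2 • q.1.1 ^ k)

noncomputable def T3 (m k : ℕ) (q : ((𝔸 × 𝔸) × (𝔸 × 𝔸)) × ℂ) : (𝔸 × 𝔸) × (𝔸 × 𝔸) :=
  f3 m q.1 (1 + q.2 • (e3 m q.1) ^ k)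

noncomputable def T4 (m k : ℕ) (q : ((𝔸 × 𝔸) × (𝔸 × 𝔸)) × ℂ) : (𝔸 × 𝔸) × (𝔸 × 𝔸) :=
  f4 m q.1 (1 + q.2 • (e4 m q.1) ^ k)

section cds
variable {a b a' b' : E → 𝔸} {s : E → ℂ} {x : E} (ha : ContDiffAt ℂ 1 a x)
  (hb : ContDiffAt ℂ 1 b x) (ha' : ContDiffAt ℂ 1 a' x) (hb' : ContDiffAt ℂ 1 b' x)
  (hs : ContDiffAt ℂ 1 s x)

include ha hb in
theorem cd_e1 (m : ℕ) : ContDiffAt ℂ 1 (fun y => e1 m (a y, b y)) x := hb.mul (ha.pow m)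

include ha hb ha' hb' in
theorem cd_e3 (m : ℕ) (ua : IsUnit (a x)) (ub : IsUnit (b x)) :
    ContDiffAt ℂ 1 (fun y => e3 m ((a y, b y), (a' y, b' y))) x :=
  ((((hb.mul (cd_inv ha ua)).mul (cd_inv hb ub)).mul ha').mul hb').mul (ha'.pow m)

include ha hb ha' hb' in
theorem cd_e4 (m : ℕ) (ua : IsUnit (a x)) (ub : IsUnit (b x)) :
    ContDiffAt ℂ 1 (fun y => e4 m ((a y, b y), (a' y, b' y))) x :=
  ((((cd_inv ha ua).mul (cd_inv hb ub)).mul ha').mul hb').mul (ha'.pow m)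

theorem cd_t {e : E → 𝔸} (he : ContDiffAt ℂ 1 e x) (hs : ContDiffAt ℂ 1 s x) (k : ℕ) :
    ContDiffAt ℂ 1 (fun y => 1 + s y • (e y) ^ k) x :=
  contDiffAt_const.add (hs.smul (he.pow k))

theorem cd_h2m {t : E → 𝔸} (ha' : ContDiffAt ℂ 1 a' x) (hb' : ContDiffAt ℂ 1 b' x)
    (ht : ContDiffAt ℂ 1 t x) (m : ℕ) (ua : IsUnit (a' x)) (ut : IsUnit (t x)) :
    ContDiffAt ℂ 1 (fun y => h2m m (a' y, b' y) (t y)) x :=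
  (ht.mul ha').prodMk (((hb'.mul (ha'.pow m)).mul (cd_inv ht ut)).mul
    ((cd_inv (ht.mul ha') (ut.mul ua)).pow m))

end cds

theorem cd_T1 (m k : ℕ) (p0 : 𝔸 × 𝔸) (h : UP p0) :
    ContDiffAt ℂ 1 (T1 m k : (𝔸 × 𝔸) × ℂ → 𝔸 × 𝔸) (p0, 0) := by
  have ha : ContDiffAt ℂ 1 (fun q : (𝔸 × 𝔸) × ℂ => q.1.1) (p0, 0) :=
    contDiffAt_fst.fst
  have hb : ContDiffAt ℂ 1 (fun q : (𝔸 × 𝔸) × ℂ => q.1.2) (p0, 0) :=
    contDiffAt_fst.snd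
  have hs : ContDiffAt ℂ 1 (fun q : (𝔸 × 𝔸) × ℂ => q.2) (p0, 0) := contDiffAt_snd
  have ht := cd_t (cd_e1 ha hb m) hs k
  have hu : IsUnit (p0.1 * (1 + (0 : ℂ) • (e1 m p0) ^ k)) := by simpa using h.1
  exact (ha.mul ht).prodMk ((hb.mul (ha.pow m)).mul ((cd_inv (ha.mul ht) hu).pow m))

theorem cd_T2 (k : ℕ) (p0 : 𝔸 × 𝔸) :
    ContDiffAt ℂ 1 (T2 k : (𝔸 × 𝔸) × ℂ → 𝔸 × 𝔸) (p0, 0) := by
  have ha : ContDiffAt ℂ 1 (fun q : (𝔸 × 𝔸) × ℂ => q.1.1) (p0, 0) :=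
    contDiffAt_fst.fst
  have hb : ContDiffAt ℂ 1 (fun q : (𝔸 × 𝔸) × ℂ => q.1.2) (p0, 0) :=
    contDiffAt_fst.snd
  have hs : ContDiffAt ℂ 1 (fun q : (𝔸 × 𝔸) × ℂ => q.2) (p0, 0) := contDiffAt_snd
  have ht := cd_t ha hs k
  exact ha.prodMk (hb.mul ht)

theorem cd_T3 (m k : ℕ) (q0 : (𝔸 × 𝔸) × (𝔸 × 𝔸)) (h : UP q0.1) (h' : UP q0.2) :
    ContDiffAt ℂ 1 (T3 m k : ((𝔸 × 𝔸) × (𝔸 × 𝔸)) × ℂ → _) (q0, 0) := by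
  have ha : ContDiffAt ℂ 1 (fun q : ((𝔸 × 𝔸) × (𝔸 × 𝔸)) × ℂ => q.1.1.1) (q0, 0) :=
    contDiffAt_fst.fst.fst
  have hb : ContDiffAt ℂ 1 (fun q : ((𝔸 × 𝔸) × (𝔸 × 𝔸)) × ℂ => q.1.1.2) (q0, 0) :=
    contDiffAt_fst.fst.snd
  have ha' : ContDiffAt ℂ 1 (fun q : ((𝔸 × 𝔸) × (𝔸 × 𝔸)) × ℂ => q.1.2.1) (q0, 0) :=
    contDiffAt_fst.snd.fst
  have hb' : ContDiffAt ℂ 1 (fun q : ((𝔸 × 𝔸) × (𝔸 × 𝔸)) × ℂ => q.1.2.2) (q0, 0) :=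
    contDiffAt_fst.snd.snd
  have hs : ContDiffAt ℂ 1 (fun q : ((𝔸 × 𝔸) × (𝔸 × 𝔸)) × ℂ => q.2) (q0, 0) := contDiffAt_snd
  have ht := cd_t (cd_e3 ha hb ha' hb' m h.1 h.2) hs k
  have ut : IsUnit (1 + (0 : ℂ) • (e3 m q0) ^ k) := by simp
  exact (ha.prodMk (ht.mul hb)).prodMk (cd_h2m ha' hb' ht m h'.1 ut)

theorem cd_T4 (m k : ℕ) (q0 : (𝔸 × 𝔸) × (𝔸 × 𝔸)) (h : UP q0.1) (h' : UP q0.2) :
    ContDiffAt ℂ 1 (T4 m k : ((𝔸 × 𝔸) × (𝔸 × 𝔸)) × ℂ → _) (q0, 0) := by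
  have ha : ContDiffAt ℂ 1 (fun q : ((𝔸 × 𝔸) × (𝔸 × 𝔸)) × ℂ => q.1.1.1) (q0, 0) :=
    contDiffAt_fst.fst.fst
  have hb : ContDiffAt ℂ 1 (fun q : ((𝔸 × 𝔸) × (𝔸 × 𝔸)) × ℂ => q.1.1.2) (q0, 0) :=
    contDiffAt_fst.fst.snd
  have ha' : ContDiffAt ℂ 1 (fun q : ((𝔸 × 𝔸) × (𝔸 × 𝔸)) × ℂ => q.1.2.1) (q0, 0) :=
    contDiffAt_fst.snd.fst
  have hb' : ContDiffAt ℂ 1 (fun q : ((𝔸 × 𝔸) × (𝔸 × 𝔸)) × ℂ => q.1.2.2) (q0, 0) :=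
    contDiffAt_fst.snd.snd
  have hs : ContDiffAt ℂ 1 (fun q : ((𝔸 × 𝔸) × (𝔸 × 𝔸)) × ℂ => q.2) (q0, 0) := contDiffAt_snd
  have ht := cd_t (cd_e4 ha hb ha' hb' m h.1 h.2) hs k
  have ut : IsUnit (1 + (0 : ℂ) • (e4 m q0) ^ k) := by simp
  exact ((ha.mul (cd_inv ht ut)).prodMk (ht.mul hb)).prodMk (cd_h2m ha' hb' ht m h'.1 ut)

theorem f1_one (m : ℕ) (p : 𝔸 × 𝔸) (hp : UP p) : f1 m p 1 = p := by
  obtain ⟨a, b⟩ := p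
  obtain ⟨⟨a, rfl⟩, -⟩ := hp
  simp only [f1, mul_one, Ring.inverse_unit]
  refine Prod.ext rfl ?_
  simp only [mul_assoc, ← Units.val_pow_eq_pow_val, ← Units.val_mul]
  simp

theorem h2m_one (m : ℕ) (p : 𝔸 × 𝔸) (hp : UP p) : h2m m p 1 = p := by
  obtain ⟨a, b⟩ := p
  obtain ⟨⟨a, rfl⟩, -⟩ := hp
  simp only [h2m, one_mul, Ring.inverse_one, mul_one, Ring.inverse_unit]
  refine Prod.ext rfl ?_
  simp only [mul_assoc, ← Units.val_pow_eq_pow_val, ← Units.val_mul]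
  simp

theorem T1_zero (m k : ℕ) (p : 𝔸 × 𝔸) (hp : UP p) : T1 m k (p, 0) = p := by
  simp only [T1, zero_smul, add_zero]; exact f1_one m p hp

theorem T2_zero (k : ℕ) (p : 𝔸 × 𝔸) : T2 k (p, 0) = p := by
  simp only [T2, zero_smul, add_zero, f2, mul_one]

theorem T3_zero (m k : ℕ) (q : (𝔸 × 𝔸) × (𝔸 × 𝔸)) (hq : UP q.2) : T3 m k (q, 0) = q := by
  simp only [T3, zero_smul, add_zero, f3, one_mul]
  rw [h2m_one m _ hq]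

theorem T4_zero (m k : ℕ) (q : (𝔸 × 𝔸) × (𝔸 × 𝔸)) (hq : UP q.2) : T4 m k (q, 0) = q := by
  simp only [T4, zero_smul, add_zero, f4, one_mul, Ring.inverse_one, mul_one]
  rw [h2m_one m _ hq]

theorem hasDeriv_t (e : 𝔸) : HasDerivAt (fun s : ℂ => (1 : 𝔸) + s • e) e 0 := by
  have := ((hasDerivAt_id (0 : ℂ)).smul_const e).const_add (1 : 𝔸)
  simpa using this

theorem hasDeriv_tinv (e : 𝔸) : HasDerivAt (fun s : ℂ => Ring.inverse ((1 : 𝔸) + s • e)) (-e) 0 := by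
  have h1 := hasDeriv_t e
  obtain ⟨L, hL, hLe⟩ := os_inv (1 : 𝔸) isUnit_one
  have hL' : HasFDerivAt (Ring.inverse : 𝔸 → 𝔸) L ((1 : 𝔸) + (0 : ℂ) • e) := by
    simpa using hL.hasFDerivAt
  have := hL'.comp_hasDerivAt (0 : ℂ) h1
  have h2 : L e = -e := by rw [hLe]; simp
  rw [h2] at this
  exact this

theorem eventually_UP {p0 : 𝔸 × 𝔸} (h : UP p0) : ∀ᶠ p in 𝓝 p0, UP p := by
  have h1 : ∀ᶠ p : 𝔸 × 𝔸 in 𝓝 p0, IsUnit p.1 :=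
    continuousAt_fst.eventually (Units.isOpen.mem_nhds h.1)
  have h2 : ∀ᶠ p : 𝔸 × 𝔸 in 𝓝 p0, IsUnit p.2 :=
    continuousAt_snd.eventually (Units.isOpen.mem_nhds h.2)
  filter_upwards [h1, h2] with p a b using ⟨a, b⟩

variable {Rel : 𝔸 × 𝔸 → 𝔸 × 𝔸 → Prop}

theorem isFlow_T1 (m k : ℕ) (p0 : 𝔸 × 𝔸) (h : UP p0)
    (hRel : ∀ᶠ q in 𝓝 (p0, (0 : ℂ)), Rel q.1 (T1 m k q)) :
    ∃ β : 𝔸, IsFlow Rel p0 (p0.1 * (e1 m p0) ^ k, β) := by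
  have hcd := cd_T1 m k p0 h
  have hd : DifferentiableAt ℂ (fun s : ℂ => T1 m k (p0, s)) 0 := by
    have h1 := hcd.differentiableAt one_ne_zero
    exact DifferentiableAt.comp (g := T1 m k) (f := fun s : ℂ => (p0, s)) (0 : ℂ) h1
      (differentiableAt_const _ |>.prodMk differentiableAt_id)
  have hv := hd.hasDerivAt
  set v := deriv (fun s : ℂ => T1 m k (p0, s)) 0 with hvdef
  have hfst : v.1 = p0.1 * (e1 m p0) ^ k := by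
    have h1 : HasDerivAt (fun s : ℂ => (T1 m k (p0, s)).1) v.1 0 := by
      have := (ContinuousLinearMap.fst ℂ 𝔸 𝔸).hasFDerivAt.comp_hasDerivAt (0 : ℂ) hv
      exact this
    have h2 : HasDerivAt (fun s : ℂ => (T1 m k (p0, s)).1) (p0.1 * (e1 m p0) ^ k) 0 :=
      (hasDeriv_t ((e1 m p0) ^ k)).const_mul p0.1
    exact h1.unique h2
  refine ⟨v.2, ?_⟩
  rw [← hfst]
  exact isFlow_of_contDiffAt (T1 m k) hcd ((eventually_UP h).mono fun p hp => T1_zero m k p hp)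
    hv hRel

theorem isFlow_T2 (k : ℕ) (p0 : 𝔸 × 𝔸)
    (hRel : ∀ᶠ q in 𝓝 (p0, (0 : ℂ)), Rel q.1 (T2 k q)) :
    IsFlow Rel p0 (0, p0.2 * p0.1 ^ k) := by
  refine isFlow_of_contDiffAt (T2 k) (cd_T2 k p0) (Eventually.of_forall fun p => T2_zero k p)
    ?_ hRel
  have h1 : HasDerivAt (fun _ : ℂ => p0.1) 0 (0 : ℂ) := hasDerivAt_const (0 : ℂ) p0.1
  have h2 : HasDerivAt (fun s : ℂ => p0.2 * (1 + s • p0.1 ^ k)) (p0.2 * p0.1 ^ k) 0 :=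
    (hasDeriv_t (p0.1 ^ k)).const_mul p0.2
  exact h1.prodMk h2

variable {Rel' : (𝔸 × 𝔸) × (𝔸 × 𝔸) → (𝔸 × 𝔸) × (𝔸 × 𝔸) → Prop}

theorem isFlow_T3 (m k : ℕ) (q0 : (𝔸 × 𝔸) × (𝔸 × 𝔸)) (h : UP q0.1) (h' : UP q0.2)
    (hRel : ∀ᶠ q in 𝓝 (q0, (0 : ℂ)), Rel' q.1 (T3 m k q)) :
    ∃ β : 𝔸 × 𝔸, IsFlow Rel' q0 ((0, (e3 m q0) ^ k * q0.1.2), β) := by
  have hcd := cd_T3 m k q0 h h'
  have hd : DifferentiableAt ℂ (fun s : ℂ => T3 m k (q0, s)) 0 := by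
    have h1 := hcd.differentiableAt one_ne_zero
    exact DifferentiableAt.comp (g := T3 m k) (f := fun s : ℂ => (q0, s)) (0 : ℂ) h1
      (differentiableAt_const _ |>.prodMk differentiableAt_id)
  have hv := hd.hasDerivAt
  set v := deriv (fun s : ℂ => T3 m k (q0, s)) 0 with hvdef
  have hfst : v.1 = (0, (e3 m q0) ^ k * q0.1.2) := by
    have h1 : HasDerivAt (fun s : ℂ => (T3 m k (q0, s)).1) v.1 0 := by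
      have := (ContinuousLinearMap.fst ℂ (𝔸 × 𝔸) (𝔸 × 𝔸)).hasFDerivAt.comp_hasDerivAt (0 : ℂ) hv
      exact this
    have h3 : HasDerivAt (fun _ : ℂ => q0.1.1) 0 (0 : ℂ) := hasDerivAt_const (0 : ℂ) q0.1.1
    have h4 : HasDerivAt (fun s : ℂ => (1 + s • (e3 m q0) ^ k) * q0.1.2)
        ((e3 m q0) ^ k * q0.1.2) 0 := (hasDeriv_t ((e3 m q0) ^ k)).mul_const q0.1.2
    have h2 : HasDerivAt (fun s : ℂ => (T3 m k (q0, s)).1) (0, (e3 m q0) ^ k * q0.1.2) 0 :=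
      h3.prodMk h4
    exact h1.unique h2
  refine ⟨v.2, ?_⟩
  rw [← hfst]
  refine isFlow_of_contDiffAt (T3 m k) hcd ?_ hv hRel
  have : ∀ᶠ q : (𝔸 × 𝔸) × (𝔸 × 𝔸) in 𝓝 q0, UP q.2 :=
    continuousAt_snd.eventually (eventually_UP h')
  exact this.mono fun q hq => T3_zero m k q hq

theorem isFlow_T4 (m k : ℕ) (q0 : (𝔸 × 𝔸) × (𝔸 × 𝔸)) (h : UP q0.1) (h' : UP q0.2)
    (hRel : ∀ᶠ q in 𝓝 (q0, (0 : ℂ)), Rel' q.1 (T4 m k q)) :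
    ∃ β : 𝔸 × 𝔸, IsFlow Rel' q0
      ((-(q0.1.1 * (e4 m q0) ^ k), (e4 m q0) ^ k * q0.1.2), β) := by
  have hcd := cd_T4 m k q0 h h'
  have hd : DifferentiableAt ℂ (fun s : ℂ => T4 m k (q0, s)) 0 := by
    have h1 := hcd.differentiableAt one_ne_zero
    exact DifferentiableAt.comp (g := T4 m k) (f := fun s : ℂ => (q0, s)) (0 : ℂ) h1
      (differentiableAt_const _ |>.prodMk differentiableAt_id)
  have hv := hd.hasDerivAt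
  set v := deriv (fun s : ℂ => T4 m k (q0, s)) 0 with hvdef
  have hfst : v.1 = (-(q0.1.1 * (e4 m q0) ^ k), (e4 m q0) ^ k * q0.1.2) := by
    have h1 : HasDerivAt (fun s : ℂ => (T4 m k (q0, s)).1) v.1 0 := by
      have := (ContinuousLinearMap.fst ℂ (𝔸 × 𝔸) (𝔸 × 𝔸)).hasFDerivAt.comp_hasDerivAt (0 : ℂ) hv
      exact this
    have h3 : HasDerivAt (fun s : ℂ => q0.1.1 * Ring.inverse ((1 : 𝔸) + s • (e4 m q0) ^ k))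
        (-(q0.1.1 * (e4 m q0) ^ k)) 0 := by
      have := (hasDeriv_tinv ((e4 m q0) ^ k)).const_mul q0.1.1
      simpa using this
    have h2 : HasDerivAt (fun s : ℂ => (T4 m k (q0, s)).1)
        (-(q0.1.1 * (e4 m q0) ^ k), (e4 m q0) ^ k * q0.1.2) 0 :=
      h3.prodMk ((hasDeriv_t ((e4 m q0) ^ k)).mul_const q0.1.2)
    exact h1.unique h2
  refine ⟨v.2, ?_⟩
  rw [← hfst]
  refine isFlow_of_contDiffAt (T4 m k) hcd ?_ hv hRel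
  have : ∀ᶠ q : (𝔸 × 𝔸) × (𝔸 × 𝔸) in 𝓝 q0, UP q.2 :=
    continuousAt_snd.eventually (eventually_UP h')
  exact this.mono fun q hq => T4_zero m k q hq

end abstract

end Vale.Agent.P002
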