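import Vale.Agent.P002.GenDual

namespace Vale.Agent.P002

open Matrix Module

section count

variable {k F : Type*} [CommRing k] [Field F] [Algebra k F] {r : ℕ}

theorem gc_map_one (D : Derivation k F F) : (1 : MF r F).map D = 0 := by
  ext i j
  by_cases h : i = j
  · subst h; simp
  · simp [h]

theorem gc_map_inv (D : Derivation k F F) (a : MF r F) (ha : IsUnit a) :
    (Ring.inverse a).map D = -(Ring.inverse a * a.map D * Ring.inverse a) := by
  have h1 : a * Ring.inverse a = 1 := Ring.mul_inverse_cancel a ha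
  have h2 : Ring.inverse a * a = 1 := Ring.inverse_mul_cancel a ha
  have h3 := congrArg (fun M : MF r F => M.map D) h1
  simp only [ge_map_mul, gc_map_one] at h3
  have h4 : Ring.inverse a * (a.map D * Ring.inverse a + a * (Ring.inverse a).map D) = 0 := by
    rw [h3, mul_zero]
  rw [mul_add, ← mul_assoc, ← mul_assoc, h2, one_mul] at h4
  exact eq_neg_of_add_eq_zero_right h4

theorem gc_map_cm (D : Derivation k F F) (p : MF r F × MF r F) (h1 : IsUnit p.1)
    (h2 : IsUnit p.2) : (cmA p).map D = dcmA p (p.1.map D, p.2.map D) := by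
  simp only [cmA, dcmA, ge_map_mul, gc_map_inv D p.1 h1, gc_map_inv D p.2 h2]
  noncomm_ring

theorem gc_map_kp {g : ℕ} (D : Derivation k F F) (x : Fin g → MF r F × MF r F)
    (hx : ∀ i, IsUnit (x i).1 ∧ IsUnit (x i).2) :
    (kpA x).map D = dkA g x (fun i => ((x i).1.map D, (x i).2.map D)) := by
  induction g with
  | zero => simp [kpA, dkA, gc_map_one]
  | succ g ih =>
    rw [kpA_succ, ge_map_mul, ih _ (fun i => hx i.succ), gc_map_cm D _ (hx 0).1 (hx 0).2]
    simp only [dkA]
    rw [add_comm]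

theorem gc_scal_cm (p : MF r F × MF r F) (h1 : IsUnit p.1) (h2 : IsUnit p.2) (a b : F) :
    dcmA p (a • p.1, b • p.2) = 0 := by
  have e1 : Ring.inverse p.1 * p.1 = 1 := Ring.inverse_mul_cancel _ h1
  have e2 : Ring.inverse p.2 * p.2 = 1 := Ring.inverse_mul_cancel _ h2
  simp only [dcmA, Matrix.smul_mul, Matrix.mul_smul, e1, e2, one_mul]
  abel

theorem gc_scal_kp {g : ℕ} (x : Fin g → MF r F × MF r F)
    (hx : ∀ i, IsUnit (x i).1 ∧ IsUnit (x i).2) (c : Fin g → F × F) :
    dkA g x (fun i => ((c i).1 • (x i).1, (c i).2 • (x i).2)) = 0 := by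
  induction g with
  | zero => rfl
  | succ g ih =>
    simp only [dkA]
    rw [ih _ (fun i => hx i.succ) (fun i => c i.succ), gc_scal_cm _ (hx 0).1 (hx 0).2]
    simp

theorem gc_prod {ι : Type*} (D : Derivation k F F) (c : F) (s : Finset ι) (f : ι → F)
    (h : ∀ i ∈ s, D (f i) = c * f i) : D (∏ i ∈ s, f i) = (s.card * c) * ∏ i ∈ s, f i := by
  classical
  induction s using Finset.induction_on with
  | empty => simp
  | insert a s ha ih =>
    rw [Finset.prod_insert ha, Derivation.leibniz, ih (fun i hi => h i (Finset.mem_insert_of_mem hi)),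
      h a (Finset.mem_insert_self _ _), Finset.card_insert_of_notMem ha]
    simp only [smul_eq_mul]
    push_cast
    ring

theorem gc_det (D : Derivation k F F) (c : F) (X : MF r F) (h : X.map D = c • X) :
    D X.det = (r * c) * X.det := by
  have h' : ∀ i j, D (X i j) = c * X i j := by
    intro i j
    have := congrFun (congrFun h i) j
    simpa using this
  rw [Matrix.det_apply', map_sum, Finset.mul_sum]
  refine Finset.sum_congr rfl fun σ _ => ?_
  rw [Derivation.leibniz, gc_prod D c Finset.univ (fun i => X (σ i) i) (fun i _ => h' _ _)]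
  simp only [Finset.card_univ, Fintype.card_fin, smul_eq_mul, Derivation.map_intCast, mul_zero,
    add_zero]
  ring

theorem gc_det_one [CharZero F] (hr : r ≠ 0) (D : Derivation k F F) (c : F) (X : MF r F)
    (hX : X.det = 1) (h : X.map D + c • X = 0) : c = 0 ∧ X.map D = 0 := by
  have h1 : X.map D = (-c) • X := by
    rw [neg_smul]; exact eq_neg_of_add_eq_zero_left h
  have h2 := gc_det D (-c) X h1
  rw [hX, Derivation.map_one_eq_zero, mul_one] at h2
  have h3 : -c = 0 := by
    rcases mul_eq_zero.mp h2.symm with h4 | h4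
    · exact absurd (Nat.cast_eq_zero.mp h4) hr
    · exact h4
  rw [h3, zero_smul] at h1
  exact ⟨neg_eq_zero.mp h3, h1⟩

def derMap (k : Type*) [CommRing k] [Algebra k F] (A : MF r F) :
    Derivation k F F →ₗ[F] MF r F where
  toFun D := A.map D
  map_add' D D' := by ext i j; simp
  map_smul' c D := by ext i j; simp

def twL (k : Type*) [CommRing k] [Algebra k F] {n : ℕ} (x : Fin n → MF r F × MF r F) :
    (Derivation k F F × (Fin n → F × F)) →ₗ[F] (Fin n → MF r F × MF r F) :=
  LinearMap.pi fun i => LinearMap.prod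
    ((derMap k (x i).1).comp (LinearMap.fst _ _ _) +
      (LinearMap.toSpanSingleton F _ (x i).1).comp
        ((LinearMap.fst _ _ _).comp ((LinearMap.proj i).comp (LinearMap.snd _ _ _))))
    ((derMap k (x i).2).comp (LinearMap.fst _ _ _) +
      (LinearMap.toSpanSingleton F _ (x i).2).comp
        ((LinearMap.snd _ _ _).comp ((LinearMap.proj i).comp (LinearMap.snd _ _ _))))

theorem twL_apply {n : ℕ} (x : Fin n → MF r F × MF r F) (D : Derivation k F F)
    (c : Fin n → F × F) (i : Fin n) :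
    twL k x (D, c) i = ((x i).1.map D + (c i).1 • (x i).1, (x i).2.map D + (c i).2 • (x i).2) :=
  rfl

theorem gc_rank {V W : Type*} [AddCommGroup V] [Module F V] [AddCommGroup W] [Module F W]
    [FiniteDimensional F V] (f : V →ₗ[F] W) (P : Submodule F V) :
    finrank F (P.map f) + finrank F (P ⊓ LinearMap.ker f : Submodule F V) = finrank F P := by
  have h := (f.domRestrict P).finrank_range_add_finrank_ker
  rw [LinearMap.range_domRestrict] at h
  have h2 : finrank F (LinearMap.ker (f.domRestrict P)) =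
      finrank F (P ⊓ LinearMap.ker f : Submodule F V) := by
    rw [← Submodule.map_comap_subtype, Submodule.finrank_map_subtype_eq]
    congr 1
  rw [← h2]
  exact h

theorem gc_isUnit {X : MF r F} (h : X.det = 1) : IsUnit X := by
  rw [Matrix.isUnit_iff_isUnit_det, h]
  exact isUnit_one

theorem gc_count [IsAlgClosed F] [CharZero F] [FiniteDimensional F (Derivation k F F)]
    {n1 n2 : ℕ} (x : Fin n1 → MF r F × MF r F) (y : Fin n2 → MF r F × MF r F)
    (hx : ∀ i, (x i).1.det = 1 ∧ (x i).2.det = 1) (hy : ∀ i, (y i).1.det = 1 ∧ (y i).2.det = 1)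
    (hxy : kpA x * kpA y = 1) (ζ : MF r F) (hζ : ∀ c : F, ζ ≠ c • (1 : MF r F))
    (hζx : ζ ∈ comT x)
    (hinj : ∀ D : Derivation k F F, ζ.map D = 0 →
      (∀ i, (x i).1.map D = 0 ∧ (x i).2.map D = 0) →
      (∀ i, (y i).1.map D = 0 ∧ (y i).2.map D = 0) → D = 0) :
    finrank F (Derivation k F F) + 2 * (n1 + n2) + 2 * finrank F (LinearMap.ker (adL ζ)) + r * r ≤
      2 * (r * r) + 2 * n1 * finrank F (LinearMap.ker (adL ζ)) + 2 * n2 * (r * r) +
        finrank F (comT y) := by
  have hr : r ≠ 0 := by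
    rintro rfl
    exact hζ 0 (Subsingleton.elim _ _)
  have hxu : ∀ i, IsUnit (x i).1 ∧ IsUnit (x i).2 := fun i =>
    ⟨gc_isUnit (hx i).1, gc_isUnit (hx i).2⟩
  have hyu : ∀ i, IsUnit (y i).1 ∧ IsUnit (y i).2 := fun i =>
    ⟨gc_isUnit (hy i).1, gc_isUnit (hy i).2⟩
  set Z := LinearMap.ker (adL ζ) with hZ
  let Φ1 : (Derivation k F F × (Fin n1 → F × F) × (Fin n2 → F × F)) →ₗ[F] MF r F :=
    (derMap k ζ).comp (LinearMap.fst _ _ _)
  let Φ2 : (Derivation k F F × (Fin n1 → F × F) × (Fin n2 → F × F)) →ₗ[F]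
      (Fin n1 → MF r F × MF r F) :=
    (twL k x).comp (LinearMap.prod (LinearMap.fst _ _ _)
      ((LinearMap.fst _ _ _).comp (LinearMap.snd _ _ _)))
  let Φ3 : (Derivation k F F × (Fin n1 → F × F) × (Fin n2 → F × F)) →ₗ[F]
      (Fin n2 → MF r F × MF r F) :=
    (twL k y).comp (LinearMap.prod (LinearMap.fst _ _ _)
      ((LinearMap.snd _ _ _).comp (LinearMap.snd _ _ _)))
  have hΦ1 : ∀ D c c', Φ1 (D, c, c') = ζ.map D := fun _ _ _ => rfl
  have hΦ2 : ∀ D c c' i, Φ2 (D, c, c') i =
      ((x i).1.map D + (c i).1 • (x i).1, (x i).2.map D + (c i).2 • (x i).2) :=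
    fun _ _ _ _ => rfl
  have hΦ3 : ∀ D c c' i, Φ3 (D, c, c') i =
      ((y i).1.map D + (c' i).1 • (y i).1, (y i).2.map D + (c' i).2 • (y i).2) :=
    fun _ _ _ _ => rfl
  have r1 := gc_rank Φ1 ⊤
  have r2 := gc_rank Φ2 (⊤ ⊓ LinearMap.ker Φ1)
  have r3 := gc_rank Φ3 (⊤ ⊓ LinearMap.ker Φ1 ⊓ LinearMap.ker Φ2)
  have r0 : finrank F (⊤ : Submodule F (Derivation k F F × (Fin n1 → F × F) × (Fin n2 → F × F))) =
      finrank F (Derivation k F F) + 2 * (n1 + n2) := by
    rw [finrank_top, Module.finrank_prod, Module.finrank_prod, Module.finrank_pi_fintype,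
      Module.finrank_pi_fintype]
    simp only [Module.finrank_prod, Module.finrank_self, Finset.sum_const, Finset.card_univ,
      Fintype.card_fin, smul_eq_mul]
    ring
  have b1 := gr_main (k := k) ζ hζ (Submodule.map Φ1 ⊤) (by
    rintro _ ⟨⟨D, c, c'⟩, -, rfl⟩
    exact ⟨D, rfl⟩)
  rw [← hZ] at b1
  have c1 : ∀ D : Derivation k F F, ζ.map D = 0 → ∀ X : MF r F, Commute ζ X → Commute ζ (X.map D) := by
    intro D hD X hX
    have := congrArg (fun M : MF r F => M.map D) hX.eq
    simp only [ge_map_mul, hD, zero_mul, mul_zero, zero_add, add_zero] at this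
    exact this
  have b2 : finrank F (Submodule.map Φ2 (⊤ ⊓ LinearMap.ker Φ1)) ≤ 2 * n1 * finrank F Z := by
    let ι : (Fin n1 → Z × Z) →ₗ[F] (Fin n1 → MF r F × MF r F) :=
      LinearMap.pi fun i => (Z.subtype.prodMap Z.subtype).comp (LinearMap.proj i)
    have h1 : Submodule.map Φ2 (⊤ ⊓ LinearMap.ker Φ1) ≤ LinearMap.range ι := by
      rintro _ ⟨⟨D, c, c'⟩, ⟨-, hD⟩, rfl⟩
      have hD' : ζ.map D = 0 := hD
      have hcom := mem_comT.mp hζx
      have hmem : ∀ X : MF r F, Commute ζ X → ∀ a : F, X.map D + a • X ∈ Z := by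
        intro X hX a
        rw [hZ, mem_ker_adL]
        exact ((c1 D hD' X hX).add_right (hX.smul_right a)).eq
      refine ⟨fun i => (⟨_, hmem (x i).1 (hcom i).1 (c i).1⟩, ⟨_, hmem (x i).2 (hcom i).2 (c i).2⟩), ?_⟩
      rfl
    have h2 := (Submodule.finrank_mono h1).trans (LinearMap.finrank_range_le ι)
    have h3 : finrank F (Fin n1 → Z × Z) = 2 * n1 * finrank F Z := by
      rw [Module.finrank_pi_fintype]
      simp only [Module.finrank_prod, Finset.sum_const, Finset.card_univ, Fintype.card_fin,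
        smul_eq_mul]
      ring
    rw [h3] at h2
    exact h2
  have c2 : ∀ D c c', Φ2 (D, c, c') = 0 → ∀ i, ((c i).1 = 0 ∧ (x i).1.map D = 0) ∧
      ((c i).2 = 0 ∧ (x i).2.map D = 0) := by
    intro D c c' h i
    have h1 := congrFun h i
    rw [hΦ2] at h1
    have h2 := congrArg Prod.fst h1
    have h3 := congrArg Prod.snd h1
    exact ⟨gc_det_one hr D _ _ (hx i).1 h2, gc_det_one hr D _ _ (hx i).2 h3⟩
  have b3 : finrank F (Submodule.map Φ3 (⊤ ⊓ LinearMap.ker Φ1 ⊓ LinearMap.ker Φ2)) ≤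
      finrank F (LinearMap.ker (dkL y)) := by
    apply Submodule.finrank_mono
    rintro _ ⟨⟨D, c, c'⟩, ⟨-, hD2⟩, rfl⟩
    have hX := c2 D c c' hD2
    have h1 : (kpA x).map D = 0 := by
      rw [gc_map_kp D x hxu]
      have : (fun i => ((x i).1.map D, (x i).2.map D)) = fun _ => (0 : MF r F × MF r F) := by
        funext i
        rw [(hX i).1.2, (hX i).2.2]
        rfl
      rw [this]
      exact gu_dkA_zero x
    have h2 : (kpA y).map D = 0 := by
      have h3 := congrArg (fun M : MF r F => M.map D) hxy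
      simp only [ge_map_mul, h1, zero_mul, zero_add, gc_map_one] at h3
      have hu := gu_isUnit_kpA x hxu
      exact (hu.mul_right_eq_zero).mp h3
    rw [gc_map_kp D y hyu] at h2
    have h4 := gc_scal_kp y hyu c'
    rw [LinearMap.mem_ker]
    have h5 : Φ3 (D, c, c') = (fun i => ((y i).1.map D, (y i).2.map D)) +
        (fun i => ((c' i).1 • (y i).1, (c' i).2 • (y i).2)) := by
      funext i
      rw [hΦ3]
      rfl
    rw [h5, map_add, dkL_apply, dkL_apply, h2, h4, add_zero]
  have b4 : finrank F (⊤ ⊓ LinearMap.ker Φ1 ⊓ LinearMap.ker Φ2 ⊓ LinearMap.ker Φ3 :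
      Submodule F (Derivation k F F × (Fin n1 → F × F) × (Fin n2 → F × F))) = 0 := by
    rw [Submodule.finrank_eq_zero, eq_bot_iff]
    rintro ⟨D, c, c'⟩ ⟨⟨⟨-, hD1⟩, hD2⟩, hD3⟩
    have hX := c2 D c c' hD2
    have hY : ∀ i, ((c' i).1 = 0 ∧ (y i).1.map D = 0) ∧ ((c' i).2 = 0 ∧ (y i).2.map D = 0) := by
      intro i
      have h1 := congrFun (show Φ3 (D, c, c') = 0 from hD3) i
      rw [hΦ3] at h1
      have h2 := congrArg Prod.fst h1
      have h3 := congrArg Prod.snd h1
      exact ⟨gc_det_one hr D _ _ (hy i).1 h2, gc_det_one hr D _ _ (hy i).2 h3⟩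
    have hD : D = 0 := hinj D hD1 (fun i => ⟨(hX i).1.2, (hX i).2.2⟩)
      (fun i => ⟨(hY i).1.2, (hY i).2.2⟩)
    have hc : c = 0 := funext fun i => Prod.ext (hX i).1.1 (hX i).2.1
    have hc' : c' = 0 := funext fun i => Prod.ext (hY i).1.1 (hY i).2.1
    rw [hD, hc, hc']
    exact Submodule.zero_mem _
  have b5 := gu_ker y hyu
  have b1' : finrank F (Submodule.map Φ1 ⊤) + 2 * finrank F Z ≤ 2 * (r * r) := b1
  omega

end count

end Vale.Agent.P002
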