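import Mathlib

namespace Vale.Agent.P002

open MvPolynomial TensorProduct

section der

set_option linter.unusedSectionVars false

variable {k Ω ι : Type*} [Field k] [Field Ω] [Algebra k Ω] [CharZero k]

open scoped IntermediateField.algebraAdjoinAdjoin in
theorem gd_etale (x : ι → Ω) (hx : IsTranscendenceBasis k x) :
    Algebra.FormallyEtale (Algebra.adjoin k (Set.range x)) Ω := by
  have h1 : Algebra.FormallyEtale (Algebra.adjoin k (Set.range x))
      (IntermediateField.adjoin k (Set.range x)) := .of_isLocalization (nonZeroDivisors _)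
  have h2 : Algebra.IsAlgebraic (IntermediateField.adjoin k (Set.range x)) Ω :=
    hx.isAlgebraic_field
  have h3 : Algebra.FormallyEtale (IntermediateField.adjoin k (Set.range x)) Ω :=
    Algebra.FormallyEtale.of_isSeparable _ Ω
  exact .comp _ (IntermediateField.adjoin k (Set.range x)) _

theorem gd_exists_base [Fintype ι] [DecidableEq ι] (x : ι → Ω) (hx : AlgebraicIndependent k x)
    (v : ι → Ω) :
    ∃ D : Derivation k (Algebra.adjoin k (Set.range x)) Ω,
      ∀ i, D ⟨x i, Algebra.subset_adjoin ⟨i, rfl⟩⟩ = v i := by
  classical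
  let L : MvPolynomial ι k →ₗ[k] Ω :=
    ∑ i, (LinearMap.mulLeft k (v i)).comp ((aeval x).toLinearMap.comp
      (pderiv (R := k) i : MvPolynomial ι k →ₗ[k] MvPolynomial ι k))
  have hL : ∀ p, L p = ∑ i, v i * aeval x (pderiv i p) := by
    intro p
    simp [L, LinearMap.sum_apply]
  let e := hx.aevalEquiv
  have he : ∀ a, aeval x (e.symm a) = (a : Ω) := by
    intro a
    have := hx.algebraMap_aevalEquiv (e.symm a)
    rw [← this]
    simp [e]
  refine ⟨Derivation.mk' (L.comp e.symm.toLinearMap) ?_, ?_⟩
  · intro a b
    show L (e.symm (a * b)) = a • L (e.symm b) + b • L (e.symm a)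
    rw [map_mul, hL, hL, hL, Algebra.smul_def, Algebra.smul_def]
    simp only [Derivation.leibniz, map_add, smul_eq_mul, map_mul, he]
    rw [Finset.mul_sum, Finset.mul_sum, ← Finset.sum_add_distrib]
    refine Finset.sum_congr rfl fun i _ => ?_
    show v i * ((a : Ω) * _ + (b : Ω) * _) = (a : Ω) * _ + (b : Ω) * _
    ring
  · intro i
    show L (e.symm _) = v i
    have : e.symm ⟨x i, Algebra.subset_adjoin ⟨i, rfl⟩⟩ = X i := by
      rw [AlgEquiv.symm_apply_eq]
      apply Subtype.ext
      have := hx.algebraMap_aevalEquiv (X i)
      rw [aeval_X] at this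
      exact this.symm
    rw [this, hL]
    simp only [pderiv_X]
    rw [Finset.sum_eq_single i]
    · simp
    · intro j _ hj
      simp [hj]
    · simp

theorem gd_exists [Fintype ι] (x : ι → Ω) (hx : IsTranscendenceBasis k x) (v : ι → Ω) :
    ∃ D : Derivation k Ω Ω, ∀ i, D (x i) = v i := by
  classical
  obtain ⟨D0, hD0⟩ := gd_exists_base x hx.1 v
  have := gd_etale x hx
  let S := Algebra.adjoin k (Set.range x)
  let e := KaehlerDifferential.tensorKaehlerEquivOfFormallyEtale k S Ω
  let l : TensorProduct S Ω (KaehlerDifferential k S) →ₗ[Ω] Ω :=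
    TensorProduct.AlgebraTensorModule.lift
      ((LinearMap.lsmul Ω (KaehlerDifferential k S →ₗ[S] Ω)).flip D0.liftKaehlerDifferential)
  refine ⟨(l.comp e.symm.toLinearMap).compDer (KaehlerDifferential.D k Ω), ?_⟩
  intro i
  have h := KaehlerDifferential.tensorKaehlerEquivOfFormallyEtale_symm_D_algebraMap k S Ω
    ⟨x i, Algebra.subset_adjoin ⟨i, rfl⟩⟩
  show l (e.symm (KaehlerDifferential.D k Ω (x i))) = v i
  have h2 : e.symm (KaehlerDifferential.D k Ω (x i)) = _ := h
  rw [h2]
  have h3 : l (1 ⊗ₜ[S] (KaehlerDifferential.D k S) ⟨x i, Algebra.subset_adjoin ⟨i, rfl⟩⟩) =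
      D0.liftKaehlerDifferential ((KaehlerDifferential.D k S)
        ⟨x i, Algebra.subset_adjoin ⟨i, rfl⟩⟩) := by
    simp [l]
  rw [h3, Derivation.liftKaehlerDifferential_comp_D]
  exact hD0 i

theorem gd_zero (x : ι → Ω) (hx : IsTranscendenceBasis k x) (D : Derivation k Ω Ω)
    (hD : ∀ i, D (x i) = 0) : D = 0 := by
  let E : IntermediateField k Ω :=
    { carrier := {a | D a = 0}
      mul_mem' := by
        intro a b ha hb
        change D _ = 0 at ha hb ⊢
        rw [Derivation.leibniz, ha, hb]; simp
      one_mem' := by simp
      add_mem' := by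
        intro a b ha hb
        change D _ = 0 at ha hb ⊢
        rw [map_add, ha, hb, add_zero]
      zero_mem' := by simp
      algebraMap_mem' := by
        intro c
        simp
      inv_mem' := by
        intro a ha
        change D _ = 0 at ha ⊢
        rw [Derivation.leibniz_inv, ha]; simp }
  have h0 : IntermediateField.adjoin k (Set.range x) ≤ E := by
    rw [IntermediateField.adjoin_le_iff]
    rintro _ ⟨i, rfl⟩
    exact hD i
  have h2 : Algebra.IsAlgebraic (IntermediateField.adjoin k (Set.range x)) Ω :=
    hx.isAlgebraic_field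
  let D' : Derivation (IntermediateField.adjoin k (Set.range x)) Ω Ω :=
    Derivation.mk' { toFun := D, map_add' := D.map_add, map_smul' := by
                      intro c a
                      rw [Algebra.smul_def, Derivation.leibniz]
                      have : D (algebraMap (IntermediateField.adjoin k (Set.range x)) Ω c) = 0 :=
                        h0 c.2
                      rw [this, smul_zero, add_zero]
                      simp [Algebra.smul_def] } (fun a b => D.leibniz a b)
  have h3 : Algebra.FormallyUnramified (IntermediateField.adjoin k (Set.range x)) Ω := by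
    have := Algebra.FormallyEtale.of_isSeparable (IntermediateField.adjoin k (Set.range x)) Ω
    infer_instance
  have h4 : Subsingleton (KaehlerDifferential (IntermediateField.adjoin k (Set.range x)) Ω) :=
    Algebra.FormallyUnramified.subsingleton_kaehlerDifferential
  have h5 : D' = 0 := by
    have : D'.liftKaehlerDifferential = 0 := LinearMap.ext fun z => by
      rw [Subsingleton.elim z 0]; simp
    rw [← Derivation.liftKaehlerDifferential_comp D', this]
    ext; simp
  ext a
  have : D' a = 0 := by rw [h5]; rfl
  exact this

end der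

end Vale.Agent.P002
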