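import Vale.Agent.P002.GenEig

namespace Vale.Agent.P002

open Matrix Polynomial Module

section rank

variable {k F : Type*} [CommRing k] [Field F] [Algebra k F] {r : ℕ}

def adL (ζ : Matrix (Fin r) (Fin r) F) :
    Matrix (Fin r) (Fin r) F →ₗ[F] Matrix (Fin r) (Fin r) F :=
  LinearMap.mulLeft F ζ - LinearMap.mulRight F ζ

theorem adL_apply (ζ w : Matrix (Fin r) (Fin r) F) : adL ζ w = ζ * w - w * ζ := by
  simp [adL]

theorem mem_ker_adL {ζ w : Matrix (Fin r) (Fin r) F} :
    w ∈ LinearMap.ker (adL ζ) ↔ ζ * w = w * ζ := by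
  rw [LinearMap.mem_ker, adL_apply, sub_eq_zero]

theorem gr_finrank_mat : finrank F (Matrix (Fin r) (Fin r) F) = r * r := by
  rw [Module.finrank_matrix]; simp

def trL : Matrix (Fin r) (Fin r) F →ₗ[F] Dual F (Matrix (Fin r) (Fin r) F) :=
  LinearMap.mk₂ F (fun w X => trace (w * X)) (by intros; rw [add_mul, trace_add])
    (by intros; rw [Matrix.smul_mul, trace_smul]) (by intros; rw [mul_add, trace_add])
    (by intros; rw [Matrix.mul_smul, trace_smul])

theorem trL_apply (w X : Matrix (Fin r) (Fin r) F) : trL w X = trace (w * X) := rfl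

theorem trL_injective : Function.Injective (trL (F := F) (r := r)) := by
  rw [injective_iff_map_eq_zero]
  intro w hw
  rw [Matrix.ext_iff_trace_mul_right]
  intro X
  rw [zero_mul, trace_zero]
  exact LinearMap.congr_fun hw X

theorem gr_orth (U V : Submodule F (Matrix (Fin r) (Fin r) F))
    (h : ∀ w ∈ U, ∀ X ∈ V, trace (w * X) = 0) : finrank F U + finrank F V ≤ r * r := by
  have h1 : V ≤ (U.map trL).dualCoannihilator := by
    intro X hX
    rw [Submodule.mem_dualCoannihilator]
    rintro _ ⟨w, hw, rfl⟩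
    exact h w hw X hX
  have h2 := Subspace.finrank_add_finrank_dualCoannihilator_eq (U.map trL)
  rw [gr_finrank_mat] at h2
  have h3 : finrank F (U.map trL) = finrank F U :=
    (Submodule.equivMapOfInjective _ trL_injective U).symm.finrank_eq
  have h4 := Submodule.finrank_mono h1
  omega

theorem gr_L1 [IsAlgClosed F] (ζ : Matrix (Fin r) (Fin r) F) (V : Submodule F (Matrix (Fin r) (Fin r) F))
    (hV : ∀ X ∈ V, ∃ D : Derivation k F F, X = ζ.map D) (E : Finset F)
    (hE : ∀ a : F, (Matrix.scalar (Fin r) a - ζ).det = 0 → a ∈ E) :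
    finrank F V + finrank F (LinearMap.ker (adL ζ)) ≤ r * r + E.card := by
  classical
  let φ : LinearMap.ker (adL ζ) →ₗ[F] (Fin E.card → F) :=
    LinearMap.pi fun j => ((trL (ζ ^ (j : ℕ))).comp (LinearMap.ker (adL ζ)).subtype)
  have hφ : ∀ w j, φ w j = trace (ζ ^ (j : ℕ) * w.1) := fun w j => rfl
  let U : Submodule F (Matrix (Fin r) (Fin r) F) :=
    (LinearMap.ker φ).map (LinearMap.ker (adL ζ)).subtype
  have hU : finrank F U = finrank F (LinearMap.ker φ) :=
    (Submodule.equivMapOfInjective _ (Submodule.injective_subtype _) _).symm.finrank_eq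
  have h1 := φ.finrank_range_add_finrank_ker
  have h2 : finrank F (LinearMap.range φ) ≤ E.card := by
    refine (Submodule.finrank_le _).trans ?_
    simp
  have h3 : finrank F U + finrank F V ≤ r * r := by
    apply gr_orth
    rintro _ ⟨w, hw, rfl⟩ X hX
    obtain ⟨D, rfl⟩ := hV X hX
    have hw' : ∀ j : Fin E.card, trace (ζ ^ (j : ℕ) * w.1) = 0 := by
      intro j
      rw [← hφ, LinearMap.mem_ker.mp hw]
      rfl
    have hc : ζ * w.1 = w.1 * ζ := mem_ker_adL.mp w.2
    let q := Lagrange.interpolate E id (fun a => D a)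
    have hq : ∀ a : F, (Matrix.scalar (Fin r) a - ζ).det = 0 → q.eval a = D a := by
      intro a ha
      exact Lagrange.eval_interpolate_at_node (fun a => D a) (Set.injOn_id _) (hE a ha)
    have e := ge_trace D r ζ w.1 hc q hq
    show trace (w.1 * ζ.map D) = 0
    rw [e]
    have hdeg : q.degree < E.card := Lagrange.degree_interpolate_lt _ (Set.injOn_id _)
    by_cases hq0 : q = 0
    · rw [hq0, map_zero, mul_zero, trace_zero]
    · rw [Polynomial.aeval_eq_sum_range' ((Polynomial.natDegree_lt_iff_degree_lt hq0).mpr hdeg),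
        Finset.mul_sum, trace_sum]
      refine Finset.sum_eq_zero fun j hj => ?_
      rw [Matrix.mul_smul, trace_smul, trace_mul_comm, hw' ⟨j, Finset.mem_range.mp hj⟩, smul_zero]
  omega

theorem gr_L2 (ζ : Matrix (Fin r) (Fin r) F) (hζ : ∀ c : F, ζ ≠ c • (1 : Matrix (Fin r) (Fin r) F))
    (E : Finset F) (hE : ∀ a ∈ E, (Matrix.scalar (Fin r) a - ζ).det = 0) :
    E.card ≤ finrank F (LinearMap.range (adL ζ)) := by
  classical
  by_cases hcard : E.card ≤ 1
  · refine hcard.trans ?_
    rw [Nat.one_le_iff_ne_zero]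
    intro h0
    rw [Submodule.finrank_eq_zero, LinearMap.range_eq_bot] at h0
    have hall : ∀ w, ζ * w = w * ζ := by
      intro w
      rw [← mem_ker_adL, h0]
      simp
    have : ζ ∈ Set.range (Matrix.scalar (Fin r) : F → Matrix (Fin r) (Fin r) F) := by
      rw [Matrix.mem_range_scalar_iff_commute_single']
      intro i j
      exact (hall _).symm
    obtain ⟨c, hc⟩ := this
    apply hζ c
    rw [← hc, Matrix.scalar_apply, Matrix.smul_one_eq_diagonal]
  · push Not at hcard
    obtain ⟨a1, h1, a2, h2, h12⟩ := Finset.one_lt_card.mp hcard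
    have hv : ∀ a : E, ∃ v : Fin r → F, v ≠ 0 ∧ ζ *ᵥ v = (a : F) • v := by
      intro a
      obtain ⟨v, hv, hv2⟩ := Matrix.exists_mulVec_eq_zero_iff.mpr (hE a a.2)
      refine ⟨v, hv, ?_⟩
      rw [Matrix.sub_mulVec, sub_eq_zero] at hv2
      rw [← hv2, Matrix.scalar_apply, ← Matrix.smul_one_eq_diagonal, Matrix.smul_mulVec,
        Matrix.one_mulVec]
    have hu : ∀ a ∈ E, ∃ u : Fin r → F, u ≠ 0 ∧ u ᵥ* ζ = (a : F) • u := by
      intro a ha
      obtain ⟨v, hv, hv2⟩ := Matrix.exists_vecMul_eq_zero_iff.mpr (hE a ha)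
      refine ⟨v, hv, ?_⟩
      rw [Matrix.vecMul_sub, sub_eq_zero] at hv2
      rw [← hv2, Matrix.scalar_apply, ← Matrix.smul_one_eq_diagonal, Matrix.vecMul_smul,
        Matrix.vecMul_one]
    choose v hv0 hv using hv
    have hσ : ∀ a : E, ∃ b ∈ E, b ≠ (a : F) := by
      intro a
      by_cases h : (a : F) = a1
      · exact ⟨a2, h2, fun h' => h12 (by rw [← h, ← h'])⟩
      · exact ⟨a1, h1, fun h' => h h'.symm⟩
    choose σ hσE hσ using hσ
    choose u hu0 hu using fun a : E => hu (σ a) (hσE a)
    have hA : ∀ a : E, Matrix.vecMulVec (v a) (u a) ∈ LinearMap.range (adL ζ) := by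
      intro a
      refine ⟨((a : F) - σ a)⁻¹ • Matrix.vecMulVec (v a) (u a), ?_⟩
      rw [map_smul, adL_apply, Matrix.mul_vecMulVec, Matrix.vecMulVec_mul, hv, hu,
        Matrix.smul_vecMulVec, Matrix.vecMulVec_smul, ← sub_smul, smul_smul,
        inv_mul_cancel₀ (sub_ne_zero.mpr (Ne.symm (hσ a))), one_smul]
    have hlin : LinearIndependent F v := by
      refine Module.End.eigenvectors_linearIndependent (Matrix.toLin' ζ) (E : Set F) v ?_
      intro a
      refine ⟨?_, hv0 a⟩
      rw [Module.End.mem_genEigenspace_one, Matrix.toLin'_apply]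
      exact hv a
    have hlin2 : LinearIndependent F (fun a : E => (⟨Matrix.vecMulVec (v a) (u a), hA a⟩ :
        LinearMap.range (adL ζ))) := by
      rw [Fintype.linearIndependent_iff] at hlin ⊢
      intro g hg a
      obtain ⟨j, hj⟩ := Function.ne_iff.mp (hu0 a)
      have e1 : ∑ i : E, (g i * u i j) • v i = 0 := by
        have := congrArg Subtype.val hg
        rw [AddSubmonoidClass.coe_finsetSum] at this
        ext l
        have e2 := congrFun (congrFun this l) j
        rw [Matrix.sum_apply] at e2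
        rw [Finset.sum_apply]
        simp only [Submodule.coe_smul, Matrix.smul_apply, Matrix.vecMulVec_apply, smul_eq_mul,
          ZeroMemClass.coe_zero, Matrix.zero_apply] at e2
        simp only [Pi.smul_apply, smul_eq_mul, Pi.zero_apply]
        rw [← e2]
        exact Finset.sum_congr rfl fun i _ => by ring
      have e3 := hlin _ e1 a
      exact (mul_eq_zero.mp e3).resolve_right hj
    have := hlin2.fintype_card_le_finrank
    rwa [Fintype.card_coe] at this

theorem gr_main [IsAlgClosed F] (ζ : Matrix (Fin r) (Fin r) F)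
    (hζ : ∀ c : F, ζ ≠ c • (1 : Matrix (Fin r) (Fin r) F))
    (V : Submodule F (Matrix (Fin r) (Fin r) F))
    (hV : ∀ X ∈ V, ∃ D : Derivation k F F, X = ζ.map D) :
    finrank F V + 2 * finrank F (LinearMap.ker (adL ζ)) ≤ 2 * (r * r) := by
  classical
  let E := ζ.charpoly.roots.toFinset
  have hE : ∀ a : F, a ∈ E ↔ (Matrix.scalar (Fin r) a - ζ).det = 0 := by
    intro a
    rw [Multiset.mem_toFinset, Polynomial.mem_roots (Matrix.charpoly_monic ζ).ne_zero,
      Polynomial.IsRoot.def, Matrix.eval_charpoly]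
  have h1 := gr_L1 ζ V hV E (fun a ha => (hE a).mpr ha)
  have h2 := gr_L2 ζ hζ E (fun a ha => (hE a).mp ha)
  have h3 := (adL ζ).finrank_range_add_finrank_ker
  rw [gr_finrank_mat] at h3
  omega

end rank

end Vale.Agent.P002
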