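import Vale.Agent.P002.OpenStep
import Vale.Agent.P002.GenRank

namespace Vale.Agent.P002

open Matrix Module

abbrev MF (r : ℕ) (F : Type*) := Matrix (Fin r) (Fin r) F

section dual

variable {F : Type*} [Field F] {r : ℕ}

theorem gu_handle (p : MF r F × MF r F)
    (h1 : IsUnit p.1) (h2 : IsUnit p.2) (η : MF r F)
    (h : ∀ q : MF r F × MF r F, trace (η * dcmA p q) = 0) :
    Commute (cmA p * η) p.1 ∧ Commute (cmA p * η) p.2 ∧ cmA p * η = η * cmA p := by
  obtain ⟨a', b'⟩ := p
  simp only at h1 h2
  obtain ⟨a, rfl⟩ := h1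
  obtain ⟨b, rfl⟩ := h2
  have E1 : (b : MF r F) * ↑a⁻¹ * ↑b⁻¹ * η =
      ↑a⁻¹ * ↑b⁻¹ * η * a * b * ↑a⁻¹ := by
    rw [Matrix.ext_iff_trace_mul_left]
    intro α
    have := h (α, 0)
    simp only [dcmA, Ring.inverse_unit, mul_zero, zero_mul, add_zero, sub_zero] at this
    rw [mul_sub, trace_sub, sub_eq_zero] at this
    have e1 : ∀ B A' B' : MF r F, trace (η * (α * B * A' * B')) =
        trace (α * (B * A' * B' * η)) := by
      intro B A' B'
      rw [trace_mul_comm]
      congr 1
      noncomm_ring
    have e2 : ∀ A B A' B' : MF r F, trace (η * (A * B * (A' * α * A') * B')) =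
        trace (α * (A' * B' * η * A * B * A')) := by
      intro A B A' B'
      have : η * (A * B * (A' * α * A') * B') =
          (η * A * B * A') * (α * (A' * B')) := by noncomm_ring
      rw [this, trace_mul_comm]
      congr 1
      noncomm_ring
    rw [e1, e2] at this
    exact this
  have E2 : (↑a⁻¹ : MF r F) * ↑b⁻¹ * η * a =
      ↑b⁻¹ * η * a * b * ↑a⁻¹ * ↑b⁻¹ := by
    rw [Matrix.ext_iff_trace_mul_left]
    intro β
    have := h (0, β)
    simp only [dcmA, Ring.inverse_unit, mul_zero, zero_mul, zero_add, sub_zero] at this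
    rw [mul_sub, trace_sub, sub_eq_zero] at this
    have e1 : ∀ A A' B' : MF r F, trace (η * (A * β * A' * B')) =
        trace (β * (A' * B' * η * A)) := by
      intro A A' B'
      have : η * (A * β * A' * B') = (η * A) * (β * (A' * B')) := by noncomm_ring
      rw [this, trace_mul_comm]
      congr 1
      noncomm_ring
    have e2 : ∀ A B A' B' : MF r F, trace (η * (A * B * A' * (B' * β * B'))) =
        trace (β * (B' * η * A * B * A' * B')) := by
      intro A B A' B'
      have : η * (A * B * A' * (B' * β * B')) =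
          (η * A * B * A' * B') * (β * B') := by noncomm_ring
      rw [this, trace_mul_comm]
      congr 1
      noncomm_ring
    rw [e1, e2] at this
    exact this
  have := os_alg a b η E1 E2
  simpa only [cmA, Ring.inverse_unit] using this

theorem gu_dcmA_zero (p : MF r F × MF r F) :
    dcmA p 0 = 0 := by
  simp [dcmA]

theorem gu_dkA_zero {g : ℕ} (x : Fin g → MF r F × MF r F) :
    dkA g x (fun _ => 0) = 0 := by
  induction g with
  | zero => rfl
  | succ g ih =>
    simp only [dkA]
    rw [ih, gu_dcmA_zero]
    simp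

theorem gu_dual {g : ℕ} (x : Fin g → MF r F × MF r F)
    (hx : ∀ i, IsUnit (x i).1 ∧ IsUnit (x i).2)
    (η : MF r F) (h : ∀ v, trace (η * dkA g x v) = 0) (i : Fin g) :
    Commute (kpA x * η) (x i).1 ∧ Commute (kpA x * η) (x i).2 := by
  induction g generalizing η with
  | zero => exact i.elim0
  | succ g ih =>
    have hcons : ∀ (q : MF r F × MF r F)
        (v : Fin g → MF r F × MF r F),
        trace (η * (cmA (x 0) * dkA g (fun i => x i.succ) v +
          dcmA (x 0) q * kpA (fun i : Fin g => x i.succ))) = 0 := by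
      intro q v
      have := h (Fin.cons q v)
      simpa only [dkA, Fin.cons_zero, Fin.cons_succ] using this
    have h1 : ∀ v, trace ((η * cmA (x 0)) * dkA g (fun i => x i.succ) v) = 0 := by
      intro v
      have := hcons 0 v
      rw [gu_dcmA_zero, zero_mul, add_zero] at this
      rw [mul_assoc]
      exact this
    have h2 : ∀ q, trace ((kpA (fun i : Fin g => x i.succ) * η) * dcmA (x 0) q) = 0 := by
      intro q
      have := hcons q (fun _ => 0)
      rw [gu_dkA_zero, mul_zero, zero_add, ← mul_assoc, trace_mul_comm] at this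
      rw [mul_assoc]
      exact this
    obtain ⟨c1, c2, c3⟩ := gu_handle (x 0) (hx 0).1 (hx 0).2 _ h2
    have e : kpA x * η = cmA (x 0) * (kpA (fun i : Fin g => x i.succ) * η) := by
      rw [kpA_succ, mul_assoc]
    rw [e]
    refine Fin.cases ?_ ?_ i
    · exact ⟨c1, c2⟩
    · intro j
      have := ih (fun i => x i.succ) (fun i => hx i.succ) _ h1 j
      rw [c3]
      rw [← mul_assoc] at this
      exact this

theorem gu_dcmA_lin (p q q' : MF r F × MF r F) (c : F) :
    dcmA p (c • q + q') = c • dcmA p q + dcmA p q' := by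
  simp only [dcmA, Prod.smul_fst, Prod.smul_snd, Prod.fst_add, Prod.snd_add, mul_add, add_mul,
    smul_add, smul_sub, Matrix.smul_mul, Matrix.mul_smul]
  abel

theorem gu_dkA_lin {g : ℕ} (x v v' : Fin g → MF r F × MF r F)
    (c : F) : dkA g x (c • v + v') = c • dkA g x v + dkA g x v' := by
  induction g with
  | zero => simp [dkA]
  | succ g ih =>
    simp only [dkA]
    have e1 : (fun i : Fin g => (c • v + v') i.succ) =
        c • (fun i : Fin g => v i.succ) + (fun i : Fin g => v' i.succ) := rfl
    have e2 : (c • v + v') 0 = c • v 0 + v' 0 := rfl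
    rw [e1, e2, ih, gu_dcmA_lin]
    simp only [mul_add, add_mul, smul_add, Matrix.smul_mul, Matrix.mul_smul]
    abel

noncomputable def dkL {g : ℕ} (x : Fin g → MF r F × MF r F) :
    (Fin g → MF r F × MF r F) →ₗ[F]
      MF r F where
  toFun := dkA g x
  map_add' v v' := by
    have := gu_dkA_lin x v v' 1
    simpa using this
  map_smul' c v := by
    have := gu_dkA_lin x v 0 c
    have h0 := gu_dkA_zero x
    have h0' : dkA g x 0 = 0 := h0
    rw [add_zero, h0', add_zero] at this
    exact this

theorem dkL_apply {g : ℕ} (x v : Fin g → MF r F × MF r F) :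
    dkL x v = dkA g x v := rfl

def comT {g : ℕ} (x : Fin g → MF r F × MF r F) :
    Submodule F (MF r F) :=
  ⨅ i, LinearMap.ker (adL (x i).1) ⊓ LinearMap.ker (adL (x i).2)

theorem mem_comT {g : ℕ} {x : Fin g → MF r F × MF r F}
    {w : MF r F} :
    w ∈ comT x ↔ ∀ i, Commute w (x i).1 ∧ Commute w (x i).2 := by
  simp only [comT, Submodule.mem_iInf, Submodule.mem_inf, mem_ker_adL]
  exact forall_congr' fun i => and_congr eq_comm eq_comm

theorem gu_isUnit_kpA {g : ℕ} (x : Fin g → MF r F × MF r F)
    (hx : ∀ i, IsUnit (x i).1 ∧ IsUnit (x i).2) : IsUnit (kpA x) := by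
  induction g with
  | zero => simp [kpA]
  | succ g ih =>
    rw [kpA_succ]
    exact (isUnit_cmA (hx 0).1 (hx 0).2).mul (ih _ (fun i => hx i.succ))

theorem gu_finrank_tup {g : ℕ} :
    finrank F (Fin g → MF r F × MF r F) = 2 * g * (r * r) := by
  rw [Module.finrank_pi_fintype]
  simp only [Module.finrank_prod, gr_finrank_mat, Finset.sum_const, Finset.card_univ,
    Fintype.card_fin, smul_eq_mul]
  ring

theorem gu_repr (f : Dual F (MF r F)) :
    ∃ η : MF r F, trL η = f := by
  have hs : Function.Surjective (trL (F := F) (r := r)) := by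
    rw [← LinearMap.injective_iff_surjective_of_finrank_eq_finrank]
    · exact trL_injective
    · exact (Subspace.dual_finrank_eq).symm
  exact hs f

theorem gu_ker {g : ℕ} (x : Fin g → MF r F × MF r F)
    (hx : ∀ i, IsUnit (x i).1 ∧ IsUnit (x i).2) :
    finrank F (LinearMap.ker (dkL x)) + r * r ≤ 2 * g * (r * r) + finrank F (comT x) := by
  have h1 := (dkL x).finrank_range_add_finrank_ker
  rw [gu_finrank_tup] at h1
  have h2 := Subspace.finrank_add_finrank_dualAnnihilator_eq (LinearMap.range (dkL x))
  rw [gr_finrank_mat] at h2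
  let P : Submodule F (MF r F) :=
    (LinearMap.range (dkL x)).dualAnnihilator.comap trL
  have hP : finrank F (LinearMap.range (dkL x)).dualAnnihilator = finrank F P := by
    have h3 : P.map trL = (LinearMap.range (dkL x)).dualAnnihilator := by
      rw [Submodule.map_comap_eq_self]
      intro f _
      obtain ⟨η, hη⟩ := gu_repr f
      exact ⟨η, hη⟩
    rw [← h3]
    exact (Submodule.equivMapOfInjective _ trL_injective P).symm.finrank_eq
  let m : MF r F →ₗ[F] MF r F := LinearMap.mulLeft F (kpA x)
  have hm : Function.Injective m := by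
    intro a b hab
    exact (gu_isUnit_kpA x hx).mul_left_cancel hab
  have h4 : P.map m ≤ comT x := by
    rintro _ ⟨η, hη, rfl⟩
    rw [mem_comT]
    intro i
    apply gu_dual x hx η
    intro v
    have h5 : trL η ∈ (LinearMap.range (dkL x)).dualAnnihilator := hη
    rw [Submodule.mem_dualAnnihilator] at h5
    exact h5 _ ⟨v, rfl⟩
  have h5 := Submodule.finrank_mono h4
  have h6 : finrank F (P.map m) = finrank F P :=
    (Submodule.equivMapOfInjective _ hm P).symm.finrank_eq
  omega

end dual

end Vale.Agent.P002
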