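import Mathlib

namespace Vale.Agent.P002

open Matrix Polynomial

section eig

variable {k F : Type*} [CommRing k] [Field F] [Algebra k F]

theorem ge_map_mul {m n p : Type*} [Fintype n] (D : Derivation k F F) (A : Matrix m n F)
    (B : Matrix n p F) : (A * B).map D = A.map D * B + A * B.map D := by
  ext i j
  simp only [Matrix.map_apply, Matrix.mul_apply, Matrix.add_apply, map_sum, Derivation.leibniz,
    smul_eq_mul, ← Finset.sum_add_distrib]
  refine Finset.sum_congr rfl fun l _ => ?_
  ring

theorem ge_conj {n : Type*} [Fintype n] [DecidableEq n] (D : Derivation k F F)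
    (ζ w T S h g : Matrix n n F) (hg : h * g = 1) (hT : ζ * h = h * T) (hS : w * h = h * S)
    (hc : ζ * w = w * ζ) : trace (w * ζ.map D) = trace (S * T.map D) := by
  have hg' : g * h = 1 := mul_eq_one_comm.mp hg
  have e1 : ζ.map D * h + ζ * h.map D = h.map D * T + h * T.map D := by
    rw [← ge_map_mul, ← ge_map_mul, hT]
  have e2 : ζ.map D * h = h.map D * T + h * T.map D - ζ * h.map D := by
    rw [← e1]; abel
  have e3 : T * g = g * ζ := by
    have : g * (ζ * h) * g = g * (h * T) * g := by rw [hT]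
    rw [← mul_assoc g h T, hg', one_mul, mul_assoc, mul_assoc ζ h g, hg, mul_one] at this
    exact this.symm
  calc trace (w * ζ.map D) = trace (w * (ζ.map D * h) * g) := by
        rw [mul_assoc w, mul_assoc (ζ.map D), hg, mul_one]
    _ = trace (w * (h.map D * (T * g))) + trace ((w * h) * (T.map D * g))
        - trace (w * ζ * (h.map D * g)) := by
        rw [e2, ← trace_add, ← trace_sub]
        congr 1
        noncomm_ring
    _ = trace ((ζ * w) * (h.map D * g)) + trace (h * (S * T.map D * g))
        - trace (w * ζ * (h.map D * g)) := by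
        rw [e3, hS]
        congr 2
        · rw [show w * (h.map D * (g * ζ)) = (w * (h.map D * g)) * ζ by noncomm_ring,
            trace_mul_comm]
          congr 1
          noncomm_ring
        · congr 1
          noncomm_ring
    _ = trace (S * T.map D) := by
        rw [hc, add_sub_cancel_left, trace_mul_comm, mul_assoc, hg', mul_one]

theorem ge_conj_aeval {n : Type*} [Fintype n] [DecidableEq n]
    (ζ T h : Matrix n n F) (hT : ζ * h = h * T) (q : F[X]) :
    aeval ζ q * h = h * aeval T q := by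
  induction q using Polynomial.induction_on' with
  | add p q hp hq => rw [map_add, map_add, add_mul, mul_add, hp, hq]
  | monomial m a =>
    simp only [aeval_monomial]
    have : ∀ m : ℕ, ζ ^ m * h = h * T ^ m := by
      intro m
      induction m with
      | zero => simp
      | succ m ih => rw [pow_succ, mul_assoc, hT, ← mul_assoc, ih, mul_assoc, ← pow_succ]
    rw [mul_assoc, this, ← mul_assoc, ← mul_assoc]
    congr 1
    exact Algebra.commutes a h

theorem ge_block_mul {n : ℕ} (A B : Matrix (Fin (n + 1)) (Fin (n + 1)) F)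
    (hA : ∀ i : Fin n, A i.succ 0 = 0) (hB : ∀ i : Fin n, B i.succ 0 = 0) :
    (∀ i : Fin n, (A * B) i.succ 0 = 0) ∧
      (A * B) 0 0 = A 0 0 * B 0 0 ∧ (A * B).submatrix Fin.succ Fin.succ =
        A.submatrix Fin.succ Fin.succ * B.submatrix Fin.succ Fin.succ := by
  refine ⟨?_, ?_, ?_⟩
  · intro i
    rw [Matrix.mul_apply, Fin.sum_univ_succ, hA]
    simp [hB]
  · rw [Matrix.mul_apply, Fin.sum_univ_succ]
    simp [hB]
  · ext i j
    rw [Matrix.submatrix_apply, Matrix.mul_apply, Fin.sum_univ_succ, hA, Matrix.mul_apply]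
    simp

theorem ge_block_trace {n : ℕ} (A B : Matrix (Fin (n + 1)) (Fin (n + 1)) F)
    (hA : ∀ i : Fin n, A i.succ 0 = 0) (hB : ∀ i : Fin n, B i.succ 0 = 0) :
    trace (A * B) = A 0 0 * B 0 0 +
      trace (A.submatrix Fin.succ Fin.succ * B.submatrix Fin.succ Fin.succ) := by
  obtain ⟨-, h2, h3⟩ := ge_block_mul A B hA hB
  rw [← h3, ← h2, Matrix.trace, Fin.sum_univ_succ]
  rfl

theorem ge_block_det {n : ℕ} (A : Matrix (Fin (n + 1)) (Fin (n + 1)) F)
    (hA : ∀ i : Fin n, A i.succ 0 = 0) :
    A.det = A 0 0 * (A.submatrix Fin.succ Fin.succ).det := by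
  rw [Matrix.det_succ_column_zero, Fin.sum_univ_succ]
  simp [hA]

theorem ge_block_aeval {n : ℕ} (T : Matrix (Fin (n + 1)) (Fin (n + 1)) F)
    (hT : ∀ i : Fin n, T i.succ 0 = 0) (q : F[X]) :
    (∀ i : Fin n, (aeval T q) i.succ 0 = 0) ∧ (aeval T q) 0 0 = q.eval (T 0 0) ∧
      (aeval T q).submatrix Fin.succ Fin.succ = aeval (T.submatrix Fin.succ Fin.succ) q := by
  have key2 : ∀ m : ℕ, (∀ i : Fin n, (T ^ m) i.succ 0 = 0) ∧ (T ^ m) 0 0 = (T 0 0) ^ m ∧
      (T ^ m).submatrix Fin.succ Fin.succ = (T.submatrix Fin.succ Fin.succ) ^ m := by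
    intro m
    induction m with
    | zero =>
      refine ⟨fun i => ?_, by simp, ?_⟩
      · simp [Fin.succ_ne_zero]
      · rw [pow_zero, pow_zero]
        exact Matrix.submatrix_one _ (Fin.succ_injective _)
    | succ m ih =>
      obtain ⟨a, b, c⟩ := ih
      obtain ⟨a', b', c'⟩ := ge_block_mul (T ^ m) T a hT
      refine ⟨?_, ?_, ?_⟩
      · rw [pow_succ]; exact a'
      · rw [pow_succ, pow_succ, b', b]
      · rw [pow_succ, pow_succ, c', c]
  induction q using Polynomial.induction_on' with
  | add p q hp hq =>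
    obtain ⟨a, b, c⟩ := hp
    obtain ⟨a', b', c'⟩ := hq
    refine ⟨?_, ?_, ?_⟩
    · intro i
      rw [map_add, Matrix.add_apply, a, a', add_zero]
    · rw [map_add, Matrix.add_apply, b, b', eval_add]
    · rw [map_add, map_add, ← c, ← c']
      rfl
  | monomial m a =>
    obtain ⟨x, y, z⟩ := key2 m
    have e : ∀ {l : ℕ} (M : Matrix (Fin l) (Fin l) F), aeval M (monomial m a) = a • M ^ m := by
      intro l M
      rw [aeval_monomial, Algebra.smul_def]
    rw [e, e, ← z]
    refine ⟨?_, ?_, ?_⟩
    · intro i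
      rw [Matrix.smul_apply, x, smul_zero]
    · rw [Matrix.smul_apply, y, eval_monomial, smul_eq_mul]
    · rfl

theorem ge_common [IsAlgClosed F] {n : ℕ} (ζ w : Matrix (Fin (n + 1)) (Fin (n + 1)) F)
    (hc : ζ * w = w * ζ) :
    ∃ v : Fin (n + 1) → F, v ≠ 0 ∧ ∃ a b : F, ζ *ᵥ v = a • v ∧ w *ᵥ v = b • v := by
  obtain ⟨a, ha⟩ := Module.End.exists_eigenvalue (Matrix.toLin' ζ)
  let E := Module.End.eigenspace (Matrix.toLin' ζ) a
  have hmaps : ∀ x ∈ E, Matrix.toLin' w x ∈ E := by
    intro x hx
    rw [Module.End.mem_eigenspace_iff] at hx ⊢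
    simp only [Matrix.toLin'_apply] at hx ⊢
    rw [Matrix.mulVec_mulVec, hc, ← Matrix.mulVec_mulVec, hx, Matrix.mulVec_smul]
  have hE : Nontrivial E := by
    rw [Submodule.nontrivial_iff_ne_bot]
    exact ha
  obtain ⟨b, hb⟩ := Module.End.exists_eigenvalue ((Matrix.toLin' w).restrict hmaps)
  obtain ⟨u, hu⟩ := hb.exists_hasEigenvector
  refine ⟨u.1, ?_, a, b, ?_, ?_⟩
  · intro h0
    exact hu.2 (Subtype.ext h0)
  · have := u.2
    rw [Module.End.mem_eigenspace_iff, Matrix.toLin'_apply] at this
    exact this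
  · have := hu.apply_eq_smul
    have h2 := congrArg Subtype.val this
    simpa using h2

theorem ge_basis {n : ℕ} (v : Fin (n + 1) → F) (hv : v ≠ 0) :
    ∃ h g : Matrix (Fin (n + 1)) (Fin (n + 1)) F, h * g = 1 ∧ ∀ i, h i 0 = v i := by
  obtain ⟨i0, hi0⟩ := Function.ne_iff.mp hv
  let h := ((1 : Matrix (Fin (n + 1)) (Fin (n + 1)) F).updateCol i0 v).submatrix id
    (Equiv.swap 0 i0)
  have hd : IsUnit h.det := by
    rw [Matrix.det_permute', ← Matrix.cramer_apply, Matrix.cramer_one]
    refine IsUnit.mul ?_ (isUnit_iff_ne_zero.mpr hi0)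
    exact (Units.isUnit (Equiv.Perm.sign (Equiv.swap 0 i0))).map (Int.castRingHom F)
  refine ⟨h, h⁻¹, Matrix.mul_nonsing_inv h hd, ?_⟩
  intro i
  simp [h]

theorem ge_trace [IsAlgClosed F] (D : Derivation k F F) (n : ℕ) :
    ∀ (ζ w : Matrix (Fin n) (Fin n) F), ζ * w = w * ζ → ∀ q : F[X],
      (∀ a : F, (Matrix.scalar (Fin n) a - ζ).det = 0 → q.eval a = D a) →
      trace (w * ζ.map D) = trace (w * aeval ζ q) := by
  induction n with
  | zero =>
    intro ζ w _ q _
    simp [Matrix.trace]
  | succ n ih =>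
    intro ζ w hc q hq
    obtain ⟨v, hv, a, b, hva, hvb⟩ := ge_common ζ w hc
    obtain ⟨h, g, hg, hh⟩ := ge_basis v hv
    have hg' : g * h = 1 := mul_eq_one_comm.mp hg
    have hcol : h *ᵥ Pi.single 0 1 = v := by
      rw [Matrix.mulVec_single_one]
      exact funext hh
    have hconj : ∀ (ξ : Matrix (Fin (n + 1)) (Fin (n + 1)) F) (c : F), ξ *ᵥ v = c • v →
        ξ * h = h * (g * ξ * h) ∧ (g * ξ * h) 0 0 = c ∧ ∀ i : Fin n, (g * ξ * h) i.succ 0 = 0 := by
      intro ξ c hξ
      have e1 : ∀ i, (g * ξ * h) i 0 = c * (Pi.single (M := fun _ => F) 0 1 : Fin (n + 1) → F) i := by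
        intro i
        have e2 : (g * ξ * h) *ᵥ Pi.single 0 1 = c • Pi.single 0 1 := by
          rw [← Matrix.mulVec_mulVec, hcol, ← Matrix.mulVec_mulVec, hξ, Matrix.mulVec_smul,
            ← hcol, Matrix.mulVec_mulVec, hg', Matrix.one_mulVec]
        rw [Matrix.mulVec_single_one] at e2
        exact congrFun e2 i
      refine ⟨?_, ?_, ?_⟩
      · rw [← mul_assoc, ← mul_assoc, hg, one_mul]
      · rw [e1]; simp
      · intro i; rw [e1]; simp
    obtain ⟨hT, hT0, hTs⟩ := hconj ζ a hva
    obtain ⟨hS, hS0, hSs⟩ := hconj w b hvb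
    set T := g * ζ * h with hTdef
    set S := g * w * h with hSdef
    have hdet : ∀ c : F, (Matrix.scalar (Fin (n + 1)) c - ζ).det =
        (c - a) * (Matrix.scalar (Fin n) c - T.submatrix Fin.succ Fin.succ).det := by
      intro c
      have e1 : (Matrix.scalar (Fin (n + 1)) c - ζ) * h = h * (Matrix.scalar (Fin (n + 1)) c - T) := by
        rw [sub_mul, mul_sub, hT]
        congr 1
        exact Matrix.scalar_comm c (fun r' => mul_comm _ _) h
      have e2 := congrArg Matrix.det e1
      have hu : h.det ≠ 0 := by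
        intro h0
        have := congrArg Matrix.det hg
        rw [Matrix.det_mul, h0, zero_mul, Matrix.det_one] at this
        exact zero_ne_one this
      rw [Matrix.det_mul, Matrix.det_mul, mul_comm] at e2
      have e3 := mul_left_cancel₀ hu e2
      rw [e3, ge_block_det]
      · congr 1
        · simp [hT0]
        · congr 1
          ext i j
          simp [Matrix.submatrix_apply, Matrix.sub_apply, Matrix.scalar_apply,
            Matrix.diagonal_apply]
      · intro i
        simp [Matrix.sub_apply, Matrix.scalar_apply, hTs i, Fin.succ_ne_zero]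
    have hqa : q.eval a = D a := hq a (by rw [hdet]; simp)
    have hTS : T * S = S * T := by
      have e1 : ∀ X Y : Matrix (Fin (n + 1)) (Fin (n + 1)) F,
          (g * X * h) * (g * Y * h) = g * (X * Y) * h := by
        intro X Y
        calc (g * X * h) * (g * Y * h) = g * X * (h * g) * (Y * h) := by noncomm_ring
          _ = _ := by rw [hg]; noncomm_ring
      rw [hTdef, hSdef, e1, e1, hc]
    have hih := ih (T.submatrix Fin.succ Fin.succ) (S.submatrix Fin.succ Fin.succ)
      (by rw [← (ge_block_mul T S hTs hSs).2.2, ← (ge_block_mul S T hSs hTs).2.2, hTS]) q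
      (fun c hc' => hq c (by rw [hdet, hc', mul_zero]))
    rw [ge_conj D ζ w T S h g hg hT hS hc]
    have e4 : trace (w * aeval ζ q) = trace (S * aeval T q) := by
      calc trace (w * aeval ζ q) = trace (w * (aeval ζ q * h) * g) := by
            rw [mul_assoc w, mul_assoc (aeval ζ q), hg, mul_one]
        _ = trace ((w * h) * (aeval T q * g)) := by
            rw [ge_conj_aeval ζ T h hT]
            congr 1
            noncomm_ring
        _ = trace (h * (S * aeval T q * g)) := by
            rw [hS]; congr 1; noncomm_ring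
        _ = _ := by rw [trace_mul_comm, mul_assoc, hg', mul_one]
    rw [e4]
    obtain ⟨b1, b2, b3⟩ := ge_block_aeval T hTs q
    rw [ge_block_trace S (aeval T q) hSs b1, ge_block_trace S (T.map D) hSs
      (fun i => by rw [Matrix.map_apply, hTs, map_zero]), b2, b3, ← hih, Matrix.map_apply, hT0, hqa]
    rfl

end eig

end Vale.Agent.P002
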