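import Vale.Agent.P002.GenCount
import Vale.Agent.P002.GenDer

namespace Vale.Agent.P002

open Matrix Module

section half

theorem gd_finrank {k Ω ι : Type*} [Field k] [Field Ω] [Algebra k Ω] [CharZero k] [Fintype ι]
    (x : ι → Ω) (hx : IsTranscendenceBasis k x) :
    FiniteDimensional Ω (Derivation k Ω Ω) ∧ finrank Ω (Derivation k Ω Ω) = Fintype.card ι := by
  let f : Derivation k Ω Ω →ₗ[Ω] (ι → Ω) :=
    { toFun := fun D i => D (x i)
      map_add' := fun D D' => rfl
      map_smul' := fun c D => rfl }
  have hf : Function.Bijective f := by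
    constructor
    · rw [injective_iff_map_eq_zero]
      intro D hD
      exact gd_zero x hx D (fun i => congrFun hD i)
    · intro v
      obtain ⟨D, hD⟩ := gd_exists x hx v
      exact ⟨D, funext hD⟩
  let e := LinearEquiv.ofBijective f hf
  refine ⟨Module.Finite.equiv e.symm, ?_⟩
  rw [e.finrank_eq, Module.finrank_fintype_fun_eq_card]

theorem gh_inverse_map {R S : Type*} [Ring R] [Ring S] (φ : R →+* S) (a : R) (ha : IsUnit a) :
    φ (Ring.inverse a) = Ring.inverse (φ a) := by
  have h1 : φ a * φ (Ring.inverse a) = 1 := by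
    rw [← map_mul, Ring.mul_inverse_cancel a ha, map_one]
  have h2 := Ring.inverse_mul_cancel (φ a) (ha.map φ)
  calc φ (Ring.inverse a) = (Ring.inverse (φ a) * φ a) * φ (Ring.inverse a) := by
        rw [h2, one_mul]
    _ = _ := by rw [mul_assoc, h1, mul_one]

theorem gh_cm_map {R S : Type*} [Ring R] [Ring S] (φ : R →+* S) (p : R × R) (h1 : IsUnit p.1)
    (h2 : IsUnit p.2) : φ (cmA p) = cmA (φ p.1, φ p.2) := by
  simp only [cmA, map_mul, gh_inverse_map φ _ h1, gh_inverse_map φ _ h2]

theorem gh_kp_map {R S : Type*} [Ring R] [Ring S] (φ : R →+* S) {g : ℕ} (x : Fin g → R × R)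
    (hx : ∀ i, IsUnit (x i).1 ∧ IsUnit (x i).2) :
    φ (kpA x) = kpA (fun i => (φ (x i).1, φ (x i).2)) := by
  induction g with
  | zero => simp [kpA]
  | succ g ih =>
    rw [kpA_succ, kpA_succ, map_mul, ih _ (fun i => hx i.succ), gh_cm_map φ _ (hx 0).1 (hx 0).2]

variable {K Ω : Type*} [Field K] [Field Ω] [Algebra K Ω] {r : ℕ}

theorem gh_lin {ι : Type*} [Fintype ι] (v : ι → MF r K) (hv : LinearIndependent K v) (c : ι → Ω)
    (h : ∑ i, c i • (v i).map (algebraMap K Ω) = 0) : ∀ i, c i = 0 := by
  classical
  let β := Basis.ofVectorSpace K Ω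
  intro i
  apply β.repr.injective
  ext b
  rw [map_zero, Finsupp.zero_apply]
  rw [Fintype.linearIndependent_iff] at hv
  refine hv (fun i => β.repr (c i) b) ?_ i
  ext a a'
  have h1 := congrFun (congrFun h a) a'
  rw [Matrix.sum_apply] at h1 ⊢
  simp only [Matrix.smul_apply, Matrix.map_apply, smul_eq_mul, Matrix.zero_apply] at h1 ⊢
  have h2 := congrArg (fun z => β.repr z b) h1
  simp only [map_sum, Finsupp.finsetSum_apply, map_zero, Finsupp.zero_apply] at h2
  rw [← h2]
  refine Finset.sum_congr rfl fun j _ => ?_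
  rw [mul_comm (c j), ← Algebra.smul_def, map_smul, Finsupp.smul_apply, smul_eq_mul, mul_comm]

theorem gh_com {g : ℕ} (Y : Fin g → MF r K × MF r K) :
    finrank Ω (comT (fun i => ((Y i).1.map (algebraMap K Ω), (Y i).2.map (algebraMap K Ω)) :
      Fin g → MF r Ω × MF r Ω)) ≤ finrank K (comT Y) := by
  classical
  let B := Module.finBasis K (comT Y)
  let β := Basis.ofVectorSpace K Ω
  let v : Fin (finrank K (comT Y)) → MF r Ω := fun i => ((B i : comT Y) : MF r K).map (algebraMap K Ω)
  have key : comT (fun i => ((Y i).1.map (algebraMap K Ω), (Y i).2.map (algebraMap K Ω)) :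
      Fin g → MF r Ω × MF r Ω) ≤ Submodule.span Ω (Set.range v) := by
    intro w hw
    have hw1 := mem_comT.mp hw
    let s : Finset _ := Finset.univ.biUnion
      (fun p : Fin r × Fin r => (β.repr (w p.1 p.2)).support)
    have hws : w = ∑ b ∈ s, β b • ((w.map fun z => β.repr z b) : MF r K).map (algebraMap K Ω) := by
      ext a a'
      rw [Matrix.sum_apply]
      simp only [Matrix.smul_apply, Matrix.map_apply, smul_eq_mul]
      conv_lhs => rw [← β.linearCombination_repr (w a a')]
      rw [Finsupp.linearCombination_apply, Finsupp.sum_of_support_subset _ (s := s)]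
      · refine Finset.sum_congr rfl fun b _ => ?_
        rw [Algebra.smul_def, mul_comm]
      · exact Finset.subset_biUnion_of_mem
          (fun p : Fin r × Fin r => (β.repr (w p.1 p.2)).support) (Finset.mem_univ (a, a'))
      · intro b _
        rw [zero_smul]
    have hcom : ∀ (M : MF r K), Commute w (M.map (algebraMap K Ω)) → ∀ b,
        Commute ((w.map fun z => β.repr z b) : MF r K) M := by
      intro M hM b
      have h1 := hM.eq
      ext a a'
      have h2 := congrFun (congrFun h1 a) a'
      rw [Matrix.mul_apply, Matrix.mul_apply] at h2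
      have h3 := congrArg (fun z => β.repr z b) h2
      simp only [map_sum, Finsupp.finsetSum_apply, Matrix.map_apply] at h3
      rw [Matrix.mul_apply, Matrix.mul_apply]
      simp only [Matrix.map_apply]
      have e1 : ∀ (z : Ω) (m : K), β.repr (z * algebraMap K Ω m) b = β.repr z b * m := by
        intro z m
        rw [mul_comm, ← Algebra.smul_def, map_smul, Finsupp.smul_apply, smul_eq_mul, mul_comm]
      have e2 : ∀ (z : Ω) (m : K), β.repr (algebraMap K Ω m * z) b = m * β.repr z b := by
        intro z m
        rw [← Algebra.smul_def, map_smul, Finsupp.smul_apply, smul_eq_mul]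
      simp only [e1, e2] at h3
      exact h3
    rw [hws]
    refine Submodule.sum_mem _ fun b _ => Submodule.smul_mem _ _ ?_
    have hmem : ((w.map fun z => β.repr z b) : MF r K) ∈ comT Y := by
      rw [mem_comT]
      intro i
      exact ⟨hcom _ (hw1 i).1 b, hcom _ (hw1 i).2 b⟩
    have h4 := B.sum_repr ⟨_, hmem⟩
    have h5 : ((w.map fun z => β.repr z b) : MF r K).map (algebraMap K Ω) =
        ∑ i, algebraMap K Ω (B.repr ⟨_, hmem⟩ i) • v i := by
      have h6 := congrArg (fun z : comT Y => ((z : MF r K).map (algebraMap K Ω) : MF r Ω)) h4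
      simp only at h6
      rw [← h6]
      ext a a'
      rw [Matrix.map_apply, AddSubmonoidClass.coe_finsetSum, Matrix.sum_apply, Matrix.sum_apply,
        map_sum]
      refine Finset.sum_congr rfl fun i _ => ?_
      simp [v]
    rw [h5]
    exact Submodule.sum_mem _ fun i _ => Submodule.smul_mem _ _ (Submodule.subset_span ⟨i, rfl⟩)
  refine (Submodule.finrank_mono key).trans ?_
  refine (finrank_range_le_card v).trans ?_
  simp

theorem gh_half {k : Type} [Field k] [CharZero k] {K : Type} [Field K] [Algebra k K] {ι0 : Type}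
    [Fintype ι0] (b : ι0 → K) (hb : IsTranscendenceBasis k b) {r n1 n2 : ℕ}
    (X : Fin n1 → MF r K × MF r K) (Y : Fin n2 → MF r K × MF r K)
    (hX : ∀ i, (X i).1.det = 1 ∧ (X i).2.det = 1) (hY : ∀ i, (Y i).1.det = 1 ∧ (Y i).2.det = 1)
    (hXY : kpA X * kpA Y = 1)
    (hgen : ∀ L : IntermediateField k K, (∀ i a b, (X i).1 a b ∈ L ∧ (X i).2 a b ∈ L) →
      (∀ i a b, (Y i).1 a b ∈ L ∧ (Y i).2 a b ∈ L) → L = ⊤)
    (hcard : 2 * (n1 + n2) * (r * r) + 1 ≤ Fintype.card ι0 + 2 * (n1 + n2) + r * r)
    (hn1 : 1 ≤ n1) (hd : 2 ≤ finrank K (comT X)) :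
    finrank K (comT X) + 1 ≤ finrank K (comT Y) := by
  classical
  let d := finrank K (comT X)
  let B := Module.finBasis K (comT X)
  let P := MvPolynomial (Fin d) K
  let Ω := AlgebraicClosure (FractionRing P)
  have hK : CharZero K := charZero_of_injective_algebraMap (algebraMap k K).injective
  have halg0 : Algebra.IsAlgebraic P (FractionRing P) :=
    IsLocalization.isAlgebraic (R := P) (FractionRing P) (nonZeroDivisors P)
  have halg : Algebra.IsAlgebraic P Ω := Algebra.IsAlgebraic.trans P (FractionRing P) Ω
  have hfs : FaithfulSMul P Ω := by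
    rw [faithfulSMul_iff_algebraMap_injective, IsScalarTower.algebraMap_eq P (FractionRing P) Ω]
    exact (algebraMap (FractionRing P) Ω).injective.comp (IsFractionRing.injective P (FractionRing P))
  let t : Fin d → Ω := algebraMap P Ω ∘ MvPolynomial.X
  have ht : IsTranscendenceBasis K t := (IsTranscendenceBasis.mvPolynomial (Fin d) K).algebraMap_comp
  have hbt : IsTranscendenceBasis k (Sum.elim t (algebraMap K Ω ∘ b)) := hb.sumElim_comp ht
  have hk : CharZero Ω := charZero_of_injective_algebraMap (algebraMap k Ω).injective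
  obtain ⟨hfd, hfr⟩ := gd_finrank _ hbt
  rw [Fintype.card_sum, Fintype.card_fin] at hfr
  let φ : MF r K →+* MF r Ω := (algebraMap K Ω).mapMatrix
  let v : Fin d → MF r K := fun i => ((B i : comT X) : MF r K)
  have hv : LinearIndependent K v :=
    B.linearIndependent.map' (comT X).subtype (Submodule.ker_subtype _)
  let x : Fin n1 → MF r Ω × MF r Ω := fun i => (φ (X i).1, φ (X i).2)
  let y : Fin n2 → MF r Ω × MF r Ω := fun i => (φ (Y i).1, φ (Y i).2)
  let ζ : MF r Ω := ∑ i, t i • φ (v i)
  have hdet : ∀ M : MF r K, M.det = 1 → (φ M).det = 1 := by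
    intro M hM
    have := RingHom.map_det (algebraMap K Ω) M
    rw [hM, map_one] at this
    exact this.symm
  have hx : ∀ i, (x i).1.det = 1 ∧ (x i).2.det = 1 := fun i => ⟨hdet _ (hX i).1, hdet _ (hX i).2⟩
  have hy : ∀ i, (y i).1.det = 1 ∧ (y i).2.det = 1 := fun i => ⟨hdet _ (hY i).1, hdet _ (hY i).2⟩
  have hxy : kpA x * kpA y = 1 := by
    have h1 := gh_kp_map φ X (fun i => ⟨gc_isUnit (hX i).1, gc_isUnit (hX i).2⟩)
    have h2 := gh_kp_map φ Y (fun i => ⟨gc_isUnit (hY i).1, gc_isUnit (hY i).2⟩)
    show kpA (fun i => (φ (X i).1, φ (X i).2)) * kpA (fun i => (φ (Y i).1, φ (Y i).2)) = 1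
    rw [← h1, ← h2, ← map_mul, hXY, map_one]
  have hζx : ζ ∈ comT x := by
    refine Submodule.sum_mem _ fun i _ => Submodule.smul_mem _ _ ?_
    rw [mem_comT]
    intro j
    have h1 := mem_comT.mp (B i).2 j
    exact ⟨h1.1.map φ, h1.2.map φ⟩
  have hφD : ∀ (D : Derivation k Ω Ω), (∀ c : K, D (algebraMap K Ω c) = 0) →
      ζ.map D = ∑ i, D (t i) • φ (v i) := by
    intro D hD
    ext a a'
    show D ((∑ i, t i • φ (v i) : MF r Ω) a a') = _
    rw [Matrix.sum_apply, Matrix.sum_apply, map_sum]
    refine Finset.sum_congr rfl fun i _ => ?_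
    rw [Matrix.smul_apply, Matrix.smul_apply, smul_eq_mul, smul_eq_mul, Derivation.leibniz]
    have : D (φ (v i) a a') = 0 := hD _
    rw [this, smul_zero, zero_add, smul_eq_mul, mul_comm]
  have hζ : ∀ c : Ω, ζ ≠ c • (1 : MF r Ω) := by
    intro c hc
    have hr : 0 < r := by
      rcases Nat.eq_zero_or_pos r with h0 | h0
      · subst h0
        have : finrank K (comT X) ≤ finrank K (MF 0 K) := Submodule.finrank_le _
        rw [gr_finrank_mat] at this
        omega
      · exact h0
    have hsc : ∀ i, v i ∈ Submodule.span K {(1 : MF r K)} := by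
      intro i
      obtain ⟨D, hD⟩ := gd_exists t ht (Pi.single i 1)
      let D' : Derivation k Ω Ω := Derivation.restrictScalars k D
      have hD' : ∀ c : K, D' (algebraMap K Ω c) = 0 := fun c => D.map_algebraMap c
      have h1 := hφD D' hD'
      have h2 : ∑ j, D' (t j) • φ (v j) = φ (v i) := by
        rw [Finset.sum_eq_single i]
        · have : D' (t i) = 1 := by
            have h9 := hD i
            rw [Pi.single_eq_same] at h9
            exact h9
          rw [this, one_smul]
        · intro j _ hj
          have : D' (t j) = 0 := by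
            have h9 := hD j
            rw [Pi.single_eq_of_ne hj] at h9
            exact h9
          rw [this, zero_smul]
        · simp
      have h3 : φ (v i) = D' c • (1 : MF r Ω) := by
        rw [← h2, ← h1, hc]
        ext a a'
        by_cases h : a = a'
        · subst h; simp
        · simp [h]
      rw [Submodule.mem_span_singleton]
      refine ⟨v i ⟨0, hr⟩ ⟨0, hr⟩, ?_⟩
      have h4 : D' c = algebraMap K Ω (v i ⟨0, hr⟩ ⟨0, hr⟩) := by
        have := congrFun (congrFun h3 ⟨0, hr⟩) ⟨0, hr⟩
        rw [Matrix.smul_apply, Matrix.one_apply_eq, smul_eq_mul, mul_one] at this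
        exact this.symm
      ext a a'
      apply (algebraMap K Ω).injective
      have h5 : algebraMap K Ω (v i a a') = (D' c • (1 : MF r Ω)) a a' := by
        rw [← h3]; rfl
      rw [h5, h4]
      by_cases h : a = a'
      · subst h; simp
      · simp [h]
    have hle : comT X ≤ Submodule.span K {(1 : MF r K)} := by
      intro w hw
      have h1 := B.sum_repr ⟨w, hw⟩
      have h2 := congrArg (fun z : comT X => (z : MF r K)) h1
      simp only [AddSubmonoidClass.coe_finsetSum, Submodule.coe_smul] at h2
      rw [← h2]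
      exact Submodule.sum_mem _ fun i _ => Submodule.smul_mem _ _ (hsc i)
    have h1 := Submodule.finrank_mono hle
    have h2 := finrank_span_le_card (R := K) ({(1 : MF r K)} : Set (MF r K))
    simp only [Set.toFinset_singleton, Finset.card_singleton] at h2
    omega
  have hinj : ∀ D : Derivation k Ω Ω, ζ.map D = 0 →
      (∀ i, (x i).1.map D = 0 ∧ (x i).2.map D = 0) →
      (∀ i, (y i).1.map D = 0 ∧ (y i).2.map D = 0) → D = 0 := by
    intro D h1 h2 h3
    let L : IntermediateField k K :=
      { carrier := {a | D (algebraMap K Ω a) = 0}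
        mul_mem' := by
          intro a b ha hb
          change D _ = 0 at ha hb ⊢
          rw [map_mul, Derivation.leibniz, ha, hb]; simp
        one_mem' := by simp
        add_mem' := by
          intro a b ha hb
          change D _ = 0 at ha hb ⊢
          rw [map_add, map_add, ha, hb, add_zero]
        zero_mem' := by simp
        algebraMap_mem' := by
          intro c
          change D _ = 0
          rw [← IsScalarTower.algebraMap_apply k K Ω]
          exact D.map_algebraMap c
        inv_mem' := by
          intro a ha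
          change D _ = 0 at ha ⊢
          rw [map_inv₀, Derivation.leibniz_inv, ha]; simp }
    have hL : L = ⊤ := by
      apply hgen
      · intro i a b
        exact ⟨congrFun (congrFun (h2 i).1 a) b, congrFun (congrFun (h2 i).2 a) b⟩
      · intro i a b
        exact ⟨congrFun (congrFun (h3 i).1 a) b, congrFun (congrFun (h3 i).2 a) b⟩
    have hD : ∀ c : K, D (algebraMap K Ω c) = 0 := by
      intro c
      have : c ∈ L := by rw [hL]; exact IntermediateField.mem_top
      exact this
    rw [hφD D hD] at h1
    have h4 := gh_lin v hv (fun i => D (t i)) h1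
    apply gd_zero _ hbt
    rintro (i | i)
    · exact h4 i
    · exact hD _
  have hcount := gc_count x y hx hy hxy ζ hζ hζx hinj
  have hcom := gh_com (Ω := Ω) Y
  rw [hfr] at hcount
  have hz : finrank Ω (LinearMap.ker (adL ζ)) ≤ r * r := by
    have := Submodule.finrank_le (LinearMap.ker (adL ζ))
    rwa [gr_finrank_mat] at this
  have hcom' : finrank Ω (comT y) ≤ finrank K (comT Y) := hcom
  obtain ⟨m, rfl⟩ : ∃ m, n1 = m + 1 := ⟨n1 - 1, by omega⟩
  have hmz : m * finrank Ω (LinearMap.ker (adL ζ)) ≤ m * (r * r) := Nat.mul_le_mul_left _ hz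
  show d + 1 ≤ _
  nlinarith [hcount, hcom', hcard, hmz]

end half

end Vale.Agent.P002
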