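import Mathlib

namespace Vale.Agent.P002

open NumberField NumberField.Units

theorem units_functional_aux {K : Type*} [Field K] [NumberField K] {ι : Type*} [Fintype ι]
    (σ : ι → (K →+* ℂ)) (hσ : Function.Injective fun i => InfinitePlace.mk (σ i))
    (w : InfinitePlace K) (hw : ∀ i, InfinitePlace.mk (σ i) ≠ w) (n : ι → ℝ)
    (hn : ∃ i, 0 < n i) :
    ∃ u : (𝓞 K)ˣ, 0 < ∑ i, n i * Real.log ‖σ i ((u : 𝓞 K) : K)‖ := by
  classical
  let c : InfinitePlace K → ℝ := fun v =>
    ∑ i, if InfinitePlace.mk (σ i) = v then n i / v.mult else 0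
  have hmult : ∀ v : InfinitePlace K, (0 : ℝ) < v.mult := fun v => by
    exact_mod_cast InfinitePlace.mult_pos
  have hcw : c w = 0 := by
    apply Finset.sum_eq_zero
    intro i _
    rw [if_neg (hw i)]
  have hci : ∀ i, c (InfinitePlace.mk (σ i)) = n i / (InfinitePlace.mk (σ i)).mult := by
    intro i
    simp only [c]
    rw [Finset.sum_eq_single i]
    · rw [if_pos rfl]
    · intro j _ hj
      rw [if_neg]
      intro h
      exact hj (hσ h)
    · intro h; exact absurd (Finset.mem_univ _) h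
  obtain ⟨v1, hv1⟩ := Finite.exists_max c
  have hpos : 0 < c v1 := by
    obtain ⟨i, hi⟩ := hn
    refine lt_of_lt_of_le ?_ (hv1 (InfinitePlace.mk (σ i)))
    rw [hci]
    exact div_pos hi (hmult _)
  have hwv : w ≠ v1 := by
    intro h
    rw [← h, hcw] at hpos
    exact lt_irrefl _ hpos
  obtain ⟨u, hu⟩ := dirichletUnitTheorem.exists_unit K v1
  refine ⟨u, ?_⟩
  have h1 : ∑ i, n i * Real.log ‖σ i ((u : 𝓞 K) : K)‖ =
      ∑ v : InfinitePlace K, c v * (v.mult * Real.log (v (u : K))) := by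
    simp only [c, Finset.sum_mul]
    rw [Finset.sum_comm]
    apply Finset.sum_congr rfl
    intro i _
    rw [Finset.sum_eq_single (InfinitePlace.mk (σ i))]
    · rw [if_pos rfl, InfinitePlace.apply]
      have := (hmult (InfinitePlace.mk (σ i))).ne'
      field_simp
    · intro v _ hv
      rw [if_neg (fun h => hv h.symm), zero_mul]
    · intro h; exact absurd (Finset.mem_univ _) h
  have h2 : ∑ v : InfinitePlace K, c v * (v.mult * Real.log (v (u : K))) =
      ∑ v : InfinitePlace K, (c v - c v1) * (v.mult * Real.log (v (u : K))) := by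
    simp only [sub_mul, Finset.sum_sub_distrib]
    rw [← Finset.mul_sum, sum_mult_mul_log, mul_zero, sub_zero]
  rw [h1, h2]
  refine Finset.sum_pos' ?_ ⟨w, Finset.mem_univ _, ?_⟩
  · intro v _
    by_cases hv : v = v1
    · rw [hv, sub_self, zero_mul]
    · have e1 := hv1 v
      have e2 := hu v hv
      have e3 := hmult v
      nlinarith [mul_pos e3 (neg_pos.mpr e2)]
  · have e2 := hu w hwv
    have e3 := hmult w
    rw [hcw]
    nlinarith [mul_pos e3 (neg_pos.mpr e2), mul_pos hpos (mul_pos e3 (neg_pos.mpr e2))]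

theorem units_functional {K : Type*} [Field K] [NumberField K] {ι : Type*} [Fintype ι]
    (σ : ι → (K →+* ℂ)) (hσ : Function.Injective fun i => InfinitePlace.mk (σ i))
    (w : InfinitePlace K) (hw : ∀ i, InfinitePlace.mk (σ i) ≠ w) (n : ι → ℤ) (hn : n ≠ 0) :
    ∃ u : (𝓞 K)ˣ, ∑ i, (n i : ℝ) * Real.log ‖σ i ((u : 𝓞 K) : K)‖ ≠ 0 := by
  obtain ⟨i, hi⟩ := Function.ne_iff.mp hn
  rcases lt_or_gt_of_ne hi with h | h
  · obtain ⟨u, hu⟩ := units_functional_aux σ hσ w hw (fun i => -(n i : ℝ))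
      ⟨i, by
        have : (n i : ℝ) < 0 := by exact_mod_cast h
        linarith⟩
    refine ⟨u, ?_⟩
    simp only [neg_mul, Finset.sum_neg_distrib] at hu
    linarith
  · obtain ⟨u, hu⟩ := units_functional_aux σ hσ w hw (fun i => (n i : ℝ))
      ⟨i, by exact_mod_cast h⟩
    exact ⟨u, hu.ne'⟩

end Vale.Agent.P002
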