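import Vale.Agent.P002.Defs
import Vale.Agent.P002.UnitsFunctional

namespace Vale.Agent.P002

open Matrix NumberField Polynomial

section cj

variable {r : ℕ}

noncomputable def cj (h : Mat r) (v : Fin r → ℂ) : Mat r := h * diagonal v * h⁻¹

theorem cj_mul {h : Mat r} (hh : IsUnit h.det) (v w : Fin r → ℂ) :
    cj h v * cj h w = cj h (v * w) := by
  unfold cj
  calc h * diagonal v * h⁻¹ * (h * diagonal w * h⁻¹) =
        h * diagonal v * (h⁻¹ * h) * diagonal w * h⁻¹ := by simp only [mul_assoc]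
    _ = h * (diagonal v * diagonal w) * h⁻¹ := by
        rw [Matrix.nonsing_inv_mul h hh, mul_one]; simp only [mul_assoc]
    _ = _ := by rw [Matrix.diagonal_mul_diagonal]; rfl

theorem cj_add (h : Mat r) (v w : Fin r → ℂ) : cj h v + cj h w = cj h (v + w) := by
  unfold cj
  rw [← add_mul, ← mul_add, Matrix.diagonal_add]
  rfl

theorem cj_smul (h : Mat r) (a : ℂ) (v : Fin r → ℂ) : a • cj h v = cj h (a • v) := by
  unfold cj
  rw [← Matrix.smul_mul, ← Matrix.mul_smul, Matrix.diagonal_smul]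

theorem cj_one {h : Mat r} (hh : IsUnit h.det) : cj h 1 = 1 := by
  unfold cj
  rw [show (diagonal (1 : Fin r → ℂ)) = 1 from Matrix.diagonal_one, mul_one,
    Matrix.mul_nonsing_inv h hh]

theorem cj_diag {h : Mat r} (hh : IsUnit h.det) (v : Fin r → ℂ) :
    h⁻¹ * cj h v * h = diagonal v := by
  unfold cj
  calc h⁻¹ * (h * diagonal v * h⁻¹) * h = (h⁻¹ * h) * diagonal v * (h⁻¹ * h) := by
        simp only [mul_assoc]
    _ = _ := by rw [Matrix.nonsing_inv_mul h hh, mul_one, one_mul]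

theorem cj_inj {h : Mat r} (hh : IsUnit h.det) {v w : Fin r → ℂ} (e : cj h v = cj h w) :
    v = w := by
  have h1 : diagonal v = diagonal w := by rw [← cj_diag hh v, ← cj_diag hh w, e]
  exact Matrix.diagonal_injective h1

theorem cj_pow {h : Mat r} (hh : IsUnit h.det) (v : Fin r → ℂ) (m : ℕ) :
    cj h v ^ m = cj h (v ^ m) := by
  induction m with
  | zero => rw [pow_zero, pow_zero, cj_one hh]
  | succ m ih => rw [pow_succ, pow_succ, ih, cj_mul hh]

end cj

section kc

variable {L : Type*} [Field L] [NumberField L] (φ : L →+* ℂ) {r : ℕ}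

theorem kc_aeval (C : Matrix (Fin r) (Fin r) L) {h : Mat r} (hh : IsUnit h.det)
    (lam : Fin r → ℂ) (hC : C.map φ = cj h lam) (P : L[X]) :
    (aeval C P).map φ = cj h (fun i => P.eval₂ φ (lam i)) := by
  have hpow : ∀ m : ℕ, (C ^ m).map φ = cj h (lam ^ m) := by
    intro m
    rw [← cj_pow hh, ← hC]
    exact (Matrix.map_pow C φ m)
  induction P using Polynomial.induction_on' with
  | add p q hp hq =>
    rw [map_add]
    have : ((aeval C) p + (aeval C) q).map φ = ((aeval C) p).map φ + ((aeval C) q).map φ := by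
      ext i j; simp
    rw [this, hp, hq, cj_add]
    congr 1
    funext i
    simp [eval₂_add]
  | monomial m a =>
    have h1 : (aeval C (monomial m a)).map φ = φ a • (C ^ m).map φ := by
      ext i j
      simp [aeval_monomial, Algebra.algebraMap_eq_smul_one]
    rw [h1, hpow, cj_smul]
    congr 1
    funext i
    simp [eval₂_monomial]

theorem kc_root (C : Matrix (Fin r) (Fin r) L) {h : Mat r} (hh : IsUnit h.det)
    (lam : Fin r → ℂ) (hC : C.map φ = cj h lam) (i : Fin r) :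
    C.charpoly.eval₂ φ (lam i) = 0 := by
  have h1 := kc_aeval φ C hh lam hC C.charpoly
  rw [Matrix.aeval_self_charpoly] at h1
  have h2 : cj h (fun i => C.charpoly.eval₂ φ (lam i)) = cj h 0 := by
    rw [← h1]
    have : cj h (0 : Fin r → ℂ) = 0 := by
      unfold cj
      rw [show (diagonal (0 : Fin r → ℂ)) = 0 from Matrix.diagonal_zero, mul_zero, zero_mul]
    rw [this]
    ext a b; simp
  exact congrFun (cj_inj hh h2) i

omit [NumberField L] in
theorem kc_minpoly (z : ℂ) (q : L[X]) (hq : q.Monic) (hz : q.eval₂ φ z = 0) :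
    ∃ p : L[X], Irreducible p ∧ p.Monic ∧ p.eval₂ φ z = 0 ∧
      ∀ s : L[X], s.eval₂ φ z = 0 → p ∣ s := by
  let _ : Algebra L ℂ := φ.toAlgebra
  have hint : IsIntegral L z := ⟨q, hq, hz⟩
  exact ⟨minpoly L z, minpoly.irreducible hint, minpoly.monic hint, minpoly.aeval L z,
    fun s hs => minpoly.dvd L z hs⟩

theorem kc_idem (C : Matrix (Fin r) (Fin r) L) {h : Mat r} (hh : IsUnit h.det)
    (lam : Fin r → ℂ) (hC : C.map φ = cj h lam) (i0 : Fin r) :
    ∃ (p E : L[X]), Irreducible p ∧ p.Monic ∧ p.eval₂ φ (lam i0) = 0 ∧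
      (∀ i, p.eval₂ φ (lam i) = 0 → E.eval₂ φ (lam i) = 1) ∧
      (∀ i, p.eval₂ φ (lam i) ≠ 0 → E.eval₂ φ (lam i) = 0) := by
  classical
  have hex : ∀ i, ∃ p : L[X], Irreducible p ∧ p.Monic ∧ p.eval₂ φ (lam i) = 0 ∧
      ∀ s : L[X], s.eval₂ φ (lam i) = 0 → p ∣ s := fun i =>
    kc_minpoly φ (lam i) C.charpoly (Matrix.charpoly_monic C) (kc_root φ C hh lam hC i)
  choose p hp1 hp2 hp3 hp4 using hex
  let J : Finset (Fin r) := Finset.univ.filter fun j => (p i0).eval₂ φ (lam j) ≠ 0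
  have hcop : IsCoprime (p i0) (∏ j ∈ J, p j) := by
    refine IsCoprime.prod_right fun j hj => ?_
    rw [(hp1 i0).coprime_iff_not_dvd]
    intro hdvd
    have h1 : (p i0).eval₂ φ (lam j) = 0 := by
      have hassoc := (hp1 i0).associated_of_dvd (hp1 j) hdvd
      have heq := eq_of_monic_of_associated (hp2 i0) (hp2 j) hassoc
      rw [heq]; exact hp3 j
    exact (Finset.mem_filter.mp hj).2 h1
  obtain ⟨a, b, hab⟩ := hcop
  refine ⟨p i0, b * ∏ j ∈ J, p j, hp1 i0, hp2 i0, hp3 i0, ?_, ?_⟩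
  · intro i hi
    have h1 := congrArg (fun q : L[X] => q.eval₂ φ (lam i)) hab
    simp only [eval₂_add, eval₂_mul, eval₂_one, hi, mul_zero, zero_add] at h1
    rw [eval₂_mul]
    exact h1
  · intro i hi
    rw [eval₂_mul, eval₂_finsetProd, Finset.prod_eq_zero (i := i) _ (hp3 i), mul_zero]
    exact Finset.mem_filter.mpr ⟨Finset.mem_univ i, hi⟩

theorem kc_emb_add (A B : Matrix (Fin r) (Fin r) (𝓞 L)) : emb φ (A + B) = emb φ A + emb φ B := by
  ext i j; simp [emb]

theorem kc_emb_mul (A B : Matrix (Fin r) (Fin r) (𝓞 L)) : emb φ (A * B) = emb φ A * emb φ B := by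
  unfold emb; exact Matrix.map_mul

theorem kc_emb_one : emb φ (1 : Matrix (Fin r) (Fin r) (𝓞 L)) = 1 := by
  unfold emb; exact Matrix.map_one _ (map_zero _) (map_one _)

theorem kc_emb_inj {A B : Matrix (Fin r) (Fin r) (𝓞 L)} (e : emb φ A = emb φ B) : A = B := by
  ext i j
  have h1 := congrFun (congrFun e i) j
  exact φ.injective h1

set_option linter.unusedSectionVars false

variable {K : Type*} [Field K] [NumberField K] [Algebra L K]

noncomputable def vals {I : Fin r → Prop} [DecidablePred I] (σ : {i // I i} → (K →+* ℂ)) (α : K) :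
    Fin r → ℂ := fun i => if hi : I i then σ ⟨i, hi⟩ α else 0

theorem vals_add {I : Fin r → Prop} [DecidablePred I] (σ : {i // I i} → (K →+* ℂ)) (α β : K) :
    vals σ (α + β) = vals σ α + vals σ β := by
  funext i
  by_cases hi : I i <;> simp [vals, hi]

theorem vals_zsmul {I : Fin r → Prop} [DecidablePred I] (σ : {i // I i} → (K →+* ℂ)) (n : ℤ)
    (α : K) : vals σ (n • α) = (n : ℂ) • vals σ α := by
  funext i
  by_cases hi : I i <;> simp [vals, hi]

theorem vals_zero {I : Fin r → Prop} [DecidablePred I] (σ : {i // I i} → (K →+* ℂ)) :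
    vals σ 0 = 0 := by
  funext i
  by_cases hi : I i <;> simp [vals, hi]

theorem kc_denom {h : Mat r} {I : Fin r → Prop} [DecidablePred I] (σ : {i // I i} → (K →+* ℂ))
    (hrat : ∀ α : K, ∃ A : Matrix (Fin r) (Fin r) L, A.map φ = cj h (vals σ α)) :
    ∃ d : 𝓞 L, d ≠ 0 ∧ ∀ β : 𝓞 K, ∃ A : Matrix (Fin r) (Fin r) (𝓞 L),
      emb φ A = cj h (φ (d : L) • vals σ (β : K)) := by
  classical
  obtain ⟨S, hS⟩ := (Module.Finite.fg_top : (⊤ : Submodule ℤ (𝓞 K)).FG)
  choose A hA using hrat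
  obtain ⟨d, hd⟩ := IsLocalization.exist_integer_multiples_of_finite (nonZeroDivisors (𝓞 L))
    (fun q : S × Fin r × Fin r => A ((q.1 : 𝓞 K) : K) q.2.1 q.2.2)
  refine ⟨d, nonZeroDivisors.ne_zero d.2, ?_⟩
  intro β
  have hβ : β ∈ Submodule.span ℤ (S : Set (𝓞 K)) := by rw [hS]; exact Submodule.mem_top
  induction hβ using Submodule.span_induction with
  | mem x hx =>
    choose z hz using hd
    refine ⟨Matrix.of fun i j => z (⟨x, hx⟩, i, j), ?_⟩
    rw [← cj_smul, ← hA]
    ext i j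
    have h1 := hz (⟨x, hx⟩, i, j)
    show φ (algebraMap (𝓞 L) L (z (⟨x, hx⟩, i, j))) = φ ((d : 𝓞 L) : L) * φ (A (x : K) i j)
    rw [h1, Algebra.smul_def, map_mul]
  | zero =>
    refine ⟨0, ?_⟩
    have h0 : vals σ (((0 : 𝓞 K) : K)) = 0 := by
      rw [show ((0 : 𝓞 K) : K) = 0 from map_zero _, vals_zero]
    rw [h0, smul_zero]
    ext i j
    simp [emb, cj]
  | add x y _ _ hx hy =>
    obtain ⟨A1, h1⟩ := hx
    obtain ⟨A2, h2⟩ := hy
    refine ⟨A1 + A2, ?_⟩
    rw [kc_emb_add, h1, h2, cj_add, ← smul_add, ← vals_add]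
    rfl
  | smul n x _ hx =>
    obtain ⟨A1, h1⟩ := hx
    refine ⟨n • A1, ?_⟩
    have e1 : emb φ (n • A1) = (n : ℂ) • emb φ A1 := by
      ext i j
      show φ (algebraMap (𝓞 L) L ((n • A1) i j)) = (n : ℂ) * φ (algebraMap (𝓞 L) L (A1 i j))
      rw [Matrix.smul_apply, zsmul_eq_mul, map_mul, map_mul, map_intCast, map_intCast]
    have e2 : vals σ (((n • x : 𝓞 K) : K)) = (n : ℂ) • vals σ (x : K) := by
      rw [← vals_zsmul]
      congr 1
    rw [e1, h1, e2, cj_smul, smul_comm]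

theorem kc_lift {h : Mat r} (hh : IsUnit h.det) {I : Fin r → Prop} [DecidablePred I]
    (σ : {i // I i} → (K →+* ℂ)) (hσ : ∀ i (a : L), σ i (algebraMap L K a) = φ a)
    (hrat : ∀ α : K, ∃ A : Matrix (Fin r) (Fin r) L, A.map φ = cj h (vals σ α)) :
    ∀ u : (𝓞 K)ˣ, ∃ N : ℕ, 0 < N ∧ ∃ s s' : Matrix (Fin r) (Fin r) (𝓞 L),
      emb φ s = cj h (fun i => if hi : I i then σ ⟨i, hi⟩ ((u : 𝓞 K) : K) ^ N else 1) ∧
      emb φ s' = cj h (fun i => if hi : I i then
        (σ ⟨i, hi⟩ ((u : 𝓞 K) : K) ^ N)⁻¹ else 1) := by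
  intro u
  obtain ⟨d, hd0, hd⟩ := kc_denom φ σ hrat
  let dK : 𝓞 K := algebraMap (𝓞 L) (𝓞 K) d
  have hdK : dK ≠ 0 := by
    intro h0
    apply hd0
    have : Function.Injective (algebraMap (𝓞 L) (𝓞 K)) := FaithfulSMul.algebraMap_injective _ _
    exact this (by rw [map_zero]; exact h0)
  have hfin : Finite (𝓞 K ⧸ Ideal.span {dK}) := Ideal.finiteQuotientOfFreeOfNeBot _ (by
    rw [Ne, Ideal.span_singleton_eq_bot]; exact hdK)
  let ub : (𝓞 K ⧸ Ideal.span {dK})ˣ := Units.map (Ideal.Quotient.mk (Ideal.span {dK})) u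
  obtain ⟨N, hN, hN1⟩ := (isOfFinOrder_of_finite ub).exists_pow_eq_one
  have key : ∀ v : (𝓞 K)ˣ, (Units.map (Ideal.Quotient.mk (Ideal.span {dK})).toMonoidHom v) ^ N = 1 →
      ∃ s : Matrix (Fin r) (Fin r) (𝓞 L),
      emb φ s = cj h (fun i => if hi : I i then σ ⟨i, hi⟩ ((v : 𝓞 K) : K) ^ N else 1) := by
    intro v hv
    have h1 : (v : 𝓞 K) ^ N - 1 ∈ Ideal.span {dK} := by
      rw [← Ideal.Quotient.eq_zero_iff_mem, map_sub, map_one, map_pow, sub_eq_zero]
      have := congrArg Units.val hv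
      simpa using this
    rw [Ideal.mem_span_singleton] at h1
    obtain ⟨β, hβ⟩ := h1
    obtain ⟨A, hA⟩ := hd β
    refine ⟨1 + A, ?_⟩
    rw [kc_emb_add, kc_emb_one, hA, ← cj_one hh, cj_add]
    congr 1
    funext i
    by_cases hi : I i
    · simp only [Pi.add_apply, Pi.one_apply, Pi.smul_apply, vals, hi, dite_true, smul_eq_mul]
      have h2 := congrArg (fun x : 𝓞 K => σ ⟨i, hi⟩ (x : K)) hβ
      simp only [map_sub, map_one, map_pow, map_mul] at h2
      have h3 : σ ⟨i, hi⟩ ((dK : 𝓞 K) : K) = φ (d : L) := hσ ⟨i, hi⟩ (d : L)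
      rw [h3] at h2
      rw [← h2]; ring
    · simp [vals, hi]
  obtain ⟨s, hs⟩ := key u hN1
  obtain ⟨s', hs'⟩ := key u⁻¹ (by rw [map_inv, inv_pow, inv_eq_one]; exact hN1)
  refine ⟨N, hN, s, s', hs, ?_⟩
  rw [hs']
  congr 1
  funext i
  by_cases hi : I i
  · simp only [hi, dite_true]
    rw [← inv_pow]
    congr 1
    have h1 : ((u : 𝓞 K) : K) * (((u⁻¹ : (𝓞 K)ˣ) : 𝓞 K) : K) = 1 := by
      rw [← map_mul, Units.mul_inv, map_one]
    have h2 := congrArg (σ ⟨i, hi⟩) h1
    rw [map_mul, map_one] at h2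
    exact eq_inv_of_mul_eq_one_right h2
  · simp [hi]

theorem kc_numberField (p : L[X]) [Fact (Irreducible p)] : NumberField (AdjoinRoot p) where
  to_charZero := charZero_of_injective_algebraMap (algebraMap L (AdjoinRoot p)).injective
  to_finiteDimensional := by
    have : FiniteDimensional L (AdjoinRoot p) :=
      (AdjoinRoot.powerBasis (Fact.out : Irreducible p).ne_zero).finite
    exact FiniteDimensional.trans ℚ L _

theorem kc_unit (hφ : ¬ ComplexEmbedding.IsReal φ) (w : InfinitePlace L)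
    (hw : w ≠ InfinitePlace.mk φ) (c : Matrix (Fin r) (Fin r) (𝓞 L)) (h : Mat r)
    (hh : IsUnit h.det) (lam : Fin r → ℂ) (hlam : Function.Injective lam)
    (hc : emb φ c = cj h lam) (n : Fin r → ℤ) (hn : n ≠ 0) :
    ∃ (s s' : Matrix (Fin r) (Fin r) (𝓞 L)) (τ τ' : Fin r → ℂ), emb φ s = cj h τ ∧
      emb φ s' = cj h τ' ∧ (∀ i, τ i * τ' i = 1) ∧ ∏ i, ‖τ i‖ ^ (n i) ≠ 1 := by
  classical
  obtain ⟨i0, hi0⟩ := Function.ne_iff.mp hn
  let C : Matrix (Fin r) (Fin r) L := c.map (algebraMap (𝓞 L) L)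
  have hC : C.map φ = cj h lam := by
    rw [← hc]; rfl
  obtain ⟨p, E, hpi, hpm, hp0, hE1, hE0⟩ := kc_idem φ C hh lam hC i0
  have hfact : Fact (Irreducible p) := ⟨hpi⟩
  let K := AdjoinRoot p
  have hK : NumberField K := kc_numberField p
  let I : Fin r → Prop := fun i => p.eval₂ φ (lam i) = 0
  let σ : {i // I i} → (K →+* ℂ) := fun i => AdjoinRoot.lift φ (lam i.1) i.2
  have hσ : ∀ i (a : L), σ i (algebraMap L K a) = φ a := by
    intro i a
    exact AdjoinRoot.lift_of i.2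
  have hσroot : ∀ i, σ i (AdjoinRoot.root p) = lam i.1 := fun i => AdjoinRoot.lift_root i.2
  have hrat : ∀ α : K, ∃ A : Matrix (Fin r) (Fin r) L, A.map φ = cj h (vals σ α) := by
    intro α
    obtain ⟨g, rfl⟩ := AdjoinRoot.mk_surjective α
    refine ⟨aeval C (g * E), ?_⟩
    rw [kc_aeval φ C hh lam hC]
    congr 1
    funext i
    rw [eval₂_mul]
    by_cases hi : I i
    · rw [hE1 i hi, mul_one]
      simp only [vals, hi, dite_true]
      exact (AdjoinRoot.lift_mk hi g).symm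
    · rw [hE0 i hi, mul_zero]
      simp [vals, hi]
  have hinj : Function.Injective fun i => InfinitePlace.mk (σ i) := by
    intro i j hij
    rcases InfinitePlace.mk_eq_iff.mp hij with h1 | h1
    · have h2 := RingHom.congr_fun h1 (AdjoinRoot.root p)
      rw [hσroot, hσroot] at h2
      exact Subtype.ext (hlam h2)
    · exfalso
      apply hφ
      rw [ComplexEmbedding.isReal_iff]
      ext a
      have h2 := RingHom.congr_fun h1 (algebraMap L K a)
      rw [ComplexEmbedding.conjugate_coe_eq, hσ, hσ] at h2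
      rw [ComplexEmbedding.conjugate_coe_eq]
      exact h2
  obtain ⟨w', hw'⟩ := InfinitePlace.comap_surjective (k := L) (K := K) w
  have hne : ∀ i, InfinitePlace.mk (σ i) ≠ w' := by
    intro i h1
    apply hw
    rw [← hw', ← h1]
    show InfinitePlace.comap (InfinitePlace.mk (σ i)) (algebraMap L K) = InfinitePlace.mk φ
    rw [InfinitePlace.comap_mk]
    congr 1
    ext a
    exact hσ i a
  obtain ⟨u, hu⟩ := units_functional σ hinj w' hne (fun i => n i.1) (by
    intro h0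
    exact hi0 (congrFun h0 ⟨i0, hp0⟩))
  obtain ⟨N, hN, s, s', hs, hs'⟩ := kc_lift φ hh σ hσ hrat u
  have hne0 : ∀ i, σ i ((u : 𝓞 K) : K) ≠ 0 := by
    intro i h0
    have h1 : ((u : 𝓞 K) : K) * (((u⁻¹ : (𝓞 K)ˣ) : 𝓞 K) : K) = 1 := by
      rw [← map_mul, Units.mul_inv, map_one]
    have h2 := congrArg (σ i) h1
    rw [map_mul, map_one, h0, zero_mul] at h2
    exact zero_ne_one h2
  refine ⟨s, s', _, _, hs, hs', ?_, ?_⟩
  · intro i
    by_cases hi : I i
    · simp only [hi, dite_true]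
      exact mul_inv_cancel₀ (pow_ne_zero _ (hne0 _))
    · simp [hi]
  · intro hprod
    apply hu
    have h1 := congrArg Real.log hprod
    rw [Real.log_one, Real.log_prod (fun i _ => by
      apply zpow_ne_zero
      rw [norm_ne_zero_iff]
      by_cases hi : I i
      · simp only [hi, dite_true]
        exact pow_ne_zero _ (hne0 _)
      · simp [hi])] at h1
    have h2 : ∑ i, Real.log (‖(fun i => if hi : I i then σ ⟨i, hi⟩ ((u : 𝓞 K) : K) ^ N else 1) i‖
        ^ (n i)) = N * ∑ i : {i // I i}, (n i.1 : ℝ) * Real.log ‖σ i ((u : 𝓞 K) : K)‖ := by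
      rw [← Fintype.sum_subtype_add_sum_subtype I, Finset.mul_sum]
      have e1 : ∑ i : {i // ¬ I i}, Real.log (‖(fun i => if hi : I i then
          σ ⟨i, hi⟩ ((u : 𝓞 K) : K) ^ N else 1) i.1‖ ^ (n i.1)) = 0 := by
        refine Finset.sum_eq_zero fun i _ => ?_
        simp [i.2]
      rw [e1, add_zero]
      refine Finset.sum_congr rfl fun i _ => ?_
      simp only [i.2, dite_true]
      rw [Real.log_zpow, norm_pow, Real.log_pow]
      ring
    rw [h2] at h1
    exact (mul_eq_zero.mp h1).resolve_left (by exact_mod_cast hN.ne')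

theorem kc_zpow_sum {F ι : Type*} [Field F] (a : F) (ha : a ≠ 0) (n : ι → ℤ) (t : Finset ι) :
    ∏ i ∈ t, a ^ n i = a ^ (∑ i ∈ t, n i) := by
  classical
  induction t using Finset.induction_on with
  | empty => simp
  | insert b t hb ih => rw [Finset.prod_insert hb, Finset.sum_insert hb, ih, zpow_add₀ ha]

theorem key_char (hφ : ¬ ComplexEmbedding.IsReal φ) (w : InfinitePlace L)
    (hw : w ≠ InfinitePlace.mk φ) (c : Matrix (Fin r) (Fin r) (𝓞 L)) (h : Mat r)
    (hh : IsUnit h.det) (lam : Fin r → ℂ) (hlam : Function.Injective lam)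
    (hc : emb φ c = h * diagonal lam * h⁻¹) (n : Fin r → ℤ) (hn : n ≠ 0) :
    ∃ (t : SpecialLinearGroup (Fin r) (𝓞 L)) (κ : ℂ), κ ≠ 0 ∧ Commute t.1 c ∧
      ∏ i, (κ * (h⁻¹ * emb φ t.1 * h) i i) ^ (n i) ≠ 1 := by
  classical
  have hc' : emb φ c = cj h lam := hc
  have hr : r ≠ 0 := by
    rintro rfl
    exact hn (Subsingleton.elim _ _)
  by_cases hsum : ∑ i, n i = 0
  · obtain ⟨s, s', τ, τ', hs, hs', hττ, hprod⟩ := kc_unit φ hφ w hw c h hh lam hlam hc' n hn
    have hss : s * s' = 1 := by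
      apply kc_emb_inj φ
      rw [kc_emb_mul, hs, hs', cj_mul hh, kc_emb_one, ← cj_one hh]
      congr 1
      funext i
      exact hττ i
    have hdet : s.det * s'.det = 1 := by rw [← Matrix.det_mul, hss, Matrix.det_one]
    have hcs : Commute s c := by
      apply kc_emb_inj φ
      rw [kc_emb_mul, kc_emb_mul, hs, hc', cj_mul hh, cj_mul hh, mul_comm]
    have hdett : (s'.det • s ^ r).det = 1 := by
      rw [Matrix.det_smul, Matrix.det_pow, Fintype.card_fin, ← mul_pow, mul_comm, hdet, one_pow]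
    refine ⟨⟨s'.det • s ^ r, hdett⟩, 1, one_ne_zero, (hcs.pow_left r).smul_left _, ?_⟩
    have hemb : emb φ (s'.det • s ^ r) = cj h (φ (s'.det : 𝓞 L) • τ ^ r) := by
      have e1 : emb φ (s'.det • s ^ r) = φ (s'.det : 𝓞 L) • emb φ (s ^ r) := by
        ext i j; simp [emb]
      have e2 : ∀ m : ℕ, emb φ (s ^ m) = emb φ s ^ m := by
        intro m
        induction m with
        | zero => rw [pow_zero, pow_zero, kc_emb_one]
        | succ m ih => rw [pow_succ, pow_succ, kc_emb_mul, ih]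
      rw [e1, e2, hs, cj_pow hh, cj_smul]
    intro hone
    apply hprod
    have h1 : ∀ i, (1 * (h⁻¹ * emb φ (s'.det • s ^ r) * h) i i) =
        φ (s'.det : 𝓞 L) * τ i ^ r := by
      intro i
      rw [hemb, cj_diag hh, Matrix.diagonal_apply_eq, one_mul]
      rfl
    have h2 := congrArg norm hone
    simp only [h1] at h2
    rw [norm_prod, norm_one] at h2
    have hd0 : ‖φ (s'.det : 𝓞 L)‖ ≠ 0 := by
      rw [norm_ne_zero_iff]
      intro h0
      have h3 := congrArg (fun x : 𝓞 L => φ (x : L)) hdet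
      simp only [map_mul, map_one] at h3
      rw [h0, mul_zero] at h3
      exact zero_ne_one h3
    have h4 : ∏ i, ‖(φ (s'.det : 𝓞 L) * τ i ^ r) ^ n i‖ = (∏ i, ‖τ i‖ ^ n i) ^ r := by
      have e1 : ∀ i, ‖(φ (s'.det : 𝓞 L) * τ i ^ r) ^ n i‖ =
          ‖φ (s'.det : 𝓞 L)‖ ^ n i * (‖τ i‖ ^ n i) ^ r := by
        intro i
        rw [norm_zpow, norm_mul, norm_pow, mul_zpow, ← zpow_natCast, ← zpow_natCast,
          ← _root_.zpow_mul, ← _root_.zpow_mul, mul_comm (r : ℤ)]
      simp only [e1]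
      rw [Finset.prod_mul_distrib, Finset.prod_pow, kc_zpow_sum _ hd0, hsum, zpow_zero, one_mul]
    rw [h4] at h2
    have hpos : 0 ≤ ∏ i, ‖τ i‖ ^ n i := Finset.prod_nonneg fun i _ => zpow_nonneg (norm_nonneg _) _
    exact (pow_eq_one_iff_of_nonneg hpos hr).mp h2
  · refine ⟨1, 2, two_ne_zero, Commute.one_left _, ?_⟩
    have h1 : ∀ i, (2 * (h⁻¹ * emb φ (1 : SpecialLinearGroup (Fin r) (𝓞 L)).1 * h) i i) = (2 : ℂ) := by
      intro i
      have e1 : emb φ (1 : SpecialLinearGroup (Fin r) (𝓞 L)).1 = 1 := kc_emb_one φ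
      rw [e1, mul_one, Matrix.nonsing_inv_mul h hh, Matrix.one_apply_eq, mul_one]
    simp only [h1]
    intro h2
    apply hsum
    rw [kc_zpow_sum (2 : ℂ) two_ne_zero] at h2
    have h4 := congrArg norm h2
    rw [norm_zpow, norm_one, Complex.norm_ofNat] at h4
    exact (zpow_eq_one_iff_right₀ (by norm_num) (by norm_num)).mp h4

end kc

end Vale.Agent.P002
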