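import Vale.Agent.P002.LocalMoves

namespace Vale.Agent.P002

open Matrix NumberField Topology Filter
open scoped Matrix.Norms.L2Operator

section base
variable {r : ℕ} [NeZero r]

noncomputable def win (α : Fin r → ℂ) (k : ℕ) (i : Fin r) : ℂ :=
  ∏ j ∈ Finset.range k, α (i + j • 1 + 1)

structure BaseCond (α : Fin r → ℂ) : Prop where
  ne : ∀ i, α i ≠ 0
  inj : Function.Injective α
  win : ∀ k, 1 ≤ k → k < r → Function.Injective (win α k)

theorem ringInverse_mono (k : Fin r) (d : Fin r → ℂ) (hd : ∀ i, d i ≠ 0) :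
    Ring.inverse (mono k d) = mono (-k) (fun i => (d (i - k))⁻¹) := by
  rw [← Matrix.nonsing_inv_eq_ringInverse, mono_inv k d hd]

theorem mono_isUnit' (k : Fin r) (d : Fin r → ℂ) (hd : ∀ i, d i ≠ 0) :
    IsUnit (mono k d) := (Matrix.isUnit_iff_isUnit_det _).mpr (mono_isUnit k d hd)

theorem dcmA_entry {α : Fin r → ℂ} (hα : ∀ i, α i ≠ 0) (q : Mat r × Mat r) (i j : Fin r) :
    dcmA (mono 0 α, mono 1 1) q i j =
      q.1 i j * (α (j + 1))⁻¹ + α i * q.2 i (j + 1) * (α (j + 1))⁻¹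
      - α i * (α (i + 1))⁻¹ * q.1 (i + 1) (j + 1) * (α (j + 1))⁻¹
      - α i * (α (i + 1))⁻¹ * q.2 i (j + 1) := by
  have h1 : ∀ i : Fin r, (1 : Fin r → ℂ) i ≠ 0 := fun i => one_ne_zero
  simp only [dcmA, ringInverse_mono 0 α hα, ringInverse_mono 1 1 h1, Matrix.sub_apply,
    Matrix.add_apply]
  have e1 : (q.1 * mono 1 1 * mono (-0) (fun i => (α (i - 0))⁻¹) *
      mono (-1) (fun i => ((1 : Fin r → ℂ) (i - 1))⁻¹) : Mat r) i j = q.1 i j * (α (j + 1))⁻¹ := by
    simp only [mul_mono_apply]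
    simp
  have e2 : (mono 0 α * q.2 * mono (-0) (fun i => (α (i - 0))⁻¹) *
      mono (-1) (fun i => ((1 : Fin r → ℂ) (i - 1))⁻¹) : Mat r) i j =
      α i * q.2 i (j + 1) * (α (j + 1))⁻¹ := by
    simp only [mul_mono_apply, mono_mul_apply]
    simp
  have e3 : (mono 0 α * mono 1 1 * (mono (-0) (fun i => (α (i - 0))⁻¹) * q.1 *
      mono (-0) (fun i => (α (i - 0))⁻¹)) *
      mono (-1) (fun i => ((1 : Fin r → ℂ) (i - 1))⁻¹) : Mat r) i j =
      α i * (α (i + 1))⁻¹ * q.1 (i + 1) (j + 1) * (α (j + 1))⁻¹ := by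
    simp only [mono_mul, mul_mono_apply, mono_mul_apply]
    simp
    ring
  have e4 : (mono 0 α * mono 1 1 * mono (-0) (fun i => (α (i - 0))⁻¹) *
      (mono (-1) (fun i => ((1 : Fin r → ℂ) (i - 1))⁻¹) * q.2 *
      mono (-1) (fun i => ((1 : Fin r → ℂ) (i - 1))⁻¹)) : Mat r) i j =
      α i * (α (i + 1))⁻¹ * q.2 i (j + 1) := by
    simp only [mono_mul, mul_mono_apply, mono_mul_apply]
    simp
  rw [e1, e2, e3, e4]

theorem e1_base (α : Fin r → ℂ) (m : ℕ) :
    e1 m ((mono 0 α : Mat r), mono 1 1) = mono 1 (fun i => α (i + 1) ^ m) := by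
  simp only [e1, mono_zero_pow, mono_mul, add_zero]
  congr 1
  funext i
  simp

theorem base_w_pow (α : Fin r → ℂ) (m k : ℕ) (i j : Fin r) :
    (mono 0 α * (e1 m ((mono 0 α : Mat r), mono 1 1)) ^ k) i j =
      if j = i + k • (1 : Fin r) then α i * (win α k i) ^ m else 0 := by
  rw [e1_base, mono_pow, mono_mul_apply, mono_apply, add_zero]
  by_cases h : j = i + k • (1 : Fin r)
  · rw [if_pos h, if_pos h, win, Finset.prod_pow]
  · rw [if_neg h, if_neg h, mul_zero]

theorem const_of_succ {f : Fin r → ℂ} (h : ∀ i, f (i + 1) = f i) : ∀ i, f i = f 0 := by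
  have : ∀ k : ℕ, f (k • (1 : Fin r)) = f 0 := by
    intro k
    induction k with
    | zero => simp
    | succ k ih => rw [succ_nsmul, h, ih]
  intro i
  rw [← nsmul_val i]
  exact this _

theorem ker_sub_span {α : Fin r → ℂ} (hα : BaseCond α) (β : Fin r → Fin r → Mat r)
    (D : (Mat r × Mat r) →ₗ[ℂ] Mat r) (hD : ∀ q, D q = dcmA (mono 0 α, mono 1 1) q)
    (S : Submodule ℂ (Mat r × Mat r)) (hS : S ≤ LinearMap.ker D)
    (h1 : ∀ m k : Fin r, (mono 0 α * (e1 (m : ℕ) ((mono 0 α : Mat r), mono 1 1)) ^ (k : ℕ), β m k) ∈ S)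
    (h2 : ∀ k : Fin r, ((0 : Mat r), mono 1 1 * (mono 0 α) ^ (k : ℕ)) ∈ S)
    (v : Mat r × Mat r) (hv : D v = 0) : v ∈ S := by
  -- step a
  have ha : ∃ s ∈ S, ∀ i j, i ≠ j → s.1 i j = v.1 i j := by
    have hc : ∀ k : Fin r, ∃ c : Fin r → ℂ, k ≠ 0 → ∀ i,
        ∑ m, c m * (win α k i) ^ (m : ℕ) = (α i)⁻¹ * v.1 i (i + k) := by
      intro k
      by_cases hk : k = 0
      · exact ⟨0, fun h => absurd hk h⟩
      · have hk1 : 1 ≤ (k : ℕ) := by
          rw [Nat.one_le_iff_ne_zero]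
          exact fun h => hk (Fin.ext (by simpa using h))
        obtain ⟨c, hc⟩ := exists_vander (hα.win k hk1 k.2) (fun i => (α i)⁻¹ * v.1 i (i + k))
        exact ⟨c, fun _ => hc⟩
    choose c hc using hc
    refine ⟨∑ k : Fin r, ∑ m : Fin r, c k m •
      (mono 0 α * (e1 (m : ℕ) ((mono 0 α : Mat r), mono 1 1)) ^ (k : ℕ), β m k),
      S.sum_mem fun k _ => S.sum_mem fun m _ => S.smul_mem _ (h1 m k), ?_⟩
    intro i j hij
    have e1 : (∑ k : Fin r, ∑ m : Fin r, c k m •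
      ((mono 0 α * (e1 (m : ℕ) ((mono 0 α : Mat r), mono 1 1)) ^ (k : ℕ), β m k) :
        Mat r × Mat r)).1 i j = ∑ k : Fin r, ∑ m : Fin r, c k m *
        (if j = i + k then α i * (win α k i) ^ (m : ℕ) else 0) := by
      rw [Prod.fst_sum, Matrix.sum_apply]
      refine Finset.sum_congr rfl fun k _ => ?_
      rw [Prod.fst_sum, Matrix.sum_apply]
      refine Finset.sum_congr rfl fun m _ => ?_
      show c k m * (mono 0 α * (e1 (m : ℕ) ((mono 0 α : Mat r), mono 1 1)) ^ (k : ℕ)) i j = _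
      rw [base_w_pow, nsmul_val]
    rw [e1, Finset.sum_eq_single (j - i)]
    · have h3 : j = i + (j - i) := by abel
      have h4 : j - i ≠ 0 := fun h => hij (sub_eq_zero.mp h).symm
      have h5 := hc (j - i) h4 i
      have h6 : ∀ m : Fin r, c (j - i) m * (if j = i + (j - i) then
          α i * (win α ((j - i : Fin r) : ℕ) i) ^ (m : ℕ) else 0) =
          α i * (c (j - i) m * (win α ((j - i : Fin r) : ℕ) i) ^ (m : ℕ)) := by
        intro m
        rw [if_pos h3]; ring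
      rw [Finset.sum_congr rfl fun m _ => h6 m, ← Finset.mul_sum, h5, ← mul_assoc,
        mul_inv_cancel₀ (hα.ne i), one_mul, ← h3]
    · intro k _ hk
      refine Finset.sum_eq_zero fun m _ => ?_
      rw [if_neg, mul_zero]
      intro h
      exact hk (by rw [h]; abel)
    · simp
  obtain ⟨s, hsS, hs⟩ := ha
  have hDs : D s = 0 := hS hsS
  -- step b
  set v' := v - s with hv'
  have hDv' : D v' = 0 := by rw [hv', map_sub, hv, hDs, sub_zero]
  have hoff : ∀ i j, i ≠ j → v'.1 i j = 0 := by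
    intro i j hij
    rw [hv', Prod.fst_sub, Matrix.sub_apply, hs i j hij, sub_self]
  have hrow : ∀ i, v'.1 (i + 1) (i + 1) * (α (i + 1))⁻¹ = v'.1 i i * (α i)⁻¹ := by
    intro i
    have h3 : D v' i i = 0 := by rw [hDv']; rfl
    rw [hD, dcmA_entry hα.ne] at h3
    have hx := mul_inv_cancel₀ (hα.ne i)
    have hy := mul_inv_cancel₀ (hα.ne (i + 1))
    set x := (α i)⁻¹
    set y := (α (i + 1))⁻¹
    linear_combination (-x * α (i + 1)) * h3 + (v'.1 i i * x - y * v'.1 (i + 1) (i + 1)) * hy -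
      y * v'.1 (i + 1) (i + 1) * α (i + 1) * y * hx
  have hconst := const_of_succ (f := fun i => v'.1 i i * (α i)⁻¹) hrow
  set κ := v'.1 0 0 * (α 0)⁻¹ with hκ
  have hfst : v'.1 = κ • mono 0 α := by
    ext i j
    rw [Matrix.smul_apply, mono_apply, add_zero]
    by_cases hij : i = j
    · subst hij
      rw [if_pos rfl, smul_eq_mul, ← hconst i]
      have n1 := hα.ne i
      field_simp
    · rw [if_neg (Ne.symm hij), hoff i j hij, smul_zero]
  set u : Mat r × Mat r := (mono 0 α * (e1 ((0 : Fin r) : ℕ) ((mono 0 α : Mat r), mono 1 1)) ^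
    ((0 : Fin r) : ℕ), β 0 0) with hu
  have huS : u ∈ S := h1 0 0
  have hu1 : u.1 = mono 0 α := by
    rw [hu]; simp
  set v'' := v' - κ • u with hv''
  have hDv'' : D v'' = 0 := by
    have : D u = 0 := hS huS
    rw [hv'', map_sub, map_smul, hDv', this, smul_zero, sub_zero]
  have hfst'' : v''.1 = 0 := by
    rw [hv'', Prod.fst_sub, Prod.smul_fst, hu1, hfst, sub_self]
  have hoff2 : ∀ i j, j ≠ i → v''.2 i (j + 1) = 0 := by
    intro i j hij
    have h3 : D v'' i j = 0 := by rw [hDv'']; rfl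
    rw [hD, dcmA_entry hα.ne, hfst''] at h3
    have n1 := hα.ne i
    have n2 := hα.ne (i + 1)
    have n3 := hα.ne (j + 1)
    have hne : α (i + 1) - α (j + 1) ≠ 0 := by
      rw [sub_ne_zero]
      intro h
      exact hij (add_right_cancel (hα.inj h)).symm
    simp only [Matrix.zero_apply, zero_mul, mul_zero, sub_zero, zero_add] at h3
    have h4 : α i * v''.2 i (j + 1) * (α (i + 1) - α (j + 1)) = 0 := by
      field_simp at h3
      linear_combination h3
    rcases mul_eq_zero.mp h4 with h5 | h5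
    · exact (mul_eq_zero.mp h5).resolve_left n1
    · exact absurd h5 hne
  -- finish
  have hinj' : Function.Injective (fun i : Fin r => α (i + 1)) :=
    fun i j h => add_right_cancel (hα.inj h)
  obtain ⟨c, hc⟩ := exists_vander hinj' (fun i => v''.2 i (i + 1))
  have hv''eq : v'' = ∑ k : Fin r, c k • ((0 : Mat r), mono 1 1 * (mono 0 α) ^ (k : ℕ)) := by
    refine Prod.ext ?_ ?_
    · rw [hfst'', Prod.fst_sum]; simp
    · rw [Prod.snd_sum]
      ext i j
      rw [Matrix.sum_apply]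
      have h5 : ∀ k : Fin r, (c k • ((0 : Mat r), (mono 1 1 * (mono 0 α) ^ (k : ℕ) : Mat r))).2 i j =
          if j = i + 1 then c k * α (i + 1) ^ (k : ℕ) else 0 := by
        intro k
        show c k * ((mono 1 1 * (mono 0 α) ^ (k : ℕ) : Mat r) i j) = _
        rw [mono_zero_pow, mono_mul, add_zero, mono_apply]
        by_cases h : j = i + 1
        · rw [if_pos h, if_pos h]; simp
        · rw [if_neg h, if_neg h, mul_zero]
      rw [Finset.sum_congr rfl fun k _ => h5 k]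
      by_cases h : j = i + 1
      · simp only [if_pos h]
        rw [hc i, h]
      · simp only [if_neg h, Finset.sum_const_zero]
        have := hoff2 i (j - 1) (fun h' => h (by rw [← h']; abel))
        rw [sub_add_cancel] at this
        exact this
  have h6 : v'' ∈ S := by
    rw [hv''eq]
    exact S.sum_mem fun k _ => S.smul_mem _ (h2 k)
  have h7 : v = v'' + κ • u + s := by rw [hv'', hv']; abel
  rw [h7]
  exact S.add_mem (S.add_mem h6 (S.smul_mem _ huS)) hsS

theorem up_base {α : Fin r → ℂ} (hα : ∀ i, α i ≠ 0) : UP ((mono 0 α : Mat r), (mono 1 1 : Mat r)) :=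
  ⟨mono_isUnit' 0 α hα, mono_isUnit' 1 1 fun _ => one_ne_zero⟩

theorem gram_base {α : Fin r → ℂ} (hα : ∀ i, α i ≠ 0) (m : ℕ) :
    gram (e1 m ((mono 0 α : Mat r), (mono 1 1 : Mat r))) ≠ 0 := by
  rw [e1_base]
  exact gram_mono_one_ne_zero _ fun i => pow_ne_zero _ (hα _)

theorem gram_diag {α : Fin r → ℂ} (hα : Function.Injective α) : gram (mono 0 α) ≠ 0 := by
  have := gram_ne_zero_of_diag 1 α (by simp) hα
  rw [mono_zero]
  simpa using this

end base

section lemF
variable {L : Type*} [Field L] [NumberField L] (φ : L →+* ℂ) {g r : ℕ} [NeZero r]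
variable (hφ : ¬ ComplexEmbedding.IsReal φ) (w : InfinitePlace L) (hw : w ≠ InfinitePlace.mk φ)
include hφ hw

theorem lemF (i : Fin g) {α : Fin r → ℂ} (hα : BaseCond α) :
    ∀ᶠ p in 𝓝 ((mono 0 α : Mat r), (mono 1 1 : Mat r)),
      cmA p = cmA ((mono 0 α : Mat r), (mono 1 1 : Mat r)) →
      RelF φ i (mono 0 α, mono 1 1) p := by
  set p0 : Mat r × Mat r := (mono 0 α, mono 1 1) with hp0
  have hUP : UP p0 := up_base hα.ne
  obtain ⟨D, hD, hDa⟩ := os_cm p0 hUP.1 hUP.2
  have hfl : ∀ m k : Fin r, ∃ β, IsFlow (RelF φ i) p0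
      (p0.1 * (e1 (m : ℕ) p0) ^ (k : ℕ), β) :=
    fun m k => flow1 φ hφ w hw i m k p0 hUP (gram_base hα.ne m)
  choose β hβ using hfl
  let v : (Fin r × Fin r) ⊕ Fin r → Mat r × Mat r :=
    Sum.elim (fun mk => (p0.1 * (e1 (mk.1 : ℕ) p0) ^ (mk.2 : ℕ), β mk.1 mk.2))
      (fun k => (0, p0.2 * p0.1 ^ (k : ℕ)))
  have hv : ∀ a, IsFlow (RelF φ i) p0 (v a) := by
    rintro (mk | k)
    · exact hβ mk.1 mk.2
    · exact flow2 φ hφ w hw i k p0 hUP (gram_diag hα.inj)
  let e := (Fintype.equivFin ((Fin r × Fin r) ⊕ Fin r)).symm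
  obtain ⟨Φ, hΦ0, hΦ, hRel⟩ := exists_multiflow (RelF.rfl' φ i) (RelF.trans' φ i) p0 _
    (fun j => v (e j)) (fun j => hv _)
  have hin : ContinuousAt (fun s : Fin (Fintype.card ((Fin r × Fin r) ⊕ Fin r)) → ℂ => (p0, s)) 0 :=
    (Continuous.prodMk_right p0).continuousAt
  have hRel' : ∀ᶠ s in 𝓝 (0 : Fin (Fintype.card ((Fin r × Fin r) ⊕ Fin r)) → ℂ),
      RelF φ i p0 (Φ (p0, s)) := hin.eventually hRel
  have hΨ : HasStrictFDerivAt (fun s => Φ (p0, s)) ((multiDer fun j => v (e j)).comp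
      (ContinuousLinearMap.inr ℂ (Mat r × Mat r) _)) 0 := by
    have h1 : HasStrictFDerivAt (fun s : Fin (Fintype.card ((Fin r × Fin r) ⊕ Fin r)) → ℂ => (p0, s))
        (ContinuousLinearMap.inr ℂ (Mat r × Mat r) _) 0 :=
      (hasStrictFDerivAt_const p0 0).prodMk (hasStrictFDerivAt_id 0)
    exact HasStrictFDerivAt.comp (g := Φ) (0 : Fin _ → ℂ) hΦ h1
  have hconst : ∀ᶠ s in 𝓝 (0 : Fin (Fintype.card ((Fin r × Fin r) ⊕ Fin r)) → ℂ),
      cmA (Φ (p0, s)) = cmA p0 := hRel'.mono fun s hs => hs.1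
  have hΨa : ∀ s, ((multiDer fun j => v (e j)).comp
      (ContinuousLinearMap.inr ℂ (Mat r × Mat r) _)) s = ∑ j, s j • v (e j) := by
    intro s
    rw [ContinuousLinearMap.comp_apply, multiDer_apply]
    simp
  -- flow vectors lie in the kernel
  have hDv : ∀ j, D (v (e j)) = 0 := by
    intro j
    have h1 : HasFDerivAt (fun s => cmA (Φ (p0, s))) (D.comp ((multiDer fun j => v (e j)).comp
      (ContinuousLinearMap.inr ℂ (Mat r × Mat r) _))) 0 := by
      have hD' : HasFDerivAt (cmA : Mat r × Mat r → Mat r) D (Φ (p0, 0)) := by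
        rw [hΦ0]; exact hD.hasFDerivAt
      exact HasFDerivAt.comp (0 : Fin _ → ℂ) hD' hΨ.hasFDerivAt
    have h2 : HasFDerivAt (fun s => cmA (Φ (p0, s)))
        (0 : (Fin (Fintype.card ((Fin r × Fin r) ⊕ Fin r)) → ℂ) →L[ℂ] Mat r) 0 :=
      (hasFDerivAt_const (cmA p0) _).congr_of_eventuallyEq hconst
    have h3 := DFunLike.congr_fun (h1.unique h2) (Pi.single j 1)
    rw [ContinuousLinearMap.comp_apply, hΨa] at h3
    rw [Finset.sum_eq_single j] at h3
    · simpa using h3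
    · intro b _ hb
      simp [hb]
    · simp
  set S : Submodule ℂ (Mat r × Mat r) := Submodule.span ℂ (Set.range fun j => v (e j)) with hSdef
  have hvS : ∀ a, v a ∈ S := by
    intro a
    have : v a = v (e (e.symm a)) := by simp
    rw [this]
    exact Submodule.subset_span ⟨_, rfl⟩
  have hker : ∀ u, D u = 0 → ∃ s, ((multiDer fun j => v (e j)).comp
      (ContinuousLinearMap.inr ℂ (Mat r × Mat r) _)) s = u := by
    intro u hu
    have h1 : u ∈ S := by
      refine ker_sub_span hα β (D : (Mat r × Mat r) →ₗ[ℂ] Mat r) hDa S ?_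
        (fun m k => hvS (Sum.inl (m, k))) (fun k => hvS (Sum.inr k)) u hu
      rw [hSdef, Submodule.span_le]
      rintro _ ⟨j, rfl⟩
      exact hDv j
    rw [hSdef, Submodule.mem_span_range_iff_exists_fun] at h1
    obtain ⟨s, hs⟩ := h1
    exact ⟨s, by rw [hΨa]; exact hs⟩
  have key := fiber_cover hD hΨ hΦ0 hker hconst hRel'
  filter_upwards [key] with p hp hc
  obtain ⟨s, hs, rfl⟩ := hp hc
  exact hs

end lemF

end Vale.Agent.P002
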