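import Vale.Agent.P002.TwoPt

namespace Vale.Agent.P002

open Matrix NumberField Topology Filter
open scoped Matrix.Norms.L2Operator

variable {g r : ℕ} [NeZero r]

theorem lemF2 (i : Fin g) {α : Fin r → ℂ} (hα : BaseCond α) :
    ∀ᶠ q in 𝓝 (((mono 0 α : Mat r), (mono 1 1 : Mat r)), ((mono 0 α : Mat r), (mono 1 1 : Mat r))),
      cmA q.1 = cmA q.2 → QF i q.1 q.2 := by
  obtain ⟨p0, hp0⟩ : ∃ p0 : Mat r × Mat r, p0 = (mono 0 α, mono 1 1) := ⟨_, rfl⟩
  rw [← hp0]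
  have hUP : UP p0 := by rw [hp0]; exact up_base hα.ne
  obtain ⟨D, hD, hDa⟩ := os_cm p0 hUP.1 hUP.2
  have hfl : ∀ m k : Fin r, ∃ β, IsFlow (QF i) p0
      (p0.1 * (e1 (m : ℕ) p0) ^ (k : ℕ), β) :=
    fun m k => qflow1 i m k p0 hUP (by rw [hp0]; exact gram_base hα.ne m)
  choose β hβ using hfl
  let v : (Fin r × Fin r) ⊕ Fin r → Mat r × Mat r :=
    Sum.elim (fun mk => (p0.1 * (e1 (mk.1 : ℕ) p0) ^ (mk.2 : ℕ), β mk.1 mk.2))
      (fun k => (0, p0.2 * p0.1 ^ (k : ℕ)))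
  have hv : ∀ a, IsFlow (QF i) p0 (v a) := by
    rintro (mk | k)
    · exact hβ mk.1 mk.2
    · exact qflow2 i k p0 hUP (by rw [hp0]; exact gram_diag hα.inj)
  obtain ⟨n, ⟨e⟩⟩ : ∃ n : ℕ, Nonempty (Fin n ≃ ((Fin r × Fin r) ⊕ Fin r)) :=
    ⟨_, ⟨(Fintype.equivFin _).symm⟩⟩
  obtain ⟨Φ, hΦ0, hΦ, hRel⟩ := exists_multiflow (QF.rfl' i) (QF.trans' i) p0 n
    (fun j => v (e j)) (fun j => hv _)
  have hconst : ∀ᶠ p in 𝓝 (p0, (0 : Fin n → ℂ)), cmA (Φ p) = cmA p.1 :=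
    hRel.mono fun p hp => hp.1
  have hΨa : ∀ s : Fin n → ℂ, (multiDer fun j => v (e j)) (0, s) = ∑ j, s j • v (e j) := by
    intro s
    rw [multiDer_apply]
    simp
  -- flow vectors lie in the kernel
  have hDv : ∀ j, D (v (e j)) = 0 := by
    intro j
    have h1 : HasFDerivAt (fun p => cmA (Φ p)) (D.comp (multiDer fun j => v (e j)))
        (p0, (0 : Fin n → ℂ)) := by
      have hD' : HasFDerivAt (cmA : Mat r × Mat r → Mat r) D (Φ (p0, 0)) := by
        rw [hΦ0]; exact hD.hasFDerivAt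
      exact HasFDerivAt.comp (p0, (0 : Fin n → ℂ)) hD' hΦ.hasFDerivAt
    have h2 : HasFDerivAt (fun p => cmA (Φ p))
        (D.comp (ContinuousLinearMap.fst ℂ (Mat r × Mat r) (Fin n → ℂ))) (p0, (0 : Fin n → ℂ)) := by
      have h3 : HasFDerivAt (fun p : (Mat r × Mat r) × (Fin n → ℂ) => cmA p.1)
          (D.comp (ContinuousLinearMap.fst ℂ (Mat r × Mat r) (Fin n → ℂ)))
          (p0, (0 : Fin n → ℂ)) :=
        HasFDerivAt.comp (g := cmA) (p0, (0 : Fin n → ℂ)) hD.hasFDerivAt hasFDerivAt_fst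
      exact h3.congr_of_eventuallyEq hconst
    have h3 := DFunLike.congr_fun (h1.unique h2) (0, Pi.single j 1)
    rw [ContinuousLinearMap.comp_apply, hΨa] at h3
    rw [Finset.sum_eq_single j] at h3
    · simpa using h3
    · intro b _ hb
      simp [hb]
    · simp
  set S : Submodule ℂ (Mat r × Mat r) := Submodule.span ℂ (Set.range fun j => v (e j)) with hSdef
  have hvS : ∀ a, v a ∈ S := by
    intro a
    have : v a = v (e (e.symm a)) := by simp
    rw [this]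
    exact Submodule.subset_span ⟨_, rfl⟩
  have hker : ∀ u, D u = 0 → ∃ s, (multiDer fun j => v (e j)) (0, s) = u := by
    intro u hu
    have h1 : u ∈ S := by
      have hvS1 : ∀ m k : Fin r, (p0.1 * (e1 (m : ℕ) p0) ^ (k : ℕ), β m k) ∈ S :=
        fun m k => hvS (Sum.inl (m, k))
      have hvS2 : ∀ k : Fin r, ((0 : Mat r), p0.2 * p0.1 ^ (k : ℕ)) ∈ S :=
        fun k => hvS (Sum.inr k)
      have hSk : S ≤ LinearMap.ker (D : (Mat r × Mat r) →ₗ[ℂ] Mat r) := by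
        rw [hSdef, Submodule.span_le]
        rintro _ ⟨j, rfl⟩
        exact hDv j
      clear_value S
      subst hp0
      exact ker_sub_span hα β (D : (Mat r × Mat r) →ₗ[ℂ] Mat r) hDa S hSk hvS1 hvS2 u hu
    rw [hSdef, Submodule.mem_span_range_iff_exists_fun] at h1
    obtain ⟨s, hs⟩ := h1
    exact ⟨s, by rw [hΨa]; exact hs⟩
  have key := fiber_cover2 hD hΦ hΦ0 hker hconst hRel
  filter_upwards [key] with q hq hc
  obtain ⟨s, hs, he⟩ := hq hc
  have hs' : QF i q.1 (Φ (q.1, s)) := hs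
  rw [he] at hs'
  exact hs'

end Vale.Agent.P002
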