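import Vale.Agent.P002.LemF

namespace Vale.Agent.P002

open Matrix NumberField Topology Filter
open scoped Matrix.Norms.L2Operator

section alg
variable {r : ℕ} [NeZero r]

theorem e3_base {α1 α2 : Fin r → ℂ} (h1 : ∀ i, α1 i ≠ 0) (m : ℕ) :
    e3 m (((mono 0 α1 : Mat r), mono 1 1), (mono 0 α2, mono 1 1)) =
      mono 1 (fun i => (α1 (i + 1))⁻¹ * α2 i * α2 (i + 1) ^ m) := by
  have h1' : ∀ i : Fin r, (1 : Fin r → ℂ) i ≠ 0 := fun i => one_ne_zero
  simp only [e3, ringInverse_mono 0 α1 h1, ringInverse_mono 1 1 h1', mono_mul, mono_zero_pow]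
  have hk : (1 : Fin r) + -0 + -1 + 0 + 1 + 0 = 1 := by simp
  rw [hk]
  congr 1
  funext i
  simp

theorem e4_base {α1 α2 : Fin r → ℂ} (h1 : ∀ i, α1 i ≠ 0) (m : ℕ) :
    e4 m (((mono 0 α1 : Mat r), mono 1 1), (mono 0 α2, mono 1 1)) =
      mono 0 (fun i => (α1 i)⁻¹ * α2 (i - 1) * α2 i ^ m) := by
  have h1' : ∀ i : Fin r, (1 : Fin r → ℂ) i ≠ 0 := fun i => one_ne_zero
  simp only [e4, ringInverse_mono 0 α1 h1, ringInverse_mono 1 1 h1', mono_mul, mono_zero_pow]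
  have hk : -(0 : Fin r) + -1 + 0 + 1 + 0 = 0 := by simp
  rw [hk]
  congr 1
  funext i
  simp [sub_eq_add_neg]

theorem cmA_base {α : Fin r → ℂ} (h1 : ∀ i, α i ≠ 0) :
    cmA ((mono 0 α : Mat r), mono 1 1) = mono 0 (fun i => α i * (α (i + 1))⁻¹) := by
  have h1' : ∀ i : Fin r, (1 : Fin r → ℂ) i ≠ 0 := fun i => one_ne_zero
  simp only [cmA, ringInverse_mono 0 α h1, ringInverse_mono 1 1 h1', mono_mul]
  have hk : (0 : Fin r) + 1 + -0 + -1 = 0 := by simp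
  rw [hk]
  congr 1
  funext i
  simp

theorem surj_alg {α1 α2 : Fin r → ℂ} (h1 : BaseCond α1) (h2 : BaseCond α2) {x : Fin r → ℂ}
    (hx : Function.Injective x)
    (D : (Mat r × Mat r) →ₗ[ℂ] Mat r) (hD : ∀ q, D q = dcmA (mono 0 α1, mono 1 1) q)
    (S : Submodule ℂ (Mat r)) (hC : cmA ((mono 0 α1 : Mat r), mono 1 1) ∈ S)
    (h3 : ∀ m k : Fin r, D (0, (e3 (m : ℕ) (((mono 0 α1 : Mat r), mono 1 1),
      (mono 0 α2, mono 1 1))) ^ (k : ℕ) * mono 1 1) ∈ S)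
    (h4 : ∀ k : Fin r, D (-(mono 0 α1 * (mono 0 x) ^ (k : ℕ)), (mono 0 x) ^ (k : ℕ) * mono 1 1)
      ∈ S) : S = ⊤ := by
  by_contra hne
  obtain ⟨f, hf0, hf⟩ := Submodule.exists_le_ker_of_lt_top S (lt_top_iff_ne_top.mpr hne)
  apply hf0
  obtain ⟨η, hη⟩ := os_repr f
  have hfS : ∀ M ∈ S, ∑ i, ∑ j, η i j * M j i = 0 := by
    intro M hM
    have : f M = 0 := hf hM
    rw [hη, Matrix.trace] at this
    simpa [Matrix.mul_apply] using this
  -- off-diagonal entries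
  have hoff : ∀ (k : ℕ), 1 ≤ k → k < r → ∀ i : Fin r, η (i + k • 1) i = 0 := by
    intro k hk1 hk2
    set c : Fin r → ℂ := fun i => ∏ j ∈ Finset.range k,
      ((α1 (i + j • 1 + 1))⁻¹ * α2 (i + j • 1)) with hc
    set y : Fin r → ℂ := fun i => η (i + k • 1) i * c i * (α1 i * ((α1 (i + k • 1 + 1))⁻¹ -
      (α1 (i + 1))⁻¹)) with hy
    have hpow : ∀ m : ℕ, (e3 m (((mono 0 α1 : Mat r), mono 1 1),
      (mono 0 α2, mono 1 1))) ^ k = mono (k • 1) (fun i => c i * (win α2 k i) ^ m) := by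
      intro m
      rw [e3_base h1.ne, mono_pow]
      congr 1
      funext i
      rw [Finset.prod_mul_distrib, hc, win, Finset.prod_pow]
    have hentry : ∀ m : ℕ, ∀ i j : Fin r, D (0, (e3 m (((mono 0 α1 : Mat r), mono 1 1),
      (mono 0 α2, mono 1 1))) ^ k * mono 1 1) i j = if j = i + k • 1 then
        c i * (win α2 k i) ^ m * (α1 i * ((α1 (j + 1))⁻¹ - (α1 (i + 1))⁻¹)) else 0 := by
      intro m i j
      rw [hD, dcmA_entry h1.ne, hpow, mono_mul]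
      simp only [Matrix.zero_apply, zero_mul, mul_zero, sub_zero, zero_add, mono_apply,
        Pi.one_apply, mul_one]
      by_cases h : j = i + k • 1
      · have h' : j + 1 = i + (k • 1 + 1) := by rw [h]; abel
        rw [if_pos h, if_pos h']
        ring
      · have h' : ¬ (j + 1 = i + (k • 1 + 1)) := by
          intro h'
          apply h
          have := congrArg (fun z => z - 1) h'
          simp only [add_sub_cancel_right] at this
          rw [this]; abel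
        rw [if_neg h, if_neg h']
        ring
    have hy0 : y = 0 := by
      refine vander_zero (h2.win k hk1 hk2) y fun m => ?_
      have h5 := hfS _ (h3 m ⟨k, hk2⟩)
      simp only [hentry] at h5
      rw [Finset.sum_comm] at h5
      rw [← h5]
      refine Finset.sum_congr rfl fun i _ => ?_
      rw [Finset.sum_eq_single (i + k • 1)]
      · rw [if_pos rfl, hy]; ring
      · intro b _ hb
        rw [if_neg hb, mul_zero]
      · simp
    intro i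
    have h6 := congrFun hy0 i
    simp only [hy, Pi.zero_apply] at h6
    have n1 : c i ≠ 0 := by
      rw [hc]
      exact Finset.prod_ne_zero_iff.mpr fun j _ => mul_ne_zero (inv_ne_zero (h1.ne _)) (h2.ne _)
    have n2 : α1 i ≠ 0 := h1.ne i
    have n3 : (α1 (i + k • 1 + 1))⁻¹ - (α1 (i + 1))⁻¹ ≠ 0 := by
      rw [sub_ne_zero]
      intro h
      have h7 := add_right_cancel (h1.inj (inv_injective h))
      have : k • (1 : Fin r) = 0 := by
        have := congrArg (fun z => z - i) h7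
        simpa using this
      exact nsmul_one_ne_zero hk1 hk2 this
    rcases mul_eq_zero.mp h6 with h7 | h7
    · exact (mul_eq_zero.mp h7).resolve_right n1
    · exact absurd h7 (mul_ne_zero n2 n3)
  have hoff' : ∀ i j : Fin r, j ≠ i → η j i = 0 := by
    intro i j hij
    obtain ⟨k, hk1, hk2, hk⟩ := exists_sh (Ne.symm hij)
    rw [hk]
    exact hoff k hk1 hk2 i
  -- diagonal entries
  set y : Fin r → ℂ := fun i => η i i * (α1 i * (α1 (i + 1))⁻¹) with hy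
  have hentry4 : ∀ (k : ℕ) (i : Fin r), D (-(mono 0 α1 * (mono 0 x) ^ k),
      (mono 0 x) ^ k * mono 1 1) i i =
      (α1 i * (α1 (i + 1))⁻¹) * (x (i + 1) ^ k - x i ^ k) := by
    intro k i
    rw [hD, dcmA_entry h1.ne, mono_zero_pow, mono_mul, mono_mul]
    simp only [Matrix.neg_apply, mono_apply, Pi.one_apply, mul_one, add_zero, zero_add, if_true]
    have hx := mul_inv_cancel₀ (h1.ne (i + 1))
    set z := (α1 (i + 1))⁻¹
    linear_combination (α1 i * z * x (i + 1) ^ k) * hx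
  have hsum : ∀ k : Fin r, ∑ i, (y (i - 1) - y i) * x i ^ (k : ℕ) = 0 := by
    intro k
    have h5 := hfS _ (h4 k)
    have h6 : ∀ i : Fin r, ∑ j, η i j * D (-(mono 0 α1 * (mono 0 x) ^ (k : ℕ)),
      (mono 0 x) ^ (k : ℕ) * mono 1 1) j i = y i * x (i + 1) ^ (k : ℕ) - y i * x i ^ (k : ℕ) := by
      intro i
      rw [Finset.sum_eq_single i]
      · rw [hentry4, hy]; ring
      · intro b _ hb
        rw [hoff' b i hb.symm, zero_mul]
      · simp
    simp only [h6] at h5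
    rw [Finset.sum_sub_distrib] at h5
    have h7 : ∑ i, y i * x (i + 1) ^ (k : ℕ) = ∑ i, y (i - 1) * x i ^ (k : ℕ) := by
      refine Fintype.sum_equiv (Equiv.addRight (1 : Fin r)) _ _ fun i => ?_
      simp
    rw [h7, ← Finset.sum_sub_distrib] at h5
    rw [← h5]
    refine Finset.sum_congr rfl fun i _ => ?_
    ring
  have hyc := vander_zero hx _ hsum
  have hyc' : ∀ i, y (i + 1) = y i := by
    intro i
    have := congrFun hyc (i + 1)
    simp only [add_sub_cancel_right, Pi.zero_apply] at this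
    exact (sub_eq_zero.mp this).symm
  have hconst := const_of_succ hyc'
  have hsumy : ∑ i, y i = 0 := by
    have h5 := hfS _ hC
    rw [cmA_base h1.ne] at h5
    rw [← h5]
    refine Finset.sum_congr rfl fun i _ => ?_
    rw [Finset.sum_eq_single i]
    · rw [mono_apply, add_zero, if_pos rfl]
    · intro b _ hb
      rw [hoff' b i hb.symm, zero_mul]
    · simp
  have hy0 : y 0 = 0 := by
    rw [Finset.sum_congr rfl fun i _ => hconst i, Finset.sum_const, Finset.card_univ,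
      Fintype.card_fin, nsmul_eq_mul] at hsumy
    exact (mul_eq_zero.mp hsumy).resolve_left (by exact_mod_cast NeZero.ne r)
  have hη0 : η = 0 := by
    ext i j
    by_cases hij : i = j
    · subst hij
      have h5 : y i = 0 := by rw [hconst i, hy0]
      rw [hy] at h5
      exact (mul_eq_zero.mp h5).resolve_right
        (mul_ne_zero (h1.ne i) (inv_ne_zero (h1.ne (i + 1))))
    · exact hoff' j i hij
  ext M
  rw [hη, hη0]
  simp

end alg

section cover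

theorem param_cover {X M P : Type*} [NormedAddCommGroup X] [NormedSpace ℂ X] [CompleteSpace X]
    [NormedAddCommGroup M] [NormedSpace ℂ M] [CompleteSpace M]
    [NormedAddCommGroup P] [NormedSpace ℂ P] [CompleteSpace P]
    {F : X × P → M} {F' : X × P →L[ℂ] M} {x0 : X} {p0 : P}
    (hF : HasStrictFDerivAt F F' (x0, p0)) (hs : ∀ m, ∃ p, F' (0, p) = m)
    {V : Set (X × P)} (hV : V ∈ 𝓝 (x0, p0)) :
    ∀ᶠ x in 𝓝 x0, ∃ p, (x, p) ∈ V ∧ F (x, p) = F (x0, p0) := by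
  let Θ : X × P → X × M := fun q => (q.1, F q)
  let Θ' : X × P →L[ℂ] X × M := (ContinuousLinearMap.fst ℂ X P).prod F'
  have hΘ : HasStrictFDerivAt Θ Θ' (x0, p0) := hasStrictFDerivAt_fst.prodMk hF
  have hsurj : Θ'.range = ⊤ := by
    rw [eq_top_iff]
    rintro ⟨x, m⟩ -
    obtain ⟨p, hp⟩ := hs (m - F' (x, 0))
    refine ⟨(x, p), ?_⟩
    have h1 : ((x, p) : X × P) = (x, 0) + (0, p) := by simp
    have h2 : F' (x, p) = m := by
      rw [h1, map_add, hp]; abel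
    exact Prod.ext rfl h2
  have hmap := hΘ.map_nhds_eq_of_surj hsurj
  have himg : Θ '' V ∈ 𝓝 (x0, F (x0, p0)) := by
    have : Θ (x0, p0) = (x0, F (x0, p0)) := rfl
    rw [← this, ← hmap]
    exact image_mem_map hV
  have hc : ContinuousAt (fun x : X => (x, F (x0, p0))) x0 :=
    (Continuous.prodMk_left (F (x0, p0))).continuousAt
  have := hc.eventually (p := fun y => y ∈ Θ '' V) himg
  filter_upwards [this] with x hx
  obtain ⟨⟨x', p⟩, hv, he⟩ := hx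
  have e1 : x' = x := congrArg Prod.fst he
  subst e1
  exact ⟨p, hv, congrArg Prod.snd he⟩

theorem link_cover {X M : Type*} [NormedAddCommGroup X] [NormedSpace ℂ X] [CompleteSpace X]
    [NormedAddCommGroup M] [NormedSpace ℂ M] [CompleteSpace M] {n : ℕ} {v : Fin n → X}
    {Φ : X × (Fin n → ℂ) → X} {x0 : X} (h0 : Φ (x0, 0) = x0)
    (hΦ : HasStrictFDerivAt Φ (multiDer v) (x0, 0)) {G : X → M} {G' : X →L[ℂ] M}
    (hG : HasStrictFDerivAt G G' x0)
    (hs : ∀ m, ∃ (s : Fin n → ℂ) (κ : ℂ), ∑ j, s j • G' (v j) + κ • G x0 = m)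
    {V : Set (X × (Fin n → ℂ))} (hV : V ∈ 𝓝 (x0, (0 : Fin n → ℂ))) {W : Set ℂ}
    (hW : W ∈ 𝓝 (1 : ℂ)) :
    ∀ᶠ x in 𝓝 x0, ∃ (s : Fin n → ℂ) (κ : ℂ), (x, s) ∈ V ∧ κ ∈ W ∧ κ • G (Φ (x, s)) = G x0 := by
  let pr : X × ((Fin n → ℂ) × ℂ) →L[ℂ] X × (Fin n → ℂ) :=
    (ContinuousLinearMap.fst ℂ X ((Fin n → ℂ) × ℂ)).prod
      ((ContinuousLinearMap.fst ℂ (Fin n → ℂ) ℂ).comp
        (ContinuousLinearMap.snd ℂ X ((Fin n → ℂ) × ℂ)))
  let pk : X × ((Fin n → ℂ) × ℂ) →L[ℂ] ℂ :=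
      ((ContinuousLinearMap.snd ℂ (Fin n → ℂ) ℂ).comp
        (ContinuousLinearMap.snd ℂ X ((Fin n → ℂ) × ℂ)))
  have hpr : pr (x0, ((0 : Fin n → ℂ), (1 : ℂ))) = (x0, 0) := rfl
  have hpk : pk (x0, ((0 : Fin n → ℂ), (1 : ℂ))) = 1 := rfl
  have hval : Φ (pr (x0, ((0 : Fin n → ℂ), (1 : ℂ)))) = x0 := by rw [hpr, h0]
  have hA : HasStrictFDerivAt (fun q : X × ((Fin n → ℂ) × ℂ) => Φ (pr q))
      ((multiDer v).comp pr) (x0, ((0 : Fin n → ℂ), (1 : ℂ))) := by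
    refine HasStrictFDerivAt.comp (g := Φ) (f := pr) (x0, ((0 : Fin n → ℂ), (1 : ℂ))) ?_
      pr.hasStrictFDerivAt
    rw [hpr]; exact hΦ
  have hB : HasStrictFDerivAt (fun q : X × ((Fin n → ℂ) × ℂ) => G (Φ (pr q)))
      (G'.comp ((multiDer v).comp pr)) (x0, ((0 : Fin n → ℂ), (1 : ℂ))) := by
    refine HasStrictFDerivAt.comp (g := G) (f := fun q : X × ((Fin n → ℂ) × ℂ) => Φ (pr q))
      (x0, ((0 : Fin n → ℂ), (1 : ℂ))) ?_ hA
    rw [hval]; exact hG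
  have hF := (pk.hasStrictFDerivAt (x := (x0, ((0 : Fin n → ℂ), (1 : ℂ))))).smul hB
  rw [hpk, hval, one_smul] at hF
  have hsurj : ∀ m, ∃ p, (G'.comp ((multiDer v).comp pr) + pk.smulRight (G x0)) (0, p) = m := by
    intro m
    obtain ⟨s, κ, h⟩ := hs m
    refine ⟨(s, κ), ?_⟩
    have h5 : pr (0, (s, κ)) = (0, s) := rfl
    have h6 : pk (0, (s, κ)) = κ := rfl
    rw [_root_.add_apply, ContinuousLinearMap.smulRight_apply, ContinuousLinearMap.comp_apply,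
      ContinuousLinearMap.comp_apply, h5, h6, multiDer_apply, zero_add, map_sum, ← h]
    simp
  have hV' : {q : X × ((Fin n → ℂ) × ℂ) | pr q ∈ V ∧ pk q ∈ W} ∈
      𝓝 (x0, ((0 : Fin n → ℂ), (1 : ℂ))) := by
    have d1 : ∀ᶠ q in 𝓝 (x0, ((0 : Fin n → ℂ), (1 : ℂ))), pr q ∈ V :=
      pr.continuous.continuousAt.eventually (p := fun y => y ∈ V) hV
    have d4 : ∀ᶠ q in 𝓝 (x0, ((0 : Fin n → ℂ), (1 : ℂ))), pk q ∈ W :=
      pk.continuous.continuousAt.eventually (p := fun y => y ∈ W) hW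
    filter_upwards [d1, d4] with q a d using ⟨a, d⟩
  have key := param_cover (x0 := x0) (p0 := ((0 : Fin n → ℂ), (1 : ℂ))) hF hsurj hV'
  filter_upwards [key] with q hq
  obtain ⟨p, ⟨hr1, hr2⟩, hp⟩ := hq
  refine ⟨p.1, p.2, hr1, hr2, ?_⟩
  have h8 : pk (x0, ((0 : Fin n → ℂ), (1 : ℂ))) • G (Φ (pr (x0, ((0 : Fin n → ℂ), (1 : ℂ))))) =
      G x0 := by rw [hpk, hval, one_smul]
  exact Eq.trans hp h8

end cover

section lemL
variable {L : Type*} [Field L] [NumberField L] (φ : L →+* ℂ) {g r : ℕ} [NeZero r]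
variable (hφ : ¬ ComplexEmbedding.IsReal φ) (w : InfinitePlace L) (hw : w ≠ InfinitePlace.mk φ)
include hφ hw

/-- the flow vectors for the linking of two neighbouring handles -/
theorem lemL_flows (i i' : Fin g) (hi : (i' : ℕ) = i + 1) {α1 α2 : Fin r → ℂ} (h1 : BaseCond α1)
    (h2 : BaseCond α2) (m0 : ℕ)
    (hm : Function.Injective (fun i => (α1 i)⁻¹ * α2 (i - 1) * α2 i ^ m0))
    (q0 : (Mat r × Mat r) × (Mat r × Mat r))
    (hq0 : q0 = (((mono 0 α1 : Mat r), (mono 1 1 : Mat r)), ((mono 0 α2 : Mat r), (mono 1 1 : Mat r))))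
    (D : (Mat r × Mat r) →L[ℂ] Mat r) (hDa : ∀ q, D q = dcmA q0.1 q) :
    ∃ (n : ℕ) (v : Fin n → (Mat r × Mat r) × (Mat r × Mat r)),
      (∀ j, IsFlow (RelL φ i i') q0 (v j)) ∧
      ∀ m, ∃ (s : Fin n → ℂ) (κ : ℂ), ∑ j, s j • D (v j).1 + κ • cmA q0.1 = m := by
  have hUP1 : UP q0.1 := by rw [hq0]; exact up_base h1.ne
  have hUP2 : UP q0.2 := by rw [hq0]; exact up_base h2.ne
  set x : Fin r → ℂ := fun i => (α1 i)⁻¹ * α2 (i - 1) * α2 i ^ m0 with hx
  have he4 : e4 m0 q0 = mono 0 x := by rw [hq0]; exact e4_base h1.ne m0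
  have hfl3 : ∀ m k : Fin r, ∃ β : Mat r × Mat r, IsFlow (RelL φ i i') q0
      ((0, (e3 (m : ℕ) q0) ^ (k : ℕ) * q0.1.2), β) :=
    fun m k => flow3 φ hφ w hw i i' hi m k q0 hUP1 hUP2 (by
      rw [hq0, e3_base h1.ne]
      exact gram_mono_one_ne_zero _ fun i =>
        mul_ne_zero (mul_ne_zero (inv_ne_zero (h1.ne _)) (h2.ne _)) (pow_ne_zero _ (h2.ne _)))
  have hfl4 : ∀ k : Fin r, ∃ β : Mat r × Mat r, IsFlow (RelL φ i i') q0
      ((-(q0.1.1 * (e4 m0 q0) ^ (k : ℕ)), (e4 m0 q0) ^ (k : ℕ) * q0.1.2), β) :=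
    fun k => flow4 φ hφ w hw i i' hi m0 k q0 hUP1 hUP2 (by
      rw [he4]
      exact gram_diag hm)
  choose β3 hβ3 using hfl3
  choose β4 hβ4 using hfl4
  let v : (Fin r × Fin r) ⊕ Fin r → (Mat r × Mat r) × (Mat r × Mat r) :=
    Sum.elim (fun mk => ((0, (e3 (mk.1 : ℕ) q0) ^ (mk.2 : ℕ) * q0.1.2), β3 mk.1 mk.2))
      (fun k => ((-(q0.1.1 * (e4 m0 q0) ^ (k : ℕ)), (e4 m0 q0) ^ (k : ℕ) * q0.1.2), β4 k))
  have hv : ∀ a, IsFlow (RelL φ i i') q0 (v a) := by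
    rintro (mk | k)
    · exact hβ3 mk.1 mk.2
    · exact hβ4 k
  obtain ⟨n, ⟨e⟩⟩ : ∃ n : ℕ, Nonempty (Fin n ≃ ((Fin r × Fin r) ⊕ Fin r)) :=
    ⟨_, ⟨(Fintype.equivFin _).symm⟩⟩
  refine ⟨n, fun j => v (e j), fun j => hv _, ?_⟩
  set S : Submodule ℂ (Mat r) := Submodule.span ℂ (Set.range fun j => D (v (e j)).1) ⊔
    Submodule.span ℂ {cmA q0.1} with hS
  have hvS : ∀ a, D (v a).1 ∈ S := by
    intro a
    refine Submodule.mem_sup_left (Submodule.subset_span ⟨e.symm a, ?_⟩)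
    simp
  have hStop : S = ⊤ := by
    subst hq0
    refine surj_alg h1 h2 hm (D : (Mat r × Mat r) →ₗ[ℂ] Mat r) hDa S ?_
      (fun m k => hvS (Sum.inl (m, k))) (fun k => ?_)
    · exact Submodule.mem_sup_right (Submodule.mem_span_singleton_self _)
    · have h5 := hvS (Sum.inr k)
      simp only [v, Sum.elim_inr, he4] at h5
      exact h5
  intro m
  have hm' : m ∈ S := by rw [hStop]; trivial
  obtain ⟨a, ha, b, hb, rfl⟩ := Submodule.mem_sup.mp hm'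
  obtain ⟨s, hs⟩ := (Submodule.mem_span_range_iff_exists_fun ℂ).mp ha
  obtain ⟨κ, hκ⟩ := Submodule.mem_span_singleton.mp hb
  exact ⟨s, κ, by rw [hs, hκ]⟩

theorem lemL (i i' : Fin g) (hi : (i' : ℕ) = i + 1) {α1 α2 : Fin r → ℂ} (h1 : BaseCond α1)
    (h2 : BaseCond α2) (m0 : ℕ)
    (hm : Function.Injective (fun i => (α1 i)⁻¹ * α2 (i - 1) * α2 i ^ m0))
    {N : Set ((Mat r × Mat r) × (Mat r × Mat r))}
    (hN : N ∈ 𝓝 (((mono 0 α1 : Mat r), (mono 1 1 : Mat r)), ((mono 0 α2 : Mat r), (mono 1 1 : Mat r)))) :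
    ∀ᶠ q in 𝓝 (((mono 0 α1 : Mat r), (mono 1 1 : Mat r)), ((mono 0 α2 : Mat r), (mono 1 1 : Mat r))),
      ∃ q' ∈ N, RelL φ i i' q q' ∧ cmA q'.1 = cmA ((mono 0 α1 : Mat r), (mono 1 1 : Mat r)) := by
  obtain ⟨q0, hq0⟩ : ∃ q0 : (Mat r × Mat r) × (Mat r × Mat r),
    q0 = (((mono 0 α1 : Mat r), (mono 1 1 : Mat r)), ((mono 0 α2 : Mat r), (mono 1 1 : Mat r))) :=
    ⟨_, rfl⟩
  have hUP1 : UP q0.1 := by rw [hq0]; exact up_base h1.ne
  obtain ⟨D, hD, hDa⟩ := os_cm q0.1 hUP1.1 hUP1.2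
  obtain ⟨n, v, hv, hspan⟩ := lemL_flows φ hφ w hw i i' hi h1 h2 m0 hm q0 hq0 D hDa
  obtain ⟨Φ, hΦ0, hΦ, hRel⟩ := exists_multiflow (RelL.rfl' φ i i') (RelL.trans' φ i i') q0 n v hv
  have hq01 : q0.1 = ((mono 0 α1 : Mat r), (mono 1 1 : Mat r)) := by rw [hq0]
  rw [← hq0] at hN
  rw [← hq0, ← hq01]
  have hG : HasStrictFDerivAt (fun q : (Mat r × Mat r) × (Mat r × Mat r) => cmA q.1)
      (D.comp (ContinuousLinearMap.fst ℂ (Mat r × Mat r) (Mat r × Mat r))) q0 :=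
    HasStrictFDerivAt.comp (g := cmA) (f := Prod.fst) q0 hD hasStrictFDerivAt_fst
  obtain ⟨W, hW, hW1⟩ := roots_nhds r (Nat.pos_of_ne_zero (NeZero.ne r))
  have c2 : ContinuousAt Φ (q0, (0 : Fin n → ℂ)) := hΦ.continuousAt
  have hV : {q : ((Mat r × Mat r) × (Mat r × Mat r)) × (Fin n → ℂ) |
      RelL φ i i' q.1 (Φ q) ∧ Φ q ∈ N ∧ UP (Φ q).1} ∈ 𝓝 (q0, (0 : Fin n → ℂ)) := by
    have d2 : ∀ᶠ q in 𝓝 (q0, (0 : Fin n → ℂ)), Φ q ∈ N := by
      refine c2.eventually (p := fun y => y ∈ N) ?_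
      rw [hΦ0]; exact hN
    have d3 : ∀ᶠ q in 𝓝 (q0, (0 : Fin n → ℂ)), UP (Φ q).1 := by
      refine c2.eventually (p := fun y => UP y.1) ?_
      rw [hΦ0]
      exact continuousAt_fst.eventually (eventually_UP hUP1)
    filter_upwards [hRel, d2, d3] with q a b c using ⟨a, b, c⟩
  have key := link_cover hΦ0 hΦ hG hspan hV hW
  filter_upwards [key] with q hq
  obtain ⟨s, κ, ⟨hr1, hr2, hr3⟩, hr4, h5⟩ := hq
  refine ⟨Φ (q, s), hr2, hr1, ?_⟩
  have hdet : ∀ p : Mat r × Mat r, UP p → (cmA p).det = 1 := fun p hp =>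
    det_cmA p ((Matrix.isUnit_iff_isUnit_det _).mp hp.1) ((Matrix.isUnit_iff_isUnit_det _).mp hp.2)
  have h7 : κ = 1 := by
    refine hW1 _ hr4 ?_
    have := congrArg Matrix.det h5
    rw [Matrix.det_smul, hdet _ hr3, hdet _ hUP1, mul_one, Fintype.card_fin] at this
    exact this
  rw [h7, one_smul] at h5
  exact h5

end lemL

end Vale.Agent.P002
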