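import Vale.Agent.P002.LemF2

namespace Vale.Agent.P002

open Matrix NumberField Topology Filter
open scoped Matrix.Norms.L2Operator

section lemL
variable {g r : ℕ} [NeZero r]

/-- the flow vectors for the linking of two neighbouring handles -/
theorem lemL2_flows (i i' : Fin g) (hi : (i' : ℕ) = i + 1) {α1 α2 : Fin r → ℂ} (h1 : BaseCond α1)
    (h2 : BaseCond α2) (m0 : ℕ)
    (hm : Function.Injective (fun i => (α1 i)⁻¹ * α2 (i - 1) * α2 i ^ m0))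
    (q0 : (Mat r × Mat r) × (Mat r × Mat r))
    (hq0 : q0 = (((mono 0 α1 : Mat r), (mono 1 1 : Mat r)), ((mono 0 α2 : Mat r), (mono 1 1 : Mat r))))
    (D : (Mat r × Mat r) →L[ℂ] Mat r) (hDa : ∀ q, D q = dcmA q0.1 q) :
    ∃ (n : ℕ) (v : Fin n → (Mat r × Mat r) × (Mat r × Mat r)),
      (∀ j, IsFlow (QL i i') q0 (v j)) ∧
      ∀ m, ∃ (s : Fin n → ℂ) (κ : ℂ), ∑ j, s j • D (v j).1 + κ • cmA q0.1 = m := by
  have hUP1 : UP q0.1 := by rw [hq0]; exact up_base h1.ne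
  have hUP2 : UP q0.2 := by rw [hq0]; exact up_base h2.ne
  set x : Fin r → ℂ := fun i => (α1 i)⁻¹ * α2 (i - 1) * α2 i ^ m0 with hx
  have he4 : e4 m0 q0 = mono 0 x := by rw [hq0]; exact e4_base h1.ne m0
  have hfl3 : ∀ m k : Fin r, ∃ β : Mat r × Mat r, IsFlow (QL i i') q0
      ((0, (e3 (m : ℕ) q0) ^ (k : ℕ) * q0.1.2), β) :=
    fun m k => qflow3 i i' hi m k q0 hUP1 hUP2 (by
      rw [hq0, e3_base h1.ne]
      exact gram_mono_one_ne_zero _ fun i =>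
        mul_ne_zero (mul_ne_zero (inv_ne_zero (h1.ne _)) (h2.ne _)) (pow_ne_zero _ (h2.ne _)))
  have hfl4 : ∀ k : Fin r, ∃ β : Mat r × Mat r, IsFlow (QL i i') q0
      ((-(q0.1.1 * (e4 m0 q0) ^ (k : ℕ)), (e4 m0 q0) ^ (k : ℕ) * q0.1.2), β) :=
    fun k => qflow4 i i' hi m0 k q0 hUP1 hUP2 (by
      rw [he4]
      exact gram_diag hm)
  choose β3 hβ3 using hfl3
  choose β4 hβ4 using hfl4
  let v : (Fin r × Fin r) ⊕ Fin r → (Mat r × Mat r) × (Mat r × Mat r) :=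
    Sum.elim (fun mk => ((0, (e3 (mk.1 : ℕ) q0) ^ (mk.2 : ℕ) * q0.1.2), β3 mk.1 mk.2))
      (fun k => ((-(q0.1.1 * (e4 m0 q0) ^ (k : ℕ)), (e4 m0 q0) ^ (k : ℕ) * q0.1.2), β4 k))
  have hv : ∀ a, IsFlow (QL i i') q0 (v a) := by
    rintro (mk | k)
    · exact hβ3 mk.1 mk.2
    · exact hβ4 k
  obtain ⟨n, ⟨e⟩⟩ : ∃ n : ℕ, Nonempty (Fin n ≃ ((Fin r × Fin r) ⊕ Fin r)) :=
    ⟨_, ⟨(Fintype.equivFin _).symm⟩⟩
  refine ⟨n, fun j => v (e j), fun j => hv _, ?_⟩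
  set S : Submodule ℂ (Mat r) := Submodule.span ℂ (Set.range fun j => D (v (e j)).1) ⊔
    Submodule.span ℂ {cmA q0.1} with hS
  have hvS : ∀ a, D (v a).1 ∈ S := by
    intro a
    refine Submodule.mem_sup_left (Submodule.subset_span ⟨e.symm a, ?_⟩)
    simp
  have hStop : S = ⊤ := by
    subst hq0
    refine surj_alg h1 h2 hm (D : (Mat r × Mat r) →ₗ[ℂ] Mat r) hDa S ?_
      (fun m k => hvS (Sum.inl (m, k))) (fun k => ?_)
    · exact Submodule.mem_sup_right (Submodule.mem_span_singleton_self _)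
    · have h5 := hvS (Sum.inr k)
      simp only [v, Sum.elim_inr, he4] at h5
      exact h5
  intro m
  have hm' : m ∈ S := by rw [hStop]; trivial
  obtain ⟨a, ha, b, hb, rfl⟩ := Submodule.mem_sup.mp hm'
  obtain ⟨s, hs⟩ := (Submodule.mem_span_range_iff_exists_fun ℂ).mp ha
  obtain ⟨κ, hκ⟩ := Submodule.mem_span_singleton.mp hb
  exact ⟨s, κ, by rw [hs, hκ]⟩

theorem lemL2 (i i' : Fin g) (hi : (i' : ℕ) = i + 1) {α1 α2 : Fin r → ℂ} (h1 : BaseCond α1)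
    (h2 : BaseCond α2) (m0 : ℕ)
    (hm : Function.Injective (fun i => (α1 i)⁻¹ * α2 (i - 1) * α2 i ^ m0))
    {N : Set ((Mat r × Mat r) × (Mat r × Mat r))}
    (hN : N ∈ 𝓝 (((mono 0 α1 : Mat r), (mono 1 1 : Mat r)), ((mono 0 α2 : Mat r), (mono 1 1 : Mat r)))) :
    ∀ᶠ q in 𝓝 ((((mono 0 α1 : Mat r), (mono 1 1 : Mat r)),
        ((mono 0 α2 : Mat r), (mono 1 1 : Mat r))), cmA ((mono 0 α1 : Mat r), (mono 1 1 : Mat r))),
      q.2.det = 1 → ∃ q' ∈ N, QL i i' q.1 q' ∧ cmA q'.1 = q.2 := by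
  obtain ⟨q0, hq0⟩ : ∃ q0 : (Mat r × Mat r) × (Mat r × Mat r),
    q0 = (((mono 0 α1 : Mat r), (mono 1 1 : Mat r)), ((mono 0 α2 : Mat r), (mono 1 1 : Mat r))) :=
    ⟨_, rfl⟩
  have hUP1 : UP q0.1 := by rw [hq0]; exact up_base h1.ne
  obtain ⟨D, hD, hDa⟩ := os_cm q0.1 hUP1.1 hUP1.2
  obtain ⟨n, v, hv, hspan⟩ := lemL2_flows i i' hi h1 h2 m0 hm q0 hq0 D hDa
  obtain ⟨Φ, hΦ0, hΦ, hRel⟩ := exists_multiflow (QL.rfl' i i') (QL.trans' i i') q0 n v hv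
  have hq01 : q0.1 = ((mono 0 α1 : Mat r), (mono 1 1 : Mat r)) := by rw [hq0]
  rw [← hq0] at hN
  rw [← hq0, ← hq01]
  have hG : HasStrictFDerivAt (fun q : (Mat r × Mat r) × (Mat r × Mat r) => cmA q.1)
      (D.comp (ContinuousLinearMap.fst ℂ (Mat r × Mat r) (Mat r × Mat r))) q0 :=
    HasStrictFDerivAt.comp (g := cmA) (f := Prod.fst) q0 hD hasStrictFDerivAt_fst
  obtain ⟨W, hW, hW1⟩ := roots_nhds r (Nat.pos_of_ne_zero (NeZero.ne r))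
  have c2 : ContinuousAt Φ (q0, (0 : Fin n → ℂ)) := hΦ.continuousAt
  have hV : {q : ((Mat r × Mat r) × (Mat r × Mat r)) × (Fin n → ℂ) |
      QL i i' q.1 (Φ q) ∧ Φ q ∈ N ∧ UP (Φ q).1} ∈ 𝓝 (q0, (0 : Fin n → ℂ)) := by
    have d2 : ∀ᶠ q in 𝓝 (q0, (0 : Fin n → ℂ)), Φ q ∈ N := by
      refine c2.eventually (p := fun y => y ∈ N) ?_
      rw [hΦ0]; exact hN
    have d3 : ∀ᶠ q in 𝓝 (q0, (0 : Fin n → ℂ)), UP (Φ q).1 := by
      refine c2.eventually (p := fun y => UP y.1) ?_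
      rw [hΦ0]
      exact continuousAt_fst.eventually (eventually_UP hUP1)
    filter_upwards [hRel, d2, d3] with q a b c using ⟨a, b, c⟩
  have key := link_cover2 hΦ0 hΦ hG hspan hV hW
  filter_upwards [key] with q hq hdq
  obtain ⟨s, κ, ⟨hr1, hr2, hr3⟩, hr4, h5⟩ := hq
  refine ⟨Φ (q.1, s), hr2, hr1, ?_⟩
  have hdet : ∀ p : Mat r × Mat r, UP p → (cmA p).det = 1 := fun p hp =>
    det_cmA p ((Matrix.isUnit_iff_isUnit_det _).mp hp.1) ((Matrix.isUnit_iff_isUnit_det _).mp hp.2)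
  have h7 : κ = 1 := by
    refine hW1 _ hr4 ?_
    have := congrArg Matrix.det h5
    rw [Matrix.det_smul, hdet _ hr3, hdq, mul_one, Fintype.card_fin] at this
    exact this
  rw [h7, one_smul] at h5
  exact h5

end lemL

end Vale.Agent.P002
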