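import Vale.Agent.P002.Spectral

namespace Vale.Agent.P002

open Matrix

section sh
variable {r : ℕ} [NeZero r]

theorem val_nsmul_one (k : ℕ) : ((k • (1 : Fin r)) : Fin r).val = k % r := by
  induction k with
  | zero => simp
  | succ k ih => rw [succ_nsmul, Fin.val_add, ih, Fin.val_one']; simp [Nat.add_mod]

theorem nsmul_val (d : Fin r) : (d.val • (1 : Fin r)) = d := by
  apply Fin.ext; rw [val_nsmul_one]; exact Nat.mod_eq_of_lt d.2

theorem exists_sh {i j : Fin r} (h : i ≠ j) : ∃ k : ℕ, 1 ≤ k ∧ k < r ∧ j = i + k • (1 : Fin r) := by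
  refine ⟨(j - i).val, ?_, (j - i).2, ?_⟩
  · rw [Nat.one_le_iff_ne_zero]
    intro h0
    have : j - i = 0 := Fin.ext (by simpa using h0)
    exact h (sub_eq_zero.mp this).symm
  · rw [nsmul_val]; abel

theorem nsmul_one_ne_zero {k : ℕ} (h1 : 1 ≤ k) (h2 : k < r) : (k • (1 : Fin r)) ≠ 0 := by
  intro h
  have := congrArg Fin.val h
  rw [val_nsmul_one, Nat.mod_eq_of_lt h2] at this
  simp at this; omega

end sh

section mono
variable {r : ℕ} [NeZero r]

def mono (k : Fin r) (d : Fin r → ℂ) : Mat r := Matrix.of fun i j => if j = i + k then d i else 0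

theorem mono_apply (k : Fin r) (d : Fin r → ℂ) (i j : Fin r) :
    mono k d i j = if j = i + k then d i else 0 := rfl

theorem mono_mul (k l : Fin r) (d d' : Fin r → ℂ) :
    mono k d * mono l d' = mono (k + l) (fun i => d i * d' (i + k)) := by
  ext i j
  rw [Matrix.mul_apply, Finset.sum_eq_single (i + k)]
  · simp only [mono_apply, if_true, add_assoc]
    split_ifs <;> simp
  · intro b _ hb
    simp [mono_apply, hb]
  · simp

theorem mul_mono_apply (M : Mat r) (k : Fin r) (d : Fin r → ℂ) (i j : Fin r) :
    (M * mono k d) i j = M i (j - k) * d (j - k) := by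
  rw [Matrix.mul_apply, Finset.sum_eq_single (j - k)]
  · simp [mono_apply]
  · intro b _ hb
    have : j ≠ b + k := fun h => hb (by rw [h]; abel)
    simp [mono_apply, this]
  · simp

theorem mono_mul_apply (M : Mat r) (k : Fin r) (d : Fin r → ℂ) (i j : Fin r) :
    (mono k d * M) i j = d i * M (i + k) j := by
  rw [Matrix.mul_apply, Finset.sum_eq_single (i + k)]
  · simp [mono_apply]
  · intro b _ hb
    simp [mono_apply, hb]
  · simp

theorem mono_zero (d : Fin r → ℂ) : mono 0 d = diagonal d := by
  ext i j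
  by_cases h : i = j
  · subst h; simp [mono_apply]
  · simp [mono_apply, h, Ne.symm h]

theorem mono_zero_one : mono 0 (1 : Fin r → ℂ) = 1 := by
  rw [mono_zero]; exact Matrix.diagonal_one

theorem mono_mul_inv (k : Fin r) (d : Fin r → ℂ) (hd : ∀ i, d i ≠ 0) :
    mono k d * mono (-k) (fun i => (d (i - k))⁻¹) = 1 := by
  rw [mono_mul, ← mono_zero_one]
  have h1 : (fun i => d i * (d (i + k - k))⁻¹) = (1 : Fin r → ℂ) := by
    funext i; simp [add_sub_cancel_right, mul_inv_cancel₀ (hd i)]
  rw [h1]
  congr 1
  abel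

theorem mono_inv (k : Fin r) (d : Fin r → ℂ) (hd : ∀ i, d i ≠ 0) :
    (mono k d)⁻¹ = mono (-k) (fun i => (d (i - k))⁻¹) :=
  Matrix.inv_eq_right_inv (mono_mul_inv k d hd)

theorem mono_isUnit (k : Fin r) (d : Fin r → ℂ) (hd : ∀ i, d i ≠ 0) :
    IsUnit (mono k d).det := by
  have := congrArg Matrix.det (mono_mul_inv k d hd)
  rw [Matrix.det_mul, Matrix.det_one] at this
  exact IsUnit.of_mul_eq_one _ this

theorem mono_pow (k : Fin r) (d : Fin r → ℂ) (n : ℕ) :
    (mono k d) ^ n = mono (n • k) (fun i => ∏ j ∈ Finset.range n, d (i + j • k)) := by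
  induction n with
  | zero =>
    simp only [pow_zero, zero_nsmul, Finset.range_zero, Finset.prod_empty]
    exact mono_zero_one.symm
  | succ n ih =>
    rw [pow_succ, ih, mono_mul, succ_nsmul]
    congr 1
    funext i
    rw [Finset.prod_range_succ]

theorem mono_zero_pow (d : Fin r → ℂ) (n : ℕ) : (mono 0 d) ^ n = mono 0 (fun i => d i ^ n) := by
  rw [mono_zero, mono_zero, Matrix.diagonal_pow]; rfl

/-- a weighted full cycle has separable characteristic polynomial -/
theorem gram_mono_one_ne_zero (d : Fin r → ℂ) (hd : ∀ i, d i ≠ 0) :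
    gram (mono 1 d) ≠ 0 := by
  -- gramMat entries vanish unless r ∣ i + j
  have htr : ∀ n : ℕ, ((mono 1 d) ^ n).trace = if r ∣ n then
      (r : ℂ) * (∏ j, d j) ^ (n / r) else 0 := by
    intro n
    rw [mono_pow, Matrix.trace]
    by_cases hn : r ∣ n
    · rw [if_pos hn]
      obtain ⟨q, rfl⟩ := hn
      have hr : 0 < r := Nat.pos_of_ne_zero (NeZero.ne r)
      rw [Nat.mul_div_cancel_left _ hr]
      have h1 : ((r * q) • (1 : Fin r)) = 0 := by
        apply Fin.ext; rw [val_nsmul_one]; simp
      have h2 : ∀ i : Fin r, ∏ j ∈ Finset.range (r * q), d (i + j • (1 : Fin r)) =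
          (∏ j, d j) ^ q := by
        intro i
        induction q with
        | zero => simp
        | succ q ih =>
          have hz : ((r * q) • (1 : Fin r)) = 0 := by
            apply Fin.ext; rw [val_nsmul_one]; simp
          rw [Nat.mul_succ, Finset.prod_range_add, ih hz, pow_succ]
          congr 1
          rw [Finset.prod_range (f := fun x => d (i + (r * q + x) • (1 : Fin r)))]
          refine Fintype.prod_equiv (Equiv.addLeft i) _ _ fun x => ?_
          rw [add_nsmul, hz, zero_add, nsmul_val]
          rfl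
      simp only [Matrix.diag_apply, mono_apply, h1, add_zero, if_true, h2]
      simp
    · rw [if_neg hn]
      refine Finset.sum_eq_zero fun i _ => ?_
      rw [Matrix.diag_apply, mono_apply, if_neg]
      intro h
      apply hn
      have h0 : n • (1 : Fin r) = 0 := by
        have := congrArg (fun x => x - i) h
        simpa using this.symm
      have := congrArg Fin.val h0
      rw [val_nsmul_one] at this
      exact Nat.dvd_of_mod_eq_zero (by simpa using this)
  set D : ℂ := ∏ j, d j with hD
  have hD0 : D ≠ 0 := Finset.prod_ne_zero_iff.mpr fun i _ => hd i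
  intro hdet
  unfold gram at hdet
  obtain ⟨v, hv0, hv⟩ := Matrix.exists_mulVec_eq_zero_iff.mpr hdet
  apply hv0
  funext j
  have hr : 0 < r := Nat.pos_of_ne_zero (NeZero.ne r)
  -- row index i = (r - j) % r
  let i : Fin r := ⟨(r - j.val) % r, Nat.mod_lt _ hr⟩
  have h1 := congrFun hv i
  simp only [Matrix.mulVec, dotProduct, gramMat, Matrix.of_apply, htr, Pi.zero_apply] at h1
  have key : ∀ k : Fin r, r ∣ (i.val + k.val) ↔ k = j := by
    intro k
    have hk := k.2
    have hj := j.2
    constructor
    · intro h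
      apply Fin.ext
      simp only [i] at h
      by_cases h0 : j.val = 0
      · rw [h0, Nat.sub_zero, Nat.mod_self, zero_add] at h
        rw [h0]; exact Nat.eq_zero_of_dvd_of_lt h hk
      · rw [Nat.mod_eq_of_lt (by omega)] at h
        obtain ⟨q, hq⟩ := h
        have : q = 1 := by
          have h3 : 0 < r * q := by omega
          have h4 : r * q < r * 2 := by omega
          have h5 : q < 2 := lt_of_mul_lt_mul_left h4 (Nat.zero_le _)
          have h6 : 0 < q := Nat.pos_of_mul_pos_left h3 |> fun h => by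
            rcases Nat.eq_zero_or_pos q with h7 | h7
            · subst h7; simp at h3
            · exact h7
          omega
        subst this; omega
    · rintro rfl
      simp only [i]
      by_cases h0 : k.val = 0
      · rw [h0]; simp
      · rw [Nat.mod_eq_of_lt (by omega)]
        exact ⟨1, by omega⟩
  rw [Finset.sum_eq_single j] at h1
  · rw [if_pos ((key j).mpr rfl)] at h1
    have hne : (r : ℂ) * D ^ ((i.val + j.val) / r) ≠ 0 :=
      mul_ne_zero (by exact_mod_cast NeZero.ne r) (pow_ne_zero _ hD0)
    exact (mul_eq_zero.mp h1).resolve_left hne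
  · intro b _ hb
    rw [if_neg (fun h => hb ((key b).mp h)), zero_mul]
  · simp

end mono

section vander
variable {r : ℕ}

theorem exists_vander {μ : Fin r → ℂ} (hμ : Function.Injective μ) (y : Fin r → ℂ) :
    ∃ c : Fin r → ℂ, ∀ i, ∑ m, c m * μ i ^ (m : ℕ) = y i := by
  have hV : IsUnit (vandermonde μ).det := (det_vandermonde_ne_zero_iff.mpr hμ).isUnit
  refine ⟨(vandermonde μ)⁻¹.mulVec y, fun i => ?_⟩
  have h : (vandermonde μ).mulVec ((vandermonde μ)⁻¹.mulVec y) = y := by
    rw [Matrix.mulVec_mulVec, Matrix.mul_nonsing_inv _ hV, Matrix.one_mulVec]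
  have := congrFun h i
  simp only [Matrix.mulVec, dotProduct, vandermonde_apply] at this
  rw [← this]
  refine Finset.sum_congr rfl fun m _ => ?_
  simp only [Matrix.mulVec, dotProduct]
  ring

theorem vander_zero {μ : Fin r → ℂ} (hμ : Function.Injective μ) (y : Fin r → ℂ)
    (h : ∀ m : Fin r, ∑ i, y i * μ i ^ (m : ℕ) = 0) : y = 0 := by
  have hV : (vandermonde μ).det ≠ 0 := det_vandermonde_ne_zero_iff.mpr hμ
  apply Matrix.eq_zero_of_vecMul_eq_zero hV
  funext m
  simpa [Matrix.vecMul, dotProduct, vandermonde_apply] using h m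

end vander

end Vale.Agent.P002
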