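import Vale.Agent.P002.Moves

namespace Vale.Agent.P002

open Matrix NumberField

def Pr {r : ℕ} (A B : Mat r) : Prop := ∃ s : ℂ, s ≠ 0 ∧ A = s • B

namespace Pr
variable {r : ℕ} {A B C D : Mat r}

theorem refl (A : Mat r) : Pr A A := ⟨1, one_ne_zero, (one_smul _ _).symm⟩

theorem symm (h : Pr A B) : Pr B A := by
  obtain ⟨s, hs, rfl⟩ := h
  exact ⟨s⁻¹, inv_ne_zero hs, by rw [smul_smul, inv_mul_cancel₀ hs, one_smul]⟩

theorem trans (h : Pr A B) (h' : Pr B C) : Pr A C := by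
  obtain ⟨s, hs, rfl⟩ := h
  obtain ⟨s', hs', rfl⟩ := h'
  exact ⟨s * s', mul_ne_zero hs hs', by rw [smul_smul]⟩

theorem mul (h : Pr A B) (h' : Pr C D) : Pr (A * C) (B * D) := by
  obtain ⟨s, hs, rfl⟩ := h
  obtain ⟨s', hs', rfl⟩ := h'
  exact ⟨s * s', mul_ne_zero hs hs', by
    rw [Algebra.smul_mul_assoc, Algebra.mul_smul_comm, smul_smul]⟩

theorem pow (h : Pr A B) (n : ℕ) : Pr (A ^ n) (B ^ n) := by
  induction n with
  | zero => simpa using refl _
  | succ n ih => rw [pow_succ, pow_succ]; exact ih.mul h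

theorem adj (h : Pr A B) : Pr A.adjugate B.adjugate := by
  obtain ⟨s, hs, rfl⟩ := h
  exact ⟨s ^ (Fintype.card (Fin r) - 1), pow_ne_zero _ hs, by rw [Matrix.adjugate_smul]⟩

theorem of_inv (h : IsUnit A.det) : Pr A.adjugate A⁻¹ := by
  refine ⟨A.det, h.ne_zero, ?_⟩
  rw [Matrix.inv_def, smul_smul, Ring.mul_inverse_cancel _ h, one_smul]

end Pr

section
variable {L : Type*} [Field L] [NumberField L] (φ : L →+* ℂ) {g r : ℕ}

theorem cone_iff (x : Tup g r) : x ∈ Cone φ g r ↔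
    ∃ σ : Fin g → SpecialLinearGroup (Fin r) (𝓞 L) × SpecialLinearGroup (Fin r) (𝓞 L),
    IsIntRep σ ∧ ∀ i, Pr (x i).1 (emb φ (σ i).1.1) ∧ Pr (x i).2 (emb φ (σ i).2.1) := by
  constructor
  · rintro ⟨σ, hσ, κ, μ, hκ, hμ, h⟩
    exact ⟨σ, hσ, fun i => ⟨⟨κ i, hκ i, by rw [h i]⟩, ⟨μ i, hμ i, by rw [h i]⟩⟩⟩
  · rintro ⟨σ, hσ, h⟩
    choose h1 h2 using h
    choose κ hκ hκ' using h1
    choose μ hμ hμ' using h2
    exact ⟨σ, hσ, κ, μ, hκ, hμ, fun i => Prod.ext (hκ' i) (hμ' i)⟩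

theorem WW_pr {x y : Tup g r} (hx : x ∈ WW φ g r) (h : ∀ i, Pr (y i).1 (x i).1 ∧ Pr (y i).2 (x i).2) :
    y ∈ WW φ g r := by
  choose h1 h2 using h
  choose κ hκ hκ' using h1
  choose μ hμ hμ' using h2
  have := WW_scale φ hx κ μ hκ hμ
  convert this using 1
  ext1 i
  exact Prod.ext (hκ' i) (hμ' i)

theorem emb_inv (A : SpecialLinearGroup (Fin r) (𝓞 L)) :
    emb φ (A⁻¹).1 = (emb φ A.1).adjugate := by
  rw [← emb_adjugate]; rfl

theorem intRep_update (σ : Fin g → SpecialLinearGroup (Fin r) (𝓞 L) ×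
    SpecialLinearGroup (Fin r) (𝓞 L)) (hσ : IsIntRep σ) (i : Fin g)
    (p : SpecialLinearGroup (Fin r) (𝓞 L) × SpecialLinearGroup (Fin r) (𝓞 L))
    (hp : p.1 * p.2 * p.1⁻¹ * p.2⁻¹ = (σ i).1 * (σ i).2 * (σ i).1⁻¹ * (σ i).2⁻¹) :
    IsIntRep (Function.update σ i p) := by
  unfold IsIntRep at *
  rw [← hσ]
  congr 2
  funext j
  by_cases hj : j = i
  · subst hj; simpa using hp
  · simp [Function.update_of_ne hj]

theorem polyMap_update1 {E : Type*} [AddCommGroup E] [Module ℂ E] {S : E → Tup g r}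
    (hS : PolyMap S) (i : Fin g) {p : E → Mat r × Mat r} (hp : PolyMap p) :
    PolyMap (fun x => Function.update (S x) i (p x)) := by
  refine polyMap_pi fun j => ?_
  by_cases hj : j = i
  · subst hj; simpa using hp
  · simpa [Function.update_of_ne hj] using polyMap_apply hS j

noncomputable def pF1 (i : Fin g) (m : ℕ) (p : Tup g r × Mat r) : Tup g r :=
  Function.update p.1 i ((p.1 i).1 * p.2,
    (p.1 i).2 * (p.1 i).1 ^ m * ((p.1 i).1 * p.2).adjugate ^ m)

noncomputable def pF2 (i : Fin g) (p : Tup g r × Mat r) : Tup g r :=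
  Function.update p.1 i ((p.1 i).1, (p.1 i).2 * p.2)

noncomputable def pF3 (i i' : Fin g) (m : ℕ) (p : Tup g r × Mat r) : Tup g r :=
  Function.update (Function.update p.1 i ((p.1 i).1, p.2 * (p.1 i).2)) i'
    (p.2 * (p.1 i').1, (p.1 i').2 * (p.1 i').1 ^ m * p.2.adjugate * (p.2 * (p.1 i').1).adjugate ^ m)

noncomputable def pF4 (i i' : Fin g) (m : ℕ) (p : Tup g r × Mat r) : Tup g r :=
  Function.update (Function.update p.1 i ((p.1 i).1 * p.2.adjugate, p.2 * (p.1 i).2)) i'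
    (p.2 * (p.1 i').1, (p.1 i').2 * (p.1 i').1 ^ m * p.2.adjugate * (p.2 * (p.1 i').1).adjugate ^ m)

noncomputable def eF1 (i : Fin g) (m : ℕ) (x : Tup g r) : Mat r := (x i).2 * (x i).1 ^ m

noncomputable def eF3 (i i' : Fin g) (m : ℕ) (x : Tup g r) : Mat r :=
  (x i).2 * (x i).1.adjugate * (x i).2.adjugate * (x i').1 * (x i').2 * (x i').1 ^ m

noncomputable def eF4 (i i' : Fin g) (m : ℕ) (x : Tup g r) : Mat r :=
  (x i).1.adjugate * (x i).2.adjugate * (x i').1 * (x i').2 * (x i').1 ^ m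

section poly
variable {E : Type*} [AddCommGroup E] [Module ℂ E] {S : E → Tup g r} (hS : PolyMap S)
include hS

theorem poly1 (i : Fin g) : PolyMap (fun x => (S x i).1) := polyMap_fst (polyMap_apply hS i)
theorem poly2 (i : Fin g) : PolyMap (fun x => (S x i).2) := polyMap_snd (polyMap_apply hS i)

end poly

theorem polyMap_fst' {E E' : Type*} [AddCommGroup E] [Module ℂ E] [AddCommGroup E'] [Module ℂ E'] :
    PolyMap (fun p : E × E' => p.1) := polyMap_fst polyMap_id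

theorem polyMap_snd' {E E' : Type*} [AddCommGroup E] [Module ℂ E] [AddCommGroup E'] [Module ℂ E'] :
    PolyMap (fun p : E × E' => p.2) := polyMap_snd polyMap_id

theorem polyMap_pF1 (i : Fin g) (m : ℕ) : PolyMap (pF1 i m : Tup g r × Mat r → Tup g r) := by
  have h1 := poly1 (polyMap_fst' (E := Tup g r) (E' := Mat r)) i
  have h2 := poly2 (polyMap_fst' (E := Tup g r) (E' := Mat r)) i
  have h3 := polyMap_snd' (E := Tup g r) (E' := Mat r)
  exact polyMap_update1 polyMap_fst' i (polyMap_prodMk (polyMap_mul h1 h3)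
    (polyMap_mul (polyMap_mul h2 (polyMap_pow h1 m))
      (polyMap_pow (polyMap_adjugate (polyMap_mul h1 h3)) m)))

theorem polyMap_pF2 (i : Fin g) : PolyMap (pF2 i : Tup g r × Mat r → Tup g r) := by
  have h1 := poly1 (polyMap_fst' (E := Tup g r) (E' := Mat r)) i
  have h2 := poly2 (polyMap_fst' (E := Tup g r) (E' := Mat r)) i
  have h3 := polyMap_snd' (E := Tup g r) (E' := Mat r)
  exact polyMap_update1 polyMap_fst' i (polyMap_prodMk h1 (polyMap_mul h2 h3))

theorem polyMap_pF3 (i i' : Fin g) (m : ℕ) :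
    PolyMap (pF3 i i' m : Tup g r × Mat r → Tup g r) := by
  have h1 := poly1 (polyMap_fst' (E := Tup g r) (E' := Mat r)) i
  have h2 := poly2 (polyMap_fst' (E := Tup g r) (E' := Mat r)) i
  have h1' := poly1 (polyMap_fst' (E := Tup g r) (E' := Mat r)) i'
  have h2' := poly2 (polyMap_fst' (E := Tup g r) (E' := Mat r)) i'
  have h3 := polyMap_snd' (E := Tup g r) (E' := Mat r)
  exact polyMap_update1 (polyMap_update1 polyMap_fst' i (polyMap_prodMk h1 (polyMap_mul h3 h2))) i'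
    (polyMap_prodMk (polyMap_mul h3 h1')
    (polyMap_mul (polyMap_mul (polyMap_mul h2' (polyMap_pow h1' m)) (polyMap_adjugate h3))
      (polyMap_pow (polyMap_adjugate (polyMap_mul h3 h1')) m)))

theorem polyMap_pF4 (i i' : Fin g) (m : ℕ) :
    PolyMap (pF4 i i' m : Tup g r × Mat r → Tup g r) := by
  have h1 := poly1 (polyMap_fst' (E := Tup g r) (E' := Mat r)) i
  have h2 := poly2 (polyMap_fst' (E := Tup g r) (E' := Mat r)) i
  have h1' := poly1 (polyMap_fst' (E := Tup g r) (E' := Mat r)) i'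
  have h2' := poly2 (polyMap_fst' (E := Tup g r) (E' := Mat r)) i'
  have h3 := polyMap_snd' (E := Tup g r) (E' := Mat r)
  exact polyMap_update1 (polyMap_update1 polyMap_fst' i
    (polyMap_prodMk (polyMap_mul h1 (polyMap_adjugate h3)) (polyMap_mul h3 h2))) i'
    (polyMap_prodMk (polyMap_mul h3 h1')
    (polyMap_mul (polyMap_mul (polyMap_mul h2' (polyMap_pow h1' m)) (polyMap_adjugate h3))
      (polyMap_pow (polyMap_adjugate (polyMap_mul h3 h1')) m)))

theorem polyMap_eF1 (i : Fin g) (m : ℕ) : PolyMap (eF1 i m : Tup g r → Mat r) :=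
  polyMap_mul (poly2 polyMap_id i) (polyMap_pow (poly1 polyMap_id i) m)

theorem polyMap_eF3 (i i' : Fin g) (m : ℕ) : PolyMap (eF3 i i' m : Tup g r → Mat r) :=
  polyMap_mul (polyMap_mul (polyMap_mul (polyMap_mul (polyMap_mul (poly2 polyMap_id i)
    (polyMap_adjugate (poly1 polyMap_id i))) (polyMap_adjugate (poly2 polyMap_id i)))
    (poly1 polyMap_id i')) (poly2 polyMap_id i')) (polyMap_pow (poly1 polyMap_id i') m)

theorem polyMap_eF4 (i i' : Fin g) (m : ℕ) : PolyMap (eF4 i i' m : Tup g r → Mat r) :=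
  polyMap_mul (polyMap_mul (polyMap_mul (polyMap_mul
    (polyMap_adjugate (poly1 polyMap_id i)) (polyMap_adjugate (poly2 polyMap_id i)))
    (poly1 polyMap_id i')) (poly2 polyMap_id i')) (polyMap_pow (poly1 polyMap_id i') m)

variable (hφ : ¬ ComplexEmbedding.IsReal φ) (w : InfinitePlace L) (hw : w ≠ InfinitePlace.mk φ)
include hφ hw

theorem pF1_mem (i : Fin g) (m : ℕ) {x : Tup g r} (hx : x ∈ WW φ g r)
    (hgr : gram (eF1 i m x) ≠ 0) {t : Mat r} (ht : Commute t (eF1 i m x)) :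
    pF1 i m (x, t) ∈ WW φ g r := by
  refine twist_mem φ hφ w hw (polyMap_eF1 i m) (polyMap_pF1 i m) ?_ hx hgr ht
  intro c hc
  obtain ⟨σ, hσ, h⟩ := (cone_iff φ c).mp hc
  obtain ⟨s, hs, hs'⟩ := (h i).2.mul ((h i).1.pow m)
  refine ⟨(σ i).2.1 * (σ i).1.1 ^ m, s, hs, by rw [emb_mul, emb_pow]; exact hs', ?_⟩
  intro t ht κ hκ
  rw [cone_iff]
  have ht' : Commute t ((σ i).2 * (σ i).1 ^ m) := by
    apply Subtype.ext
    simpa using ht.eq
  refine ⟨Function.update σ i ((σ i).1 * t, (σ i).2 * (σ i).1 ^ m * ((σ i).1 * t)⁻¹ ^ m),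
    intRep_update σ hσ i _ (grp_F1 _ _ _ m ht'), fun j => ?_⟩
  by_cases hj : j = i
  · subst hj
    simp only [pF1, Function.update_self]
    have ht1 : Pr (κ • emb φ t.1) (emb φ t.1) := ⟨κ, hκ, rfl⟩
    have h1 : Pr ((c j).1 * κ • emb φ t.1) (emb φ ((σ j).1 * t).1) := by
      have := (h j).1.mul ht1
      rwa [← emb_mul] at this
    refine ⟨h1, ?_⟩
    have h2 := ((h j).2.mul ((h j).1.pow m)).mul (h1.adj.pow m)
    rw [← emb_inv, ← emb_pow, ← emb_pow, ← emb_mul, ← emb_mul] at h2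
    exact h2
  · simp only [pF1, Function.update_of_ne hj]
    exact h j

theorem pF2_mem (i : Fin g) {x : Tup g r} (hx : x ∈ WW φ g r)
    (hgr : gram (x i).1 ≠ 0) {t : Mat r} (ht : Commute t (x i).1) :
    pF2 i (x, t) ∈ WW φ g r := by
  refine twist_mem φ hφ w hw (e := fun x => (x i).1) (poly1 polyMap_id i) (polyMap_pF2 i) ?_ hx hgr ht
  intro c hc
  obtain ⟨σ, hσ, h⟩ := (cone_iff φ c).mp hc
  obtain ⟨s, hs, hs'⟩ := (h i).1
  refine ⟨(σ i).1.1, s, hs, hs', ?_⟩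
  intro t ht κ hκ
  rw [cone_iff]
  have ht' : Commute t (σ i).1 := by
    apply Subtype.ext
    simpa using ht.eq
  refine ⟨Function.update σ i ((σ i).1, (σ i).2 * t),
    intRep_update σ hσ i _ (grp_F2 _ _ _ ht'), fun j => ?_⟩
  by_cases hj : j = i
  · subst hj
    simp only [pF2, Function.update_self]
    have ht1 : Pr (κ • emb φ t.1) (emb φ t.1) := ⟨κ, hκ, rfl⟩
    refine ⟨(h j).1, ?_⟩
    have := (h j).2.mul ht1
    rwa [← emb_mul] at this
  · simp only [pF2, Function.update_of_ne hj]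
    exact h j

omit hφ hw in
theorem intRep_update2 (σ : Fin g → SpecialLinearGroup (Fin r) (𝓞 L) ×
    SpecialLinearGroup (Fin r) (𝓞 L)) (hσ : IsIntRep σ) (i i' : Fin g) (hi : (i' : ℕ) = i + 1)
    (p p' : SpecialLinearGroup (Fin r) (𝓞 L) × SpecialLinearGroup (Fin r) (𝓞 L))
    (hp : (p.1 * p.2 * p.1⁻¹ * p.2⁻¹) * (p'.1 * p'.2 * p'.1⁻¹ * p'.2⁻¹) =
      ((σ i).1 * (σ i).2 * (σ i).1⁻¹ * (σ i).2⁻¹) *
      ((σ i').1 * (σ i').2 * (σ i').1⁻¹ * (σ i').2⁻¹)) :
    IsIntRep (Function.update (Function.update σ i p) i' p') := by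
  unfold IsIntRep at *
  rw [← hσ]
  have hne : i ≠ i' := fun h => by rw [h] at hi; omega
  have hlt : (i : ℕ) + 1 < g := by rw [← hi]; exact i'.2
  refine list_prod_adj g _ _ i hlt (fun j hj1 hj2 => ?_) ?_
  · have h1 : j ≠ i' := fun h => hj2 (by rw [h, hi])
    have h2 : j ≠ i := fun h => hj1 (by rw [h])
    simp only [Function.update_of_ne h1, Function.update_of_ne h2]
  · have e1 : (⟨(i : ℕ), by omega⟩ : Fin g) = i := rfl
    have e2 : (⟨(i : ℕ) + 1, hlt⟩ : Fin g) = i' := Fin.ext hi.symm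
    rw [e1, e2]
    simp only [Function.update_self, Function.update_of_ne hne]
    exact hp

theorem pF3_mem (i i' : Fin g) (hi : (i' : ℕ) = i + 1) (m : ℕ) {x : Tup g r}
    (hx : x ∈ WW φ g r) (hgr : gram (eF3 i i' m x) ≠ 0) {t : Mat r}
    (ht : Commute t (eF3 i i' m x)) : pF3 i i' m (x, t) ∈ WW φ g r := by
  refine twist_mem φ hφ w hw (polyMap_eF3 i i' m) (polyMap_pF3 i i' m) ?_ hx hgr ht
  intro c hc
  have hne : i ≠ i' := fun h => by rw [h] at hi; omega
  obtain ⟨σ, hσ, h⟩ := (cone_iff φ c).mp hc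
  have he : Pr (eF3 i i' m c) (emb φ ((σ i).2 * (σ i).1⁻¹ * (σ i).2⁻¹ * (σ i').1 * (σ i').2 *
      (σ i').1 ^ m).1) := by
    have := (((((h i).2.mul (h i).1.adj).mul (h i).2.adj).mul (h i').1).mul (h i').2).mul
      ((h i').1.pow m)
    rw [← emb_inv, ← emb_inv, ← emb_pow, ← emb_mul, ← emb_mul, ← emb_mul, ← emb_mul,
      ← emb_mul] at this
    exact this
  obtain ⟨s, hs, hs'⟩ := he
  refine ⟨_, s, hs, hs', ?_⟩
  intro t ht κ hκ
  rw [cone_iff]
  have ht' : Commute t ((σ i).2 * (σ i).1⁻¹ * (σ i).2⁻¹ * (σ i').1 * (σ i').2 *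
      (σ i').1 ^ m) := Subtype.ext ht.eq
  refine ⟨Function.update (Function.update σ i ((σ i).1, t * (σ i).2)) i'
    (t * (σ i').1, (σ i').2 * (σ i').1 ^ m * t⁻¹ * (t * (σ i').1)⁻¹ ^ m),
    intRep_update2 σ hσ i i' hi _ _ (grp_F3 _ _ _ _ _ m ht'), fun j => ?_⟩
  have ht1 : Pr (κ • emb φ t.1) (emb φ t.1) := ⟨κ, hκ, rfl⟩
  by_cases hj : j = i'
  · subst hj
    simp only [pF3, Function.update_self]
    have h1 : Pr (κ • emb φ t.1 * (c j).1) (emb φ (t * (σ j).1).1) := by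
      have := ht1.mul (h j).1
      rwa [← emb_mul] at this
    refine ⟨h1, ?_⟩
    have h2 := ((((h j).2.mul ((h j).1.pow m)).mul ht1.adj)).mul (h1.adj.pow m)
    rw [← emb_inv, ← emb_inv, ← emb_pow, ← emb_pow, ← emb_mul, ← emb_mul, ← emb_mul] at h2
    exact h2
  · by_cases hj' : j = i
    · subst hj'
      simp only [pF3, Function.update_of_ne hj, Function.update_self]
      refine ⟨(h j).1, ?_⟩
      have := ht1.mul (h j).2
      rwa [← emb_mul] at this
    · simp only [pF3, Function.update_of_ne hj, Function.update_of_ne hj']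
      exact h j

theorem pF4_mem (i i' : Fin g) (hi : (i' : ℕ) = i + 1) (m : ℕ) {x : Tup g r}
    (hx : x ∈ WW φ g r) (hgr : gram (eF4 i i' m x) ≠ 0) {t : Mat r}
    (ht : Commute t (eF4 i i' m x)) : pF4 i i' m (x, t) ∈ WW φ g r := by
  refine twist_mem φ hφ w hw (polyMap_eF4 i i' m) (polyMap_pF4 i i' m) ?_ hx hgr ht
  intro c hc
  have hne : i ≠ i' := fun h => by rw [h] at hi; omega
  obtain ⟨σ, hσ, h⟩ := (cone_iff φ c).mp hc
  have he : Pr (eF4 i i' m c) (emb φ ((σ i).1⁻¹ * (σ i).2⁻¹ * (σ i').1 * (σ i').2 *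
      (σ i').1 ^ m).1) := by
    have := ((((h i).1.adj).mul (h i).2.adj).mul (h i').1).mul (h i').2 |>.mul
      ((h i').1.pow m)
    rw [← emb_inv, ← emb_inv, ← emb_pow, ← emb_mul, ← emb_mul, ← emb_mul, ← emb_mul] at this
    exact this
  obtain ⟨s, hs, hs'⟩ := he
  refine ⟨_, s, hs, hs', ?_⟩
  intro t ht κ hκ
  rw [cone_iff]
  have ht' : Commute t ((σ i).1⁻¹ * (σ i).2⁻¹ * (σ i').1 * (σ i').2 *
      (σ i').1 ^ m) := Subtype.ext ht.eq
  refine ⟨Function.update (Function.update σ i ((σ i).1 * t⁻¹, t * (σ i).2)) i'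
    (t * (σ i').1, (σ i').2 * (σ i').1 ^ m * t⁻¹ * (t * (σ i').1)⁻¹ ^ m),
    intRep_update2 σ hσ i i' hi _ _ (grp_F4 _ _ _ _ _ m ht'), fun j => ?_⟩
  have ht1 : Pr (κ • emb φ t.1) (emb φ t.1) := ⟨κ, hκ, rfl⟩
  by_cases hj : j = i'
  · subst hj
    simp only [pF4, Function.update_self]
    have h1 : Pr (κ • emb φ t.1 * (c j).1) (emb φ (t * (σ j).1).1) := by
      have := ht1.mul (h j).1
      rwa [← emb_mul] at this
    refine ⟨h1, ?_⟩
    have h2 := ((((h j).2.mul ((h j).1.pow m)).mul ht1.adj)).mul (h1.adj.pow m)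
    rw [← emb_inv, ← emb_inv, ← emb_pow, ← emb_pow, ← emb_mul, ← emb_mul, ← emb_mul] at h2
    exact h2
  · by_cases hj' : j = i
    · subst hj'
      simp only [pF4, Function.update_of_ne hj, Function.update_self]
      constructor
      · have := (h j).1.mul ht1.adj
        rwa [← emb_inv, ← emb_mul] at this
      · have := ht1.mul (h j).2
        rwa [← emb_mul] at this
    · simp only [pF4, Function.update_of_ne hj, Function.update_of_ne hj']
      exact h j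

end

end Vale.Agent.P002
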