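import Vale.Agent.P002.Flows
import Vale.Agent.P002.Moves2
import Vale.Agent.P002.Mono

namespace Vale.Agent.P002

open Matrix NumberField Topology Filter
open scoped Matrix.Norms.L2Operator

section basics
variable {r : ℕ}

theorem gram_smul_ne_zero {A : Mat r} (h : gram A ≠ 0) {s : ℂ} (hs : s ≠ 0) :
    gram (s • A) ≠ 0 := by
  obtain ⟨P, lam, hP, hl, hd⟩ := exists_diag_of_gram_ne_zero A h
  have : s • A = P * diagonal (fun i => s * lam i) * P⁻¹ := by
    rw [hd]
    have : diagonal (fun i => s * lam i) = s • diagonal lam := by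
      ext i j
      by_cases hij : i = j
      · subst hij; simp
      · simp [hij]
    rw [this, Algebra.mul_smul_comm, Algebra.smul_mul_assoc]
  rw [this]
  exact gram_ne_zero_of_diag P _ hP (fun i j hij => hl (mul_left_cancel₀ hs hij))

theorem Pr.gram_ne {A B : Mat r} (h : Pr A B) (hB : gram B ≠ 0) : gram A ≠ 0 := by
  obtain ⟨s, hs, rfl⟩ := h
  exact gram_smul_ne_zero hB hs

theorem gram_continuous : Continuous (gram : Mat r → ℂ) :=
  polyFun_continuous (gram_polyFun (S := fun x : Mat r => x) polyMap_id)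

theorem Pr.of_ringInverse {A : Mat r} (h : IsUnit A) : Pr A.adjugate (Ring.inverse A) := by
  rw [← Matrix.nonsing_inv_eq_ringInverse]
  exact Pr.of_inv ((Matrix.isUnit_iff_isUnit_det A).mp h)

theorem Pr.commute {A B t : Mat r} (h : Pr A B) (ht : Commute t B) : Commute t A := by
  obtain ⟨s, hs, rfl⟩ := h
  exact ht.smul_right s

theorem commute_tk (e : Mat r) (s : ℂ) (k : ℕ) : Commute (1 + s • e ^ k) e :=
  (Commute.one_left e).add_left (((Commute.refl e).pow_left k).smul_left s)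

theorem eventually_unit_t {X : Type*} [TopologicalSpace X] {e : X → Mat r} {x0 : X}
    (he : ContinuousAt e x0) (k : ℕ) :
    ∀ᶠ q in 𝓝 (x0, (0 : ℂ)), IsUnit (1 + q.2 • (e q.1) ^ k) := by
  have hc : ContinuousAt (fun q : X × ℂ => (1 : Mat r) + q.2 • (e q.1) ^ k) (x0, 0) := by
    have h1 : ContinuousAt (fun q : X × ℂ => e q.1) (x0, 0) :=
      ContinuousAt.comp (g := e) (f := Prod.fst) he continuousAt_fst
    exact continuousAt_const.add (continuousAt_snd.smul (h1.pow k))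
  have hu : IsUnit ((1 : Mat r) + (0 : ℂ) • (e x0) ^ k) := by simp
  exact hc.eventually (Units.isOpen.mem_nhds hu)

end basics

section rel
variable {L : Type*} [Field L] [NumberField L] (φ : L →+* ℂ) {g r : ℕ}

def RelF (i : Fin g) (p q : Mat r × Mat r) : Prop :=
  cmA q = cmA p ∧ ∀ x : Tup g r, Function.update x i p ∈ WW φ g r →
    Function.update x i q ∈ WW φ g r

def RelL (i i' : Fin g) (p q : (Mat r × Mat r) × (Mat r × Mat r)) : Prop :=
  cmA q.1 * cmA q.2 = cmA p.1 * cmA p.2 ∧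
    ∀ x : Tup g r, Function.update (Function.update x i q.1) i' q.2 ∈ WW φ g r →
      Function.update (Function.update x i p.1) i' p.2 ∈ WW φ g r

theorem RelF.rfl' (i : Fin g) (p : Mat r × Mat r) : RelF φ i p p := ⟨rfl, fun _ h => h⟩

theorem RelF.trans' (i : Fin g) (p q s : Mat r × Mat r) (h : RelF φ i p q) (h' : RelF φ i q s) :
    RelF φ i p s := ⟨h'.1.trans h.1, fun x hx => h'.2 x (h.2 x hx)⟩

theorem RelL.rfl' (i i' : Fin g) (p : (Mat r × Mat r) × (Mat r × Mat r)) : RelL φ i i' p p :=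
  ⟨rfl, fun _ h => h⟩

theorem RelL.trans' (i i' : Fin g) (p q s : (Mat r × Mat r) × (Mat r × Mat r))
    (h : RelL φ i i' p q) (h' : RelL φ i i' q s) :
    RelL φ i i' p s := ⟨h'.1.trans h.1, fun x hx => h.2 x (h'.2 x hx)⟩

variable (hφ : ¬ ComplexEmbedding.IsReal φ) (w : InfinitePlace L) (hw : w ≠ InfinitePlace.mk φ)
include hφ hw

theorem relF_f1 (i : Fin g) (m : ℕ) (p : Mat r × Mat r) (hp : UP p) (hgr : gram (e1 m p) ≠ 0)
    (t : Mat r) (htu : IsUnit t) (ht : Commute t (e1 m p)) : RelF φ i p (f1 m p t) := by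
  refine ⟨cmA_f1 hp htu ht, fun x hx => ?_⟩
  have h1 := pF1_mem φ hφ w hw i m hx (t := t) (by simpa [eF1, e1] using hgr)
    (by simpa [eF1, e1] using ht)
  refine WW_pr φ h1 fun j => ?_
  by_cases hj : j = i
  · subst hj
    simp only [Function.update_self, pF1, f1]
    exact ⟨Pr.refl _, (Pr.refl _).mul ((Pr.of_ringInverse (hp.1.mul htu)).symm.pow m)⟩
  · simp only [pF1, Function.update_of_ne hj]
    exact ⟨Pr.refl _, Pr.refl _⟩

theorem relF_f2 (i : Fin g) (p : Mat r × Mat r) (hp : UP p) (hgr : gram p.1 ≠ 0)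
    (t : Mat r) (htu : IsUnit t) (ht : Commute t p.1) : RelF φ i p (f2 p t) := by
  refine ⟨cmA_f2 hp htu ht, fun x hx => ?_⟩
  have h1 := pF2_mem φ hφ w hw i hx (t := t) (by simpa using hgr) (by simpa using ht)
  refine WW_pr φ h1 fun j => ?_
  by_cases hj : j = i
  · subst hj
    simp only [Function.update_self, pF2, f2]
    exact ⟨Pr.refl _, Pr.refl _⟩
  · simp only [pF2, Function.update_of_ne hj]
    exact ⟨Pr.refl _, Pr.refl _⟩

theorem fwd_f3 (i i' : Fin g) (hi : (i' : ℕ) = i + 1) (m : ℕ)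
    (p : (Mat r × Mat r) × (Mat r × Mat r)) (hp : UP p.1) (hp2 : UP p.2)
    (hgr : gram (e3 m p) ≠ 0) (t : Mat r) (htu : IsUnit t) (ht : Commute t (e3 m p))
    (x : Tup g r) (hx : Function.update (Function.update x i p.1) i' p.2 ∈ WW φ g r) :
    Function.update (Function.update x i (f3 m p t).1) i' (f3 m p t).2 ∈ WW φ g r := by
  have hne : i ≠ i' := fun h => by rw [h] at hi; omega
  have hPr : Pr (eF3 i i' m (Function.update (Function.update x i p.1) i' p.2)) (e3 m p) := by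
    simp only [eF3, e3, Function.update_self, Function.update_of_ne hne]
    exact (((((Pr.refl _).mul (Pr.of_ringInverse hp.1)).mul (Pr.of_ringInverse hp.2)).mul
      (Pr.refl _)).mul (Pr.refl _)).mul (Pr.refl _)
  have h1 := pF3_mem φ hφ w hw i i' hi m hx (t := t) (hPr.gram_ne hgr) (hPr.commute ht)
  refine WW_pr φ h1 fun j => ?_
  by_cases hj : j = i'
  · subst hj
    simp only [Function.update_self, pF3, f3, h2m]
    exact ⟨Pr.refl _, ((Pr.refl _).mul (Pr.of_ringInverse htu).symm).mul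
      ((Pr.of_ringInverse (htu.mul hp2.1)).symm.pow m)⟩
  · by_cases hj' : j = i
    · subst hj'
      simp only [pF3, f3, Function.update_of_ne hj, Function.update_self]
      exact ⟨Pr.refl _, Pr.refl _⟩
    · simp only [pF3, f3, Function.update_of_ne hj, Function.update_of_ne hj']
      exact ⟨Pr.refl _, Pr.refl _⟩

theorem fwd_f4 (i i' : Fin g) (hi : (i' : ℕ) = i + 1) (m : ℕ)
    (p : (Mat r × Mat r) × (Mat r × Mat r)) (hp : UP p.1) (hp2 : UP p.2)
    (hgr : gram (e4 m p) ≠ 0) (t : Mat r) (htu : IsUnit t) (ht : Commute t (e4 m p))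
    (x : Tup g r) (hx : Function.update (Function.update x i p.1) i' p.2 ∈ WW φ g r) :
    Function.update (Function.update x i (f4 m p t).1) i' (f4 m p t).2 ∈ WW φ g r := by
  have hne : i ≠ i' := fun h => by rw [h] at hi; omega
  have hPr : Pr (eF4 i i' m (Function.update (Function.update x i p.1) i' p.2)) (e4 m p) := by
    simp only [eF4, e4, Function.update_self, Function.update_of_ne hne]
    exact ((((Pr.of_ringInverse hp.1).mul (Pr.of_ringInverse hp.2)).mul
      (Pr.refl _)).mul (Pr.refl _)).mul (Pr.refl _)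
  have h1 := pF4_mem φ hφ w hw i i' hi m hx (t := t) (hPr.gram_ne hgr) (hPr.commute ht)
  refine WW_pr φ h1 fun j => ?_
  by_cases hj : j = i'
  · subst hj
    simp only [Function.update_self, pF4, f4, h2m]
    exact ⟨Pr.refl _, ((Pr.refl _).mul (Pr.of_ringInverse htu).symm).mul
      ((Pr.of_ringInverse (htu.mul hp2.1)).symm.pow m)⟩
  · by_cases hj' : j = i
    · subst hj'
      simp only [pF4, f4, Function.update_of_ne hj, Function.update_self]
      exact ⟨(Pr.refl _).mul (Pr.of_ringInverse htu).symm, Pr.refl _⟩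
    · simp only [pF4, f4, Function.update_of_ne hj, Function.update_of_ne hj']
      exact ⟨Pr.refl _, Pr.refl _⟩

theorem relL_f3 (i i' : Fin g) (hi : (i' : ℕ) = i + 1) (m : ℕ)
    (p : (Mat r × Mat r) × (Mat r × Mat r)) (hp : UP p.1) (hp2 : UP p.2)
    (hgr : gram (e3 m p) ≠ 0) (t : Mat r) (htu : IsUnit t) (ht : Commute t (e3 m p)) :
    RelL φ i i' p (f3 m p t) := by
  refine ⟨cmA_f3 hp hp2 htu ht, fun x hx => ?_⟩
  have he := e3_f3 hp hp2 htu ht
  have ht' : Commute (Ring.inverse t) (e3 m p) := by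
    obtain ⟨u, rfl⟩ := htu
    rw [Ring.inverse_unit]
    exact Commute.units_inv_left ht
  have h := fwd_f3 φ hφ w hw i i' hi m (f3 m p t) ⟨hp.1, htu.mul hp.2⟩ (hp2.h2m htu)
    (by rw [he]; exact hgr) (Ring.inverse t) htu.ringInverse (by rw [he]; exact ht') x hx
  rw [f3_rev hp2 htu] at h
  exact h

theorem relL_f4 (i i' : Fin g) (hi : (i' : ℕ) = i + 1) (m : ℕ)
    (p : (Mat r × Mat r) × (Mat r × Mat r)) (hp : UP p.1) (hp2 : UP p.2)
    (hgr : gram (e4 m p) ≠ 0) (t : Mat r) (htu : IsUnit t) (ht : Commute t (e4 m p)) :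
    RelL φ i i' p (f4 m p t) := by
  refine ⟨cmA_f4 hp hp2 htu ht, fun x hx => ?_⟩
  have he := e4_f4 hp hp2 htu ht
  have ht' : Commute (Ring.inverse t) (e4 m p) := by
    obtain ⟨u, rfl⟩ := htu
    rw [Ring.inverse_unit]
    exact Commute.units_inv_left ht
  have h := fwd_f4 φ hφ w hw i i' hi m (f4 m p t) ⟨hp.1.mul htu.ringInverse, htu.mul hp.2⟩
    (hp2.h2m htu) (by rw [he]; exact hgr) (Ring.inverse t) htu.ringInverse
    (by rw [he]; exact ht') x hx
  rw [f4_rev hp2 htu] at h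
  exact h

theorem flow1 (i : Fin g) (m k : ℕ) (p0 : Mat r × Mat r) (hp : UP p0)
    (hgr : gram (e1 m p0) ≠ 0) :
    ∃ β : Mat r, IsFlow (RelF φ i) p0 (p0.1 * (e1 m p0) ^ k, β) := by
  refine isFlow_T1 m k p0 hp ?_
  have hc : ContinuousAt (fun p : Mat r × Mat r => e1 m p) p0 :=
    (cd_e1 (𝔸 := Mat r) (a := fun p : Mat r × Mat r => p.1) (b := fun p => p.2)
      contDiffAt_fst contDiffAt_snd m).continuousAt
  have h1 : ∀ᶠ q in 𝓝 (p0, (0 : ℂ)), UP q.1 := continuousAt_fst.eventually (eventually_UP hp)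
  have h2 : ∀ᶠ q in 𝓝 (p0, (0 : ℂ)), gram (e1 m q.1) ≠ 0 := by
    have : ContinuousAt (fun q : (Mat r × Mat r) × ℂ => gram (e1 m q.1)) (p0, 0) :=
      gram_continuous.continuousAt.comp (ContinuousAt.comp (g := fun p => e1 m p)
        (f := Prod.fst) hc continuousAt_fst)
    exact this.eventually_ne hgr
  filter_upwards [h1, h2, eventually_unit_t hc k] with q a b c
  exact relF_f1 φ hφ w hw i m q.1 a b _ c (commute_tk _ _ _)

theorem flow2 (i : Fin g) (k : ℕ) (p0 : Mat r × Mat r) (hp : UP p0)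
    (hgr : gram p0.1 ≠ 0) :
    IsFlow (RelF φ i) p0 (0, p0.2 * p0.1 ^ k) := by
  refine isFlow_T2 k p0 ?_
  have hc : ContinuousAt (fun p : Mat r × Mat r => p.1) p0 := continuousAt_fst
  have h1 : ∀ᶠ q in 𝓝 (p0, (0 : ℂ)), UP q.1 := continuousAt_fst.eventually (eventually_UP hp)
  have h2 : ∀ᶠ q in 𝓝 (p0, (0 : ℂ)), gram q.1.1 ≠ 0 := by
    have : ContinuousAt (fun q : (Mat r × Mat r) × ℂ => gram q.1.1) (p0, 0) :=
      gram_continuous.continuousAt.comp (ContinuousAt.comp (g := fun p : Mat r × Mat r => p.1)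
        (f := Prod.fst) hc continuousAt_fst)
    exact this.eventually_ne hgr
  filter_upwards [h1, h2, eventually_unit_t hc k] with q a b c
  exact relF_f2 φ hφ w hw i q.1 a b _ c (commute_tk _ _ _)

theorem flow3 (i i' : Fin g) (hi : (i' : ℕ) = i + 1) (m k : ℕ)
    (q0 : (Mat r × Mat r) × (Mat r × Mat r)) (hp : UP q0.1) (hp2 : UP q0.2)
    (hgr : gram (e3 m q0) ≠ 0) :
    ∃ β : Mat r × Mat r, IsFlow (RelL φ i i') q0 ((0, (e3 m q0) ^ k * q0.1.2), β) := by
  refine isFlow_T3 m k q0 hp hp2 ?_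
  have hc : ContinuousAt (fun p : (Mat r × Mat r) × (Mat r × Mat r) => e3 m p) q0 :=
    (cd_e3 (𝔸 := Mat r) (E := (Mat r × Mat r) × (Mat r × Mat r))
      (a := fun p => p.1.1) (b := fun p => p.1.2)
      (a' := fun p => p.2.1) (b' := fun p => p.2.2)
      contDiffAt_fst.fst contDiffAt_fst.snd contDiffAt_snd.fst contDiffAt_snd.snd m
      hp.1 hp.2).continuousAt
  have h1 : ∀ᶠ q in 𝓝 (q0, (0 : ℂ)), UP q.1.1 := by
    have : ∀ᶠ q in 𝓝 q0, UP q.1 := continuousAt_fst.eventually (eventually_UP hp)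
    have hc : ContinuousAt (fun q : ((Mat r × Mat r) × (Mat r × Mat r)) × ℂ => q.1) (q0, 0) :=
      continuousAt_fst
    exact hc.eventually this
  have h1' : ∀ᶠ q in 𝓝 (q0, (0 : ℂ)), UP q.1.2 := by
    have : ∀ᶠ q in 𝓝 q0, UP q.2 := continuousAt_snd.eventually (eventually_UP hp2)
    have hc : ContinuousAt (fun q : ((Mat r × Mat r) × (Mat r × Mat r)) × ℂ => q.1) (q0, 0) :=
      continuousAt_fst
    exact hc.eventually this
  have h2 : ∀ᶠ q in 𝓝 (q0, (0 : ℂ)), gram (e3 m q.1) ≠ 0 := by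
    have : ContinuousAt (fun q : ((Mat r × Mat r) × (Mat r × Mat r)) × ℂ => gram (e3 m q.1))
        (q0, 0) :=
      gram_continuous.continuousAt.comp (ContinuousAt.comp (g := fun p => e3 m p)
        (f := Prod.fst) hc continuousAt_fst)
    exact this.eventually_ne hgr
  filter_upwards [h1, h1', h2, eventually_unit_t hc k] with q a a' b c
  exact relL_f3 φ hφ w hw i i' hi m q.1 a a' b _ c (commute_tk _ _ _)

theorem flow4 (i i' : Fin g) (hi : (i' : ℕ) = i + 1) (m k : ℕ)
    (q0 : (Mat r × Mat r) × (Mat r × Mat r)) (hp : UP q0.1) (hp2 : UP q0.2)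
    (hgr : gram (e4 m q0) ≠ 0) :
    ∃ β : Mat r × Mat r, IsFlow (RelL φ i i') q0
      ((-(q0.1.1 * (e4 m q0) ^ k), (e4 m q0) ^ k * q0.1.2), β) := by
  refine isFlow_T4 m k q0 hp hp2 ?_
  have hc : ContinuousAt (fun p : (Mat r × Mat r) × (Mat r × Mat r) => e4 m p) q0 :=
    (cd_e4 (𝔸 := Mat r) (E := (Mat r × Mat r) × (Mat r × Mat r))
      (a := fun p => p.1.1) (b := fun p => p.1.2)
      (a' := fun p => p.2.1) (b' := fun p => p.2.2)
      contDiffAt_fst.fst contDiffAt_fst.snd contDiffAt_snd.fst contDiffAt_snd.snd m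
      hp.1 hp.2).continuousAt
  have h1 : ∀ᶠ q in 𝓝 (q0, (0 : ℂ)), UP q.1.1 := by
    have : ∀ᶠ q in 𝓝 q0, UP q.1 := continuousAt_fst.eventually (eventually_UP hp)
    have hc : ContinuousAt (fun q : ((Mat r × Mat r) × (Mat r × Mat r)) × ℂ => q.1) (q0, 0) :=
      continuousAt_fst
    exact hc.eventually this
  have h1' : ∀ᶠ q in 𝓝 (q0, (0 : ℂ)), UP q.1.2 := by
    have : ∀ᶠ q in 𝓝 q0, UP q.2 := continuousAt_snd.eventually (eventually_UP hp2)
    have hc : ContinuousAt (fun q : ((Mat r × Mat r) × (Mat r × Mat r)) × ℂ => q.1) (q0, 0) :=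
      continuousAt_fst
    exact hc.eventually this
  have h2 : ∀ᶠ q in 𝓝 (q0, (0 : ℂ)), gram (e4 m q.1) ≠ 0 := by
    have : ContinuousAt (fun q : ((Mat r × Mat r) × (Mat r × Mat r)) × ℂ => gram (e4 m q.1))
        (q0, 0) :=
      gram_continuous.continuousAt.comp (ContinuousAt.comp (g := fun p => e4 m p)
        (f := Prod.fst) hc continuousAt_fst)
    exact this.eventually_ne hgr
  filter_upwards [h1, h1', h2, eventually_unit_t hc k] with q a a' b c
  exact relL_f4 φ hφ w hw i i' hi m q.1 a a' b _ c (commute_tk _ _ _)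

end rel

end Vale.Agent.P002
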