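import Vale.Agent.P002.Chain

namespace Vale.Agent.P002

open Matrix NumberField Topology Filter
open scoped Matrix.Norms.L2Operator

/-- closure properties of a set of tuples under projective rescaling and the four kinds of twists -/
structure MoveClosed {g r : ℕ} (W : Set (Tup g r)) : Prop where
  pr : ∀ {x y : Tup g r}, x ∈ W → (∀ i, Pr (y i).1 (x i).1 ∧ Pr (y i).2 (x i).2) → y ∈ W
  m1 : ∀ (i : Fin g) (m : ℕ) {x : Tup g r}, x ∈ W → gram (eF1 i m x) ≠ 0 →
    ∀ {t : Mat r}, IsUnit t → Commute t (eF1 i m x) → pF1 i m (x, t) ∈ W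
  m2 : ∀ (i : Fin g) {x : Tup g r}, x ∈ W → gram (x i).1 ≠ 0 →
    ∀ {t : Mat r}, IsUnit t → Commute t (x i).1 → pF2 i (x, t) ∈ W
  m3 : ∀ (i i' : Fin g), (i' : ℕ) = i + 1 → ∀ (m : ℕ) {x : Tup g r}, x ∈ W →
    gram (eF3 i i' m x) ≠ 0 → ∀ {t : Mat r}, IsUnit t → Commute t (eF3 i i' m x) →
    pF3 i i' m (x, t) ∈ W
  m4 : ∀ (i i' : Fin g), (i' : ℕ) = i + 1 → ∀ (m : ℕ) {x : Tup g r}, x ∈ W →
    gram (eF4 i i' m x) ≠ 0 → ∀ {t : Mat r}, IsUnit t → Commute t (eF4 i i' m x) →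
    pF4 i i' m (x, t) ∈ W

theorem moveClosed_WW {L : Type*} [Field L] [NumberField L] (φ : L →+* ℂ)
    (hφ : ¬ ComplexEmbedding.IsReal φ) (w : InfinitePlace L) (hw : w ≠ InfinitePlace.mk φ)
    {g r : ℕ} : MoveClosed (WW φ g r) where
  pr := fun hx h => WW_pr φ hx h
  m1 := fun i m _ hx hg _ _ ht => pF1_mem φ hφ w hw i m hx hg ht
  m2 := fun i _ hx hg _ _ ht => pF2_mem φ hφ w hw i hx hg ht
  m3 := fun i i' hi m _ hx hg _ _ ht => pF3_mem φ hφ w hw i i' hi m hx hg ht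
  m4 := fun i i' hi m _ hx hg _ _ ht => pF4_mem φ hφ w hw i i' hi m hx hg ht

section rel
variable {g r : ℕ}

def QF (i : Fin g) (p q : Mat r × Mat r) : Prop :=
  cmA q = cmA p ∧ ∀ W : Set (Tup g r), MoveClosed W → ∀ x : Tup g r,
    Function.update x i p ∈ W → Function.update x i q ∈ W

def QL (i i' : Fin g) (p q : (Mat r × Mat r) × (Mat r × Mat r)) : Prop :=
  cmA q.1 * cmA q.2 = cmA p.1 * cmA p.2 ∧ ∀ W : Set (Tup g r), MoveClosed W →
    ∀ x : Tup g r, Function.update (Function.update x i q.1) i' q.2 ∈ W →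
      Function.update (Function.update x i p.1) i' p.2 ∈ W

theorem QF.rfl' (i : Fin g) (p : Mat r × Mat r) : QF i p p := ⟨rfl, fun _ _ _ h => h⟩

theorem QF.trans' (i : Fin g) (p q s : Mat r × Mat r) (h : QF i p q) (h' : QF i q s) :
    QF i p s := ⟨h'.1.trans h.1, fun W hW x hx => h'.2 W hW x (h.2 W hW x hx)⟩

theorem QL.rfl' (i i' : Fin g) (p : (Mat r × Mat r) × (Mat r × Mat r)) : QL i i' p p :=
  ⟨rfl, fun _ _ _ h => h⟩

theorem QL.trans' (i i' : Fin g) (p q s : (Mat r × Mat r) × (Mat r × Mat r))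
    (h : QL i i' p q) (h' : QL i i' q s) :
    QL i i' p s := ⟨h'.1.trans h.1, fun W hW x hx => h.2 W hW x (h'.2 W hW x hx)⟩


theorem qrelF_f1 (i : Fin g) (m : ℕ) (p : Mat r × Mat r) (hp : UP p) (hgr : gram (e1 m p) ≠ 0)
    (t : Mat r) (htu : IsUnit t) (ht : Commute t (e1 m p)) : QF i p (f1 m p t) := by
  refine ⟨cmA_f1 hp htu ht, fun W hW x hx => ?_⟩
  have h1 := hW.m1 i m hx (t := t) (by simpa [eF1, e1] using hgr) htu
    (by simpa [eF1, e1] using ht)
  refine hW.pr h1 fun j => ?_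
  by_cases hj : j = i
  · subst hj
    simp only [Function.update_self, pF1, f1]
    exact ⟨Pr.refl _, (Pr.refl _).mul ((Pr.of_ringInverse (hp.1.mul htu)).symm.pow m)⟩
  · simp only [pF1, Function.update_of_ne hj]
    exact ⟨Pr.refl _, Pr.refl _⟩

theorem qrelF_f2 (i : Fin g) (p : Mat r × Mat r) (hp : UP p) (hgr : gram p.1 ≠ 0)
    (t : Mat r) (htu : IsUnit t) (ht : Commute t p.1) : QF i p (f2 p t) := by
  refine ⟨cmA_f2 hp htu ht, fun W hW x hx => ?_⟩
  have h1 := hW.m2 i hx (t := t) (by simpa using hgr) htu (by simpa using ht)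
  refine hW.pr h1 fun j => ?_
  by_cases hj : j = i
  · subst hj
    simp only [Function.update_self, pF2, f2]
    exact ⟨Pr.refl _, Pr.refl _⟩
  · simp only [pF2, Function.update_of_ne hj]
    exact ⟨Pr.refl _, Pr.refl _⟩

theorem qfwd_f3 (i i' : Fin g) (hi : (i' : ℕ) = i + 1) (m : ℕ)
    (p : (Mat r × Mat r) × (Mat r × Mat r)) (hp : UP p.1) (hp2 : UP p.2)
    (hgr : gram (e3 m p) ≠ 0) (t : Mat r) (htu : IsUnit t) (ht : Commute t (e3 m p))
    (W : Set (Tup g r)) (hW : MoveClosed W)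
    (x : Tup g r) (hx : Function.update (Function.update x i p.1) i' p.2 ∈ W) :
    Function.update (Function.update x i (f3 m p t).1) i' (f3 m p t).2 ∈ W := by
  have hne : i ≠ i' := fun h => by rw [h] at hi; omega
  have hPr : Pr (eF3 i i' m (Function.update (Function.update x i p.1) i' p.2)) (e3 m p) := by
    simp only [eF3, e3, Function.update_self, Function.update_of_ne hne]
    exact (((((Pr.refl _).mul (Pr.of_ringInverse hp.1)).mul (Pr.of_ringInverse hp.2)).mul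
      (Pr.refl _)).mul (Pr.refl _)).mul (Pr.refl _)
  have h1 := hW.m3 i i' hi m hx (t := t) (hPr.gram_ne hgr) htu (hPr.commute ht)
  refine hW.pr h1 fun j => ?_
  by_cases hj : j = i'
  · subst hj
    simp only [Function.update_self, pF3, f3, h2m]
    exact ⟨Pr.refl _, ((Pr.refl _).mul (Pr.of_ringInverse htu).symm).mul
      ((Pr.of_ringInverse (htu.mul hp2.1)).symm.pow m)⟩
  · by_cases hj' : j = i
    · subst hj'
      simp only [pF3, f3, Function.update_of_ne hj, Function.update_self]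
      exact ⟨Pr.refl _, Pr.refl _⟩
    · simp only [pF3, f3, Function.update_of_ne hj, Function.update_of_ne hj']
      exact ⟨Pr.refl _, Pr.refl _⟩

theorem qfwd_f4 (i i' : Fin g) (hi : (i' : ℕ) = i + 1) (m : ℕ)
    (p : (Mat r × Mat r) × (Mat r × Mat r)) (hp : UP p.1) (hp2 : UP p.2)
    (hgr : gram (e4 m p) ≠ 0) (t : Mat r) (htu : IsUnit t) (ht : Commute t (e4 m p))
    (W : Set (Tup g r)) (hW : MoveClosed W)
    (x : Tup g r) (hx : Function.update (Function.update x i p.1) i' p.2 ∈ W) :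
    Function.update (Function.update x i (f4 m p t).1) i' (f4 m p t).2 ∈ W := by
  have hne : i ≠ i' := fun h => by rw [h] at hi; omega
  have hPr : Pr (eF4 i i' m (Function.update (Function.update x i p.1) i' p.2)) (e4 m p) := by
    simp only [eF4, e4, Function.update_self, Function.update_of_ne hne]
    exact ((((Pr.of_ringInverse hp.1).mul (Pr.of_ringInverse hp.2)).mul
      (Pr.refl _)).mul (Pr.refl _)).mul (Pr.refl _)
  have h1 := hW.m4 i i' hi m hx (t := t) (hPr.gram_ne hgr) htu (hPr.commute ht)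
  refine hW.pr h1 fun j => ?_
  by_cases hj : j = i'
  · subst hj
    simp only [Function.update_self, pF4, f4, h2m]
    exact ⟨Pr.refl _, ((Pr.refl _).mul (Pr.of_ringInverse htu).symm).mul
      ((Pr.of_ringInverse (htu.mul hp2.1)).symm.pow m)⟩
  · by_cases hj' : j = i
    · subst hj'
      simp only [pF4, f4, Function.update_of_ne hj, Function.update_self]
      exact ⟨(Pr.refl _).mul (Pr.of_ringInverse htu).symm, Pr.refl _⟩
    · simp only [pF4, f4, Function.update_of_ne hj, Function.update_of_ne hj']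
      exact ⟨Pr.refl _, Pr.refl _⟩

theorem qrelL_f3 (i i' : Fin g) (hi : (i' : ℕ) = i + 1) (m : ℕ)
    (p : (Mat r × Mat r) × (Mat r × Mat r)) (hp : UP p.1) (hp2 : UP p.2)
    (hgr : gram (e3 m p) ≠ 0) (t : Mat r) (htu : IsUnit t) (ht : Commute t (e3 m p)) :
    QL i i' p (f3 m p t) := by
  refine ⟨cmA_f3 hp hp2 htu ht, fun W hW x hx => ?_⟩
  have he := e3_f3 hp hp2 htu ht
  have ht' : Commute (Ring.inverse t) (e3 m p) := by
    obtain ⟨u, rfl⟩ := htu
    rw [Ring.inverse_unit]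
    exact Commute.units_inv_left ht
  have h := qfwd_f3 i i' hi m (f3 m p t) ⟨hp.1, htu.mul hp.2⟩ (hp2.h2m htu)
    (by rw [he]; exact hgr) (Ring.inverse t) htu.ringInverse (by rw [he]; exact ht') W hW x hx
  rw [f3_rev hp2 htu] at h
  exact h

theorem qrelL_f4 (i i' : Fin g) (hi : (i' : ℕ) = i + 1) (m : ℕ)
    (p : (Mat r × Mat r) × (Mat r × Mat r)) (hp : UP p.1) (hp2 : UP p.2)
    (hgr : gram (e4 m p) ≠ 0) (t : Mat r) (htu : IsUnit t) (ht : Commute t (e4 m p)) :
    QL i i' p (f4 m p t) := by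
  refine ⟨cmA_f4 hp hp2 htu ht, fun W hW x hx => ?_⟩
  have he := e4_f4 hp hp2 htu ht
  have ht' : Commute (Ring.inverse t) (e4 m p) := by
    obtain ⟨u, rfl⟩ := htu
    rw [Ring.inverse_unit]
    exact Commute.units_inv_left ht
  have h := qfwd_f4 i i' hi m (f4 m p t) ⟨hp.1.mul htu.ringInverse, htu.mul hp.2⟩
    (hp2.h2m htu) (by rw [he]; exact hgr) (Ring.inverse t) htu.ringInverse
    (by rw [he]; exact ht') W hW x hx
  rw [f4_rev hp2 htu] at h
  exact h

theorem qflow1 (i : Fin g) (m k : ℕ) (p0 : Mat r × Mat r) (hp : UP p0)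
    (hgr : gram (e1 m p0) ≠ 0) :
    ∃ β : Mat r, IsFlow (QF i) p0 (p0.1 * (e1 m p0) ^ k, β) := by
  refine isFlow_T1 m k p0 hp ?_
  have hc : ContinuousAt (fun p : Mat r × Mat r => e1 m p) p0 :=
    (cd_e1 (𝔸 := Mat r) (a := fun p : Mat r × Mat r => p.1) (b := fun p => p.2)
      contDiffAt_fst contDiffAt_snd m).continuousAt
  have h1 : ∀ᶠ q in 𝓝 (p0, (0 : ℂ)), UP q.1 := continuousAt_fst.eventually (eventually_UP hp)
  have h2 : ∀ᶠ q in 𝓝 (p0, (0 : ℂ)), gram (e1 m q.1) ≠ 0 := by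
    have : ContinuousAt (fun q : (Mat r × Mat r) × ℂ => gram (e1 m q.1)) (p0, 0) :=
      gram_continuous.continuousAt.comp (ContinuousAt.comp (g := fun p => e1 m p)
        (f := Prod.fst) hc continuousAt_fst)
    exact this.eventually_ne hgr
  filter_upwards [h1, h2, eventually_unit_t hc k] with q a b c
  exact qrelF_f1 i m q.1 a b _ c (commute_tk _ _ _)

theorem qflow2 (i : Fin g) (k : ℕ) (p0 : Mat r × Mat r) (hp : UP p0)
    (hgr : gram p0.1 ≠ 0) :
    IsFlow (QF i) p0 (0, p0.2 * p0.1 ^ k) := by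
  refine isFlow_T2 k p0 ?_
  have hc : ContinuousAt (fun p : Mat r × Mat r => p.1) p0 := continuousAt_fst
  have h1 : ∀ᶠ q in 𝓝 (p0, (0 : ℂ)), UP q.1 := continuousAt_fst.eventually (eventually_UP hp)
  have h2 : ∀ᶠ q in 𝓝 (p0, (0 : ℂ)), gram q.1.1 ≠ 0 := by
    have : ContinuousAt (fun q : (Mat r × Mat r) × ℂ => gram q.1.1) (p0, 0) :=
      gram_continuous.continuousAt.comp (ContinuousAt.comp (g := fun p : Mat r × Mat r => p.1)
        (f := Prod.fst) hc continuousAt_fst)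
    exact this.eventually_ne hgr
  filter_upwards [h1, h2, eventually_unit_t hc k] with q a b c
  exact qrelF_f2 i q.1 a b _ c (commute_tk _ _ _)

theorem qflow3 (i i' : Fin g) (hi : (i' : ℕ) = i + 1) (m k : ℕ)
    (q0 : (Mat r × Mat r) × (Mat r × Mat r)) (hp : UP q0.1) (hp2 : UP q0.2)
    (hgr : gram (e3 m q0) ≠ 0) :
    ∃ β : Mat r × Mat r, IsFlow (QL i i') q0 ((0, (e3 m q0) ^ k * q0.1.2), β) := by
  refine isFlow_T3 m k q0 hp hp2 ?_
  have hc : ContinuousAt (fun p : (Mat r × Mat r) × (Mat r × Mat r) => e3 m p) q0 :=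
    (cd_e3 (𝔸 := Mat r) (E := (Mat r × Mat r) × (Mat r × Mat r))
      (a := fun p => p.1.1) (b := fun p => p.1.2)
      (a' := fun p => p.2.1) (b' := fun p => p.2.2)
      contDiffAt_fst.fst contDiffAt_fst.snd contDiffAt_snd.fst contDiffAt_snd.snd m
      hp.1 hp.2).continuousAt
  have h1 : ∀ᶠ q in 𝓝 (q0, (0 : ℂ)), UP q.1.1 := by
    have : ∀ᶠ q in 𝓝 q0, UP q.1 := continuousAt_fst.eventually (eventually_UP hp)
    have hc : ContinuousAt (fun q : ((Mat r × Mat r) × (Mat r × Mat r)) × ℂ => q.1) (q0, 0) :=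
      continuousAt_fst
    exact hc.eventually this
  have h1' : ∀ᶠ q in 𝓝 (q0, (0 : ℂ)), UP q.1.2 := by
    have : ∀ᶠ q in 𝓝 q0, UP q.2 := continuousAt_snd.eventually (eventually_UP hp2)
    have hc : ContinuousAt (fun q : ((Mat r × Mat r) × (Mat r × Mat r)) × ℂ => q.1) (q0, 0) :=
      continuousAt_fst
    exact hc.eventually this
  have h2 : ∀ᶠ q in 𝓝 (q0, (0 : ℂ)), gram (e3 m q.1) ≠ 0 := by
    have : ContinuousAt (fun q : ((Mat r × Mat r) × (Mat r × Mat r)) × ℂ => gram (e3 m q.1))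
        (q0, 0) :=
      gram_continuous.continuousAt.comp (ContinuousAt.comp (g := fun p => e3 m p)
        (f := Prod.fst) hc continuousAt_fst)
    exact this.eventually_ne hgr
  filter_upwards [h1, h1', h2, eventually_unit_t hc k] with q a a' b c
  exact qrelL_f3 i i' hi m q.1 a a' b _ c (commute_tk _ _ _)

theorem qflow4 (i i' : Fin g) (hi : (i' : ℕ) = i + 1) (m k : ℕ)
    (q0 : (Mat r × Mat r) × (Mat r × Mat r)) (hp : UP q0.1) (hp2 : UP q0.2)
    (hgr : gram (e4 m q0) ≠ 0) :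
    ∃ β : Mat r × Mat r, IsFlow (QL i i') q0
      ((-(q0.1.1 * (e4 m q0) ^ k), (e4 m q0) ^ k * q0.1.2), β) := by
  refine isFlow_T4 m k q0 hp hp2 ?_
  have hc : ContinuousAt (fun p : (Mat r × Mat r) × (Mat r × Mat r) => e4 m p) q0 :=
    (cd_e4 (𝔸 := Mat r) (E := (Mat r × Mat r) × (Mat r × Mat r))
      (a := fun p => p.1.1) (b := fun p => p.1.2)
      (a' := fun p => p.2.1) (b' := fun p => p.2.2)
      contDiffAt_fst.fst contDiffAt_fst.snd contDiffAt_snd.fst contDiffAt_snd.snd m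
      hp.1 hp.2).continuousAt
  have h1 : ∀ᶠ q in 𝓝 (q0, (0 : ℂ)), UP q.1.1 := by
    have : ∀ᶠ q in 𝓝 q0, UP q.1 := continuousAt_fst.eventually (eventually_UP hp)
    have hc : ContinuousAt (fun q : ((Mat r × Mat r) × (Mat r × Mat r)) × ℂ => q.1) (q0, 0) :=
      continuousAt_fst
    exact hc.eventually this
  have h1' : ∀ᶠ q in 𝓝 (q0, (0 : ℂ)), UP q.1.2 := by
    have : ∀ᶠ q in 𝓝 q0, UP q.2 := continuousAt_snd.eventually (eventually_UP hp2)
    have hc : ContinuousAt (fun q : ((Mat r × Mat r) × (Mat r × Mat r)) × ℂ => q.1) (q0, 0) :=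
      continuousAt_fst
    exact hc.eventually this
  have h2 : ∀ᶠ q in 𝓝 (q0, (0 : ℂ)), gram (e4 m q.1) ≠ 0 := by
    have : ContinuousAt (fun q : ((Mat r × Mat r) × (Mat r × Mat r)) × ℂ => gram (e4 m q.1))
        (q0, 0) :=
      gram_continuous.continuousAt.comp (ContinuousAt.comp (g := fun p => e4 m p)
        (f := Prod.fst) hc continuousAt_fst)
    exact this.eventually_ne hgr
  filter_upwards [h1, h1', h2, eventually_unit_t hc k] with q a a' b c
  exact qrelL_f4 i i' hi m q.1 a a' b _ c (commute_tk _ _ _)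

end rel

end Vale.Agent.P002
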