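import Vale.Agent.P002.Units
import Vale.Agent.P002.KeyChar

namespace Vale.Agent.P002

open Matrix NumberField

theorem unit_density {L : Type*} [Field L] [NumberField L] (φ : L →+* ℂ)
    (hφ : ¬ ComplexEmbedding.IsReal φ) (w : InfinitePlace L) (hw : w ≠ InfinitePlace.mk φ)
    {r : ℕ} (c : Matrix (Fin r) (Fin r) (𝓞 L)) (h : Mat r) (hh : IsUnit h.det)
    (lam : Fin r → ℂ) (hlam : Function.Injective lam)
    (hc : emb φ c = h * diagonal lam * h⁻¹)
    (F : Mat r → ℂ) (hF : F ∈ PolyFun (Mat r))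
    (hv : ∀ t : SpecialLinearGroup (Fin r) (𝓞 L), Commute (t : Matrix (Fin r) (Fin r) (𝓞 L)) c →
      ∀ κ : ℂ, κ ≠ 0 → F (κ • emb φ t) = 0)
    (t : Mat r) (ht : Commute t (emb φ c)) : F t = 0 :=
  unit_density_of_key φ c h hh lam hlam hc
    (fun n hn => key_char φ hφ w hw c h hh lam hlam hc n hn) F hF hv t ht

end Vale.Agent.P002
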