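import Vale.Agent.P002.Spectral
import Vale.Agent.P002.UnitDensity

namespace Vale.Agent.P002

open Matrix NumberField

section closure
variable {L : Type*} [Field L] [NumberField L] (φ : L →+* ℂ) {g r : ℕ}

theorem cone_subset_WW {x : Tup g r} (hx : x ∈ Cone φ g r) : x ∈ WW φ g r :=
  fun _ _ h => h x hx

theorem WW_of_cone_cond {T : Tup g r → Tup g r} (hT : PolyMap T) {δ : Tup g r → ℂ}
    (hδ : δ ∈ PolyFun (Tup g r)) (h : ∀ c ∈ Cone φ g r, δ c ≠ 0 → T c ∈ WW φ g r)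
    {x : Tup g r} (hx : x ∈ WW φ g r) (hδx : δ x ≠ 0) : T x ∈ WW φ g r := by
  intro f hf hfc
  have := hx (fun y => δ y * f (T y)) (polyFun_mul hδ (polyFun_comp hf hT)) (fun c hc => by
    by_cases h0 : δ c = 0
    · simp [h0]
    · simp only [h c hc h0 f hf hfc, mul_zero])
  exact (mul_eq_zero.mp this).resolve_left hδx

theorem WW_scale {x : Tup g r} (hx : x ∈ WW φ g r) (κ μ : Fin g → ℂ) (hκ : ∀ i, κ i ≠ 0)
    (hμ : ∀ i, μ i ≠ 0) : (fun i => (κ i • (x i).1, μ i • (x i).2)) ∈ WW φ g r := by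
  refine WW_of_cone_cond φ (T := fun x : Tup g r => fun i => (κ i • (x i).1, μ i • (x i).2))
    ?_ (polyFun_const 1) ?_ hx one_ne_zero
  · refine polyMap_pi fun i => polyMap_prodMk ?_ ?_
    · exact polyMap_smul (polyFun_const (κ i)) (polyMap_fst (polyMap_apply polyMap_id i))
    · exact polyMap_smul (polyFun_const (μ i)) (polyMap_snd (polyMap_apply polyMap_id i))
  · rintro c ⟨σ, hσ, κ', μ', hκ', hμ', hc⟩ -
    refine cone_subset_WW φ ⟨σ, hσ, fun i => κ i * κ' i, fun i => μ i * μ' i,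
      fun i => mul_ne_zero (hκ i) (hκ' i), fun i => mul_ne_zero (hμ i) (hμ' i), fun i => ?_⟩
    simp only [hc i, smul_smul]

theorem WW_scale_iff {x : Tup g r} (κ μ : Fin g → ℂ) (hκ : ∀ i, κ i ≠ 0)
    (hμ : ∀ i, μ i ≠ 0) :
    (fun i => (κ i • (x i).1, μ i • (x i).2)) ∈ WW φ g r ↔ x ∈ WW φ g r := by
  refine ⟨fun h => ?_, fun h => WW_scale φ h κ μ hκ hμ⟩
  have := WW_scale φ h (fun i => (κ i)⁻¹) (fun i => (μ i)⁻¹) (fun i => inv_ne_zero (hκ i))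
    (fun i => inv_ne_zero (hμ i))
  convert this using 1
  ext1 i
  simp [smul_smul, inv_mul_cancel₀ (hκ i), inv_mul_cancel₀ (hμ i)]

theorem emb_pow (A : Matrix (Fin r) (Fin r) (𝓞 L)) (n : ℕ) : emb φ (A ^ n) = emb φ A ^ n := by
  unfold emb; exact Matrix.map_pow _ _ _

theorem emb_adjugate (A : Matrix (Fin r) (Fin r) (𝓞 L)) :
    emb φ A.adjugate = (emb φ A).adjugate := by
  unfold emb
  exact RingHom.map_adjugate _ _

theorem twist_mem (hφ : ¬ ComplexEmbedding.IsReal φ) (w : InfinitePlace L)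
    (hw : w ≠ InfinitePlace.mk φ) {e : Tup g r → Mat r} (he : PolyMap e)
    {T : Tup g r × Mat r → Tup g r} (hT : PolyMap T)
    (hcone : ∀ c ∈ Cone φ g r, ∃ (E : Matrix (Fin r) (Fin r) (𝓞 L)) (s : ℂ), s ≠ 0 ∧
      e c = s • emb φ E ∧ ∀ t : SpecialLinearGroup (Fin r) (𝓞 L), Commute t.1 E →
        ∀ κ : ℂ, κ ≠ 0 → T (c, κ • emb φ t.1) ∈ Cone φ g r)
    {x : Tup g r} (hx : x ∈ WW φ g r) (hgr : gram (e x) ≠ 0) {t : Mat r}
    (ht : Commute t (e x)) : T (x, t) ∈ WW φ g r := by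
  obtain ⟨f, hf⟩ := exists_poly_of_commute (e x) hgr t ht
  have hS : PolyMap (fun y : Tup g r => ∑ j : Fin r, f j • (e y) ^ (j : ℕ)) :=
    polyMap_sum _ fun j _ => polyMap_smul (polyFun_const (f j)) (polyMap_pow he _)
  have key := WW_of_cone_cond φ (T := fun y => T (y, ∑ j : Fin r, f j • (e y) ^ (j : ℕ)))
    (polyMap_comp hT (polyMap_prodMk polyMap_id hS)) (gram_polyFun he) ?_ hx hgr
  · rw [hf]; exact key
  · intro c hc hgc
    obtain ⟨E, s, hs, hes, htw⟩ := hcone c hc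
    intro F hF hFc
    obtain ⟨h, lam, hh, hl, hd⟩ := exists_diag_of_gram_ne_zero (e c) hgc
    have hE : emb φ E = h * diagonal (fun i => s⁻¹ * lam i) * h⁻¹ := by
      have h1 : emb φ E = s⁻¹ • e c := by
        rw [hes, smul_smul, inv_mul_cancel₀ hs, one_smul]
      rw [h1, hd]
      have : diagonal (fun i => s⁻¹ * lam i) = s⁻¹ • diagonal lam := by
        ext i j
        by_cases hij : i = j
        · subst hij; simp
        · simp [hij]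
      rw [this, Algebra.mul_smul_comm, Algebra.smul_mul_assoc]
    refine unit_density φ hφ w hw E h hh (fun i => s⁻¹ * lam i)
      (fun i j hij => hl (mul_left_cancel₀ (inv_ne_zero hs) hij)) hE
      (fun t => F (T (c, t))) ?_ ?_ _ ?_
    · exact polyFun_comp hF (polyMap_comp hT (polyMap_prodMk (polyMap_const c) polyMap_id))
    · intro t ht κ hκ
      exact hFc _ (htw t ht κ hκ)
    · have hc1 : Commute (∑ j : Fin r, f j • (e c) ^ (j : ℕ)) (e c) := by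
        refine Commute.sum_left _ _ _ fun j _ => ?_
        exact (Commute.pow_left (Commute.refl _) _).smul_left _
      have h1 : emb φ E = s⁻¹ • e c := by
        rw [hes, smul_smul, inv_mul_cancel₀ hs, one_smul]
      rw [h1]
      exact hc1.smul_right _

end closure

section lists

theorem list_prod_adj {M : Type*} [Monoid M] : ∀ (g : ℕ) (c c' : Fin g → M) (i : ℕ)
    (hi : i + 1 < g), (∀ j : Fin g, (j : ℕ) ≠ i → (j : ℕ) ≠ i + 1 → c' j = c j) →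
    c' ⟨i, by omega⟩ * c' ⟨i + 1, hi⟩ = c ⟨i, by omega⟩ * c ⟨i + 1, hi⟩ →
    (List.ofFn c').prod = (List.ofFn c).prod
  | 0, _, _, _, hi, _, _ => by omega
  | 1, _, _, _, hi, _, _ => by omega
  | g + 2, c, c', 0, hi, h1, h2 => by
    rw [List.ofFn_succ, List.ofFn_succ, List.ofFn_succ (f := c), List.ofFn_succ (f := fun i => c i.succ)]
    simp only [List.prod_cons, ← mul_assoc]
    have h3 : (fun i : Fin g => c' i.succ.succ) = fun i : Fin g => c i.succ.succ := by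
      funext j
      exact h1 _ (by simp) (by simp)
    have h4 : c' 0 * c' (Fin.succ 0) = c 0 * c (Fin.succ 0) := h2
    rw [h4, h3]
  | g + 2, c, c', i + 1, hi, h1, h2 => by
    rw [List.ofFn_succ, List.ofFn_succ (f := c), List.prod_cons, List.prod_cons]
    have h0 : c' 0 = c 0 := h1 0 (by simp) (by simp)
    rw [h0, list_prod_adj (g + 1) (fun j => c j.succ) (fun j => c' j.succ) i (by omega)
      (fun j hj1 hj2 => h1 _ (by simpa using hj1) (by simpa using hj2)) h2]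

end lists

section grp
variable {G : Type*} [Group G]

theorem grp_F1 (a b t : G) (m : ℕ) (ht : Commute t (b * a ^ m)) :
    (a * t) * (b * a ^ m * (a * t)⁻¹ ^ m) * (a * t)⁻¹ * (b * a ^ m * (a * t)⁻¹ ^ m)⁻¹ =
      a * b * a⁻¹ * b⁻¹ := by
  have h1 : (a * t)⁻¹ ^ m * (a * t)⁻¹ = (a * t)⁻¹ * (a * t)⁻¹ ^ m := by
    rw [← pow_succ, pow_succ']
  have h2 : t * (b * a ^ m) * t⁻¹ = b * a ^ m := by rw [ht.eq]; group
  calc (a * t) * (b * a ^ m * (a * t)⁻¹ ^ m) * (a * t)⁻¹ * (b * a ^ m * (a * t)⁻¹ ^ m)⁻¹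
      = a * t * (b * a ^ m) * ((a * t)⁻¹ ^ m * (a * t)⁻¹) * ((a * t)⁻¹ ^ m)⁻¹ * (b * a ^ m)⁻¹ := by
        simp only [_root_.mul_inv_rev, mul_assoc]
    _ = a * t * (b * a ^ m) * ((a * t)⁻¹) * (b * a ^ m)⁻¹ := by
        rw [h1]; simp only [mul_assoc, mul_inv_cancel_left]
    _ = a * (t * (b * a ^ m) * t⁻¹) * a⁻¹ * (b * a ^ m)⁻¹ := by
        simp only [_root_.mul_inv_rev, mul_assoc]
    _ = a * (b * a ^ m) * a⁻¹ * (b * a ^ m)⁻¹ := by rw [h2]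
    _ = a * b * (a ^ m * a⁻¹ * (a ^ m)⁻¹) * b⁻¹ := by simp only [_root_.mul_inv_rev, mul_assoc]
    _ = _ := by
        have : a ^ m * a⁻¹ * (a ^ m)⁻¹ = a⁻¹ := by
          rw [← (Commute.refl a).pow_right m |>.inv_left.eq]; group
        rw [this]

theorem grp_F2 (a b t : G) (ht : Commute t a) :
    a * (b * t) * a⁻¹ * (b * t)⁻¹ = a * b * a⁻¹ * b⁻¹ := by
  have h : t * a⁻¹ * t⁻¹ = a⁻¹ := by rw [ht.inv_right.eq]; group
  calc a * (b * t) * a⁻¹ * (b * t)⁻¹ = a * b * (t * a⁻¹ * t⁻¹) * b⁻¹ := by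
        simp only [_root_.mul_inv_rev, mul_assoc]
    _ = _ := by rw [h]

theorem grp_conj (a b : G) (m : ℕ) :
    a * (b * a ^ m) * a⁻¹ * (b * a ^ m)⁻¹ = a * b * a⁻¹ * b⁻¹ := by
  have := grp_F1 a b 1 m (Commute.one_left _)
  have h1 : a ^ m * a⁻¹ * (a ^ m)⁻¹ = a⁻¹ := by
    rw [← (Commute.refl a).pow_right m |>.inv_left.eq]; group
  calc a * (b * a ^ m) * a⁻¹ * (b * a ^ m)⁻¹ = a * b * (a ^ m * a⁻¹ * (a ^ m)⁻¹) * b⁻¹ := by
        simp only [_root_.mul_inv_rev, mul_assoc]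
    _ = _ := by rw [h1]

theorem grp_handle2 (a b t : G) (m : ℕ) :
    (t * a) * (b * a ^ m * t⁻¹ * (t * a)⁻¹ ^ m) * (t * a)⁻¹ *
      (b * a ^ m * t⁻¹ * (t * a)⁻¹ ^ m)⁻¹ =
    t * a * (b * a ^ m) * t⁻¹ * a⁻¹ * (b * a ^ m)⁻¹ := by
  have h := grp_conj (t * a) (b * a ^ m * t⁻¹ * (t * a)⁻¹ ^ m) m
  rw [← h]
  have h2 : b * a ^ m * t⁻¹ * (t * a)⁻¹ ^ m * (t * a) ^ m = b * a ^ m * t⁻¹ := by
    rw [mul_assoc, inv_pow, inv_mul_cancel, mul_one]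
  rw [h2]
  simp only [_root_.mul_inv_rev, inv_inv, mul_assoc, inv_mul_cancel_left, mul_inv_cancel_left]

theorem grp_F3 (a1 b1 a2 b2 t : G) (m : ℕ)
    (ht : Commute t (b1 * a1⁻¹ * b1⁻¹ * a2 * b2 * a2 ^ m)) :
    (a1 * (t * b1) * a1⁻¹ * (t * b1)⁻¹) *
      ((t * a2) * (b2 * a2 ^ m * t⁻¹ * (t * a2)⁻¹ ^ m) * (t * a2)⁻¹ *
      (b2 * a2 ^ m * t⁻¹ * (t * a2)⁻¹ ^ m)⁻¹) =
    (a1 * b1 * a1⁻¹ * b1⁻¹) * (a2 * b2 * a2⁻¹ * b2⁻¹) := by
  rw [grp_handle2, ← grp_conj a2 b2 m]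
  have h : t * (b1 * a1⁻¹ * b1⁻¹ * a2 * b2 * a2 ^ m) * t⁻¹ =
      b1 * a1⁻¹ * b1⁻¹ * a2 * b2 * a2 ^ m := by rw [ht.eq]; group
  calc a1 * (t * b1) * a1⁻¹ * (t * b1)⁻¹ * (t * a2 * (b2 * a2 ^ m) * t⁻¹ * a2⁻¹ * (b2 * a2 ^ m)⁻¹)
      = a1 * (t * (b1 * a1⁻¹ * b1⁻¹ * a2 * b2 * a2 ^ m) * t⁻¹) * a2⁻¹ * (b2 * a2 ^ m)⁻¹ := by
        simp only [_root_.mul_inv_rev, mul_assoc, inv_mul_cancel_left]
    _ = _ := by rw [h]; simp only [mul_assoc]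

theorem grp_F4 (a1 b1 a2 b2 t : G) (m : ℕ)
    (ht : Commute t (a1⁻¹ * b1⁻¹ * a2 * b2 * a2 ^ m)) :
    ((a1 * t⁻¹) * (t * b1) * (a1 * t⁻¹)⁻¹ * (t * b1)⁻¹) *
      ((t * a2) * (b2 * a2 ^ m * t⁻¹ * (t * a2)⁻¹ ^ m) * (t * a2)⁻¹ *
      (b2 * a2 ^ m * t⁻¹ * (t * a2)⁻¹ ^ m)⁻¹) =
    (a1 * b1 * a1⁻¹ * b1⁻¹) * (a2 * b2 * a2⁻¹ * b2⁻¹) := by
  rw [grp_handle2, ← grp_conj a2 b2 m]
  have h : t * (a1⁻¹ * b1⁻¹ * a2 * b2 * a2 ^ m) * t⁻¹ =
      a1⁻¹ * b1⁻¹ * a2 * b2 * a2 ^ m := by rw [ht.eq]; group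
  calc a1 * t⁻¹ * (t * b1) * (a1 * t⁻¹)⁻¹ * (t * b1)⁻¹ *
        (t * a2 * (b2 * a2 ^ m) * t⁻¹ * a2⁻¹ * (b2 * a2 ^ m)⁻¹)
      = a1 * b1 * (t * (a1⁻¹ * b1⁻¹ * a2 * b2 * a2 ^ m) * t⁻¹) * a2⁻¹ * (b2 * a2 ^ m)⁻¹ := by
        simp only [_root_.mul_inv_rev, mul_assoc, inv_mul_cancel_left, inv_inv]
    _ = _ := by rw [h]; simp only [mul_assoc]

end grp

end Vale.Agent.P002
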