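import Vale.Agent.P002.PProd

namespace Vale.Agent.P002

open Matrix

section quot

theorem conjM_pow_eq_one {n : Type} [Fintype n] [DecidableEq n] {A B : Matrix n n ℂ} {m : ℕ}
    (h : ConjM A B) (hB : B ^ m = 1) : A ^ m = 1 := by
  obtain ⟨x, hu, rfl⟩ := h.symm
  have h1 : ∀ k : ℕ, (x * B * x⁻¹) ^ k = x * B ^ k * x⁻¹ := by
    intro k
    induction k with
    | zero => rw [pow_zero, pow_zero, mul_one, Matrix.mul_nonsing_inv _ hu]
    | succ k ih =>
      rw [pow_succ, ih, pow_succ]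
      simp only [mul_assoc]
      rw [← mul_assoc x⁻¹ x, Matrix.nonsing_inv_mul _ hu, one_mul]
  rw [h1, hB, mul_one, Matrix.mul_nonsing_inv _ hu]

theorem isRoot_eigen {n : Type} [Fintype n] [DecidableEq n] {A : Matrix n n ℂ} {μ : ℂ}
    (h : A.charpoly.IsRoot μ) : ∃ v : n → ℂ, v ≠ 0 ∧ A.mulVec v = μ • v := by
  rw [Polynomial.IsRoot, Matrix.eval_charpoly] at h
  obtain ⟨v, hv, hv1⟩ := Matrix.exists_mulVec_eq_zero_iff.mpr h
  refine ⟨v, hv, ?_⟩
  rw [Matrix.sub_mulVec, sub_eq_zero] at hv1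
  rw [← hv1]
  ext i
  simp [Matrix.scalar_apply, Matrix.mulVec_diagonal]

theorem qu_of_pow_eq_one {n : Type} [Fintype n] [DecidableEq n] {A : Matrix n n ℂ} {m : ℕ}
    (h : A ^ m = 1) : QU m A := by
  intro μ hμ
  obtain ⟨v, hv, hv1⟩ := isRoot_eigen hμ
  have h1 : ∀ k : ℕ, (A ^ k).mulVec v = μ ^ k • v := by
    intro k
    induction k with
    | zero => simp
    | succ k ih =>
      rw [pow_succ', ← Matrix.mulVec_mulVec, ih, Matrix.mulVec_smul, hv1, smul_smul, pow_succ]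
  have h2 := h1 m
  rw [h, Matrix.one_mulVec] at h2
  have h3 : (1 - μ ^ m) • v = 0 := by rw [sub_smul, one_smul, ← h2, sub_self]
  rcases smul_eq_zero.mp h3 with h4 | h4
  · exact (sub_eq_zero.mp h4).symm
  · exact absurd h4 hv

theorem QU.of_dvd {n : Type} [Fintype n] [DecidableEq n] {A : Matrix n n ℂ} {m m' : ℕ}
    (h : QU m A) (hd : m ∣ m') : QU m' A := by
  obtain ⟨d, rfl⟩ := hd
  intro μ hμ
  rw [pow_mul, h μ hμ, one_pow]

variable {Γ Γ' : Type} [Group Γ] [Group Γ'] {J J' : Type} [Fintype J]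

/-- pulling back representations -/
def pull (p : Γ →* Γ') {K : ℕ} {a : Fin K → ℕ} (W : Fam Γ' a) : Fam Γ a := fun k => (W k).comp p

theorem irr_pull (p : Γ →* Γ') (hp : Function.Surjective p) {n : Type} [Fintype n] [DecidableEq n]
    (W : Γ' →* Matrix n n ℂ) : Irr (W.comp p) ↔ Irr W := by
  unfold Irr
  refine and_congr_right fun _ => forall_congr' fun V => ?_
  have : (∀ γ, ∀ v ∈ V, ((W.comp p) γ).mulVec v ∈ V) ↔ (∀ γ, ∀ v ∈ V, (W γ).mulVec v ∈ V) := by
    constructor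
    · intro h γ v hv
      obtain ⟨γ, rfl⟩ := hp γ
      exact h γ v hv
    · intro h γ v hv
      exact h _ v hv
  rw [this]

theorem eqv_pull (p : Γ →* Γ') (hp : Function.Surjective p) {n : Type} [Fintype n] [DecidableEq n]
    (W W' : Γ' →* Matrix n n ℂ) : Eqv (W.comp p) (W'.comp p) ↔ Eqv W W' := by
  constructor
  · rintro ⟨h, hh, h1⟩
    refine ⟨h, hh, fun γ => ?_⟩
    obtain ⟨γ, rfl⟩ := hp γ
    exact h1 γ
  · rintro ⟨h, hh, h1⟩
    exact ⟨h, hh, fun γ => h1 _⟩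

theorem detC_pull (p : Γ →* Γ') (hp : Function.Surjective p) {K : ℕ} {a : Fin K → ℕ}
    (m : Fin K → ℕ) (W : Fam Γ' a) : DetC m (pull p W) ↔ DetC m W := by
  constructor
  · intro h γ
    obtain ⟨γ, rfl⟩ := hp γ
    exact h γ
  · intro h γ
    exact h _

theorem rf_pull (p : Γ →* Γ') (hp : Function.Surjective p) {K : ℕ} {a : Fin K → ℕ}
    {P : Fam Γ' a → ℂ} (hP : P ∈ RF Γ' a) : ∃ Q ∈ RF Γ a, ∀ W, Q (pull p W) = P W := by
  induction hP using Algebra.adjoin_induction with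
  | mem f hf =>
    obtain ⟨k, γ, i, j, rfl⟩ := hf
    obtain ⟨γ, rfl⟩ := hp γ
    exact ⟨fun W => W k γ i j, Algebra.subset_adjoin ⟨k, γ, i, j, rfl⟩, fun W => rfl⟩
  | algebraMap r => exact ⟨algebraMap ℂ _ r, Subalgebra.algebraMap_mem _ _, fun W => rfl⟩
  | add f g _ _ hf hg =>
    obtain ⟨Q1, h1, h1'⟩ := hf
    obtain ⟨Q2, h2, h2'⟩ := hg
    exact ⟨Q1 + Q2, add_mem h1 h2, fun W => by rw [Pi.add_apply, Pi.add_apply, h1', h2']⟩
  | mul f g _ _ hf hg =>
    obtain ⟨Q1, h1, h1'⟩ := hf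
    obtain ⟨Q2, h2, h2'⟩ := hg
    exact ⟨Q1 * Q2, mul_mem h1 h2, fun W => by rw [Pi.mul_apply, Pi.mul_apply, h1', h2']⟩

/-- potential density for a quotient by powers of the marked elements -/
theorem pd_quot (p : Γ →* Γ') (hp : Function.Surjective p) (c : J → Γ) (c' : J' → Γ') (m : J → ℕ)
    (fac : ∀ (G : Type) [Group G] (f : Γ →* G), (∀ j, f (c j) ^ m j = 1) →
      ∃ f' : Γ' →* G, f'.comp p = f)
    (hm : ∀ j, p (c j) ^ m j = 1) (hJ : ∀ j, m j = 0 → ∃ j', c' j' = p (c j))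
    (hJ' : ∀ j', ∃ j, p (c j) = c' j') (h : PD c) : PD c' := by
  classical
  intro K a μ M hμ hM
  set t : J → ℕ := fun j => if m j = 0 then 1 else m j with ht
  have ht0 : ∀ j, 0 < t j := fun j => by
    simp only [ht]; split_ifs <;> omega
  set M' : ℕ := M * ∏ j, t j with hM'
  have hM'0 : 0 < M' := Nat.mul_pos hM (Finset.prod_pos fun j _ => ht0 j)
  obtain ⟨L, hfd, hL⟩ := h K a μ M' hμ hM'0
  refine ⟨L, hfd, ?_⟩
  intro V hV hdet hqu P hP hinv hv
  obtain ⟨Q, hQ, hQP⟩ := rf_pull p hp hP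
  have hfac : ∀ W : Fam Γ a, (∀ k j, ConjM (W k (c j)) (pull p V k (c j))) →
      ∃ W1 : Fam Γ' a, pull p W1 = W := by
    intro W hW
    have : ∀ k, ∃ W1 : Γ' →* Matrix (Fin (a k)) (Fin (a k)) ℂ, W1.comp p = W k := by
      intro k
      obtain ⟨f', hf'⟩ := fac (Matrix (Fin (a k)) (Fin (a k)) ℂ)ˣ (W k).toHomUnits (fun j => by
        apply Units.ext
        rw [Units.val_pow_eq_pow_val, Units.val_one]
        show (W k (c j)) ^ m j = 1
        refine conjM_pow_eq_one (hW k j) ?_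
        show (V k (p (c j))) ^ m j = 1
        rw [← map_pow, hm j, map_one])
      refine ⟨(Units.coeHom _).comp f', ?_⟩
      rw [MonoidHom.comp_assoc, hf']
      rfl
    choose W1 hW1 using this
    exact ⟨W1, funext fun k => hW1 k⟩
  rw [← hQP V]
  refine hL (pull p V) (fun k => (irr_pull p hp _).mpr (hV k)) ((detC_pull p hp μ V).mpr hdet) ?_
    Q hQ ?_ ?_
  · intro k j
    show QU M' (V k (p (c j)))
    by_cases hmj : m j = 0
    · obtain ⟨j', hj'⟩ := hJ j hmj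
      rw [← hj']
      exact (hqu k j').of_dvd (Dvd.intro _ rfl)
    · have h1 : QU (m j) (V k (p (c j))) := qu_of_pow_eq_one (by rw [← map_pow, hm j, map_one])
      refine h1.of_dvd ?_
      have h2 : t j = m j := by simp [ht, hmj]
      rw [← h2]
      exact (Finset.dvd_prod_of_mem t (Finset.mem_univ j)).trans (Dvd.intro_left _ rfl)
  · intro W W' hdW hcW hWW
    obtain ⟨W1, hW1⟩ := hfac W hcW
    obtain ⟨W1', hW1'⟩ := hfac W' (fun k j => ((hWW k).conjM (c j)).symm.trans (hcW k j))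
    subst hW1 hW1'
    rw [hQP, hQP]
    refine hinv W1 W1' ((detC_pull p hp μ W1).mp hdW) ?_ fun k => (eqv_pull p hp _ _).mp (hWW k)
    intro k j'
    obtain ⟨j, hj⟩ := hJ' j'
    rw [← hj]
    exact hcW k j
  · intro W hW hintW hdW hcW
    obtain ⟨W1, hW1⟩ := hfac W hcW
    subst hW1
    rw [hQP]
    refine hv W1 (fun k => (irr_pull p hp _).mp (hW k)) ?_ ((detC_pull p hp μ W1).mp hdW) ?_
    · intro k γ i j
      obtain ⟨γ, rfl⟩ := hp γ
      exact hintW k γ i j
    · intro k j'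
      obtain ⟨j, hj⟩ := hJ' j'
      rw [← hj]
      exact hcW k j

theorem pd_iso (φ : Γ ≃* Γ') (c : J → Γ) (c' : J' → Γ') (hJ : ∀ j, ∃ j', c' j' = φ (c j))
    (hJ' : ∀ j', ∃ j, φ (c j) = c' j') (h : PD c) : PD c' := by
  refine pd_quot φ.toMonoidHom φ.surjective c c' (fun _ => 0) ?_ (fun j => pow_zero _)
    (fun j _ => hJ j) hJ' h
  intro G _ f _
  exact ⟨f.comp φ.symm.toMonoidHom, by ext x; simp⟩

end quot

/-- the trivial group -/
theorem pd_subsingleton {Γ : Type} [Group Γ] [Subsingleton Γ] {J : Type} (c : J → Γ) : PD c := by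
  intro K a m M _ _
  refine ⟨⊥, inferInstance, ?_⟩
  intro V hV hdet hqu P hP hinv hv
  refine hv V hV ?_ hdet fun k j => ConjM.refl _
  intro k γ i j
  have h1 : V k γ = 1 := by rw [Subsingleton.elim γ 1, map_one]
  rw [h1, Matrix.one_apply]
  split_ifs
  · exact OInt.one
  · exact OInt.zero

/-- finite direct products -/
theorem pd_pi : ∀ (s : ℕ) (G : Fin s → Type) (_ : ∀ i, Group (G i)) (J : Fin s → Type)
    (_ : ∀ i, Fintype (J i)) (c : ∀ i, J i → G i), (∀ i, PD (c i)) →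
    PD (fun q : Σ i, J i => (Pi.mulSingle q.1 (c q.1 q.2) : ∀ i, G i))
  | 0, G, hG, J, hJ, c, h => pd_subsingleton _
  | s + 1, G, hG, J, hJ, c, h => by
    classical
    have h1 := pd_prod (h 0) (pd_pi s (fun i => G i.succ) (fun i => hG i.succ)
      (fun i => J i.succ) (fun i => hJ i.succ) (fun i => c i.succ) fun i => h i.succ)
    let φ : (G 0 × ∀ i : Fin s, G i.succ) ≃* (∀ i, G i) :=
      { toFun := fun x => Fin.cons x.1 x.2
        invFun := fun y => (y 0, fun i => y i.succ)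
        left_inv := fun x => by ext <;> rfl
        right_inv := fun y => by
          funext i
          refine Fin.cases ?_ (fun i => ?_) i <;> rfl
        map_mul' := fun x y => by
          funext i
          refine Fin.cases ?_ (fun i => ?_) i <;> rfl }
    have hφ0 : ∀ x : G 0, φ (x, 1) = Pi.mulSingle 0 x := by
      intro x
      funext i
      refine Fin.cases ?_ (fun i => ?_) i
      · rw [Pi.mulSingle_eq_same]; rfl
      · rw [Pi.mulSingle_eq_of_ne (Fin.succ_ne_zero i)]; rfl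
    have hφ1 : ∀ (i : Fin s) (x : G i.succ), φ (1, Pi.mulSingle i x) = Pi.mulSingle i.succ x := by
      intro i x
      funext j
      refine Fin.cases ?_ (fun j => ?_) j
      · rw [Pi.mulSingle_eq_of_ne (Fin.succ_ne_zero i).symm]; rfl
      · show (Pi.mulSingle i x : ∀ i : Fin s, G i.succ) j = _
        by_cases hij : j = i
        · subst hij
          rw [Pi.mulSingle_eq_same, Pi.mulSingle_eq_same]
        · rw [Pi.mulSingle_eq_of_ne hij, Pi.mulSingle_eq_of_ne (fun h => hij (Fin.succ_injective _ h))]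
    refine pd_iso φ _ _ ?_ ?_ h1
    · rintro (j | ⟨i, j⟩)
      · exact ⟨⟨0, j⟩, (hφ0 _).symm⟩
      · exact ⟨⟨i.succ, j⟩, (hφ1 _ _).symm⟩
    · rintro ⟨i, j⟩
      revert j
      refine Fin.cases ?_ (fun i => ?_) i
      · intro j
        exact ⟨Sum.inl j, hφ0 _⟩
      · intro j
        exact ⟨Sum.inr ⟨i, j⟩, hφ1 _ _⟩

end Vale.Agent.P002
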