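import Vale.Agent.P002.PDefs

namespace Vale.Agent.P002

open Matrix

section sums
variable {Γ : Type} [Group Γ] {K r : ℕ} {a : Fin K → ℕ}

/-- direct sum of representations -/
noncomputable def sumHom (e : (Σ k, Fin (a k)) ≃ Fin r) (W : Fam Γ a) :
    Γ →* Matrix (Fin r) (Fin r) ℂ where
  toFun γ := Matrix.reindex e e (Matrix.blockDiagonal' fun k => W k γ)
  map_one' := by
    have : (fun k => W k 1) = 1 := funext fun k => map_one (W k)
    rw [this, Matrix.blockDiagonal'_one]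
    simp
  map_mul' x y := by
    have : (fun k => W k (x * y)) = fun k => W k x * W k y := funext fun k => map_mul (W k) x y
    rw [this, Matrix.blockDiagonal'_mul]
    exact map_mul (Matrix.reindexAlgEquiv ℂ ℂ e) _ _

theorem sumHom_apply (e : (Σ k, Fin (a k)) ≃ Fin r) (W : Fam Γ a) (γ : Γ) :
    sumHom e W γ = Matrix.reindex e e (Matrix.blockDiagonal' fun k => W k γ) := rfl

theorem det_blockDiag (D : (k : Fin K) → Matrix (Fin (a k)) (Fin (a k)) ℂ) :
    (Matrix.blockDiagonal' D).det = ∏ k, (D k).det := by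
  rw [(Matrix.blockTriangular_blockDiagonal' D).det_fintype]
  refine Finset.prod_congr rfl fun k _ => ?_
  rw [← Matrix.det_submatrix_equiv_self (Equiv.sigmaSubtype k).symm]
  congr 1
  ext x y
  simp [Matrix.toSquareBlock, Matrix.toSquareBlockProp, Equiv.sigmaSubtype]

theorem sumHom_det (e : (Σ k, Fin (a k)) ≃ Fin r) (W : Fam Γ a) (γ : Γ) :
    (sumHom e W γ).det = ∏ k, (W k γ).det := by
  rw [sumHom_apply, Matrix.det_reindex_self, det_blockDiag]

theorem sumHom_conj (e : (Σ k, Fin (a k)) ≃ Fin r) {W W' : Fam Γ a} (γ : Γ)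
    (h : ∀ k, ConjM (W k γ) (W' k γ)) : ConjM (sumHom e W γ) (sumHom e W' γ) := by
  choose x hx hx' using h
  have hmul : ∀ A B : (k : Fin K) → Matrix (Fin (a k)) (Fin (a k)) ℂ,
      Matrix.reindex e e (Matrix.blockDiagonal' A) * Matrix.reindex e e (Matrix.blockDiagonal' B) =
      Matrix.reindex e e (Matrix.blockDiagonal' fun k => A k * B k) := by
    intro A B
    rw [Matrix.blockDiagonal'_mul]
    exact (map_mul (Matrix.reindexAlgEquiv ℂ ℂ e) _ _).symm
  have hone : Matrix.reindex e e (Matrix.blockDiagonal' fun k =>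
      (1 : Matrix (Fin (a k)) (Fin (a k)) ℂ)) = 1 := by
    have : (fun k => (1 : Matrix (Fin (a k)) (Fin (a k)) ℂ)) = 1 := rfl
    rw [this, Matrix.blockDiagonal'_one]
    simp
  have h1 : Matrix.reindex e e (Matrix.blockDiagonal' x) *
      Matrix.reindex e e (Matrix.blockDiagonal' fun k => (x k)⁻¹) = 1 := by
    rw [hmul, ← hone]
    congr 2
    funext k
    exact Matrix.mul_nonsing_inv _ (hx k)
  refine ⟨Matrix.reindex e e (Matrix.blockDiagonal' x), Matrix.isUnit_det_of_right_inverse h1, ?_⟩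
  rw [Matrix.inv_eq_right_inv h1, sumHom_apply, sumHom_apply, hmul, hmul]
  congr 2
  funext k
  exact hx' k

theorem sumHom_mulVec (e : (Σ k, Fin (a k)) ≃ Fin r) (W : Fam Γ a) (γ : Γ) (v : Fin r → ℂ)
    (k : Fin K) (x : Fin (a k)) :
    (sumHom e W γ).mulVec v (e ⟨k, x⟩) = (W k γ).mulVec (fun y => v (e ⟨k, y⟩)) x := by
  have h1 : ∀ p : Σ k, Fin (a k), sumHom e W γ (e ⟨k, x⟩) (e p) =
      Matrix.blockDiagonal' (fun k => W k γ) ⟨k, x⟩ p := by
    intro p
    rw [sumHom_apply, Matrix.reindex_apply, Matrix.submatrix_apply, Equiv.symm_apply_apply,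
      Equiv.symm_apply_apply]
  rw [Matrix.mulVec, dotProduct, ← Equiv.sum_comp e, Fintype.sum_sigma, Finset.sum_eq_single k]
  · simp only [h1, Matrix.blockDiagonal'_apply_eq]
    rfl
  · intro b _ hb
    refine Finset.sum_eq_zero fun y _ => ?_
    rw [h1, Matrix.blockDiagonal'_apply_ne _ _ _ hb.symm, zero_mul]
  · intro h; exact absurd (Finset.mem_univ k) h

/-- the blocks -/
def blk (e : (Σ k, Fin (a k)) ≃ Fin r) (k : Fin K) : Submodule ℂ (Fin r → ℂ) where
  carrier := {v | ∀ p : Σ k, Fin (a k), p.1 ≠ k → v (e p) = 0}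
  add_mem' := fun hu hv p hp => by rw [Pi.add_apply, hu p hp, hv p hp, add_zero]
  zero_mem' := fun _ _ => rfl
  smul_mem' := fun c v hv p hp => by rw [Pi.smul_apply, hv p hp, smul_zero]

theorem mem_blk {e : (Σ k, Fin (a k)) ≃ Fin r} {k : Fin K} {v : Fin r → ℂ} :
    v ∈ blk e k ↔ ∀ p : Σ k, Fin (a k), p.1 ≠ k → v (e p) = 0 := Iff.rfl

theorem blk_inv (e : (Σ k, Fin (a k)) ≃ Fin r) (W : Fam Γ a) (k : Fin K) (γ : Γ) (v : Fin r → ℂ)
    (hv : v ∈ blk e k) : (sumHom e W γ).mulVec v ∈ blk e k := by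
  rintro ⟨k', x⟩ hk
  rw [sumHom_mulVec]
  have : (fun y => v (e ⟨k', y⟩)) = 0 := funext fun y => hv ⟨k', y⟩ hk
  rw [this, Matrix.mulVec_zero]
  rfl

theorem blk_sup (e : (Σ k, Fin (a k)) ≃ Fin r) (V : Submodule ℂ (Fin r → ℂ))
    (h : ∀ k, blk e k ≤ V) : V = ⊤ := by
  rw [eq_top_iff]
  rintro v -
  have : v = ∑ k, fun i => if (e.symm i).1 = k then v i else 0 := by
    funext i
    rw [Finset.sum_apply]
    simp
  rw [this]
  refine Submodule.sum_mem _ fun k _ => h k ?_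
  intro p hp
  show (if (e.symm (e p)).1 = k then v (e p) else 0) = 0
  rw [Equiv.symm_apply_apply, if_neg hp]

theorem blk_irr (e : (Σ k, Fin (a k)) ≃ Fin r) (W : Fam Γ a) (k : Fin K) (hW : Irr (W k))
    (V : Submodule ℂ (Fin r → ℂ)) (hV : ∀ γ, ∀ v ∈ V, (sumHom e W γ).mulVec v ∈ V)
    (hVk : V ≤ blk e k) : V = ⊥ ∨ V = blk e k := by
  let res : (Fin r → ℂ) →ₗ[ℂ] (Fin (a k) → ℂ) := LinearMap.funLeft ℂ ℂ fun y => e ⟨k, y⟩
  have hres : ∀ v y, res v y = v (e ⟨k, y⟩) := fun v y => rfl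
  have hinj : ∀ u ∈ blk e k, ∀ v ∈ blk e k, res u = res v → u = v := by
    intro u hu v hv huv
    funext i
    obtain ⟨⟨k', x⟩, rfl⟩ := e.surjective i
    by_cases hk : k' = k
    · subst hk
      exact congrFun huv x
    · rw [hu ⟨k', x⟩ hk, hv ⟨k', x⟩ hk]
  rcases hW.2 (V.map res) (by
    rintro γ _ ⟨v, hv, rfl⟩
    refine ⟨(sumHom e W γ).mulVec v, hV γ v hv, ?_⟩
    funext x
    rw [hres, sumHom_mulVec]
    rfl) with h1 | h1
  · left
    rw [eq_bot_iff]
    intro v hv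
    have h2 : res v ∈ V.map res := ⟨v, hv, rfl⟩
    rw [h1, Submodule.mem_bot] at h2
    exact hinj v (hVk hv) 0 (Submodule.zero_mem _) (by rw [h2, map_zero])
  · right
    refine le_antisymm hVk fun u hu => ?_
    have h2 : res u ∈ V.map res := by rw [h1]; trivial
    obtain ⟨v, hv, hvu⟩ := h2
    rw [← hinj v (hVk hv) u hu hvu]
    exact hv

/-- direct sums of irreducible representations are semisimple -/
theorem sumHom_ss (e : (Σ k, Fin (a k)) ≃ Fin r) (W : Fam Γ a) (hW : ∀ k, Irr (W k)) :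
    SemiS (sumHom e W) := by
  classical
  intro V hV
  obtain ⟨s, hs, hmax⟩ := Finset.exists_maximal
    (s := (Finset.univ : Finset (Finset (Fin K))).filter fun s => Disjoint V (⨆ k ∈ s, blk e k))
    ⟨∅, by simp⟩
  have hsd : Disjoint V (⨆ k ∈ s, blk e k) := (Finset.mem_filter.mp hs).2
  have hinvs : ∀ γ, ∀ v ∈ (⨆ k ∈ s, blk e k), (sumHom e W γ).mulVec v ∈ ⨆ k ∈ s, blk e k := by
    intro γ
    have : (⨆ k ∈ s, blk e k) ≤ (⨆ k ∈ s, blk e k).comap (Matrix.mulVecLin (sumHom e W γ)) := by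
      refine iSup₂_le fun k hk v hv => ?_
      exact (le_iSup₂ (f := fun k (_ : k ∈ s) => blk e k) k hk) (blk_inv e W k γ v hv)
    exact fun v hv => this hv
  refine ⟨⨆ k ∈ s, blk e k, hinvs, hsd, ?_⟩
  rw [codisjoint_iff]
  refine blk_sup e _ fun k => ?_
  by_contra hk
  have h1 : blk e k ⊓ (V ⊔ ⨆ k ∈ s, blk e k) = ⊥ := by
    rcases blk_irr e W k (hW k) (blk e k ⊓ (V ⊔ ⨆ k ∈ s, blk e k)) (by
      rintro γ v ⟨hv1, hv2⟩
      refine ⟨blk_inv e W k γ v hv1, ?_⟩
      obtain ⟨x, hx, y, hy, rfl⟩ := Submodule.mem_sup.mp hv2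
      rw [Matrix.mulVec_add]
      exact Submodule.add_mem_sup (hV γ x hx) (hinvs γ y hy)) inf_le_left with h | h
    · exact h
    · exact absurd (inf_eq_left.mp h) hk
  have h2 : Disjoint (V ⊔ ⨆ k ∈ s, blk e k) (blk e k) := by
    rw [disjoint_comm, disjoint_iff, h1]
  have h3 : Disjoint V ((⨆ k ∈ s, blk e k) ⊔ blk e k) :=
    Disjoint.disjoint_sup_right_of_disjoint_sup_left hsd h2
  have hks : k ∉ s := fun h => hk ((le_iSup₂ (f := fun k (_ : k ∈ s) => blk e k) k h).trans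
    le_sup_right)
  have h4 : insert k s ∈ (Finset.univ : Finset (Finset (Fin K))).filter
      fun s => Disjoint V (⨆ k ∈ s, blk e k) := by
    rw [Finset.mem_filter]
    refine ⟨Finset.mem_univ _, ?_⟩
    rw [Finset.iSup_insert, sup_comm]
    exact h3
  exact hks (hmax h4 (Finset.subset_insert k s) (Finset.mem_insert_self k s))

end sums

end Vale.Agent.P002
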