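import Vale.Agent.P002.PIrr
import Vale.Agent.P002.PSumA

/-!
P002: a semisimple matrix representation is equivalent to a block diagonal one with irreducible blocks.
-/

namespace Vale.Agent.P002

open Matrix PIrr

namespace PSumD

section generic

variable {Γ : Type} [Group Γ] {A : Type} [Ring A] [Algebra ℂ A] (o : Γ →* A)

lemma smul_mem_of (hgen : ∀ x : A, x ∈ Submodule.span ℂ (Set.range o))
    {N : Type} [AddCommGroup N] [Module A N] [Module ℂ N]
    [IsScalarTower ℂ A N] (U : Submodule ℂ N)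
    (hU : ∀ γ, ∀ u ∈ U, o γ • u ∈ U) (x : A) (u : N) (hu : u ∈ U) : x • u ∈ U := by
  have hx := hgen x
  induction hx using Submodule.span_induction with
  | mem x hx1 =>
    obtain ⟨γ, rfl⟩ := hx1
    exact hU γ u hu
  | zero => rw [zero_smul]; exact U.zero_mem
  | add x y hx1 hy1 h1 h2 => rw [add_smul]; exact U.add_mem h1 h2
  | smul c x hx1 h1 => rw [smul_assoc]; exact U.smul_mem c h1

/-- an invariant subspace as a submodule over the algebra -/
def toSub (hgen : ∀ x : A, x ∈ Submodule.span ℂ (Set.range o))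
    {N : Type} [AddCommGroup N] [Module A N] [Module ℂ N]
    [IsScalarTower ℂ A N] (U : Submodule ℂ N)
    (hU : ∀ γ, ∀ u ∈ U, o γ • u ∈ U) : Submodule A N where
  carrier := U
  add_mem' := fun h1 h2 => U.add_mem h1 h2
  zero_mem' := U.zero_mem
  smul_mem' := fun x u hu => smul_mem_of o hgen U hU x u hu

/-- matrix representation on a module with a basis -/
noncomputable def repOf {N : Type} [AddCommGroup N] [Module A N] [Module ℂ N]
    [IsScalarTower ℂ A N] {m : ℕ} (b : Module.Basis (Fin m) ℂ N) :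
    Γ →* Matrix (Fin m) (Fin m) ℂ :=
  ((LinearMap.toMatrixAlgEquiv b : _ ≃ₐ[ℂ] _) : _ →* Matrix (Fin m) (Fin m) ℂ).comp
    (((Algebra.lsmul ℂ ℂ N : A →ₐ[ℂ] Module.End ℂ N) : A →* Module.End ℂ N).comp o)

lemma repOf_apply {N : Type} [AddCommGroup N] [Module A N] [Module ℂ N]
    [IsScalarTower ℂ A N] {m : ℕ} (b : Module.Basis (Fin m) ℂ N) (γ : Γ) (i j : Fin m) :
    repOf o b γ i j = b.repr (o γ • b j) i := by
  unfold repOf
  simp [LinearMap.toMatrixAlgEquiv_apply]

lemma smul_basis {N : Type} [AddCommGroup N] [Module A N] [Module ℂ N]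
    [IsScalarTower ℂ A N] {m : ℕ} (b : Module.Basis (Fin m) ℂ N) (γ : Γ) (j : Fin m) :
    o γ • b j = ∑ i, repOf o b γ i j • b i := by
  refine (b.sum_repr (o γ • b j)).symm.trans (Finset.sum_congr rfl fun i _ => ?_)
  rw [repOf_apply]

lemma smul_comm_c {N : Type} [AddCommGroup N] [Module A N] [Module ℂ N]
    [IsScalarTower ℂ A N] (x : A) (c : ℂ) (u : N) : x • (c • u) = c • (x • u) := by
  have h1 : c • u = (algebraMap ℂ A c) • u := by
    rw [Algebra.algebraMap_eq_smul_one, smul_assoc, one_smul]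
  have h2 : c • (x • u) = (algebraMap ℂ A c) • (x • u) := by
    rw [Algebra.algebraMap_eq_smul_one, smul_assoc, one_smul]
  rw [h1, h2, smul_smul, smul_smul, Algebra.commutes]

lemma equiv_mulVec {N : Type} [AddCommGroup N] [Module A N] [Module ℂ N]
    [IsScalarTower ℂ A N] {m : ℕ} (b : Module.Basis (Fin m) ℂ N) (γ : Γ) (v : Fin m → ℂ) :
    b.equivFun.symm ((repOf o b γ).mulVec v) = o γ • b.equivFun.symm v := by
  rw [Module.Basis.equivFun_symm_apply, Module.Basis.equivFun_symm_apply, Finset.smul_sum]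
  have h1 : ∀ j, o γ • (v j • b j) = ∑ i, (v j * repOf o b γ i j) • b i := by
    intro j
    rw [smul_comm_c, smul_basis, Finset.smul_sum]
    refine Finset.sum_congr rfl fun i _ => ?_
    rw [smul_smul]
  rw [Finset.sum_congr rfl fun j _ => h1 j, Finset.sum_comm]
  refine Finset.sum_congr rfl fun i _ => ?_
  rw [← Finset.sum_smul]
  congr 1
  simp only [Matrix.mulVec, dotProduct]
  refine Finset.sum_congr rfl fun j _ => mul_comm _ _

lemma irr_repOf (hgen : ∀ x : A, x ∈ Submodule.span ℂ (Set.range o))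
    {N : Type} [AddCommGroup N] [Module A N] [Module ℂ N]
    [IsScalarTower ℂ A N] {m : ℕ} (b : Module.Basis (Fin m) ℂ N)
    (hs : IsSimpleModule A N) : Irr (repOf o b) := by
  have hnt : Nontrivial N := IsSimpleModule.nontrivial A N
  refine ⟨?_, fun U hU => ?_⟩
  · by_contra hne
    rw [not_nonempty_iff] at hne
    have : Subsingleton N := b.equivFun.toEquiv.subsingleton
    exact not_subsingleton N this
  · set U' : Submodule ℂ N := U.map (b.equivFun.symm : (Fin m → ℂ) ≃ₗ[ℂ] N).toLinearMap with hU'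
    have hinv : ∀ γ, ∀ u ∈ U', o γ • u ∈ U' := by
      rintro γ u ⟨v, hv, rfl⟩
      refine ⟨(repOf o b γ).mulVec v, hU γ v hv, ?_⟩
      exact equiv_mulVec o b γ v
    have hso : IsSimpleOrder (Submodule A N) := hs.toIsSimpleOrder
    rcases hso.eq_bot_or_eq_top (toSub o hgen U' hinv) with h | h
    · left
      rw [eq_bot_iff]
      intro v hv
      have h1 : b.equivFun.symm v ∈ toSub o hgen U' hinv := ⟨v, hv, rfl⟩
      rw [h, Submodule.mem_bot] at h1
      rw [Submodule.mem_bot]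
      exact (LinearEquiv.map_eq_zero_iff _).1 h1
    · right
      rw [eq_top_iff]
      intro v _
      have h1 : b.equivFun.symm v ∈ toSub o hgen U' hinv := by rw [h]; trivial
      obtain ⟨w, hw, hwv⟩ := h1
      have : w = v := b.equivFun.symm.injective hwv
      rw [← this]; exact hw

lemma generic_decomp (hgen : ∀ x : A, x ∈ Submodule.span ℂ (Set.range o))
    {M : Type} [AddCommGroup M] [Module A M] [Module ℂ M]
    [IsScalarTower ℂ A M] [Module.Finite ℂ M] [IsSemisimpleModule A M] :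
    ∃ (K : ℕ) (a : Fin K → ℕ) (V : Fam Γ a) (B : Module.Basis (Σ k, Fin (a k)) ℂ M),
      (∀ k, Irr (V k)) ∧ ∀ γ p, o γ • B p = ∑ i, V p.1 γ i p.2 • B ⟨p.1, i⟩ := by
  have hfin : Module.Finite A M := Module.Finite.of_restrictScalars_finite ℂ A M
  obtain ⟨K, S, E0, hS⟩ := IsSemisimpleModule.exists_linearEquiv_fin_dfinsupp A M
  have hfS : ∀ k, Module.Finite ℂ (S k) := fun k =>
    Module.Finite.of_injective ((S k).subtype.restrictScalars ℂ) (S k).injective_subtype
  have hbas : ∀ k, ∃ m, Nonempty (Module.Basis (Fin m) ℂ (S k)) := by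
    intro k
    exact ⟨_, ⟨Module.finBasis ℂ (S k)⟩⟩
  choose a b0 using hbas
  set b : ∀ k, Module.Basis (Fin (a k)) ℂ (S k) := fun k => (b0 k).some with hb
  set E : M ≃ₗ[A] (∀ k, S k) := E0.trans DFinsupp.linearEquivFunOnFintype with hE
  set B : Module.Basis (Σ k, Fin (a k)) ℂ M :=
    (Pi.basis b).map (E.symm.restrictScalars ℂ) with hB
  have hBapp : ∀ p, B p = E.symm (Pi.single p.1 (b p.1 p.2)) := by
    intro p
    rw [hB, Module.Basis.map_apply, Pi.basis_apply]
    rfl
  refine ⟨K, a, fun k => repOf o (b k), B, fun k => irr_repOf o hgen (b k) (hS k), ?_⟩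
  intro γ p
  have hs : ∀ (k : Fin K) (x : A) (y : S k),
      x • (Pi.single k y : ∀ k, S k) = Pi.single k (x • y) := by
    intro k x y
    exact (Pi.single_smul (f := fun k => S k) k x y).symm
  have hs' : ∀ (k : Fin K) (x : ℂ) (y : S k),
      x • (Pi.single k y : ∀ k, S k) = Pi.single k (x • y) := by
    intro k x y
    exact (Pi.single_smul (f := fun k => S k) k x y).symm
  rw [hBapp, ← map_smul, hs, smul_basis]
  have h2 : ∀ i, repOf o (b p.1) γ i p.2 • B ⟨p.1, i⟩ =
      (E.symm.restrictScalars ℂ) (Pi.single p.1 (repOf o (b p.1) γ i p.2 • b p.1 i)) := by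
    intro i
    rw [hBapp, ← hs', map_smul]
    rfl
  rw [Finset.sum_congr rfl fun i _ => h2 i, ← map_sum]
  show (E.symm.restrictScalars ℂ) _ = _
  congr 1
  exact map_sum (AddMonoidHom.single (fun k => S k) p.1) _ _

end generic

section

variable {Γ : Type} [Group Γ] {M : Type} [AddCommGroup M] [Module ℂ M]
  (σ : Γ →* Module.End ℂ M)

/-- the algebra of operators -/
noncomputable def gAlg : Subalgebra ℂ (Module.End ℂ M) :=
  (Submodule.span ℂ (Set.range σ)).toSubalgebra (Submodule.subset_span ⟨1, map_one σ⟩) (by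
    intro x y hx hy
    induction hx using Submodule.span_induction with
    | mem x hx =>
      obtain ⟨γ, rfl⟩ := hx
      induction hy using Submodule.span_induction with
      | mem y hy =>
        obtain ⟨δ, rfl⟩ := hy
        exact Submodule.subset_span ⟨γ * δ, map_mul σ γ δ⟩
      | zero => simp
      | add y z _ _ h1 h2 => rw [mul_add]; exact Submodule.add_mem _ h1 h2
      | smul c y _ h => rw [mul_smul_comm]; exact Submodule.smul_mem _ c h
    | zero => simp
    | add x z _ _ h1 h2 => rw [add_mul]; exact Submodule.add_mem _ h1 h2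
    | smul c x _ h => rw [smul_mul_assoc]; exact Submodule.smul_mem _ c h)

/-- group elements as elements of the algebra of operators -/
noncomputable def opHom : Γ →* gAlg σ where
  toFun γ := ⟨σ γ, Submodule.subset_span ⟨γ, rfl⟩⟩
  map_one' := by apply Subtype.ext; exact map_one σ
  map_mul' := fun a b => by apply Subtype.ext; exact map_mul σ a b

lemma opHom_smul (γ : Γ) (v : M) : opHom σ γ • v = σ γ v := rfl

lemma opHom_gen (x : gAlg σ) : x ∈ Submodule.span ℂ (Set.range (opHom σ)) := by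
  obtain ⟨x, hx⟩ := x
  have hx' : x ∈ Submodule.span ℂ (Set.range σ) := hx
  induction hx' using Submodule.span_induction with
  | mem x hx1 =>
    obtain ⟨γ, rfl⟩ := hx1
    exact Submodule.subset_span ⟨γ, rfl⟩
  | zero => exact Submodule.zero_mem _
  | add x y hx1 hy1 h1 h2 =>
    have : (⟨x + y, hx⟩ : gAlg σ) = ⟨x, hx1⟩ + ⟨y, hy1⟩ := rfl
    rw [this]; exact Submodule.add_mem _ (h1 hx1) (h2 hy1)
  | smul c x hx1 h1 =>
    have : (⟨c • x, hx⟩ : gAlg σ) = c • ⟨x, hx1⟩ := rfl
    rw [this]; exact Submodule.smul_mem _ c (h1 hx1)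

lemma semisimple (h : ∀ V : Submodule ℂ M, (∀ γ, ∀ v ∈ V, σ γ v ∈ V) →
    ∃ W : Submodule ℂ M, (∀ γ, ∀ v ∈ W, σ γ v ∈ W) ∧ IsCompl V W) :
    IsSemisimpleModule (gAlg σ) M := by
  rw [isSemisimpleModule_iff]
  refine ⟨fun N => ?_⟩
  have key : ∀ γ, ∀ v ∈ N.restrictScalars ℂ, σ γ v ∈ N.restrictScalars ℂ := by
    intro γ v hv
    exact N.smul_mem (opHom σ γ) hv
  obtain ⟨W, hW, hc⟩ := h _ key
  have hW' : ∀ γ, ∀ u ∈ W, opHom σ γ • u ∈ W := by
    intro γ u hu
    rw [opHom_smul]
    exact hW γ u hu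
  refine ⟨toSub (opHom σ) (opHom_gen σ) W hW', ?_, ?_⟩
  · rw [Submodule.disjoint_def]
    intro x hx hx'
    exact Submodule.disjoint_def.1 hc.1 x hx hx'
  · rw [codisjoint_iff, eq_top_iff]
    intro x _
    have hx : x ∈ N.restrictScalars ℂ ⊔ W := by
      rw [hc.sup_eq_top]; trivial
    obtain ⟨y, hy, z, hz, rfl⟩ := Submodule.mem_sup.1 hx
    exact Submodule.add_mem _ (Submodule.mem_sup_left hy) (Submodule.mem_sup_right hz)

lemma decomp [Module.Finite ℂ M] (h : ∀ V : Submodule ℂ M, (∀ γ, ∀ v ∈ V, σ γ v ∈ V) →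
    ∃ W : Submodule ℂ M, (∀ γ, ∀ v ∈ W, σ γ v ∈ W) ∧ IsCompl V W) :
    ∃ (K : ℕ) (a : Fin K → ℕ) (V : Fam Γ a) (B : Module.Basis (Σ k, Fin (a k)) ℂ M),
      (∀ k, Irr (V k)) ∧ ∀ γ p, σ γ (B p) = ∑ i, V p.1 γ i p.2 • B ⟨p.1, i⟩ := by
  have hss := semisimple σ h
  exact generic_decomp (opHom σ) (opHom_gen σ) (M := M)

end

/-- the operators of a matrix representation -/
def opRep {Γ : Type} [Group Γ] {r : ℕ} (ρ : Γ →* Matrix (Fin r) (Fin r) ℂ) :
    Γ →* Module.End ℂ (Fin r → ℂ) where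
  toFun γ := (ρ γ).mulVecLin
  map_one' := by rw [map_one]; exact Matrix.mulVecLin_one
  map_mul' := fun a b => by rw [map_mul]; exact Matrix.mulVecLin_mul _ _

lemma opRep_apply {Γ : Type} [Group Γ] {r : ℕ} (ρ : Γ →* Matrix (Fin r) (Fin r) ℂ) (γ : Γ)
    (v : Fin r → ℂ) : opRep ρ γ v = (ρ γ).mulVec v := rfl

end PSumD

open PSumD

theorem ss_decomp {Γ : Type} [Group Γ] {r : ℕ} (ρ : Γ →* Matrix (Fin r) (Fin r) ℂ)
    (h : SemiS ρ) :
    ∃ (K : ℕ) (a : Fin K → ℕ) (e : (Σ k, Fin (a k)) ≃ Fin r) (V : Fam Γ a),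
      (∀ k, Irr (V k)) ∧ Eqv (sumHom e V) ρ ∧ K ≤ r := by
  obtain ⟨K, a, V, B, hirr, hact'⟩ := decomp (opRep ρ) (fun V hV => h V hV)
  have hact : ∀ γ p, (ρ γ).mulVec (B p) = ∑ i, V p.1 γ i p.2 • B ⟨p.1, i⟩ := by
    intro γ p
    rw [← hact', opRep_apply]
  have hcard : Fintype.card (Σ k, Fin (a k)) = Fintype.card (Fin r) := by
    rw [← Module.finrank_eq_card_basis B]
    simp
  set e : (Σ k, Fin (a k)) ≃ Fin r := Fintype.equivOfCardEq hcard with he
  refine ⟨K, a, e, V, hirr, ?_, ?_⟩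
  · set h0 : Matrix (Fin r) (Fin r) ℂ := (Pi.basisFun ℂ (Fin r)).toMatrix (B.reindex e) with hh0
    have hunit : IsUnit h0.det := by
      have : Invertible h0 := (Pi.basisFun ℂ (Fin r)).invertibleToMatrix (B.reindex e)
      exact Matrix.isUnit_det_of_invertible h0
    refine ⟨h0, hunit, fun γ => ?_⟩
    have happ : ∀ i p, h0 i (e p) = B p i := by
      intro i p
      rw [hh0, Module.Basis.toMatrix_apply, Pi.basisFun_repr, Module.Basis.reindex_apply,
        Equiv.symm_apply_apply]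
    have hmain : ρ γ * h0 = h0 * sumHom e V γ := by
      ext i j
      obtain ⟨⟨k0, t0⟩, rfl⟩ := e.surjective j
      rw [Matrix.mul_apply, Matrix.mul_apply]
      have h1 : ∑ k, ρ γ i k * h0 k (e ⟨k0, t0⟩) = (ρ γ).mulVec (B ⟨k0, t0⟩) i := by
        simp only [Matrix.mulVec, dotProduct]
        exact Finset.sum_congr rfl fun k _ => by rw [happ]
      rw [h1, hact, Finset.sum_apply]
      rw [← e.sum_comp, Fintype.sum_sigma]
      rw [Finset.sum_eq_single k0]
      · refine Finset.sum_congr rfl fun t _ => ?_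
        rw [happ, sumHom_apply]
        simp [mul_comm]
      · intro k _ hk
        refine Finset.sum_eq_zero fun t _ => ?_
        rw [sumHom_apply]
        simp [Matrix.blockDiagonal'_apply_ne _ _ _ hk]
      · simp
    rw [← hmain, Matrix.mul_nonsing_inv_cancel_right _ _ hunit]
  · have hpos : ∀ k, 1 ≤ a k := by
      intro k
      obtain ⟨i⟩ := (hirr k).1
      exact Nat.one_le_iff_ne_zero.2 (by rintro h0; rw [h0] at i; exact i.elim0)
    calc K = ∑ _k : Fin K, 1 := by simp
      _ ≤ ∑ k, a k := Finset.sum_le_sum fun k _ => hpos k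
      _ = Fintype.card (Σ k, Fin (a k)) := by simp
      _ = Fintype.card (Fin r) := hcard
      _ = r := by simp

end Vale.Agent.P002
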