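import Vale.Agent.P002.PProd
import Vale.Agent.P002.PSumA
import Vale.Agent.P002.PSumD
import Vale.Agent.P002.PQuot

namespace Vale.Agent.P002

open Matrix

section sums
variable {Γ : Type} [Group Γ] {K r : ℕ} {a : Fin K → ℕ}

theorem sumHom_eqv (e : (Σ k, Fin (a k)) ≃ Fin r) {W W' : Fam Γ a} (h : ∀ k, Eqv (W k) (W' k)) :
    Eqv (sumHom e W) (sumHom e W') := by
  choose x hx hx' using h
  have hmul : ∀ A B : (k : Fin K) → Matrix (Fin (a k)) (Fin (a k)) ℂ,
      Matrix.reindex e e (Matrix.blockDiagonal' A) * Matrix.reindex e e (Matrix.blockDiagonal' B) =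
      Matrix.reindex e e (Matrix.blockDiagonal' fun k => A k * B k) := by
    intro A B
    rw [Matrix.blockDiagonal'_mul]
    exact (map_mul (Matrix.reindexAlgEquiv ℂ ℂ e) _ _).symm
  have hone : Matrix.reindex e e (Matrix.blockDiagonal' fun k =>
      (1 : Matrix (Fin (a k)) (Fin (a k)) ℂ)) = 1 := by
    have : (fun k => (1 : Matrix (Fin (a k)) (Fin (a k)) ℂ)) = 1 := rfl
    rw [this, Matrix.blockDiagonal'_one]
    simp
  have h1 : Matrix.reindex e e (Matrix.blockDiagonal' x) *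
      Matrix.reindex e e (Matrix.blockDiagonal' fun k => (x k)⁻¹) = 1 := by
    rw [hmul, ← hone]
    congr 2
    funext k
    exact Matrix.mul_nonsing_inv _ (hx k)
  refine ⟨Matrix.reindex e e (Matrix.blockDiagonal' x), Matrix.isUnit_det_of_right_inverse h1,
    fun γ => ?_⟩
  rw [Matrix.inv_eq_right_inv h1, sumHom_apply, sumHom_apply, hmul, hmul]
  congr 2
  funext k
  exact hx' k γ

theorem sumHom_entry (e : (Σ k, Fin (a k)) ≃ Fin r) (γ : Γ) (i j : Fin r) :
    (∃ (k : Fin K) (x y : Fin (a k)), ∀ W : Fam Γ a, sumHom e W γ i j = W k γ x y) ∨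
    (∀ W : Fam Γ a, sumHom e W γ i j = 0) := by
  have h1 : ∀ W : Fam Γ a, sumHom e W γ i j =
      Matrix.blockDiagonal' (fun k => W k γ) (e.symm i) (e.symm j) := fun W => by
    rw [sumHom_apply]; rfl
  rcases hi : e.symm i with ⟨k, x⟩
  rcases hj : e.symm j with ⟨k', y⟩
  rw [hi, hj] at h1
  by_cases hk : k = k'
  · subst hk
    exact Or.inl ⟨k, x, y, fun W => (h1 W).trans (Matrix.blockDiagonal'_apply_eq _ _ _ _)⟩
  · exact Or.inr fun W => (h1 W).trans (Matrix.blockDiagonal'_apply_ne _ _ _ hk)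

theorem det_block_zero (D : (k : Fin K) → Matrix (Fin (a k)) (Fin (a k)) ℂ) (k : Fin K)
    (hk : (D k).det = 0) : (Matrix.blockDiagonal' D).det = 0 := by
  obtain ⟨v, hv, hv1⟩ := Matrix.exists_mulVec_eq_zero_iff.mpr hk
  refine Matrix.exists_mulVec_eq_zero_iff.mp
    ⟨fun p : (Σ k, Fin (a k)) => (Pi.single k v : (k : Fin K) → Fin (a k) → ℂ) p.1 p.2, ?_, ?_⟩
  · intro h0
    apply hv
    funext x
    have := congrFun h0 ⟨k, x⟩
    simpa using this
  · funext p
    obtain ⟨k', x⟩ := p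
    rw [Matrix.mulVec, dotProduct, Fintype.sum_sigma, Finset.sum_eq_single k']
    · simp only [Matrix.blockDiagonal'_apply_eq]
      by_cases hkk : k' = k
      · subst hkk
        have := congrFun hv1 x
        simpa [Matrix.mulVec, dotProduct] using this
      · refine Finset.sum_eq_zero fun y _ => ?_
        rw [Pi.single_eq_of_ne hkk]
        simp
    · intro b _ hb
      refine Finset.sum_eq_zero fun y _ => ?_
      rw [Matrix.blockDiagonal'_apply_ne _ _ _ hb.symm, zero_mul]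
    · intro h; exact absurd (Finset.mem_univ k') h

theorem sumHom_qu {M : ℕ} (e : (Σ k, Fin (a k)) ≃ Fin r) {W : Fam Γ a} {γ : Γ}
    (h : QU M (sumHom e W γ)) (k : Fin K) : QU M (W k γ) := by
  intro μ hμ
  refine h μ ?_
  rw [Polynomial.IsRoot, Matrix.eval_charpoly] at hμ ⊢
  have h1 : scalar (Fin r) μ - sumHom e W γ =
      Matrix.reindex e e (Matrix.blockDiagonal' fun k => scalar (Fin (a k)) μ - W k γ) := by
    have h2 : scalar (Fin r) μ = Matrix.reindex e e (Matrix.blockDiagonal' fun k =>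
        scalar (Fin (a k)) μ) := by
      ext i j
      obtain ⟨i, rfl⟩ := e.surjective i
      obtain ⟨j, rfl⟩ := e.surjective j
      simp only [Matrix.reindex_apply, Matrix.submatrix_apply, Equiv.symm_apply_apply]
      rw [Matrix.scalar_apply, Matrix.diagonal_apply, Matrix.blockDiagonal'_apply]
      obtain ⟨k, x⟩ := i
      obtain ⟨k', y⟩ := j
      by_cases hk : k = k'
      · subst hk
        simp [Matrix.scalar_apply, Matrix.diagonal_apply]
      · simp [hk]
    rw [h2, sumHom_apply]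
    ext i j
    simp only [Matrix.reindex_apply, Matrix.submatrix_apply, Matrix.sub_apply]
    rw [← Matrix.sub_apply, ← Matrix.blockDiagonal'_sub]
    rfl
  rw [h1, Matrix.det_reindex_self]
  exact det_block_zero _ k hμ

end sums

theorem dense_of_pd {Γ : Type} [Group Γ] {J : Type} {c : J → Γ} (h : PD c) (r M : ℕ)
    (hM : 0 < M) :
    ∃ L : IntermediateField ℚ ℂ, FiniteDimensional ℚ L ∧
      ∀ ρ : Γ →* Matrix (Fin r) (Fin r) ℂ, SemiS ρ → (∀ γ, (ρ γ).det = 1) →
      (∀ j, QU M (ρ (c j))) →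
      ∀ P ∈ Algebra.adjoin ℂ {f : (Γ →* Matrix (Fin r) (Fin r) ℂ) → ℂ |
        ∃ (γ : Γ) (i j : Fin r), f = fun ρ => ρ γ i j},
      (∀ ρ1 ρ2, (∀ γ, (ρ1 γ).det = 1) → Eqv ρ1 ρ2 → P ρ1 = P ρ2) →
      (∀ ρ', SemiS ρ' → (∀ γ, (ρ' γ).det = 1) → (∀ γ i j, OInt L (ρ' γ i j)) →
        (∀ j, ConjM (ρ' (c j)) (ρ (c j))) → P ρ' = 0) → P ρ = 0 := by
  choose L hfd hL using fun q : (Σ K : Fin (r + 1), (Fin (K : ℕ) → Fin (r + 1))) =>
    h (q.1 : ℕ) (fun k => (q.2 k : ℕ)) (fun _ => 1) M (fun _ => one_pos) hM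
  refine ⟨⨆ q, L q, IntermediateField.finiteDimensional_iSup_of_finite, ?_⟩
  intro ρ hss hdet hqu P hP hinv hv
  obtain ⟨K, a, e, V, hV, hE, hK⟩ := ss_decomp ρ hss
  have hak : ∀ k, a k < r + 1 := by
    intro k
    have hinj : Function.Injective fun x : Fin (a k) => e ⟨k, x⟩ := by
      intro x y hxy
      have := e.injective hxy
      simpa using this
    have := Fintype.card_le_of_injective _ hinj
    simp only [Fintype.card_fin] at this
    omega
  have hLq := hL ⟨⟨K, by omega⟩, fun k => ⟨a k, hak k⟩⟩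
  have hdetS : ∀ W : Fam Γ a, DetC (fun _ => 1) W → ∀ γ, (sumHom e W γ).det = 1 := by
    intro W hW γ
    rw [sumHom_det, ← hW γ]
    exact Finset.prod_congr rfl fun k _ => (pow_one _).symm
  have hVc : ∀ γ, ConjM (sumHom e V γ) (ρ γ) := fun γ => hE.conjM γ
  have hdV : DetC (fun _ => 1) V := by
    intro γ
    have : ∏ k, (V k γ).det ^ 1 = (sumHom e V γ).det := by
      rw [sumHom_det]
      exact Finset.prod_congr rfl fun k _ => pow_one _
    rw [this, (hVc γ).det, hdet γ]
  have hPV : P ρ = P (sumHom e V) := (hinv _ _ (hdetS V hdV) hE).symm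
  rw [hPV]
  refine hLq V hV hdV ?_ (fun W => P (sumHom e W)) ?_ ?_ ?_
  · intro k j
    exact sumHom_qu e (QU.conj (hVc (c j)).symm (hqu j)) k
  · have : ∀ Q ∈ Algebra.adjoin ℂ {f : (Γ →* Matrix (Fin r) (Fin r) ℂ) → ℂ |
        ∃ (γ : Γ) (i j : Fin r), f = fun ρ => ρ γ i j}, (fun W => Q (sumHom e W)) ∈ RF Γ a := by
      intro Q hQ
      induction hQ using Algebra.adjoin_induction with
      | mem f hf =>
        obtain ⟨γ, i, j, rfl⟩ := hf
        rcases sumHom_entry e γ i j with ⟨k, x, y, hW⟩ | hW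
        · simp only [hW]
          exact Algebra.subset_adjoin ⟨k, γ, x, y, rfl⟩
        · simp only [hW]
          exact Subalgebra.zero_mem _
      | algebraMap r => exact Subalgebra.algebraMap_mem _ _
      | add f g _ _ hf hg => exact Subalgebra.add_mem _ hf hg
      | mul f g _ _ hf hg => exact Subalgebra.mul_mem _ hf hg
    exact this P hP
  · intro W W' hdW _ hWW
    exact hinv _ _ (hdetS W hdW) (sumHom_eqv e hWW)
  · intro W hW hintW hdW hcW
    refine hv _ (sumHom_ss e W hW) (hdetS W hdW) ?_ ?_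
    · intro γ i j
      rcases sumHom_entry e γ i j with ⟨k, x, y, hWe⟩ | hWe
      · rw [hWe]
        exact (hintW k γ x y).mono (le_iSup L _)
      · rw [hWe]; exact OInt.zero
    · intro j
      exact (sumHom_conj e (c j) fun k => hcW k j).trans (hVc (c j))

end Vale.Agent.P002
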