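import Vale.Agent.P002.POrb
import Vale.Agent.P002.PFinal

namespace Vale.Agent.P002

open Matrix

theorem pd_factor
    (hfree : ∀ N l : ℕ,
      PD (fun j : Fin l => (FreeGroup.of (Sum.inr j) : FreeGroup (Fin N ⊕ Fin l))))
    (hsurf : ∀ g n : ℕ, PD (cPunct (g + 2) n)) (g n : ℕ) (m : Fin n → ℕ) (S : Fin n → Prop)
    (h : 2 ≤ g ∨ n = 0 ∨ ∃ j, m j = 0 ∧ ¬ S j) : PD (fun j : {j // S j} => oPunct g n m j) := by
  by_cases h0 : ∃ j, m j = 0 ∧ ¬ S j
  · obtain ⟨j0, h1, h2⟩ := h0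
    exact pd_open g n m S j0 h1 h2 hfree
  · have hS : ∀ j, m j = 0 → S j := fun j hj => by
      by_contra hc
      exact h0 ⟨j, hj, hc⟩
    rcases Nat.lt_or_ge g 2 with hg | hg
    · have hn : n = 0 := by
        rcases h with h | h | h
        · omega
        · exact h
        · exact absurd h h0
      subst hn
      interval_cases g
      · exact pd_sphere m S
      · exact pd_torus m S (hfree 1 0)
    · obtain ⟨g, rfl⟩ : ∃ g', g = g' + 2 := ⟨g - 2, by omega⟩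
      exact pd_orb (g + 2) n m S hS (hsurf g n)

theorem pd_product
    (hfree : ∀ N l : ℕ,
      PD (fun j : Fin l => (FreeGroup.of (Sum.inr j) : FreeGroup (Fin N ⊕ Fin l))))
    (hsurf : ∀ g n : ℕ, PD (cPunct (g + 2) n)) (s : ℕ) (g n : Fin s → ℕ)
    (m : ∀ i, Fin (n i) → ℕ) (S : ∀ i, Fin (n i) → Prop)
    (h : ∀ i, 2 ≤ g i ∨ n i = 0 ∨ ∃ j, m i j = 0 ∧ ¬ S i j) :
    PD (fun q : Σ i, {j // S i j} =>
      (Pi.mulSingle q.1 (oPunct (g q.1) (n q.1) (m q.1) q.2.1) :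
        ∀ i, OGroup (g i) (n i) (m i))) := by
  classical
  exact pd_pi s (fun i => OGroup (g i) (n i) (m i)) (fun i => inferInstance)
    (fun i => {j // S i j}) (fun i => inferInstance) (fun i j => oPunct (g i) (n i) (m i) j.1)
    fun i => pd_factor hfree hsurf _ _ _ _ (h i)

end Vale.Agent.P002
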