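import Vale.Agent.P002.PDefs

namespace Vale.Agent.P002

open Matrix

/-- generators of the fundamental group of a curve of genus `g` with `n` punctures -/
abbrev CGen (g n : ℕ) : Type := (Fin g × Bool) ⊕ Fin n

/-- the relator -/
def cRel (g n : ℕ) : FreeGroup (CGen g n) :=
  (List.ofFn fun i : Fin g => FreeGroup.of (Sum.inl (i, false)) * FreeGroup.of (Sum.inl (i, true)) *
    (FreeGroup.of (Sum.inl (i, false)))⁻¹ * (FreeGroup.of (Sum.inl (i, true)))⁻¹).prod *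
  (List.ofFn fun j : Fin n => FreeGroup.of (Sum.inr j)).prod

/-- the fundamental group of a curve of genus `g` with `n` punctures -/
abbrev CGroup (g n : ℕ) : Type := PresentedGroup {cRel g n}

/-- the puncture elements -/
def cPunct (g n : ℕ) (j : Fin n) : CGroup g n := PresentedGroup.of (Sum.inr j)

/-- twisting of a representation by a character -/
noncomputable def twist {Γ : Type} [Group Γ] {n : Type} [Fintype n] [DecidableEq n] (χ : Γ →* ℂˣ)
    (U : Γ →* Matrix n n ℂ) : Γ →* Matrix n n ℂ where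
  toFun γ := ((χ γ : ℂˣ) : ℂ) • U γ
  map_one' := by simp
  map_mul' a b := by
    rw [map_mul, map_mul, Units.val_mul, Algebra.smul_mul_assoc, Algebra.mul_smul_comm, smul_smul]

theorem twist_apply {Γ : Type} [Group Γ] {n : Type} [Fintype n] [DecidableEq n] (χ : Γ →* ℂˣ)
    (U : Γ →* Matrix n n ℂ) (γ : Γ) : twist χ U γ = ((χ γ : ℂˣ) : ℂ) • U γ := rfl

/-- data allowing to split off the determinant of the representations of a group -/
structure TwistData {Γ : Type} [Group Γ] {J : Type} (c : J → Γ) (N : ℕ) where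
  /-- exponents -/
  ex : Γ → Fin N → ℤ
  ex_mul : ∀ γ γ', ex (γ * γ') = ex γ + ex γ'
  ex_c : ∀ j, ex (c j) = 0
  /-- elements dual to the exponents -/
  s : Fin N → Γ
  ex_s : ∀ x, ex (s x) = Pi.single x 1
  tw : ∀ (a M : ℕ), 0 < a → 0 < M → ∀ V : Γ →* Matrix (Fin a) (Fin a) ℂ,
    (∀ j, QU M (V (c j))) → ∃ (z : Fin N → ℂˣ) (χ : Γ →* ℂˣ) (U : Γ →* Matrix (Fin a) (Fin a) ℂ),
      (∀ γ, χ γ ^ (M * a) = 1) ∧ (∀ x, χ (s x) = 1) ∧ (∀ γ, (U γ).det = 1) ∧
      ∀ γ, V γ = (((∏ x, z x ^ ex γ x) * χ γ : ℂˣ) : ℂ) • U γ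

/-- density of integral irreducible representations in `SL_a` with prescribed classes -/
def SLDense {Γ : Type} [Group Γ] {J : Type} (c : J → Γ) : Prop :=
  ∀ (a M : ℕ), 0 < a → 0 < M → ∃ q : ℕ, 0 < q ∧ ∀ L : IntermediateField ℚ ℂ,
    FiniteDimensional ℚ L → (∃ ζ ∈ L, IsPrimitiveRoot ζ q) →
    ∀ U0 : Γ →* Matrix (Fin a) (Fin a) ℂ, (∀ γ, (U0 γ).det = 1) → Irr U0 →
      (∀ j, QU M (U0 (c j))) →
      ∀ P ∈ Algebra.adjoin ℂ {f : (Γ →* Matrix (Fin a) (Fin a) ℂ) → ℂ |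
        ∃ (γ : Γ) (i j : Fin a), f = fun U => U γ i j},
      (∀ U : Γ →* Matrix (Fin a) (Fin a) ℂ, (∀ γ, (U γ).det = 1) → Irr U →
        (∀ γ i j, OInt L (U γ i j)) → (∀ j, ConjM (U (c j)) (U0 (c j))) → P U = 0) → P U0 = 0

end Vale.Agent.P002
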