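import Vale.Agent.P002.PDefs

namespace Vale.Agent.P002

/-- Laurent monomials. -/
noncomputable def laur {P : Type} [Fintype P] (α : P → ℤ) : (P → ℂˣ) →* ℂ where
  toFun z := ((∏ p, z p ^ α p : ℂˣ) : ℂ)
  map_one' := by simp
  map_mul' z w := by
    simp only [Pi.mul_apply, mul_zpow, Finset.prod_mul_distrib, Units.val_mul]

theorem laur_apply {P : Type} [Fintype P] (α : P → ℤ) (z : P → ℂˣ) :
    laur α z = ((∏ p, z p ^ α p : ℂˣ) : ℂ) := rfl

theorem laur_span {P : Type} [Fintype P] [DecidableEq P] (f : (P → ℂˣ) → ℂ)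
    (hf : f ∈ Algebra.adjoin ℂ
      ({F | ∃ p, F = fun z : P → ℂˣ => ((z p : ℂˣ) : ℂ)} ∪
        {F | ∃ p, F = fun z : P → ℂˣ => (((z p)⁻¹ : ℂˣ) : ℂ)})) :
    ∃ c : (P → ℤ) →₀ ℂ, f = c.sum fun α a => a • (laur α : (P → ℂˣ) → ℂ) := by
  have h1 : f ∈ Submodule.span ℂ (Set.range fun α : P → ℤ => (laur α : (P → ℂˣ) → ℂ)) := by
    rw [← Subalgebra.mem_toSubmodule, Algebra.adjoin_eq_span] at hf
    refine Submodule.span_mono ?_ hf
    intro g hg
    induction hg using Submonoid.closure_induction with
    | mem g hg =>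
      rcases hg with ⟨p, rfl⟩ | ⟨p, rfl⟩
      · refine ⟨Pi.single p 1, ?_⟩
        funext z
        change laur _ z = _
        rw [laur_apply, Finset.prod_eq_single p]
        · simp
        · intro b _ hb
          simp [Pi.single_eq_of_ne hb]
        · simp
      · refine ⟨Pi.single p (-1), ?_⟩
        funext z
        change laur _ z = _
        rw [laur_apply, Finset.prod_eq_single p]
        · simp
        · intro b _ hb
          simp [Pi.single_eq_of_ne hb]
        · simp
    | one =>
      refine ⟨0, ?_⟩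
      funext z
      change laur _ z = _
      simp [laur_apply]
    | mul g h _ _ hg hh =>
      obtain ⟨α, rfl⟩ := hg
      obtain ⟨β, rfl⟩ := hh
      refine ⟨α + β, ?_⟩
      funext z
      change laur _ z = laur α z * laur β z
      simp only [laur_apply, Pi.add_apply, zpow_add, Finset.prod_mul_distrib, Units.val_mul]
  rw [Finsupp.mem_span_range_iff_exists_finsupp] at h1
  obtain ⟨c, hc⟩ := h1
  exact ⟨c, hc.symm⟩

theorem prod_zpow_sum' {P : Type} (s : Finset P) (w : ℂˣ) (n : P → ℤ) :
    ∏ p ∈ s, w ^ n p = w ^ ∑ p ∈ s, n p := by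
  classical
  induction s using Finset.induction_on with
  | empty => simp
  | insert a s ha ih => rw [Finset.prod_insert ha, Finset.sum_insert ha, zpow_add, ih]

theorem units_key {K : ℕ} (e : Fin K → ℕ) (he : ∀ k, 0 < e k) {q : ℕ} (hq : 0 < q)
    (heq : ∀ k, e k ∣ q) (c : Fin K → ℤ)
    (h1 : ∀ k l, k ≠ l → c k * e l = c l * e k)
    (h2 : ∀ s : Fin K → ℤ, (q : ℤ) ∣ ∑ k, (e k : ℤ) * s k → (q : ℤ) ∣ ∑ k, c k * s k) :
    ∃ lam : ℤ, ∀ k, c k = lam * e k := by
  rcases isEmpty_or_nonempty (Fin K) with hK | ⟨⟨k0⟩⟩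
  · exact ⟨0, fun k => (IsEmpty.false k).elim⟩
  · set I : Ideal ℤ := Ideal.span (Set.range fun k => (e k : ℤ)) with hI
    have hIp : I.IsPrincipal := IsPrincipalIdealRing.principal I
    obtain ⟨d, hd⟩ := hIp
    have hdI : d ∈ I := by rw [hd]; exact Submodule.mem_span_singleton_self d
    rw [hI, Ideal.mem_span_range_iff_exists_fun] at hdI
    obtain ⟨u, hu⟩ := hdI
    have hde : ∀ k, d ∣ (e k : ℤ) := by
      intro k
      have : (e k : ℤ) ∈ I := Ideal.subset_span ⟨k, rfl⟩
      rw [hd] at this
      exact Ideal.mem_span_singleton.1 this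
    have hd0 : d ≠ 0 := by
      rintro rfl
      have := he k0
      have h3 := zero_dvd_iff.1 (hde k0)
      omega
    have hdq : d ∣ (q : ℤ) := (hde k0).trans (by exact_mod_cast heq k0)
    obtain ⟨r, hr⟩ := hdq
    have hr0 : r ≠ 0 := by
      rintro rfl
      simp at hr
      omega
    have h3 := h2 (fun k => u k * r) (by
      have : ∑ k, (e k : ℤ) * (u k * r) = (∑ k, u k * (e k : ℤ)) * r := by
        rw [Finset.sum_mul]
        exact Finset.sum_congr rfl fun k _ => by ring
      rw [this, hu, ← hr])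
    have h4 : ∑ k, c k * (u k * r) = (∑ k, c k * u k) * r := by
      rw [Finset.sum_mul]
      exact Finset.sum_congr rfl fun k _ => by ring
    rw [h4, hr] at h3
    obtain ⟨lam, hlam⟩ := (mul_dvd_mul_iff_right hr0).1 h3
    refine ⟨lam, fun k => ?_⟩
    have h5 : c k * d = (e k : ℤ) * ∑ l, c l * u l := by
      rw [← hu, Finset.mul_sum, Finset.mul_sum]
      refine Finset.sum_congr rfl fun l _ => ?_
      by_cases hkl : k = l
      · subst hkl; ring
      · have := h1 k l hkl
        linear_combination u l * this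
    rw [hlam] at h5
    have h6 : d * c k = d * (lam * (e k : ℤ)) := by linear_combination h5
    exact mul_left_cancel₀ hd0 h6

theorem units_dense (L : IntermediateField ℚ ℂ) (ε : ℂˣ) (hε : OInt L ε)
    (hε' : OInt L ((ε⁻¹ : ℂˣ) : ℂ)) (hε1 : ∀ n : ℕ, 0 < n → ε ^ n ≠ 1) {q : ℕ} (ζ : ℂ)
    (hζ : IsPrimitiveRoot ζ q) (hq : 0 < q) (hζL : ζ ∈ L) {K N : ℕ} (e : Fin K → ℕ)
    (he : ∀ k, 0 < e k) (heq : ∀ k, e k ∣ q)
    (f : (Fin N × Fin K → ℂˣ) → ℂ)
    (hf : f ∈ Algebra.adjoin ℂ
      ({F | ∃ p, F = fun z : Fin N × Fin K → ℂˣ => ((z p : ℂˣ) : ℂ)} ∪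
        {F | ∃ p, F = fun z : Fin N × Fin K → ℂˣ => (((z p)⁻¹ : ℂˣ) : ℂ)}))
    (hv : ∀ z : Fin N × Fin K → ℂˣ,
      (∀ p, OInt L (z p : ℂ) ∧ OInt L (((z p)⁻¹ : ℂˣ) : ℂ)) →
      (∀ x, ∏ k, z (x, k) ^ e k = 1) → f z = 0)
    (z : Fin N × Fin K → ℂˣ) (hz : ∀ x, ∏ k, z (x, k) ^ e k = 1) : f z = 0 := by
  classical
  obtain ⟨c, hc⟩ := laur_span f hf
  -- the subgroups
  have hOmul : ∀ a b : ℂ, OInt L a → OInt L b → OInt L (a * b) := fun a b ha hb =>
    ⟨L.mul_mem ha.1 hb.1, ha.2.mul hb.2⟩
  have hO1 : OInt L 1 := ⟨L.one_mem, isIntegral_one⟩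
  let S : Subgroup (Fin N × Fin K → ℂˣ) :=
    { carrier := {z | ∀ x, ∏ k, z (x, k) ^ e k = 1}
      mul_mem' := by
        intro a b ha hb x
        simp only [Pi.mul_apply, mul_pow, Finset.prod_mul_distrib]
        rw [ha x, hb x, one_mul]
      one_mem' := by intro x; simp
      inv_mem' := by
        intro a ha x
        simp only [Pi.inv_apply, inv_pow, Finset.prod_inv_distrib]
        rw [ha x, inv_one] }
  let S0 : Subgroup (Fin N × Fin K → ℂˣ) :=
    { carrier := {z | (∀ p, OInt L (z p : ℂ) ∧ OInt L (((z p)⁻¹ : ℂˣ) : ℂ)) ∧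
        ∀ x, ∏ k, z (x, k) ^ e k = 1}
      mul_mem' := by
        rintro a b ⟨ha1, ha2⟩ ⟨hb1, hb2⟩
        refine ⟨fun p => ⟨?_, ?_⟩, S.mul_mem ha2 hb2⟩
        · rw [Pi.mul_apply, Units.val_mul]
          exact hOmul _ _ (ha1 p).1 (hb1 p).1
        · rw [Pi.mul_apply, mul_inv, Units.val_mul]
          exact hOmul _ _ (ha1 p).2 (hb1 p).2
      one_mem' := by
        refine ⟨fun p => ?_, S.one_mem⟩
        simpa using hO1
      inv_mem' := by
        rintro a ⟨ha1, ha2⟩
        refine ⟨fun p => ⟨(ha1 p).2, ?_⟩, S.inv_mem ha2⟩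
        rw [Pi.inv_apply, inv_inv]
        exact (ha1 p).1 }
  let T0 : (Fin N × Fin K → ℤ) → (S0 →* ℂ) := fun α => (laur α).comp S0.subtype
  let T : (Fin N × Fin K → ℤ) → (S →* ℂ) := fun α => (laur α).comp S.subtype
  -- integrality of powers
  have hεz : ∀ n : ℤ, OInt L ((ε ^ n : ℂˣ) : ℂ) := by
    intro n
    have hp : ∀ (w : ℂˣ), OInt L (w : ℂ) → ∀ m : ℕ, OInt L ((w ^ m : ℂˣ) : ℂ) := by
      intro w hw m
      induction m with
      | zero => simpa using hO1
      | succ m ih => rw [pow_succ, Units.val_mul]; exact hOmul _ _ ih hw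
    rcases n with n | n
    · simpa using hp ε hε n
    · rw [zpow_negSucc, ← inv_pow]
      exact hp _ hε' _
  have hζ0 : ζ ≠ 0 := hζ.ne_zero hq.ne'
  let ζu : ℂˣ := Units.mk0 ζ hζ0
  have hζu : IsPrimitiveRoot ζu q := by
    rw [← IsPrimitiveRoot.coe_units_iff]
    exact hζ
  have hζz : ∀ n : ℤ, OInt L ((ζu ^ n : ℂˣ) : ℂ) := by
    intro n
    refine ⟨?_, ?_⟩
    · rw [Units.val_zpow_eq_zpow_val]
      exact zpow_mem hζL n
    · refine IsIntegral.of_pow hq ?_
      have : ((ζu ^ n : ℂˣ) : ℂ) ^ q = 1 := by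
        rw [← Units.val_pow_eq_pow_val, ← zpow_natCast, ← zpow_mul, mul_comm, zpow_mul,
          zpow_natCast, hζu.pow_eq_one, one_zpow, Units.val_one]
      rw [this]
      exact isIntegral_one
  -- evaluation at special points
  have heval : ∀ (γ : Fin N × Fin K → ℤ) (w : ℂˣ) (t : Fin N × Fin K → ℤ),
      ∏ p, (w ^ t p) ^ γ p = w ^ ∑ p, t p * γ p := by
    intro γ w t
    rw [← prod_zpow_sum']
    exact Finset.prod_congr rfl fun p _ => (zpow_mul w _ _).symm
  have hmem : ∀ (w : ℂˣ) (t : Fin N × Fin K → ℤ), (∀ n : ℤ, OInt L ((w ^ n : ℂˣ) : ℂ)) →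
      (∀ x, w ^ (∑ k, t (x, k) * (e k : ℤ)) = 1) → (fun p => w ^ t p) ∈ S0 := by
    intro w t hw ht
    refine ⟨fun p => ⟨hw _, ?_⟩, fun x => ?_⟩
    · rw [← zpow_neg]
      exact hw _
    · rw [← ht x, ← prod_zpow_sum']
      refine Finset.prod_congr rfl fun k _ => ?_
      rw [zpow_mul, zpow_natCast]
  have hfac : ∀ α β, T0 α = T0 β → T α = T β := by
    intro α β hαβ
    -- the difference
    set γ : Fin N × Fin K → ℤ := α - β with hγ
    have hdiff : ∀ w : Fin N × Fin K → ℂˣ, laur α w = laur γ w * laur β w := by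
      intro w
      rw [laur_apply, laur_apply, laur_apply, ← Units.val_mul, ← Finset.prod_mul_distrib]
      congr 1
      refine Finset.prod_congr rfl fun p _ => ?_
      rw [← zpow_add, hγ, Pi.sub_apply, sub_add_cancel]
    have h0 : ∀ w ∈ S0, ∏ p, w p ^ γ p = 1 := by
      intro w hw
      have h1 : laur α w = laur β w := DFunLike.congr_fun hαβ (⟨w, hw⟩ : S0)
      rw [hdiff w] at h1
      have h2 : laur β w ≠ 0 := by
        rw [laur_apply]
        exact Units.ne_zero _
      have h3 : laur γ w = 1 := by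
        have := mul_right_cancel₀ h2 (h1.trans (one_mul _).symm)
        exact this
      rw [laur_apply] at h3
      exact Units.ext h3
    have hzero : ∀ n : ℤ, ε ^ n = 1 → n = 0 := by
      intro n hn
      by_contra hne
      have hna : 0 < n.natAbs := Int.natAbs_pos.2 hne
      apply hε1 _ hna
      rcases Int.natAbs_eq n with h | h
      · rw [h, zpow_natCast] at hn
        exact hn
      · rw [h, zpow_neg, zpow_natCast, inv_eq_one] at hn
        exact hn
    have hlam : ∀ x, ∃ lam : ℤ, ∀ k, γ (x, k) = lam * e k := by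
      intro x
      apply units_key e he hq heq
      · intro k l hkl
        have hkl' : (x, k) ≠ (x, l) := by
          intro h
          exact hkl (Prod.ext_iff.1 h).2
        let t : Fin N × Fin K → ℤ := Pi.single (x, k) (e l : ℤ) + Pi.single (x, l) (-(e k : ℤ))
        have ht : (fun p => ε ^ t p) ∈ S0 := by
          apply hmem ε t hεz
          intro y
          have : ∑ k', t (y, k') * (e k' : ℤ) = 0 := by
            by_cases hy : y = x
            · subst hy
              have e1 : ∀ k', t (y, k') * (e k' : ℤ) =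
                  (if k' = k then (e l : ℤ) * e k' else 0) +
                  (if k' = l then -(e k : ℤ) * e k' else 0) := by
                intro k'
                simp only [t, Pi.add_apply, Pi.single_apply, Prod.mk.injEq, true_and]
                split_ifs <;> ring
              simp_rw [e1]
              rw [Finset.sum_add_distrib, Finset.sum_ite_eq', Finset.sum_ite_eq']
              simp
              ring
            · apply Finset.sum_eq_zero
              intro k' _
              simp [t, hy]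
          rw [this, zpow_zero]
        have h3 := h0 _ ht
        rw [heval] at h3
        have h4 := hzero _ h3
        have h5 : ∑ p, t p * γ p = (e l : ℤ) * γ (x, k) - (e k : ℤ) * γ (x, l) := by
          simp only [t, Pi.add_apply, add_mul, Finset.sum_add_distrib, Pi.single_apply,
            ite_mul, zero_mul, Finset.sum_ite_eq', Finset.mem_univ, if_true]
          ring
        rw [h5] at h4
        linear_combination h4
      · intro s hs
        let t : Fin N × Fin K → ℤ := fun p => if p.1 = x then s p.2 else 0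
        have ht : (fun p => ζu ^ t p) ∈ S0 := by
          apply hmem ζu t hζz
          intro y
          by_cases hy : y = x
          · subst hy
            obtain ⟨r, hr⟩ := hs
            have : ∑ k, t (y, k) * (e k : ℤ) = q * r := by
              rw [← hr]
              refine Finset.sum_congr rfl fun k _ => ?_
              simp only [t, if_true]
              ring
            rw [this, zpow_mul, zpow_natCast, hζu.pow_eq_one, one_zpow]
          · have : ∑ k, t (y, k) * (e k : ℤ) = 0 := by
              apply Finset.sum_eq_zero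
              intro k' _
              simp [t, hy]
            rw [this, zpow_zero]
        have h3 := h0 _ ht
        rw [heval] at h3
        rw [hζu.zpow_eq_one_iff_dvd] at h3
        have h5 : ∑ p, t p * γ p = ∑ k, γ (x, k) * s k := by
          rw [Fintype.sum_prod_type, Finset.sum_eq_single x]
          · refine Finset.sum_congr rfl fun k _ => ?_
            simp only [t, if_true]
            ring
          · intro y _ hy
            apply Finset.sum_eq_zero
            intro k' _
            simp [t, hy]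
          · simp
        rwa [h5] at h3
    apply MonoidHom.ext
    rintro ⟨w, hw⟩
    change laur α w = laur β w
    rw [hdiff w]
    have : laur γ w = 1 := by
      rw [laur_apply, Fintype.prod_prod_type]
      have h6 : ∀ x, ∏ k, w (x, k) ^ γ (x, k) = 1 := by
        intro x
        obtain ⟨lam, hl⟩ := hlam x
        have h7 : ∀ k, w (x, k) ^ γ (x, k) = (w (x, k) ^ e k) ^ lam := by
          intro k
          rw [hl k, mul_comm, zpow_mul, zpow_natCast]
        simp_rw [h7]
        rw [Finset.prod_zpow, hw x, one_zpow]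
      simp_rw [h6]
      simp
    rw [this, one_mul]
  -- factorization and linear independence
  have hf0 : (c.mapDomain T0) = 0 := by
    have hli := linearIndependent_monoidHom S0 ℂ
    rw [linearIndependent_iff] at hli
    apply hli
    rw [Finsupp.linearCombination_mapDomain]
    funext w
    have h8 := hv w.1 w.2.1 w.2.2
    rw [hc] at h8
    rw [Finsupp.linearCombination_apply]
    simp only [Finsupp.sum, Finset.sum_apply, Pi.smul_apply, Function.comp_apply] at h8 ⊢
    exact h8
  obtain ⟨g, hg⟩ : ∃ g : (S0 →* ℂ) → (S →* ℂ), ∀ α, g (T0 α) = T α := by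
    have : Function.FactorsThrough T T0 := fun α β h => hfac α β h
    refine ⟨Function.extend T0 T (fun _ => T 0), fun α => this.extend_apply _ α⟩
  have hfT : c.mapDomain T = 0 := by
    have : c.mapDomain T = (c.mapDomain T0).mapDomain g := by
      rw [← Finsupp.mapDomain_comp]
      congr 1
      funext α
      exact (hg α).symm
    rw [this, hf0, Finsupp.mapDomain_zero]
  have hfin : (Finsupp.linearCombination ℂ (fun φ : S →* ℂ => (φ : S → ℂ))) (c.mapDomain T) = 0 := by
    rw [hfT, map_zero]
  rw [Finsupp.linearCombination_mapDomain, Finsupp.linearCombination_apply] at hfin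
  have h9 := congrFun hfin ⟨z, hz⟩
  rw [hc]
  simp only [Finsupp.sum, Finset.sum_apply, Pi.smul_apply, Function.comp_apply,
    Pi.zero_apply] at h9 ⊢
  exact h9

end Vale.Agent.P002
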