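import Vale.Agent.P002.PProd
import Vale.Agent.P002.PUnits
import Vale.Agent.P002.PGroups
import Vale.Agent.P002.FinalC

namespace Vale.Agent.P002

open Matrix NumberField

/-- the field of `q`-th roots of unity -/
theorem exists_cyc_field {q : ℕ} (hq : 10 ∣ q) (hq0 : 0 < q) :
    ∃ (L : IntermediateField ℚ ℂ) (ζ : ℂ) (ε : ℂˣ), FiniteDimensional ℚ L ∧ ζ ∈ L ∧
      IsPrimitiveRoot ζ q ∧ OInt L ε ∧ OInt L ((ε⁻¹ : ℂˣ) : ℂ) ∧ ∀ n : ℕ, 0 < n → ε ^ n ≠ 1 := by
  have hζ : IsPrimitiveRoot (Complex.exp (2 * Real.pi * Complex.I / q)) q :=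
    Complex.isPrimitiveRoot_exp q hq0.ne'
  set ζ : ℂ := Complex.exp (2 * Real.pi * Complex.I / q) with hζdef
  have hint : IsIntegral ℤ ζ := hζ.isIntegral hq0
  have hfd : FiniteDimensional ℚ (IntermediateField.adjoin ℚ {ζ}) :=
    IntermediateField.adjoin.finiteDimensional hint.tower_top
  set L : IntermediateField ℚ ℂ := IntermediateField.adjoin ℚ {ζ} with hL
  have hζL : ζ ∈ L := IntermediateField.mem_adjoin_simple_self ℚ ζ
  have hNF : NumberField L := { to_charZero := inferInstance, to_finiteDimensional := hfd }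
  have hξi : IsIntegral ℤ (⟨ζ, hζL⟩ : L) :=
    (isIntegral_algHom_iff (L.val.restrictScalars ℤ) (RingHom.injective _)).mp hint
  set ξ : 𝓞 L := ⟨⟨ζ, hζL⟩, hξi⟩ with hξdef
  have hξ : IsPrimitiveRoot ξ q :=
    IsPrimitiveRoot.of_map_of_injective (f := (algebraMap L ℂ).comp (algebraMap (𝓞 L) L))
      (by exact hζ) ((algebraMap L ℂ).injective.comp RingOfIntegers.coe_injective)
  obtain ⟨-, w, ε, -, hε⟩ := field_data (algebraMap L ℂ) hq hq0 hξ
  set f : 𝓞 L →+* ℂ := (algebraMap L ℂ).comp (algebraMap (𝓞 L) L) with hf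
  have hO : ∀ x : 𝓞 L, OInt L (f x) := fun x =>
    ⟨(x : L).2, (RingOfIntegers.isIntegral_coe x).map (L.val.restrictScalars ℤ)⟩
  refine ⟨L, ζ, Units.map f.toMonoidHom ε, hfd, hζL, hζ, hO _, ?_, ?_⟩
  · rw [← map_inv]
    exact hO _
  · intro n hn h
    have h1 : ‖f (ε : 𝓞 L)‖ ^ n = 1 := by
      have := congrArg (fun u : ℂˣ => ‖(u : ℂ)‖) h
      simpa using this
    have h2 : ‖f (ε : 𝓞 L)‖ = 1 := (pow_eq_one_iff_of_nonneg (norm_nonneg _) hn.ne').mp h1
    exact hε h2

section twist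
variable {Γ : Type} [Group Γ] {n : Type} [Fintype n] [DecidableEq n]

theorem irr_twist {χ : Γ →* ℂˣ} {U : Γ →* Matrix n n ℂ} : Irr (twist χ U) ↔ Irr U := by
  unfold Irr
  refine and_congr_right fun _ => forall_congr' fun V => ?_
  have : (∀ γ, ∀ v ∈ V, (twist χ U γ).mulVec v ∈ V) ↔ (∀ γ, ∀ v ∈ V, (U γ).mulVec v ∈ V) := by
    refine forall_congr' fun γ => forall_congr' fun v => forall_congr' fun hv => ?_
    rw [twist_apply, Matrix.smul_mulVec]
    exact V.smul_mem_iff (χ γ).ne_zero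
  rw [this]

theorem isRoot_smul {c μ : ℂ} (hc : c ≠ 0) (A : Matrix n n ℂ) :
    (c • A).charpoly.IsRoot (c * μ) ↔ A.charpoly.IsRoot μ := by
  rw [Polynomial.IsRoot, Polynomial.IsRoot, Matrix.eval_charpoly, Matrix.eval_charpoly]
  have : (scalar n (c * μ) - c • A) = c • (scalar n μ - A) := by
    rw [smul_sub]
    congr 1
    ext i j
    simp [Matrix.scalar_apply, Matrix.diagonal_apply]
  rw [this, Matrix.det_smul]
  simp [hc]

theorem ConjM.smul {c : ℂ} {A B : Matrix n n ℂ} (h : ConjM A B) : ConjM (c • A) (c • B) := by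
  obtain ⟨h, hu, rfl⟩ := h
  exact ⟨h, hu, by rw [Matrix.mul_smul, Matrix.smul_mul]⟩

end twist

section main
variable {Γ : Type} [Group Γ] {J : Type} {c : J → Γ} {N : ℕ}

theorem TwistData.ex_one (T : TwistData c N) : T.ex 1 = 0 := by
  have := T.ex_mul 1 1
  rw [one_mul] at this
  simpa using this

/-- characters of the torus -/
noncomputable def tor (T : TwistData c N) (y : Fin N → ℂˣ) : Γ →* ℂˣ where
  toFun γ := ∏ x, y x ^ T.ex γ x
  map_one' := by simp [T.ex_one]
  map_mul' a b := by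
    rw [T.ex_mul, ← Finset.prod_mul_distrib]
    exact Finset.prod_congr rfl fun x _ => by rw [Pi.add_apply, _root_.zpow_add]

theorem tor_apply (T : TwistData c N) (y : Fin N → ℂˣ) (γ : Γ) :
    tor T y γ = ∏ x, y x ^ T.ex γ x := rfl

theorem tor_s (T : TwistData c N) (y : Fin N → ℂˣ) (x : Fin N) : tor T y (T.s x) = y x := by
  rw [tor_apply, T.ex_s, Finset.prod_eq_single x]
  · simp
  · intro b _ hb
    simp [Pi.single_eq_of_ne hb]
  · intro h; exact absurd (Finset.mem_univ x) h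

theorem tor_c (T : TwistData c N) (y : Fin N → ℂˣ) (j : J) : tor T y (c j) = 1 := by
  rw [tor_apply, T.ex_c]; simp

theorem mem_adj_zpow {ι : Type} {S : Subalgebra ℂ (ι → ℂ)} {u : ι → ℂˣ}
    (h1 : (fun z => ((u z : ℂˣ) : ℂ)) ∈ S) (h2 : (fun z => (((u z)⁻¹ : ℂˣ) : ℂ)) ∈ S) (n : ℤ) :
    (fun z => ((u z ^ n : ℂˣ) : ℂ)) ∈ S := by
  obtain ⟨k, rfl | rfl⟩ := n.eq_nat_or_neg
  · have : (fun z => ((u z ^ (k : ℤ) : ℂˣ) : ℂ)) = (fun z => ((u z : ℂˣ) : ℂ)) ^ k := by
      ext z; simp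
    rw [this]; exact pow_mem h1 k
  · have : (fun z => ((u z ^ (-(k : ℤ)) : ℂˣ) : ℂ)) = (fun z => (((u z)⁻¹ : ℂˣ) : ℂ)) ^ k := by
      ext z; simp
    rw [this]; exact pow_mem h2 k

theorem pd_of (T : TwistData c N) (S : SLDense c) : PD c := by
  classical
  intro K a m M hm hM
  by_cases ha : ∀ k, 0 < a k
  swap
  · refine ⟨⊥, inferInstance, fun V hV => ?_⟩
    exfalso
    push Not at ha
    obtain ⟨k, hk⟩ := ha
    obtain ⟨⟨x⟩, -⟩ := hV k
    have := x.2
    omega
  choose qk hqk hS using fun k => S (a k) (M * a k) (ha k) (Nat.mul_pos hM (ha k))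
  set q : ℕ := 10 * ∏ k, (qk k * ((a k * m k) * (M * a k))) with hq
  have hq0 : 0 < q := by
    rw [hq]
    refine Nat.mul_pos (by norm_num) (Finset.prod_pos fun k _ => ?_)
    exact Nat.mul_pos (hqk k) (Nat.mul_pos (Nat.mul_pos (ha k) (hm k)) (Nat.mul_pos hM (ha k)))
  have hdiv : ∀ k, (qk k * ((a k * m k) * (M * a k))) ∣ q := fun k =>
    (Finset.dvd_prod_of_mem (fun k => qk k * ((a k * m k) * (M * a k)))
      (Finset.mem_univ k)).trans (Dvd.intro_left _ rfl)
  have hdq : ∀ k, qk k ∣ q := fun k => (Dvd.intro _ rfl).trans (hdiv k)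
  have hde : ∀ k, a k * m k ∣ q := fun k =>
    ((Dvd.intro _ rfl : a k * m k ∣ (a k * m k) * (M * a k)).trans (Dvd.intro_left _ rfl)).trans
      (hdiv k)
  have hdM : ∀ k, M * a k ∣ q := fun k =>
    ((Dvd.intro_left _ rfl : M * a k ∣ (a k * m k) * (M * a k)).trans (Dvd.intro_left _ rfl)).trans
      (hdiv k)
  obtain ⟨L, ζ, ε, hfd, hζL, hζ, hε, hε', hε1⟩ := exists_cyc_field (q := q) (Dvd.intro _ rfl) hq0
  refine ⟨L, hfd, ?_⟩
  intro V hV hdet hqu P hP hinv hv
  choose z χ U hχ hχs hUdet hVU using fun k => T.tw (a k) M (ha k) hM (V k) (hqu k)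
  set Wf : (Fin N × Fin K → ℂˣ) → Fam Γ a → Fam Γ a := fun y U' k =>
    twist (tor T (fun x => y (x, k)) * χ k) (U' k) with hWf
  have hWf_apply : ∀ y U' k γ i j, Wf y U' k γ i j =
      ((tor T (fun x => y (x, k)) γ : ℂˣ) : ℂ) * ((χ k γ : ℂˣ) : ℂ) * U' k γ i j := by
    intro y U' k γ i j
    simp only [hWf, twist_apply, Matrix.smul_apply, MonoidHom.mul_apply, Units.val_mul, smul_eq_mul]
  have hVW : V = Wf (fun p => z p.2 p.1) U := by
    funext k
    refine MonoidHom.ext fun γ => ?_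
    rw [hVU k γ]
    rfl
  have hdetW : ∀ y (U' : Fam Γ a) k γ, (U' k γ).det = 1 → (Wf y U' k γ).det =
      (((tor T (fun x => y (x, k)) γ * χ k γ) ^ a k : ℂˣ) : ℂ) := by
    intro y U' k γ h
    simp only [hWf, twist_apply, Matrix.det_smul, h, mul_one, MonoidHom.mul_apply, Units.val_pow_eq_pow_val,
      Fintype.card_fin]
  -- determinant relations
  have hdetV : ∀ γ, ∏ k, ((tor T (fun x => z k x) γ * χ k γ) ^ a k) ^ m k = 1 := by
    intro γ
    have h1 := hdet γ
    rw [hVW] at h1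
    apply Units.ext
    rw [Units.val_one, ← h1, Units.coe_prod]
    refine Finset.prod_congr rfl fun k _ => ?_
    have h2 := hdetW (fun p => z p.2 p.1) U k γ (hUdet k γ)
    exact (Units.val_pow_eq_pow_val _ _).trans (congrArg (· ^ m k) h2.symm)
  have hE1 : ∀ x, ∏ k, z k x ^ (a k * m k) = 1 := by
    intro x
    rw [← hdetV (T.s x)]
    refine Finset.prod_congr rfl fun k _ => ?_
    rw [tor_s, hχs, mul_one, pow_mul]
  have htor : ∀ (y : Fin N × Fin K → ℂˣ), (∀ x, ∏ k, y (x, k) ^ (a k * m k) = 1) → ∀ γ,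
      ∏ k, (tor T (fun x => y (x, k)) γ) ^ (a k * m k) = 1 := by
    intro y hy γ
    have : ∀ k, (tor T (fun x => y (x, k)) γ) ^ (a k * m k) =
        ∏ x, (y (x, k) ^ (a k * m k)) ^ T.ex γ x := by
      intro k
      rw [tor_apply, ← Finset.prod_pow]
      refine Finset.prod_congr rfl fun x _ => ?_
      rw [← zpow_natCast, ← zpow_natCast, ← _root_.zpow_mul, ← _root_.zpow_mul, mul_comm]
    simp_rw [this]
    rw [Finset.prod_comm]
    refine Finset.prod_eq_one fun x _ => ?_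
    rw [Finset.prod_zpow, hy x, _root_.one_zpow]
  have hE2 : ∀ γ, ∏ k, (χ k γ) ^ (a k * m k) = 1 := by
    intro γ
    have h1 := hdetV γ
    have h2 := htor (fun p => z p.2 p.1) (fun x => hE1 x) γ
    have h3 : ∏ k, ((tor T (fun x => z k x) γ * χ k γ) ^ a k) ^ m k =
        (∏ k, (tor T (fun x => z k x) γ) ^ (a k * m k)) * ∏ k, (χ k γ) ^ (a k * m k) := by
      rw [← Finset.prod_mul_distrib]
      exact Finset.prod_congr rfl fun k _ => by rw [← pow_mul, mul_pow]
    rw [h3] at h1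
    have h4 : (∏ k, (tor T (fun x => z k x) γ) ^ (a k * m k)) = 1 := h2
    rw [h4, one_mul] at h1
    exact h1
  have hDetW : ∀ y (U' : Fam Γ a), (∀ k γ, (U' k γ).det = 1) →
      (∀ x, ∏ k, y (x, k) ^ (a k * m k) = 1) → DetC m (Wf y U') := by
    intro y U' hU' hy γ
    have h1 : ∏ k, (Wf y U' k γ).det ^ m k =
        ((∏ k, ((tor T (fun x => y (x, k)) γ * χ k γ) ^ a k) ^ m k : ℂˣ) : ℂ) := by
      rw [Units.coe_prod]
      refine Finset.prod_congr rfl fun k _ => ?_
      rw [hdetW _ _ _ _ (hU' k γ), Units.val_pow_eq_pow_val (_ ^ _)]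
    rw [h1]
    have h3 : ∏ k, ((tor T (fun x => y (x, k)) γ * χ k γ) ^ a k) ^ m k =
        (∏ k, (tor T (fun x => y (x, k)) γ) ^ (a k * m k)) * ∏ k, (χ k γ) ^ (a k * m k) := by
      rw [← Finset.prod_mul_distrib]
      exact Finset.prod_congr rfl fun k _ => by rw [← pow_mul, mul_pow]
    rw [h3, htor y hy γ, hE2 γ, one_mul, Units.val_one]
  -- integrality of the characters
  have hroot : ∀ (d : ℕ) (x : ℂ), d ∣ q → x ^ d = 1 → OInt L x := by
    intro d x hd hx
    have hxq : x ^ q = 1 := by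
      obtain ⟨e, he⟩ := hd
      rw [he, pow_mul, hx, one_pow]
    have : NeZero q := ⟨hq0.ne'⟩
    obtain ⟨i, -, rfl⟩ := hζ.eq_pow_of_pow_eq_one hxq
    exact ⟨pow_mem hζL i, (hζ.isIntegral hq0).pow i⟩
  have hχO : ∀ k γ, OInt L ((χ k γ : ℂˣ) : ℂ) := by
    intro k γ
    refine hroot (M * a k) _ (hdM k) ?_
    rw [← Units.val_pow_eq_pow_val, hχ k γ, Units.val_one]
  have htorO : ∀ (y : Fin N × Fin K → ℂˣ), (∀ p, OInt L (y p : ℂ) ∧ OInt L (((y p)⁻¹ : ℂˣ) : ℂ)) →
      ∀ k γ, OInt L ((tor T (fun x => y (x, k)) γ : ℂˣ) : ℂ) := by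
    intro y hy k γ
    rw [tor_apply, Units.coe_prod]
    refine Finset.prod_induction _ (OInt L) (fun _ _ => OInt.mul) OInt.one fun x _ => ?_
    have hpow : ∀ (u : ℂ) (n : ℕ), OInt L u → OInt L (u ^ n) := fun u n hu =>
      ⟨pow_mem hu.1 n, hu.2.pow n⟩
    obtain ⟨n, h | h⟩ := (T.ex γ x).eq_nat_or_neg
    · rw [h, zpow_natCast, Units.val_pow_eq_pow_val]
      exact hpow _ _ (hy (x, k)).1
    · rw [h, _root_.zpow_neg, zpow_natCast, ← inv_pow, Units.val_pow_eq_pow_val]
      exact hpow _ _ (hy (x, k)).2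
  -- irreducibility of `U`
  have hUirr : ∀ k, Irr (U k) := by
    intro k
    have h1 := hV k
    rw [hVW] at h1
    exact irr_twist.mp h1
  have hVc : ∀ k j, V k (c j) = ((χ k (c j) : ℂˣ) : ℂ) • U k (c j) := by
    intro k j
    rw [hVU k (c j)]
    have := tor_c T (z k) j
    rw [tor_apply] at this
    rw [this, one_mul]
  have hUqu : ∀ k j, QU (M * a k) (U k (c j)) := by
    intro k j μ hμ
    have h1 := hqu k j (((χ k (c j) : ℂˣ) : ℂ) * μ) (by
      rw [hVc k j, isRoot_smul (χ k (c j)).ne_zero]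
      exact hμ)
    have h2 : (((χ k (c j) : ℂˣ) : ℂ)) ^ (M * a k) = 1 := by
      rw [← Units.val_pow_eq_pow_val, hχ k _, Units.val_one]
    have h3 : (((χ k (c j) : ℂˣ) : ℂ) * μ) ^ (M * a k) = 1 := by rw [pow_mul, h1, one_pow]
    rw [mul_pow, h2, one_mul] at h3
    exact h3
  -- step 1 : replacing the integral representations by `U`
  have key1 : ∀ y : Fin N × Fin K → ℂˣ,
      (∀ p, OInt L (y p : ℂ) ∧ OInt L (((y p)⁻¹ : ℂˣ) : ℂ)) →
      (∀ x, ∏ k, y (x, k) ^ (a k * m k) = 1) → ∀ s : Finset (Fin K), ∀ U' : Fam Γ a,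
      (∀ k ∈ s, U' k = U k) →
      (∀ k ∉ s, (∀ γ, (U' k γ).det = 1) ∧ Irr (U' k) ∧ (∀ γ i j, OInt L (U' k γ i j)) ∧
        ∀ j, ConjM (U' k (c j)) (U k (c j))) → P (Wf y U') = 0 := by
    intro y hy hy1 s
    induction s using Finset.induction_on with
    | empty =>
      intro U' _ hU'
      have hU'' := fun k => hU' k (Finset.notMem_empty k)
      refine hv (Wf y U') (fun k => irr_twist.mpr (hU'' k).2.1) ?_ ?_ ?_
      · intro k γ i j
        rw [hWf_apply]
        exact ((htorO y hy k γ).mul (hχO k γ)).mul ((hU'' k).2.2.1 γ i j)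
      · exact hDetW y U' (fun k => (hU'' k).1) hy1
      · intro k j
        have h1 : Wf y U' k (c j) = ((χ k (c j) : ℂˣ) : ℂ) • U' k (c j) := by
          simp only [hWf, twist_apply, MonoidHom.mul_apply, tor_c, one_mul]
        rw [h1, hVc k j]
        exact ((hU'' k).2.2.2 j).smul
    | insert k0 s hk0 ih =>
      intro U' hU1 hU2
      have hup : Function.update U' k0 (U k0) = U' := by
        rw [← hU1 k0 (Finset.mem_insert_self k0 s), Function.update_eq_self]
      rw [← hup]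
      refine hS k0 L hfd ?_ (U k0) (hUdet k0) (hUirr k0) (hUqu k0)
        (fun u => P (Wf y (Function.update U' k0 u))) ?_ ?_
      · obtain ⟨d, hd⟩ := hdq k0
        refine ⟨ζ ^ d, pow_mem hζL d, hζ.pow hq0 ?_⟩
        rw [hd, mul_comm]
      · -- membership
        have : ∀ Q ∈ RF Γ a, (fun u => Q (Wf y (Function.update U' k0 u))) ∈
            Algebra.adjoin ℂ {f : (Γ →* Matrix (Fin (a k0)) (Fin (a k0)) ℂ) → ℂ |
              ∃ (γ : Γ) (i j : Fin (a k0)), f = fun U => U γ i j} := by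
          intro Q hQ
          induction hQ using Algebra.adjoin_induction with
          | mem f hf =>
            obtain ⟨k, γ, i, j, rfl⟩ := hf
            simp only [hWf_apply]
            by_cases hk : k = k0
            · subst hk
              simp only [Function.update_self]
              have h5 : (fun u : Γ →* Matrix (Fin (a k)) (Fin (a k)) ℂ => u γ i j) ∈
                  Algebra.adjoin ℂ {f : (Γ →* Matrix (Fin (a k)) (Fin (a k)) ℂ) → ℂ |
                    ∃ (γ : Γ) (i j : Fin (a k)), f = fun U => U γ i j} :=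
                Algebra.subset_adjoin ⟨γ, i, j, rfl⟩
              exact Subalgebra.smul_mem _ h5 _
            · simp only [Function.update_of_ne hk]
              exact Subalgebra.algebraMap_mem _ _
          | algebraMap r => exact Subalgebra.algebraMap_mem _ _
          | add f g _ _ hf hg => exact Subalgebra.add_mem _ hf hg
          | mul f g _ _ hf hg => exact Subalgebra.mul_mem _ hf hg
        exact this P hP
      · intro u hu1 hu2 hu3 hu4
        refine ih (Function.update U' k0 u) ?_ ?_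
        · intro k hk
          have hkk : k ≠ k0 := fun h => hk0 (h ▸ hk)
          rw [Function.update_of_ne hkk]
          exact hU1 k (Finset.mem_insert_of_mem hk)
        · intro k hk
          by_cases hkk : k = k0
          · subst hkk
            rw [Function.update_self]
            exact ⟨hu1, hu2, hu3, hu4⟩
          · rw [Function.update_of_ne hkk]
            exact hU2 k (by simp [hkk, hk])
  -- step 2 : varying the characters
  have key2 := units_dense L ε hε hε' hε1 ζ hζ hq0 hζL (fun k => a k * m k)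
    (fun k => Nat.mul_pos (ha k) (hm k)) hde (N := N) (fun y => P (Wf y U)) ?_ ?_
    (fun p => z p.2 p.1) (fun x => hE1 x)
  · rw [hVW]; exact key2
  · have : ∀ Q ∈ RF Γ a, (fun y => Q (Wf y U)) ∈ Algebra.adjoin ℂ
        ({F | ∃ p, F = fun z : Fin N × Fin K → ℂˣ => ((z p : ℂˣ) : ℂ)} ∪
          {F | ∃ p, F = fun z : Fin N × Fin K → ℂˣ => (((z p)⁻¹ : ℂˣ) : ℂ)}) := by
      intro Q hQ
      induction hQ using Algebra.adjoin_induction with
      | mem f hf =>
        obtain ⟨k, γ, i, j, rfl⟩ := hf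
        simp only [hWf_apply]
        have h1 : (fun y : Fin N × Fin K → ℂˣ => ((tor T (fun x => y (x, k)) γ : ℂˣ) : ℂ)) ∈
            Algebra.adjoin ℂ
            ({F | ∃ p, F = fun z : Fin N × Fin K → ℂˣ => ((z p : ℂˣ) : ℂ)} ∪
              {F | ∃ p, F = fun z : Fin N × Fin K → ℂˣ => (((z p)⁻¹ : ℂˣ) : ℂ)}) := by
          have h2 : (fun y : Fin N × Fin K → ℂˣ => ((tor T (fun x => y (x, k)) γ : ℂˣ) : ℂ)) =
              ∏ x, (fun y : Fin N × Fin K → ℂˣ => ((y (x, k) ^ T.ex γ x : ℂˣ) : ℂ)) := by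
            funext y
            rw [tor_apply, Units.coe_prod, Finset.prod_apply]
          rw [h2]
          refine Subalgebra.prod_mem _ fun x _ => ?_
          exact mem_adj_zpow (Algebra.subset_adjoin (Or.inl ⟨(x, k), rfl⟩))
            (Algebra.subset_adjoin (Or.inr ⟨(x, k), rfl⟩)) _
        have h3 : (fun y : Fin N × Fin K → ℂˣ => ((tor T (fun x => y (x, k)) γ : ℂˣ) : ℂ) *
            ((χ k γ : ℂˣ) : ℂ) * U k γ i j) = (fun y : Fin N × Fin K → ℂˣ =>
              ((tor T (fun x => y (x, k)) γ : ℂˣ) : ℂ)) *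
            algebraMap ℂ _ (((χ k γ : ℂˣ) : ℂ) * U k γ i j) := by
          funext y
          simp [mul_assoc]
        rw [h3]
        exact Subalgebra.mul_mem _ h1 (Subalgebra.algebraMap_mem _ _)
      | algebraMap r => exact Subalgebra.algebraMap_mem _ _
      | add f g _ _ hf hg => exact Subalgebra.add_mem _ hf hg
      | mul f g _ _ hf hg => exact Subalgebra.mul_mem _ hf hg
    exact this P hP
  · intro y hy hy1
    exact key1 y hy hy1 Finset.univ U (fun k _ => rfl) (fun k hk => absurd (Finset.mem_univ k) hk)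

end main

end Vale.Agent.P002
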