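import Vale.Agent.P002.Defs

namespace Vale.Agent.P002

open Matrix NumberField

namespace ZD

theorem line_poly {h : ℂ → ℂ} (hh : h ∈ PolyFun ℂ) :
    ∃ p : Polynomial ℂ, ∀ s, h s = p.eval s := by
  unfold PolyFun at hh
  induction hh using Algebra.adjoin_induction with
  | mem x hx =>
    obtain ⟨l, rfl⟩ := hx
    refine ⟨Polynomial.C (l 1) * Polynomial.X, fun s => ?_⟩
    have : l s = s * l 1 := by
      rw [← smul_eq_mul, ← map_smul, smul_eq_mul, mul_one]
    show l s = _
    rw [this, Polynomial.eval_mul, Polynomial.eval_C, Polynomial.eval_X, mul_comm]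
  | algebraMap c => exact ⟨Polynomial.C c, fun s => by simp⟩
  | add f g _ _ hf hg =>
    obtain ⟨p, hp⟩ := hf
    obtain ⟨q, hq⟩ := hg
    exact ⟨p + q, fun s => by simp [hp, hq]⟩
  | mul f g _ _ hf hg =>
    obtain ⟨p, hp⟩ := hf
    obtain ⟨q, hq⟩ := hg
    exact ⟨p * q, fun s => by simp [hp, hq]⟩

theorem line {h : ℂ → ℂ} (hh : h ∈ PolyFun ℂ) {S : Set ℂ} (hS : S.Infinite)
    (h0 : ∀ s ∈ S, h s = 0) (s : ℂ) : h s = 0 := by
  obtain ⟨p, hp⟩ := line_poly hh
  have : p = 0 := Polynomial.eq_zero_of_infinite_isRoot p (hS.mono fun s hs => by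
    show p.IsRoot s
    rw [Polynomial.IsRoot, ← hp, h0 s hs])
  rw [hp, this, Polynomial.eval_zero]

variable {L : Type*} [Field L] [NumberField L] {r : ℕ}

def Pts (φ : L →+* ℂ) (r : ℕ) : Set (Mat r) :=
  {N | ∃ (A : SpecialLinearGroup (Fin r) (𝓞 L)) (κ : ℂ), κ ≠ 0 ∧ N = κ • emb φ A.1}

def Zc (φ : L →+* ℂ) (r : ℕ) : Set (Mat r) :=
  {M | ∀ P ∈ PolyFun (Mat r), (∀ N ∈ Pts φ r, P N = 0) → P M = 0}

def Stab (φ : L →+* ℂ) (r : ℕ) : Set (Mat r) :=
  {N | ∀ M ∈ Zc φ r, N * M ∈ Zc φ r}

theorem emb_mul (φ : L →+* ℂ) (A B : Matrix (Fin r) (Fin r) (𝓞 L)) :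
    emb φ (A * B) = emb φ A * emb φ B := by
  unfold emb
  exact Matrix.map_mul

theorem emb_one (φ : L →+* ℂ) : emb φ (1 : Matrix (Fin r) (Fin r) (𝓞 L)) = 1 := by
  unfold emb
  exact Matrix.map_one _ (map_zero _) (map_one _)

theorem emb_transvection (φ : L →+* ℂ) (i j : Fin r) (n : ℕ) :
    emb φ (transvection i j (n : 𝓞 L)) = transvection i j (n : ℂ) := by
  ext a b
  simp only [emb, transvection, Matrix.map_apply, Matrix.add_apply, Matrix.one_apply,
    Matrix.single_apply, map_add]
  congr 1
  · split_ifs <;> simp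
  · split_ifs <;> simp

theorem zc_of_map {φ : L →+* ℂ} {T : Mat r → Mat r} (hT : PolyMap T)
    (h : ∀ N ∈ Pts φ r, T N ∈ Pts φ r) {M : Mat r} (hM : M ∈ Zc φ r) : T M ∈ Zc φ r := by
  intro P hP h0
  exact hM (fun N => P (T N)) (polyFun_comp hP hT) fun N hN => h0 _ (h N hN)

theorem pts_zc {φ : L →+* ℂ} {N : Mat r} (hN : N ∈ Pts φ r) : N ∈ Zc φ r :=
  fun _ _ h0 => h0 N hN

theorem one_mem (φ : L →+* ℂ) : (1 : Mat r) ∈ Zc φ r :=
  pts_zc ⟨1, 1, one_ne_zero, by
    show (1 : Mat r) = (1 : ℂ) • emb φ (1 : Matrix (Fin r) (Fin r) (𝓞 L))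
    rw [emb_one, one_smul]⟩

theorem trans_nat (φ : L →+* ℂ) {i j : Fin r} (hij : i ≠ j) (n : ℕ) :
    transvection i j (n : ℂ) ∈ Stab φ r := by
  intro M hM
  refine zc_of_map (T := fun M => transvection i j (n : ℂ) * M)
    (polyMap_mul (polyMap_const _) polyMap_id) ?_ hM
  rintro N ⟨A, κ, hκ, rfl⟩
  refine ⟨⟨transvection i j (n : 𝓞 L) * A.1, by
    rw [det_mul, det_transvection_of_ne _ _ hij, A.2, one_mul]⟩, κ, hκ, ?_⟩
  show transvection i j (n : ℂ) * (κ • emb φ A.1) = κ • emb φ (transvection i j (n : 𝓞 L) * A.1)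
  rw [emb_mul, emb_transvection, Matrix.mul_smul]

theorem polyMap_trans (i j : Fin r) : PolyMap (fun s : ℂ => (transvection i j s : Mat r)) := by
  refine polyMap_of_entry fun a b => ?_
  simp only [transvection, Matrix.add_apply, Matrix.single_apply]
  refine polyFun_add (polyFun_const _) ?_
  by_cases h : i = a ∧ j = b
  · simp only [h, and_self, if_true]
    exact polyFun_linear LinearMap.id
  · simp only [h, if_false]
    exact polyFun_const _

theorem trans_mem (φ : L →+* ℂ) {i j : Fin r} (hij : i ≠ j) (s : ℂ) :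
    transvection i j s ∈ Stab φ r := by
  intro M hM P hP h0
  refine line (h := fun s => P (transvection i j s * M)) (S := Set.range fun n : ℕ => (n : ℂ))
    (polyFun_comp hP (polyMap_mul (polyMap_trans i j) (polyMap_const _)))
    (Set.infinite_range_of_injective Nat.cast_injective) ?_ s
  rintro _ ⟨n, rfl⟩
  exact trans_nat φ hij n M hM P hP h0

theorem stab_mul {φ : L →+* ℂ} {N N' : Mat r} (h : N ∈ Stab φ r) (h' : N' ∈ Stab φ r) :
    N * N' ∈ Stab φ r := fun M hM => by
  rw [Matrix.mul_assoc]; exact h _ (h' _ hM)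

theorem stab_one {φ : L →+* ℂ} : (1 : Mat r) ∈ Stab φ r := fun M hM => by
  rw [Matrix.one_mul]; exact hM

theorem stab_smul {φ : L →+* ℂ} {N : Mat r} (h : N ∈ Stab φ r) {c : ℂ} (hc : c ≠ 0) :
    c • N ∈ Stab φ r := fun M hM => by
  have : (c • N) * M = c • (N * M) := Matrix.smul_mul _ _ _
  rw [this]
  refine zc_of_map (T := fun M => c • M) (polyMap_smul (polyFun_const _) polyMap_id) ?_ (h _ hM)
  rintro N ⟨A, κ, hκ, rfl⟩
  exact ⟨A, c * κ, mul_ne_zero hc hκ, smul_smul _ _ _⟩

/-- the diagonal matrix with `a` at `i` and `a⁻¹` at `j` -/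
theorem whitehead {i j : Fin r} (hij : i ≠ j) {a : ℂ} (ha : a ≠ 0) :
    (diagonal fun k => if k = i then a else if k = j then a⁻¹ else 1 : Mat r) =
      transvection i j a * (transvection j i (-a⁻¹) * (transvection i j a *
        (transvection i j (-1) * (transvection j i 1 * (transvection i j (-1) * 1))))) := by
  ext x y
  by_cases hxi : x = i
  · subst hxi
    simp only [transvection_mul_apply_same, transvection_mul_apply_of_ne _ _ _ _ hij,
      transvection_mul_apply_of_ne _ _ _ _ hij.symm, diagonal_apply, if_true, Matrix.one_apply]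
    split_ifs <;> field_simp <;> ring
  · by_cases hxj : x = j
    · subst hxj
      simp only [transvection_mul_apply_same, transvection_mul_apply_of_ne _ _ _ _ hij,
        transvection_mul_apply_of_ne _ _ _ _ hij.symm, diagonal_apply, if_true, Matrix.one_apply,
        hxi, if_false]
      split_ifs <;> field_simp <;> ring
    · simp only [transvection_mul_apply_of_ne _ _ _ _ hxi, transvection_mul_apply_of_ne _ _ _ _ hxj,
        diagonal_apply, hxi, hxj, if_false, Matrix.one_apply]

theorem H_mem (φ : L →+* ℂ) {i j : Fin r} (hij : i ≠ j) {a : ℂ} (ha : a ≠ 0) :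
    (diagonal fun k => if k = i then a else if k = j then a⁻¹ else 1 : Mat r) ∈ Stab φ r := by
  rw [whitehead hij ha]
  exact stab_mul (trans_mem φ hij _) (stab_mul (trans_mem φ hij.symm _)
    (stab_mul (trans_mem φ hij _) (stab_mul (trans_mem φ hij _) (stab_mul (trans_mem φ hij.symm _)
      (stab_mul (trans_mem φ hij _) stab_one)))))

theorem diag_mem_aux (φ : L →+* ℂ) (z : Fin r) (D : Fin r → ℂ) (hD : ∀ k, D k ≠ 0)
    (s : Finset (Fin r)) (hz : z ∉ s) :
    (diagonal fun k => if k = z then (∏ j ∈ s, D j)⁻¹ else if k ∈ s then D k else 1 : Mat r)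
      ∈ Stab φ r := by
  induction s using Finset.induction_on with
  | empty =>
    have : (diagonal fun k => if k = z then (∏ j ∈ (∅ : Finset (Fin r)), D j)⁻¹
        else if k ∈ (∅ : Finset (Fin r)) then D k else 1 : Mat r) = 1 := by
      rw [← diagonal_one]
      congr 1
      funext k
      simp
    rw [this]
    exact stab_one
  | insert j s hj ih =>
    have hzj : j ≠ z := fun h => hz (by simp [h])
    have hzs : z ∉ s := fun h => hz (by simp [h])
    have h1 := stab_mul (H_mem φ hzj (hD j)) (ih hzs)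
    rw [diagonal_mul_diagonal] at h1
    have h2 : (fun k => if k = z then (∏ j ∈ insert j s, D j)⁻¹
        else if k ∈ insert j s then D k else 1) =
        fun k => (if k = j then D j else if k = z then (D j)⁻¹ else 1) *
          (if k = z then (∏ j ∈ s, D j)⁻¹ else if k ∈ s then D k else 1) := by
      funext k
      rw [Finset.prod_insert hj]
      by_cases hkz : k = z
      · subst hkz
        simp [hzj.symm, mul_inv, mul_comm]
      · by_cases hkj : k = j
        · subst hkj
          simp [hkz, hj]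
        · simp [hkz, hkj]
    rw [h2]
    exact h1

theorem diag_mem (φ : L →+* ℂ) (D : Fin r → ℂ) (hD : ∀ k, D k ≠ 0) :
    (diagonal D : Mat r) ∈ Stab φ r := by
  rcases Nat.eq_zero_or_pos r with h0 | hr
  · subst h0
    have : (diagonal D : Mat 0) = 1 := Subsingleton.elim _ _
    rw [this]
    exact stab_one
  · obtain ⟨κ, hκ⟩ := IsAlgClosed.exists_pow_nat_eq (∏ k, D k) hr
    have hκ0 : κ ≠ 0 := by
      rintro rfl
      rw [zero_pow hr.ne'] at hκ
      exact (Finset.prod_ne_zero_iff.mpr fun k _ => hD k) hκ.symm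
    let z : Fin r := ⟨0, hr⟩
    have h1 := stab_smul (diag_mem_aux φ z (fun k => κ⁻¹ * D k)
      (fun k => mul_ne_zero (inv_ne_zero hκ0) (hD k)) (Finset.univ.erase z) (by simp)) hκ0
    have h2 : (κ • (diagonal fun k => if k = z then (∏ j ∈ Finset.univ.erase z, κ⁻¹ * D j)⁻¹
        else if k ∈ Finset.univ.erase z then κ⁻¹ * D k else 1) : Mat r) = diagonal D := by
      ext x y
      rw [Matrix.smul_apply, diagonal_apply, diagonal_apply]
      by_cases hxy : x = y
      · subst hxy
        simp only [if_true, Finset.mem_erase, Finset.mem_univ, and_true, ne_eq]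
        by_cases hx : x = z
        · have h3 : (∏ j ∈ Finset.univ.erase z, κ⁻¹ * D j) * (κ⁻¹ * D z) = 1 := by
            rw [Finset.prod_erase_mul _ _ (Finset.mem_univ z), Finset.prod_mul_distrib,
              Finset.prod_const, Finset.card_univ, Fintype.card_fin, ← hκ, ← mul_pow,
              inv_mul_cancel₀ hκ0, one_pow]
          rw [if_pos hx, hx, inv_eq_of_mul_eq_one_right h3, smul_eq_mul, mul_inv_cancel_left₀ hκ0]
        · rw [if_neg hx, if_pos hx, smul_eq_mul, mul_inv_cancel_left₀ hκ0]
      · rw [if_neg hxy, if_neg hxy, smul_zero]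
    rw [← h2]
    exact h1

theorem stab_of_det (φ : L →+* ℂ) (M : Mat r) (hM : M.det ≠ 0) : M ∈ Stab φ r := by
  refine diagonal_transvection_induction_of_det_ne_zero (fun N => N ∈ Stab φ r) M hM ?_ ?_ ?_
  · intro D hD
    rw [det_diagonal, Finset.prod_ne_zero_iff] at hD
    exact diag_mem φ D fun k => hD k (Finset.mem_univ k)
  · rintro ⟨i, j, hij, c⟩
    exact trans_mem φ hij c
  · intro A B _ _ hA hB
    exact stab_mul hA hB

theorem zc_of_det (φ : L →+* ℂ) (M : Mat r) (hM : M.det ≠ 0) : M ∈ Zc φ r := by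
  have h := stab_of_det φ M hM 1 (one_mem φ)
  rwa [Matrix.mul_one] at h

theorem zc_all (φ : L →+* ℂ) (M : Mat r) : M ∈ Zc φ r := by
  intro P hP h0
  have key : ∀ s : ℂ, P (M + s • 1) = 0 := by
    refine line (h := fun s => P (M + s • 1)) (S := {s | (M + s • (1 : Mat r)).det ≠ 0})
      (polyFun_comp hP (polyMap_add (polyMap_const _)
        (polyMap_smul (polyFun_linear LinearMap.id) (polyMap_const _)))) ?_ ?_
    · have hfin : {s : ℂ | (M + s • (1 : Mat r)).det = 0}.Finite := by
        refine ((-M).charpoly.rootSet_finite ℂ).subset fun s hs => ?_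
        rw [Polynomial.mem_rootSet]
        refine ⟨(Matrix.charpoly_monic _).ne_zero, ?_⟩
        rw [Polynomial.aeval_def, Polynomial.eval₂_eq_eval_map, Algebra.algebraMap_self,
          Polynomial.map_id, Matrix.eval_charpoly]
        have h1 : (scalar (Fin r)) s - -M = M + s • (1 : Mat r) := by
          rw [sub_neg_eq_add, add_comm, smul_one_eq_diagonal]
          rfl
        rw [h1]
        exact hs
      intro hinf
      have : (Set.univ : Set ℂ).Finite := by
        refine (hinf.union hfin).subset fun s _ => ?_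
        by_cases h : (M + s • (1 : Mat r)).det = 0
        · exact Or.inr h
        · exact Or.inl h
      exact Set.infinite_univ this
    · intro s hs
      exact zc_of_det φ _ hs P hP h0
  have h := key 0
  rwa [zero_smul, add_zero] at h

end ZD

theorem mat_dense {L : Type*} [Field L] [NumberField L] (φ : L →+* ℂ) {r : ℕ} (P : Mat r → ℂ)
    (hP : P ∈ PolyFun (Mat r))
    (h : ∀ (A : SpecialLinearGroup (Fin r) (𝓞 L)) (κ : ℂ), κ ≠ 0 → P (κ • emb φ A.1) = 0)
    (M : Mat r) : P M = 0 := by
  refine ZD.zc_all φ M P hP ?_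
  rintro N ⟨A, κ, hκ, rfl⟩
  exact h A κ hκ

theorem mat_dense_pi {L : Type*} [Field L] [NumberField L] (φ : L →+* ℂ) {k r : ℕ}
    (P : (Fin k → Mat r) → ℂ) (hP : P ∈ PolyFun (Fin k → Mat r))
    (h : ∀ (A : Fin k → SpecialLinearGroup (Fin r) (𝓞 L)) (κ : Fin k → ℂ), (∀ i, κ i ≠ 0) →
      P (fun i => κ i • emb φ (A i).1) = 0) (M : Fin k → Mat r) : P M = 0 := by
  classical
  have key : ∀ s : Finset (Fin k), ∀ x : Fin k → Mat r, (∀ i ∈ s, x i = M i) →
      (∀ i ∉ s, x i ∈ ZD.Pts φ r) → P x = 0 := by
    intro s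
    induction s using Finset.induction_on with
    | empty =>
      intro x _ hx
      have hx' : ∀ i, ∃ (A : SpecialLinearGroup (Fin r) (𝓞 L)) (κ : ℂ), κ ≠ 0 ∧
          x i = κ • emb φ A.1 := fun i => hx i (by simp)
      choose A κ hκ hxe using hx'
      have : x = fun i => κ i • emb φ (A i).1 := funext hxe
      rw [this]
      exact h A κ hκ
    | insert a s ha ih =>
      intro x hx1 hx2
      have hup : P (Function.update x a (M a)) = 0 := by
        refine ZD.zc_all φ (M a) (fun N => P (Function.update x a N)) ?_ ?_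
        · refine polyFun_comp hP (polyMap_pi fun i => ?_)
          by_cases hi : i = a
          · subst hi
            simpa using polyMap_id
          · simpa [Function.update_of_ne hi] using polyMap_const _
        · intro N hN
          refine ih _ ?_ ?_
          · intro i hi
            have : i ≠ a := fun h => ha (h ▸ hi)
            rw [Function.update_of_ne this]
            exact hx1 i (Finset.mem_insert_of_mem hi)
          · intro i hi
            by_cases hia : i = a
            · subst hia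
              rw [Function.update_self]
              exact hN
            · rw [Function.update_of_ne hia]
              exact hx2 i (by simp [hia, hi])
      have : Function.update x a (M a) = x := by
        rw [← hx1 a (Finset.mem_insert_self a s), Function.update_eq_self]
      rwa [this] at hup
  exact key Finset.univ M (fun _ _ => rfl) (fun i hi => absurd (Finset.mem_univ i) hi)

end Vale.Agent.P002
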