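import Vale.Agent.P002.PDefs
import Vale.Agent.P002.ZDense
import Vale.Agent.P002.Assemble

namespace Vale.Agent.P002

open Matrix

namespace PF

section gen
variable {r : ℕ}

/-- a set of matrices closed under multiplication and containing the transvections contains every
matrix of determinant one -/
theorem sl_gen (S : Set (Mat r)) (h1 : (1 : Mat r) ∈ S) (hmul : ∀ A ∈ S, ∀ B ∈ S, A * B ∈ S)
    (ht : ∀ (i j : Fin r), i ≠ j → ∀ s : ℂ, (transvection i j s : Mat r) ∈ S) (M : Mat r)
    (hM : M.det = 1) : M ∈ S := by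
  have hH : ∀ (i j : Fin r), i ≠ j → ∀ a : ℂ, a ≠ 0 →
      (diagonal fun k => if k = i then a else if k = j then a⁻¹ else 1 : Mat r) ∈ S := by
    intro i j hij a ha
    rw [ZD.whitehead hij ha]
    exact hmul _ (ht _ _ hij _) _ (hmul _ (ht _ _ hij.symm _) _ (hmul _ (ht _ _ hij _) _
      (hmul _ (ht _ _ hij _) _ (hmul _ (ht _ _ hij.symm _) _ (hmul _ (ht _ _ hij _) _ h1)))))
  have haux : ∀ (z : Fin r) (D : Fin r → ℂ), (∀ k, D k ≠ 0) → ∀ s : Finset (Fin r), z ∉ s →
      (diagonal fun k => if k = z then (∏ j ∈ s, D j)⁻¹ else if k ∈ s then D k else 1 : Mat r)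
        ∈ S := by
    intro z D hD s
    induction s using Finset.induction_on with
    | empty =>
      intro _
      have : (diagonal fun k => if k = z then (∏ j ∈ (∅ : Finset (Fin r)), D j)⁻¹
          else if k ∈ (∅ : Finset (Fin r)) then D k else 1 : Mat r) = 1 := by
        rw [← diagonal_one]
        congr 1
        funext k
        simp
      rw [this]
      exact h1
    | insert j s hj ih =>
      intro hz
      have hzj : j ≠ z := fun h => hz (by simp [h])
      have hzs : z ∉ s := fun h => hz (by simp [h])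
      have h1 := hmul _ (hH j z hzj (D j) (hD j)) _ (ih hzs)
      rw [diagonal_mul_diagonal] at h1
      have h2 : (fun k => if k = z then (∏ j ∈ insert j s, D j)⁻¹
          else if k ∈ insert j s then D k else 1) =
          fun k => (if k = j then D j else if k = z then (D j)⁻¹ else 1) *
            (if k = z then (∏ j ∈ s, D j)⁻¹ else if k ∈ s then D k else 1) := by
        funext k
        rw [Finset.prod_insert hj]
        by_cases hkz : k = z
        · subst hkz
          simp [hzj.symm, mul_comm]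
        · by_cases hkj : k = j
          · subst hkj
            simp [hkz, hj]
          · simp [hkz, hkj]
      rw [h2]
      exact h1
  have hdiag : ∀ D : Fin r → ℂ, ∏ k, D k = 1 → (diagonal D : Mat r) ∈ S := by
    intro D hD
    rcases Nat.eq_zero_or_pos r with h0 | hr
    · subst h0
      have : (diagonal D : Mat 0) = 1 := Subsingleton.elim _ _
      rw [this]
      exact h1
    · have hD0 : ∀ k, D k ≠ 0 := by
        intro k hk
        rw [Finset.prod_eq_zero (Finset.mem_univ k) hk] at hD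
        exact zero_ne_one hD
      let z : Fin r := ⟨0, hr⟩
      have h2 := haux z D hD0 (Finset.univ.erase z) (by simp)
      have h3 : (fun k => if k = z then (∏ j ∈ Finset.univ.erase z, D j)⁻¹
          else if k ∈ Finset.univ.erase z then D k else 1) = D := by
        funext k
        by_cases hk : k = z
        · rw [if_pos hk, hk]
          have h4 : (∏ j ∈ Finset.univ.erase z, D j) * D z = 1 := by
            rw [Finset.prod_erase_mul _ _ (Finset.mem_univ z), hD]
          exact inv_eq_of_mul_eq_one_right h4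
        · rw [if_neg hk, if_pos (Finset.mem_erase.mpr ⟨hk, Finset.mem_univ k⟩)]
      rw [h3] at h2
      exact h2
  obtain ⟨L, L', D, hLD⟩ := Pivot.exists_list_transvec_mul_diagonal_mul_list_transvec M
  have hlist : ∀ L : List (TransvectionStruct (Fin r) ℂ),
      (L.map TransvectionStruct.toMatrix).prod ∈ S := by
    intro L
    induction L with
    | nil => simpa using h1
    | cons t L ih =>
      rw [List.map_cons, List.prod_cons]
      obtain ⟨i, j, hij, c⟩ := t
      exact hmul _ (ht i j hij c) _ ih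
  have hdl : ∀ L : List (TransvectionStruct (Fin r) ℂ),
      (L.map TransvectionStruct.toMatrix).prod.det = 1 :=
    fun L => TransvectionStruct.det_toMatrix_prod L
  have hDD : ∏ k, D k = 1 := by
    rw [hLD, det_mul, det_mul, hdl, hdl, one_mul, mul_one, det_diagonal] at hM
    exact hM
  rw [hLD]
  exact hmul _ (hmul _ (hlist L) _ (hdiag D hDD)) _ (hlist L')

/-- integer points -/
def IPts (r : ℕ) : Set (Mat r) :=
  {N | ∃ A : Matrix (Fin r) (Fin r) ℤ, A.det = 1 ∧ N = A.map (Int.castRingHom ℂ)}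

/-- Zariski closure of the integer points -/
def IZ (r : ℕ) : Set (Mat r) :=
  {M | ∀ P ∈ PolyFun (Mat r), (∀ N ∈ IPts r, P N = 0) → P M = 0}

theorem iz_trans {i j : Fin r} (hij : i ≠ j) (s : ℂ) (M : Mat r) (hM : M ∈ IZ r) :
    transvection i j s * M ∈ IZ r := by
  intro P hP h0
  refine ZD.line (h := fun s => P (transvection i j s * M)) (S := Set.range fun n : ℕ => (n : ℂ))
    (polyFun_comp hP (polyMap_mul (ZD.polyMap_trans i j) (polyMap_const _)))
    (Set.infinite_range_of_injective Nat.cast_injective) ?_ s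
  rintro _ ⟨n, rfl⟩
  refine hM (fun N => P (transvection i j (n : ℂ) * N))
    (polyFun_comp hP (polyMap_mul (polyMap_const _) polyMap_id)) ?_
  rintro N ⟨A, hA, rfl⟩
  refine h0 _ ⟨transvection i j (n : ℤ) * A, ?_, ?_⟩
  · rw [det_mul, det_transvection_of_ne _ _ hij, hA, one_mul]
  · rw [Matrix.map_mul]
    congr 1
    ext a b
    simp only [transvection, Matrix.map_apply, Matrix.add_apply, Matrix.one_apply,
      Matrix.single_apply, map_add]
    congr 1
    · split_ifs <;> simp
    · split_ifs <;> simp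

theorem iz_all (M : Mat r) (hM : M.det = 1) : M ∈ IZ r := by
  have h := sl_gen (r := r) {N | ∀ M ∈ IZ r, N * M ∈ IZ r}
    (fun M hM => by rw [Matrix.one_mul]; exact hM)
    (fun A hA B hB M hM => by rw [Matrix.mul_assoc]; exact hA _ (hB _ hM))
    (fun i j hij s M hM => iz_trans hij s M hM) M hM
  have h1 : (1 : Mat r) ∈ IZ r := fun P _ h0 => h0 1 ⟨1, det_one, by
    rw [Matrix.map_one _ (map_zero _) (map_one _)]⟩
  have h2 := h 1 h1
  rwa [Matrix.mul_one] at h2

theorem sl_path (M : Mat r) (hM : M.det = 1) : ∃ Φ : ℂ → Mat r, PolyMap Φ ∧ Φ 0 = 1 ∧ Φ 1 = M ∧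
    ∀ s, (Φ s).det = 1 := by
  refine sl_gen (r := r) {M | ∃ Φ : ℂ → Mat r, PolyMap Φ ∧ Φ 0 = 1 ∧ Φ 1 = M ∧
    ∀ s, (Φ s).det = 1} ⟨fun _ => 1, polyMap_const _, rfl, rfl, fun _ => det_one⟩ ?_ ?_ M hM
  · rintro A ⟨Φ, h1, h2, h3, h4⟩ B ⟨Ψ, k1, k2, k3, k4⟩
    exact ⟨fun s => Φ s * Ψ s, polyMap_mul h1 k1, by simp only; rw [h2, k2, Matrix.one_mul],
      by simp only; rw [h3, k3], fun s => by rw [det_mul, h4, k4, one_mul]⟩
  · intro i j hij c
    refine ⟨fun s => transvection i j (s * c), ?_, ?_, ?_, ?_⟩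
    · refine polyMap_comp (ZD.polyMap_trans i j) ?_
      exact fun l => by
        have h := polyFun_mul (polyFun_linear (LinearMap.id : ℂ →ₗ[ℂ] ℂ)) (polyFun_const (l c))
        convert h using 1
        funext s
        simp only [LinearMap.id_apply]
        rw [← smul_eq_mul, map_smul, smul_eq_mul]
    · simp only [zero_mul]
      exact transvection_zero i j
    · simp only [one_mul]
    · intro s
      exact det_transvection_of_ne _ _ hij _

end gen

end PF

/-- `SL_r(ℤ)^n` is Zariski dense in `SL_r(ℂ)^n` -/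
theorem sl_dense {r n : ℕ} (P : (Fin n → Mat r) → ℂ) (hP : P ∈ PolyFun (Fin n → Mat r))
    (h : ∀ A : Fin n → Matrix (Fin r) (Fin r) ℤ, (∀ i, (A i).det = 1) →
      P (fun i => (A i).map (Int.castRingHom ℂ)) = 0)
    (M : Fin n → Mat r) (hM : ∀ i, (M i).det = 1) : P M = 0 := by
  classical
  have key : ∀ s : Finset (Fin n), ∀ x : Fin n → Mat r, (∀ i ∈ s, x i = M i) →
      (∀ i ∉ s, x i ∈ PF.IPts r) → P x = 0 := by
    intro s
    induction s using Finset.induction_on with
    | empty =>
      intro x _ hx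
      have hx' : ∀ i, ∃ A : Matrix (Fin r) (Fin r) ℤ, A.det = 1 ∧
          x i = A.map (Int.castRingHom ℂ) := fun i => hx i (by simp)
      choose A hA hxe using hx'
      have : x = fun i => (A i).map (Int.castRingHom ℂ) := funext hxe
      rw [this]
      exact h A hA
    | insert a s ha ih =>
      intro x hx1 hx2
      have hup : P (Function.update x a (M a)) = 0 := by
        refine PF.iz_all (M a) (hM a) (fun N => P (Function.update x a N)) ?_ ?_
        · refine polyFun_comp hP (polyMap_pi fun i => ?_)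
          by_cases hi : i = a
          · subst hi
            simpa using polyMap_id
          · simpa [Function.update_of_ne hi] using polyMap_const _
        · intro N hN
          refine ih _ ?_ ?_
          · intro i hi
            have : i ≠ a := fun h => ha (h ▸ hi)
            rw [Function.update_of_ne this]
            exact hx1 i (Finset.mem_insert_of_mem hi)
          · intro i hi
            by_cases hia : i = a
            · subst hia
              rw [Function.update_self]
              exact hN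
            · rw [Function.update_of_ne hia]
              exact hx2 i (by simp [hia, hi])
      have : Function.update x a (M a) = x := by
        rw [← hx1 a (Finset.mem_insert_self a s), Function.update_eq_self]
      rwa [this] at hup
  exact key Finset.univ M (fun _ _ => rfl) (fun i hi => absurd (Finset.mem_univ i) hi)

/-- two points of `SL_r(ℂ)^n` are joined by a polynomial curve -/
theorem sl_curve {r n : ℕ} (M M' : Fin n → Mat r) (hM : ∀ i, (M i).det = 1)
    (hM' : ∀ i, (M' i).det = 1) :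
    ∃ Φ : ℂ → (Fin n → Mat r), PolyMap Φ ∧ Φ 0 = M ∧ Φ 1 = M' ∧ ∀ s i, (Φ s i).det = 1 := by
  classical
  have hinv : ∀ i, (M i)⁻¹ * M i = 1 := fun i =>
    Matrix.nonsing_inv_mul _ (by rw [hM i]; exact isUnit_one)
  have h : ∀ i, ∃ Φ : ℂ → Mat r, PolyMap Φ ∧ Φ 0 = 1 ∧ Φ 1 = M' i * (M i)⁻¹ ∧
      ∀ s, (Φ s).det = 1 := fun i => PF.sl_path _ (by
    have h1 := congrArg Matrix.det (hinv i)
    rw [det_mul, det_one, hM i, mul_one] at h1
    rw [det_mul, hM' i, h1, one_mul])
  choose Φ h1 h2 h3 h4 using h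
  refine ⟨fun s i => Φ i s * M i, polyMap_pi fun i => polyMap_mul (h1 i) (polyMap_const _), ?_, ?_,
    fun s i => by rw [det_mul, h4, hM, one_mul]⟩
  · funext i
    show Φ i 0 * M i = M i
    rw [h2, Matrix.one_mul]
  · funext i
    show Φ i 1 * M i = M' i
    rw [h3, Matrix.mul_assoc, hinv, Matrix.mul_one]

namespace PF

section free
variable {n a : ℕ}

/-- matrices of determinant one as matrices -/
def slHom (R : Type) [CommRing R] (a : ℕ) :
    SpecialLinearGroup (Fin a) R →* Matrix (Fin a) (Fin a) R where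
  toFun g := g.1
  map_one' := rfl
  map_mul' _ _ := rfl

theorem inv_adj (U : FreeGroup (Fin n) →* Mat a) (hU : ∀ γ, (U γ).det = 1) (γ : FreeGroup (Fin n)) :
    U γ⁻¹ = (U γ).adjugate := by
  have h1 : U γ⁻¹ * U γ = 1 := by rw [← map_mul, inv_mul_cancel, map_one]
  have h2 : U γ * (U γ).adjugate = 1 := by rw [Matrix.mul_adjugate, hU, one_smul]
  calc U γ⁻¹ = U γ⁻¹ * (U γ * (U γ).adjugate) := by rw [h2, Matrix.mul_one]
    _ = (U γ).adjugate := by rw [← Matrix.mul_assoc, h1, Matrix.one_mul]

theorem word_poly (γ : FreeGroup (Fin n)) : ∃ T : (Fin n → Mat a) → Mat a, PolyMap T ∧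
    ∀ U : FreeGroup (Fin n) →* Mat a, (∀ γ, (U γ).det = 1) →
      U γ = T fun i => U (FreeGroup.of i) := by
  induction γ using FreeGroup.induction_on with
  | C1 => exact ⟨fun _ => 1, polyMap_const _, fun U _ => map_one U⟩
  | of i => exact ⟨fun x => x i, polyMap_apply polyMap_id i, fun U _ => rfl⟩
  | inv_of i h =>
    obtain ⟨T, h1, h2⟩ := h
    exact ⟨fun x => (T x).adjugate, polyMap_adjugate h1, fun U hU => by
      rw [inv_adj U hU, h2 U hU]⟩
  | mul x y hx hy =>
    obtain ⟨T, h1, h2⟩ := hx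
    obtain ⟨T', h1', h2'⟩ := hy
    exact ⟨fun z => T z * T' z, polyMap_mul h1 h1', fun U hU => by
      rw [map_mul, h2 U hU, h2' U hU]⟩

theorem coef_poly (P : (FreeGroup (Fin n) →* Mat a) → ℂ)
    (hP : P ∈ Algebra.adjoin ℂ {f | ∃ (γ : FreeGroup (Fin n)) (i j : Fin a),
      f = fun U : FreeGroup (Fin n) →* Mat a => U γ i j}) :
    ∃ Q ∈ PolyFun (Fin n → Mat a), ∀ U : FreeGroup (Fin n) →* Mat a, (∀ γ, (U γ).det = 1) →
      P U = Q fun i => U (FreeGroup.of i) := by
  induction hP using Algebra.adjoin_induction with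
  | mem f hf =>
    obtain ⟨γ, i, j, rfl⟩ := hf
    obtain ⟨T, h1, h2⟩ := word_poly (a := a) γ
    exact ⟨fun x => T x i j, polyFun_entry h1 i j, fun U hU =>
      congrFun (congrFun (h2 U hU) i) j⟩
  | algebraMap c => exact ⟨fun _ => c, polyFun_const c, fun U _ => rfl⟩
  | add f g _ _ hf hg =>
    obtain ⟨Q, h1, h2⟩ := hf
    obtain ⟨Q', h1', h2'⟩ := hg
    exact ⟨fun x => Q x + Q' x, polyFun_add h1 h1', fun U hU => by
      rw [Pi.add_apply, h2 U hU, h2' U hU]⟩
  | mul f g _ _ hf hg =>
    obtain ⟨Q, h1, h2⟩ := hf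
    obtain ⟨Q', h1', h2'⟩ := hg
    exact ⟨fun x => Q x * Q' x, polyFun_mul h1 h1', fun U hU => by
      rw [Pi.mul_apply, h2 U hU, h2' U hU]⟩

/-- an irreducible representation of dimension at least two of a free group needs two
generators -/
theorem two_le (ha : 2 ≤ a) (U : FreeGroup (Fin n) →* Mat a) (hirr : Irr U) : 2 ≤ n := by
  by_contra hn
  have hz : NeZero a := ⟨by omega⟩
  obtain ⟨v, hv0, hv⟩ : ∃ v : Fin a → ℂ, v ≠ 0 ∧ ∀ i : Fin n, ∃ c : ℂ,
      (U (FreeGroup.of i)).mulVec v = c • v := by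
    rcases Nat.eq_zero_or_pos n with h0 | hpos
    · subst h0
      exact ⟨1, one_ne_zero, fun i => i.elim0⟩
    · obtain rfl : n = 1 := by omega
      obtain ⟨c, hc⟩ := Module.End.exists_eigenvalue (Matrix.toLin' (U (FreeGroup.of 0)))
      obtain ⟨v, hv⟩ := hc.exists_hasEigenvector
      refine ⟨v, hv.2, fun i => ⟨c, ?_⟩⟩
      have h1 : i = 0 := Subsingleton.elim _ _
      rw [h1, ← Matrix.toLin'_apply]
      exact hv.apply_eq_smul
  have hall : ∀ γ : FreeGroup (Fin n), ∃ c : ℂ, (U γ).mulVec v = c • v := by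
    intro γ
    induction γ using FreeGroup.induction_on with
    | C1 => exact ⟨1, by rw [map_one, Matrix.one_mulVec, one_smul]⟩
    | of i => exact hv i
    | inv_of i h =>
      obtain ⟨c, hc⟩ := h
      have h1 : (U (pure i)⁻¹).mulVec ((U (pure i)).mulVec v) = v := by
        rw [Matrix.mulVec_mulVec, ← map_mul, inv_mul_cancel, map_one, Matrix.one_mulVec]
      have hc' : (U (pure i)).mulVec v = c • v := hc
      rw [hc', Matrix.mulVec_smul] at h1
      have hc0 : c ≠ 0 := by
        rintro rfl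
        rw [zero_smul] at h1
        exact hv0 h1.symm
      refine ⟨c⁻¹, ?_⟩
      conv_rhs => rw [← h1]
      rw [smul_smul, inv_mul_cancel₀ hc0, one_smul]
      rfl
    | mul x y hx hy =>
      obtain ⟨c, hc⟩ := hx
      obtain ⟨d, hd⟩ := hy
      exact ⟨d * c, by rw [map_mul, ← Matrix.mulVec_mulVec, hd, Matrix.mulVec_smul, hc, smul_smul]⟩
  rcases hirr.2 (Submodule.span ℂ {v}) (fun γ w hw => by
    obtain ⟨d, rfl⟩ := Submodule.mem_span_singleton.mp hw
    obtain ⟨c, hc⟩ := hall γ
    rw [Matrix.mulVec_smul, hc, smul_smul]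
    exact Submodule.mem_span_singleton.mpr ⟨_, rfl⟩) with h | h
  · rw [Submodule.span_singleton_eq_bot] at h
    exact hv0 h
  · have h1 := finrank_span_singleton (K := ℂ) hv0
    rw [h, finrank_top, Module.finrank_fin_fun] at h1
    omega

end free

end PF

theorem free_C {n a : ℕ} (ha : 0 < a) (U0 : FreeGroup (Fin n) →* Matrix (Fin a) (Fin a) ℂ)
    (hdet : ∀ γ, (U0 γ).det = 1) (hirr : Irr U0)
    (P : (FreeGroup (Fin n) →* Matrix (Fin a) (Fin a) ℂ) → ℂ)
    (hP : P ∈ Algebra.adjoin ℂ {f | ∃ (γ : FreeGroup (Fin n)) (i j : Fin a), f = fun U => U γ i j})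
    (hv : ∀ U : FreeGroup (Fin n) →* Matrix (Fin a) (Fin a) ℂ, (∀ γ, (U γ).det = 1) → Irr U →
      (∀ γ i j, ∃ z : ℤ, U γ i j = z) → P U = 0) : P U0 = 0 := by
  classical
  rcases Nat.lt_or_ge a 2 with h1 | ha2
  · -- a = 1
    obtain rfl : a = 1 := by omega
    refine hv U0 hdet hirr fun γ i j => ⟨1, ?_⟩
    have h2 := hdet γ
    rw [Matrix.det_fin_one] at h2
    have hi : i = 0 := Subsingleton.elim _ _
    have hj : j = 0 := Subsingleton.elim _ _
    rw [hi, hj, h2, Int.cast_one]
  have hz : NeZero a := ⟨by omega⟩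
  have hn := PF.two_le ha2 U0 hirr
  let i0 : Fin n := ⟨0, by omega⟩
  let i1 : Fin n := ⟨1, by omega⟩
  have h01 : i1 ≠ i0 := by
    intro h
    have := congrArg Fin.val h
    simp [i0, i1] at this
  obtain ⟨Q, hQ, hPQ⟩ := PF.coef_poly P hP
  let B : (Fin n → Mat a) → ℂ := fun x => burn (x i0, x i1)
  have hB : B ∈ PolyFun (Fin n → Mat a) := by
    refine polyFun_det (polyMap_of_entry fun s t => ?_)
    have e0 : PolyMap (fun x : Fin n → Mat a => x i0) := polyMap_apply polyMap_id i0
    have e1 : PolyMap (fun x : Fin n → Mat a => x i1) := polyMap_apply polyMap_id i1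
    exact polyFun_entry (polyMap_mul (polyMap_pow e0 _) (polyMap_pow e1 _)) _ _
  have hQB : ∀ M : Fin n → Mat a, (∀ i, (M i).det = 1) → Q M * B M = 0 := by
    intro M hM
    refine sl_dense (fun x => Q x * B x) (polyFun_mul hQ hB) (fun A hA => ?_) M hM
    by_cases hb : B (fun i => (A i).map (Int.castRingHom ℂ)) = 0
    · show _ * _ = (0 : ℂ)
      rw [hb, mul_zero]
    let σ : FreeGroup (Fin n) →* SpecialLinearGroup (Fin a) ℤ :=
      FreeGroup.lift fun i => ⟨A i, hA i⟩
    let U : FreeGroup (Fin n) →* Mat a :=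
      (PF.slHom ℂ a).comp ((SpecialLinearGroup.map (Int.castRingHom ℂ)).comp σ)
    have hU : ∀ γ, U γ = (σ γ).1.map (Int.castRingHom ℂ) := fun γ => rfl
    have hUof : (fun i => U (FreeGroup.of i)) = fun i => (A i).map (Int.castRingHom ℂ) := by
      funext i
      rw [hU]
      have : σ (FreeGroup.of i) = ⟨A i, hA i⟩ := FreeGroup.lift_apply_of
      rw [this]
    have hUdet : ∀ γ, (U γ).det = 1 := fun γ =>
      ((SpecialLinearGroup.map (Int.castRingHom ℂ)) (σ γ)).2
    have hUirr : Irr U := by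
      refine ⟨⟨⟨0, ha⟩⟩, fun V hV => burn_irr _ hb V (fun v hvV => ?_) (fun v hvV => ?_)⟩
      · have := hV (FreeGroup.of i0) v hvV
        rw [show U (FreeGroup.of i0) = (A i0).map (Int.castRingHom ℂ) from congrFun hUof i0] at this
        exact this
      · have := hV (FreeGroup.of i1) v hvV
        rw [show U (FreeGroup.of i1) = (A i1).map (Int.castRingHom ℂ) from congrFun hUof i1] at this
        exact this
    have h2 := hv U hUdet hUirr fun γ i j => ⟨(σ γ).1 i j, by rw [hU]; simp⟩
    rw [hPQ U hUdet, hUof] at h2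
    show _ * _ = (0 : ℂ)
    rw [h2, zero_mul]
  -- a base point
  obtain ⟨M, hM, hMB⟩ : ∃ M : Fin n → Mat a, (∀ i, (M i).det = 1) ∧ B M ≠ 0 := by
    have hsc : ∀ N : Mat a, IsUnit N.det → ∃ κ : ℂ, κ ≠ 0 ∧ (κ • N).det = 1 := by
      intro N hN
      obtain ⟨κ, hκ⟩ := IsAlgClosed.exists_pow_nat_eq (N.det)⁻¹ ha
      have h2 : κ ^ a * N.det = 1 := by rw [hκ, inv_mul_cancel₀ hN.ne_zero]
      refine ⟨κ, ?_, by rw [det_smul, Fintype.card_fin, h2]⟩
      rintro rfl
      rw [zero_pow ha.ne', zero_mul] at h2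
      exact zero_ne_one h2
    let α : Fin a → ℂ := fun k => ((k : ℕ) : ℂ) + 1
    have hα0 : ∀ k, α k ≠ 0 := fun k => Nat.cast_add_one_ne_zero (k : ℕ)
    have hαi : Function.Injective α := fun k l h => by
      simp only [α, add_left_inj] at h
      exact Fin.ext (by exact_mod_cast h)
    obtain ⟨κ, hκ0, hκ⟩ := hsc (mono 0 α) (mono_isUnit 0 α hα0)
    obtain ⟨μ, hμ0, hμ⟩ := hsc (mono 1 1) (mono_isUnit 1 1 fun _ => one_ne_zero)
    refine ⟨fun i => if i = i0 then κ • mono 0 α else if i = i1 then μ • mono 1 1 else 1,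
      fun i => ?_, ?_⟩
    · show (if i = i0 then κ • mono 0 α else if i = i1 then μ • mono 1 1 else 1 : Mat a).det = 1
      by_cases h : i = i0
      · rw [if_pos h, hκ]
      · by_cases h' : i = i1
        · rw [if_neg h, if_pos h', hμ]
        · rw [if_neg h, if_neg h', det_one]
    · have e : burn (κ • (mono 0 α : Mat a), μ • (mono 1 1 : Mat a)) ≠ 0 :=
        burn_smul (mono 0 α, mono 1 1) κ μ hκ0 hμ0 (burn_base hαi)
      show burn ((if i0 = i0 then κ • mono 0 α else if i0 = i1 then μ • mono 1 1 else 1 : Mat a),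
        (if i1 = i0 then κ • mono 0 α else if i1 = i1 then μ • mono 1 1 else 1 : Mat a)) ≠ 0
      rw [if_pos rfl, if_neg h01, if_pos rfl]
      exact e
  obtain ⟨Φ, hΦ, hΦ0, hΦ1, hΦd⟩ := sl_curve M (fun i => U0 (FreeGroup.of i)) hM fun i => hdet _
  obtain ⟨q, hq⟩ := ZD.line_poly (polyFun_comp hQ hΦ)
  obtain ⟨b, hb⟩ := ZD.line_poly (polyFun_comp hB hΦ)
  have hqb : q * b = 0 := by
    apply Polynomial.funext
    intro s
    rw [Polynomial.eval_mul, ← hq, ← hb, Polynomial.eval_zero]
    exact hQB (Φ s) fun i => hΦd s i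
  have hb0 : b ≠ 0 := by
    rintro rfl
    apply hMB
    have := hb 0
    rw [hΦ0, Polynomial.eval_zero] at this
    exact this
  have hq0 : q = 0 := (mul_eq_zero.mp hqb).resolve_right hb0
  rw [hPQ U0 hdet]
  have := hq 1
  rw [hΦ1, hq0, Polynomial.eval_zero] at this
  exact this

end Vale.Agent.P002
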