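import Vale.Agent.P002.PDefs

/-!
P002: irreducible matrix representations: Burnside's theorem, external products, and irreducible
representations of a product of two groups.
-/

namespace Vale.Agent.P002

open Matrix

namespace PIrr

variable {Γ : Type} [Group Γ] {n : Type} [Fintype n] [DecidableEq n]

/-- the span of the operators of a representation -/
noncomputable def opSpan (ρ : Γ →* Matrix n n ℂ) : Submodule ℂ (Module.End ℂ (n → ℂ)) :=
  Submodule.span ℂ (Set.range fun γ => Matrix.toLinAlgEquiv' (ρ γ))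

lemma opSpan_one (ρ : Γ →* Matrix n n ℂ) : 1 ∈ opSpan ρ :=
  Submodule.subset_span ⟨1, by simp⟩

lemma opSpan_mul (ρ : Γ →* Matrix n n ℂ) (x y : Module.End ℂ (n → ℂ)) (hx : x ∈ opSpan ρ)
    (hy : y ∈ opSpan ρ) : x * y ∈ opSpan ρ := by
  unfold opSpan at *
  induction hx using Submodule.span_induction with
  | mem x hx =>
    obtain ⟨γ, rfl⟩ := hx
    induction hy using Submodule.span_induction with
    | mem y hy =>
      obtain ⟨δ, rfl⟩ := hy
      exact Submodule.subset_span ⟨γ * δ, by simp⟩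
    | zero => simp
    | add y z _ _ h1 h2 => rw [mul_add]; exact Submodule.add_mem _ h1 h2
    | smul c y _ h => rw [mul_smul_comm]; exact Submodule.smul_mem _ c h
  | zero => simp
  | add x z _ _ h1 h2 => rw [add_mul]; exact Submodule.add_mem _ h1 h2
  | smul c x _ h => rw [smul_mul_assoc]; exact Submodule.smul_mem _ c h

/-- the algebra of operators -/
noncomputable def opAlg (ρ : Γ →* Matrix n n ℂ) : Subalgebra ℂ (Module.End ℂ (n → ℂ)) :=
  (opSpan ρ).toSubalgebra (opSpan_one ρ) (opSpan_mul ρ)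

lemma mem_opAlg (ρ : Γ →* Matrix n n ℂ) (x : Module.End ℂ (n → ℂ)) :
    x ∈ opAlg ρ ↔ x ∈ opSpan ρ := Iff.rfl

lemma simple_of_irr (ρ : Γ →* Matrix n n ℂ) (h : Irr ρ) :
    IsSimpleModule (opAlg ρ) (n → ℂ) := by
  obtain ⟨hn, hirr⟩ := h
  have hnt : Nontrivial (n → ℂ) := Function.nontrivial
  rw [isSimpleModule_iff]
  refine { toNontrivial := inferInstance, eq_bot_or_eq_top := fun N => ?_ }
  have key : ∀ γ, ∀ v ∈ N.restrictScalars ℂ, (ρ γ).mulVec v ∈ N.restrictScalars ℂ := by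
    intro γ v hv
    have hmem : Matrix.toLinAlgEquiv' (ρ γ) ∈ opAlg ρ := Submodule.subset_span ⟨γ, rfl⟩
    have hsm := N.smul_mem (⟨_, hmem⟩ : opAlg ρ) hv
    have e : (⟨_, hmem⟩ : opAlg ρ) • v = (ρ γ).mulVec v := by
      change (Matrix.toLinAlgEquiv' (ρ γ)) v = _
      exact Matrix.toLinAlgEquiv'_apply _ _
    rw [e] at hsm
    exact hsm
  rcases hirr (N.restrictScalars ℂ) key with h | h
  · left
    rw [Submodule.restrictScalars_eq_bot_iff] at h
    exact h
  · right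
    rw [Submodule.restrictScalars_eq_top_iff] at h
    exact h

theorem opSpan_eq_top (ρ : Γ →* Matrix n n ℂ) (h : Irr ρ) : opSpan ρ = ⊤ := by
  have hs := simple_of_irr ρ h
  rw [eq_top_iff]
  intro T _
  have hschur := IsSimpleModule.algebraMap_end_bijective_of_isAlgClosed
    (A := opAlg ρ) (V := n → ℂ) ℂ
  let f : Module.End (Module.End (opAlg ρ) (n → ℂ)) (n → ℂ) :=
    { toFun := T
      map_add' := fun x y => map_add T x y
      map_smul' := fun g x => by
        obtain ⟨c, hc⟩ := hschur.2 g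
        rw [← hc]
        simp }
  obtain ⟨r, hr⟩ := jacobson_density (R := opAlg ρ) (M := n → ℂ) f (Finset.univ.image fun i : n => (Pi.single i 1 : n → ℂ))
  have : T = (r : Module.End ℂ (n → ℂ)) := by
    refine LinearMap.pi_ext' fun i => ?_
    ext1
    have := hr (Pi.single i 1) (Finset.mem_image_of_mem _ (Finset.mem_univ i))
    exact this
  rw [this]
  exact r.2

end PIrr

open PIrr

/-- **Burnside.** -/
theorem irr_span {Γ : Type} [Group Γ] {n : Type} [Fintype n] [DecidableEq n]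
    (ρ : Γ →* Matrix n n ℂ) (h : Irr ρ) :
    Submodule.span ℂ (Set.range fun γ => ρ γ) = ⊤ := by
  have h1 := opSpan_eq_top ρ h
  have h2 : opSpan ρ = (Submodule.span ℂ (Set.range fun γ => ρ γ)).map
      (Matrix.toLinAlgEquiv' : Matrix n n ℂ ≃ₐ[ℂ] _).toLinearMap := by
    rw [Submodule.map_span]
    unfold opSpan
    congr 1
    rw [← Set.range_comp]
    rfl
  rw [h2] at h1
  have h3 := Submodule.map_injective_of_injective
    (f := (Matrix.toLinAlgEquiv' : Matrix n n ℂ ≃ₐ[ℂ] _).toLinearMap)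
    (Matrix.toLinAlgEquiv' : Matrix n n ℂ ≃ₐ[ℂ] _).injective
  apply h3
  rw [h1, Submodule.map_top, eq_comm, LinearMap.range_eq_top]
  exact (Matrix.toLinAlgEquiv' : Matrix n n ℂ ≃ₐ[ℂ] _).surjective

/-- a subspace invariant under the representation is invariant under the span -/
theorem mulVec_mem_of_span {Γ : Type} [Group Γ] {n : Type} [Fintype n] [DecidableEq n]
    (ρ : Γ →* Matrix n n ℂ) (V : Submodule ℂ (n → ℂ))
    (hV : ∀ γ, ∀ v ∈ V, (ρ γ).mulVec v ∈ V) (T : Matrix n n ℂ)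
    (hT : T ∈ Submodule.span ℂ (Set.range fun γ => ρ γ)) (v : n → ℂ) (hv : v ∈ V) :
    T.mulVec v ∈ V := by
  induction hT using Submodule.span_induction with
  | mem x hx => obtain ⟨γ, rfl⟩ := hx; exact hV γ v hv
  | zero => rw [Matrix.zero_mulVec]; exact V.zero_mem
  | add x y _ _ h1 h2 => rw [Matrix.add_mulVec]; exact V.add_mem h1 h2
  | smul c x _ h => rw [Matrix.smul_mulVec]; exact V.smul_mem c h

theorem irr_of_span {Γ : Type} [Group Γ] {n : Type} [Fintype n] [DecidableEq n] [Nonempty n]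
    (ρ : Γ →* Matrix n n ℂ)
    (h : Submodule.span ℂ (Set.range fun γ => ρ γ) = ⊤) : Irr ρ := by
  refine ⟨inferInstance, fun V hV => ?_⟩
  by_cases hbot : V = ⊥
  · exact Or.inl hbot
  · right
    obtain ⟨v, hv, hv0⟩ := Submodule.exists_mem_ne_zero_of_ne_bot hbot
    obtain ⟨i, hi⟩ : ∃ i, v i ≠ 0 := by
      by_contra hcon
      push Not at hcon
      exact hv0 (funext hcon)
    rw [eq_top_iff]
    intro u _
    have hT : (Matrix.vecMulVec u (Pi.single i (v i)⁻¹)) ∈
        Submodule.span ℂ (Set.range fun γ => ρ γ) := by rw [h]; trivial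
    have := mulVec_mem_of_span ρ V hV _ hT v hv
    have e : (Matrix.vecMulVec u (Pi.single i (v i)⁻¹)).mulVec v = u := by
      rw [Matrix.vecMulVec_mulVec]
      simp [hi]
    rwa [e] at this


/-! ### equivalence of representations -/

theorem Eqv.refl' {Γ : Type} [Group Γ] {n : Type} [Fintype n] [DecidableEq n]
    (ρ : Γ →* Matrix n n ℂ) : Eqv ρ ρ := ⟨1, by simp, fun γ => by simp⟩

theorem Eqv.symm' {Γ : Type} [Group Γ] {n : Type} [Fintype n] [DecidableEq n]
    {ρ ρ' : Γ →* Matrix n n ℂ} (h : Eqv ρ ρ') : Eqv ρ' ρ := by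
  obtain ⟨g, hg, hρ⟩ := h
  refine ⟨g⁻¹, Matrix.isUnit_nonsing_inv_det g hg, fun γ => ?_⟩
  rw [hρ γ, Matrix.nonsing_inv_nonsing_inv g hg]
  calc ρ γ = (g⁻¹ * g) * ρ γ * (g⁻¹ * g) := by rw [Matrix.nonsing_inv_mul g hg]; simp
    _ = g⁻¹ * (g * ρ γ * g⁻¹) * g := by simp only [Matrix.mul_assoc]

theorem Eqv.trans' {Γ : Type} [Group Γ] {n : Type} [Fintype n] [DecidableEq n]
    {ρ ρ' ρ'' : Γ →* Matrix n n ℂ} (h : Eqv ρ ρ') (h' : Eqv ρ' ρ'') : Eqv ρ ρ'' := by
  obtain ⟨g, hg, hρ⟩ := h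
  obtain ⟨g', hg', hρ'⟩ := h'
  refine ⟨g' * g, by rw [Matrix.det_mul]; exact hg'.mul hg, fun γ => ?_⟩
  rw [hρ' γ, hρ γ, Matrix.mul_inv_rev]
  simp only [Matrix.mul_assoc]

theorem Eqv.irr {Γ : Type} [Group Γ] {n : Type} [Fintype n] [DecidableEq n]
    {ρ ρ' : Γ →* Matrix n n ℂ} (h : Eqv ρ ρ') (hi : Irr ρ) : Irr ρ' := by
  obtain ⟨g, hg, hρ⟩ := h
  obtain ⟨hn, hirr⟩ := hi
  refine ⟨hn, fun V hV => ?_⟩
  have hgi : ∀ v : n → ℂ, g.mulVec (g⁻¹.mulVec v) = v := fun v => by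
    rw [Matrix.mulVec_mulVec, Matrix.mul_nonsing_inv g hg, Matrix.one_mulVec]
  have hig : ∀ v : n → ℂ, g⁻¹.mulVec (g.mulVec v) = v := fun v => by
    rw [Matrix.mulVec_mulVec, Matrix.nonsing_inv_mul g hg, Matrix.one_mulVec]
  rcases hirr (V.comap (Matrix.toLin' g)) (fun γ v hv => by
    rw [Submodule.mem_comap, Matrix.toLin'_apply] at hv ⊢
    have h1 := hV γ _ hv
    rw [hρ γ, ← Matrix.mulVec_mulVec, ← Matrix.mulVec_mulVec, hig] at h1
    exact h1) with h | h
  · left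
    rw [Submodule.eq_bot_iff] at h ⊢
    intro v hv
    have h1 := h (g⁻¹.mulVec v) (by
      rw [Submodule.mem_comap, Matrix.toLin'_apply, hgi]; exact hv)
    rw [← hgi v, h1, Matrix.mulVec_zero]
  · right
    rw [Submodule.eq_top_iff'] at h ⊢
    intro v
    have h1 := h (g⁻¹.mulVec v)
    rw [Submodule.mem_comap, Matrix.toLin'_apply, hgi] at h1
    exact h1

/-! ### external products -/

open scoped Kronecker

/-- the external product of two matrix representations -/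
noncomputable def kronHom {Γ1 Γ2 : Type} [Group Γ1] [Group Γ2] {p q n : Type}
    [Fintype p] [DecidableEq p] [Fintype q] [DecidableEq q] [Fintype n] [DecidableEq n]
    (e : p × q ≃ n) (A : Γ1 →* Matrix p p ℂ) (B : Γ2 →* Matrix q q ℂ) :
    Γ1 × Γ2 →* Matrix n n ℂ where
  toFun γ := Matrix.reindex e e (A γ.1 ⊗ₖ B γ.2)
  map_one' := by
    simp only [Prod.fst_one, Prod.snd_one, map_one, Matrix.one_kronecker_one]
    exact Matrix.submatrix_one_equiv e.symm
  map_mul' γ δ := by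
    simp only [Prod.fst_mul, Prod.snd_mul, map_mul, Matrix.mul_kronecker_mul]
    rw [Matrix.reindex_apply, Matrix.reindex_apply, Matrix.reindex_apply,
      Matrix.submatrix_mul_equiv]

@[simp]
theorem kronHom_apply {Γ1 Γ2 : Type} [Group Γ1] [Group Γ2] {p q n : Type}
    [Fintype p] [DecidableEq p] [Fintype q] [DecidableEq q] [Fintype n] [DecidableEq n]
    (e : p × q ≃ n) (A : Γ1 →* Matrix p p ℂ) (B : Γ2 →* Matrix q q ℂ) (γ : Γ1 × Γ2) :
    kronHom e A B γ = Matrix.reindex e e (A γ.1 ⊗ₖ B γ.2) := rfl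

theorem irr_kron {Γ1 Γ2 : Type} [Group Γ1] [Group Γ2] {p q n : Type}
    [Fintype p] [DecidableEq p] [Fintype q] [DecidableEq q] [Fintype n] [DecidableEq n]
    (e : p × q ≃ n) (A : Γ1 →* Matrix p p ℂ) (B : Γ2 →* Matrix q q ℂ)
    (hA : Irr A) (hB : Irr B) : Irr (kronHom e A B) := by
  have hn : Nonempty n := by
    obtain ⟨i⟩ := hA.1
    obtain ⟨j⟩ := hB.1
    exact ⟨e (i, j)⟩
  have hAs := irr_span A hA
  have hBs := irr_span B hB
  apply irr_of_span
  have key : ∀ S : Matrix p p ℂ, ∀ T : Matrix q q ℂ, Matrix.reindex e e (S ⊗ₖ T) ∈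
      Submodule.span ℂ (Set.range fun γ => kronHom e A B γ) := by
    intro S T
    have hS : S ∈ Submodule.span ℂ (Set.range fun γ => A γ) := by rw [hAs]; trivial
    have hT : T ∈ Submodule.span ℂ (Set.range fun γ => B γ) := by rw [hBs]; trivial
    induction hS using Submodule.span_induction with
    | mem x hx =>
      obtain ⟨γ, rfl⟩ := hx
      induction hT using Submodule.span_induction with
      | mem y hy =>
        obtain ⟨δ, rfl⟩ := hy
        exact Submodule.subset_span ⟨(γ, δ), rfl⟩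
      | zero =>
        rw [Matrix.kronecker_zero]
        exact Submodule.zero_mem _
      | add y z _ _ h1 h2 =>
        rw [Matrix.kronecker_add]
        exact Submodule.add_mem _ h1 h2
      | smul c y _ h =>
        rw [Matrix.kronecker_smul]
        exact Submodule.smul_mem _ c h
    | zero =>
      rw [Matrix.zero_kronecker]
      exact Submodule.zero_mem _
    | add x z _ _ h1 h2 =>
      rw [Matrix.add_kronecker]
      exact Submodule.add_mem _ h1 h2
    | smul c x _ h =>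
      rw [Matrix.smul_kronecker]
      exact Submodule.smul_mem _ c h
  rw [eq_top_iff]
  intro M _
  rw [Matrix.matrix_eq_sum_single M]
  refine Submodule.sum_mem _ fun x _ => Submodule.sum_mem _ fun y _ => ?_
  have hxy := key (Matrix.single (e.symm x).1 (e.symm y).1 (M x y))
    (Matrix.single (e.symm x).2 (e.symm y).2 1)
  have e1 : Matrix.reindex e e (Matrix.single (e.symm x).1 (e.symm y).1 (M x y) ⊗ₖ
      Matrix.single (e.symm x).2 (e.symm y).2 (1 : ℂ)) = Matrix.single x y (M x y) := by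
    ext u v
    rw [Matrix.reindex_apply, Matrix.submatrix_apply, Matrix.kronecker_apply,
      Matrix.single_apply, Matrix.single_apply, Matrix.single_apply]
    by_cases h : x = u ∧ y = v
    · obtain ⟨rfl, rfl⟩ := h
      simp
    · rw [if_neg h]
      by_cases h1 : (e.symm x).1 = (e.symm u).1 ∧ (e.symm y).1 = (e.symm v).1
      · rw [if_pos h1, if_neg, mul_zero]
        rintro ⟨h2, h3⟩
        apply h
        exact ⟨e.symm.injective (Prod.ext h1.1 h2), e.symm.injective (Prod.ext h1.2 h3)⟩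
      · rw [if_neg h1, zero_mul]
  rwa [e1] at hxy


/-! ### irreducible representations of a product -/

namespace PIrr

/-- coordinates for an abstract finite dimensional representation -/
theorem exists_matrix_rep {Γ : Type} [Group Γ] {U : Type} [AddCommGroup U] [Module ℂ U]
    [FiniteDimensional ℂ U] (r : Γ →* Module.End ℂ U) :
    ∃ (d : ℕ) (_ : d = Module.finrank ℂ U) (A : Γ →* Matrix (Fin d) (Fin d) ℂ)
      (φ : (Fin d → ℂ) ≃ₗ[ℂ] U),
      ∀ γ w, r γ (φ w) = φ ((A γ).mulVec w) := by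
  let b := Module.finBasis ℂ U
  refine ⟨Module.finrank ℂ U, rfl, ((LinearMap.toMatrixAlgEquiv b : Module.End ℂ U ≃ₐ[ℂ] _) :
    Module.End ℂ U →* Matrix _ _ ℂ).comp r, b.equivFun.symm, fun γ w => ?_⟩
  apply b.equivFun.injective
  rw [LinearEquiv.apply_symm_apply]
  have h := LinearMap.toMatrix_mulVec_repr b b (r γ) (b.equivFun.symm w)
  have e1 : (b.repr (b.equivFun.symm w) : Fin (Module.finrank ℂ U) → ℂ) = w := by
    rw [← Module.Basis.equivFun_apply, LinearEquiv.apply_symm_apply]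
  rw [e1] at h
  rw [Module.Basis.equivFun_apply, ← h]
  rfl

variable {Γ1 Γ2 : Type} [Group Γ1] [Group Γ2] {p q n : Type}
    [Fintype p] [DecidableEq p] [Fintype q] [DecidableEq q] [Fintype n] [DecidableEq n]

/-- intertwiners from `A` to the restriction of `ρ` to the first factor -/
def Hom1 (ρ : Γ1 × Γ2 →* Matrix n n ℂ) (A : Γ1 →* Matrix p p ℂ) :
    Submodule ℂ ((p → ℂ) →ₗ[ℂ] (n → ℂ)) where
  carrier := {f | ∀ γ w, (ρ (γ, 1)).mulVec (f w) = f ((A γ).mulVec w)}
  add_mem' := fun {f g} hf hg γ w => by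
    simp only [LinearMap.add_apply, Matrix.mulVec_add]
    rw [hf γ w, hg γ w]
  zero_mem' := fun γ w => by simp
  smul_mem' := fun c f hf γ w => by
    simp only [LinearMap.smul_apply, Matrix.mulVec_smul]
    rw [hf γ w]

lemma mem_Hom1 (ρ : Γ1 × Γ2 →* Matrix n n ℂ) (A : Γ1 →* Matrix p p ℂ)
    (f : (p → ℂ) →ₗ[ℂ] (n → ℂ)) :
    f ∈ Hom1 ρ A ↔ ∀ γ w, (ρ (γ, 1)).mulVec (f w) = f ((A γ).mulVec w) := Iff.rfl

lemma comm12 (ρ : Γ1 × Γ2 →* Matrix n n ℂ) (γ : Γ1) (δ : Γ2) (v : n → ℂ) :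
    (ρ (γ, 1)).mulVec ((ρ (1, δ)).mulVec v) = (ρ (1, δ)).mulVec ((ρ (γ, 1)).mulVec v) := by
  rw [Matrix.mulVec_mulVec, Matrix.mulVec_mulVec, ← map_mul, ← map_mul]
  simp

lemma split12 (ρ : Γ1 × Γ2 →* Matrix n n ℂ) (γ : Γ1) (δ : Γ2) (v : n → ℂ) :
    (ρ (γ, δ)).mulVec v = (ρ (1, δ)).mulVec ((ρ (γ, 1)).mulVec v) := by
  rw [Matrix.mulVec_mulVec, ← map_mul]
  simp

/-- the action of the second factor on the intertwiners -/
noncomputable def act2 (ρ : Γ1 × Γ2 →* Matrix n n ℂ) (A : Γ1 →* Matrix p p ℂ) :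
    Γ2 →* Module.End ℂ (Hom1 ρ A) where
  toFun δ :=
    { toFun := fun f => ⟨(Matrix.toLin' (ρ (1, δ))).comp f.1, fun γ w => by
        simp only [LinearMap.comp_apply, Matrix.toLin'_apply]
        rw [comm12, f.2 γ w]⟩
      map_add' := fun f g => by
        ext1
        simp only [Submodule.coe_add, LinearMap.comp_add]
      map_smul' := fun c f => by
        ext1
        simp only [Submodule.coe_smul, LinearMap.comp_smul, RingHom.id_apply] }
  map_one' := by
    ext1 f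
    apply Subtype.ext
    change (Matrix.toLin' (ρ (1, 1))).comp f.1 = f.1
    rw [show ((1, 1) : Γ1 × Γ2) = 1 from rfl, map_one, Matrix.toLin'_one, LinearMap.id_comp]
  map_mul' δ ε := by
    ext1 f
    apply Subtype.ext
    change (Matrix.toLin' (ρ (1, δ * ε))).comp f.1
      = (Matrix.toLin' (ρ (1, δ))).comp ((Matrix.toLin' (ρ (1, ε))).comp f.1)
    rw [show ((1, δ * ε) : Γ1 × Γ2) = (1, δ) * (1, ε) by simp, map_mul, Matrix.toLin'_mul,
      LinearMap.comp_assoc]

lemma act2_apply (ρ : Γ1 × Γ2 →* Matrix n n ℂ) (A : Γ1 →* Matrix p p ℂ) (δ : Γ2)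
    (f : Hom1 ρ A) (w : p → ℂ) :
    (act2 ρ A δ f).1 w = (ρ (1, δ)).mulVec (f.1 w) := rfl

/-- the evaluation map -/
noncomputable def evm {H : Submodule ℂ ((p → ℂ) →ₗ[ℂ] (n → ℂ))} (ψ : (q → ℂ) ≃ₗ[ℂ] H) :
    (p × q → ℂ) →ₗ[ℂ] (n → ℂ) where
  toFun w := ∑ j, (ψ (Pi.single j 1)).1 (fun i => w (i, j))
  map_add' w w' := by
    rw [← Finset.sum_add_distrib]
    refine Finset.sum_congr rfl fun j _ => ?_
    rw [← map_add]
    rfl
  map_smul' c w := by
    rw [RingHom.id_apply, Finset.smul_sum]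
    refine Finset.sum_congr rfl fun j _ => ?_
    rw [← map_smul]
    rfl

lemma evm_apply {H : Submodule ℂ ((p → ℂ) →ₗ[ℂ] (n → ℂ))} (ψ : (q → ℂ) ≃ₗ[ℂ] H)
    (w : p × q → ℂ) : evm ψ w = ∑ j, (ψ (Pi.single j 1)).1 (fun i => w (i, j)) := rfl

lemma psi_eq {H : Submodule ℂ ((p → ℂ) →ₗ[ℂ] (n → ℂ))} (ψ : (q → ℂ) ≃ₗ[ℂ] H) (c : q → ℂ)
    (u : p → ℂ) : (ψ c).1 u = ∑ j, c j • (ψ (Pi.single j 1)).1 u := by
  have h : c = ∑ j, c j • (Pi.single j 1 : q → ℂ) := by
    funext i
    simp [Finset.sum_apply, Pi.single_apply]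
  conv_lhs => rw [h]
  rw [map_sum, Submodule.coe_sum, LinearMap.sum_apply]
  refine Finset.sum_congr rfl fun j _ => ?_
  rw [map_smul]
  rfl

lemma kron_mulVec (A : Matrix p p ℂ) (B : Matrix q q ℂ) (w : p × q → ℂ) (i : p) (j : q) :
    (A ⊗ₖ B).mulVec w (i, j) = ∑ l, B j l * A.mulVec (fun k => w (k, l)) i := by
  unfold Matrix.mulVec dotProduct
  rw [Fintype.sum_prod_type, Finset.sum_comm]
  refine Finset.sum_congr rfl fun l _ => ?_
  rw [Finset.mul_sum]
  refine Finset.sum_congr rfl fun k _ => ?_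
  change (A i k * B j l) * w (k, l) = B j l * (A i k * w (k, l))
  ring

lemma evm_equivariant (ρ : Γ1 × Γ2 →* Matrix n n ℂ) (A : Γ1 →* Matrix p p ℂ)
    (B : Γ2 →* Matrix q q ℂ) (ψ : (q → ℂ) ≃ₗ[ℂ] Hom1 ρ A)
    (hψ : ∀ δ c, act2 ρ A δ (ψ c) = ψ ((B δ).mulVec c)) (γ : Γ1) (δ : Γ2) (w : p × q → ℂ) :
    (ρ (γ, δ)).mulVec (evm ψ w) = evm ψ ((A γ ⊗ₖ B δ).mulVec w) := by
  rw [evm_apply, evm_apply, Matrix.mulVec_sum]
  have h1 : ∀ j : q, (ρ (γ, δ)).mulVec ((ψ (Pi.single j 1)).1 (fun i => w (i, j)))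
      = ∑ l, B δ l j • (ψ (Pi.single l 1)).1 ((A γ).mulVec (fun i => w (i, j))) := by
    intro j
    rw [split12, (ψ (Pi.single j 1)).2 γ, ← act2_apply, hψ, psi_eq]
    refine Finset.sum_congr rfl fun l _ => ?_
    simp
  simp only [h1]
  rw [Finset.sum_comm]
  refine Finset.sum_congr rfl fun l _ => ?_
  have h2 : (fun i => (A γ ⊗ₖ B δ).mulVec w (i, l))
      = ∑ j, B δ l j • (A γ).mulVec (fun k => w (k, j)) := by
    funext i
    rw [kron_mulVec, Finset.sum_apply]
    rfl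
  rw [h2, map_sum]
  refine Finset.sum_congr rfl fun j _ => ?_
  rw [map_smul]

lemma evm_injective (ρ : Γ1 × Γ2 →* Matrix n n ℂ) (A : Γ1 →* Matrix p p ℂ) (hA : Irr A)
    (ψ : (q → ℂ) ≃ₗ[ℂ] Hom1 ρ A) : Function.Injective (evm ψ) := by
  rw [injective_iff_map_eq_zero]
  intro w hw
  rw [evm_apply] at hw
  have hspan := irr_span A hA
  have key : ∀ T : Matrix p p ℂ, ∑ j, (ψ (Pi.single j 1)).1 (T.mulVec fun i => w (i, j)) = 0 := by
    intro T
    have hT : T ∈ Submodule.span ℂ (Set.range fun γ => A γ) := by rw [hspan]; trivial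
    induction hT using Submodule.span_induction with
    | mem x hx =>
      obtain ⟨γ, rfl⟩ := hx
      have h1 : ∀ j : q, (ψ (Pi.single j 1)).1 ((A γ).mulVec fun i => w (i, j))
          = (ρ (γ, 1)).mulVec ((ψ (Pi.single j 1)).1 fun i => w (i, j)) := fun j =>
        ((ψ (Pi.single j 1)).2 γ _).symm
      simp only [h1]
      rw [← Matrix.mulVec_sum, hw, Matrix.mulVec_zero]
    | zero => simp
    | add x y _ _ h1 h2 =>
      simp only [Matrix.add_mulVec, map_add, Finset.sum_add_distrib, h1, h2, add_zero]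
    | smul c x _ h =>
      simp only [Matrix.smul_mulVec, map_smul]
      rw [← Finset.smul_sum, h, smul_zero]
  funext ⟨i0, j0⟩
  have hc : (fun j => w (i0, j)) = 0 := by
    have h0 : ψ (fun j => w (i0, j)) = 0 := by
      apply Subtype.ext
      refine LinearMap.ext fun u => ?_
      rw [psi_eq]
      have h1 := key (Matrix.vecMulVec u (Pi.single i0 1))
      have h2 : ∀ j : q, (Matrix.vecMulVec u (Pi.single i0 (1 : ℂ))).mulVec (fun i => w (i, j))
          = w (i0, j) • u := by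
        intro j
        rw [Matrix.vecMulVec_mulVec]
        simp
      simp only [h2, map_smul] at h1
      exact h1
    exact (LinearEquiv.map_eq_zero_iff ψ).1 h0
  exact congrFun hc j0


lemma act2_compat (ρ : Γ1 × Γ2 →* Matrix n n ℂ) (hρ : Irr ρ) (A : Γ1 →* Matrix p p ℂ)
    (B : Γ2 →* Matrix q q ℂ) (ψ : (q → ℂ) ≃ₗ[ℂ] Hom1 ρ A)
    (hψ : ∀ δ c, act2 ρ A δ (ψ c) = ψ ((B δ).mulVec c)) (hne : ∃ f ∈ Hom1 ρ A, f ≠ 0) :
    Function.Surjective (evm ψ) := by
  rcases hρ.2 (LinearMap.range (evm ψ)) (by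
    rintro ⟨γ, δ⟩ v ⟨w, rfl⟩
    rw [evm_equivariant ρ A B ψ hψ]
    exact ⟨_, rfl⟩) with h | h
  · exfalso
    obtain ⟨f, hf, hf0⟩ := hne
    rw [LinearMap.range_eq_bot] at h
    apply hf0
    obtain ⟨c, hc⟩ := ψ.surjective ⟨f, hf⟩
    have hz : ∀ j (u : p → ℂ), (ψ (Pi.single j 1)).1 u = 0 := by
      intro j u
      have h1 := congrArg (fun F => F (fun x : p × q => if x.2 = j then u x.1 else 0)) h
      simp only [evm_apply, LinearMap.zero_apply] at h1
      rw [Finset.sum_eq_single j] at h1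
      · simpa using h1
      · intro l _ hl
        have : (fun i : p => if l = j then u i else 0) = 0 := by
          funext i; simp [hl]
        rw [this, map_zero]
      · intro hj
        exact absurd (Finset.mem_univ j) hj
    refine LinearMap.ext fun u => ?_
    have h2 : f u = (ψ c).1 u := by rw [hc]
    rw [h2, psi_eq]
    simp [hz]
  · exact LinearMap.range_eq_top.1 h

end PIrr

open PIrr

/-- Irreducible representations of a product are external products. -/
theorem irr_prod {Γ1 Γ2 : Type} [Group Γ1] [Group Γ2] {a : ℕ}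
    (ρ : Γ1 × Γ2 →* Matrix (Fin a) (Fin a) ℂ) (h : Irr ρ) :
    ∃ (p q : ℕ) (e : Fin p × Fin q ≃ Fin a) (A : Γ1 →* Matrix (Fin p) (Fin p) ℂ)
      (B : Γ2 →* Matrix (Fin q) (Fin q) ℂ), Irr A ∧ Irr B ∧ Eqv (kronHom e A B) ρ := by
  classical
  obtain ⟨hne, hirr⟩ := id h
  -- a minimal nonzero invariant subspace of the first factor
  obtain ⟨V1, ⟨hV1ne, hV1⟩, hmin⟩ := WellFounded.has_min
    (wellFounded_lt : WellFounded (fun x y : Submodule ℂ (Fin a → ℂ) => x < y))
    {V : Submodule ℂ (Fin a → ℂ) | V ≠ ⊥ ∧ ∀ γ, ∀ v ∈ V, (ρ (γ, 1)).mulVec v ∈ V}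
    ⟨⊤, by
      have : Nontrivial (Fin a → ℂ) := Function.nontrivial
      exact top_ne_bot, fun _ _ _ => trivial⟩
  -- its representation
  let r1 : Γ1 →* Module.End ℂ V1 :=
    { toFun := fun γ => (Matrix.toLin' (ρ (γ, 1))).restrict (fun v hv => hV1 γ v hv)
      map_one' := by
        refine LinearMap.ext fun v => Subtype.ext ?_
        change (ρ (1, 1)).mulVec v.1 = v.1
        rw [show ((1, 1) : Γ1 × Γ2) = 1 from rfl, map_one, Matrix.one_mulVec]
      map_mul' := fun γ δ => by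
        refine LinearMap.ext fun v => Subtype.ext ?_
        change (ρ (γ * δ, 1)).mulVec v.1 = (ρ (γ, 1)).mulVec ((ρ (δ, 1)).mulVec v.1)
        rw [Matrix.mulVec_mulVec, ← map_mul]
        simp }
  have hr1 : ∀ γ (v : V1), ((r1 γ v : V1) : Fin a → ℂ) = (ρ (γ, 1)).mulVec v.1 := fun _ _ => rfl
  obtain ⟨p, hp, A, φ, hφ⟩ := exists_matrix_rep r1
  have hp0 : 0 < p := by
    rw [hp, Module.finrank_pos_iff]
    exact (Submodule.nontrivial_iff_ne_bot).2 hV1ne
  have hA : Irr A := by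
    refine ⟨⟨⟨0, hp0⟩⟩, fun U hU => ?_⟩
    by_cases hUbot : U = ⊥
    · exact Or.inl hUbot
    · right
      -- the image in `V`
      let W : Submodule ℂ (Fin a → ℂ) := U.map (V1.subtype ∘ₗ (φ : (Fin p → ℂ) →ₗ[ℂ] V1))
      have hWle : W ≤ V1 := by
        rintro _ ⟨u, _, rfl⟩
        exact (φ u).2
      have hWne : W ≠ ⊥ := by
        intro hW
        apply hUbot
        rw [Submodule.eq_bot_iff] at hW ⊢
        intro u hu
        have := hW _ (Submodule.mem_map_of_mem hu)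
        have h2 : φ u = 0 := Subtype.ext this
        exact (LinearEquiv.map_eq_zero_iff φ).1 h2
      have hWinv : ∀ γ, ∀ v ∈ W, (ρ (γ, 1)).mulVec v ∈ W := by
        rintro γ _ ⟨u, hu, rfl⟩
        refine ⟨(A γ).mulVec u, hU γ u hu, ?_⟩
        have h5 := congrArg Subtype.val (hφ γ u)
        rw [hr1] at h5
        exact h5.symm
      have hWeq : W = V1 := by
        by_contra hcon
        exact hmin W ⟨hWne, hWinv⟩ (lt_of_le_of_ne hWle hcon)
      rw [Submodule.eq_top_iff']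
      intro u
      have hu : (φ u : Fin a → ℂ) ∈ W := by rw [hWeq]; exact (φ u).2
      obtain ⟨u', hu', he⟩ := hu
      have h3 : φ u' = φ u := Subtype.ext he
      have h4 : u' = u := φ.injective h3
      rw [← h4]
      exact hu'
  -- the multiplicity space
  obtain ⟨q, _, B, ψ, hψ⟩ := exists_matrix_rep (U := Hom1 ρ A) (act2 ρ A)
  have hnz : ∃ f ∈ Hom1 ρ A, f ≠ 0 := by
    refine ⟨V1.subtype ∘ₗ (φ : (Fin p → ℂ) →ₗ[ℂ] V1), fun γ w => ?_, ?_⟩
    · have h5 := congrArg Subtype.val (hφ γ w)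
      rw [hr1] at h5
      exact h5
    · intro h0
      have h1 := congrArg (fun F => F (Pi.single ⟨0, hp0⟩ 1)) h0
      have h2 : φ (Pi.single ⟨0, hp0⟩ 1) = 0 := Subtype.ext h1
      have h3 := (LinearEquiv.map_eq_zero_iff φ).1 h2
      have h4 := congrFun h3 ⟨0, hp0⟩
      simp at h4
  have hsurj := act2_compat ρ h A B ψ hψ hnz
  have hinj := evm_injective ρ A hA ψ
  let Φ : (Fin p × Fin q → ℂ) ≃ₗ[ℂ] (Fin a → ℂ) := LinearEquiv.ofBijective (evm ψ) ⟨hinj, hsurj⟩
  have hcard : Fintype.card (Fin p × Fin q) = Fintype.card (Fin a) := by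
    have := LinearEquiv.finrank_eq Φ
    rwa [Module.finrank_fintype_fun_eq_card, Module.finrank_fintype_fun_eq_card] at this
  let e : Fin p × Fin q ≃ Fin a := Fintype.equivOfCardEq hcard
  have hq0 : Nonempty (Fin q) := by
    obtain ⟨x⟩ := hne
    exact ⟨(e.symm x).2⟩
  have hB : Irr B := by
    refine ⟨hq0, fun U hU => ?_⟩
    let W : Submodule ℂ (Fin p × Fin q → ℂ) :=
      { carrier := {w | ∀ i, (fun j => w (i, j)) ∈ U}
        add_mem' := fun {x y} hx hy i => U.add_mem (hx i) (hy i)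
        zero_mem' := fun i => U.zero_mem
        smul_mem' := fun c x hx i => U.smul_mem c (hx i) }
    have hWinv : ∀ γ : Γ1 × Γ2, ∀ v ∈ W.map (evm ψ), (ρ γ).mulVec v ∈ W.map (evm ψ) := by
      rintro ⟨γ, δ⟩ _ ⟨w, hw, rfl⟩
      rw [evm_equivariant ρ A B ψ hψ]
      refine ⟨_, ?_, rfl⟩
      intro i
      have h1 : (fun j => (A γ ⊗ₖ B δ).mulVec w (i, j))
          = ∑ k, A γ i k • (B δ).mulVec (fun l => w (k, l)) := by
        funext j
        rw [kron_mulVec, Finset.sum_apply]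
        simp only [Matrix.mulVec, dotProduct, Pi.smul_apply, smul_eq_mul, Finset.mul_sum]
        rw [Finset.sum_comm]
        refine Finset.sum_congr rfl fun k _ => Finset.sum_congr rfl fun l _ => ?_
        ring
      rw [h1]
      exact U.sum_mem fun k _ => U.smul_mem _ (hU δ _ (hw k))
    rcases hirr _ hWinv with h0 | h0
    · left
      rw [Submodule.eq_bot_iff]
      intro u hu
      have hm : evm ψ (fun x : Fin p × Fin q => u x.2) ∈ W.map (evm ψ) :=
        ⟨_, fun _ => hu, rfl⟩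
      rw [h0, Submodule.mem_bot] at hm
      have h1 := (injective_iff_map_eq_zero (evm ψ)).1 hinj _ hm
      funext j
      exact congrFun h1 (⟨0, hp0⟩, j)
    · right
      rw [Submodule.eq_top_iff']
      intro u
      have h1 : evm ψ (fun x => u x.2) ∈ W.map (evm ψ) := by rw [h0]; trivial
      obtain ⟨w, hw, he⟩ := h1
      have h2 := hinj he
      have h3 := hw ⟨0, hp0⟩
      rw [h2] at h3
      exact h3
  refine ⟨p, q, e, A, B, hA, hB, ?_⟩
  -- the intertwiner
  let Ψ : (Fin a → ℂ) ≃ₗ[ℂ] (Fin a → ℂ) := (LinearEquiv.funCongrLeft ℂ ℂ e).trans Φ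
  have hΨ : ∀ v, Ψ v = evm ψ (v ∘ e) := fun v => rfl
  have hmul : LinearMap.toMatrix' (Ψ : (Fin a → ℂ) →ₗ[ℂ] (Fin a → ℂ)) *
      LinearMap.toMatrix' (Ψ.symm : (Fin a → ℂ) →ₗ[ℂ] (Fin a → ℂ)) = 1 := by
    rw [← LinearMap.toMatrix'_comp]
    simp
  have hdet : IsUnit (LinearMap.toMatrix' (Ψ : (Fin a → ℂ) →ₗ[ℂ] (Fin a → ℂ))).det :=
    Matrix.isUnit_det_of_right_inverse hmul
  refine ⟨LinearMap.toMatrix' (Ψ : (Fin a → ℂ) →ₗ[ℂ] (Fin a → ℂ)), hdet, fun γ => ?_⟩
  have hint : ρ γ * LinearMap.toMatrix' (Ψ : (Fin a → ℂ) →ₗ[ℂ] (Fin a → ℂ))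
      = LinearMap.toMatrix' (Ψ : (Fin a → ℂ) →ₗ[ℂ] (Fin a → ℂ)) * kronHom e A B γ := by
    apply Matrix.toLin'.injective
    refine LinearMap.ext fun v => ?_
    rw [Matrix.toLin'_mul, Matrix.toLin'_mul, Matrix.toLin'_toMatrix']
    simp only [LinearMap.comp_apply, Matrix.toLin'_apply, LinearEquiv.coe_coe]
    rw [hΨ, hΨ]
    obtain ⟨γ1, γ2⟩ := γ
    rw [evm_equivariant ρ A B ψ hψ]
    congr 1
    rw [kronHom_apply, Matrix.reindex_apply]
    funext x
    rw [Function.comp_apply, Matrix.submatrix_mulVec_equiv]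
    simp [Function.comp_def]
  rw [← hint, Matrix.mul_assoc, Matrix.mul_nonsing_inv _ hdet, Matrix.mul_one]

end Vale.Agent.P002
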