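import Vale.Agent.P002.PGroups
import Vale.Agent.P002.PIrr
import Vale.Agent.P002.PFree
import Vale.Agent.P002.FinalC

/-!
# Density of integral representations with prescribed classes: surface groups and free groups
-/

namespace Vale.Agent.P002

open Matrix NumberField

namespace PSf

section words
variable {Γ G : Type} [Group Γ] {a : ℕ}

theorem inv_adj (U : Γ →* Mat a) (hU : ∀ γ, (U γ).det = 1) (γ : Γ) :
    U γ⁻¹ = (U γ).adjugate := by
  have h1 : U γ⁻¹ * U γ = 1 := by rw [← map_mul, inv_mul_cancel, map_one]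
  have h2 : U γ * (U γ).adjugate = 1 := by rw [Matrix.mul_adjugate, hU, one_smul]
  calc U γ⁻¹ = U γ⁻¹ * (U γ * (U γ).adjugate) := by rw [h2, Matrix.mul_one]
    _ = (U γ).adjugate := by rw [← Matrix.mul_assoc, h1, Matrix.one_mul]

/-- the coordinates of a representation -/
def co (s : G → Γ) (U : Γ →* Mat a) : G × Fin a × Fin a → ℂ := fun k => U (s k.1) k.2.1 k.2.2

theorem word_mv (s : G → Γ) {γ : Γ} (hγ : γ ∈ Subgroup.closure (Set.range s)) :
    ∃ T : Matrix (Fin a) (Fin a) (MvPolynomial (G × Fin a × Fin a) ℂ),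
      ∀ U : Γ →* Mat a, (∀ γ, (U γ).det = 1) → U γ = T.map (MvPolynomial.eval (co s U)) := by
  induction hγ using Subgroup.closure_induction with
  | mem x hx =>
    obtain ⟨g, rfl⟩ := hx
    refine ⟨Matrix.of fun i j => MvPolynomial.X (g, i, j), fun U _ => ?_⟩
    ext i j
    simp [co]
  | one => exact ⟨1, fun U _ => by rw [map_one, Matrix.map_one _ (map_zero _) (map_one _)]⟩
  | mul x y _ _ hx hy =>
    obtain ⟨T, hT⟩ := hx
    obtain ⟨T', hT'⟩ := hy
    exact ⟨T * T', fun U hU => by rw [map_mul, hT U hU, hT' U hU, Matrix.map_mul]⟩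
  | inv x _ hx =>
    obtain ⟨T, hT⟩ := hx
    refine ⟨T.adjugate, fun U hU => ?_⟩
    rw [inv_adj U hU, hT U hU]
    exact (RingHom.map_adjugate (MvPolynomial.eval (co s U)) T).symm

theorem coef_mv (s : G → Γ) (hs : Subgroup.closure (Set.range s) = ⊤) (P : (Γ →* Mat a) → ℂ)
    (hP : P ∈ Algebra.adjoin ℂ {f : (Γ →* Matrix (Fin a) (Fin a) ℂ) → ℂ |
        ∃ (γ : Γ) (i j : Fin a), f = fun U => U γ i j}) :
    ∃ Q : MvPolynomial (G × Fin a × Fin a) ℂ, ∀ U : Γ →* Mat a, (∀ γ, (U γ).det = 1) →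
      P U = MvPolynomial.eval (co s U) Q := by
  induction hP using Algebra.adjoin_induction with
  | mem f hf =>
    obtain ⟨γ, i, j, rfl⟩ := hf
    obtain ⟨T, hT⟩ := word_mv (a := a) s (γ := γ) (by rw [hs]; trivial)
    exact ⟨T i j, fun U hU => congrFun (congrFun (hT U hU) i) j⟩
  | algebraMap c => exact ⟨MvPolynomial.C c, fun U _ => by simp⟩
  | add f g _ _ hf hg =>
    obtain ⟨Q, h1⟩ := hf
    obtain ⟨Q', h1'⟩ := hg
    exact ⟨Q + Q', fun U hU => by rw [Pi.add_apply, h1 U hU, h1' U hU, map_add]⟩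
  | mul f g _ _ hf hg =>
    obtain ⟨Q, h1⟩ := hf
    obtain ⟨Q', h1'⟩ := hg
    exact ⟨Q * Q', fun U hU => by rw [Pi.mul_apply, h1 U hU, h1' U hU, map_mul]⟩

/-- words whose images form a basis of the matrices -/
theorem exists_words (U0 : Γ →* Mat a) (hirr : Irr U0) :
    ∃ w : Fin a × Fin a → Γ, LinearIndependent ℂ fun k => U0 (w k) := by
  classical
  obtain ⟨b, hb, hbs, hbl⟩ := exists_linearIndependent ℂ (Set.range fun γ => U0 γ)
  rw [irr_span U0 hirr] at hbs
  have hfb : Module.finrank ℂ (Mat a) = Fintype.card (Fin a × Fin a) := by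
    rw [Module.finrank_matrix, Module.finrank_self, mul_one, Fintype.card_prod]
  let B : Module.Basis b ℂ (Mat a) := Module.Basis.mk hbl (by rw [Subtype.range_coe, hbs])
  have hfin : Finite b := Module.Finite.finite_basis B
  have hft : Fintype b := Fintype.ofFinite b
  have hcard : Fintype.card b = Fintype.card (Fin a × Fin a) := by
    rw [← Module.finrank_eq_card_basis B, hfb]
  let e : (Fin a × Fin a) ≃ b := (Fintype.equivOfCardEq hcard).symm
  have hw : ∀ k : Fin a × Fin a, ∃ γ : Γ, U0 γ = (e k : Mat a) := fun k => hb (e k).2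
  choose w hw using hw
  refine ⟨w, ?_⟩
  have h1 : (fun k => U0 (w k)) = (fun x : b => (x : Mat a)) ∘ e := funext hw
  rw [h1]
  exact hbl.comp e e.injective

theorem irr_of_li (ha : 0 < a) (U : Γ →* Mat a) (w : Fin a × Fin a → Γ)
    (h : LinearIndependent ℂ fun k => U (w k)) : Irr U := by
  have : Nonempty (Fin a) := ⟨⟨0, ha⟩⟩
  refine irr_of_span U ?_
  have hfb : Fintype.card (Fin a × Fin a) = Module.finrank ℂ (Mat a) := by
    rw [Module.finrank_matrix, Module.finrank_self, mul_one, Fintype.card_prod]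
  have h1 := h.span_eq_top_of_card_eq_finrank' hfb
  rw [eq_top_iff, ← h1]
  exact Submodule.span_mono (by rintro _ ⟨k, rfl⟩; exact ⟨w k, rfl⟩)

/-- the linear equivalence between matrices and vectors -/
noncomputable def flat (a : ℕ) : Mat a ≃ₗ[ℂ] (Fin a × Fin a → ℂ) :=
  (LinearEquiv.curry ℂ ℂ (Fin a) (Fin a)).symm

theorem flat_apply (M : Mat a) (k : Fin a × Fin a) : flat a M k = M k.1 k.2 := rfl

theorem li_iff (v : Fin a × Fin a → Mat a) :
    LinearIndependent ℂ v ↔ (Matrix.of fun k k' => v k k'.1 k'.2 :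
      Matrix (Fin a × Fin a) (Fin a × Fin a) ℂ).det ≠ 0 := by
  have h1 : LinearIndependent ℂ v ↔ LinearIndependent ℂ fun k => flat a (v k) := by
    constructor
    · intro h
      exact h.map' (flat a).toLinearMap (LinearEquiv.ker _)
    · intro h
      exact LinearIndependent.of_comp (flat a).toLinearMap h
  rw [h1, ← isUnit_iff_ne_zero, ← Matrix.isUnit_iff_isUnit_det,
    ← Matrix.linearIndependent_rows_iff_isUnit]
  rfl

theorem detector (s : G → Γ) (hs : Subgroup.closure (Set.range s) = ⊤) (ha : 0 < a)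
    (U0 : Γ →* Mat a) (hdet : ∀ γ, (U0 γ).det = 1) (hirr : Irr U0) :
    ∃ D : MvPolynomial (G × Fin a × Fin a) ℂ, MvPolynomial.eval (co s U0) D ≠ 0 ∧
      ∀ U : Γ →* Mat a, (∀ γ, (U γ).det = 1) → MvPolynomial.eval (co s U) D ≠ 0 → Irr U := by
  obtain ⟨w, hw⟩ := exists_words U0 hirr
  have hT : ∀ k, ∃ T : Matrix (Fin a) (Fin a) (MvPolynomial (G × Fin a × Fin a) ℂ),
      ∀ U : Γ →* Mat a, (∀ γ, (U γ).det = 1) →
        U (w k) = T.map (MvPolynomial.eval (co s U)) :=
    fun k => word_mv s (γ := w k) (by rw [hs]; trivial)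
  choose T hT using hT
  have hD : ∀ U : Γ →* Mat a, (∀ γ, (U γ).det = 1) → MvPolynomial.eval (co s U)
      (Matrix.of fun k k' => T k k'.1 k'.2 :
        Matrix (Fin a × Fin a) (Fin a × Fin a) _).det =
      (Matrix.of fun k k' => U (w k) k'.1 k'.2 :
        Matrix (Fin a × Fin a) (Fin a × Fin a) ℂ).det := by
    intro U hU
    rw [RingHom.map_det]
    congr 1
    ext k k'
    have h1 := congrFun (congrFun (hT k U hU) k'.1) k'.2
    simp only [RingHom.mapMatrix_apply, Matrix.map_apply, Matrix.of_apply] at h1 ⊢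
    exact h1.symm
  refine ⟨(Matrix.of fun k k' => T k k'.1 k'.2 : Matrix (Fin a × Fin a) (Fin a × Fin a) _).det,
    ?_, fun U hU h => ?_⟩
  · rw [hD U0 hdet]
    exact (li_iff _).mp hw
  · rw [hD U hU] at h
    exact irr_of_li ha U w ((li_iff _).mpr h)

end words

section fields

theorem root_mem {L : IntermediateField ℚ ℂ} {ζ : ℂ} {q m : ℕ} (hq : 0 < q) (hζL : ζ ∈ L)
    (hζ : IsPrimitiveRoot ζ q) (hm : m ∣ q) {μ : ℂ} (hμ : μ ^ m = 1) :
    ∃ z : 𝓞 L, algebraMap L ℂ z = μ := by
  obtain ⟨c, rfl⟩ := hm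
  have h1 : μ ^ (m * c) = 1 := by rw [pow_mul, hμ, one_pow]
  have : NeZero (m * c) := ⟨hq.ne'⟩
  obtain ⟨i, -, hi⟩ := hζ.eq_pow_of_pow_eq_one h1
  have h2 : μ ∈ L := by rw [← hi]; exact L.pow_mem hζL i
  have h3 : IsIntegral ℤ μ := IsIntegral.of_pow hq (by rw [h1]; exact isIntegral_one)
  have h4 : IsIntegral ℤ (⟨μ, h2⟩ : L) :=
    (isIntegral_algebraMap_iff (algebraMap L ℂ).injective).mp h3
  exact ⟨⟨⟨μ, h2⟩, h4⟩, rfl⟩

theorem oint_of {L : IntermediateField ℚ ℂ} (z : 𝓞 L) : OInt L (algebraMap L ℂ z) := by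
  refine ⟨(z : L).2, ?_⟩
  have := RingOfIntegers.isIntegral_coe z
  exact (isIntegral_algebraMap_iff (algebraMap L ℂ).injective).mpr this

/-- matrices of determinant one as matrices -/
def slHom (R : Type) [CommRing R] (a : ℕ) :
    SpecialLinearGroup (Fin a) R →* Matrix (Fin a) (Fin a) R where
  toFun g := g.1
  map_one' := rfl
  map_mul' _ _ := rfl

theorem sl_conj_val {R : Type} [CommRing R] {a : ℕ} (X Y : SpecialLinearGroup (Fin a) R) :
    (X * Y * X⁻¹).1 = X.1 * Y.1 * X.1.adjugate := by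
  rw [Matrix.SpecialLinearGroup.coe_mul, Matrix.SpecialLinearGroup.coe_mul,
    Matrix.SpecialLinearGroup.coe_inv]

theorem conjM_of_isConj {a : ℕ} {A B : SpecialLinearGroup (Fin a) ℂ} (h : IsConj A B) :
    ConjM B.1 A.1 := by
  obtain ⟨h, hh, he⟩ := cls_of_isConj (isConj_comm.mp h)
  exact ⟨h, hh, he⟩

end fields

section surf

theorem lift_rep {g n : ℕ} {H : Type} [Group H] (σ : CGen g n → H)
    (hσ : (List.ofFn fun i => σ (.inl (i, false)) * σ (.inl (i, true)) * (σ (.inl (i, false)))⁻¹ *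
        (σ (.inl (i, true)))⁻¹).prod * (List.ofFn fun j => σ (.inr j)).prod = 1) :
    ∃ ρ : CGroup g n →* H, ∀ k, ρ (PresentedGroup.of k) = σ k := by
  have hrel : ∀ x ∈ ({cRel g n} : Set (FreeGroup (CGen g n))), FreeGroup.lift σ x = 1 := by
    intro x hx
    rw [Set.mem_singleton_iff.mp hx, cRel, map_mul, map_list_prod, map_list_prod,
      List.map_ofFn, List.map_ofFn, ← hσ]
    congr 3
    · funext i
      simp [Function.comp]
    · funext i
      simp [Function.comp]
  exact ⟨PresentedGroup.toGroup hrel, fun k => PresentedGroup.toGroup.of hrel⟩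

theorem rep_rel {g n : ℕ} {H : Type} [Group H] (ρ : CGroup g n →* H) :
    (List.ofFn fun i => ρ (PresentedGroup.of (.inl (i, false))) *
        ρ (PresentedGroup.of (.inl (i, true))) * (ρ (PresentedGroup.of (.inl (i, false))))⁻¹ *
        (ρ (PresentedGroup.of (.inl (i, true))))⁻¹).prod *
      (List.ofFn fun j => ρ (PresentedGroup.of (.inr j))).prod = 1 := by
  have h2 : ρ (PresentedGroup.mk {cRel g n} (cRel g n)) = 1 := by
    have : PresentedGroup.mk {cRel g n} (cRel g n) = 1 :=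
      PresentedGroup.one_of_mem (Set.mem_singleton _)
    rw [this, map_one]
  have h4 : ρ.comp (PresentedGroup.mk {cRel g n}) =
      FreeGroup.lift (fun k => ρ (PresentedGroup.of k)) := by
    refine FreeGroup.ext_hom _ _ fun k => ?_
    simp [PresentedGroup.of]
  have h5 : FreeGroup.lift (fun k => ρ (PresentedGroup.of k)) (cRel g n) = 1 := by
    rw [← h4]; exact h2
  refine Eq.trans ?_ h5
  unfold cRel
  rw [map_mul, map_list_prod, map_list_prod, List.map_ofFn, List.map_ofFn]
  congr 3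
  · funext i
    simp [Function.comp]
  · funext i
    simp [Function.comp]

end surf

end PSf

open PSf in
/-- density for the fundamental groups of punctured curves of genus at least two -/
theorem surf_SLDense (g n : ℕ) : SLDense (cPunct (g + 2) n) := by
  intro a M ha hM
  refine ⟨10 * a * M, by positivity, ?_⟩
  rintro L hL ⟨ζ, hζL, hζ⟩ U0 hdet hirr hqu P hP hv
  have hne : NeZero a := ⟨ha.ne'⟩
  have hNF : NumberField L := { to_charZero := inferInstance, to_finiteDimensional := hL }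
  set q := 10 * a * M with hq
  have hq0 : 0 < q := by positivity
  -- the primitive root in the ring of integers
  obtain ⟨ξ, hξ⟩ := root_mem hq0 hζL hζ (dvd_refl q) hζ.pow_eq_one
  have hξp : IsPrimitiveRoot ξ q := by
    refine IsPrimitiveRoot.of_map_of_injective (f := (algebraMap L ℂ).comp (algebraMap (𝓞 L) L))
      ?_ ((algebraMap L ℂ).injective.comp RingOfIntegers.coe_injective)
    show IsPrimitiveRoot (algebraMap L ℂ (ξ : L)) q
    rw [hξ]; exact hζ
  obtain ⟨hφ, w, ε, hw, hε⟩ := field_data (algebraMap L ℂ) (m := q)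
    ⟨a * M, by rw [hq]; ring⟩ hq0 hξp
  have hζ2 : IsPrimitiveRoot (ξ ^ (5 * M)) (2 * a) := hξp.pow hq0 (by rw [hq]; ring)
  -- the classes
  let C : Fin n → SpecialLinearGroup (Fin a) ℂ := fun j =>
    ⟨U0 (cPunct (g + 2) n j), hdet _⟩
  have hroot : ∀ j, ∀ μ : ℂ, (C j).1.charpoly.IsRoot μ → μ ^ M = 1 := fun j μ h => hqu j μ h
  have hmod := fun j => exists_integral_model (algebraMap L ℂ) (C j).1 (C j).2
    (fun μ h => root_mem hq0 hζL hζ (m := M) ⟨10 * a, by rw [hq]; ring⟩ (hroot j μ h))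
  choose τ hτu hτd hτC using hmod
  have hinj : Function.Injective ((algebraMap L ℂ).comp (algebraMap (𝓞 L) L)) :=
    (algebraMap L ℂ).injective.comp RingOfIntegers.coe_injective
  have hdM : ∀ j i, (τ j).1 i i ^ M = 1 := fun j i => by
    have h2 := hroot j _ (hτd j i)
    apply hinj
    rw [map_pow, map_one]
    exact h2
  have hpow : ∀ x : 𝓞 L, x ^ M = 1 → ∃ y : 𝓞 L, y ^ a = x := by
    intro x hx
    obtain ⟨y0, hy0⟩ := IsAlgClosed.exists_pow_nat_eq
      ((algebraMap L ℂ).comp (algebraMap (𝓞 L) L) x) ha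
    have h1 : y0 ^ (a * M) = 1 := by
      rw [pow_mul, hy0, ← map_pow, hx, map_one]
    obtain ⟨z, hz⟩ := root_mem hq0 hζL hζ (m := a * M) ⟨10, by rw [hq]; ring⟩ h1
    refine ⟨z, hinj ?_⟩
    rw [map_pow, ← hy0]
    exact congrArg (· ^ a) hz
  obtain ⟨θ, hθ1, -, hθp⟩ := exists_theta_one (fun i => ∏ j, (τ j).1 i i) (by
    rw [Finset.prod_comm]
    refine Finset.prod_eq_one fun j _ => ?_
    rw [← det_upper _ (hτu j), (τ j).2]) hM (fun i => by
    rw [← Finset.prod_pow]
    exact Finset.prod_eq_one fun j _ => hdM j i) hpow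
  -- the polynomial
  obtain ⟨Q, hQ⟩ := coef_mv (a := a) (G := CGen (g + 2) n) (Γ := CGroup (g + 2) n)
    PresentedGroup.of (PresentedGroup.closure_range_of _) P hP
  let U0' : CGroup (g + 2) n →* SpecialLinearGroup (Fin a) ℂ :=
    { toFun := fun γ => ⟨U0 γ, hdet γ⟩
      map_one' := Subtype.ext (map_one U0)
      map_mul' := fun x y => Subtype.ext (map_mul U0 x y) }
  have h1 := final_core (algebraMap L ℂ) hφ w hw ε hε hζ2 C τ hτu hτC θ hθ1 hθp Q
    (fun σ hσ hcl hir => ?_) (fun k => U0' (PresentedGroup.of k)) (rep_rel U0')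
    (fun j => IsConj.refl _)
  · rw [hQ U0 hdet]
    exact h1
  · obtain ⟨ρ, hρ⟩ := lift_rep σ hσ
    let U : CGroup (g + 2) n →* Mat a := (slHom ℂ a).comp ((SpecialLinearGroup.map
      ((algebraMap L ℂ).comp (algebraMap (𝓞 L) L))).comp ρ)
    have hU : ∀ γ i j, U γ i j = algebraMap L ℂ ((ρ γ).1 i j) := fun γ i j => rfl
    have hUd : ∀ γ, (U γ).det = 1 := fun γ => ((SpecialLinearGroup.map
      ((algebraMap L ℂ).comp (algebraMap (𝓞 L) L))) (ρ γ)).2
    have h2 := hv U hUd ⟨⟨⟨0, ha⟩⟩, fun V hV => hir V fun k v hvV => by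
        have := hV (PresentedGroup.of k) v hvV
        have e : U (PresentedGroup.of k) =
            (σ k).1.map ((algebraMap L ℂ).comp (algebraMap (𝓞 L) L)) := by
          ext i j
          rw [hU, hρ]
          rfl
        rwa [e] at this⟩
      (fun γ i j => by rw [hU]; exact oint_of _)
      (fun j => by
        have h3 := conjM_of_isConj (hcl j)
        have e : U (cPunct (g + 2) n j) = ((SpecialLinearGroup.map
            ((algebraMap L ℂ).comp (algebraMap (𝓞 L) L))) (σ (.inr j))).1 := by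
          rw [← hρ]; rfl
        rw [e]
        exact h3)
    rw [hQ U hUd] at h2
    rw [← h2]
    have e : (fun k : CGen (g + 2) n × Fin a × Fin a => algebraMap L ℂ
        ((σ k.1).1 k.2.1 k.2.2 : 𝓞 L)) = co PresentedGroup.of U := by
      funext k
      show _ = U (PresentedGroup.of k.1) k.2.1 k.2.2
      rw [hU, hρ]
    rw [← e]

open PSf in
/-- density for free groups with marked free generators -/
theorem freeM_SLDense (n l : ℕ) :
    SLDense (fun j : Fin l => (FreeGroup.of (Sum.inr j) : FreeGroup (Fin n ⊕ Fin l))) := by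
  intro a M ha hM
  refine ⟨M, hM, ?_⟩
  rintro L hL ⟨ζ, hζL, hζ⟩ U0 hdet hirr hqu P hP hv
  have hNF : NumberField L := { to_charZero := inferInstance, to_finiteDimensional := hL }
  let φ : 𝓞 L →+* ℂ := (algebraMap L ℂ).comp (algebraMap (𝓞 L) L)
  let cc : Fin l → FreeGroup (Fin n ⊕ Fin l) := fun j => FreeGroup.of (Sum.inr j)
  have hmod := fun j => exists_integral_model (algebraMap L ℂ) (U0 (cc j)) (hdet _)
    (fun μ h => root_mem hM hζL hζ (dvd_refl M) (hqu j μ h))
  choose τ hτu hτd hτC using hmod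
  let V0 : Fin l → SpecialLinearGroup (Fin a) ℂ := fun j => ⟨U0 (cc j), hdet _⟩
  have hcj : ∀ j, IsConj (SpecialLinearGroup.map φ (τ j)) (V0 j) :=
    fun j => isConj_of_cls ha (hτC j)
  have hk : ∀ j, ∃ k : Mat a, k.det = 1 ∧
      U0 (cc j) = k * (τ j).1.map φ * k.adjugate := by
    intro j
    obtain ⟨k, hk⟩ := isConj_iff.mp (hcj j)
    refine ⟨k.1, k.2, ?_⟩
    have h2 := congrArg (fun A : SpecialLinearGroup (Fin a) ℂ => A.1) hk
    simp only [Matrix.SpecialLinearGroup.coe_mul, Matrix.SpecialLinearGroup.coe_inv] at h2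
    exact h2.symm
  choose k hkd hkc using hk
  obtain ⟨Q, hQ⟩ := coef_mv (a := a) (G := Fin n ⊕ Fin l) (Γ := FreeGroup (Fin n ⊕ Fin l))
    FreeGroup.of (FreeGroup.closure_range_of _) P hP
  obtain ⟨D, hD0, hD⟩ := detector (a := a) (G := Fin n ⊕ Fin l) (Γ := FreeGroup (Fin n ⊕ Fin l))
    FreeGroup.of (FreeGroup.closure_range_of _) ha U0 hdet hirr
  let Ψ : (Fin (n + l) → Mat a) → (Fin n ⊕ Fin l → Mat a) := fun x g => match g with
    | .inl i => x (Fin.castAdd l i)
    | .inr j => x (Fin.natAdd n j) * (τ j).1.map φ * (x (Fin.natAdd n j)).adjugate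
  let cx : (Fin (n + l) → Mat a) → ((Fin n ⊕ Fin l) × Fin a × Fin a → ℂ) :=
    fun x k => Ψ x k.1 k.2.1 k.2.2
  have hpoly : (fun x : Fin (n + l) → Mat a => MvPolynomial.eval (cx x) (Q * D)) ∈
      PolyFun (Fin (n + l) → Mat a) := by
    refine polyFun_eval cx (fun k => ?_) (Q * D)
    obtain ⟨g, b, b'⟩ := k
    rcases g with i | j
    · exact polyFun_entry (polyMap_apply polyMap_id (Fin.castAdd l i)) b b'
    · exact polyFun_entry (polyMap_mul (polyMap_mul (polyMap_apply polyMap_id (Fin.natAdd n j))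
        (polyMap_const _)) (polyMap_adjugate (polyMap_apply polyMap_id (Fin.natAdd n j)))) b b'
  have hint : φ.comp (Int.castRingHom (𝓞 L)) = Int.castRingHom ℂ := RingHom.ext_int _ _
  have hzero : ∀ A : Fin (n + l) → Matrix (Fin a) (Fin a) ℤ, (∀ i, (A i).det = 1) →
      MvPolynomial.eval (cx fun i => (A i).map (Int.castRingHom ℂ)) (Q * D) = 0 := by
    intro A hA
    rw [map_mul]
    by_cases hD1 : MvPolynomial.eval (cx fun i => (A i).map (Int.castRingHom ℂ)) D = 0
    · rw [hD1, mul_zero]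
    let B : Fin (n + l) → SpecialLinearGroup (Fin a) (𝓞 L) := fun i =>
      SpecialLinearGroup.map (Int.castRingHom (𝓞 L)) ⟨A i, hA i⟩
    let σ : FreeGroup (Fin n ⊕ Fin l) →* SpecialLinearGroup (Fin a) (𝓞 L) :=
      FreeGroup.lift fun g => match g with
        | .inl i => B (Fin.castAdd l i)
        | .inr j => B (Fin.natAdd n j) * τ j * (B (Fin.natAdd n j))⁻¹
    let U' : FreeGroup (Fin n ⊕ Fin l) →* SpecialLinearGroup (Fin a) ℂ :=
      (SpecialLinearGroup.map φ).comp σ
    let U : FreeGroup (Fin n ⊕ Fin l) →* Mat a := (slHom ℂ a).comp U'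
    have hU : ∀ γ i j, U γ i j = algebraMap L ℂ ((σ γ).1 i j) := fun γ i j => rfl
    have hUd : ∀ γ, (U γ).det = 1 := fun γ => (U' γ).2
    have hB : ∀ i, (SpecialLinearGroup.map φ (B i)).1 = (A i).map (Int.castRingHom ℂ) := by
      intro i
      ext b b'
      show φ (Int.castRingHom (𝓞 L) (A i b b')) = Int.castRingHom ℂ (A i b b')
      rw [← hint]
      rfl
    have hco : co FreeGroup.of U = cx fun i => (A i).map (Int.castRingHom ℂ) := by
      funext k
      obtain ⟨g, b, b'⟩ := k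
      show (SpecialLinearGroup.map φ (σ (FreeGroup.of g))).1 b b' =
        Ψ (fun i => (A i).map (Int.castRingHom ℂ)) g b b'
      rw [FreeGroup.lift_apply_of]
      rcases g with i | j
      · simp only [Ψ]
        rw [hB]
      · have e1 : SpecialLinearGroup.map φ (B (Fin.natAdd n j) * τ j * (B (Fin.natAdd n j))⁻¹) =
            SpecialLinearGroup.map φ (B (Fin.natAdd n j)) * SpecialLinearGroup.map φ (τ j) *
              (SpecialLinearGroup.map φ (B (Fin.natAdd n j)))⁻¹ := by
          rw [map_mul, map_mul, map_inv]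
        have e2 := congrArg (fun X : SpecialLinearGroup (Fin a) ℂ => X.1) e1
        simp only [sl_conj_val, hB] at e2
        exact congrFun (congrFun e2 b) b'
    have hcl : ∀ j, IsConj (V0 j) (U' (cc j)) := by
      intro j
      have e1 : SpecialLinearGroup.map φ (B (Fin.natAdd n j)) * SpecialLinearGroup.map φ (τ j) *
          (SpecialLinearGroup.map φ (B (Fin.natAdd n j)))⁻¹ = U' (cc j) := by
        show _ = SpecialLinearGroup.map φ (σ (FreeGroup.of (Sum.inr j)))
        rw [FreeGroup.lift_apply_of]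
        simp only [map_mul, map_inv]
      have e2 : IsConj (SpecialLinearGroup.map φ (τ j)) (U' (cc j)) := isConj_iff.mpr ⟨_, e1⟩
      exact (isConj_comm.mp (hcj j)).trans e2
    have h2 := hv U hUd (hD U hUd (by rw [hco]; exact hD1))
      (fun γ i j => by rw [hU]; exact oint_of _) (fun j => conjM_of_isConj (hcl j))
    rw [hQ U hUd, hco] at h2
    rw [h2, zero_mul]
  let x0 : Fin (n + l) → Mat a := Fin.addCases (fun i => U0 (FreeGroup.of (Sum.inl i))) k
  have hx0 : ∀ i, (x0 i).det = 1 := by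
    intro i
    refine Fin.addCases (fun i => ?_) (fun j => ?_) i
    · simp only [x0, Fin.addCases_left]; exact hdet _
    · simp only [x0, Fin.addCases_right]; exact hkd j
  have hcx : cx x0 = co FreeGroup.of U0 := by
    funext k'
    obtain ⟨g, b, b'⟩ := k'
    show Ψ x0 g b b' = U0 (FreeGroup.of g) b b'
    rcases g with i | j
    · simp only [Ψ, x0, Fin.addCases_left]
    · simp only [Ψ, x0, Fin.addCases_right]
      rw [← hkc j]
  have h3 := sl_dense (fun x => MvPolynomial.eval (cx x) (Q * D)) hpoly hzero x0 hx0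
  simp only [hcx, map_mul] at h3
  rw [hQ U0 hdet]
  exact (mul_eq_zero.mp h3).resolve_right hD0

/-- density for free groups -/
theorem free_SLDense (n : ℕ) : SLDense (fun e : Empty => (e.elim : FreeGroup (Fin n))) := by
  intro a M ha _
  refine ⟨1, one_pos, ?_⟩
  rintro L - - U0 hdet hirr - P hP hv
  refine free_C ha U0 hdet hirr P hP fun U hU hUi hz => hv U hU hUi (fun γ i j => ?_)
    (fun e => e.elim)
  obtain ⟨z, hz⟩ := hz γ i j
  rw [hz]
  exact ⟨by exact_mod_cast L.algebraMap_mem (z : ℚ), isIntegral_algebraMap (R := ℤ) (x := z)⟩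

end Vale.Agent.P002
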