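import Vale.Agent.P002.POrb
import Vale.Agent.P002.PGroups

namespace Vale.Agent.P002

open Matrix

theorem exists_unit_root (u : ℂˣ) {a : ℕ} (ha : 0 < a) : ∃ v : ℂˣ, v ^ a = u := by
  obtain ⟨z, hz⟩ := IsAlgClosed.exists_pow_nat_eq (u : ℂ) ha
  have hz0 : z ≠ 0 := by
    rintro rfl
    rw [zero_pow ha.ne'] at hz
    exact u.ne_zero hz.symm
  exact ⟨Units.mk0 z hz0, Units.ext (by simpa using hz)⟩

theorem det_pow_of_qu {n : Type} [Fintype n] [DecidableEq n] {A : Matrix n n ℂ} {M : ℕ}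
    (h : QU M A) : A.det ^ M = 1 := by
  have h1 : A.charpoly.roots.prod ^ M = (A.charpoly.roots.map fun x => x ^ M).prod := by
    rw [Multiset.prod_map_pow, Multiset.map_id']
  rw [Matrix.det_eq_prod_roots_charpoly, h1]
  refine Multiset.prod_eq_one fun x hx => ?_
  obtain ⟨μ, hμ, rfl⟩ := Multiset.mem_map.mp hx
  exact h μ (Polynomial.isRoot_of_mem_roots hμ)

/-- construction of twist data -/
theorem twist_of {Γ : Type} [Group Γ] {J : Type} (c : J → Γ) (N : ℕ)
    (E : Γ →* Multiplicative (Fin N → ℤ)) (s : Fin N → Γ)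
    (hEs : ∀ x, E (s x) = Multiplicative.ofAdd (Pi.single x 1)) (hEc : ∀ j, E (c j) = 1)
    (gen : Subgroup.closure (Set.range s ∪ Set.range c) = ⊤)
    (ext : ∀ a M : ℕ, 0 < a → 0 < M → ∀ D : Γ →* ℂˣ, (∀ j, D (c j) ^ M = 1) →
      ∃ χ : Γ →* ℂˣ, (∀ x, χ (s x) = 1) ∧ (∀ j, χ (c j) ^ a = D (c j))) :
    Nonempty (TwistData c N) := by
  have hmul : ∀ γ γ', Multiplicative.toAdd (E (γ * γ')) =
      Multiplicative.toAdd (E γ) + Multiplicative.toAdd (E γ') := fun γ γ' => by
    rw [map_mul, toAdd_mul]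
  refine ⟨{ ex := fun γ => Multiplicative.toAdd (E γ), ex_mul := hmul, ex_c := fun j => by
              rw [hEc, toAdd_one],
            s := s, ex_s := fun x => by rw [hEs, toAdd_ofAdd], tw := ?_ }⟩
  intro a M ha hM V hV
  let D : Γ →* ℂˣ := (Matrix.detMonoidHom.comp V).toHomUnits
  have hD : ∀ γ, ((D γ : ℂˣ) : ℂ) = (V γ).det := fun γ => rfl
  obtain ⟨χ, hχs, hχc⟩ := ext a M ha hM D fun j => Units.ext (by
    rw [Units.val_pow_eq_pow_val, hD, Units.val_one]
    exact det_pow_of_qu (hV j))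
  choose z hz using fun x => exists_unit_root (D (s x)) ha
  let T : Γ →* ℂˣ :=
    { toFun := fun γ => ∏ x, z x ^ (Multiplicative.toAdd (E γ)) x
      map_one' := by
        refine Finset.prod_eq_one fun x _ => ?_
        rw [map_one, toAdd_one]
        exact _root_.zpow_zero _
      map_mul' := fun γ γ' => by
        rw [hmul, ← Finset.prod_mul_distrib]
        exact Finset.prod_congr rfl fun x _ => by rw [Pi.add_apply, _root_.zpow_add] }
  have hT : ∀ γ, T γ = ∏ x, z x ^ (Multiplicative.toAdd (E γ)) x := fun γ => rfl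
  have hTs : ∀ x, T (s x) = z x := by
    intro x
    rw [hT, hEs, toAdd_ofAdd, Finset.prod_eq_single x]
    · simp
    · intro b _ hb
      simp [Pi.single_eq_of_ne hb]
    · intro h; exact absurd (Finset.mem_univ x) h
  have hTc : ∀ j, T (c j) = 1 := by
    intro j
    rw [hT, hEc, toAdd_one]
    exact Finset.prod_eq_one fun x _ => _root_.zpow_zero _
  -- the total character
  have htot : (powMonoidHom a).comp (T * χ) = D := by
    refine MonoidHom.eq_of_eqOn_dense gen ?_
    rintro _ (⟨x, rfl⟩ | ⟨j, rfl⟩)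
    · simp only [MonoidHom.comp_apply, MonoidHom.mul_apply, powMonoidHom_apply, hTs, hχs, mul_one, hz]
    · simp only [MonoidHom.comp_apply, MonoidHom.mul_apply, powMonoidHom_apply, hTc, one_mul, hχc]
  have htot' : ∀ γ, (T γ * χ γ) ^ a = D γ := fun γ => DFunLike.congr_fun htot γ
  have hχ1 : (powMonoidHom (M * a)).comp χ = 1 := by
    refine MonoidHom.eq_of_eqOn_dense gen ?_
    rintro _ (⟨x, rfl⟩ | ⟨j, rfl⟩)
    · simp only [MonoidHom.comp_apply, powMonoidHom_apply, hχs, one_pow, MonoidHom.one_apply]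
    · simp only [MonoidHom.comp_apply, powMonoidHom_apply, MonoidHom.one_apply]
      rw [mul_comm, pow_mul, hχc]
      refine Units.ext ?_
      rw [Units.val_pow_eq_pow_val, hD, Units.val_one]
      exact det_pow_of_qu (hV j)
  refine ⟨z, χ, twist (T * χ)⁻¹ V, fun γ => DFunLike.congr_fun hχ1 γ, hχs, fun γ => ?_, fun γ => ?_⟩
  · rw [twist_apply, Matrix.det_smul, Fintype.card_fin, ← hD, ← htot' γ, MonoidHom.inv_apply,
      MonoidHom.mul_apply, ← Units.val_pow_eq_pow_val, ← Units.val_mul, ← mul_pow, inv_mul_cancel,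
      one_pow, Units.val_one]
  · rw [← hT, twist_apply, smul_smul, ← Units.val_mul, MonoidHom.inv_apply, MonoidHom.mul_apply,
      mul_inv_cancel, Units.val_one, one_smul]

theorem exists_delta {n : ℕ} (d : Fin n → ℂˣ) (hd : (List.ofFn d).prod = 1) {a : ℕ} (ha : 0 < a) :
    ∃ δ : Fin n → ℂˣ, (∀ j, δ j ^ a = d j) ∧ (List.ofFn δ).prod = 1 := by
  choose δ hδ using fun j => exists_unit_root (d j) ha
  have h1 : (∏ j, δ j) ^ a = 1 := by
    rw [← Finset.prod_pow, ← hd, List.prod_ofFn]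
    exact Finset.prod_congr rfl fun j _ => hδ j
  rcases n with _ | n
  · exact ⟨δ, hδ, by simp⟩
  · refine ⟨Function.update δ 0 (δ 0 * (∏ j, δ j)⁻¹), fun j => ?_, ?_⟩
    · by_cases hj : j = 0
      · subst hj
        rw [Function.update_self, mul_pow, inv_pow, h1, inv_one, mul_one, hδ]
      · rw [Function.update_of_ne hj, hδ]
    · rw [List.prod_ofFn, Finset.prod_update_of_mem (Finset.mem_univ _)]
      have h2 := Finset.mul_prod_erase Finset.univ δ (Finset.mem_univ 0)
      rw [Finset.sdiff_singleton_eq_erase]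
      calc δ 0 * (∏ j, δ j)⁻¹ * ∏ x ∈ Finset.univ.erase 0, δ x
          = (δ 0 * ∏ x ∈ Finset.univ.erase 0, δ x) * (∏ j, δ j)⁻¹ := by
            rw [mul_right_comm]
        _ = 1 := by rw [h2, mul_inv_cancel]

theorem cRel_comm {g n : ℕ} {G : Type} [CommGroup G] (σ : CGen g n → G) :
    FreeGroup.lift σ (cRel g n) = (List.ofFn fun j : Fin n => σ (Sum.inr j)).prod := by
  rw [lift_cRel]
  have : (List.ofFn fun i : Fin g => σ (Sum.inl (i, false)) * σ (Sum.inl (i, true)) *
        (σ (Sum.inl (i, false)))⁻¹ * (σ (Sum.inl (i, true)))⁻¹).prod = 1 := by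
    refine List.prod_eq_one fun x hx => ?_
    rw [List.mem_ofFn] at hx
    obtain ⟨i, rfl⟩ := hx
    rw [mul_comm (σ (Sum.inl (i, false))) (σ (Sum.inl (i, true)))]
    group
  rw [this, one_mul]

theorem surf_twist (g n : ℕ) : Nonempty (TwistData (cPunct g n) (g * 2)) := by
  let e : Fin (g * 2) ≃ Fin g × Bool :=
    finProdFinEquiv.symm.trans (Equiv.prodCongr (Equiv.refl _) finTwoEquiv)
  let σ : CGen g n → Multiplicative (Fin (g * 2) → ℤ) :=
    Sum.elim (fun k => Multiplicative.ofAdd (Pi.single (e.symm k) 1)) (fun _ => 1)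
  have hσ : ∀ w ∈ ({cRel g n} : Set (FreeGroup (CGen g n))), FreeGroup.lift σ w = 1 := by
    intro w hw
    rw [Set.mem_singleton_iff.mp hw, cRel_comm]
    refine List.prod_eq_one fun x hx => ?_
    rw [List.mem_ofFn] at hx
    obtain ⟨i, rfl⟩ := hx
    rfl
  refine twist_of (cPunct g n) (g * 2) (PresentedGroup.toGroup hσ)
    (fun x => PresentedGroup.of (Sum.inl (e x))) ?_ ?_ ?_ ?_
  · intro x
    rw [PresentedGroup.toGroup.of]
    simp [σ]
  · intro j
    exact PresentedGroup.toGroup.of hσ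
  · rw [eq_top_iff, ← PresentedGroup.closure_range_of, Subgroup.closure_le]
    rintro _ ⟨k | j, rfl⟩
    · exact Subgroup.subset_closure (Or.inl ⟨e.symm k, by simp⟩)
    · exact Subgroup.subset_closure (Or.inr ⟨j, rfl⟩)
  · intro a M ha hM D hD
    have hd : (List.ofFn fun j : Fin n => D (cPunct g n j)).prod = 1 := by
      have h1 : FreeGroup.lift (fun k => D (PresentedGroup.of k)) (cRel g n) = 1 := by
        rw [lift_mk, PresentedGroup.one_of_mem (Set.mem_singleton (cRel g n)), map_one]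
      rw [cRel_comm] at h1
      exact h1
    obtain ⟨δ, hδ, hδ1⟩ := exists_delta _ hd ha
    have hτ : ∀ w ∈ ({cRel g n} : Set (FreeGroup (CGen g n))),
        FreeGroup.lift (Sum.elim (fun _ => 1) δ : CGen g n → ℂˣ) w = 1 := by
      intro w hw
      rw [Set.mem_singleton_iff.mp hw, cRel_comm]
      exact hδ1
    refine ⟨PresentedGroup.toGroup hτ, fun x => ?_, fun j => ?_⟩
    · rw [PresentedGroup.toGroup.of]; rfl
    · have h1 : PresentedGroup.toGroup hτ (cPunct g n j) = δ j := PresentedGroup.toGroup.of hτ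
      rw [h1, hδ]

theorem freeM_twist (n l : ℕ) :
    Nonempty (TwistData (fun j : Fin l => (FreeGroup.of (Sum.inr j) : FreeGroup (Fin n ⊕ Fin l)))
      n) := by
  let σ : Fin n ⊕ Fin l → Multiplicative (Fin n → ℤ) :=
    Sum.elim (fun k => Multiplicative.ofAdd (Pi.single k 1)) (fun _ => 1)
  refine twist_of _ n (FreeGroup.lift σ) (fun x => FreeGroup.of (Sum.inl x)) ?_ ?_ ?_ ?_
  · intro x
    rw [FreeGroup.lift_apply_of]; rfl
  · intro j
    rw [FreeGroup.lift_apply_of]; rfl
  · rw [eq_top_iff, ← FreeGroup.closure_range_of, Subgroup.closure_le]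
    rintro _ ⟨k | j, rfl⟩
    · exact Subgroup.subset_closure (Or.inl ⟨k, rfl⟩)
    · exact Subgroup.subset_closure (Or.inr ⟨j, rfl⟩)
  · intro a M ha hM D hD
    choose δ hδ using fun j : Fin l => exists_unit_root
      (D (FreeGroup.of (Sum.inr j) : FreeGroup (Fin n ⊕ Fin l))) ha
    refine ⟨FreeGroup.lift (Sum.elim (fun _ => 1) δ), fun x => ?_, fun j => ?_⟩
    · rw [FreeGroup.lift_apply_of]; rfl
    · rw [FreeGroup.lift_apply_of]
      exact hδ j

end Vale.Agent.P002
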