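import Vale.Agent.P002.PAll
import Vale.Agent.P002.PTwist
import Vale.Agent.P002.PSurf
import Vale.Agent.P002.PDOf

namespace Vale.Agent.P002

open Matrix

theorem pd_free (N l : ℕ) :
    PD (fun j : Fin l => (FreeGroup.of (Sum.inr j) : FreeGroup (Fin N ⊕ Fin l))) := by
  obtain ⟨T⟩ := freeM_twist N l
  exact pd_of T (freeM_SLDense N l)

theorem pd_surf (g n : ℕ) : PD (cPunct (g + 2) n) := by
  obtain ⟨T⟩ := surf_twist (g + 2) n
  exact pd_of T (surf_SLDense g n)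

/-- potential density for finite products of orbifold curves -/
theorem pd_all (s : ℕ) (g n : Fin s → ℕ) (m : ∀ i, Fin (n i) → ℕ) (S : ∀ i, Fin (n i) → Prop)
    (h : ∀ i, 2 ≤ g i ∨ n i = 0 ∨ ∃ j, m i j = 0 ∧ ¬ S i j) :
    PD (fun q : Σ i, {j // S i j} =>
      (Pi.mulSingle q.1 (oPunct (g q.1) (n q.1) (m q.1) q.2.1) :
        ∀ i, OGroup (g i) (n i) (m i))) :=
  pd_product pd_free pd_surf s g n m S h

section bridge
variable {π ι J : Type} [Group π]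

theorem sl_conj_inv {a : ℕ} (h J : SpecialLinearGroup (Fin a) ℂ) :
    (h * J * h⁻¹).1 = h.1 * J.1 * (h.1)⁻¹ := by
  have h1 : (h.1)⁻¹ = h.1.adjugate := Matrix.inv_eq_right_inv (by
    rw [Matrix.mul_adjugate, h.2, one_smul])
  rw [h1]; rfl

theorem conjM_iff_isConj {r : ℕ} (hr : 0 < r) (A B : SpecialLinearGroup (Fin r) ℂ) :
    ConjM A.1 B.1 ↔ IsConj A B := by
  constructor
  · rintro ⟨h, hh, hE⟩
    obtain ⟨κ, hκ⟩ := IsAlgClosed.exists_pow_nat_eq (h.det)⁻¹ hr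
    have hκ0 : κ ≠ 0 := by
      rintro rfl
      rw [zero_pow hr.ne'] at hκ
      exact inv_ne_zero hh.ne_zero hκ.symm
    have hd : (κ • h).det = 1 := by
      rw [det_smul, Fintype.card_fin, hκ, inv_mul_cancel₀ hh.ne_zero]
    let H : SpecialLinearGroup (Fin r) ℂ := ⟨κ • h, hd⟩
    refine isConj_iff.mpr ⟨H, Subtype.ext ?_⟩
    rw [sl_conj_inv, hE]
    have h3 : (κ • h)⁻¹ = κ⁻¹ • h⁻¹ := by
      apply Matrix.inv_eq_right_inv
      rw [Algebra.smul_mul_assoc, Algebra.mul_smul_comm, smul_smul, mul_inv_cancel₀ hκ0,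
        one_smul, Matrix.mul_nonsing_inv _ hh]
    show (κ • h) * A.1 * (κ • h)⁻¹ = h * A.1 * h⁻¹
    rw [h3, Algebra.smul_mul_assoc, Algebra.smul_mul_assoc, Algebra.mul_smul_comm,
      smul_smul, mul_inv_cancel₀ hκ0, one_smul]
  · intro h
    obtain ⟨c, hc⟩ := isConj_iff.mp h
    exact ⟨c.1, by rw [c.2]; exact isUnit_one, by rw [← hc, sl_conj_inv]⟩

/-- lifting a representation of determinant one to the special linear group -/
def toSL {r : ℕ} (ρ : π →* Matrix (Fin r) (Fin r) ℂ) (h : ∀ γ, (ρ γ).det = 1) :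
    π →* SpecialLinearGroup (Fin r) ℂ where
  toFun γ := ⟨ρ γ, h γ⟩
  map_one' := Subtype.ext (map_one ρ)
  map_mul' a b := Subtype.ext (map_mul ρ a b)

theorem toSL_apply {r : ℕ} (ρ : π →* Matrix (Fin r) (Fin r) ℂ) (h : ∀ γ, (ρ γ).det = 1) (γ : π) :
    (toSL ρ h γ).1 = ρ γ := rfl

theorem eval_mem {r : ℕ} (s : ι → π) (P : MvPolynomial (ι × Fin r × Fin r) ℂ) :
    (fun ρ : π →* Matrix (Fin r) (Fin r) ℂ =>
      MvPolynomial.eval (fun k => ρ (s k.1) k.2.1 k.2.2) P) ∈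
      Algebra.adjoin ℂ {f : (π →* Matrix (Fin r) (Fin r) ℂ) → ℂ |
        ∃ (γ : π) (i j : Fin r), f = fun ρ => ρ γ i j} := by
  induction P using MvPolynomial.induction_on with
  | C a => simp only [MvPolynomial.eval_C]; exact Subalgebra.algebraMap_mem _ a
  | add p q hp hq => simp only [map_add]; exact Subalgebra.add_mem _ hp hq
  | mul_X p k hp =>
    simp only [map_mul, MvPolynomial.eval_X]
    exact Subalgebra.mul_mem _ hp (Algebra.subset_adjoin ⟨s k.1, k.2.1, k.2.2, rfl⟩)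

/-- The density statement in terms of polynomials in the matrix entries of the generators. -/
theorem dense_bridge {c : J → π} (h : PD c) (s : ι → π) (r M : ℕ) (hr : 0 < r) (hM : 0 < M) :
    ∃ L : IntermediateField ℚ ℂ, FiniteDimensional ℚ L ∧
      ∀ (P : MvPolynomial (ι × Fin r × Fin r) ℂ),
      (∀ (h : SpecialLinearGroup (Fin r) ℂ) (ρ : π →* SpecialLinearGroup (Fin r) ℂ),
        MvPolynomial.eval (fun k => (h * ρ (s k.1) * h⁻¹).1 k.2.1 k.2.2) P =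
          MvPolynomial.eval (fun k => (ρ (s k.1)).1 k.2.1 k.2.2) P) →
      ∀ ρ : π →* SpecialLinearGroup (Fin r) ℂ,
      (∀ V : Submodule ℂ (Fin r → ℂ), (∀ γ, ∀ v ∈ V, (ρ γ).1.mulVec v ∈ V) →
        ∃ W : Submodule ℂ (Fin r → ℂ), (∀ γ, ∀ v ∈ W, (ρ γ).1.mulVec v ∈ W) ∧ IsCompl V W) →
      (∀ j, QU M (ρ (c j)).1) →
      (∀ ρ' : π →* SpecialLinearGroup (Fin r) ℂ,
        (∀ V : Submodule ℂ (Fin r → ℂ), (∀ γ, ∀ v ∈ V, (ρ' γ).1.mulVec v ∈ V) →
          ∃ W : Submodule ℂ (Fin r → ℂ), (∀ γ, ∀ v ∈ W, (ρ' γ).1.mulVec v ∈ W) ∧ IsCompl V W) →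
        (∀ γ i j, OInt L ((ρ' γ).1 i j)) → (∀ j, IsConj (ρ (c j)) (ρ' (c j))) →
        MvPolynomial.eval (fun k => (ρ' (s k.1)).1 k.2.1 k.2.2) P = 0) →
      MvPolynomial.eval (fun k => (ρ (s k.1)).1 k.2.1 k.2.2) P = 0 := by
  obtain ⟨L, hfd, hL⟩ := dense_of_pd h r M hM
  refine ⟨L, hfd, fun P hinv ρ hss hqu hv => ?_⟩
  let F : (π →* Matrix (Fin r) (Fin r) ℂ) → ℂ := fun ρ =>
    MvPolynomial.eval (fun k => ρ (s k.1) k.2.1 k.2.2) P
  refine hL ((PF.slHom ℂ r).comp ρ) hss (fun γ => (ρ γ).2) hqu F ?_ ?_ ?_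
  · exact eval_mem s P
  · intro ρ1 ρ2 hd1 hE
    have hd2 : ∀ γ, (ρ2 γ).det = 1 := fun γ => by rw [← hd1 γ]; exact (hE.conjM γ).det.symm
    obtain ⟨h, hh, hE⟩ := hE
    obtain ⟨κ, hκ⟩ := IsAlgClosed.exists_pow_nat_eq (h.det)⁻¹ hr
    have hκ0 : κ ≠ 0 := by
      rintro rfl
      rw [zero_pow hr.ne'] at hκ
      exact inv_ne_zero hh.ne_zero hκ.symm
    have hd : (κ • h).det = 1 := by
      rw [det_smul, Fintype.card_fin, hκ, inv_mul_cancel₀ hh.ne_zero]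
    let H : SpecialLinearGroup (Fin r) ℂ := ⟨κ • h, hd⟩
    have h3 : (κ • h)⁻¹ = κ⁻¹ • h⁻¹ := by
      apply Matrix.inv_eq_right_inv
      rw [Algebra.smul_mul_assoc, Algebra.mul_smul_comm, smul_smul, mul_inv_cancel₀ hκ0,
        one_smul, Matrix.mul_nonsing_inv _ hh]
    have h1 := hinv H (toSL ρ1 hd1)
    have h2 : (fun k : ι × Fin r × Fin r => (H * toSL ρ1 hd1 (s k.1) * H⁻¹).1 k.2.1 k.2.2) =
        fun k => ρ2 (s k.1) k.2.1 k.2.2 := by
      funext k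
      rw [sl_conj_inv, hE]
      show ((κ • h) * ρ1 (s k.1) * (κ • h)⁻¹) k.2.1 k.2.2 = _
      rw [h3, Algebra.smul_mul_assoc, Algebra.smul_mul_assoc, Algebra.mul_smul_comm,
        smul_smul, mul_inv_cancel₀ hκ0, one_smul]
    rw [h2] at h1
    exact h1.symm
  · intro ρ' hss' hd' hint' hc'
    exact hv (toSL ρ' hd') hss' hint' fun j =>
      (conjM_iff_isConj hr _ _).mp (ConjM.symm (hc' j))

end bridge

end Vale.Agent.P002
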