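import Vale.Agent.P002.PDefs

namespace Vale.Agent.P002

open Finsupp

/-- evaluation functions on a character group -/
theorem char_span {Λ : Type} [CommGroup Λ] (f : (Λ →* ℂˣ) → ℂ)
    (hf : f ∈ Algebra.adjoin ℂ {F : (Λ →* ℂˣ) → ℂ | ∃ l : Λ, F = fun t => ((t l : ℂˣ) : ℂ)}) :
    ∃ c : Λ →₀ ℂ, f = c.sum fun l a => a • (fun t : Λ →* ℂˣ => ((t l : ℂˣ) : ℂ)) := by
  have h1 : f ∈ Submodule.span ℂ
      (Set.range fun l : Λ => (fun t : Λ →* ℂˣ => ((t l : ℂˣ) : ℂ))) := by
    rw [← Subalgebra.mem_toSubmodule, Algebra.adjoin_eq_span] at hf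
    refine Submodule.span_mono ?_ hf
    intro g hg
    induction hg using Submonoid.closure_induction with
    | mem g hg =>
      obtain ⟨l, rfl⟩ := hg
      exact ⟨l, rfl⟩
    | one =>
      refine ⟨1, ?_⟩
      funext t
      simp
    | mul g h _ _ hg hh =>
      obtain ⟨α, rfl⟩ := hg
      obtain ⟨β, rfl⟩ := hh
      refine ⟨α * β, ?_⟩
      funext t
      simp
  rw [Finsupp.mem_span_range_iff_exists_finsupp] at h1
  obtain ⟨c, hc⟩ := h1
  exact ⟨c, hc.symm⟩

/-- the subgroup of characters with values in `U` -/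
def charU (A : Type) [CommGroup A] (U : Subgroup ℂˣ) : Subgroup (A →* ℂˣ) where
  carrier := {u | ∀ a, u a ∈ U}
  mul_mem' := fun hu hv a => U.mul_mem (hu a) (hv a)
  one_mem' := fun _ => U.one_mem
  inv_mem' := fun hu a => U.inv_mem (hu a)

/-- evaluation -/
def evA {A : Type} [CommGroup A] (U : Subgroup ℂˣ) (a : A) : charU A U →* ℂ where
  toFun u := ((u.1 a : ℂˣ) : ℂ)
  map_one' := by simp
  map_mul' u v := by simp

theorem exists_char_ne {A : Type} [CommGroup A] {ι j : Type} [Fintype ι] [Fintype j] (p : ι → ℕ)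
    (hp : ∀ i, 0 < p i)
    (φ : A ≃* (j → Multiplicative ℤ) × ((i : ι) → Multiplicative (ZMod (p i))))
    (U : Subgroup ℂˣ) (ε : ℂˣ) (hU : ∀ z : ℂˣ, z ^ (∏ i, p i) = 1 → z ∈ U) (hε : ε ∈ U)
    (hε1 : ∀ n : ℕ, 0 < n → ε ^ n ≠ 1) (a : A) (ha : a ≠ 1) : ∃ u ∈ charU A U, u a ≠ 1 := by
  classical
  have h1 : φ a ≠ 1 := fun h => ha (by rw [← φ.map_one] at h; exact φ.injective h)
  by_cases h2 : (φ a).1 = 1
  · have h3 : (φ a).2 ≠ 1 := fun h => h1 (Prod.ext h2 h)
    obtain ⟨i, hi⟩ : ∃ i, (φ a).2 i ≠ 1 := by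
      by_contra hc
      push Not at hc
      exact h3 (funext hc)
    have : NeZero (p i) := ⟨(hp i).ne'⟩
    let ψ : Multiplicative (ZMod (p i)) →* ℂˣ :=
      (ZMod.stdAddChar (N := p i)).toMonoidHom.toHomUnits
    have hψ : Function.Injective ψ := by
      intro x y hxy
      have := congrArg (fun z : ℂˣ => (z : ℂ)) hxy
      have h4 : ZMod.stdAddChar (N := p i) x.toAdd = ZMod.stdAddChar (N := p i) y.toAdd := this
      exact Multiplicative.toAdd.injective (ZMod.injective_stdAddChar h4)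
    refine ⟨ψ.comp ((Pi.evalMonoidHom _ i).comp ((MonoidHom.snd _ _).comp φ.toMonoidHom)),
      fun b => hU _ ?_, ?_⟩
    · have h5 : ∀ x : Multiplicative (ZMod (p i)), x ^ (∏ i, p i) = 1 := by
        intro x
        apply Multiplicative.toAdd.injective
        rw [toAdd_pow, nsmul_eq_mul, toAdd_one]
        have : ((∏ i, p i : ℕ) : ZMod (p i)) = 0 := by
          rw [ZMod.natCast_eq_zero_iff]
          exact Finset.dvd_prod_of_mem p (Finset.mem_univ i)
        rw [this, zero_mul]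
      rw [← map_pow]
      show ψ (((φ (b ^ (∏ i, p i))).2) i) = 1
      rw [map_pow φ, Prod.pow_snd, Pi.pow_apply, h5, map_one]
    · intro h
      apply hi
      apply hψ
      rw [map_one]
      exact h
  · obtain ⟨i, hi⟩ : ∃ i, (φ a).1 i ≠ 1 := by
      by_contra hc
      push Not at hc
      exact h2 (funext hc)
    let ψ : Multiplicative ℤ →* ℂˣ := zpowersHom ℂˣ ε
    refine ⟨ψ.comp ((Pi.evalMonoidHom _ i).comp ((MonoidHom.fst _ _).comp φ.toMonoidHom)),
      fun b => ?_, ?_⟩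
    · show ψ (((φ b).1) i) ∈ U
      exact U.zpow_mem hε _
    · intro h
      have h3 : ε ^ (((φ a).1 i).toAdd) = 1 := h
      have h4 : ((φ a).1 i).toAdd ≠ 0 := fun h => hi (Multiplicative.toAdd.injective h)
      have h5 : ε ^ (((φ a).1 i).toAdd.natAbs) = 1 := by
        rcases Int.natAbs_eq (((φ a).1 i).toAdd) with h6 | h6
        · rw [h6, zpow_natCast] at h3; exact h3
        · rw [h6, zpow_neg, zpow_natCast, inv_eq_one] at h3; exact h3
      exact hε1 _ (Int.natAbs_pos.mpr h4) h5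

theorem char_dense {Λ : Type} [CommGroup Λ] [Group.FG Λ] (Λ' : Subgroup Λ) (n : ℕ) (hn : 0 < n) :
    ∃ q : ℕ, 0 < q ∧ ∀ (U : Subgroup ℂˣ) (ε : ℂˣ), (∀ z : ℂˣ, z ^ q = 1 → z ∈ U) → ε ∈ U →
      (∀ n : ℕ, 0 < n → ε ^ n ≠ 1) → ∀ t : Λ →* ℂˣ, (∀ l ∈ Λ', t l ^ n = 1) →
      ∀ f ∈ Algebra.adjoin ℂ {F : (Λ →* ℂˣ) → ℂ | ∃ l : Λ, F = fun t => ((t l : ℂˣ) : ℂ)},
      (∀ t' : Λ →* ℂˣ, (∀ l ∈ Λ', t' l = t l) → (∀ l, t' l ∈ U) → f t' = 0) → f t = 0 := by
  classical
  have : Group.FG (Λ ⧸ Λ') := inferInstance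
  obtain ⟨ι, j, _, _, p, hp, e, ⟨φ⟩⟩ := CommGroup.equiv_free_prod_prod_multiplicative_zmod (Λ ⧸ Λ')
  have hpp : ∀ i, 0 < p i ^ e i := fun i => pow_pos (hp i).pos _
  set Q : ℕ := ∏ i, p i ^ e i with hQ
  have hQ0 : 0 < Q := Finset.prod_pos fun i _ => hpp i
  refine ⟨Q * n, Nat.mul_pos hQ0 hn, ?_⟩
  intro U ε hU hε hε1 t ht f hf hv
  have hUQ : ∀ z : ℂˣ, z ^ Q = 1 → z ∈ U := fun z hz => hU z (by rw [pow_mul, hz, one_pow])
  -- lifts of the basis of the free part
  have hb : ∀ x : j, ∃ b : Λ, φ (QuotientGroup.mk b) =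
      (Pi.mulSingle x (Multiplicative.ofAdd 1), 1) := by
    intro x
    obtain ⟨b, hb⟩ := QuotientGroup.mk_surjective (φ.symm (Pi.mulSingle x (Multiplicative.ofAdd 1), 1))
    exact ⟨b, by rw [hb, φ.apply_symm_apply]⟩
  choose b hb using hb
  -- the free coordinates
  let co : Λ → j → ℤ := fun l x => ((φ (QuotientGroup.mk l)).1 x).toAdd
  have hco_mul : ∀ l l' x, co (l * l') x = co l x + co l' x := by
    intro l l' x
    show ((φ (QuotientGroup.mk (l * l'))).1 x).toAdd = _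
    rw [QuotientGroup.mk_mul, map_mul, Prod.fst_mul, Pi.mul_apply, toAdd_mul]
  have hco_one : ∀ x, co 1 x = 0 := by
    intro x
    have := hco_mul 1 1 x
    rw [one_mul] at this
    simpa using this
  have hco_Λ' : ∀ l ∈ Λ', ∀ x, co l x = 0 := by
    intro l hl x
    show ((φ (QuotientGroup.mk l)).1 x).toAdd = 0
    rw [(QuotientGroup.eq_one_iff l).mpr hl, map_one]
    rfl
  let v : Λ →* ℂˣ :=
    { toFun := fun l => ∏ x, (t (b x)) ^ (-(co l x))
      map_one' := by simp [hco_one]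
      map_mul' := fun l l' => by
        rw [← Finset.prod_mul_distrib]
        exact Finset.prod_congr rfl fun x _ => by
          rw [hco_mul, neg_add, _root_.zpow_add] }
  have hv_apply : ∀ l, v l = ∏ x, (t (b x)) ^ (-(co l x)) := fun l => rfl
  let t1 : Λ →* ℂˣ := t * v
  have ht1_apply : ∀ l, t1 l = t l * v l := fun l => rfl
  have ht1_Λ' : ∀ l ∈ Λ', t1 l = t l := by
    intro l hl
    rw [ht1_apply, hv_apply]
    simp [hco_Λ' l hl]
  have ht1_pow : ∀ l, t1 l ^ (Q * n) = 1 := by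
    intro l
    let l' : Λ := l * ∏ x, (b x) ^ (-(co l x))
    have h1 : t l' = t1 l := by
      show t (l * ∏ x, (b x) ^ (-(co l x))) = t l * v l
      rw [map_mul, map_prod]
      simp only [map_zpow]
      rfl
    have h2 : (φ (QuotientGroup.mk l')).1 = 1 := by
      have h3 : φ (QuotientGroup.mk l') = φ (QuotientGroup.mk l) *
          ∏ x, (φ (QuotientGroup.mk (b x))) ^ (-(co l x)) := by
        have h4 : (QuotientGroup.mk l' : Λ ⧸ Λ') = QuotientGroup.mk l *
            ∏ x, (QuotientGroup.mk (b x) : Λ ⧸ Λ') ^ (-(co l x)) := by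
          show (QuotientGroup.mk' Λ') (l * ∏ x, (b x) ^ (-(co l x))) = _
          rw [map_mul, map_prod]
          simp only [map_zpow]
          rfl
        rw [h4, map_mul, map_prod]
        simp only [map_zpow]
      rw [h3, Prod.fst_mul, Prod.fst_prod]
      funext y
      apply Multiplicative.toAdd.injective
      rw [Pi.mul_apply, toAdd_mul, Finset.prod_apply, toAdd_prod]
      have h5 : ∀ x, ((((φ (QuotientGroup.mk (b x))) ^ (-(co l x))).1 y : Multiplicative ℤ)).toAdd =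
          if x = y then -(co l x) else 0 := by
        intro x
        rw [hb x, Prod.pow_fst, Pi.pow_apply, toAdd_zpow]
        change -(co l x) • Multiplicative.toAdd
          ((Pi.mulSingle x (Multiplicative.ofAdd 1) : j → Multiplicative ℤ) y) = _
        by_cases hxy : x = y
        · subst hxy
          simp
        · rw [Pi.mulSingle_eq_of_ne (Ne.symm hxy)]
          simp [hxy]
      simp only [h5]
      rw [Finset.sum_ite_eq' Finset.univ y]
      simp [co]
    have h6 : l' ^ Q ∈ Λ' := by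
      rw [← QuotientGroup.eq_one_iff, QuotientGroup.mk_pow]
      apply φ.injective
      rw [map_pow, map_one]
      refine Prod.ext ?_ ?_
      · rw [Prod.pow_fst, h2, one_pow]; rfl
      · rw [Prod.pow_snd]
        funext i
        rw [Pi.pow_apply]
        apply Multiplicative.toAdd.injective
        rw [toAdd_pow, nsmul_eq_mul]
        have : ((Q : ℕ) : ZMod (p i ^ e i)) = 0 := by
          rw [ZMod.natCast_eq_zero_iff]
          exact Finset.dvd_prod_of_mem (fun i => p i ^ e i) (Finset.mem_univ i)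
        rw [this, zero_mul]
        rfl
    rw [← h1, pow_mul, ← map_pow]
    exact ht _ h6
  -- the residual character
  have hw : ∀ l ∈ Λ', (t * t1⁻¹) l = 1 := by
    intro l hl
    rw [MonoidHom.mul_apply, MonoidHom.inv_apply, ht1_Λ' l hl, mul_inv_cancel]
  let w : (Λ ⧸ Λ') →* ℂˣ := QuotientGroup.lift Λ' (t * t1⁻¹) (fun l hl => hw l hl)
  have hw_apply : ∀ l, t l = t1 l * w (QuotientGroup.mk l) := by
    intro l
    show t l = t1 l * (t l * (t1 l)⁻¹)
    rw [mul_comm (t l), mul_inv_cancel_left]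
  obtain ⟨c, rfl⟩ := char_span f hf
  let d : (Λ ⧸ Λ') →₀ ℂ := c.sum fun l a => Finsupp.single (QuotientGroup.mk l) (a * (t1 l : ℂ))
  have hinj : Function.Injective (evA (A := Λ ⧸ Λ') U) := by
    intro x y hxy
    by_contra hne
    obtain ⟨u, hu, hu1⟩ := exists_char_ne (fun i => p i ^ e i) hpp φ U ε hUQ hε hε1 (x / y)
      (fun h => hne (div_eq_one.mp h))
    apply hu1
    have h1 := congrArg (fun g : charU (Λ ⧸ Λ') U →* ℂ => g ⟨u, hu⟩) hxy
    have h2 : ((u x : ℂˣ) : ℂ) = ((u y : ℂˣ) : ℂ) := h1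
    rw [map_div, Units.ext h2, div_self']
  have hli : LinearIndependent ℂ (fun a : Λ ⧸ Λ' => (evA U a : charU (Λ ⧸ Λ') U → ℂ)) :=
    (linearIndependent_monoidHom (charU (Λ ⧸ Λ') U) ℂ).comp _ hinj
  have hlc : ∀ {M : Type} [AddCommGroup M] [Module ℂ M] (g : Λ ⧸ Λ' → M),
      Finsupp.linearCombination ℂ g d = c.sum fun l a => (a * (t1 l : ℂ)) • g (QuotientGroup.mk l) := by
    intro M _ _ g
    simp only [d]
    rw [map_finsuppSum]
    simp only [Finsupp.linearCombination_single]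
  have hd : d = 0 := by
    apply (linearIndependent_iff.mp hli) d
    rw [hlc]
    funext u
    have h1 := hv (t1 * (u.1.comp (QuotientGroup.mk' Λ'))) ?_ ?_
    · rw [Finsupp.sum, Finset.sum_apply] at h1 ⊢
      rw [Pi.zero_apply, ← h1]
      refine Finset.sum_congr rfl fun l _ => ?_
      show (c l * (t1 l : ℂ)) * ((u.1 (QuotientGroup.mk l) : ℂˣ) : ℂ) =
        c l * ((t1 l * u.1 (QuotientGroup.mk l) : ℂˣ) : ℂ)
      rw [Units.val_mul, mul_assoc]
    · intro l hl
      show t1 l * u.1 (QuotientGroup.mk l) = t l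
      rw [(QuotientGroup.eq_one_iff l).mpr hl, map_one, mul_one, ht1_Λ' l hl]
    · intro l
      exact U.mul_mem (hU _ (ht1_pow l)) (u.2 _)
  have hfin := hlc (fun a => ((w a : ℂˣ) : ℂ))
  rw [hd, map_zero] at hfin
  rw [Finsupp.sum, Finset.sum_apply]
  rw [Finsupp.sum] at hfin
  refine Eq.trans (Finset.sum_congr rfl fun l _ => ?_) hfin.symm
  show c l * ((t l : ℂˣ) : ℂ) = c l * (t1 l : ℂ) * ((w (QuotientGroup.mk l) : ℂˣ) : ℂ)
  rw [hw_apply l, Units.val_mul, mul_assoc]

end Vale.Agent.P002
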