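import Vale.Agent.P002.PInd

/-!
# Clifford theory: representations which are diagonalizable on a normal subgroup of finite index
-/

namespace Vale.Agent.P002

open Matrix

section cliff
variable {Γ : Type} [Group Γ]

/-- conjugation on a normal subgroup -/
def cjN (Γ₀ : Subgroup Γ) [hN : Γ₀.Normal] (g : Γ) (h : Γ₀) : Γ₀ :=
  ⟨g⁻¹ * h * g, by
    have := hN.conj_mem h h.2 g⁻¹
    rwa [inv_inv] at this⟩

theorem cjN_coe (Γ₀ : Subgroup Γ) [Γ₀.Normal] (g : Γ) (h : Γ₀) :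
    ((cjN Γ₀ g h : Γ₀) : Γ) = g⁻¹ * h * g := rfl

theorem cjN_mul (Γ₀ : Subgroup Γ) [Γ₀.Normal] (g g' : Γ) (h : Γ₀) :
    cjN Γ₀ (g * g') h = cjN Γ₀ g' (cjN Γ₀ g h) := by
  apply Subtype.ext
  rw [cjN_coe, cjN_coe, cjN_coe]
  group

theorem cjN_mulR (Γ₀ : Subgroup Γ) [Γ₀.Normal] (g : Γ) (h h' : Γ₀) :
    cjN Γ₀ g (h * h') = cjN Γ₀ g h * cjN Γ₀ g h' := by
  apply Subtype.ext
  rw [Subgroup.coe_mul, cjN_coe, cjN_coe, cjN_coe, Subgroup.coe_mul]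
  group

theorem cjN_oneR (Γ₀ : Subgroup Γ) [Γ₀.Normal] (g : Γ) : cjN Γ₀ g 1 = 1 := by
  apply Subtype.ext
  rw [cjN_coe, Subgroup.coe_one, mul_one, inv_mul_cancel]

theorem cjN_inv (Γ₀ : Subgroup Γ) [Γ₀.Normal] (g : Γ) (h : Γ₀) :
    cjN Γ₀ g (cjN Γ₀ g⁻¹ h) = h := by
  apply Subtype.ext
  rw [cjN_coe, cjN_coe]
  group

/-- conjugate of a character -/
def chiC (Γ₀ : Subgroup Γ) [Γ₀.Normal] (χ : Γ₀ →* ℂ) (g : Γ) : Γ₀ →* ℂ where
  toFun h := χ (cjN Γ₀ g h)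
  map_one' := by rw [cjN_oneR, map_one]
  map_mul' h h' := by rw [cjN_mulR, map_mul]

/-- the stabilizer of a character -/
def stabC (Γ₀ : Subgroup Γ) [Γ₀.Normal] (χ : Γ₀ →* ℂ) : Subgroup Γ where
  carrier := {g | ∀ h, χ (cjN Γ₀ g h) = χ h}
  mul_mem' := fun {a b} ha hb h => by rw [cjN_mul, hb, ha]
  one_mem' := fun h => by
    have : cjN Γ₀ 1 h = h := Subtype.ext (by rw [cjN_coe]; group)
    rw [this]
  inv_mem' := fun {a} ha h => by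
    rw [← ha (cjN Γ₀ a⁻¹ h), cjN_inv]


section cmp
variable (Δ : Subgroup Γ) [Fintype (Γ ⧸ Δ)] {d n : ℕ}

/-- the comparison map from the induced representation -/
noncomputable def cmpM (V : Γ →* Matrix (Fin n) (Fin n) ℂ) (φ : (Fin d → ℂ) →ₗ[ℂ] (Fin n → ℂ)) :
    ((Γ ⧸ Δ) × Fin d → ℂ) →ₗ[ℂ] (Fin n → ℂ) :=
  ∑ x : Γ ⧸ Δ, (Matrix.toLin' (V x.out)) ∘ₗ φ ∘ₗ
    (LinearMap.funLeft ℂ ℂ (fun j : Fin d => (x, j)))

theorem cmpM_apply (V : Γ →* Matrix (Fin n) (Fin n) ℂ) (φ : (Fin d → ℂ) →ₗ[ℂ] (Fin n → ℂ))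
    (f : (Γ ⧸ Δ) × Fin d → ℂ) :
    cmpM Δ V φ f = ∑ x : Γ ⧸ Δ, (V x.out).mulVec (φ (fun j => f (x, j))) := by
  rw [cmpM, LinearMap.sum_apply]
  rfl

/-- the action on the source of the comparison map -/
noncomputable def twC (A : Δ →* Matrix (Fin d) (Fin d) ℂ) (g : Γ) (f : (Γ ⧸ Δ) × Fin d → ℂ) :
    (Γ ⧸ Δ) × Fin d → ℂ := fun y =>
  (A (kap Δ g (g⁻¹ • y.1))).mulVec (fun j => f (g⁻¹ • y.1, j)) y.2

omit [Fintype (Γ ⧸ Δ)] in
theorem twC_apply (A : Δ →* Matrix (Fin d) (Fin d) ℂ) (g : Γ) (f : (Γ ⧸ Δ) × Fin d → ℂ)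
    (y : Γ ⧸ Δ) : (fun i => twC Δ A g f (y, i)) =
    (A (kap Δ g (g⁻¹ • y))).mulVec (fun j => f (g⁻¹ • y, j)) := rfl

theorem cmp_equi (V : Γ →* Matrix (Fin n) (Fin n) ℂ) (φ : (Fin d → ℂ) →ₗ[ℂ] (Fin n → ℂ))
    (A : Δ →* Matrix (Fin d) (Fin d) ℂ)
    (hφ : ∀ (γ : Δ) w, (V γ).mulVec (φ w) = φ ((A γ).mulVec w)) (g : Γ)
    (f : (Γ ⧸ Δ) × Fin d → ℂ) :
    (V g).mulVec (cmpM Δ V φ f) = cmpM Δ V φ (twC Δ A g f) := by
  rw [cmpM_apply, cmpM_apply, Matrix.mulVec_sum,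
    ← Equiv.sum_comp (MulAction.toPerm g : Equiv.Perm (Γ ⧸ Δ))
    (fun x => (V x.out).mulVec (φ (fun j => twC Δ A g f (x, j))))]
  refine Finset.sum_congr rfl fun x _ => ?_
  rw [MulAction.toPerm_apply, twC_apply, inv_smul_smul, ← hφ, Matrix.mulVec_mulVec,
    Matrix.mulVec_mulVec, ← map_mul, ← map_mul, kap_coe, mul_inv_cancel_left]

/-- the subspace of functions with values in `U` -/
def subC (U : Submodule ℂ (Fin d → ℂ)) : Submodule ℂ ((Γ ⧸ Δ) × Fin d → ℂ) where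
  carrier := {w | ∀ x, (fun j => w (x, j)) ∈ U}
  add_mem' := fun {a b} ha hb x => U.add_mem (ha x) (hb x)
  zero_mem' := fun x => U.zero_mem
  smul_mem' := fun t a ha x => U.smul_mem t (ha x)

omit [Fintype (Γ ⧸ Δ)] in
theorem mem_subC (U : Submodule ℂ (Fin d → ℂ)) (w : (Γ ⧸ Δ) × Fin d → ℂ) :
    w ∈ subC Δ U ↔ ∀ x, (fun j => w (x, j)) ∈ U := Iff.rfl

theorem cmp_irr (V : Γ →* Matrix (Fin n) (Fin n) ℂ) (hV : Irr V)
    (φ : (Fin d → ℂ) →ₗ[ℂ] (Fin n → ℂ)) (A : Δ →* Matrix (Fin d) (Fin d) ℂ)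
    (hφ : ∀ (γ : Δ) w, (V γ).mulVec (φ w) = φ ((A γ).mulVec w))
    (hinj : Function.Injective (cmpM Δ V φ)) (hd0 : 0 < d) : Irr A := by
  refine ⟨⟨⟨0, hd0⟩⟩, fun U hU => ?_⟩
  have hWinv : ∀ g, ∀ v ∈ (subC Δ U).map (cmpM Δ V φ),
      (V g).mulVec v ∈ (subC Δ U).map (cmpM Δ V φ) := by
    rintro g _ ⟨w, hw, rfl⟩
    rw [cmp_equi Δ V φ A hφ]
    refine Submodule.mem_map_of_mem ?_
    rw [mem_subC]
    intro x
    rw [twC_apply]
    exact hU _ _ (hw _)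
  have x0 : Γ ⧸ Δ := QuotientGroup.mk 1
  rcases hV.2 _ hWinv with h0 | h0
  · left
    rw [Submodule.eq_bot_iff]
    intro u hu
    have hm : cmpM Δ V φ (fun p => u p.2) ∈ (subC Δ U).map (cmpM Δ V φ) :=
      Submodule.mem_map_of_mem ((mem_subC Δ U _).mpr fun _ => hu)
    rw [h0, Submodule.mem_bot] at hm
    have h1 := (injective_iff_map_eq_zero (cmpM Δ V φ)).1 hinj _ hm
    funext j
    exact congrFun h1 (x0, j)
  · right
    rw [Submodule.eq_top_iff']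
    intro u
    have h1 : cmpM Δ V φ (fun p => u p.2) ∈ (subC Δ U).map (cmpM Δ V φ) := by rw [h0]; trivial
    obtain ⟨w, hw, he⟩ := h1
    have h2 := hinj he
    have h3 := (mem_subC Δ U w).mp hw x0
    rw [h2] at h3
    exact h3

theorem cmp_eqv (V : Γ →* Matrix (Fin n) (Fin n) ℂ) (hV : Irr V)
    (φ : (Fin d → ℂ) →ₗ[ℂ] (Fin n → ℂ)) (A : Δ →* Matrix (Fin d) (Fin d) ℂ)
    (hφ : ∀ (γ : Δ) w, (V γ).mulVec (φ w) = φ ((A γ).mulVec w))
    (hinj : Function.Injective (cmpM Δ V φ)) (hd0 : 0 < d) :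
    ∃ e : (Γ ⧸ Δ) × Fin d ≃ Fin n, Eqv (indM Δ e A) V := by
  have x0 : Γ ⧸ Δ := QuotientGroup.mk 1
  have hsurj : Function.Surjective (cmpM Δ V φ) := by
    rcases hV.2 (LinearMap.range (cmpM Δ V φ)) (by
      rintro g _ ⟨f, rfl⟩
      exact ⟨twC Δ A g f, (cmp_equi Δ V φ A hφ g f).symm⟩) with h0 | h0
    · exfalso
      have h1 : cmpM Δ V φ (fun _ => 1) ∈ LinearMap.range (cmpM Δ V φ) := ⟨_, rfl⟩
      rw [h0, Submodule.mem_bot] at h1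
      have h2 := (injective_iff_map_eq_zero (cmpM Δ V φ)).1 hinj _ h1
      exact one_ne_zero (congrFun h2 (x0, ⟨0, hd0⟩))
    · exact LinearMap.range_eq_top.mp h0
  let Φe : ((Γ ⧸ Δ) × Fin d → ℂ) ≃ₗ[ℂ] (Fin n → ℂ) :=
    LinearEquiv.ofBijective (cmpM Δ V φ) ⟨hinj, hsurj⟩
  have hcard : Fintype.card ((Γ ⧸ Δ) × Fin d) = Fintype.card (Fin n) := by
    have := LinearEquiv.finrank_eq Φe
    rwa [Module.finrank_fintype_fun_eq_card, Module.finrank_fintype_fun_eq_card] at this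
  classical
  let e : (Γ ⧸ Δ) × Fin d ≃ Fin n := Fintype.equivOfCardEq hcard
  refine ⟨e, eqv_of_equiv _ _ ((LinearEquiv.funCongrLeft ℂ ℂ e).trans Φe) fun g v => ?_⟩
  have hΨ : ∀ v : Fin n → ℂ, ((LinearEquiv.funCongrLeft ℂ ℂ e).trans Φe) v =
      cmpM Δ V φ (v ∘ e) := fun v => rfl
  rw [hΨ, hΨ, cmp_equi Δ V φ A hφ]
  congr 1
  funext p
  obtain ⟨y, i⟩ := p
  show (A (kap Δ g (g⁻¹ • y))).mulVec (fun j => (v ∘ e) (g⁻¹ • y, j)) i = _
  rw [Function.comp_apply, Matrix.mulVec, Matrix.mulVec, dotProduct, dotProduct,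
    ← Equiv.sum_comp e (fun l => indM Δ e A g (e (y, i)) l * v l),
    Fintype.sum_prod_type, Finset.sum_eq_single (g⁻¹ • y)]
  · refine Finset.sum_congr rfl fun l _ => ?_
    rw [indM_apply, Equiv.symm_apply_apply, Equiv.symm_apply_apply, smul_inv_smul, if_pos rfl]
    rfl
  · intro x _ hx
    refine Finset.sum_eq_zero fun l _ => ?_
    rw [indM_apply, Equiv.symm_apply_apply, Equiv.symm_apply_apply, if_neg, zero_mul]
    intro hc
    apply hx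
    rw [show y = g • x from hc, inv_smul_smul]
  · intro hc
    exact absurd (Finset.mem_univ _) hc

theorem cmp_inj (Γ₀ : Subgroup Γ) [Γ₀.Normal] (χ : Γ₀ →* ℂ) (hΔ : ∀ g, g ∈ Δ ↔ g ∈ stabC Γ₀ χ)
    (V : Γ →* Matrix (Fin n) (Fin n) ℂ) (φ : (Fin d → ℂ) →ₗ[ℂ] (Fin n → ℂ))
    (hφ : Function.Injective φ)
    (hE : ∀ (w : Fin d → ℂ) (h : Γ₀), (V h).mulVec (φ w) = χ h • φ w) :
    Function.Injective (cmpM Δ V φ) := by
  rw [injective_iff_map_eq_zero]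
  intro f hf
  have htr : ∀ (g : Γ) (w : Fin d → ℂ) (h : Γ₀),
      (V h).mulVec ((V g).mulVec (φ w)) = χ (cjN Γ₀ g h) • (V g).mulVec (φ w) := by
    intro g w h
    have h1 : (h : Γ) * g = g * (cjN Γ₀ g h : Γ₀) := by rw [cjN_coe]; group
    rw [Matrix.mulVec_mulVec, ← map_mul, h1, map_mul, ← Matrix.mulVec_mulVec, hE,
      Matrix.mulVec_smul]
  have h1 : ∀ h : Γ₀, ∑ x : Γ ⧸ Δ, chiC Γ₀ χ x.out h •
      (V x.out).mulVec (φ (fun j => f (x, j))) = 0 := by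
    intro h
    have h2 : (V h).mulVec (cmpM Δ V φ f) = 0 := by rw [hf, Matrix.mulVec_zero]
    rw [cmpM_apply, Matrix.mulVec_sum] at h2
    rw [← h2]
    refine Finset.sum_congr rfl fun x _ => ?_
    exact (htr x.out _ h).symm
  have hdist : Function.Injective fun x : Γ ⧸ Δ => chiC Γ₀ χ x.out := by
    intro x y hxy
    have h2 : x.out⁻¹ * y.out ∈ Δ := by
      rw [hΔ]
      intro h
      rw [cjN_mul]
      have h4 : χ (cjN Γ₀ x.out (cjN Γ₀ x.out⁻¹ h)) = χ (cjN Γ₀ y.out (cjN Γ₀ x.out⁻¹ h)) :=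
        congrArg (fun F : Γ₀ →* ℂ => F (cjN Γ₀ x.out⁻¹ h)) hxy
      rw [← h4, cjN_inv]
    have h3 := QuotientGroup.eq.mpr h2
    rwa [QuotientGroup.out_eq', QuotientGroup.out_eq'] at h3
  have hli : LinearIndependent ℂ (fun x : Γ ⧸ Δ => (chiC Γ₀ χ x.out : Γ₀ → ℂ)) :=
    (linearIndependent_monoidHom Γ₀ ℂ).comp _ hdist
  have h2 : ∀ (x : Γ ⧸ Δ) (i : Fin n), (V x.out).mulVec (φ (fun j => f (x, j))) i = 0 := by
    intro x i
    refine Fintype.linearIndependent_iff.mp hli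
      (fun x => (V x.out).mulVec (φ (fun j => f (x, j))) i) ?_ x
    funext h
    have := congrFun (h1 h) i
    rw [Finset.sum_apply] at this ⊢
    rw [Pi.zero_apply] at this ⊢
    rw [← this]
    refine Finset.sum_congr rfl fun x _ => ?_
    rw [Pi.smul_apply, Pi.smul_apply, smul_eq_mul, smul_eq_mul, mul_comm]
  funext p
  obtain ⟨x, j⟩ := p
  have h3 : φ (fun j => f (x, j)) = 0 := by
    have h4 : (V x.out).mulVec (φ (fun j => f (x, j))) = 0 := funext (h2 x)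
    have h5 := congrArg (fun w => (V x.out⁻¹).mulVec w) h4
    simp only [Matrix.mulVec_mulVec, ← map_mul, inv_mul_cancel, map_one, Matrix.one_mulVec,
      Matrix.mulVec_zero] at h5
    exact h5
  have h4 : (fun j => f (x, j)) = 0 := (injective_iff_map_eq_zero φ).1 hφ _ h3
  exact congrFun h4 j

end cmp

theorem clifford {n : ℕ} (Γ₀ : Subgroup Γ) [Γ₀.Normal] [Γ₀.FiniteIndex]
    (V : Γ →* Matrix (Fin n) (Fin n) ℂ) (hV : Irr V)
    (hev : ∃ v : Fin n → ℂ, v ≠ 0 ∧ ∀ h ∈ Γ₀, ∃ c : ℂ, (V h).mulVec v = c • v) :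
    ∃ (Δ : Subgroup Γ) (_ : Γ₀ ≤ Δ) (_ : Fintype (Γ ⧸ Δ)) (d : ℕ)
      (e : (Γ ⧸ Δ) × Fin d ≃ Fin n) (A : Δ →* Matrix (Fin d) (Fin d) ℂ), Irr A ∧
      (∀ h : Δ, (h : Γ) ∈ Γ₀ → ∃ c : ℂ, A h = c • (1 : Matrix (Fin d) (Fin d) ℂ)) ∧
      Eqv (indM Δ e A) V := by
  classical
  obtain ⟨v0, hv0, hc⟩ := hev
  choose c hc using fun h : Γ₀ => hc h h.2
  have hinj : ∀ x y : ℂ, x • v0 = y • v0 → x = y := fun x y h => smul_left_injective ℂ hv0 h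
  let χ : Γ₀ →* ℂ :=
    { toFun := c
      map_one' := hinj _ _ (by rw [← hc, Subgroup.coe_one, map_one, Matrix.one_mulVec, one_smul])
      map_mul' := fun h h' => hinj _ _ (by
        rw [← hc, Subgroup.coe_mul, map_mul, ← Matrix.mulVec_mulVec, hc h', Matrix.mulVec_smul,
          hc h, smul_smul, mul_comm]) }
  have hχ : ∀ h : Γ₀, (V h).mulVec v0 = χ h • v0 := hc
  let Δ : Subgroup Γ := stabC Γ₀ χ
  have hΔ : Γ₀ ≤ Δ := by
    intro g hg h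
    have h1 : cjN Γ₀ g h = (⟨g, hg⟩ : Γ₀)⁻¹ * h * ⟨g, hg⟩ := Subtype.ext rfl
    rw [h1, map_mul, map_mul, mul_comm, ← mul_assoc, ← map_mul, mul_inv_cancel, map_one, one_mul]
  have hfi : Δ.FiniteIndex := Subgroup.finiteIndex_of_le hΔ
  let hft : Fintype (Γ ⧸ Δ) := Subgroup.fintypeQuotientOfFiniteIndex
  let E : Submodule ℂ (Fin n → ℂ) :=
    { carrier := {v | ∀ h : Γ₀, (V h).mulVec v = χ h • v}
      add_mem' := fun {x y} hx hy h => by rw [Matrix.mulVec_add, hx, hy, smul_add]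
      zero_mem' := fun h => by rw [Matrix.mulVec_zero, smul_zero]
      smul_mem' := fun a x hx h => by rw [Matrix.mulVec_smul, hx, smul_comm] }
  have hst : ∀ (g : Δ), ∀ v ∈ E, (V g).mulVec v ∈ E := by
    intro g v hv h
    have h1 : (h : Γ) * g = g * (cjN Γ₀ g h : Γ₀) := by rw [cjN_coe]; group
    rw [Matrix.mulVec_mulVec, ← map_mul, h1, map_mul, ← Matrix.mulVec_mulVec, hv,
      Matrix.mulVec_smul, g.2 h]
  let r : Δ →* Module.End ℂ E :=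
    { toFun := fun γ => (Matrix.toLin' (V γ)).restrict (fun v hv => hst γ v hv)
      map_one' := by
        refine LinearMap.ext fun v => Subtype.ext ?_
        change (V (1 : Δ)).mulVec v.1 = v.1
        rw [Subgroup.coe_one, map_one, Matrix.one_mulVec]
      map_mul' := fun γ δ => by
        refine LinearMap.ext fun v => Subtype.ext ?_
        change (V (γ * δ : Δ)).mulVec v.1 = (V γ).mulVec ((V δ).mulVec v.1)
        rw [Matrix.mulVec_mulVec, ← map_mul, Subgroup.coe_mul] }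
  have hr : ∀ γ (v : E), ((r γ v : E) : Fin n → ℂ) = (V γ).mulVec v.1 := fun _ _ => rfl
  obtain ⟨d, hd, A, φ, hφ⟩ := PIrr.exists_matrix_rep r
  let φ' : (Fin d → ℂ) →ₗ[ℂ] (Fin n → ℂ) := E.subtype ∘ₗ (φ : (Fin d → ℂ) →ₗ[ℂ] E)
  have hφ' : ∀ (γ : Δ) w, (V γ).mulVec (φ' w) = φ' ((A γ).mulVec w) := by
    intro γ w
    show (V γ).mulVec (φ w : Fin n → ℂ) = (φ ((A γ).mulVec w) : Fin n → ℂ)
    rw [← hφ, hr]
  have hφi : Function.Injective φ' := Subtype.coe_injective.comp φ.injective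
  have hφE : ∀ (w : Fin d → ℂ) (h : Γ₀), (V h).mulVec (φ' w) = χ h • φ' w := fun w h => (φ w).2 h
  have hd0 : 0 < d := by
    rw [hd, Module.finrank_pos_iff]
    exact (Submodule.nontrivial_iff_ne_bot).2 fun h => hv0 (by
      have : v0 ∈ E := hχ
      rw [h] at this
      exact this)
  have hindep := cmp_inj Δ Γ₀ χ (fun _ => Iff.rfl) V φ' hφi hφE
  obtain ⟨e, he⟩ := cmp_eqv Δ V hV φ' A hφ' hindep hd0
  refine ⟨Δ, hΔ, hft, d, e, A, cmp_irr Δ V hV φ' A hφ' hindep hd0, ?_, he⟩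
  intro h hh
  refine ⟨χ ⟨h, hh⟩, ?_⟩
  apply Matrix.toLin'.injective
  refine LinearMap.ext fun w => ?_
  rw [Matrix.toLin'_apply, Matrix.toLin'_apply, Matrix.smul_mulVec, Matrix.one_mulVec]
  apply hφi
  rw [← hφ', map_smul]
  exact hφE w ⟨h, hh⟩

end cliff

end Vale.Agent.P002
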