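import Vale.Agent.P002.PChar
import Vale.Agent.P002.PQuot
import Vale.Agent.P002.PSurf
import Vale.Agent.P002.PDOf

/-!
# Twisting representations of finite image by multiplicative cocycles
-/

namespace Vale.Agent.P002

open Matrix

section defs
variable {Γ : Type} [Group Γ] {n : ℕ} {X : Type}

/-- multiplicative cocycles for an action on the labels -/
def Coc (σ : Γ →* Equiv.Perm X) (t : Γ → X → ℂˣ) : Prop :=
  ∀ g h x, t (g * h) x = t g (σ h x) * t h x

/-- `U` is compatible with the labels `b` of the basis vectors and the action `σ` on the labels -/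
def Lab (U : Γ →* Matrix (Fin n) (Fin n) ℂ) (σ : Γ →* Equiv.Perm X) (b : Fin n → X) :
    Prop := ∀ g i j, U g i j ≠ 0 → b i = σ g (b j)

/-- Every irreducible representation of dimension `n` is a twist, by a multiplicative cocycle, of
one of finitely many integral representations of finite image. -/
def TB (Γ : Type) [Group Γ] (n : ℕ) : Prop :=
  ∃ (e : ℕ) (L₀ : IntermediateField ℚ ℂ) (B : Type) (U : B → Γ →* Matrix (Fin n) (Fin n) ℂ)
    (X : B → Type) (σ : ∀ β, Γ →* Equiv.Perm (X β)) (b : ∀ β, Fin n → X β),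
    0 < e ∧ FiniteDimensional ℚ L₀ ∧ Finite B ∧ (∀ β, Finite (X β)) ∧
    (∀ β, Lab (U β) (σ β) (b β)) ∧
    (∀ β g, U β g ^ e = 1) ∧ (∀ β g i j, OInt L₀ (U β g i j)) ∧
    ∀ V : Γ →* Matrix (Fin n) (Fin n) ℂ, Irr V → ∃ β V' t, Coc (σ β) t ∧
      (∀ g i j, V' g i j = (t g (b β j) : ℂˣ) * U β g i j) ∧ Eqv V V'

end defs

section coc
variable {Γ : Type} [Group Γ] {n : ℕ} {X : Type}

theorem Coc.one {σ : Γ →* Equiv.Perm X} {t : Γ → X → ℂˣ} (h : Coc σ t) (x : X) :
    t 1 x = 1 := by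
  have h1 := h 1 1 x
  rw [mul_one, map_one, Equiv.Perm.one_apply] at h1
  exact (mul_eq_left.mp h1.symm)

theorem Coc.pow_fix {σ : Γ →* Equiv.Perm X} {t : Γ → X → ℂˣ} (h : Coc σ t) {g : Γ}
    {x : X} (hx : σ g x = x) (k : ℕ) : t (g ^ k) x = t g x ^ k := by
  induction k with
  | zero => rw [pow_zero, pow_zero, h.one]
  | succ k ih => rw [pow_succ, h, hx, ih, pow_succ]

/-- the twist of `U` by a cocycle -/
noncomputable def ctw {U : Γ →* Matrix (Fin n) (Fin n) ℂ} {σ : Γ →* Equiv.Perm X}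
    {b : Fin n → X} (hU : Lab U σ b) (t : Γ → X → ℂˣ) (ht : Coc σ t) :
    Γ →* Matrix (Fin n) (Fin n) ℂ where
  toFun g := Matrix.of fun i j => (t g (b j) : ℂ) * U g i j
  map_one' := by
    ext i j
    simp only [Matrix.of_apply, ht.one, Units.val_one, one_mul, map_one]
  map_mul' g h := by
    ext i j
    simp only [Matrix.of_apply, map_mul, Matrix.mul_apply, Finset.mul_sum]
    refine Finset.sum_congr rfl fun l _ => ?_
    by_cases hl : U h l j = 0
    · rw [hl]; ring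
    · rw [hU h l j hl, ht, Units.val_mul]
      ring

theorem ctw_apply {U : Γ →* Matrix (Fin n) (Fin n) ℂ} {σ : Γ →* Equiv.Perm X}
    {b : Fin n → X} (hU : Lab U σ b) (t : Γ → X → ℂˣ) (ht : Coc σ t) (g : Γ)
    (i j : Fin n) : ctw hU t ht g i j = (t g (b j) : ℂ) * U g i j := rfl

theorem ctw_eq {U : Γ →* Matrix (Fin n) (Fin n) ℂ} {σ : Γ →* Equiv.Perm X}
    {b : Fin n → X} (hU : Lab U σ b) (t : Γ → X → ℂˣ) (ht : Coc σ t) (g : Γ) :
    ctw hU t ht g = U g * Matrix.diagonal fun j => (t g (b j) : ℂ) := by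
  ext i j
  rw [ctw_apply, Matrix.mul_diagonal, mul_comm]

theorem det_ctw {U : Γ →* Matrix (Fin n) (Fin n) ℂ} {σ : Γ →* Equiv.Perm X}
    {b : Fin n → X} (hU : Lab U σ b) (t : Γ → X → ℂˣ) (ht : Coc σ t) (g : Γ) :
    (ctw hU t ht g).det = (U g).det * ((∏ j, t g (b j) : ℂˣ) : ℂ) := by
  rw [ctw_eq, Matrix.det_mul, Matrix.det_diagonal, Units.coe_prod]

theorem cobound [Finite X] (σ : Γ →* Equiv.Perm X) (u : Γ → X → ℂˣ) (hu : Coc σ u) (c : Γ)
    (h : ∀ i : ℕ, 0 < i → ∀ x, σ (c ^ i) x = x → u (c ^ i) x = 1) :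
    ∃ d : X → ℂˣ, ∀ x, d (σ c x) = u c x * d x := by
  classical
  let S := Equiv.Perm.SameCycle.setoid (σ c)
  let rep : X → X := fun x => (Quotient.mk S x).out
  have hrep : ∀ x, (σ c).SameCycle (rep x) x := fun x => Quotient.exact (Quotient.out_eq (Quotient.mk S x))
  have hrepσ : ∀ x, rep (σ c x) = rep x := by
    intro x
    have h1 : Quotient.mk S (σ c x) = Quotient.mk S x := by
      apply Quotient.sound
      show (σ c).SameCycle (σ c x) x
      exact Equiv.Perm.sameCycle_apply_left.mpr (Equiv.Perm.SameCycle.refl _ _)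
    simp only [rep, h1]
  have hex : ∀ x, ∃ i : ℕ, σ (c ^ i) (rep x) = x := by
    intro x
    obtain ⟨i, hi⟩ := (hrep x).exists_nat_pow_eq
    exact ⟨i, by rw [map_pow]; exact hi⟩
  choose k hk using hex
  have key0 : ∀ (i l : ℕ) (x : X), σ (c ^ i) x = σ (c ^ (i + l)) x →
      u (c ^ i) x = u (c ^ (i + l)) x := by
    intro i l x hx
    rcases Nat.eq_zero_or_pos l with rfl | hl
    · rfl
    · rw [add_comm, pow_add, hu]
      have h1 : σ (c ^ l) (σ (c ^ i) x) = σ (c ^ i) x := by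
        rw [← Equiv.Perm.mul_apply, ← map_mul, ← pow_add, add_comm l i]
        exact hx.symm
      rw [h l hl _ h1, one_mul]
  have key : ∀ (i l : ℕ) (x : X), σ (c ^ i) x = σ (c ^ l) x → u (c ^ i) x = u (c ^ l) x := by
    intro i l x hx
    rcases le_total i l with hil | hil
    · obtain ⟨m, rfl⟩ := Nat.exists_eq_add_of_le hil
      exact key0 i m x hx
    · obtain ⟨m, rfl⟩ := Nat.exists_eq_add_of_le hil
      exact (key0 l m x hx.symm).symm
  refine ⟨fun x => u (c ^ k x) (rep x), fun x => ?_⟩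
  show u (c ^ k (σ c x)) (rep (σ c x)) = u c x * u (c ^ k x) (rep x)
  rw [hrepσ]
  have h1 : σ (c ^ k (σ c x)) (rep x) = σ (c ^ (k x + 1)) (rep x) := by
    have h2 := hk (σ c x)
    rw [hrepσ] at h2
    rw [h2, pow_succ', map_mul, Equiv.Perm.mul_apply, hk x]
  rw [key _ _ _ h1, pow_succ', hu, hk x]

theorem conj_ctw [Finite X] {U : Γ →* Matrix (Fin n) (Fin n) ℂ} {σ : Γ →* Equiv.Perm X}
    {b : Fin n → X} (hU : Lab U σ b) (t t' : Γ → X → ℂˣ) (ht : Coc σ t)
    (ht' : Coc σ t') (c : Γ)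
    (h : ∀ i : ℕ, 0 < i → ∀ x, σ (c ^ i) x = x → t' (c ^ i) x = t (c ^ i) x) :
    ConjM (ctw hU t' ht' c) (ctw hU t ht c) := by
  have hu : Coc σ (fun g x => t g x / t' g x) := by
    intro g h x
    show t (g * h) x / t' (g * h) x = _
    rw [ht, ht', mul_div_mul_comm]
  obtain ⟨d, hd⟩ := cobound σ _ hu c (fun i hi x hx => by
    show t (c ^ i) x / t' (c ^ i) x = 1
    rw [h i hi x hx, div_self'])
  have h1 : (Matrix.diagonal fun j => ((d (b j) : ℂˣ) : ℂ)) *
      (Matrix.diagonal fun j => (((d (b j))⁻¹ : ℂˣ) : ℂ)) = 1 := by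
    rw [Matrix.diagonal_mul_diagonal]
    simp
  refine ⟨Matrix.diagonal fun j => ((d (b j) : ℂˣ) : ℂ), Matrix.isUnit_det_of_right_inverse h1, ?_⟩
  rw [Matrix.inv_eq_right_inv h1]
  ext i j
  rw [Matrix.mul_diagonal, Matrix.diagonal_mul, ctw_apply, ctw_apply]
  by_cases hij : U c i j = 0
  · rw [hij]; ring
  · rw [hU c i j hij, hd, Units.val_mul, Units.val_div_eq_div_val]
    have h2 := (t' c (b j)).ne_zero
    have h3 : ((d (b j) : ℂˣ) : ℂ) * (((d (b j))⁻¹ : ℂˣ) : ℂ) = 1 := by simp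
    have h4 : (t c (b j) : ℂ) / (t' c (b j) : ℂ) * (t' c (b j) : ℂ) = (t c (b j) : ℂ) :=
      div_mul_cancel₀ _ h2
    linear_combination (-(t c (b j) : ℂ) * U c i j) * h3 -
      (U c i j * ((d (b j) : ℂˣ) : ℂ) * (((d (b j))⁻¹ : ℂˣ) : ℂ)) * h4

theorem qu_pow_eigen {A : Matrix (Fin n) (Fin n) ℂ} {M : ℕ} (h : QU M A) {N : ℕ} (hN : 0 < N)
    {v : Fin n → ℂ} (hv : v ≠ 0) {l : ℂ} (hl : (A ^ N).mulVec v = l • v) : l ^ M = 1 := by
  have h0 : Nonempty (Fin n) := by
    by_contra hc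
    rw [not_nonempty_iff] at hc
    exact hv (Subsingleton.elim _ _)
  have h1 : l ∈ spectrum ℂ (A ^ N) := by
    rw [Matrix.mem_spectrum_iff_isRoot_charpoly, Polynomial.IsRoot, Matrix.eval_charpoly]
    apply Matrix.exists_mulVec_eq_zero_iff.mp
    refine ⟨v, hv, ?_⟩
    rw [Matrix.sub_mulVec, hl, sub_eq_zero]
    ext i
    simp [Matrix.scalar_apply, Matrix.mulVec_diagonal]
  rw [spectrum.map_pow_of_pos A hN] at h1
  obtain ⟨μ, hμ, rfl⟩ := h1
  rw [Matrix.mem_spectrum_iff_isRoot_charpoly] at hμ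
  show (μ ^ N) ^ M = 1
  rw [← pow_mul, mul_comm, pow_mul, h μ hμ, one_pow]

/-- labels in the range of `b` are permuted -/
theorem Lab.range {U : Γ →* Matrix (Fin n) (Fin n) ℂ} {σ : Γ →* Equiv.Perm X}
    {b : Fin n → X} (hU : Lab U σ b) (g : Γ) (x : X) :
    x ∈ Set.range b ↔ σ g x ∈ Set.range b := by
  have h1 : ∀ (g : Γ) x, x ∈ Set.range b → σ g x ∈ Set.range b := by
    rintro g _ ⟨j, rfl⟩
    have h2 : U g⁻¹ * U g = 1 := by rw [← map_mul, inv_mul_cancel, map_one]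
    have h3 : ∃ i, U g i j ≠ 0 := by
      by_contra hc
      push Not at hc
      have h4 := congrFun (congrFun h2 j) j
      rw [Matrix.mul_apply, Matrix.one_apply_eq] at h4
      rw [Finset.sum_eq_zero fun i _ => by rw [hc i, mul_zero]] at h4
      exact zero_ne_one h4
    obtain ⟨i, hi⟩ := h3
    exact ⟨i, hU g i j hi⟩
  refine ⟨h1 g x, fun h => ?_⟩
  have h2 := h1 g⁻¹ _ h
  rwa [← Equiv.Perm.mul_apply, ← map_mul, inv_mul_cancel, map_one, Equiv.Perm.one_apply] at h2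

/-- normalization of the cocycle on the labels which are not used -/
theorem coc_normalize {U : Γ →* Matrix (Fin n) (Fin n) ℂ} {σ : Γ →* Equiv.Perm X}
    {b : Fin n → X} (hU : Lab U σ b) (t : Γ → X → ℂˣ) (ht : Coc σ t) :
    ∃ t' : Γ → X → ℂˣ, Coc σ t' ∧ (∀ g j, t' g (b j) = t g (b j)) ∧
      ∀ g x, x ∉ Set.range b → t' g x = 1 := by
  classical
  refine ⟨fun g x => if x ∈ Set.range b then t g x else 1, ?_, ?_, ?_⟩
  · intro g h x
    by_cases hx : x ∈ Set.range b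
    · simp only [if_pos hx, if_pos ((hU.range h x).mp hx), ht g h x]
    · simp only [if_neg hx, if_neg (fun hc => hx ((hU.range h x).mpr hc)), mul_one]
  · intro g j
    simp
  · intro g x hx
    simp only [if_neg hx]

end coc

end Vale.Agent.P002
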