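import Mathlib

namespace Vale.Agent.P002

open Matrix

/-- families of matrix representations of `Γ` of dimensions `a k` -/
abbrev Fam (Γ : Type) [Group Γ] {K : ℕ} (a : Fin K → ℕ) : Type :=
  (k : Fin K) → (Γ →* Matrix (Fin (a k)) (Fin (a k)) ℂ)

/-- the algebra of functions of families generated by the matrix coefficients -/
def RF (Γ : Type) [Group Γ] {K : ℕ} (a : Fin K → ℕ) : Subalgebra ℂ (Fam Γ a → ℂ) :=
  Algebra.adjoin ℂ {f | ∃ (k : Fin K) (γ : Γ) (i j : Fin (a k)), f = fun W => W k γ i j}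

/-- irreducibility -/
def Irr {Γ : Type} [Group Γ] {n : Type} [Fintype n] [DecidableEq n] (ρ : Γ →* Matrix n n ℂ) : Prop :=
  Nonempty n ∧ ∀ V : Submodule ℂ (n → ℂ), (∀ γ, ∀ v ∈ V, (ρ γ).mulVec v ∈ V) → V = ⊥ ∨ V = ⊤

/-- semisimplicity -/
def SemiS {Γ : Type} [Group Γ] {n : Type} [Fintype n] [DecidableEq n]
    (ρ : Γ →* Matrix n n ℂ) : Prop :=
  ∀ V : Submodule ℂ (n → ℂ), (∀ γ, ∀ v ∈ V, (ρ γ).mulVec v ∈ V) →
    ∃ W : Submodule ℂ (n → ℂ), (∀ γ, ∀ v ∈ W, (ρ γ).mulVec v ∈ W) ∧ IsCompl V W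

/-- equivalence of representations -/
def Eqv {Γ : Type} [Group Γ] {n : Type} [Fintype n] [DecidableEq n]
    (ρ ρ' : Γ →* Matrix n n ℂ) : Prop :=
  ∃ h : Matrix n n ℂ, IsUnit h.det ∧ ∀ γ, ρ' γ = h * ρ γ * h⁻¹

/-- conjugacy of matrices -/
def ConjM {n : Type} [Fintype n] [DecidableEq n] (A B : Matrix n n ℂ) : Prop :=
  ∃ h : Matrix n n ℂ, IsUnit h.det ∧ B = h * A * h⁻¹

/-- integers of a subfield of `ℂ` -/
def OInt (L : IntermediateField ℚ ℂ) (z : ℂ) : Prop := z ∈ L ∧ IsIntegral ℤ z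

/-- families with integral entries -/
def IntFam (L : IntermediateField ℚ ℂ) {Γ : Type} [Group Γ] {K : ℕ} {a : Fin K → ℕ}
    (W : Fam Γ a) : Prop := ∀ k γ i j, OInt L (W k γ i j)

/-- the determinant condition -/
def DetC {Γ : Type} [Group Γ] {K : ℕ} {a : Fin K → ℕ} (m : Fin K → ℕ) (W : Fam Γ a) : Prop :=
  ∀ γ, ∏ k, (W k γ).det ^ m k = 1

/-- functions of families invariant under equivalence (on the families with the same determinant
condition and classes as `V`) -/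
def InvF {Γ : Type} [Group Γ] {J : Type} (c : J → Γ) {K : ℕ} {a : Fin K → ℕ} (m : Fin K → ℕ)
    (V : Fam Γ a) (P : Fam Γ a → ℂ) : Prop :=
  ∀ W W' : Fam Γ a, DetC m W → (∀ k j, ConjM (W k (c j)) (V k (c j))) →
    (∀ k, Eqv (W k) (W' k)) → P W = P W'

/-- all eigenvalues are `M`-th roots of unity -/
def QU {n : Type} [Fintype n] [DecidableEq n] (M : ℕ) (A : Matrix n n ℂ) : Prop :=
  ∀ μ : ℂ, A.charpoly.IsRoot μ → μ ^ M = 1

/-- potential density of integral families of irreducible representations with prescribed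
determinant condition and prescribed quasi-unipotent classes at the marked elements `c j` -/
def PD {Γ : Type} [Group Γ] {J : Type} (c : J → Γ) : Prop :=
  ∀ (K : ℕ) (a m : Fin K → ℕ) (M : ℕ), (∀ k, 0 < m k) → 0 < M →
    ∃ L : IntermediateField ℚ ℂ, FiniteDimensional ℚ L ∧
    ∀ V : Fam Γ a, (∀ k, Irr (V k)) → DetC m V → (∀ k j, QU M (V k (c j))) →
      ∀ P ∈ RF Γ a, InvF c m V P →
        (∀ W : Fam Γ a, (∀ k, Irr (W k)) → IntFam L W → DetC m W →
          (∀ k j, ConjM (W k (c j)) (V k (c j))) → P W = 0) →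
        P V = 0

end Vale.Agent.P002
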