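import Mathlib

/-!
# The ring of all algebraic integers is a Bezout ring; lattices over it are free
-/

namespace Vale.Agent.P002

open NumberField

theorem exists_pow_principal {F : Type} [Field F] [NumberField F] (I : Ideal (𝓞 F)) (hI : I ≠ ⊥) :
    ∃ h : ℕ, 0 < h ∧ ∃ α : 𝓞 F, α ≠ 0 ∧ I ^ h = Ideal.span {α} := by
  refine ⟨Nat.card (ClassGroup (𝓞 F)), Nat.card_pos, ?_⟩
  have hIn : I ∈ nonZeroDivisors (Ideal (𝓞 F)) := mem_nonZeroDivisors_iff_ne_zero.mpr hI
  have h1 : ClassGroup.mk0 (⟨I, hIn⟩ ^ Nat.card (ClassGroup (𝓞 F)) : nonZeroDivisors (Ideal (𝓞 F)))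
      = 1 := by
    rw [map_pow]
    exact pow_card_eq_one'
  have h2 : (I ^ Nat.card (ClassGroup (𝓞 F))).IsPrincipal := by
    have := (ClassGroup.mk0_eq_one_iff
      ((⟨I, hIn⟩ : nonZeroDivisors (Ideal (𝓞 F))) ^ Nat.card (ClassGroup (𝓞 F))).2).mp h1
    exact this
  obtain ⟨α, hα⟩ := h2.principal
  have hα' : I ^ Nat.card (ClassGroup (𝓞 F)) = Ideal.span {α} := hα
  refine ⟨α, ?_, hα'⟩
  rintro rfl
  have h1 : I ^ Nat.card (ClassGroup (𝓞 F)) = ⊥ := by rw [hα']; simp
  exact pow_ne_zero _ hI h1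

section pair
variable {F K : Type} [Field F] [NumberField F] [Field K] [CharZero K] [IsAlgClosed K] [Algebra F K]

/-- integers of `F` as algebraic integers of `K` -/
def iotaZ (F K : Type) [Field F] [NumberField F] [Field K] [CharZero K] [Algebra F K] :
    𝓞 F →+* integralClosure ℤ K where
  toFun z := ⟨algebraMap F K z, by
    have h1 : IsIntegral ℤ (z : F) := z.2
    exact h1.map (IsScalarTower.toAlgHom ℤ F K)⟩
  map_one' := by
    apply Subtype.ext
    show algebraMap F K ((1 : 𝓞 F) : F) = 1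
    simp
  map_mul' x y := by
    apply Subtype.ext
    show algebraMap F K ((x * y : 𝓞 F) : F) = algebraMap F K x * algebraMap F K y
    simp
  map_zero' := by
    apply Subtype.ext
    show algebraMap F K ((0 : 𝓞 F) : F) = 0
    simp
  map_add' x y := by
    apply Subtype.ext
    show algebraMap F K ((x + y : 𝓞 F) : F) = algebraMap F K x + algebraMap F K y
    simp

omit [IsAlgClosed K] in
theorem iotaZ_coe (z : 𝓞 F) : ((iotaZ F K z : integralClosure ℤ K) : K) = algebraMap F K z := rfl

omit [IsAlgClosed K] in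
theorem iotaZ_inj : Function.Injective (iotaZ F K) := by
  intro x y hxy
  have h1 := congrArg (fun z : integralClosure ℤ K => (z : K)) hxy
  simp only [iotaZ_coe] at h1
  exact RingOfIntegers.ext ((algebraMap F K).injective h1)

theorem pair_aux (a0 b0 : 𝓞 F) (hab : ¬ (a0 = 0 ∧ b0 = 0)) :
    ∃ c x y a' b' : integralClosure ℤ K, iotaZ F K a0 = a' * c ∧ iotaZ F K b0 = b' * c ∧
    c = x * iotaZ F K a0 + y * iotaZ F K b0 := by
  classical
  let I : Ideal (𝓞 F) := Ideal.span {a0, b0}
  have hI0 : I ≠ ⊥ := by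
    intro h
    rw [Ideal.span_eq_bot] at h
    exact hab ⟨h a0 (by simp), h b0 (by simp)⟩
  obtain ⟨h, hh, α, hα0, hα'⟩ := exists_pow_principal I hI0
  obtain ⟨β', hβ'⟩ := IsAlgClosed.exists_pow_nat_eq ((iotaZ F K α : integralClosure ℤ K) : K) hh
  have hβi : IsIntegral ℤ β' := by
    refine IsIntegral.of_pow hh ?_
    rw [hβ']
    exact (iotaZ F K α).2
  let β : integralClosure ℤ K := ⟨β', hβi⟩
  have hβ : β ^ h = iotaZ F K α := Subtype.ext hβ'
  have hβ0 : β ≠ 0 := by
    intro hc
    rw [hc, zero_pow hh.ne'] at hβ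
    exact hα0 (iotaZ_inj (K := K) (by rw [← hβ, map_zero]))
  have hβ0' : (β : K) ≠ 0 := fun hc => hβ0 (Subtype.ext hc)
  have hdiv : ∀ z : 𝓞 F, z ∈ I → ∃ w : integralClosure ℤ K, iotaZ F K z = w * β := by
    intro z hz
    have h1 : z ^ h ∈ I ^ h := Ideal.pow_mem_pow hz h
    rw [hα', Ideal.mem_span_singleton'] at h1
    obtain ⟨u, hu⟩ := h1
    have h2 : IsIntegral ℤ (((iotaZ F K z : integralClosure ℤ K) : K) / (β : K)) := by
      refine IsIntegral.of_pow hh ?_
      rw [div_pow]
      have h3 : ((iotaZ F K z : integralClosure ℤ K) : K) ^ h =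
          ((iotaZ F K u : integralClosure ℤ K) : K) * (β : K) ^ h := by
        have h4 : (iotaZ F K z) ^ h = iotaZ F K u * β ^ h := by rw [hβ, ← map_mul, hu, map_pow]
        have h5 := congrArg (fun x : integralClosure ℤ K => (x : K)) h4
        simpa using h5
      rw [h3, mul_div_assoc, div_self (pow_ne_zero _ hβ0'), mul_one]
      exact (iotaZ F K u).2
    refine ⟨⟨_, h2⟩, Subtype.ext ?_⟩
    show ((iotaZ F K z : integralClosure ℤ K) : K) =
      ((iotaZ F K z : integralClosure ℤ K) : K) / (β : K) * (β : K)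
    rw [div_mul_cancel₀ _ hβ0']
  obtain ⟨x, hx⟩ := hdiv a0 (Ideal.subset_span (by simp))
  obtain ⟨y, hy⟩ := hdiv b0 (Ideal.subset_span (by simp))
  let J : Ideal (integralClosure ℤ K) := Ideal.span {x, y}
  have hmap : Ideal.map (iotaZ F K) I = Ideal.span {β} * J := by
    rw [Ideal.map_span, Set.image_pair, hx, hy, Ideal.span_mul_span]
    congr 1
    rw [Set.singleton_mul, Set.image_pair, mul_comm β, mul_comm β]
  have hJ : J = ⊤ := by
    have h1 : Ideal.map (iotaZ F K) (I ^ h) = Ideal.span {β ^ h} * J ^ h := by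
      rw [Ideal.map_pow, hmap, mul_pow, Ideal.span_singleton_pow]
    rw [hα', Ideal.map_span, Set.image_singleton, hβ] at h1
    have h2 : iotaZ F K α ∈ Ideal.span {iotaZ F K α} * J ^ h := by
      rw [← h1]
      exact Ideal.subset_span rfl
    rw [Ideal.mem_span_singleton_mul] at h2
    obtain ⟨j, hj, hj1⟩ := h2
    have h3 : j = 1 := by
      have h4 : iotaZ F K α ≠ 0 := fun hc => hα0 (iotaZ_inj (K := K) (by rw [hc, map_zero]))
      exact mul_left_cancel₀ h4 (by rw [hj1, mul_one])
    rw [h3] at hj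
    have h4 : J ^ h ≤ J := Ideal.pow_le_self hh.ne'
    exact (Ideal.eq_top_iff_one J).mpr (h4 hj)
  have h1 : (1 : integralClosure ℤ K) ∈ J := by rw [hJ]; trivial
  rw [Ideal.mem_span_pair] at h1
  obtain ⟨p, q, hpq⟩ := h1
  refine ⟨β, p, q, x, y, hx, hy, ?_⟩
  rw [hx, hy, ← mul_assoc, ← mul_assoc, ← add_mul, hpq, one_mul]

end pair

section zbar
variable {K : Type} [Field K] [CharZero K] [IsAlgClosed K] [Algebra.IsAlgebraic ℚ K]

theorem zbar_pair (a b : integralClosure ℤ K) : ∃ c x y a' b' : integralClosure ℤ K,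
    a = a' * c ∧ b = b' * c ∧ c = x * a + y * b := by
  classical
  by_cases hab : a = 0 ∧ b = 0
  · exact ⟨0, 0, 0, 0, 0, by simp [hab.1], by simp [hab.2], by simp⟩
  let K0 : IntermediateField ℚ K := IntermediateField.adjoin ℚ {(a : K), (b : K)}
  have hfd : FiniteDimensional ℚ K0 := by
    refine IntermediateField.finiteDimensional_adjoin fun x _ => ?_
    exact (Algebra.IsAlgebraic.isAlgebraic x).isIntegral
  have hnf : NumberField K0 := ⟨⟩
  have haK : (a : K) ∈ K0 := IntermediateField.subset_adjoin _ _ (by simp)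
  have hbK : (b : K) ∈ K0 := IntermediateField.subset_adjoin _ _ (by simp)
  have hint : ∀ z : integralClosure ℤ K, ∀ h : (z : K) ∈ K0, IsIntegral ℤ (⟨z, h⟩ : K0) := by
    intro z h
    have h1 : IsIntegral ℤ ((algebraMap K0 K) ⟨z, h⟩) := z.2
    exact (isIntegral_algebraMap_iff (algebraMap K0 K).injective).mp h1
  let a0 : 𝓞 K0 := ⟨⟨a, haK⟩, hint a haK⟩
  let b0 : 𝓞 K0 := ⟨⟨b, hbK⟩, hint b hbK⟩
  have hιa : iotaZ K0 K a0 = a := rfl
  have hιb : iotaZ K0 K b0 = b := rfl
  obtain ⟨c, x, y, a', b', h1, h2, h3⟩ := pair_aux (K := K) a0 b0 (fun hc => hab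
    ⟨by rw [← hιa, hc.1, map_zero], by rw [← hιb, hc.2, map_zero]⟩)
  rw [hιa] at h1 h3
  rw [hιb] at h2 h3
  exact ⟨c, x, y, a', b', h1, h2, h3⟩

theorem zbar_princ (N : Submodule (integralClosure ℤ K) K) (hN : N.FG) :
    ∃ c, N = Submodule.span (integralClosure ℤ K) {c} := by
  classical
  refine Submodule.fg_induction
    (motive := fun (N : Submodule (integralClosure ℤ K) K) _ => ∃ c, N = Submodule.span _ {c})
    (fun x => ⟨x, rfl⟩) ?_ N hN
  rintro _ _ _ _ ⟨a, rfl⟩ ⟨b, rfl⟩
  have halg : ∀ z : K, IsAlgebraic ℤ z := fun z =>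
    (IsFractionRing.isAlgebraic_iff ℤ ℚ K).mpr (Algebra.IsAlgebraic.isAlgebraic z)
  obtain ⟨da, hda, ha⟩ := (halg a).exists_integral_multiple
  obtain ⟨db, hdb, hb⟩ := (halg b).exists_integral_multiple
  have hD0 : ((da * db : ℤ) : K) ≠ 0 := by
    exact_mod_cast mul_ne_zero hda hdb
  have ha1 : IsIntegral ℤ (((da * db : ℤ) : K) * a) := by
    have h1 : ((da * db : ℤ) : K) * a = (db : K) * (da • a) := by
      rw [zsmul_eq_mul]; push_cast; ring
    rw [h1]
    exact (isIntegral_algebraMap (x := db)).mul ha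
  have hb1 : IsIntegral ℤ (((da * db : ℤ) : K) * b) := by
    have h1 : ((da * db : ℤ) : K) * b = (da : K) * (db • b) := by
      rw [zsmul_eq_mul]; push_cast; ring
    rw [h1]
    exact (isIntegral_algebraMap (x := da)).mul hb
  set D : K := ((da * db : ℤ) : K) with hD
  obtain ⟨c, x, y, a', b', e1, e2, e3⟩ := zbar_pair (K := K) ⟨_, ha1⟩ ⟨_, hb1⟩
  have f1 : D * a = a' * c := congrArg Subtype.val e1
  have f2 : D * b = b' * c := congrArg Subtype.val e2
  have f3 : (c : K) = x * (D * a) + y * (D * b) := congrArg Subtype.val e3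
  have hsm : ∀ (z : integralClosure ℤ K) (w : K), z • w = (z : K) * w := fun z w => rfl
  refine ⟨(c : K) / D, le_antisymm (sup_le ?_ ?_) ?_⟩
  · rw [Submodule.span_singleton_le_iff_mem, Submodule.mem_span_singleton]
    refine ⟨a', ?_⟩
    rw [hsm, ← mul_div_assoc, ← f1, mul_div_cancel_left₀ _ hD0]
  · rw [Submodule.span_singleton_le_iff_mem, Submodule.mem_span_singleton]
    refine ⟨b', ?_⟩
    rw [hsm, ← mul_div_assoc, ← f2, mul_div_cancel_left₀ _ hD0]
  · rw [Submodule.span_singleton_le_iff_mem, Submodule.mem_sup]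
    refine ⟨x • a, Submodule.smul_mem _ _ (Submodule.mem_span_singleton_self _), y • b,
      Submodule.smul_mem _ _ (Submodule.mem_span_singleton_self _), ?_⟩
    rw [hsm, hsm, f3]
    field_simp

end zbar

/-- lattices are free -/
theorem free_lattice {R K : Type} [CommRing R] [Field K] [Algebra R K]
    (hB : ∀ N : Submodule R K, N.FG → ∃ c, N = Submodule.span R {c}) (m : ℕ) :
    ∀ M : Submodule R (Fin m → K), M.FG → ∃ (t : ℕ) (v : Fin t → (Fin m → K)),
      LinearIndependent K v ∧ M = Submodule.span R (Set.range v) := by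
  classical
  induction m with
  | zero =>
    intro M _
    refine ⟨0, Fin.elim0, linearIndependent_empty_type, ?_⟩
    rw [Set.range_eq_empty, Submodule.span_empty, Submodule.eq_bot_iff]
    intro x _
    exact Subsingleton.elim _ _
  | succ m ih =>
    intro M hM
    let p : (Fin (m + 1) → K) →ₗ[K] K := LinearMap.proj 0
    let q : (Fin (m + 1) → K) →ₗ[K] (Fin m → K) := LinearMap.funLeft K K Fin.succ
    let s : (Fin m → K) →ₗ[K] (Fin (m + 1) → K) := LinearMap.pi (Fin.cons 0 fun i => LinearMap.proj i)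
    have hp : ∀ x, p x = x 0 := fun _ => rfl
    have hq : ∀ x i, q x i = x i.succ := fun _ _ => rfl
    have hs0 : ∀ x, s x 0 = 0 := fun x => by simp [s]
    have hs1 : ∀ x i, s x (Fin.succ i) = x i := fun x i => by simp [s]
    have hsq : ∀ x, x 0 = 0 → s (q x) = x := by
      intro x hx
      funext i
      refine Fin.cases ?_ (fun i => ?_) i
      · rw [hs0, hx]
      · rw [hs1, hq]
    have hqs : ∀ x, q (s x) = x := fun x => by
      funext i
      rw [hq, hs1]
    -- lattices in the hyperplane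
    have hyp : ∀ M1 : Submodule R (Fin (m + 1) → K), M1.FG → (∀ x ∈ M1, x 0 = 0) →
        ∃ (t : ℕ) (v : Fin t → (Fin (m + 1) → K)), LinearIndependent K v ∧ (∀ i, v i 0 = 0) ∧
          M1 = Submodule.span R (Set.range v) := by
      intro M1 hM1 h0
      obtain ⟨t, v, hv, hMv⟩ := ih (M1.map (q.restrictScalars R)) (hM1.map _)
      have hinj : Function.Injective s := fun x y hxy => by rw [← hqs x, hxy, hqs]
      refine ⟨t, fun i => s (v i), hv.map' s (LinearMap.ker_eq_bot.mpr hinj), fun i => hs0 _, ?_⟩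
      have h1 : M1 = (M1.map (q.restrictScalars R)).map (s.restrictScalars R) := by
        ext x
        constructor
        · intro hx
          exact ⟨q x, ⟨x, hx, rfl⟩, hsq x (h0 x hx)⟩
        · rintro ⟨_, ⟨y, hy, rfl⟩, rfl⟩
          show s (q y) ∈ M1
          rw [hsq y (h0 y hy)]
          exact hy
      rw [h1, hMv, Submodule.map_span, ← Set.range_comp]
      rfl
    obtain ⟨c, hc⟩ := hB (M.map (p.restrictScalars R)) (hM.map _)
    by_cases hc0 : c = 0
    · obtain ⟨t, v, hv, _, hMv⟩ := hyp M hM (fun x hx => by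
        have h1 : p x ∈ M.map (p.restrictScalars R) := ⟨x, hx, rfl⟩
        rw [hc, hc0, Submodule.span_zero_singleton, Submodule.mem_bot] at h1
        exact h1)
      exact ⟨t, v, hv, hMv⟩
    · have hcm : c ∈ M.map (p.restrictScalars R) := by
        rw [hc]; exact Submodule.mem_span_singleton_self c
      obtain ⟨v0, hv0, hv0c⟩ := hcm
      have hv0c : v0 0 = c := hv0c
      let T : (Fin (m + 1) → K) →ₗ[K] (Fin (m + 1) → K) :=
        LinearMap.id - (c⁻¹ • p).smulRight v0
      have hT : ∀ x, T x = x - (c⁻¹ * x 0) • v0 := fun x => rfl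
      have hr : ∀ x ∈ M, ∃ r : R, (c⁻¹ * x 0) • v0 = r • v0 := by
        intro x hx
        have h1 : p x ∈ M.map (p.restrictScalars R) := ⟨x, hx, rfl⟩
        rw [hc, Submodule.mem_span_singleton] at h1
        obtain ⟨r, hr⟩ := h1
        refine ⟨r, ?_⟩
        rw [← algebraMap_smul K r v0]
        congr 1
        have h2 : x 0 = algebraMap R K r * c := by
          have h3 : x 0 = p x := rfl
          rw [h3, ← hr, Algebra.smul_def]
        rw [h2, mul_comm (algebraMap R K r) c, inv_mul_cancel_left₀ hc0]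
      have hT0 : ∀ x, (T x) 0 = 0 := by
        intro x
        rw [hT, Pi.sub_apply, Pi.smul_apply, hv0c, smul_eq_mul, mul_comm c⁻¹, mul_assoc,
          inv_mul_cancel₀ hc0, mul_one, sub_self]
      obtain ⟨t, v, hv, hvz, hMv⟩ := hyp (M.map (T.restrictScalars R)) (hM.map _) (by
        rintro _ ⟨x, _, rfl⟩
        exact hT0 x)
      refine ⟨t + 1, Fin.cons v0 v, ?_, ?_⟩
      · rw [linearIndependent_finCons]
        refine ⟨hv, fun hc1 => ?_⟩
        have h2 : Submodule.span K (Set.range v) ≤ LinearMap.ker p := by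
          rw [Submodule.span_le]
          rintro _ ⟨i, rfl⟩
          exact hvz i
        have h3 := h2 hc1
        rw [LinearMap.mem_ker, hp, hv0c] at h3
        exact hc0 h3
      · rw [Fin.range_cons, Submodule.span_insert, ← hMv]
        apply le_antisymm
        · intro x hx
          obtain ⟨r, hr1⟩ := hr x hx
          rw [Submodule.mem_sup]
          refine ⟨r • v0, Submodule.smul_mem _ _ (Submodule.mem_span_singleton_self _), T x,
            ⟨x, hx, rfl⟩, ?_⟩
          rw [hT, hr1]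
          abel
        · refine sup_le ?_ ?_
          · rw [Submodule.span_singleton_le_iff_mem]
            exact hv0
          · rintro _ ⟨x, hx, rfl⟩
            obtain ⟨r, hr1⟩ := hr x hx
            show T x ∈ M
            rw [hT, hr1]
            exact M.sub_mem hx (M.smul_mem r hv0)

end Vale.Agent.P002
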