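import Vale.Agent.P002.PInd
import Vale.Agent.P002.PZb2

/-!
# Irreducible representations of finite groups: finitely many integral models
-/

namespace Vale.Agent.P002

open Matrix

/-- algebraic numbers -/
noncomputable abbrev Kb' : IntermediateField ℚ ℂ := algebraicClosure ℚ ℂ

theorem kb_isAlgClosed : IsAlgClosed Kb' :=
  (algebraicClosure.isAlgClosure ℚ ℂ).isAlgClosed

theorem kb_isAlgebraic : Algebra.IsAlgebraic ℚ Kb' :=
  (algebraicClosure.isAlgClosure ℚ ℂ).isAlgebraic

theorem int_model {K : Type} [Field K] [CharZero K] [IsAlgClosed K] [Algebra.IsAlgebraic ℚ K]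
    {F : Type} [Group F] [Finite F] {d : ℕ} (t : F →* Matrix (Fin d) (Fin d) K) :
    ∃ (h h' : Matrix (Fin d) (Fin d) K), h' * h = 1 ∧ ∀ g i j, IsIntegral ℤ ((h' * t g * h) i j) := by
  classical
  let f : F × Fin d → (Fin d → K) := fun p => (t p.1).mulVec (Pi.single p.2 1)
  let M : Submodule (integralClosure ℤ K) (Fin d → K) := Submodule.span _ (Set.range f)
  have hM : M.FG := Submodule.fg_span (Set.finite_range f)
  have hstab : ∀ g, ∀ x ∈ M, (t g).mulVec x ∈ M := by
    intro g x hx
    have h1 : M ≤ M.comap ((Matrix.toLin' (t g)).restrictScalars (integralClosure ℤ K)) := by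
      rw [Submodule.span_le]
      rintro _ ⟨⟨g', j⟩, rfl⟩
      refine Submodule.subset_span ⟨(g * g', j), ?_⟩
      show (t (g * g')).mulVec (Pi.single j 1) = Matrix.toLin' (t g) ((t g').mulVec (Pi.single j 1))
      rw [Matrix.toLin'_apply, Matrix.mulVec_mulVec, map_mul]
    exact h1 hx
  obtain ⟨m, v, hv, hMv⟩ := free_lattice (zbar_princ (K := K)) d M hM
  have htop : ⊤ ≤ Submodule.span K (Set.range v) := by
    intro x _
    have h1 : ∀ j : Fin d, (Pi.single j 1 : Fin d → K) ∈ Submodule.span K (Set.range v) := by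
      intro j
      have h2 : (Pi.single j 1 : Fin d → K) ∈ M :=
        Submodule.subset_span ⟨(1, j), by
          show (t 1).mulVec (Pi.single j 1) = _
          rw [map_one, Matrix.one_mulVec]⟩
      rw [hMv] at h2
      exact Submodule.span_subset_span (integralClosure ℤ K) K _ h2
    have h2 : x = ∑ j, x j • (Pi.single j 1 : Fin d → K) := by
      funext i
      rw [Finset.sum_apply]
      simp [Pi.single_apply]
    rw [h2]
    exact Submodule.sum_mem _ fun j _ => Submodule.smul_mem _ _ (h1 j)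
  let b : Module.Basis (Fin m) K (Fin d → K) := Module.Basis.mk hv htop
  have hb : ∀ j, b j = v j := fun j => Module.Basis.mk_apply hv htop j
  have hmd : m = d := by
    have h1 := Module.finrank_eq_card_basis b
    rw [Module.finrank_fin_fun, Fintype.card_fin] at h1
    exact h1.symm
  clear_value b
  subst hmd
  refine ⟨(Pi.basisFun K (Fin m)).toMatrix b, b.toMatrix (Pi.basisFun K (Fin m)),
    Module.Basis.toMatrix_mul_toMatrix_flip _ _, fun g i j => ?_⟩
  have h1 : b.toMatrix (Pi.basisFun K (Fin m)) * t g * (Pi.basisFun K (Fin m)).toMatrix b =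
      LinearMap.toMatrix b b (Matrix.toLin' (t g)) := by
    have h2 := basis_toMatrix_mul_linearMap_toMatrix_mul_basis_toMatrix (b := b)
      (b' := Pi.basisFun K (Fin m)) (c := b) (c' := Pi.basisFun K (Fin m)) (Matrix.toLin' (t g))
    rw [← h2, LinearMap.toMatrix_eq_toMatrix', LinearMap.toMatrix'_toLin']
  rw [h1, LinearMap.toMatrix_apply, Matrix.toLin'_apply, hb]
  have h2 : (t g).mulVec (v j) ∈ M := hstab g _ (by
    rw [hMv]; exact Submodule.subset_span ⟨j, rfl⟩)
  rw [hMv, Submodule.mem_span_range_iff_exists_fun] at h2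
  obtain ⟨c, hc⟩ := h2
  have h3 : (t g).mulVec (v j) = ∑ i, ((c i : integralClosure ℤ K) : K) • b i := by
    rw [← hc]
    exact Finset.sum_congr rfl fun i _ => by rw [hb]; rfl
  rw [h3, map_sum, Finsupp.finsetSum_apply, Finset.sum_eq_single i]
  · rw [map_smul, Finsupp.smul_apply, Module.Basis.repr_self, Finsupp.single_eq_same, smul_eq_mul,
      mul_one]
    exact (c i).2
  · intro l _ hl
    rw [map_smul, Finsupp.smul_apply, Module.Basis.repr_self, Finsupp.single_eq_of_ne (Ne.symm hl),
      smul_zero]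
  · intro hc
    exact absurd (Finset.mem_univ _) hc

section wed
variable {K : Type} [Field K] [Algebra K ℂ] {F : Type} [Group F]

/-- comparison of an irreducible complex representation with the factors of the group algebra over
a subfield -/
theorem wedd_cmp {N : ℕ} {dd : Fin N → ℕ}
    (e : MonoidAlgebra K F ≃ₐ[K] ((i : Fin N) → Matrix (Fin (dd i)) (Fin (dd i)) K))
    {n : ℕ} (V : F →* Matrix (Fin n) (Fin n) ℂ) (hV : Irr V) :
    ∃ (i : Fin N) (w : Fin (dd i) → (Fin n → ℂ)), LinearIndependent ℂ w ∧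
      (∀ g j, (V g).mulVec (w j) =
        ∑ l, (algebraMap K ℂ (e (MonoidAlgebra.of K F g) i l j)) • w l) ∧
      Submodule.span ℂ (Set.range w) = ⊤ := by
  classical
  have hne : Nonempty (Fin n) := hV.1
  let Φ : MonoidAlgebra K F →ₐ[K] Matrix (Fin n) (Fin n) ℂ := MonoidAlgebra.lift K _ F V
  have hΦ : ∀ g, Φ (MonoidAlgebra.of K F g) = V g := fun g => by simp [Φ]
  let Ψ : ((i : Fin N) → Matrix (Fin (dd i)) (Fin (dd i)) K) →ₐ[K] Matrix (Fin n) (Fin n) ℂ :=
    Φ.comp e.symm.toAlgHom
  have hΨ : ∀ g, Ψ (e (MonoidAlgebra.of K F g)) = V g := fun g => by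
    show Φ (e.symm (e _)) = _
    rw [AlgEquiv.symm_apply_apply, hΦ]
  -- some factor acts non trivially
  have h1 : ∃ i, Ψ (Pi.single i 1) ≠ 0 := by
    by_contra hc
    push Not at hc
    have h2 : (1 : (i : Fin N) → Matrix (Fin (dd i)) (Fin (dd i)) K) =
        ∑ i, Pi.single i 1 := by
      rw [← Finset.univ_sum_single (1 : (i : Fin N) → Matrix (Fin (dd i)) (Fin (dd i)) K)]
      rfl
    have h3 : Ψ 1 = 0 := by
      rw [h2, map_sum]
      exact Finset.sum_eq_zero fun i _ => hc i
    rw [map_one] at h3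
    exact one_ne_zero h3
  obtain ⟨i, hi⟩ := h1
  have hsm : ∀ (c : K) (X : Matrix (Fin n) (Fin n) ℂ) (v : Fin n → ℂ),
      (c • X).mulVec v = algebraMap K ℂ c • X.mulVec v := by
    intro c X v
    rw [← Matrix.smul_mulVec]
    congr 1
    ext a b
    rw [Matrix.smul_apply, Matrix.smul_apply, Algebra.smul_def, smul_eq_mul]
  let S : Matrix (Fin (dd i)) (Fin (dd i)) K → Matrix (Fin n) (Fin n) ℂ := fun X =>
    Ψ (Pi.single i X)
  have hSadd : ∀ (s : Finset (Fin (dd i))) (X : Fin (dd i) → Matrix (Fin (dd i)) (Fin (dd i)) K),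
      S (∑ j ∈ s, X j) = ∑ j ∈ s, S (X j) := by
    intro s X
    show Ψ (Pi.single i (∑ j ∈ s, X j)) = ∑ j ∈ s, Ψ (Pi.single i (X j))
    rw [← map_sum]
    congr 1
    exact map_sum (AddMonoidHom.single (fun i => Matrix (Fin (dd i)) (Fin (dd i)) K) i) X s
  have hSsmul : ∀ (c : K) X, S (c • X) = c • S X := by
    intro c X
    show Ψ (Pi.single i (c • X)) = c • Ψ (Pi.single i X)
    rw [Pi.single_smul, map_smul]
  have hSmul : ∀ Y X, Ψ Y * S X = S (Y i * X) := by
    intro Y X
    show Ψ Y * Ψ (Pi.single i X) = Ψ (Pi.single i (Y i * X))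
    rw [← map_mul]
    congr 1
    funext a
    rw [Pi.mul_apply]
    by_cases ha : a = i
    · subst ha
      rw [Pi.single_eq_same, Pi.single_eq_same]
    · rw [Pi.single_eq_of_ne ha, Pi.single_eq_of_ne ha, mul_zero]
  have hSmul' : ∀ Y X, S Y * S X = S (Y * X) := by
    intro Y X
    have := hSmul (Pi.single i Y) X
    rwa [Pi.single_eq_same] at this
  have h2 : ∃ j0, S (Matrix.single j0 j0 1) ≠ 0 := by
    by_contra hc
    push Not at hc
    apply hi
    have h3 : (1 : Matrix (Fin (dd i)) (Fin (dd i)) K) = ∑ j, Matrix.single j j 1 := by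
      rw [Matrix.sum_single_one] 
    show S 1 = 0
    rw [h3, hSadd]
    exact Finset.sum_eq_zero fun j _ => hc j
  obtain ⟨j0, hj0⟩ := h2
  have h3 : ∃ v, (S (Matrix.single j0 j0 1)).mulVec v ≠ 0 := by
    by_contra hc
    push Not at hc
    apply hj0
    apply Matrix.toLin'.injective
    refine LinearMap.ext fun v => ?_
    rw [Matrix.toLin'_apply, hc, map_zero, LinearMap.zero_apply]
  obtain ⟨v, hv⟩ := h3
  let w : Fin (dd i) → (Fin n → ℂ) := fun j => (S (Matrix.single j j0 1)).mulVec v
  have hw0 : w j0 ≠ 0 := hv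
  have hexp : ∀ (X : Matrix (Fin (dd i)) (Fin (dd i)) K) j,
      X * Matrix.single j j0 1 = ∑ l, X l j • Matrix.single l j0 1 := by
    intro X j
    ext a b
    rw [Matrix.sum_apply]
    by_cases hb : b = j0
    · subst hb
      rw [Matrix.mul_single_apply_same, mul_one, Finset.sum_eq_single a]
      · rw [Matrix.smul_apply, Matrix.single_apply_same, smul_eq_mul, mul_one]
      · intro l _ hl
        rw [Matrix.smul_apply, Matrix.single_apply_of_ne _ _ _ _ _ (fun hc => hl hc.1), smul_zero]
      · intro hc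
        exact absurd (Finset.mem_univ _) hc
    · rw [Matrix.mul_single_apply_of_ne _ _ _ _ _ hb]
      refine (Finset.sum_eq_zero fun l _ => ?_).symm
      rw [Matrix.smul_apply, Matrix.single_apply_of_ne _ _ _ _ _ (fun hc => hb hc.2.symm), smul_zero]
  have hact : ∀ Y j, (Ψ Y).mulVec (w j) = ∑ l, algebraMap K ℂ (Y i l j) • w l := by
    intro Y j
    show (Ψ Y).mulVec ((S (Matrix.single j j0 1)).mulVec v) = _
    rw [Matrix.mulVec_mulVec, hSmul, hexp, hSadd, Matrix.sum_mulVec]
    refine Finset.sum_congr rfl fun l _ => ?_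
    rw [hSsmul, hsm]
  refine ⟨i, w, ?_, ?_, ?_⟩
  · rw [Fintype.linearIndependent_iff]
    intro z hz l
    have h4 : (S (Matrix.single j0 l 1)).mulVec (∑ j, z j • w j) = 0 := by
      rw [hz, Matrix.mulVec_zero]
    rw [Matrix.mulVec_sum, Finset.sum_eq_single l] at h4
    · rw [Matrix.mulVec_smul] at h4
      have h5 : (S (Matrix.single j0 l 1)).mulVec (w l) = w j0 := by
        show (S (Matrix.single j0 l 1)).mulVec ((S (Matrix.single l j0 1)).mulVec v) = _
        rw [Matrix.mulVec_mulVec, hSmul', Matrix.single_mul_single_same, mul_one]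
      rw [h5] at h4
      exact (smul_eq_zero.mp h4).resolve_right hw0
    · intro j _ hj
      rw [Matrix.mulVec_smul]
      have h5 : (S (Matrix.single j0 l 1)).mulVec (w j) = 0 := by
        show (S (Matrix.single j0 l 1)).mulVec ((S (Matrix.single j j0 1)).mulVec v) = _
        rw [Matrix.mulVec_mulVec, hSmul', Matrix.single_mul_single_of_ne _ _ _ _ (Ne.symm hj)]
        have h6 : S 0 = 0 := by
          show Ψ (Pi.single i 0) = 0
          rw [Pi.single_zero, map_zero]
        rw [h6, Matrix.zero_mulVec]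
      rw [h5, smul_zero]
    · intro hc
      exact absurd (Finset.mem_univ _) hc
  · intro g j
    rw [← hΨ, hact]
  · have hinv : ∀ γ, ∀ x ∈ Submodule.span ℂ (Set.range w),
        (V γ).mulVec x ∈ Submodule.span ℂ (Set.range w) := by
      intro γ x hx
      have h4 : Submodule.span ℂ (Set.range w) ≤
          (Submodule.span ℂ (Set.range w)).comap (Matrix.toLin' (V γ)) := by
        rw [Submodule.span_le]
        rintro _ ⟨j, rfl⟩
        show (Matrix.toLin' (V γ)) (w j) ∈ Submodule.span ℂ (Set.range w)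
        rw [Matrix.toLin'_apply, ← hΨ, hact]
        exact Submodule.sum_mem _ fun l _ =>
          Submodule.smul_mem _ _ (Submodule.subset_span ⟨l, rfl⟩)
      exact h4 hx
    rcases hV.2 _ hinv with h0 | h0
    · exfalso
      apply hw0
      have : w j0 ∈ Submodule.span ℂ (Set.range w) := Submodule.subset_span ⟨j0, rfl⟩
      rw [h0, Submodule.mem_bot] at this
      exact this
    · exact h0

end wed

theorem fin_irr (F : Type) [Group F] [Finite F] (d : ℕ) :
    ∃ (L₀ : IntermediateField ℚ ℂ) (B : Type) (U : B → F →* Matrix (Fin d) (Fin d) ℂ),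
      FiniteDimensional ℚ L₀ ∧ Finite B ∧ (∀ β g i j, OInt L₀ (U β g i j)) ∧
      ∀ V : F →* Matrix (Fin d) (Fin d) ℂ, Irr V → ∃ β, Eqv V (U β) := by
  classical
  haveI := kb_isAlgClosed
  haveI := kb_isAlgebraic
  have hss : IsSemisimpleRing (MonoidAlgebra Kb' F) := inferInstance
  obtain ⟨N, dd, _, ⟨e⟩⟩ := IsSemisimpleRing.exists_algEquiv_pi_matrix_of_isAlgClosed
    (F := Kb') (R := MonoidAlgebra Kb' F)
  let t : ∀ i, F →* Matrix (Fin (dd i)) (Fin (dd i)) Kb' := fun i =>
    ((Pi.evalMonoidHom (fun i => Matrix (Fin (dd i)) (Fin (dd i)) Kb') i).comp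
      (e : MonoidAlgebra Kb' F →* _)).comp (MonoidAlgebra.of Kb' F)
  have ht : ∀ i g, t i g = e (MonoidAlgebra.of Kb' F g) i := fun i g => rfl
  choose h h' hh hint using fun i => int_model (K := Kb') (t i)
  have hh' : ∀ i, h i * h' i = 1 := fun i => mul_eq_one_comm.mp (hh i)
  let ι : Kb' →+* ℂ := algebraMap Kb' ℂ
  let U0 : ∀ i, F →* Matrix (Fin (dd i)) (Fin (dd i)) ℂ := fun i =>
    { toFun := fun g => (h' i * t i g * h i).map ι
      map_one' := by
        rw [map_one, mul_one, hh]
        exact Matrix.map_one _ (map_zero ι) (map_one ι)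
      map_mul' := fun g g' => by
        rw [← Matrix.map_mul, map_mul]
        congr 1
        simp only [Matrix.mul_assoc]
        rw [← Matrix.mul_assoc (h i) (h' i), hh', Matrix.one_mul] }
  have hU0 : ∀ i g, U0 i g = (h' i * t i g * h i).map ι := fun _ _ => rfl
  -- the field
  let f : (Σ i : Fin N, F × Fin (dd i) × Fin (dd i)) → ℂ := fun p => U0 p.1 p.2.1 p.2.2.1 p.2.2.2
  have hf : ∀ p, IsIntegral ℤ (f p) := by
    rintro ⟨i, g, a, b⟩
    show IsIntegral ℤ (ι ((h' i * t i g * h i) a b))
    exact (hint i g a b).map (IsScalarTower.toAlgHom ℤ Kb' ℂ)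
  let L₀ : IntermediateField ℚ ℂ := IntermediateField.adjoin ℚ (Set.range f)
  have hfin : Finite (Set.range f) := Set.finite_range f
  have hL : FiniteDimensional ℚ L₀ := IntermediateField.finiteDimensional_adjoin (by
    rintro _ ⟨p, rfl⟩
    exact (hf p).tower_top)
  let Bn : ℕ → Type := fun n => {i : Fin N // dd i = n}
  let Un : ∀ n, Bn n → (F →* Matrix (Fin n) (Fin n) ℂ) := fun n β => β.2 ▸ U0 β.1
  have h1 : ∀ n (β : Bn n) g i j, OInt L₀ (Un n β g i j) := by
    rintro n ⟨i, rfl⟩ g a b
    exact ⟨IntermediateField.subset_adjoin _ _ ⟨⟨i, g, a, b⟩, rfl⟩, hf ⟨i, g, a, b⟩⟩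
  refine ⟨L₀, Bn d, Un d, hL, inferInstance, h1 d, fun V hV => ?_⟩
  obtain ⟨i, w, hw, hact, hspan⟩ := wedd_cmp e V hV
  let b : Module.Basis (Fin (dd i)) ℂ (Fin d → ℂ) := Module.Basis.mk hw (by rw [hspan])
  have hb : ∀ j, b j = w j := fun j => Module.Basis.mk_apply hw _ j
  have hmd : dd i = d := by
    have h1 := Module.finrank_eq_card_basis b
    rw [Module.finrank_fin_fun, Fintype.card_fin] at h1
    exact h1.symm
  clear_value b
  subst hmd
  refine ⟨⟨i, rfl⟩, ?_⟩
  show Eqv V (U0 i)
  -- first compare with the representation given by `t i`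
  let U1 : F →* Matrix (Fin (dd i)) (Fin (dd i)) ℂ :=
    { toFun := fun g => (t i g).map ι
      map_one' := by
        rw [map_one]
        exact Matrix.map_one _ (map_zero ι) (map_one ι)
      map_mul' := fun g g' => by rw [map_mul, Matrix.map_mul] }
  have e1 : Eqv U1 V := by
    refine eqv_of_equiv U1 V b.equivFun.symm fun g v => ?_
    rw [Module.Basis.equivFun_symm_apply, Module.Basis.equivFun_symm_apply, Matrix.mulVec_sum]
    have h2 : ∀ j, (V g).mulVec (v j • b j) = ∑ l, (v j * (U1 g) l j) • b l := by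
      intro j
      rw [Matrix.mulVec_smul, hb, hact, Finset.smul_sum]
      refine Finset.sum_congr rfl fun l _ => ?_
      rw [smul_smul, hb]
      rfl
    simp only [h2]
    rw [Finset.sum_comm]
    refine Finset.sum_congr rfl fun l _ => ?_
    rw [← Finset.sum_smul]
    congr 1
    rw [Matrix.mulVec, dotProduct]
    exact Finset.sum_congr rfl fun j _ => mul_comm _ _
  have e2 : Eqv U1 (U0 i) := by
    have h3 : (h' i).map ι * (h i).map ι = 1 := by
      rw [← Matrix.map_mul, hh]
      exact Matrix.map_one _ (map_zero ι) (map_one ι)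
    refine ⟨(h' i).map ι, Matrix.isUnit_det_of_right_inverse h3, fun g => ?_⟩
    rw [Matrix.inv_eq_right_inv h3, hU0, Matrix.map_mul, Matrix.map_mul]
    rfl
  exact e1.symm'.trans' e2

end Vale.Agent.P002
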