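import Vale.Agent.P002.PTBn

/-!
# Induced representations
-/

namespace Vale.Agent.P002

open Matrix

/-- intertwining isomorphisms give equivalences -/
theorem eqv_of_equiv {Γ : Type} [Group Γ] {n : Type} [Fintype n] [DecidableEq n]
    (ρ ρ' : Γ →* Matrix n n ℂ) (Ψ : (n → ℂ) ≃ₗ[ℂ] (n → ℂ))
    (h : ∀ γ v, (ρ' γ).mulVec (Ψ v) = Ψ ((ρ γ).mulVec v)) : Eqv ρ ρ' := by
  have hmul : LinearMap.toMatrix' (Ψ : (n → ℂ) →ₗ[ℂ] (n → ℂ)) *
      LinearMap.toMatrix' (Ψ.symm : (n → ℂ) →ₗ[ℂ] (n → ℂ)) = 1 := by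
    rw [← LinearMap.toMatrix'_comp]
    simp
  have hdet : IsUnit (LinearMap.toMatrix' (Ψ : (n → ℂ) →ₗ[ℂ] (n → ℂ))).det :=
    Matrix.isUnit_det_of_right_inverse hmul
  refine ⟨LinearMap.toMatrix' (Ψ : (n → ℂ) →ₗ[ℂ] (n → ℂ)), hdet, fun γ => ?_⟩
  have hint : ρ' γ * LinearMap.toMatrix' (Ψ : (n → ℂ) →ₗ[ℂ] (n → ℂ))
      = LinearMap.toMatrix' (Ψ : (n → ℂ) →ₗ[ℂ] (n → ℂ)) * ρ γ := by
    apply Matrix.toLin'.injective
    refine LinearMap.ext fun v => ?_
    rw [Matrix.toLin'_mul, Matrix.toLin'_mul, Matrix.toLin'_toMatrix']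
    simp only [LinearMap.comp_apply, Matrix.toLin'_apply, LinearEquiv.coe_coe]
    exact h γ v
  rw [← hint, Matrix.mul_assoc, Matrix.mul_nonsing_inv _ hdet, Matrix.mul_one]

section ind
variable {Γ : Type} [Group Γ] (Δ : Subgroup Γ)

/-- the transfer cocycle of the canonical section -/
noncomputable def kap (g : Γ) (x : Γ ⧸ Δ) : Δ :=
  ⟨(g • x).out⁻¹ * (g * x.out), by
    rw [← QuotientGroup.eq, QuotientGroup.out_eq']
    conv_lhs => rw [← QuotientGroup.out_eq' x]
    rfl⟩

theorem kap_coe (g : Γ) (x : Γ ⧸ Δ) : ((kap Δ g x : Δ) : Γ) = (g • x).out⁻¹ * (g * x.out) := rfl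

theorem kap_mul (g h : Γ) (x : Γ ⧸ Δ) : kap Δ (g * h) x = kap Δ g (h • x) * kap Δ h x := by
  apply Subtype.ext
  rw [Subgroup.coe_mul, kap_coe, kap_coe, kap_coe, mul_smul]
  group

theorem kap_one (x : Γ ⧸ Δ) : kap Δ 1 x = 1 := by
  apply Subtype.ext
  rw [kap_coe, one_smul, one_mul, inv_mul_cancel]
  rfl

variable [Fintype (Γ ⧸ Δ)] {d n : ℕ}

open Classical in
/-- the induced representation -/
noncomputable def indM (e : (Γ ⧸ Δ) × Fin d ≃ Fin n) (A : Δ →* Matrix (Fin d) (Fin d) ℂ) :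
    Γ →* Matrix (Fin n) (Fin n) ℂ where
  toFun g := Matrix.of fun i j => if (e.symm i).1 = g • (e.symm j).1 then
    A (kap Δ g (e.symm j).1) (e.symm i).2 (e.symm j).2 else 0
  map_one' := by
    ext i j
    rw [Matrix.of_apply, one_smul, kap_one, map_one]
    by_cases hij : i = j
    · subst hij
      rw [if_pos rfl, Matrix.one_apply_eq, Matrix.one_apply_eq]
    · rw [Matrix.one_apply_ne hij]
      split_ifs with h1
      · refine Matrix.one_apply_ne fun h2 => hij ?_
        exact e.symm.injective (Prod.ext h1 h2)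
      · rfl
  map_mul' g h := by
    ext i j
    rw [Matrix.of_apply, Matrix.mul_apply, ← e.sum_comp]
    simp only [Matrix.of_apply, Equiv.symm_apply_apply]
    rw [Fintype.sum_prod_type, Finset.sum_eq_single (h • (e.symm j).1)]
    · simp only [if_true]
      by_cases h1 : (e.symm i).1 = g • h • (e.symm j).1
      · rw [if_pos (by rw [mul_smul]; exact h1), kap_mul, map_mul, Matrix.mul_apply]
        refine Finset.sum_congr rfl fun l _ => ?_
        rw [if_pos h1]
      · rw [if_neg (by rw [mul_smul]; exact h1)]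
        refine (Finset.sum_eq_zero fun l _ => ?_).symm
        rw [if_neg h1, zero_mul]
    · intro y _ hy
      refine Finset.sum_eq_zero fun l _ => ?_
      rw [if_neg hy, mul_zero]
    · intro hc
      exact absurd (Finset.mem_univ _) hc

open Classical in
theorem indM_apply (e : (Γ ⧸ Δ) × Fin d ≃ Fin n) (A : Δ →* Matrix (Fin d) (Fin d) ℂ) (g : Γ)
    (i j : Fin n) : indM Δ e A g i j = if (e.symm i).1 = g • (e.symm j).1 then
    A (kap Δ g (e.symm j).1) (e.symm i).2 (e.symm j).2 else 0 := rfl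

theorem indM_lab (e : (Γ ⧸ Δ) × Fin d ≃ Fin n) (A : Δ →* Matrix (Fin d) (Fin d) ℂ) :
    Lab (indM Δ e A) (MulAction.toPermHom Γ (Γ ⧸ Δ)) (fun i => (e.symm i).1) := by
  intro g i j h
  rw [indM_apply] at h
  by_contra hc
  exact h (if_neg hc)

theorem indM_twist (e : (Γ ⧸ Δ) × Fin d ≃ Fin n) (A : Δ →* Matrix (Fin d) (Fin d) ℂ)
    (τ : Δ →* ℂˣ) (g : Γ) (i j : Fin n) :
    indM Δ e (twist τ A) g i j = ((τ (kap Δ g (e.symm j).1) : ℂˣ) : ℂ) * indM Δ e A g i j := by
  rw [indM_apply, indM_apply]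
  split_ifs
  · rw [twist_apply, Matrix.smul_apply, smul_eq_mul]
  · rw [mul_zero]

theorem coc_kap (τ : Δ →* ℂˣ) :
    Coc (MulAction.toPermHom Γ (Γ ⧸ Δ)) (fun g x => τ (kap Δ g x)) := by
  intro g h x
  show τ (kap Δ (g * h) x) = τ (kap Δ g (h • x)) * τ (kap Δ h x)
  rw [kap_mul, map_mul]

theorem indM_eqv (e : (Γ ⧸ Δ) × Fin d ≃ Fin n) {A B : Δ →* Matrix (Fin d) (Fin d) ℂ}
    (h : Eqv A B) : Eqv (indM Δ e A) (indM Δ e B) := by
  classical
  obtain ⟨k, hk, hAB⟩ := h
  -- the block diagonal matrix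
  let blk : Matrix (Fin d) (Fin d) ℂ → Matrix (Fin n) (Fin n) ℂ := fun M =>
    Matrix.of fun i j => if (e.symm i).1 = (e.symm j).1 then M (e.symm i).2 (e.symm j).2 else 0
  have hblk : ∀ M i j, blk M i j = if (e.symm i).1 = (e.symm j).1 then
      M (e.symm i).2 (e.symm j).2 else 0 := fun _ _ _ => rfl
  have hblk1 : blk 1 = 1 := by
    ext i j
    rw [hblk]
    by_cases hij : i = j
    · subst hij
      rw [if_pos rfl, Matrix.one_apply_eq, Matrix.one_apply_eq]
    · rw [Matrix.one_apply_ne hij]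
      split_ifs with h1
      · exact Matrix.one_apply_ne fun h2 => hij (e.symm.injective (Prod.ext h1 h2))
      · rfl
  have hmul : ∀ M N, blk M * blk N = blk (M * N) := by
    intro M N
    ext i j
    rw [Matrix.mul_apply, ← e.sum_comp, hblk]
    simp only [hblk, Equiv.symm_apply_apply]
    rw [Fintype.sum_prod_type, Finset.sum_eq_single ((e.symm j).1)]
    · simp only [if_true]
      by_cases h1 : (e.symm i).1 = (e.symm j).1
      · rw [if_pos h1, Matrix.mul_apply]
        exact Finset.sum_congr rfl fun l _ => by rw [if_pos h1]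
      · rw [if_neg h1]
        exact Finset.sum_eq_zero fun l _ => by rw [if_neg h1, zero_mul]
    · intro y _ hy
      exact Finset.sum_eq_zero fun l _ => by rw [if_neg hy, mul_zero]
    · intro hc
      exact absurd (Finset.mem_univ _) hc
  have hk1 : blk k * blk k⁻¹ = 1 := by rw [hmul, Matrix.mul_nonsing_inv _ hk, hblk1]
  refine ⟨blk k, Matrix.isUnit_det_of_right_inverse hk1, fun g => ?_⟩
  rw [Matrix.inv_eq_right_inv hk1]
  have hL : ∀ (M : Matrix (Fin d) (Fin d) ℂ) (C : Γ ⧸ Δ → Matrix (Fin d) (Fin d) ℂ),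
      blk M * (Matrix.of fun i j => if (e.symm i).1 = g • (e.symm j).1 then
        C (e.symm j).1 (e.symm i).2 (e.symm j).2 else 0) =
      Matrix.of fun i j => if (e.symm i).1 = g • (e.symm j).1 then
        (M * C (e.symm j).1) (e.symm i).2 (e.symm j).2 else 0 := by
    intro M C
    ext i j
    rw [Matrix.mul_apply, ← e.sum_comp, Matrix.of_apply]
    simp only [hblk, Equiv.symm_apply_apply, Matrix.of_apply]
    rw [Fintype.sum_prod_type, Finset.sum_eq_single (g • (e.symm j).1)]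
    · simp only [if_true]
      by_cases h1 : (e.symm i).1 = g • (e.symm j).1
      · rw [if_pos h1, Matrix.mul_apply]
        exact Finset.sum_congr rfl fun l _ => by rw [if_pos h1]
      · rw [if_neg h1]
        exact Finset.sum_eq_zero fun l _ => by rw [if_neg h1, zero_mul]
    · intro y _ hy
      exact Finset.sum_eq_zero fun l _ => by rw [if_neg hy, mul_zero]
    · intro hc
      exact absurd (Finset.mem_univ _) hc
  have hR : ∀ (M : Matrix (Fin d) (Fin d) ℂ) (C : Γ ⧸ Δ → Matrix (Fin d) (Fin d) ℂ),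
      (Matrix.of fun i j => if (e.symm i).1 = g • (e.symm j).1 then
        C (e.symm j).1 (e.symm i).2 (e.symm j).2 else 0) * blk M =
      Matrix.of fun i j => if (e.symm i).1 = g • (e.symm j).1 then
        (C (e.symm j).1 * M) (e.symm i).2 (e.symm j).2 else 0 := by
    intro M C
    ext i j
    rw [Matrix.mul_apply, ← e.sum_comp, Matrix.of_apply]
    simp only [hblk, Equiv.symm_apply_apply, Matrix.of_apply]
    rw [Fintype.sum_prod_type, Finset.sum_eq_single ((e.symm j).1)]
    · simp only [if_true]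
      by_cases h1 : (e.symm i).1 = g • (e.symm j).1
      · rw [if_pos h1, Matrix.mul_apply]
        exact Finset.sum_congr rfl fun l _ => by rw [if_pos h1]
      · rw [if_neg h1]
        exact Finset.sum_eq_zero fun l _ => by rw [if_neg h1, zero_mul]
    · intro y _ hy
      exact Finset.sum_eq_zero fun l _ => by rw [if_neg hy, mul_zero]
    · intro hc
      exact absurd (Finset.mem_univ _) hc
  have hA : indM Δ e A g = Matrix.of fun i j => if (e.symm i).1 = g • (e.symm j).1 then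
        A (kap Δ g (e.symm j).1) (e.symm i).2 (e.symm j).2 else 0 := rfl
  rw [hA, hL k (fun x => A (kap Δ g x)), hR k⁻¹ (fun x => k * A (kap Δ g x))]
  ext i j
  rw [indM_apply, Matrix.of_apply]
  simp only [hAB]

end ind

end Vale.Agent.P002
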