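import Vale.Agent.P002.PCoc

/-!
# Potential density for groups whose irreducible representations are twists of finitely many
integral representations of finite image
-/

namespace Vale.Agent.P002

open Matrix

section detect

theorem det_mem {ι : Type} {S : Subalgebra ℂ (ι → ℂ)} {m : Type} [Fintype m] [DecidableEq m]
    (A : ι → Matrix m m ℂ) (h : ∀ i j, (fun z => A z i j) ∈ S) : (fun z => (A z).det) ∈ S := by
  have h1 : (fun z => (A z).det) = ∑ τ : Equiv.Perm m,
      ((Equiv.Perm.sign τ : ℤ) : ℂ) • ∏ i, (fun z => A z (τ i) i) := by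
    funext z
    rw [Matrix.det_apply', Finset.sum_apply]
    refine Finset.sum_congr rfl fun τ _ => ?_
    rw [Pi.smul_apply, Finset.prod_apply, smul_eq_mul]
  rw [h1]
  exact Subalgebra.sum_mem _ fun τ _ => Subalgebra.smul_mem _
    (Subalgebra.prod_mem _ fun i _ => h _ _) _

/-- functions detecting irreducibility -/
theorem irr_detector {Γ : Type} [Group Γ] {K : ℕ} {a : Fin K → ℕ} (ha : ∀ k, 0 < a k)
    (V : Fam Γ a) (hV : ∀ k, Irr (V k)) :
    ∃ D ∈ RF Γ a, D V ≠ 0 ∧ ∀ W : Fam Γ a, D W ≠ 0 → ∀ k, Irr (W k) := by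
  choose w hw using fun k => PSf.exists_words (V k) (hV k)
  refine ⟨∏ k, fun W : Fam Γ a => (Matrix.of fun x x' => W k (w k x) x'.1 x'.2 :
      Matrix (Fin (a k) × Fin (a k)) (Fin (a k) × Fin (a k)) ℂ).det, ?_, ?_, ?_⟩
  · refine Subalgebra.prod_mem _ fun k _ => det_mem _ fun x x' => ?_
    exact Algebra.subset_adjoin ⟨k, w k x, x'.1, x'.2, rfl⟩
  · rw [Finset.prod_apply]
    exact Finset.prod_ne_zero_iff.mpr fun k _ => (PSf.li_iff _).mp (hw k)
  · intro W hW k
    rw [Finset.prod_apply] at hW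
    exact PSf.irr_of_li (ha k) (W k) (w k)
      ((PSf.li_iff _).mpr (Finset.prod_ne_zero_iff.mp hW k (Finset.mem_univ k)))

end detect

section cocg
variable {Γ : Type} [Group Γ] {K : ℕ} {X : Fin K → Type}

/-- the cocycle relations -/
def cocRel (σ : ∀ k, Γ →* Equiv.Perm (X k)) : Set (FreeGroup (Σ k, Γ × X k)) :=
  {r | ∃ (k : Fin K) (g h : Γ) (x : X k), r = (FreeGroup.of ⟨k, g * h, x⟩)⁻¹ *
    (FreeGroup.of ⟨k, g, σ k h x⟩ * FreeGroup.of ⟨k, h, x⟩)}

/-- the abelian group whose characters are the multiplicative cocycles -/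
def CocG (σ : ∀ k, Γ →* Equiv.Perm (X k)) : Type :=
  Abelianization (PresentedGroup (cocRel σ))

instance (σ : ∀ k, Γ →* Equiv.Perm (X k)) : CommGroup (CocG σ) :=
  inferInstanceAs (CommGroup (Abelianization (PresentedGroup (cocRel σ))))

/-- the canonical generators -/
def cg (σ : ∀ k, Γ →* Equiv.Perm (X k)) (k : Fin K) (g : Γ) (x : X k) : CocG σ :=
  Abelianization.of (PresentedGroup.of ⟨k, g, x⟩)

theorem cg_mul (σ : ∀ k, Γ →* Equiv.Perm (X k)) (k : Fin K) (g h : Γ) (x : X k) :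
    cg σ k (g * h) x = cg σ k g (σ k h x) * cg σ k h x := by
  have h1 : (QuotientGroup.mk ((FreeGroup.of ⟨k, g * h, x⟩)⁻¹ *
      (FreeGroup.of ⟨k, g, σ k h x⟩ * FreeGroup.of ⟨k, h, x⟩)) : PresentedGroup (cocRel σ)) = 1 :=
    (QuotientGroup.eq_one_iff _).mpr (Subgroup.subset_normalClosure ⟨k, g, h, x, rfl⟩)
  have h2 : (PresentedGroup.of (rels := cocRel σ) ⟨k, g * h, x⟩)⁻¹ *
      (PresentedGroup.of ⟨k, g, σ k h x⟩ * PresentedGroup.of ⟨k, h, x⟩) = 1 := h1
  have h3 := congrArg (Abelianization.of (G := PresentedGroup (cocRel σ))) h2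
  rw [map_one, map_mul, map_mul, map_inv, inv_mul_eq_one] at h3
  exact h3

theorem cg_one (σ : ∀ k, Γ →* Equiv.Perm (X k)) (k : Fin K) (x : X k) : cg σ k 1 x = 1 := by
  have h := cg_mul σ k 1 1 x
  rw [mul_one, map_one, Equiv.Perm.one_apply] at h
  exact (mul_eq_left.mp h.symm)

theorem coc_rels (σ : ∀ k, Γ →* Equiv.Perm (X k)) (t : ∀ k, Γ → X k → ℂˣ)
    (ht : ∀ k, Coc (σ k) (t k)) : ∀ r ∈ cocRel σ,
    FreeGroup.lift (fun p : (Σ k, Γ × X k) => t p.1 p.2.1 p.2.2) r = 1 := by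
  rintro _ ⟨k, g, h, x, rfl⟩
  rw [map_mul, map_mul, map_inv, FreeGroup.lift_apply_of, FreeGroup.lift_apply_of,
    FreeGroup.lift_apply_of, inv_mul_eq_one]
  exact ht k g h x

/-- the character of a cocycle -/
def cocLift (σ : ∀ k, Γ →* Equiv.Perm (X k)) (t : ∀ k, Γ → X k → ℂˣ)
    (ht : ∀ k, Coc (σ k) (t k)) : CocG σ →* ℂˣ :=
  Abelianization.lift (PresentedGroup.toGroup (coc_rels σ t ht))

theorem cocLift_cg (σ : ∀ k, Γ →* Equiv.Perm (X k)) (t : ∀ k, Γ → X k → ℂˣ)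
    (ht : ∀ k, Coc (σ k) (t k)) (k : Fin K) (g : Γ) (x : X k) :
    cocLift σ t ht (cg σ k g x) = t k g x :=
  PresentedGroup.toGroup.of (coc_rels σ t ht)

theorem coc_char (σ : ∀ k, Γ →* Equiv.Perm (X k)) (s : CocG σ →* ℂˣ) (k : Fin K) :
    Coc (σ k) (fun g x => s (cg σ k g x)) := by
  intro g h x
  show s (cg σ k (g * h) x) = _
  rw [cg_mul, map_mul]

theorem cocG_closure (σ : ∀ k, Γ →* Equiv.Perm (X k)) :
    Subgroup.closure {l : CocG σ | ∃ k g x, l = cg σ k g x} = ⊤ := by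
  rw [eq_top_iff]
  rintro l -
  obtain ⟨p, rfl⟩ : ∃ p, Abelianization.of (G := PresentedGroup (cocRel σ)) p = l :=
    QuotientGroup.mk_surjective l
  obtain ⟨w, rfl⟩ := QuotientGroup.mk_surjective p
  induction w using FreeGroup.induction_on with
  | C1 => exact Subgroup.one_mem _
  | of y => exact Subgroup.subset_closure ⟨y.1, y.2.1, y.2.2, rfl⟩
  | inv_of y ih => exact Subgroup.inv_mem _ ih
  | mul u v hu hv => exact Subgroup.mul_mem _ hu hv

instance cocG_fg [Group.FG Γ] [∀ k, Finite (X k)] (σ : ∀ k, Γ →* Equiv.Perm (X k)) :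
    Group.FG (CocG σ) := by
  obtain ⟨S, hS, hSf⟩ := Group.fg_iff.mp (inferInstance : Group.FG Γ)
  rw [Group.fg_iff]
  refine ⟨Set.range fun q : (Σ k, S × X k) => cg σ q.1 q.2.1.1 q.2.2, ?_, ?_⟩
  · rw [eq_top_iff, ← cocG_closure σ, Subgroup.closure_le]
    rintro _ ⟨k, g, x, rfl⟩
    have hg : g ∈ Subgroup.closure S := by rw [hS]; trivial
    revert x
    induction hg using Subgroup.closure_induction with
    | mem g hg => exact fun x => Subgroup.subset_closure ⟨⟨k, ⟨g, hg⟩, x⟩, rfl⟩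
    | one => exact fun x => by rw [cg_one]; exact Subgroup.one_mem _
    | mul g h _ _ hg hh => exact fun x => by rw [cg_mul]; exact Subgroup.mul_mem _ (hg _) (hh _)
    | inv g _ hg =>
      intro x
      have h1 := cg_mul σ k g g⁻¹ x
      rw [mul_inv_cancel, cg_one] at h1
      rw [← inv_eq_of_mul_eq_one_right h1.symm]
      exact Subgroup.inv_mem _ (hg _)
  · have : Finite S := hSf
    exact Set.finite_range _

end cocg

section core
variable {Γ : Type} [Group Γ] {K : ℕ} {X : Fin K → Type} {a : Fin K → ℕ}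

/-- the family attached to a character -/
noncomputable def famC {U : Fam Γ a} {σ : ∀ k, Γ →* Equiv.Perm (X k)}
    {b : ∀ k, Fin (a k) → X k} (hU : ∀ k, Lab (U k) (σ k) (b k)) (s : CocG σ →* ℂˣ) : Fam Γ a :=
  fun k => ctw (hU k) (fun g x => s (cg σ k g x)) (coc_char σ s k)

theorem famC_apply {U : Fam Γ a} {σ : ∀ k, Γ →* Equiv.Perm (X k)}
    {b : ∀ k, Fin (a k) → X k} (hU : ∀ k, Lab (U k) (σ k) (b k)) (s : CocG σ →* ℂˣ)
    (k : Fin K) (g : Γ) (i j : Fin (a k)) :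
    famC hU s k g i j = (s (cg σ k g (b k j)) : ℂ) * U k g i j := rfl

theorem famC_mem {U : Fam Γ a} {σ : ∀ k, Γ →* Equiv.Perm (X k)}
    {b : ∀ k, Fin (a k) → X k} (hU : ∀ k, Lab (U k) (σ k) (b k)) {P : Fam Γ a → ℂ}
    (hP : P ∈ RF Γ a) : (fun s => P (famC hU s)) ∈
      Algebra.adjoin ℂ {F : (CocG σ →* ℂˣ) → ℂ | ∃ l : CocG σ, F = fun t => ((t l : ℂˣ) : ℂ)} := by
  induction hP using Algebra.adjoin_induction with
  | mem f hf =>
    obtain ⟨k, γ, i, j, rfl⟩ := hf
    have h1 : (fun s : CocG σ →* ℂˣ => famC hU s k γ i j) =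
        U k γ i j • fun s : CocG σ →* ℂˣ => ((s (cg σ k γ (b k j)) : ℂˣ) : ℂ) := by
      funext s
      rw [famC_apply, Pi.smul_apply, smul_eq_mul, mul_comm]
    rw [h1]
    refine Subalgebra.smul_mem _ (Algebra.subset_adjoin ?_) _
    exact ⟨cg σ k γ (b k j), rfl⟩
  | algebraMap r => exact Subalgebra.algebraMap_mem _ _
  | add f g _ _ hf hg => exact Subalgebra.add_mem _ hf hg
  | mul f g _ _ hf hg => exact Subalgebra.mul_mem _ hf hg

theorem tb_core [Group.FG Γ] [∀ k, Finite (X k)] {J : Type} (c : J → Γ) (m : Fin K → ℕ)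
    {e M : ℕ} (he : 0 < e) (hM : 0 < M) (ha : ∀ k, 0 < a k) (U : Fam Γ a)
    (σ : ∀ k, Γ →* Equiv.Perm (X k)) (b : ∀ k, Fin (a k) → X k)
    (hU : ∀ k, Lab (U k) (σ k) (b k)) (hUe : ∀ k g, U k g ^ e = 1) :
    ∃ q : ℕ, 0 < q ∧ ∀ (L : IntermediateField ℚ ℂ) (ε : ℂˣ), (∀ z : ℂ, z ^ q = 1 → OInt L z) →
      OInt L ε → OInt L ((ε⁻¹ : ℂˣ) : ℂ) → (∀ n : ℕ, 0 < n → ε ^ n ≠ 1) →
      (∀ k g i j, OInt L (U k g i j)) →
      ∀ (t : ∀ k, Γ → X k → ℂˣ) (ht : ∀ k, Coc (σ k) (t k)),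
      (∀ k, Irr (ctw (hU k) (t k) (ht k))) → DetC m (fun k => ctw (hU k) (t k) (ht k)) →
      (∀ k j, QU M (ctw (hU k) (t k) (ht k) (c j))) → ∀ P ∈ RF Γ a,
      (∀ W : Fam Γ a, (∀ k, Irr (W k)) → IntFam L W → DetC m W →
        (∀ k j, ConjM (W k (c j)) (ctw (hU k) (t k) (ht k) (c j))) → P W = 0) →
      P (fun k => ctw (hU k) (t k) (ht k)) = 0 := by
  classical
  let δ : Γ → CocG σ := fun g => ∏ k, (∏ j, cg σ k g (b k j)) ^ m k
  let Λ' : Subgroup (CocG σ) := Subgroup.closure (Set.range δ ∪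
    {l | ∃ (k : Fin K) (j : J) (i : ℕ) (x : X k), 0 < i ∧ σ k (c j ^ i) x = x ∧
      l = cg σ k (c j ^ i) x})
  obtain ⟨q, hq, hdense⟩ := char_dense Λ' (e * M) (Nat.mul_pos he hM)
  refine ⟨q, hq, ?_⟩
  intro L ε hLq hε hε' hε1 hUint t0 ht0 hirr hdet hqu P hP hv
  choose t ht htb htn using fun k => coc_normalize (hU k) (t0 k) (ht0 k)
  have hfam : ∀ k, ctw (hU k) (t0 k) (ht0 k) = ctw (hU k) (t k) (ht k) := by
    intro k
    refine MonoidHom.ext fun g => ?_
    ext i j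
    rw [ctw_apply, ctw_apply, htb]
  simp only [hfam] at hirr hdet hqu hv ⊢
  let T : CocG σ →* ℂˣ := cocLift σ t ht
  have hT : ∀ k g x, T (cg σ k g x) = t k g x := fun k g x => cocLift_cg σ t ht k g x
  have hfT : famC hU T = fun k => ctw (hU k) (t k) (ht k) := by
    funext k
    refine MonoidHom.ext fun g => ?_
    ext i j
    rw [famC_apply, ctw_apply, hT]
  -- determinants
  have hdetf : ∀ (s : CocG σ →* ℂˣ) (g : Γ), ∏ k, (famC hU s k g).det ^ m k =
      (∏ k, (U k g).det ^ m k) * ((s (δ g) : ℂˣ) : ℂ) := by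
    intro s g
    have h1 : ((s (δ g) : ℂˣ) : ℂ) = ∏ k, ((∏ j, s (cg σ k g (b k j)) : ℂˣ) : ℂ) ^ m k := by
      simp only [δ]
      rw [map_prod, Units.coe_prod]
      refine Finset.prod_congr rfl fun k _ => ?_
      rw [map_pow, Units.val_pow_eq_pow_val, map_prod]
    rw [h1, ← Finset.prod_mul_distrib]
    refine Finset.prod_congr rfl fun k _ => ?_
    rw [← mul_pow]
    congr 1
    exact det_ctw (hU k) _ _ g
  have hdetU : ∀ g, (∏ k, (U k g).det ^ m k) ^ e = 1 := by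
    intro g
    rw [← Finset.prod_pow]
    refine Finset.prod_eq_one fun k _ => ?_
    rw [← pow_mul, mul_comm, pow_mul, ← Matrix.det_pow, hUe, Matrix.det_one, one_pow]
  have hdetU0 : ∀ g, (∏ k, (U k g).det ^ m k) ≠ 0 := by
    intro g h0
    have := hdetU g
    rw [h0, zero_pow he.ne'] at this
    exact zero_ne_one this
  -- the values of `T` on `Λ'`
  have hTΛ : ∀ l ∈ Λ', T l ^ (e * M) = 1 := by
    have h1 : Λ' ≤ ((powMonoidHom (e * M)).comp T).ker := by
      rw [Subgroup.closure_le]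
      rintro l (⟨g, rfl⟩ | ⟨k, j, i, x, hi, hx, rfl⟩)
      · show T (δ g) ^ (e * M) = 1
        have h2 : (∏ k, (U k g).det ^ m k) * ((T (δ g) : ℂˣ) : ℂ) = 1 := by
          rw [← hdetf, hfT]
          exact hdet g
        have h3 : ((T (δ g) : ℂˣ) : ℂ) ^ e = 1 := by
          have h4 := congrArg (fun z => z ^ e) h2
          simp only [mul_pow, hdetU g, one_mul, one_pow] at h4
          exact h4
        rw [pow_mul]
        have h5 : T (δ g) ^ e = 1 := Units.ext (by rw [Units.val_pow_eq_pow_val]; exact h3)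
        rw [h5, one_pow]
      · show T (cg σ k (c j ^ i) x) ^ (e * M) = 1
        rw [hT]
        by_cases hxb : x ∈ Set.range (b k)
        · obtain ⟨y, rfl⟩ := hxb
          have h2 : (ctw (hU k) (t k) (ht k) (c j) ^ (i * e)).mulVec (Pi.single y 1) =
              ((t k (c j ^ i) (b k y) ^ e : ℂˣ) : ℂ) • (Pi.single y 1 : Fin (a k) → ℂ) := by
            rw [← map_pow, pow_mul, ctw_eq, map_pow (U k), hUe, Matrix.one_mul,
              Matrix.diagonal_mulVec_single, (ht k).pow_fix hx]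
            ext z
            simp [Pi.single_apply]
          have hne : (Pi.single y 1 : Fin (a k) → ℂ) ≠ 0 := fun h0 => by
            have := congrFun h0 y
            simp at this
          have h3 := qu_pow_eigen (hqu k j) (Nat.mul_pos hi he) hne h2
          rw [pow_mul]
          exact Units.ext (by rw [Units.val_pow_eq_pow_val]; exact h3)
        · rw [htn k _ x hxb, one_pow]
    exact fun l hl => h1 hl
  -- the group of units
  let UL : Subgroup ℂˣ :=
    { carrier := {z | OInt L (z : ℂ) ∧ OInt L ((z⁻¹ : ℂˣ) : ℂ)}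
      mul_mem' := fun {x y} hx hy => ⟨by rw [Units.val_mul]; exact hx.1.mul hy.1, by
        rw [mul_inv, Units.val_mul]; exact hx.2.mul hy.2⟩
      one_mem' := ⟨by rw [Units.val_one]; exact OInt.one, by
        rw [inv_one, Units.val_one]; exact OInt.one⟩
      inv_mem' := fun {x} hx => ⟨hx.2, by rw [inv_inv]; exact hx.1⟩ }
  have hμ : ∀ z : ℂˣ, z ^ q = 1 → z ∈ UL := by
    intro z hz
    refine ⟨hLq _ ?_, hLq _ ?_⟩
    · rw [← Units.val_pow_eq_pow_val, hz, Units.val_one]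
    · rw [← Units.val_pow_eq_pow_val, inv_pow, hz, inv_one, Units.val_one]
  obtain ⟨D, hD, hD0, hDirr⟩ := irr_detector ha (fun k => ctw (hU k) (t k) (ht k)) hirr
  have key := hdense UL ε hμ ⟨hε, hε'⟩ hε1 T hTΛ _ (famC_mem hU (Subalgebra.mul_mem _ hP hD)) ?_
  · have key' : P (famC hU T) * D (famC hU T) = 0 := key
    rw [hfT] at key'
    exact (mul_eq_zero.mp key').resolve_right hD0
  · intro t' ht'Λ ht'U
    show P (famC hU t') * D (famC hU t') = 0
    by_cases hDt : D (famC hU t') = 0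
    · rw [hDt, mul_zero]
    · rw [hv (famC hU t') (hDirr _ hDt) ?_ ?_ ?_, zero_mul]
      · intro k g i j
        rw [famC_apply]
        exact (ht'U _).1.mul (hUint k g i j)
      · intro g
        rw [hdetf, ht'Λ (δ g) (Subgroup.subset_closure (Or.inl ⟨g, rfl⟩)), ← hdetf, hfT]
        exact hdet g
      · intro k j
        refine conj_ctw (hU k) (t k) (fun g x => t' (cg σ k g x)) (ht k) (coc_char σ t' k) (c j) ?_
        intro i hi x hx
        show t' (cg σ k (c j ^ i) x) = t k (c j ^ i) x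
        rw [ht'Λ _ (Subgroup.subset_closure (Or.inr ⟨k, j, i, x, hi, hx, rfl⟩)), hT]

end core

theorem oint_of_pow {L : IntermediateField ℚ ℂ} {ζ : ℂ} {q m : ℕ} (hq : 0 < q) (hζL : ζ ∈ L)
    (hζ : IsPrimitiveRoot ζ q) (hm : m ∣ q) {μ : ℂ} (hμ : μ ^ m = 1) : OInt L μ := by
  obtain ⟨z, rfl⟩ := PSf.root_mem hq hζL hζ hm hμ
  exact PSf.oint_of z

theorem pd_of_tb {Γ : Type} [Group Γ] [Group.FG Γ] (h : ∀ n, TB Γ n) {J : Type} (c : J → Γ) :
    PD c := by
  classical
  intro K a m M hm hM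
  by_cases ha : ∀ k, 0 < a k
  swap
  · refine ⟨⊥, inferInstance, fun V hV => ?_⟩
    exfalso
    push Not at ha
    obtain ⟨k, hk⟩ := ha
    obtain ⟨⟨x⟩, -⟩ := hV k
    have := x.2
    omega
  choose e L₀ B U X σ b he hfd hB hX hLab hUe hint hex using fun k => h (a k)
  let E : ℕ := ∏ k, e k
  have hE : 0 < E := Finset.prod_pos fun k _ => he k
  have hcore := fun β : (∀ k, B k) =>
    have : ∀ k, Finite (X k (β k)) := fun k => hX k (β k)
    tb_core c m hE hM ha (fun k => U k (β k)) (fun k => σ k (β k)) (fun k => b k (β k))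
      (fun k => hLab k (β k)) (fun k g => by
        obtain ⟨d, hd⟩ : e k ∣ E := Finset.dvd_prod_of_mem e (Finset.mem_univ k)
        show U k (β k) g ^ E = 1
        rw [hd, pow_mul, hUe, one_pow])
  choose q hq hcore using hcore
  have hBf : Finite (∀ k, B k) := by
    have : ∀ k, Finite (B k) := hB
    infer_instance
  have hBft : Fintype (∀ k, B k) := Fintype.ofFinite _
  let Q : ℕ := 10 * ∏ β, q β
  have hQ : 0 < Q := Nat.mul_pos (by norm_num) (Finset.prod_pos fun β _ => hq β)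
  obtain ⟨L, ζ, ε, hLfd, hζL, hζ, hε, hε', hε1⟩ := exists_cyc_field (q := Q) (Dvd.intro _ rfl) hQ
  have hfd' : ∀ k, FiniteDimensional ℚ (L₀ k) := hfd
  refine ⟨L ⊔ ⨆ k, L₀ k, ?_, ?_⟩
  · have h1 : FiniteDimensional ℚ (⨆ k, L₀ k : IntermediateField ℚ ℂ) :=
      IntermediateField.finiteDimensional_iSup_of_finite
    exact IntermediateField.finiteDimensional_sup _ _
  intro V hV hdet hqu P hP hinv hv
  choose β V' t ht hV't hVV' using fun k => hex k (V k) (hV k)
  have hV'eq : V' = fun k => ctw (hLab k (β k)) (t k) (ht k) := by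
    funext k
    refine MonoidHom.ext fun g => ?_
    ext i j
    exact hV't k g i j
  have hLL : L ≤ L ⊔ ⨆ k, L₀ k := le_sup_left
  have hLk : ∀ k, L₀ k ≤ L ⊔ ⨆ k, L₀ k := fun k => (le_iSup L₀ k).trans le_sup_right
  have hPV : P V = P V' := hinv V V' hdet (fun k j => ConjM.refl _) hVV'
  have hcl : ∀ k j, ConjM (V' k (c j)) (V k (c j)) := fun k j => ((hVV' k).conjM (c j)).symm
  rw [hPV]
  have hirr' : ∀ k, Irr (V' k) := fun k => (hVV' k).irr (hV k)
  have hdet' : DetC m V' := by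
    intro γ
    rw [← hdet γ]
    refine Finset.prod_congr rfl fun k _ => ?_
    rw [((hVV' k).conjM γ).det]
  have hqu' : ∀ k j, QU M (V' k (c j)) := fun k j => QU.conj ((hVV' k).conjM (c j)) (hqu k j)
  have key := hcore β (L ⊔ ⨆ k, L₀ k) ε
    (fun z hz => (oint_of_pow hQ hζL hζ (Dvd.dvd.mul_left
      (Finset.dvd_prod_of_mem q (Finset.mem_univ β)) 10) hz).mono hLL)
    (hε.mono hLL) (hε'.mono hLL) hε1 (fun k g i j => (hint k (β k) g i j).mono (hLk k)) t ht
  subst hV'eq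
  refine key hirr' hdet' hqu' P hP ?_
  intro W hW hWi hWd hWc
  exact hv W hW hWi hWd fun k j => (hWc k j).trans (hcl k j)

end Vale.Agent.P002
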