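import Vale.Agent.P002.PIrr

/-!
P002: irreducible finite dimensional representations of nilpotent groups are monomial (Blichfeldt).
-/

namespace Vale.Agent.P002

open Matrix

namespace PNilp

/-- irreducible representations on vector spaces -/
def IrrE {G E : Type} [Group G] [AddCommGroup E] [Module ℂ E] (π : G →* Module.End ℂ E) : Prop :=
  Nontrivial E ∧ ∀ V : Submodule ℂ E, (∀ g, ∀ v ∈ V, π g v ∈ V) → V = ⊥ ∨ V = ⊤

section

variable {G E : Type} [Group G] [AddCommGroup E] [Module ℂ E] (π : G →* Module.End ℂ E)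

theorem inv_apply (g : G) (v : E) : π g⁻¹ (π g v) = v := by
  rw [← Module.End.mul_apply, ← map_mul, inv_mul_cancel, map_one, Module.End.one_apply]

theorem apply_inv (g : G) (v : E) : π g (π g⁻¹ v) = v := by
  rw [← Module.End.mul_apply, ← map_mul, mul_inv_cancel, map_one, Module.End.one_apply]

theorem ne_zero' [Nontrivial E] (g : G) : π g ≠ 0 := by
  intro h
  obtain ⟨v, hv⟩ := exists_ne (0 : E)
  apply hv
  rw [← inv_apply π g v, h, LinearMap.zero_apply, map_zero]

theorem exists_x [Group.IsNilpotent G] : (∀ g, ∃ c : ℂ, π g = c • 1) ∨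
    ∃ x, (¬ ∃ c : ℂ, π x = c • 1) ∧ ∀ g, ∃ c : ℂ, π (x * g * x⁻¹ * g⁻¹) = c • 1 := by
  classical
  by_cases h : ∀ n, ∀ x ∈ Subgroup.upperCentralSeries G n, ∃ c : ℂ, π x = c • 1
  · left
    obtain ⟨n, hn⟩ := Group.IsNilpotent.nilpotent' (G := G)
    intro g
    exact h n g (by rw [hn]; exact Subgroup.mem_top g)
  · right
    have h' : ∃ n, ¬ ∀ x ∈ Subgroup.upperCentralSeries G n, ∃ c : ℂ, π x = c • 1 := by
      by_contra hcon
      push Not at hcon
      exact h fun n x hx => hcon n x hx
    have hk := Nat.find_spec h'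
    have hk0 : Nat.find h' ≠ 0 := by
      intro h0
      rw [h0] at hk
      apply hk
      intro x hx
      rw [Subgroup.upperCentralSeries_zero, Subgroup.mem_bot] at hx
      exact ⟨1, by rw [hx, map_one, one_smul]⟩
    obtain ⟨k, hk1⟩ := Nat.exists_eq_succ_of_ne_zero hk0
    have hmin : ∀ x ∈ Subgroup.upperCentralSeries G k, ∃ c : ℂ, π x = c • 1 := by
      by_contra hcon
      exact Nat.find_min h' (m := k) (by omega) hcon
    rw [hk1] at hk
    push Not at hk
    obtain ⟨x, hx, hx'⟩ := hk
    refine ⟨x, by push Not; exact hx', fun g => hmin _ ?_⟩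
    exact Subgroup.mem_upperCentralSeries_succ_iff.mp hx g

end

theorem mono_aux (d : ℕ) : ∀ (G : Type) [Group G] [Group.IsNilpotent G] (E : Type)
    [AddCommGroup E] [Module ℂ E] [FiniteDimensional ℂ E] (π : G →* Module.End ℂ E)
    (_ : Module.finrank ℂ E ≤ d) (_ : IrrE π),
    ∃ (ι : Type) (b : Module.Basis ι ℂ E), ∀ g i, ∃ (j : ι) (c : ℂ), π g (b i) = c • b j := by
  classical
  induction d with
  | zero =>
    intro G _ _ E _ _ _ π hd hirr
    exfalso
    have := hirr.1
    have h := Module.finrank_pos (R := ℂ) (M := E)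
    omega
  | succ d ih =>
    intro G _ _ E _ _ _ π hd hirr
    have hnt := hirr.1
    rcases exists_x π with h | ⟨x, hx, hc⟩
    · refine ⟨Fin (Module.finrank ℂ E), Module.finBasis ℂ E, fun g i => ?_⟩
      obtain ⟨c, hc⟩ := h g
      exact ⟨i, c, by rw [hc]; simp⟩
    · choose s hs using hc
      have hcomm : ∀ g v, π x (π g v) = s g • π g (π x v) := by
        intro g v
        have e : x * g = (x * g * x⁻¹ * g⁻¹) * (g * x) := by group
        rw [← Module.End.mul_apply, ← map_mul, e, map_mul, hs, map_mul]
        simp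
      have hinj : ∀ g, ∀ v : E, v ≠ 0 → π g v ≠ 0 := by
        intro g v hv h0
        apply hv
        rw [← inv_apply π g v, h0, map_zero]
      obtain ⟨v0, hv0⟩ := exists_ne (0 : E)
      have hs0 : ∀ g, s g ≠ 0 := by
        intro g h0
        have h1 := hcomm g v0
        rw [h0, zero_smul] at h1
        exact hinj x _ (hinj g v0 hv0) h1
      have hsmul : ∀ g h, s (g * h) = s g * s h := by
        intro g h
        have h1 := hcomm (g * h) v0
        have h2 : π x (π (g * h) v0) = (s g * s h) • π (g * h) (π x v0) := by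
          rw [map_mul, Module.End.mul_apply, hcomm g, hcomm h, map_smul, smul_smul,
            Module.End.mul_apply]
        have h3 : (s (g * h) - s g * s h) • π (g * h) (π x v0) = 0 := by
          rw [sub_smul, ← h1, ← h2, sub_self]
        rcases smul_eq_zero.mp h3 with h4 | h4
        · exact sub_eq_zero.mp h4
        · exact absurd h4 (hinj _ _ (hinj x v0 hv0))
      have hsone : s 1 = 1 := by
        have h1 := hsmul 1 1
        rw [mul_one] at h1
        exact (mul_eq_left₀ (hs0 1)).mp h1.symm
      let sH : G →* ℂ := { toFun := s, map_one' := hsone, map_mul' := hsmul }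
      obtain ⟨μ, hμ⟩ := Module.End.exists_eigenvalue (π x)
      let A : ℂ → Submodule ℂ E := Module.End.eigenspace (π x)
      have hA : ∀ ν v, v ∈ A ν ↔ π x v = ν • v := fun ν v => Module.End.mem_eigenspace_iff
      have hμ0 : μ ≠ 0 := by
        obtain ⟨v, hv⟩ := hμ.exists_hasEigenvector
        intro h0
        have h1 := hv.apply_eq_smul
        rw [h0, zero_smul] at h1
        exact hinj x v hv.2 h1
      have hFbot : A μ ≠ ⊥ := hμ
      have hmap : ∀ g ν v, v ∈ A ν → π g v ∈ A (s g * ν) := by
        intro g ν v hv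
        rw [hA] at hv ⊢
        rw [hcomm, hv, map_smul, smul_smul]
      have hFtop : A μ ≠ ⊤ := by
        intro h
        apply hx
        refine ⟨μ, LinearMap.ext fun v => ?_⟩
        have : v ∈ A μ := by rw [h]; trivial
        rw [hA] at this
        rw [this]
        simp
      have hind : iSupIndep A := Module.End.eigenspaces_iSupIndep (π x)
      -- the stabiliser
      let H : Subgroup G := sH.ker
      have hH : ∀ g, g ∈ H ↔ s g = 1 := fun g => MonoidHom.mem_ker
      have hres : ∀ h : H, ∀ v ∈ A μ, π (h : G) v ∈ A μ := by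
        intro h v hv
        have := hmap h μ v hv
        rwa [(hH h).mp h.2, one_mul] at this
      let πF : H →* Module.End ℂ (A μ) :=
        { toFun := fun h => (π (h : G)).restrict (hres h)
          map_one' := by
            ext v
            simp
          map_mul' := fun g h => by
            ext v
            simp }
      have hπF : ∀ (h : H) (v : A μ), ((πF h v : A μ) : E) = π (h : G) (v : E) := fun h v => rfl
      have hlt : Module.finrank ℂ (A μ) ≤ d := by
        have := Submodule.finrank_lt hFtop
        omega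
      have hirrF : IrrE πF := by
        refine ⟨(Submodule.nontrivial_iff_ne_bot).mpr hFbot, fun V hV => ?_⟩
        by_cases hVb : V = ⊥
        · exact Or.inl hVb
        · right
          set W : Submodule ℂ E := V.map (A μ).subtype with hW
          have hWF : W ≤ A μ := Submodule.map_subtype_le _ _
          let U : Submodule ℂ E := ⨆ g : G, W.map (π g)
          have hU : ∀ g, ∀ v ∈ U, π g v ∈ U := by
            intro g v hv
            have h1 : U.map (π g) ≤ U := by
              rw [Submodule.map_iSup]
              refine iSup_le fun g' => ?_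
              rw [← Submodule.map_comp]
              have : (π g).comp (π g') = π (g * g') := by rw [map_mul]; rfl
              rw [this]
              exact le_iSup (fun g : G => W.map (π g)) (g * g')
            exact h1 (Submodule.mem_map_of_mem hv)
          have hWU : W ≤ U := by
            refine le_trans ?_ (le_iSup (fun g : G => W.map (π g)) 1)
            rw [map_one]
            intro w hw
            exact ⟨w, hw, rfl⟩
          have hUtop : U = ⊤ := by
            rcases hirr.2 U hU with h | h
            · exfalso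
              rw [h, le_bot_iff] at hWU
              apply hVb
              rw [eq_bot_iff]
              intro v hv
              have h5 : (v : E) ∈ W := ⟨v, hv, rfl⟩
              rw [hWU, Submodule.mem_bot] at h5
              rw [Submodule.mem_bot]
              exact Subtype.ext h5
            · exact h
          have hUle : U ≤ W ⊔ ⨆ (ν) (_ : ν ≠ μ), A ν := by
            refine iSup_le fun g => ?_
            by_cases hg : s g = 1
            · refine le_trans ?_ le_sup_left
              rintro _ ⟨w, hw, rfl⟩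
              obtain ⟨v, hv, rfl⟩ := hw
              have := hV ⟨g, (hH g).mpr hg⟩ v hv
              exact ⟨_, this, rfl⟩
            · refine le_trans ?_ le_sup_right
              have hne : s g * μ ≠ μ := by
                intro h
                exact hg ((mul_eq_right₀ hμ0).mp h)
              refine le_trans ?_ (le_iSup₂ (f := fun (ν : ℂ) (_ : ν ≠ μ) => A ν) (s g * μ) hne)
              rintro _ ⟨w, hw, rfl⟩
              exact hmap g μ w (hWF hw)
          have hFW : A μ ≤ W := by
            have h1 : A μ ≤ (W ⊔ ⨆ (ν) (_ : ν ≠ μ), A ν) ⊓ A μ :=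
              le_inf (le_trans le_top (hUtop ▸ hUle)) le_rfl
            rw [sup_inf_assoc_of_le _ hWF, inf_comm, (hind μ).eq_bot, sup_bot_eq] at h1
            exact h1
          rw [eq_top_iff]
          intro v _
          obtain ⟨w, hw, hwv⟩ := hFW v.2
          have : w = v := Subtype.ext hwv
          rwa [← this]
      obtain ⟨ι, b, hb⟩ := ih H (A μ) πF hlt hirrF
      let T : Type := {ν : ℂ // ∃ g, s g * μ = ν}
      choose γ hγ using fun ν : T => ν.2
      let AT : T → Submodule ℂ E := fun ν => A ν
      have h1 : ∀ ν : T, ∀ v ∈ A μ, π (γ ν) v ∈ AT ν := by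
        intro ν v hv
        have := hmap (γ ν) μ v hv
        rwa [hγ ν] at this
      have h2 : ∀ ν : T, ∀ v ∈ AT ν, π (γ ν)⁻¹ v ∈ A μ := by
        intro ν v hv
        have h3 := hmap (γ ν)⁻¹ ν v hv
        have h4 : s (γ ν)⁻¹ * (ν : ℂ) = μ := by
          rw [← hγ ν, ← mul_assoc, ← hsmul, inv_mul_cancel, hsone, one_mul]
        rwa [h4] at h3
      let e : ∀ ν : T, A μ ≃ₗ[ℂ] AT ν := fun ν =>
        LinearEquiv.ofLinearMap ((π (γ ν)).restrict (h1 ν)) ((π (γ ν)⁻¹).restrict (h2 ν))
          (by
            ext v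
            simp only [LinearMap.comp_apply, LinearMap.coe_restrict_apply, LinearMap.id_apply]
            exact apply_inv π _ _)
          (by
            ext v
            simp only [LinearMap.comp_apply, LinearMap.coe_restrict_apply, LinearMap.id_apply]
            exact inv_apply π _ _)
      have hint : DirectSum.IsInternal AT := by
        rw [DirectSum.isInternal_submodule_iff_iSupIndep_and_iSup_eq_top]
        constructor
        · exact hind.comp Subtype.val_injective
        · have hinv : ∀ g, ∀ v ∈ ⨆ ν, AT ν, π g v ∈ ⨆ ν, AT ν := by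
            intro g v hv
            have h3 : (⨆ ν, AT ν).map (π g) ≤ ⨆ ν, AT ν := by
              rw [Submodule.map_iSup]
              refine iSup_le fun ν => ?_
              have h4 : ∃ g', s g' * μ = s g * (ν : ℂ) :=
                ⟨g * γ ν, by rw [hsmul, mul_assoc, hγ ν]⟩
              refine le_trans ?_ (le_iSup AT ⟨s g * ν, h4⟩)
              rintro _ ⟨w, hw, rfl⟩
              exact hmap g ν w hw
            exact h3 (Submodule.mem_map_of_mem hv)
          rcases hirr.2 (⨆ ν, AT ν) hinv with h | h
          · exfalso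
            apply hFbot
            rw [eq_bot_iff, ← h]
            exact le_iSup AT ⟨μ, 1, by rw [hsone, one_mul]⟩
          · exact h
      refine ⟨_, hint.collectedBasis (fun ν => b.map (e ν)), ?_⟩
      have hB : ∀ (ν : T) (i : ι), hint.collectedBasis (fun ν => b.map (e ν)) ⟨ν, i⟩ =
          π (γ ν) (b i : E) := by
        intro ν i
        rw [DirectSum.IsInternal.collectedBasis_coe]
        rfl
      rintro g ⟨ν, i⟩
      have h4 : ∃ g', s g' * μ = s g * (ν : ℂ) :=
        ⟨g * γ ν, by rw [hsmul, mul_assoc, hγ ν]⟩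
      let ν' : T := ⟨s g * ν, h4⟩
      have hν' : s (γ ν') = s g * s (γ ν) := by
        have h5 : s (γ ν') * μ = s g * s (γ ν) * μ := by
          rw [hγ ν', mul_assoc, hγ ν]
        exact mul_right_cancel₀ hμ0 h5
      have hh : s ((γ ν')⁻¹ * (g * γ ν)) = 1 := by
        have h5 : s (γ ν') * s ((γ ν')⁻¹ * (g * γ ν)) = s (γ ν') := by
          rw [← hsmul, mul_inv_cancel_left, hsmul, hν']
        exact (mul_eq_left₀ (hs0 _)).mp h5
      obtain ⟨j, c, hj⟩ := hb ⟨_, (hH _).mpr hh⟩ i
      refine ⟨⟨ν', j⟩, c, ?_⟩
      rw [hB, hB, ← map_smul]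
      have hj' : π ((γ ν')⁻¹ * (g * γ ν)) (b i : E) = c • (b j : E) := by
        have := congrArg (fun v : A μ => (v : E)) hj
        rw [Submodule.coe_smul] at this
        exact this
      rw [← hj', ← Module.End.mul_apply, ← Module.End.mul_apply, ← map_mul, ← map_mul,
        mul_inv_cancel_left]

end PNilp

open PNilp

/-- **Blichfeldt.** Every irreducible finite dimensional representation of a nilpotent group is
monomial. -/
theorem nilp_mono {Γ : Type} [Group Γ] [Group.IsNilpotent Γ] {n : ℕ}
    (ρ : Γ →* Matrix (Fin n) (Fin n) ℂ) (h : Irr ρ) :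
    ∃ ρ' : Γ →* Matrix (Fin n) (Fin n) ℂ, Eqv ρ ρ' ∧
      ∀ γ j, ∃ i, ∀ i', i' ≠ i → ρ' γ i' j = 0 := by
  classical
  let π : Γ →* Module.End ℂ (Fin n → ℂ) :=
    (Matrix.toLinAlgEquiv' : Matrix (Fin n) (Fin n) ℂ ≃ₐ[ℂ] _).toRingEquiv.toMonoidHom.comp ρ
  have hπ : ∀ γ, π γ = Matrix.toLin' (ρ γ) := fun γ => rfl
  have hirr : IrrE π := by
    refine ⟨?_, fun V hV => h.2 V fun γ v hv => ?_⟩
    · have := h.1
      exact Function.nontrivial
    · have := hV γ v hv
      rwa [hπ, Matrix.toLin'_apply] at this
  obtain ⟨ι, b, hb⟩ := mono_aux _ Γ (Fin n → ℂ) π le_rfl hirr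
  have : Fintype ι := FiniteDimensional.fintypeBasisIndex b
  have hcard : Fintype.card ι = n := by
    rw [← Module.finrank_eq_card_basis b, Module.finrank_fin_fun]
  let b' : Module.Basis (Fin n) ℂ (Fin n → ℂ) := b.reindex (Fintype.equivFinOfCardEq hcard)
  have hb' : ∀ γ j, ∃ (i : Fin n) (c : ℂ), π γ (b' j) = c • b' i := by
    intro γ j
    obtain ⟨i, c, hc⟩ := hb γ ((Fintype.equivFinOfCardEq hcard).symm j)
    refine ⟨Fintype.equivFinOfCardEq hcard i, c, ?_⟩
    simp only [b', Module.Basis.reindex_apply, Equiv.symm_apply_apply]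
    exact hc
  let ρ' : Γ →* Matrix (Fin n) (Fin n) ℂ :=
    (LinearMap.toMatrixAlgEquiv b').toRingEquiv.toMonoidHom.comp π
  have hρ' : ∀ γ, ρ' γ = LinearMap.toMatrix b' b' (π γ) := fun γ => rfl
  refine ⟨ρ', ⟨b'.toMatrix (Pi.basisFun ℂ (Fin n)), ?_, fun γ => ?_⟩, fun γ j => ?_⟩
  · have h1 : b'.toMatrix (Pi.basisFun ℂ (Fin n)) * (Pi.basisFun ℂ (Fin n)).toMatrix b' = 1 :=
      Module.Basis.toMatrix_mul_toMatrix_flip _ _
    exact (Matrix.isUnit_iff_isUnit_det _).mp (IsUnit.of_mul_eq_one _ h1)
  · have h1 : b'.toMatrix (Pi.basisFun ℂ (Fin n)) * (Pi.basisFun ℂ (Fin n)).toMatrix b' = 1 :=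
      Module.Basis.toMatrix_mul_toMatrix_flip _ _
    rw [Matrix.inv_eq_right_inv h1, hρ', hπ]
    have h2 := basis_toMatrix_mul_linearMap_toMatrix_mul_basis_toMatrix (b := b')
      (b' := Pi.basisFun ℂ (Fin n)) (c := b') (c' := Pi.basisFun ℂ (Fin n)) (Matrix.toLin' (ρ γ))
    rw [← h2]
    congr 2
    rw [LinearMap.toMatrix_eq_toMatrix', LinearMap.toMatrix'_toLin']
  · obtain ⟨i, c, hc⟩ := hb' γ j
    refine ⟨i, fun i' hi' => ?_⟩
    rw [hρ', LinearMap.toMatrix_apply, hc]
    simp [hi'.symm]

end Vale.Agent.P002
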