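import Vale.Agent.P002.PTBn
import Vale.Agent.P002.PNilp

/-!
# Eigenvectors of irreducible representations of virtually nilpotent groups
-/

namespace Vale.Agent.P002

open Matrix

theorem mono_perm {Γ : Type} [Group Γ] {n : ℕ} (V' : Γ →* Matrix (Fin n) (Fin n) ℂ)
    (hm : MonoR V') : ∃ σ : Γ →* Equiv.Perm (Fin n), ∀ g i j, V' g i j ≠ 0 → i = σ g j := by
  classical
  have hinv : ∀ g, V' g⁻¹ * V' g = 1 := fun g => by rw [← map_mul, inv_mul_cancel, map_one]
  have hne : ∀ g j, ∃ i, V' g i j ≠ 0 := by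
    intro g j
    by_contra hc
    push Not at hc
    have h4 := congrFun (congrFun (hinv g) j) j
    rw [Matrix.mul_apply, Matrix.one_apply_eq] at h4
    rw [Finset.sum_eq_zero fun i _ => by rw [hc i, mul_zero]] at h4
    exact zero_ne_one h4
  choose s hs using hne
  have hs' : ∀ g i j, V' g i j ≠ 0 → i = s g j := by
    intro g i j hij
    obtain ⟨i0, hi0⟩ := hm g j
    have h1 : i = i0 := by
      by_contra hc
      exact hij (hi0 i hc)
    have h2 : s g j = i0 := by
      by_contra hc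
      exact hs g j (hi0 _ hc)
    rw [h1, h2]
  have hone : ∀ j, s 1 j = j := by
    intro j
    refine (hs' 1 j j ?_).symm
    rw [map_one, Matrix.one_apply_eq]
    exact one_ne_zero
  have hval : ∀ g h' j, V' (g * h') (s g (s h' j)) j = V' g (s g (s h' j)) (s h' j) *
      V' h' (s h' j) j := by
    intro g h' j
    rw [map_mul, Matrix.mul_apply, Finset.sum_eq_single (s h' j)]
    · intro l _ hl
      have : V' h' l j = 0 := by
        by_contra hc
        exact hl (hs' h' l j hc)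
      rw [this, mul_zero]
    · intro hc
      exact absurd (Finset.mem_univ _) hc
  have hmul : ∀ g h' j, s (g * h') j = s g (s h' j) := by
    intro g h' j
    refine (hs' (g * h') _ j ?_).symm
    rw [hval]
    exact mul_ne_zero (hs _ _) (hs _ _)
  let σ : Γ →* Equiv.Perm (Fin n) :=
    { toFun := fun g => ⟨s g, s g⁻¹, fun j => by rw [← hmul, inv_mul_cancel, hone],
        fun j => by rw [← hmul, mul_inv_cancel, hone]⟩
      map_one' := Equiv.ext fun j => hone j
      map_mul' := fun g h' => Equiv.ext fun j => hmul g h' j }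
  exact ⟨σ, fun g i j h => hs' g i j h⟩

/-- a nonzero invariant subspace contains a minimal one -/
theorem exists_min_sub {G E : Type} [Group G] [AddCommGroup E] [Module ℂ E]
    [FiniteDimensional ℂ E] [Nontrivial E] (π : G →* Module.End ℂ E) :
    ∃ W : Submodule ℂ E, W ≠ ⊥ ∧ (∀ g, ∀ v ∈ W, π g v ∈ W) ∧
      ∀ W' : Submodule ℂ E, W' ≤ W → (∀ g, ∀ v ∈ W', π g v ∈ W') → W' = ⊥ ∨ W' = W := by
  classical
  have hex : ∃ m : ℕ, ∃ W : Submodule ℂ E, W ≠ ⊥ ∧ (∀ g, ∀ v ∈ W, π g v ∈ W) ∧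
      Module.finrank ℂ W = m :=
    ⟨_, ⊤, top_ne_bot, fun _ _ _ => trivial, rfl⟩
  obtain ⟨W, hW0, hW, hm⟩ := Nat.find_spec hex
  refine ⟨W, hW0, hW, fun W' hle hinv => ?_⟩
  by_cases h0 : W' = ⊥
  · exact Or.inl h0
  · right
    have h1 : Nat.find hex ≤ Module.finrank ℂ W' := Nat.find_min' hex ⟨W', h0, hinv, rfl⟩
    exact Submodule.eq_of_le_of_finrank_le hle (by rw [hm]; exact h1)

theorem vnil_eigen {Γ : Type} [Group Γ] [Group.FG Γ] (N : Subgroup Γ) [N.FiniteIndex]
    (hN : Group.IsNilpotent N) (n : ℕ) :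
    ∃ Γ₀ : Subgroup Γ, Γ₀.Normal ∧ Γ₀.FiniteIndex ∧
      ∀ V : Γ →* Matrix (Fin n) (Fin n) ℂ, Irr V →
        ∃ v : Fin n → ℂ, v ≠ 0 ∧ ∀ h ∈ Γ₀, ∃ c : ℂ, (V h).mulVec v = c • v := by
  classical
  have hfg : Group.FG N := inferInstance
  have hfin : ∀ m : Fin (n + 1), Finite (N →* Equiv.Perm (Fin m)) := fun m => finite_hom
  let K : Subgroup N := ⨅ p : (Σ m : Fin (n + 1), N →* Equiv.Perm (Fin m)), p.2.ker
  have hK : K.FiniteIndex := by
    refine Subgroup.finiteIndex_iInf fun p => ?_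
    exact Subgroup.finiteIndex_ker p.2
  let N₀ : Subgroup Γ := K.map N.subtype
  have hN₀ : N₀.FiniteIndex := by
    refine ⟨?_⟩
    have h1 : N₀.index = K.index * N.index := by
      have := Subgroup.index_map_subtype (H := N) K
      rw [this]
    rw [h1]
    exact mul_ne_zero hK.index_ne_zero Subgroup.FiniteIndex.index_ne_zero
  refine ⟨N₀.normalCore, inferInstance, inferInstance, fun V hV => ?_⟩
  have : Nonempty (Fin n) := hV.1
  let π : N →* Module.End ℂ (Fin n → ℂ) :=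
    ((Matrix.toLinAlgEquiv' : Matrix (Fin n) (Fin n) ℂ ≃ₐ[ℂ] _).toRingEquiv.toMonoidHom.comp
      V).comp N.subtype
  have hπ : ∀ (γ : N) v, π γ v = (V γ).mulVec v := fun γ v => rfl
  obtain ⟨W, hW0, hW, hWmin⟩ := exists_min_sub π
  let r : N →* Module.End ℂ W :=
    { toFun := fun γ => (π γ).restrict (fun v hv => hW γ v hv)
      map_one' := by
        refine LinearMap.ext fun v => Subtype.ext ?_
        change (π 1) v.1 = v.1
        rw [map_one]; rfl
      map_mul' := fun γ δ => by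
        refine LinearMap.ext fun v => Subtype.ext ?_
        change (π (γ * δ)) v.1 = π γ (π δ v.1)
        rw [map_mul]; rfl }
  have hr : ∀ γ (v : W), ((r γ v : W) : Fin n → ℂ) = (V γ).mulVec v.1 := fun _ _ => rfl
  obtain ⟨d, hd, A, φ, hφ⟩ := PIrr.exists_matrix_rep r
  have hd0 : 0 < d := by
    rw [hd, Module.finrank_pos_iff]
    exact (Submodule.nontrivial_iff_ne_bot).2 hW0
  have hdn : d ≤ n := by
    rw [hd]
    calc Module.finrank ℂ W ≤ Module.finrank ℂ (Fin n → ℂ) := Submodule.finrank_le W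
      _ = n := Module.finrank_fin_fun ℂ
  have hA : Irr A := by
    refine ⟨⟨⟨0, hd0⟩⟩, fun U hU => ?_⟩
    let ψ : (Fin d → ℂ) →ₗ[ℂ] (Fin n → ℂ) := W.subtype ∘ₗ (φ : (Fin d → ℂ) →ₗ[ℂ] W)
    have hψ : ∀ w, ψ w = (φ w : Fin n → ℂ) := fun _ => rfl
    have hψi : Function.Injective ψ := Subtype.coe_injective.comp φ.injective
    rcases hWmin (U.map ψ) (by
      rintro _ ⟨w, _, rfl⟩
      exact (φ w).2) (by
      rintro γ _ ⟨w, hw, rfl⟩
      refine ⟨(A γ).mulVec w, hU γ w hw, ?_⟩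
      rw [hψ, ← hφ, hr]
      rfl) with h0 | h0
    · left
      rw [Submodule.eq_bot_iff]
      intro u hu
      have h1 : ψ u ∈ U.map ψ := Submodule.mem_map_of_mem hu
      rw [h0, Submodule.mem_bot] at h1
      exact hψi (by rw [h1, map_zero])
    · right
      rw [Submodule.eq_top_iff']
      intro u
      have h1 : ψ u ∈ U.map ψ := by
        rw [h0]
        exact (φ u).2
      obtain ⟨w, hw, he⟩ := h1
      rwa [← hψi he]
  obtain ⟨A', ⟨h, hh, hAA⟩, hm⟩ := nilp_mono A hA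
  obtain ⟨σ, hσ⟩ := mono_perm A' hm
  -- the eigenvector
  let j0 : Fin d := ⟨0, hd0⟩
  let w0 : Fin d → ℂ := (h⁻¹).mulVec (Pi.single j0 1)
  have hw0 : w0 ≠ 0 := by
    intro hc
    have h1 : h.mulVec w0 = Pi.single j0 1 := by
      rw [Matrix.mulVec_mulVec, Matrix.mul_nonsing_inv _ hh, Matrix.one_mulVec]
    rw [hc, Matrix.mulVec_zero] at h1
    have h2 := congrFun h1 j0
    rw [Pi.single_eq_same] at h2
    exact zero_ne_one h2
  refine ⟨(φ w0 : Fin n → ℂ), fun hc => hw0 (φ.injective (by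
    rw [map_zero]; exact Subtype.ext hc)), fun x hx => ?_⟩
  obtain ⟨y, hy, hyx⟩ := Subgroup.normalCore_le N₀ hx
  have hyσ : σ y = 1 := by
    have h1 := (Subgroup.mem_iInf.mp hy) ⟨⟨d, by omega⟩, σ⟩
    exact h1
  refine ⟨A' y j0 j0, ?_⟩
  have hx' : x = (y : Γ) := hyx.symm
  rw [hx', ← hr, hφ]
  have h1 : (A y).mulVec w0 = A' y j0 j0 • w0 := by
    have h2 : A y = h⁻¹ * A' y * h := by
      rw [hAA]
      simp only [Matrix.mul_assoc]
      rw [Matrix.nonsing_inv_mul _ hh, Matrix.mul_one, ← Matrix.mul_assoc,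
        Matrix.nonsing_inv_mul _ hh, Matrix.one_mul]
    have h3 : (A' y).mulVec (Pi.single j0 1) = A' y j0 j0 • (Pi.single j0 1 : Fin d → ℂ) := by
      ext i
      rw [Matrix.mulVec_single_one, Pi.smul_apply, smul_eq_mul, Matrix.col_apply]
      by_cases hi : i = j0
      · rw [hi, Pi.single_eq_same, mul_one]
      · rw [Pi.single_eq_of_ne hi, mul_zero]
        by_contra hc
        have := hσ y i j0 hc
        rw [hyσ] at this
        exact hi this
    rw [h2]
    show (h⁻¹ * A' y * h).mulVec ((h⁻¹).mulVec (Pi.single j0 1)) = _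
    rw [Matrix.mulVec_mulVec, Matrix.mul_assoc, Matrix.mul_assoc, Matrix.mul_nonsing_inv _ hh,
      Matrix.mul_one, ← Matrix.mulVec_mulVec, h3, Matrix.mulVec_smul]
  rw [h1, map_smul]
  rfl

end Vale.Agent.P002
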