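import Vale.Agent.P002.PRoot
import Vale.Agent.P002.PCliff
import Vale.Agent.P002.PFinG
import Vale.Agent.P002.PVN2

/-!
# Irreducible representations of virtually nilpotent groups
-/

namespace Vale.Agent.P002

open Matrix

theorem eqv_twist {Γ : Type} [Group Γ] {n : Type} [Fintype n] [DecidableEq n] (χ : Γ →* ℂˣ)
    {U V : Γ →* Matrix n n ℂ} (h : Eqv U V) : Eqv (twist χ U) (twist χ V) := by
  obtain ⟨k, hk, hUV⟩ := h
  refine ⟨k, hk, fun γ => ?_⟩
  rw [twist_apply, twist_apply, hUV, Matrix.mul_smul, Matrix.smul_mul]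

theorem scal_core {D : Type} [Group D] [Group.FG D] (N₀ : Subgroup D) [N₀.FiniteIndex] (d : ℕ) :
    ∃ (D₁ : Subgroup D) (L : IntermediateField ℚ ℂ) (B : Type)
      (U : B → D →* Matrix (Fin d) (Fin d) ℂ), D₁.FiniteIndex ∧ FiniteDimensional ℚ L ∧
      Finite B ∧ (∀ β g i j, OInt L (U β g i j)) ∧ (∀ β, ∀ g ∈ D₁, U β g = 1) ∧
      ∀ A : D →* Matrix (Fin d) (Fin d) ℂ, Irr A →
        (∀ h ∈ N₀, ∃ c : ℂ, A h = c • (1 : Matrix (Fin d) (Fin d) ℂ)) →
        ∃ (β : B) (τ : D →* ℂˣ), Eqv A (twist τ (U β)) := by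
  classical
  rcases Nat.eq_zero_or_pos d with rfl | hd
  · refine ⟨⊤, ⊥, Empty, fun β => β.elim, inferInstance, inferInstance, inferInstance,
      fun β => β.elim, fun β => β.elim, fun A hA _ => ?_⟩
    obtain ⟨x⟩ := hA.1
    exact x.elim0
  obtain ⟨T, hT, hroot⟩ := char_root D
  have hfgN : Group.FG N₀ := inferInstance
  have hq : 0 < d * T := Nat.mul_pos hd hT
  have : NeZero (d * T) := ⟨hq.ne'⟩
  have hfinH : Finite (N₀ →* rootsOfUnity (d * T) ℂ) := finite_hom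
  let K : Subgroup N₀ := ⨅ p : (N₀ →* rootsOfUnity (d * T) ℂ), p.ker
  have hK : K.FiniteIndex := Subgroup.finiteIndex_iInf fun p => Subgroup.finiteIndex_ker p
  have hK2 : (K.map N₀.subtype).FiniteIndex := by
    refine ⟨?_⟩
    rw [Subgroup.index_map_subtype K]
    exact mul_ne_zero hK.index_ne_zero Subgroup.FiniteIndex.index_ne_zero
  set D₁ : Subgroup D := (K.map N₀.subtype).normalCore with hD₁
  have hD₁f : D₁.FiniteIndex := by rw [hD₁]; infer_instance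
  have hD₁n : D₁.Normal := by rw [hD₁]; infer_instance
  obtain ⟨L, B, U, hL, hB, hU, hcl⟩ := fin_irr (D ⧸ D₁) d
  refine ⟨D₁, L, B, fun β => (U β).comp (QuotientGroup.mk' D₁), hD₁f, hL, hB,
    fun β g i j => hU β _ i j, fun β g hg => ?_, fun A hA hsc => ?_⟩
  · show U β (QuotientGroup.mk' D₁ g) = 1
    rw [QuotientGroup.mk'_apply, (QuotientGroup.eq_one_iff g).mpr hg, map_one]
  · -- the determinant
    have hdet : ∀ g, IsUnit (A g).det := fun g => by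
      have h1 : A g * A g⁻¹ = 1 := by rw [← map_mul, mul_inv_cancel, map_one]
      exact Matrix.isUnit_det_of_right_inverse h1
    let ψ : D →* ℂˣ := MonoidHom.toHomUnits (Matrix.detMonoidHom.comp A)
    have hψ : ∀ g, ((ψ g : ℂˣ) : ℂ) = (A g).det := fun g => rfl
    obtain ⟨τ, hτ⟩ := hroot d hd ψ
    let A₀ : D →* Matrix (Fin d) (Fin d) ℂ := twist τ⁻¹ A
    have hA₀ : ∀ g, A₀ g = (((τ g)⁻¹ : ℂˣ) : ℂ) • A g := fun g => rfl
    have hAA₀ : A = twist τ A₀ := by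
      refine MonoidHom.ext fun g => ?_
      rw [twist_apply, hA₀, smul_smul, ← Units.val_mul, mul_inv_cancel, Units.val_one, one_smul]
    have hA₀i : Irr A₀ := irr_twist.mpr hA
    -- the scalars
    have hex : ∀ h : N₀, ∃ c : ℂ, A₀ h = c • (1 : Matrix (Fin d) (Fin d) ℂ) := by
      intro h
      obtain ⟨c, hc⟩ := hsc h h.2
      exact ⟨(((τ h)⁻¹ : ℂˣ) : ℂ) * c, by rw [hA₀, hc, smul_smul]⟩
    choose c hc using hex
    let i0 : Fin d := ⟨0, hd⟩
    have hcv : ∀ (h : N₀), c h = A₀ h i0 i0 := by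
      intro h
      rw [hc h, Matrix.smul_apply, Matrix.one_apply_eq, smul_eq_mul, mul_one]
    have hcmul : ∀ h h' : N₀, c (h * h') = c h * c h' := by
      intro h h'
      have h1 : A₀ ((h * h' : N₀) : D) = (c h * c h') • (1 : Matrix (Fin d) (Fin d) ℂ) := by
        rw [Subgroup.coe_mul, map_mul, hc h, hc h', Algebra.smul_mul_assoc, one_mul, smul_smul]
      rw [hcv, h1, Matrix.smul_apply, Matrix.one_apply_eq, smul_eq_mul, mul_one]
    have hcone : c 1 = 1 := by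
      rw [hcv, Subgroup.coe_one, map_one, Matrix.one_apply_eq]
    have hcpow : ∀ h : N₀, c h ^ (d * T) = 1 := by
      intro h
      have h1 : (c h) ^ d = (((ψ h * (τ h ^ d)⁻¹ : ℂˣ)) : ℂ) := by
        have h2 : (A₀ h).det = (c h) ^ d := by
          rw [hc h, Matrix.det_smul, Matrix.det_one, mul_one, Fintype.card_fin]
        rw [← h2, hA₀, Matrix.det_smul, Fintype.card_fin, ← hψ, ← inv_pow, Units.val_mul,
          Units.val_pow_eq_pow_val, mul_comm]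
      rw [pow_mul, h1, ← Units.val_pow_eq_pow_val, hτ, Units.val_one]
    let χ : N₀ →* ℂˣ := MonoidHom.toHomUnits
      { toFun := c
        map_one' := hcone
        map_mul' := hcmul }
    have hχ : ∀ h, ((χ h : ℂˣ) : ℂ) = c h := fun _ => rfl
    let χ' : N₀ →* rootsOfUnity (d * T) ℂ := χ.codRestrict _ (fun h => by
      rw [mem_rootsOfUnity]
      apply Units.ext
      rw [Units.val_pow_eq_pow_val, hχ, hcpow, Units.val_one])
    have hker : ∀ g ∈ D₁, A₀ g = 1 := by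
      intro g hg
      obtain ⟨y, hy, hyx⟩ := Subgroup.normalCore_le _ hg
      have h1 : χ' y = 1 := (Subgroup.mem_iInf.mp hy) χ'
      have h2 : χ y = 1 := congrArg Subtype.val h1
      have h3 : c y = 1 := by rw [← hχ, h2, Units.val_one]
      have h4 : g = (y : D) := hyx.symm
      rw [h4, hc y, h3, one_smul]
    -- descend
    let Au : D →* (Matrix (Fin d) (Fin d) ℂ)ˣ := A₀.toHomUnits
    let Abar : D ⧸ D₁ →* (Matrix (Fin d) (Fin d) ℂ)ˣ := QuotientGroup.lift D₁ Au (fun g hg => by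
      apply Units.ext
      exact hker g hg)
    let A₁ : D ⧸ D₁ →* Matrix (Fin d) (Fin d) ℂ := (Units.coeHom _).comp Abar
    have hA₁ : A₁.comp (QuotientGroup.mk' D₁) = A₀ := MonoidHom.ext fun g => rfl
    have hA₁i : Irr A₁ := by
      rw [← irr_pull (QuotientGroup.mk' D₁) (QuotientGroup.mk'_surjective D₁), hA₁]
      exact hA₀i
    obtain ⟨β, hβ⟩ := hcl A₁ hA₁i
    refine ⟨β, τ, ?_⟩
    have h1 : Eqv A₀ ((U β).comp (QuotientGroup.mk' D₁)) := by
      rw [← hA₁]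
      exact (eqv_pull (QuotientGroup.mk' D₁) (QuotientGroup.mk'_surjective D₁) _ _).mpr hβ
    have h2 := eqv_twist τ h1
    rwa [← hAA₀] at h2

theorem finite_above {Γ : Type} [Group Γ] (Γ₀ : Subgroup Γ) [Γ₀.Normal] [Γ₀.FiniteIndex] :
    Finite {Δ : Subgroup Γ // Γ₀ ≤ Δ} := by
  have hfin : Finite (Γ ⧸ Γ₀) := Subgroup.finite_quotient_of_finiteIndex
  have hfin2 : Finite (Subgroup (Γ ⧸ Γ₀)) := inferInstance
  refine Finite.of_injective
    (fun Δ : {Δ : Subgroup Γ // Γ₀ ≤ Δ} => Δ.1.map (QuotientGroup.mk' Γ₀)) ?_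
  intro Δ Δ' h
  have h1 : ∀ Δ : {Δ : Subgroup Γ // Γ₀ ≤ Δ},
      (Δ.1.map (QuotientGroup.mk' Γ₀)).comap (QuotientGroup.mk' Γ₀) = Δ.1 := by
    intro Δ
    rw [Subgroup.comap_map_eq, QuotientGroup.ker_mk']
    exact sup_eq_left.mpr Δ.2
  apply Subtype.ext
  have h2 := congrArg (Subgroup.comap (QuotientGroup.mk' Γ₀)) h
  simp only [h1] at h2
  exact h2

theorem ind_pow {Γ : Type} [Group Γ] (Δ : Subgroup Γ) [Fintype (Γ ⧸ Δ)] {d n : ℕ}
    (e : (Γ ⧸ Δ) × Fin d ≃ Fin n) (A : Δ →* Matrix (Fin d) (Fin d) ℂ) (D₁ : Subgroup Δ)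
    (hA : ∀ g ∈ D₁, A g = 1) (g : Γ) :
    indM Δ e A g ^ ((D₁.map Δ.subtype).normalCore).index = 1 := by
  classical
  set N : Subgroup Γ := (D₁.map Δ.subtype).normalCore with hN
  rw [← map_pow]
  have h1 : g ^ N.index ∈ N := N.pow_index_mem g
  generalize g ^ N.index = x at h1
  have hnorm : N.Normal := by rw [hN]; infer_instance
  have hconj : ∀ y : Γ, ∃ z ∈ D₁, ((z : Δ) : Γ) = y⁻¹ * x * y := by
    intro y
    have h2 : y⁻¹ * x * y ∈ N := by
      have := hnorm.conj_mem x h1 y⁻¹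
      rwa [inv_inv] at this
    obtain ⟨z, hz, hzx⟩ := Subgroup.normalCore_le _ h2
    exact ⟨z, hz, hzx⟩
  have hfix : ∀ c : Γ ⧸ Δ, x • c = c := by
    intro c
    obtain ⟨z, _, hz2⟩ := hconj c.out
    have h3 : (QuotientGroup.mk (x * c.out) : Γ ⧸ Δ) = QuotientGroup.mk c.out := by
      rw [eq_comm]
      refine QuotientGroup.eq.mpr ?_
      rw [← mul_assoc, ← hz2]
      exact z.2
    calc x • c = x • (QuotientGroup.mk c.out : Γ ⧸ Δ) := by rw [QuotientGroup.out_eq']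
      _ = QuotientGroup.mk (x * c.out) := rfl
      _ = QuotientGroup.mk c.out := h3
      _ = c := QuotientGroup.out_eq' c
  ext i j
  rw [indM_apply, hfix]
  by_cases hij : (e.symm i).1 = (e.symm j).1
  · rw [if_pos hij]
    have h3 : kap Δ x (e.symm j).1 ∈ D₁ := by
      obtain ⟨z, hz1, hz2⟩ := hconj (e.symm j).1.out
      have h4 : kap Δ x (e.symm j).1 = z := by
        apply Subtype.ext
        rw [kap_coe, hfix, hz2, mul_assoc]
      rw [h4]
      exact hz1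
    rw [hA _ h3]
    by_cases h4 : i = j
    · rw [h4, Matrix.one_apply_eq, Matrix.one_apply_eq]
    · rw [Matrix.one_apply_ne h4, Matrix.one_apply_ne]
      intro h5
      exact h4 (e.symm.injective (Prod.ext hij h5))
  · rw [if_neg hij, Matrix.one_apply_ne]
    rintro rfl
    exact hij rfl

theorem tb_of_eigen {Γ : Type} [Group Γ] [Group.FG Γ] {n : ℕ} (Γ₀ : Subgroup Γ) [Γ₀.Normal]
    [Γ₀.FiniteIndex]
    (hev : ∀ V : Γ →* Matrix (Fin n) (Fin n) ℂ, Irr V →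
      ∃ v : Fin n → ℂ, v ≠ 0 ∧ ∀ h ∈ Γ₀, ∃ c : ℂ, (V h).mulVec v = c • v) : TB Γ n := by
  classical
  have hfa := finite_above Γ₀
  have hfi : ∀ Δ : {Δ : Subgroup Γ // Γ₀ ≤ Δ}, Δ.1.FiniteIndex := fun Δ =>
    Subgroup.finiteIndex_of_le Δ.2
  have hfg : ∀ Δ : {Δ : Subgroup Γ // Γ₀ ≤ Δ}, Group.FG Δ.1 := fun Δ => by
    have := hfi Δ
    infer_instance
  have hfN : ∀ Δ : {Δ : Subgroup Γ // Γ₀ ≤ Δ}, (Γ₀.subgroupOf Δ.1).FiniteIndex := fun Δ =>
    inferInstance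
  let ft : ∀ Δ : {Δ : Subgroup Γ // Γ₀ ≤ Δ}, Fintype (Γ ⧸ Δ.1) := fun Δ => by
    have := hfi Δ
    exact Subgroup.fintypeQuotientOfFiniteIndex
  choose D₁ L B U hD₁ hL hB hU hU1 hcl using
    fun (p : {Δ : Subgroup Γ // Γ₀ ≤ Δ} × Fin (n + 1)) =>
      @scal_core p.1.1 _ (hfg p.1) (Γ₀.subgroupOf p.1.1) (hfN p.1) (p.2 : ℕ)
  -- index set
  let BB : Type := Σ p : {Δ : Subgroup Γ // Γ₀ ≤ Δ} × Fin (n + 1),
    (((Γ ⧸ p.1.1) × Fin (p.2 : ℕ) ≃ Fin n) × B p)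
  have hBB : Finite BB := by
    have h1 : ∀ p : {Δ : Subgroup Γ // Γ₀ ≤ Δ} × Fin (n + 1),
        Finite (((Γ ⧸ p.1.1) × Fin (p.2 : ℕ) ≃ Fin n) × B p) := by
      intro p
      have := ft p.1
      have := hB p
      infer_instance
    infer_instance
  have : Fintype BB := Fintype.ofFinite BB
  let EE : BB → ℕ := fun β => (((D₁ β.1).map β.1.1.1.subtype).normalCore).index
  have hEE : ∀ β, 0 < EE β := by
    intro β
    have h1 := hfi β.1.1
    have h2 := hD₁ β.1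
    have h3 : ((D₁ β.1).map β.1.1.1.subtype).FiniteIndex := by
      refine ⟨?_⟩
      rw [Subgroup.index_map_subtype]
      exact mul_ne_zero h2.index_ne_zero h1.index_ne_zero
    exact Nat.pos_of_ne_zero Subgroup.FiniteIndex.index_ne_zero
  have hLfd : ∀ p, FiniteDimensional ℚ (L p) := hL
  let UU : BB → Γ →* Matrix (Fin n) (Fin n) ℂ := fun β =>
    let _ := ft β.1.1
    indM β.1.1.1 β.2.1 (U β.1 β.2.2)
  refine ⟨∏ β, EE β, ⨆ p, L p, BB, UU, fun β => Γ ⧸ β.1.1.1,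
    fun β => MulAction.toPermHom Γ (Γ ⧸ β.1.1.1), fun β i => (β.2.1.symm i).1,
    Finset.prod_pos fun β _ => hEE β, inferInstance, hBB, fun β => (ft β.1.1).finite, ?_, ?_, ?_, ?_⟩
  · intro β
    let _ := ft β.1.1
    exact indM_lab β.1.1.1 β.2.1 (U β.1 β.2.2)
  · intro β g
    let _ := ft β.1.1
    obtain ⟨k, hk⟩ := Finset.dvd_prod_of_mem EE (Finset.mem_univ β)
    rw [hk, pow_mul]
    have h1 : UU β g ^ EE β = 1 :=
      ind_pow β.1.1.1 β.2.1 (U β.1 β.2.2) (D₁ β.1) (hU1 β.1 β.2.2) g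
    rw [h1, one_pow]
  · intro β g i j
    let _ := ft β.1.1
    show OInt _ (indM β.1.1.1 β.2.1 (U β.1 β.2.2) g i j)
    rw [indM_apply]
    split_ifs
    · exact (hU β.1 β.2.2 _ _ _).mono (le_iSup L β.1)
    · exact OInt.zero
  · intro V hV
    obtain ⟨Δ, hΔ, hft, d, e, A, hA, hsc, hE⟩ := clifford Γ₀ V hV (hev V hV)
    have hfteq : hft = ft ⟨Δ, hΔ⟩ := Subsingleton.elim _ _
    subst hfteq
    have hd : d < n + 1 := by
      let _ := ft ⟨Δ, hΔ⟩
      have h1 := Fintype.card_congr e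
      rw [Fintype.card_prod, Fintype.card_fin, Fintype.card_fin] at h1
      have h2 : 0 < @Fintype.card (Γ ⧸ Δ) (ft ⟨Δ, hΔ⟩) :=
        @Fintype.card_pos _ (ft ⟨Δ, hΔ⟩) ⟨QuotientGroup.mk 1⟩
      have h3 : d ≤ @Fintype.card (Γ ⧸ Δ) (ft ⟨Δ, hΔ⟩) * d := Nat.le_mul_of_pos_left d h2
      omega
    obtain ⟨β, τ, hβ⟩ := hcl (⟨Δ, hΔ⟩, ⟨d, hd⟩) A hA (fun h hh => hsc h hh)
    let _ := ft ⟨Δ, hΔ⟩
    refine ⟨⟨(⟨Δ, hΔ⟩, ⟨d, hd⟩), e, β⟩,
      indM Δ e (twist τ (U (⟨Δ, hΔ⟩, ⟨d, hd⟩) β)), fun g x => τ (kap Δ g x), coc_kap Δ τ, ?_, ?_⟩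
    · intro g i j
      exact indM_twist Δ e (U (⟨Δ, hΔ⟩, ⟨d, hd⟩) β) τ g i j
    · exact hE.symm'.trans' (indM_eqv Δ e hβ)

/-- potential density for finitely generated virtually nilpotent groups -/
theorem pd_vnil {Γ : Type} [Group Γ] [Group.FG Γ] (N : Subgroup Γ) [N.FiniteIndex]
    (hN : Group.IsNilpotent N) {J : Type} (c : J → Γ) : PD c := by
  refine pd_of_tb (fun n => ?_) c
  obtain ⟨Γ₀, h1, h2, h3⟩ := vnil_eigen N hN n
  exact tb_of_eigen Γ₀ h3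

end Vale.Agent.P002
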