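import Vale.Agent.P002.PAll2
import Vale.Agent.P002.PTBv
import Vale.Agent.P002.FinalC

/-!
# Products of punctured curves with a virtually nilpotent factor
-/

namespace Vale.Agent.P002

open Matrix

theorem curve_iso (g n : ℕ) : ∃ φ : OGroup g n (fun _ => 0) ≃* CGroup g n,
    ∀ k, φ (PresentedGroup.of k) = PresentedGroup.of k := by
  obtain ⟨f, hf⟩ := oGroup_lift (g := g) (n := n) (m := fun _ => 0)
    (fun k => (PresentedGroup.of k : CGroup g n)) (by
      have h1 := lift_mk (MonoidHom.id (CGroup g n)) (cRel g n)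
      simp only [MonoidHom.id_apply] at h1
      rw [h1]
      exact PresentedGroup.one_of_mem (Set.mem_singleton _)) (fun j => pow_zero _)
  have hrel : ∀ w ∈ ({cRel g n} : Set (FreeGroup (CGen g n))),
      FreeGroup.lift (fun k => (PresentedGroup.of k : OGroup g n (fun _ => 0))) w = 1 := by
    intro w hw
    rw [Set.mem_singleton_iff.mp hw]
    exact oGroup_rel g n (fun _ => 0) (MonoidHom.id _)
  let f' : CGroup g n →* OGroup g n (fun _ => 0) := PresentedGroup.toGroup hrel
  have hf' : ∀ k, f' (PresentedGroup.of k) = PresentedGroup.of k := fun k =>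
    PresentedGroup.toGroup.of hrel
  refine ⟨MonoidHom.toMulEquiv f f' ?_ ?_, hf⟩
  · refine PresentedGroup.ext fun k => ?_
    rw [MonoidHom.comp_apply, hf, hf', MonoidHom.id_apply]
  · refine PresentedGroup.ext fun k => ?_
    rw [MonoidHom.comp_apply, hf', hf, MonoidHom.id_apply]

theorem pd_curve (g n : ℕ) (S : Fin n → Prop) (h : 2 ≤ g ∨ n = 0 ∨ ∃ j, ¬ S j) :
    PD (fun j : {j // S j} => cPunct g n j) := by
  classical
  obtain ⟨φ, hφ⟩ := curve_iso g n
  have h1 : PD (fun j : {j // S j} => oPunct g n (fun _ => 0) j) := by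
    refine pd_factor pd_free pd_surf g n (fun _ => 0) S ?_
    rcases h with h | h | ⟨j, hj⟩
    · exact Or.inl h
    · exact Or.inr (Or.inl h)
    · exact Or.inr (Or.inr ⟨j, rfl, hj⟩)
  exact pd_iso φ _ _ (fun j => ⟨j, (hφ _).symm⟩) (fun j => ⟨j, hφ _⟩) h1

theorem pd_curves (s : ℕ) (g n : Fin s → ℕ) (S : ∀ i, Fin (n i) → Prop)
    (h : ∀ i, 2 ≤ g i ∨ n i = 0 ∨ ∃ j, ¬ S i j) :
    PD (fun q : Σ i, {j // S i j} =>
      (Pi.mulSingle q.1 (cPunct (g q.1) (n q.1) q.2.1) : ∀ i, CGroup (g i) (n i))) := by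
  classical
  exact pd_pi s (fun i => CGroup (g i) (n i)) (fun i => inferInstance)
    (fun i => {j // S i j}) (fun i => inferInstance) (fun i j => cPunct (g i) (n i) j.1)
    fun i => pd_curve _ _ _ (h i)

end Vale.Agent.P002
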