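import Vale.Agent.P002.PQuot
import Vale.Agent.P002.PGroups

namespace Vale.Agent.P002

open Matrix

/-- the orbifold fundamental group of a curve of genus `g` with `n` marked points: punctures
(`m j = 0`) and orbifold points of order `m j` -/
abbrev OGroup (g n : ℕ) (m : Fin n → ℕ) : Type :=
  PresentedGroup ({cRel g n} ∪
    Set.range fun j : Fin n => (FreeGroup.of (Sum.inr j) : FreeGroup (CGen g n)) ^ m j)

/-- the loops around the marked points -/
def oPunct (g n : ℕ) (m : Fin n → ℕ) (j : Fin n) : OGroup g n m := PresentedGroup.of (Sum.inr j)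

theorem lift_mk {α : Type} {rels : Set (FreeGroup α)} {G : Type} [Group G]
    (f : PresentedGroup rels →* G) (w : FreeGroup α) :
    FreeGroup.lift (fun k => f (PresentedGroup.of k)) w = f (PresentedGroup.mk rels w) := by
  have : FreeGroup.lift (fun k => f (PresentedGroup.of k)) = f.comp (PresentedGroup.mk rels) :=
    FreeGroup.ext_hom _ _ fun k => by simp [PresentedGroup.of]
  rw [this]; rfl

theorem surj_of_gens {α : Type} {rels : Set (FreeGroup α)} {G : Type} [Group G]
    (f : G →* PresentedGroup rels) (h : ∀ k, PresentedGroup.of k ∈ f.range) :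
    Function.Surjective f := by
  rw [← MonoidHom.range_eq_top, eq_top_iff, ← PresentedGroup.closure_range_of rels,
    Subgroup.closure_le]
  rintro _ ⟨k, rfl⟩
  exact h k

/-- the universal property of the orbifold group -/
theorem oGroup_lift {g n : ℕ} {m : Fin n → ℕ} {G : Type} [Group G] (σ : CGen g n → G)
    (h1 : FreeGroup.lift σ (cRel g n) = 1) (h2 : ∀ j, σ (Sum.inr j) ^ m j = 1) :
    ∃ f : OGroup g n m →* G, ∀ k, f (PresentedGroup.of k) = σ k := by
  have : ∀ w ∈ ({cRel g n} ∪
      Set.range fun j : Fin n => (FreeGroup.of (Sum.inr j) : FreeGroup (CGen g n)) ^ m j),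
      FreeGroup.lift σ w = 1 := by
    rintro w (hw | ⟨j, rfl⟩)
    · rw [Set.mem_singleton_iff.mp hw, h1]
    · simpa using h2 j
  exact ⟨PresentedGroup.toGroup this, fun k => PresentedGroup.toGroup.of this⟩

theorem oGroup_rel (g n : ℕ) (m : Fin n → ℕ) {G : Type} [Group G] (f : OGroup g n m →* G) :
    FreeGroup.lift (fun k => f (PresentedGroup.of k)) (cRel g n) = 1 := by
  rw [lift_mk, PresentedGroup.one_of_mem (Or.inl rfl), map_one]

theorem oGroup_pow (g n : ℕ) (m : Fin n → ℕ) (j : Fin n) : oPunct g n m j ^ m j = 1 := by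
  have : PresentedGroup.mk ({cRel g n} ∪
    Set.range fun j : Fin n => (FreeGroup.of (Sum.inr j) : FreeGroup (CGen g n)) ^ m j)
      ((FreeGroup.of (Sum.inr j) : FreeGroup (CGen g n)) ^ m j) = 1 :=
    PresentedGroup.one_of_mem (Or.inr ⟨j, rfl⟩)
  rw [map_pow] at this
  exact this

/-- potential density for orbifold groups all whose punctures are marked -/
theorem pd_orb (g n : ℕ) (m : Fin n → ℕ) (S : Fin n → Prop) (hS : ∀ j, m j = 0 → S j)
    (h : PD (cPunct g n)) : PD (fun j : {j // S j} => oPunct g n m j) := by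
  have hrel : ∀ w ∈ ({cRel g n} : Set (FreeGroup (CGen g n))),
      FreeGroup.lift (fun k => (PresentedGroup.of k : OGroup g n m)) w = 1 := by
    intro w hw
    rw [Set.mem_singleton_iff.mp hw]
    exact oGroup_rel g n m (MonoidHom.id _)
  refine pd_quot (PresentedGroup.toGroup hrel) ?_ (cPunct g n) _ m ?_ ?_ ?_ ?_ h
  · exact surj_of_gens _ fun k => ⟨PresentedGroup.of k, PresentedGroup.toGroup.of hrel⟩
  · intro G _ f hf
    obtain ⟨f', hf'⟩ := oGroup_lift (m := m) (fun k => f (PresentedGroup.of k)) (by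
      rw [lift_mk, PresentedGroup.one_of_mem (Set.mem_singleton (cRel g n)), map_one]) hf
    refine ⟨f', PresentedGroup.ext fun k => ?_⟩
    rw [MonoidHom.comp_apply, PresentedGroup.toGroup.of, hf']
  · intro j
    exact (congrArg (· ^ m j) (PresentedGroup.toGroup.of hrel)).trans (oGroup_pow g n m j)
  · intro j hj
    exact ⟨⟨j, hS j hj⟩, (PresentedGroup.toGroup.of hrel).symm⟩
  · rintro ⟨j, hj⟩
    exact ⟨j, PresentedGroup.toGroup.of hrel⟩

/-- splitting a product over `Fin n` at `j0` -/
theorem orb_prod_split {n : ℕ} (j0 : Fin n) {G : Type} [Group G] (f : Fin n → G) :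
    (List.ofFn f).prod = ((List.ofFn f).take j0).prod * f j0 *
      ((List.ofFn f).drop (j0 + 1)).prod := by
  have h1 := List.prod_take_mul_prod_drop (List.ofFn f) (j0 + 1)
  have hj : (j0 : ℕ) < (List.ofFn f).length := by simp
  rw [List.prod_take_succ _ _ hj] at h1
  rw [← h1]
  congr 2
  simp

theorem orb_take_congr {n : ℕ} (j0 : Fin n) {G : Type} {f f' : Fin n → G}
    (h : ∀ j, j ≠ j0 → f j = f' j) : (List.ofFn f).take j0 = (List.ofFn f').take j0 := by
  refine List.ext_getElem (by simp) fun i h1 h2 => ?_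
  rw [List.getElem_take, List.getElem_take, List.getElem_ofFn, List.getElem_ofFn]
  refine h _ fun hc => ?_
  have h3 : i < j0 := by
    rw [List.length_take] at h1
    omega
  have h4 := congrArg Fin.val hc
  simp at h4
  omega

theorem orb_drop_congr {n : ℕ} (j0 : Fin n) {G : Type} {f f' : Fin n → G}
    (h : ∀ j, j ≠ j0 → f j = f' j) :
    (List.ofFn f).drop (j0 + 1) = (List.ofFn f').drop (j0 + 1) := by
  refine List.ext_getElem (by simp) fun i h1 h2 => ?_
  rw [List.getElem_drop, List.getElem_drop, List.getElem_ofFn, List.getElem_ofFn]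
  refine h _ fun hc => ?_
  have h4 := congrArg Fin.val hc
  simp at h4
  omega

theorem orb_take_mem {n : ℕ} (j0 : Fin n) {G : Type} [Group G] (H : Subgroup G) {f : Fin n → G}
    (h : ∀ j, j ≠ j0 → f j ∈ H) : ((List.ofFn f).take j0).prod ∈ H := by
  refine Subgroup.list_prod_mem _ fun x hx => ?_
  obtain ⟨i, hi, rfl⟩ := List.mem_iff_getElem.mp hx
  rw [List.getElem_take, List.getElem_ofFn]
  refine h _ fun hc => ?_
  rw [List.length_take] at hi
  have h4 := congrArg Fin.val hc
  simp at h4
  omega

theorem orb_drop_mem {n : ℕ} (j0 : Fin n) {G : Type} [Group G] (H : Subgroup G) {f : Fin n → G}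
    (h : ∀ j, j ≠ j0 → f j ∈ H) : ((List.ofFn f).drop (j0 + 1)).prod ∈ H := by
  refine Subgroup.list_prod_mem _ fun x hx => ?_
  obtain ⟨i, hi, rfl⟩ := List.mem_iff_getElem.mp hx
  rw [List.getElem_drop, List.getElem_ofFn]
  refine h _ fun hc => ?_
  have h4 := congrArg Fin.val hc
  simp at h4
  omega

theorem lift_cRel {g n : ℕ} {G : Type} [Group G] (σ : CGen g n → G) :
    FreeGroup.lift σ (cRel g n) =
      (List.ofFn fun i : Fin g => σ (Sum.inl (i, false)) * σ (Sum.inl (i, true)) *
        (σ (Sum.inl (i, false)))⁻¹ * (σ (Sum.inl (i, true)))⁻¹).prod *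
      (List.ofFn fun j : Fin n => σ (Sum.inr j)).prod := by
  unfold cRel
  rw [map_mul, map_list_prod, map_list_prod, List.map_ofFn, List.map_ofFn]
  congr 3
  · funext i
    simp [Function.comp]
  · funext i
    simp [Function.comp]

/-- potential density for orbifold groups with an unmarked puncture -/
theorem pd_open (g n : ℕ) (m : Fin n → ℕ) (S : Fin n → Prop) (j0 : Fin n) (hm0 : m j0 = 0)
    (hj0 : ¬ S j0)
    (h : ∀ N l : ℕ, PD (fun j : Fin l => (FreeGroup.of (Sum.inr j) : FreeGroup (Fin N ⊕ Fin l)))) :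
    PD (fun j : {j // S j} => oPunct g n m j) := by
  classical
  -- the two kinds of free generators
  let A : Type := (Fin g × Bool) ⊕ {j : Fin n // ¬ (m j ≠ 0 ∨ S j) ∧ j ≠ j0}
  let B : Type := {j : Fin n // m j ≠ 0 ∨ S j}
  have hjB : ∀ j : Fin n, (m j ≠ 0 ∨ S j) → j ≠ j0 := by
    rintro j hj rfl
    exact hj.elim (fun h => h hm0) hj0
  let eA : A ≃ Fin (Fintype.card A) := Fintype.equivFin A
  let eB : B ≃ Fin (Fintype.card B) := Fintype.equivFin B
  let F : Type := FreeGroup (Fin (Fintype.card A) ⊕ Fin (Fintype.card B))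
  -- the generators of the orbifold group
  let gA : A → CGen g n := Sum.elim Sum.inl fun j => Sum.inr j.1
  let gB : B → CGen g n := fun j => Sum.inr j.1
  let pf : (Fin (Fintype.card A) ⊕ Fin (Fintype.card B)) → OGroup g n m :=
    Sum.elim (fun x => PresentedGroup.of (gA (eA.symm x))) (fun y => PresentedGroup.of (gB (eB.symm y)))
  let p : F →* OGroup g n m := FreeGroup.lift pf
  -- the free generator corresponding to a generator different from `j0`
  let back : CGen g n → Fin (Fintype.card A) ⊕ Fin (Fintype.card B) → Prop := fun k x =>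
    Sum.elim (fun x => gA (eA.symm x)) (fun y => gB (eB.symm y)) x = k
  have hback : ∀ k : CGen g n, k ≠ Sum.inr j0 →
      ∃ x : Fin (Fintype.card A) ⊕ Fin (Fintype.card B),
        Sum.elim (fun x => gA (eA.symm x)) (fun y => gB (eB.symm y)) x = k := by
    rintro (k | j) hk
    · exact ⟨Sum.inl (eA (Sum.inl k)), by simp [gA]⟩
    · have hj : j ≠ j0 := fun h => hk (by rw [h])
      by_cases hjm : m j ≠ 0 ∨ S j
      · exact ⟨Sum.inr (eB ⟨j, hjm⟩), by simp [gB]⟩
      · exact ⟨Sum.inl (eA (Sum.inr ⟨j, hjm, hj⟩)), by simp [gA]⟩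
  have hpx : ∀ x, p (FreeGroup.of x) =
      PresentedGroup.of (Sum.elim (fun x => gA (eA.symm x)) (fun y => gB (eB.symm y)) x) := by
    intro x
    show FreeGroup.lift pf (FreeGroup.of x) = _
    rw [FreeGroup.lift_apply_of]
    rcases x with x | y <;> rfl
  have hrange : ∀ k : CGen g n, k ≠ Sum.inr j0 → PresentedGroup.of k ∈ p.range := by
    intro k hk
    obtain ⟨x, hx⟩ := hback k hk
    exact ⟨FreeGroup.of x, by rw [hpx, hx]⟩
  -- the section on generators
  choose bk hbk using hback
  have hinj : ∀ x y : Fin (Fintype.card A) ⊕ Fin (Fintype.card B),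
      Sum.elim (fun x => gA (eA.symm x)) (fun y => gB (eB.symm y)) x =
      Sum.elim (fun x => gA (eA.symm x)) (fun y => gB (eB.symm y)) y → x = y := by
    have hgA : Function.Injective gA := by
      rintro (a | a) (b | b) hab
      · simp only [gA, Sum.elim_inl, Sum.inl.injEq] at hab
        rw [hab]
      · simp [gA] at hab
      · simp [gA] at hab
      · simp only [gA, Sum.elim_inr, Sum.inr.injEq] at hab
        rw [Subtype.ext hab]
    have hgB : Function.Injective gB := by
      rintro a b hab
      simp only [gB, Sum.inr.injEq] at hab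
      exact Subtype.ext hab
    have hgAB : ∀ a b, gA a ≠ gB b := by
      rintro (a | a) b hab
      · simp [gA, gB] at hab
      · simp only [gA, gB, Sum.elim_inr, Sum.inr.injEq] at hab
        exact a.2.1 (hab ▸ b.2)
    rintro (x | x) (y | y) hxy
    · simp only [Sum.elim_inl] at hxy
      rw [eA.symm.injective (hgA hxy)]
    · simp only [Sum.elim_inl, Sum.elim_inr] at hxy
      exact absurd hxy (hgAB _ _)
    · simp only [Sum.elim_inl, Sum.elim_inr] at hxy
      exact absurd hxy.symm (hgAB _ _)
    · simp only [Sum.elim_inr] at hxy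
      rw [eB.symm.injective (hgB hxy)]
  have hne : ∀ x, Sum.elim (fun x => gA (eA.symm x)) (fun y => gB (eB.symm y)) x ≠ Sum.inr j0 := by
    rintro (x | y)
    · simp only [Sum.elim_inl]
      rcases eA.symm x with a | a
      · simp [gA]
      · simp only [gA, Sum.elim_inr, ne_eq, Sum.inr.injEq]
        exact a.2.2
    · simp only [Sum.elim_inr, gB, ne_eq, Sum.inr.injEq]
      exact hjB _ (eB.symm y).2
  refine pd_quot p ?_ (fun j : Fin (Fintype.card B) => (FreeGroup.of (Sum.inr j) : F)) _
    (fun y => m (eB.symm y).1) ?_ ?_ ?_ ?_ (h _ _)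
  · -- surjectivity
    refine surj_of_gens p fun k => ?_
    by_cases hk : k = Sum.inr j0
    · subst hk
      have h1 := oGroup_rel g n m (MonoidHom.id _)
      rw [lift_cRel, orb_prod_split j0] at h1
      simp only [MonoidHom.id_apply] at h1
      set a := (List.ofFn fun i : Fin g => (PresentedGroup.of (Sum.inl (i, false)) : OGroup g n m) *
        PresentedGroup.of (Sum.inl (i, true)) * (PresentedGroup.of (Sum.inl (i, false)))⁻¹ *
        (PresentedGroup.of (Sum.inl (i, true)))⁻¹).prod with ha
      set b := ((List.ofFn fun j : Fin n => (PresentedGroup.of (Sum.inr j) : OGroup g n m)).take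
        j0).prod with hb
      set d := ((List.ofFn fun j : Fin n => (PresentedGroup.of (Sum.inr j) : OGroup g n m)).drop
        (j0 + 1)).prod with hd
      have ha' : a ∈ p.range := by
        refine Subgroup.list_prod_mem _ fun x hx => ?_
        rw [List.mem_ofFn] at hx
        obtain ⟨i, rfl⟩ := hx
        have e1 := hrange (Sum.inl (i, false)) (by simp)
        have e2 := hrange (Sum.inl (i, true)) (by simp)
        exact mul_mem (mul_mem (mul_mem e1 e2) (inv_mem e1)) (inv_mem e2)
      have hb' : b ∈ p.range := orb_take_mem j0 _ fun j hj => hrange _ (by simpa using hj)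
      have hd' : d ∈ p.range := orb_drop_mem j0 _ fun j hj => hrange _ (by simpa using hj)
      have h2 : (PresentedGroup.of (Sum.inr j0) : OGroup g n m) = (a * b)⁻¹ * d⁻¹ := by
        have h3 : a * b * PresentedGroup.of (Sum.inr j0) * d = 1 := by
          rw [← h1]; simp only [mul_assoc]
        calc (PresentedGroup.of (Sum.inr j0) : OGroup g n m)
            = (a * b)⁻¹ * (a * b * PresentedGroup.of (Sum.inr j0) * d) * d⁻¹ := by group
          _ = (a * b)⁻¹ * d⁻¹ := by rw [h3, mul_one]
      rw [h2]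
      exact mul_mem (inv_mem (mul_mem ha' hb')) (inv_mem hd')
    · exact hrange k hk
  · -- factorisation
    intro G _ f hf
    let σ0 : CGen g n → G := fun k => if hk : k = Sum.inr j0 then 1 else f (FreeGroup.of (bk k hk))
    let a : G := (List.ofFn fun i : Fin g => σ0 (Sum.inl (i, false)) * σ0 (Sum.inl (i, true)) *
        (σ0 (Sum.inl (i, false)))⁻¹ * (σ0 (Sum.inl (i, true)))⁻¹).prod
    let b : G := ((List.ofFn fun j : Fin n => σ0 (Sum.inr j)).take j0).prod
    let d : G := ((List.ofFn fun j : Fin n => σ0 (Sum.inr j)).drop (j0 + 1)).prod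
    let σ : CGen g n → G := fun k => if k = Sum.inr j0 then (a * b)⁻¹ * d⁻¹ else σ0 k
    have hσ : ∀ k, k ≠ Sum.inr j0 → σ k = σ0 k := fun k hk => by simp [σ, hk]
    have hσ0 : ∀ k (hk : k ≠ Sum.inr j0), σ0 k = f (FreeGroup.of (bk k hk)) := fun k hk => by
      simp [σ0, hk]
    obtain ⟨f', hf'⟩ := oGroup_lift (m := m) σ (by
      rw [lift_cRel, orb_prod_split j0]
      have e1 : (List.ofFn fun i : Fin g => σ (Sum.inl (i, false)) * σ (Sum.inl (i, true)) *
        (σ (Sum.inl (i, false)))⁻¹ * (σ (Sum.inl (i, true)))⁻¹).prod = a := by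
        refine congrArg (fun t : Fin g → G => (List.ofFn t).prod) (funext fun i => ?_)
        rw [hσ _ (by simp), hσ _ (by simp)]
      have e2 : ((List.ofFn fun j : Fin n => σ (Sum.inr j)).take j0).prod = b := by
        simp only [b]
        rw [orb_take_congr j0 (f := fun j : Fin n => σ (Sum.inr j)) (f' := fun j => σ0 (Sum.inr j))
          fun j hj => hσ _ (by simpa using hj)]
      have e3 : ((List.ofFn fun j : Fin n => σ (Sum.inr j)).drop (j0 + 1)).prod = d := by
        simp only [d]
        rw [orb_drop_congr j0 (f := fun j : Fin n => σ (Sum.inr j)) (f' := fun j => σ0 (Sum.inr j))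
          fun j hj => hσ _ (by simpa using hj)]
      have e4 : σ (Sum.inr j0) = (a * b)⁻¹ * d⁻¹ := by simp [σ]
      rw [e1, e2, e3, e4]
      group) (by
      intro j
      by_cases hj : j = j0
      · subst hj
        rw [hm0, pow_zero]
      · have hj' : (Sum.inr j : CGen g n) ≠ Sum.inr j0 := by simpa using hj
        by_cases hjm : m j ≠ 0 ∨ S j
        · rw [hσ _ hj', hσ0 _ hj']
          have e1 : bk (Sum.inr j) hj' = Sum.inr (eB ⟨j, hjm⟩) := by
            apply hinj
            rw [hbk]
            simp [gB]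
          rw [e1]
          have := hf (eB ⟨j, hjm⟩)
          simpa using this
        · push Not at hjm
          rw [hjm.1, pow_zero])
    refine ⟨f', FreeGroup.ext_hom _ _ fun x => ?_⟩
    rw [MonoidHom.comp_apply, hpx, hf', hσ _ (hne x), hσ0 _ (hne x)]
    congr 2
    exact hinj _ _ (hbk _ (hne x))
  · intro y
    show p (FreeGroup.of (Sum.inr y)) ^ m (eB.symm y).1 = 1
    rw [hpx]
    exact oGroup_pow g n m _
  · intro y hy
    have hy' : m (eB.symm y).1 = 0 := hy
    have h1 := (eB.symm y).2
    exact ⟨⟨(eB.symm y).1, h1.resolve_left (fun h => h hy')⟩, (hpx (Sum.inr y)).symm⟩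
  · rintro ⟨j, hj⟩
    refine ⟨eB ⟨j, Or.inr hj⟩, ?_⟩
    show p (FreeGroup.of (Sum.inr (eB ⟨j, Or.inr hj⟩))) = _
    rw [hpx]
    simp only [Sum.elim_inr, Equiv.symm_apply_apply]
    rfl

/-- the sphere -/
theorem pd_sphere (m : Fin 0 → ℕ) (S : Fin 0 → Prop) :
    PD (fun j : {j // S j} => oPunct 0 0 m j) := by
  have : Subsingleton (OGroup 0 0 m) := by
    refine ⟨fun x y => ?_⟩
    obtain ⟨x, rfl⟩ := PresentedGroup.mk_surjective _ x
    obtain ⟨y, rfl⟩ := PresentedGroup.mk_surjective _ y
    rw [Subsingleton.elim x y]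
  exact pd_subsingleton _

/-- curves of genus one -/
theorem pd_torus (m : Fin 0 → ℕ) (S : Fin 0 → Prop)
    (h : PD (fun j : Fin 0 => (FreeGroup.of (Sum.inr j) : FreeGroup (Fin 1 ⊕ Fin 0)))) :
    PD (fun j : {j // S j} => oPunct 1 0 m j) := by
  let x0 : OGroup 1 0 m := PresentedGroup.of (Sum.inl (0, false))
  let x1 : OGroup 1 0 m := PresentedGroup.of (Sum.inl (0, true))
  have hc : Commute x0 x1 := by
    have h1 := oGroup_rel 1 0 m (MonoidHom.id _)
    rw [lift_cRel] at h1
    simp only [List.ofFn_succ, List.ofFn_zero, List.prod_cons, List.prod_nil, mul_one,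
      MonoidHom.id_apply] at h1
    exact mul_inv_eq_iff_eq_mul.mp (mul_inv_eq_one.mp h1)
  let f0 : FreeGroup (Fin 1 ⊕ Fin 0) →* OGroup 1 0 m := FreeGroup.lift fun _ => x0
  let f1 : FreeGroup (Fin 1 ⊕ Fin 0) →* OGroup 1 0 m := FreeGroup.lift fun _ => x1
  have hf0 : ∀ x, f0 x ∈ Subgroup.zpowers x0 := fun x => by
    induction x using FreeGroup.induction_on with
    | C1 => rw [map_one]; exact one_mem _
    | of x => simp only [f0, FreeGroup.lift_apply_of]; exact Subgroup.mem_zpowers _
    | inv_of x h => rw [map_inv]; exact inv_mem h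
    | mul x y hx hy => rw [map_mul]; exact mul_mem hx hy
  have hf1 : ∀ x, f1 x ∈ Subgroup.zpowers x1 := fun x => by
    induction x using FreeGroup.induction_on with
    | C1 => rw [map_one]; exact one_mem _
    | of x => simp only [f1, FreeGroup.lift_apply_of]; exact Subgroup.mem_zpowers _
    | inv_of x h => rw [map_inv]; exact inv_mem h
    | mul x y hx hy => rw [map_mul]; exact mul_mem hx hy
  have hcomm : ∀ x y, Commute (f0 x) (f1 y) := by
    intro x y
    obtain ⟨i, hi⟩ := Subgroup.mem_zpowers_iff.mp (hf0 x)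
    obtain ⟨j, hj⟩ := Subgroup.mem_zpowers_iff.mp (hf1 y)
    rw [← hi, ← hj]
    exact hc.zpow_zpow i j
  refine pd_quot (MonoidHom.noncommCoprod f0 f1 hcomm) ?_ _ _ (fun _ => 0) ?_
    (fun j => pow_zero _) ?_ ?_ (pd_prod h h)
  · refine surj_of_gens _ fun k => ?_
    rcases k with ⟨i, b⟩ | j
    · rw [Subsingleton.elim i 0]
      cases b
      · refine ⟨(FreeGroup.of (Sum.inl 0), 1), ?_⟩
        rw [MonoidHom.noncommCoprod_apply, map_one, mul_one]
        exact FreeGroup.lift_apply_of
      · refine ⟨(1, FreeGroup.of (Sum.inl 0)), ?_⟩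
        rw [MonoidHom.noncommCoprod_apply, map_one, one_mul]
        exact FreeGroup.lift_apply_of
    · exact j.elim0
  · intro G _ f _
    have h3 : Commute (f (FreeGroup.of (Sum.inl 0), 1)) (f (1, FreeGroup.of (Sum.inl 0))) := by
      show _ * _ = _ * _
      rw [← map_mul, ← map_mul]
      simp
    obtain ⟨f', hf'⟩ := oGroup_lift (g := 1) (n := 0) (m := m)
      (Sum.elim (fun k => if k.2 then f (1, FreeGroup.of (Sum.inl 0)) else
        f (FreeGroup.of (Sum.inl 0), 1)) (fun j => j.elim0)) (by
        rw [lift_cRel]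
        simp only [List.ofFn_succ, List.ofFn_zero, List.prod_cons, List.prod_nil, mul_one,
          Sum.elim_inl, Bool.false_eq_true, if_false, if_true]
        rw [h3.eq]
        group) (fun j => j.elim0)
    have e0 : f' x0 = f (FreeGroup.of (Sum.inl 0), 1) := by
      simp only [x0]
      rw [hf']; simp
    have e1 : f' x1 = f (1, FreeGroup.of (Sum.inl 0)) := by
      simp only [x1]
      rw [hf']; simp
    refine ⟨f', ?_⟩
    have k0 : f'.comp f0 = f.comp (MonoidHom.inl _ _) := by
      refine FreeGroup.ext_hom _ _ fun x => ?_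
      rcases x with x | x
      · rw [Subsingleton.elim x 0]
        simp [f0, e0]
      · exact x.elim0
    have k1 : f'.comp f1 = f.comp (MonoidHom.inr _ _) := by
      refine FreeGroup.ext_hom _ _ fun x => ?_
      rcases x with x | x
      · rw [Subsingleton.elim x 0]
        simp [f1, e1]
      · exact x.elim0
    refine MonoidHom.ext fun z => ?_
    obtain ⟨x, y⟩ := z
    have l0 := DFunLike.congr_fun k0 x
    have l1 := DFunLike.congr_fun k1 y
    rw [MonoidHom.comp_apply, MonoidHom.noncommCoprod_apply, map_mul]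
    simp only [MonoidHom.comp_apply] at l0 l1
    rw [l0, l1, ← map_mul]
    simp
  · rintro (j | j) _ <;> exact j.elim0
  · rintro ⟨j, _⟩
    exact j.elim0

end Vale.Agent.P002
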