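import Vale.Agent.P002.PIrr

namespace Vale.Agent.P002

open Matrix

theorem OInt.mul {L : IntermediateField ℚ ℂ} {x y : ℂ} (hx : OInt L x) (hy : OInt L y) :
    OInt L (x * y) := ⟨L.mul_mem hx.1 hy.1, hx.2.mul hy.2⟩

theorem OInt.add {L : IntermediateField ℚ ℂ} {x y : ℂ} (hx : OInt L x) (hy : OInt L y) :
    OInt L (x + y) := ⟨L.add_mem hx.1 hy.1, hx.2.add hy.2⟩

theorem OInt.zero {L : IntermediateField ℚ ℂ} : OInt L 0 := ⟨L.zero_mem, isIntegral_zero⟩

theorem OInt.one {L : IntermediateField ℚ ℂ} : OInt L 1 := ⟨L.one_mem, isIntegral_one⟩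

theorem OInt.mono {L L' : IntermediateField ℚ ℂ} (h : L ≤ L') {x : ℂ} (hx : OInt L x) :
    OInt L' x := ⟨h hx.1, hx.2⟩

theorem ConjM.symm {n : Type} [Fintype n] [DecidableEq n] {A B : Matrix n n ℂ} (h : ConjM A B) :
    ConjM B A := by
  obtain ⟨h, hh, rfl⟩ := h
  refine ⟨h⁻¹, ?_, ?_⟩
  · rw [Matrix.det_nonsing_inv]
    exact hh.ringInverse
  · rw [Matrix.nonsing_inv_nonsing_inv _ hh]
    simp only [← Matrix.mul_assoc, Matrix.nonsing_inv_mul _ hh, Matrix.one_mul]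
    rw [Matrix.mul_assoc, Matrix.nonsing_inv_mul _ hh, Matrix.mul_one]

theorem ConjM.trans {n : Type} [Fintype n] [DecidableEq n] {A B C : Matrix n n ℂ} (h : ConjM A B)
    (h' : ConjM B C) : ConjM A C := by
  obtain ⟨h, hh, rfl⟩ := h
  obtain ⟨h', hh', rfl⟩ := h'
  refine ⟨h' * h, by rw [Matrix.det_mul]; exact hh'.mul hh, ?_⟩
  rw [Matrix.mul_inv_rev]
  simp only [Matrix.mul_assoc]

theorem Eqv.conjM {Γ : Type} [Group Γ] {n : Type} [Fintype n] [DecidableEq n]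
    {ρ ρ' : Γ →* Matrix n n ℂ} (h : Eqv ρ ρ') (γ : Γ) : ConjM (ρ γ) (ρ' γ) := by
  obtain ⟨h, hh, hr⟩ := h
  exact ⟨h, hh, hr γ⟩

theorem ConjM.det {n : Type} [Fintype n] [DecidableEq n] {A B : Matrix n n ℂ} (h : ConjM A B) :
    A.det = B.det := by
  obtain ⟨h, hh, rfl⟩ := h
  rw [Matrix.det_mul, Matrix.det_mul, Matrix.det_nonsing_inv, mul_right_comm,
    Ring.mul_inverse_cancel _ hh, one_mul]

theorem ConjM.charpoly {n : Type} [Fintype n] [DecidableEq n] {A B : Matrix n n ℂ}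
    (h : ConjM A B) : A.charpoly = B.charpoly := by
  obtain ⟨h, hh, rfl⟩ := h
  have hu : IsUnit h := (Matrix.isUnit_iff_isUnit_det _).mpr hh
  obtain ⟨u, rfl⟩ := hu
  exact (Matrix.charpoly_units_conj u A).symm

section kron
variable {p q n : Type} [Fintype p] [DecidableEq p] [Fintype q] [DecidableEq q] [Fintype n]
  [DecidableEq n] (e : p × q ≃ n)

/-- external product of matrices -/
noncomputable def kr (A : Matrix p p ℂ) (B : Matrix q q ℂ) : Matrix n n ℂ :=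
  Matrix.reindex e e (Matrix.kroneckerMap (· * ·) A B)

theorem kr_apply (A : Matrix p p ℂ) (B : Matrix q q ℂ) (i j : n) :
    kr e A B i j = A (e.symm i).1 (e.symm j).1 * B (e.symm i).2 (e.symm j).2 := rfl

theorem kr_mul (A A' : Matrix p p ℂ) (B B' : Matrix q q ℂ) :
    kr e (A * A') (B * B') = kr e A B * kr e A' B' := by
  unfold kr
  rw [Matrix.reindex_apply, Matrix.reindex_apply, Matrix.reindex_apply,
    Matrix.submatrix_mul_equiv]
  congr 1
  exact Matrix.mul_kronecker_mul A A' B B'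

theorem kr_one : kr e (1 : Matrix p p ℂ) (1 : Matrix q q ℂ) = 1 := by
  unfold kr
  have : (Matrix.kroneckerMap (· * ·) (1 : Matrix p p ℂ) (1 : Matrix q q ℂ)) = 1 :=
    Matrix.one_kronecker_one
  rw [this, Matrix.reindex_apply]
  exact Matrix.submatrix_one_equiv e.symm

theorem kr_det (A : Matrix p p ℂ) (B : Matrix q q ℂ) :
    (kr e A B).det = A.det ^ Fintype.card q * B.det ^ Fintype.card p := by
  unfold kr
  rw [Matrix.det_reindex_self]
  exact Matrix.det_kronecker A B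

theorem kr_conj {A A' : Matrix p p ℂ} {B B' : Matrix q q ℂ} (hA : ConjM A A') (hB : ConjM B B') :
    ConjM (kr e A B) (kr e A' B') := by
  obtain ⟨h, hh, rfl⟩ := hA
  obtain ⟨h', hh', rfl⟩ := hB
  refine ⟨kr e h h', ?_, ?_⟩
  · rw [kr_det]
    exact (hh.pow _).mul (hh'.pow _)
  · have hinv : (kr e h h')⁻¹ = kr e h⁻¹ h'⁻¹ := by
      apply Matrix.inv_eq_right_inv
      rw [← kr_mul, Matrix.mul_nonsing_inv _ hh, Matrix.mul_nonsing_inv _ hh', kr_one]
    rw [hinv, ← kr_mul, ← kr_mul]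

theorem ConjM.refl (A : Matrix n n ℂ) : ConjM A A := ⟨1, by simp, by simp⟩

theorem qu_of_kr_left {M : ℕ} {A : Matrix p p ℂ} [Nonempty q]
    (h : QU M (kr e A (1 : Matrix q q ℂ))) : QU M A := by
  intro μ hμ
  refine h μ ?_
  rw [Polynomial.IsRoot, Matrix.eval_charpoly] at hμ ⊢
  have h1 : scalar n μ - kr e A (1 : Matrix q q ℂ) = kr e (scalar p μ - A) (1 : Matrix q q ℂ) := by
    ext i j
    simp only [Matrix.sub_apply, kr_apply, Matrix.scalar_apply, Matrix.diagonal_apply,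
      Matrix.one_apply]
    by_cases hij : i = j
    · subst hij; simp
    · rw [if_neg hij]
      by_cases h1 : (e.symm i).1 = (e.symm j).1
      · have h2 : (e.symm i).2 ≠ (e.symm j).2 := fun h2 => hij (e.symm.injective (Prod.ext h1 h2))
        rw [if_neg h2, mul_zero, mul_zero, sub_zero]
      · rw [if_neg h1]
        ring
  rw [h1, kr_det, hμ, zero_pow Fintype.card_ne_zero, zero_mul]

theorem qu_of_kr_right {M : ℕ} {B : Matrix q q ℂ} [Nonempty p]
    (h : QU M (kr e (1 : Matrix p p ℂ) B)) : QU M B := by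
  intro μ hμ
  refine h μ ?_
  rw [Polynomial.IsRoot, Matrix.eval_charpoly] at hμ ⊢
  have h1 : scalar n μ - kr e (1 : Matrix p p ℂ) B = kr e (1 : Matrix p p ℂ) (scalar q μ - B) := by
    ext i j
    simp only [Matrix.sub_apply, kr_apply, Matrix.scalar_apply, Matrix.diagonal_apply,
      Matrix.one_apply]
    by_cases hij : i = j
    · subst hij; simp
    · rw [if_neg hij]
      by_cases h1 : (e.symm i).2 = (e.symm j).2
      · have h2 : (e.symm i).1 ≠ (e.symm j).1 := fun h2 => hij (e.symm.injective (Prod.ext h2 h1))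
        rw [if_neg h2, zero_mul, zero_mul, sub_zero]
      · rw [if_neg h1]
        ring
  rw [h1, kr_det, hμ, zero_pow Fintype.card_ne_zero, mul_zero]

theorem QU.conj {M : ℕ} {A B : Matrix n n ℂ} (h : ConjM A B) (hA : QU M A) : QU M B := by
  intro μ hμ
  rw [← h.charpoly] at hμ
  exact hA μ hμ

end kron

theorem kronHom_kr {Γ1 Γ2 : Type} [Group Γ1] [Group Γ2] {p q n : Type} [Fintype p] [DecidableEq p]
    [Fintype q] [DecidableEq q] [Fintype n] [DecidableEq n] (e : p × q ≃ n)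
    (A : Γ1 →* Matrix p p ℂ) (B : Γ2 →* Matrix q q ℂ) (γ1 : Γ1) (γ2 : Γ2) :
    kronHom e A B (γ1, γ2) = kr e (A γ1) (B γ2) := kronHom_apply e A B (γ1, γ2)

theorem eqv_kron {Γ1 Γ2 : Type} [Group Γ1] [Group Γ2] {p q n : Type} [Fintype p] [DecidableEq p]
    [Fintype q] [DecidableEq q] [Fintype n] [DecidableEq n] (e : p × q ≃ n)
    {A A' : Γ1 →* Matrix p p ℂ} {B B' : Γ2 →* Matrix q q ℂ} (hA : Eqv A A') (hB : Eqv B B') :
    Eqv (kronHom e A B) (kronHom e A' B') := by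
  obtain ⟨h, hh, hA⟩ := hA
  obtain ⟨h', hh', hB⟩ := hB
  refine ⟨kr e h h', ?_, ?_⟩
  · rw [kr_det]
    exact (hh.pow _).mul (hh'.pow _)
  · have hinv : (kr e h h')⁻¹ = kr e h⁻¹ h'⁻¹ := by
      apply Matrix.inv_eq_right_inv
      rw [← kr_mul, Matrix.mul_nonsing_inv _ hh, Matrix.mul_nonsing_inv _ hh', kr_one]
    rintro ⟨γ1, γ2⟩
    rw [kronHom_kr, kronHom_kr, hA, hB, hinv, ← kr_mul, ← kr_mul]

theorem Eqv.refl {Γ : Type} [Group Γ] {n : Type} [Fintype n] [DecidableEq n]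
    (ρ : Γ →* Matrix n n ℂ) : Eqv ρ ρ := ⟨1, by simp, fun γ => by simp⟩

section prod
variable {Γ1 Γ2 : Type} [Group Γ1] [Group Γ2] {K : ℕ} {a p q : Fin K → ℕ}

/-- external product of families -/
noncomputable def krFam (e : ∀ k, Fin (p k) × Fin (q k) ≃ Fin (a k)) (A : Fam Γ1 p) (B : Fam Γ2 q) :
    Fam (Γ1 × Γ2) a := fun k => kronHom (e k) (A k) (B k)

theorem rf_left (e : ∀ k, Fin (p k) × Fin (q k) ≃ Fin (a k)) (B : Fam Γ2 q)
    {P : Fam (Γ1 × Γ2) a → ℂ} (hP : P ∈ RF (Γ1 × Γ2) a) :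
    (fun A : Fam Γ1 p => P (krFam e A B)) ∈ RF Γ1 p := by
  unfold RF at hP
  induction hP using Algebra.adjoin_induction with
  | mem x hx =>
    obtain ⟨k, γ, i, j, rfl⟩ := hx
    have h1 : (fun A : Fam Γ1 p => A k γ.1 ((e k).symm i).1 ((e k).symm j).1) ∈ RF Γ1 p :=
      Algebra.subset_adjoin ⟨k, γ.1, _, _, rfl⟩
    have h2 : (fun _ : Fam Γ1 p => B k γ.2 ((e k).symm i).2 ((e k).symm j).2) ∈ RF Γ1 p :=
      (RF Γ1 p).algebraMap_mem (B k γ.2 ((e k).symm i).2 ((e k).symm j).2)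
    exact (RF Γ1 p).mul_mem h1 h2
  | algebraMap c => exact (RF Γ1 p).algebraMap_mem c
  | add f g _ _ hf hg => exact (RF Γ1 p).add_mem hf hg
  | mul f g _ _ hf hg => exact (RF Γ1 p).mul_mem hf hg

theorem rf_right (e : ∀ k, Fin (p k) × Fin (q k) ≃ Fin (a k)) (A : Fam Γ1 p)
    {P : Fam (Γ1 × Γ2) a → ℂ} (hP : P ∈ RF (Γ1 × Γ2) a) :
    (fun B : Fam Γ2 q => P (krFam e A B)) ∈ RF Γ2 q := by
  unfold RF at hP
  induction hP using Algebra.adjoin_induction with
  | mem x hx =>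
    obtain ⟨k, γ, i, j, rfl⟩ := hx
    have h1 : (fun B : Fam Γ2 q => B k γ.2 ((e k).symm i).2 ((e k).symm j).2) ∈ RF Γ2 q :=
      Algebra.subset_adjoin ⟨k, γ.2, _, _, rfl⟩
    have h2 : (fun _ : Fam Γ2 q => A k γ.1 ((e k).symm i).1 ((e k).symm j).1) ∈ RF Γ2 q :=
      (RF Γ2 q).algebraMap_mem (A k γ.1 ((e k).symm i).1 ((e k).symm j).1)
    exact (RF Γ2 q).mul_mem h2 h1
  | algebraMap c => exact (RF Γ2 q).algebraMap_mem c
  | add f g _ _ hf hg => exact (RF Γ2 q).add_mem hf hg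
  | mul f g _ _ hf hg => exact (RF Γ2 q).mul_mem hf hg

theorem det_krFam (e : ∀ k, Fin (p k) × Fin (q k) ≃ Fin (a k)) (A : Fam Γ1 p) (B : Fam Γ2 q)
    (m : Fin K → ℕ) (γ : Γ1 × Γ2) : ∏ k, (krFam e A B k γ).det ^ m k =
      (∏ k, (A k γ.1).det ^ (q k * m k)) * ∏ k, (B k γ.2).det ^ (p k * m k) := by
  rw [← Finset.prod_mul_distrib]
  refine Finset.prod_congr rfl fun k _ => ?_
  have : krFam e A B k γ = kr (e k) (A k γ.1) (B k γ.2) := kronHom_kr _ _ _ _ _
  rw [this, kr_det, mul_pow, ← pow_mul, ← pow_mul, Fintype.card_fin, Fintype.card_fin]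

theorem pd_prod {J1 J2 : Type} {c1 : J1 → Γ1} {c2 : J2 → Γ2} (h1 : PD c1) (h2 : PD c2) :
    PD (Sum.elim (fun j => (c1 j, (1 : Γ2))) (fun j => ((1 : Γ1), c2 j)) : J1 ⊕ J2 → Γ1 × Γ2) := by
  intro K a m M hm hM
  -- the fields
  have hfield : ∀ i : (k : Fin K) → Fin (a k + 1) × Fin (a k + 1), ∃ L : IntermediateField ℚ ℂ,
      FiniteDimensional ℚ L ∧ ((∀ k, 0 < ((i k).1 : ℕ) ∧ 0 < ((i k).2 : ℕ)) →
      (∀ V : Fam Γ1 (fun k => ((i k).1 : ℕ)), (∀ k, Irr (V k)) →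
        DetC (fun k => (i k).2 * m k) V → (∀ k j, QU M (V k (c1 j))) →
        ∀ P ∈ RF Γ1 (fun k => ((i k).1 : ℕ)), InvF c1 (fun k => (i k).2 * m k) V P →
        (∀ W : Fam Γ1 (fun k => ((i k).1 : ℕ)), (∀ k, Irr (W k)) → IntFam L W →
          DetC (fun k => (i k).2 * m k) W → (∀ k j, ConjM (W k (c1 j)) (V k (c1 j))) → P W = 0) →
        P V = 0) ∧
      (∀ V : Fam Γ2 (fun k => ((i k).2 : ℕ)), (∀ k, Irr (V k)) →
        DetC (fun k => (i k).1 * m k) V → (∀ k j, QU M (V k (c2 j))) →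
        ∀ P ∈ RF Γ2 (fun k => ((i k).2 : ℕ)), InvF c2 (fun k => (i k).1 * m k) V P →
        (∀ W : Fam Γ2 (fun k => ((i k).2 : ℕ)), (∀ k, Irr (W k)) → IntFam L W →
          DetC (fun k => (i k).1 * m k) W → (∀ k j, ConjM (W k (c2 j)) (V k (c2 j))) → P W = 0) →
        P V = 0)) := by
    intro i
    by_cases hi : ∀ k, 0 < ((i k).1 : ℕ) ∧ 0 < ((i k).2 : ℕ)
    · obtain ⟨L1, hL1, hd1⟩ := h1 K (fun k => ((i k).1 : ℕ)) (fun k => (i k).2 * m k) M
        (fun k => Nat.mul_pos (hi k).2 (hm k)) hM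
      obtain ⟨L2, hL2, hd2⟩ := h2 K (fun k => ((i k).2 : ℕ)) (fun k => (i k).1 * m k) M
        (fun k => Nat.mul_pos (hi k).1 (hm k)) hM
      refine ⟨L1 ⊔ L2, IntermediateField.finiteDimensional_sup L1 L2, fun _ => ⟨?_, ?_⟩⟩
      · intro V hV hdet hqu P hP hinv hv
        exact hd1 V hV hdet hqu P hP hinv fun W hW hint hdW hcW =>
          hv W hW (fun k γ x y => (hint k γ x y).mono le_sup_left) hdW hcW
      · intro V hV hdet hqu P hP hinv hv
        exact hd2 V hV hdet hqu P hP hinv fun W hW hint hdW hcW =>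
          hv W hW (fun k γ x y => (hint k γ x y).mono le_sup_right) hdW hcW
    · exact ⟨⊥, inferInstance, fun h => absurd h hi⟩
  choose L hLfin hL using hfield
  refine ⟨⨆ i, L i, IntermediateField.finiteDimensional_iSup_of_finite, ?_⟩
  intro V hV hdet hqu P hP hinv hv
  choose p q e A B hA hB hE using fun k => irr_prod (V k) (hV k)
  have hpq : ∀ k, p k * q k = a k := fun k => by
    have := Fintype.card_congr (e k)
    simpa using this
  have hp : ∀ k, 0 < p k := fun k => by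
    obtain ⟨⟨x⟩, -⟩ := hA k
    exact Fin.pos x
  have hq : ∀ k, 0 < q k := fun k => by
    obtain ⟨⟨x⟩, -⟩ := hB k
    exact Fin.pos x
  have hpa : ∀ k, p k < a k + 1 := fun k => by
    rw [← hpq k]; exact Nat.lt_succ_of_le (Nat.le_mul_of_pos_right _ (hq k))
  have hqa : ∀ k, q k < a k + 1 := fun k => by
    rw [← hpq k]; exact Nat.lt_succ_of_le (Nat.le_mul_of_pos_left _ (hp k))
  set i : (k : Fin K) → Fin (a k + 1) × Fin (a k + 1) := fun k => (⟨p k, hpa k⟩, ⟨q k, hqa k⟩) with hi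
  obtain ⟨hd1, hd2⟩ := hL i fun k => ⟨hp k, hq k⟩
  have hLi : L i ≤ ⨆ i, L i := le_iSup L i
  have hne1 : ∀ k, Nonempty (Fin (p k)) := fun k => (hA k).1
  have hne2 : ∀ k, Nonempty (Fin (q k)) := fun k => (hB k).1
  -- reduce to external products
  have hVc : ∀ k γ, ConjM (krFam e A B k γ) (V k γ) := fun k γ => (hE k).conjM γ
  have hPV : P V = P (krFam e A B) := (hinv _ _ (fun γ => by
    rw [← hdet γ]
    exact Finset.prod_congr rfl fun k _ => by rw [(hVc k γ).det]) (fun k j => hVc k _)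
    fun k => hE k).symm
  rw [hPV]
  have hdA : DetC (fun k => q k * m k) A := by
    intro γ
    have h3 := hdet (γ, 1)
    have h4 := det_krFam e A B m (γ, 1)
    have h5 : ∏ k, (B k (1 : Γ2)).det ^ (p k * m k) = 1 :=
      Finset.prod_eq_one fun k _ => by rw [map_one, Matrix.det_one, one_pow]
    rw [h5, mul_one] at h4
    rw [← h4, ← h3]
    exact Finset.prod_congr rfl fun k _ => by rw [(hVc k (γ, 1)).det]
  have hdB : DetC (fun k => p k * m k) B := by
    intro γ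
    have h3 := hdet (1, γ)
    have h4 := det_krFam e A B m (1, γ)
    have h5 : ∏ k, (A k (1 : Γ1)).det ^ (q k * m k) = 1 :=
      Finset.prod_eq_one fun k _ => by rw [map_one, Matrix.det_one, one_pow]
    rw [h5, one_mul] at h4
    rw [← h4, ← h3]
    exact Finset.prod_congr rfl fun k _ => by rw [(hVc k (1, γ)).det]
  have hk1 : ∀ (A : Fam Γ1 p) (B : Fam Γ2 q) k γ, krFam e A B k (γ, 1) =
      kr (e k) (A k γ) 1 := fun A B k γ => by
    have := kronHom_kr (e k) (A k) (B k) γ 1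
    rw [map_one] at this
    exact this
  have hk2 : ∀ (A : Fam Γ1 p) (B : Fam Γ2 q) k γ, krFam e A B k (1, γ) =
      kr (e k) 1 (B k γ) := fun A B k γ => by
    have := kronHom_kr (e k) (A k) (B k) 1 γ
    rw [map_one] at this
    exact this
  have hquA : ∀ k j, QU M (A k (c1 j)) := fun k j => by
    have h3 := hqu k (.inl j)
    have h4 := QU.conj (hVc k (c1 j, 1)).symm h3
    rw [hk1] at h4
    exact qu_of_kr_left (e k) h4
  have hquB : ∀ k j, QU M (B k (c2 j)) := fun k j => by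
    have h3 := hqu k (.inr j)
    have h4 := QU.conj (hVc k (1, c2 j)).symm h3
    rw [hk2] at h4
    exact qu_of_kr_right (e k) h4
  -- classes and determinants of external products
  have hcl : ∀ (A' : Fam Γ1 p) (B' : Fam Γ2 q), (∀ k j, ConjM (A' k (c1 j)) (A k (c1 j))) →
      (∀ k j, ConjM (B' k (c2 j)) (B k (c2 j))) → ∀ k j,
      ConjM (krFam e A' B' k ((Sum.elim (fun j => (c1 j, (1 : Γ2))) (fun j => ((1 : Γ1), c2 j)) :
        J1 ⊕ J2 → Γ1 × Γ2) j)) (V k ((Sum.elim (fun j => (c1 j, (1 : Γ2)))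
        (fun j => ((1 : Γ1), c2 j)) : J1 ⊕ J2 → Γ1 × Γ2) j)) := by
    rintro A' B' hcA hcB k (j | j)
    · show ConjM (krFam e A' B' k (c1 j, 1)) (V k (c1 j, 1))
      refine ConjM.trans ?_ (hVc k (c1 j, 1))
      rw [hk1, hk1]
      exact kr_conj (e k) (hcA k j) (ConjM.refl _)
    · show ConjM (krFam e A' B' k (1, c2 j)) (V k (1, c2 j))
      refine ConjM.trans ?_ (hVc k (1, c2 j))
      rw [hk2, hk2]
      exact kr_conj (e k) (ConjM.refl _) (hcB k j)
  have hdd : ∀ (A' : Fam Γ1 p) (B' : Fam Γ2 q), DetC (fun k => q k * m k) A' →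
      DetC (fun k => p k * m k) B' → DetC m (krFam e A' B') := by
    intro A' B' hdA' hdB' γ
    rw [det_krFam, hdA' γ.1, hdB' γ.2, one_mul]
  refine hd2 B hB hdB hquB (fun B => P (krFam e A B)) (rf_right e A hP)
    (fun B1 B2 hdB1 hcB1 hBB => hinv _ _ (hdd A B1 hdA hdB1)
      (hcl A B1 (fun k j => ConjM.refl _) hcB1) fun k => eqv_kron (e k) (Eqv.refl _) (hBB k)) ?_
  intro B' hB' hintB hdB' hcB
  refine hd1 A hA hdA hquA (fun A => P (krFam e A B')) (rf_left e B' hP)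
    (fun A1 A2 hdA1 hcA1 hAA => hinv _ _ (hdd A1 B' hdA1 hdB')
      (hcl A1 B' hcA1 hcB) fun k => eqv_kron (e k) (hAA k) (Eqv.refl _)) ?_
  intro A' hA' hintA hdA' hcA
  refine hv _ (fun k => irr_kron (e k) (A' k) (B' k) (hA' k) (hB' k)) ?_ (hdd A' B' hdA' hdB')
    (hcl A' B' hcA hcB)
  intro k γ x y
  have : krFam e A' B' k γ = kr (e k) (A' k γ.1) (B' k γ.2) := kronHom_kr _ _ _ _ _
  rw [this, kr_apply]
  exact ((hintA k γ.1 _ _).mono hLi).mul ((hintB k γ.2 _ _).mono hLi)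

end prod

end Vale.Agent.P002
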