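import Vale.Agent.P002.PInd

namespace Vale.Agent.P002

open Matrix

theorem exists_unit_pow {d : ℕ} (hd : 0 < d) (z : ℂˣ) : ∃ r : ℂˣ, r ^ d = z := by
  obtain ⟨r, hr⟩ := IsAlgClosed.exists_pow_nat_eq (z : ℂ) hd
  have hr0 : r ≠ 0 := by
    rintro rfl
    rw [zero_pow hd.ne'] at hr
    exact z.ne_zero hr.symm
  exact ⟨Units.mk0 r hr0, Units.ext (by rw [Units.val_pow_eq_pow_val, Units.val_mk0, hr])⟩

theorem char_root_comm (Λ : Type) [CommGroup Λ] [Group.FG Λ] :
    ∃ T : ℕ, 0 < T ∧ ∀ d : ℕ, 0 < d → ∀ ψ : Λ →* ℂˣ, ∃ τ : Λ →* ℂˣ,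
      ∀ l, (ψ l * (τ l ^ d)⁻¹) ^ T = 1 := by
  classical
  obtain ⟨ι, j, _, _, p, hp, e, ⟨φ⟩⟩ := CommGroup.equiv_free_prod_prod_multiplicative_zmod Λ
  have hpp : ∀ i, 0 < p i ^ e i := fun i => pow_pos (hp i).pos _
  set Q : ℕ := ∏ i, p i ^ e i with hQ
  have hQ0 : 0 < Q := Finset.prod_pos fun i _ => hpp i
  refine ⟨Q, hQ0, ?_⟩
  intro d hd ψ
  let b : j → Λ := fun x => φ.symm (Pi.mulSingle x (Multiplicative.ofAdd 1), 1)
  have hb : ∀ x, φ (b x) = (Pi.mulSingle x (Multiplicative.ofAdd 1), 1) := fun x =>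
    φ.apply_symm_apply _
  let co : Λ → j → ℤ := fun l x => ((φ l).1 x).toAdd
  have hco_mul : ∀ l l' x, co (l * l') x = co l x + co l' x := by
    intro l l' x
    show ((φ (l * l')).1 x).toAdd = _
    rw [map_mul, Prod.fst_mul, Pi.mul_apply, toAdd_mul]
  have hco_one : ∀ x, co 1 x = 0 := by
    intro x
    have := hco_mul 1 1 x
    rw [one_mul] at this
    simpa using this
  choose r hr using fun x => exists_unit_pow hd (ψ (b x))
  let τ : Λ →* ℂˣ :=
    { toFun := fun l => ∏ x, (r x) ^ (co l x)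
      map_one' := by simp [hco_one]
      map_mul' := fun l l' => by
        rw [← Finset.prod_mul_distrib]
        exact Finset.prod_congr rfl fun x _ => by rw [hco_mul, _root_.zpow_add] }
  refine ⟨τ, fun l => ?_⟩
  let l' : Λ := l * ∏ x, (b x) ^ (-(co l x))
  have h1 : ψ l * (τ l ^ d)⁻¹ = ψ l' := by
    show ψ l * ((∏ x, (r x) ^ (co l x)) ^ d)⁻¹ = ψ (l * ∏ x, (b x) ^ (-(co l x)))
    rw [map_mul, map_prod]
    congr 1
    rw [← Finset.prod_pow, ← Finset.prod_inv_distrib]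
    refine Finset.prod_congr rfl fun x _ => ?_
    rw [map_zpow, ← hr x, _root_.zpow_neg, ← zpow_natCast, ← zpow_natCast, ← _root_.zpow_mul,
      ← _root_.zpow_mul, mul_comm]
  have h2 : (φ l').1 = 1 := by
    have h3 : φ l' = φ l * ∏ x, (φ (b x)) ^ (-(co l x)) := by
      show φ (l * ∏ x, (b x) ^ (-(co l x))) = _
      rw [map_mul, map_prod]
      simp only [map_zpow]
    rw [h3, Prod.fst_mul, Prod.fst_prod]
    funext y
    apply Multiplicative.toAdd.injective
    rw [Pi.mul_apply, toAdd_mul, Finset.prod_apply, toAdd_prod]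
    have h5 : ∀ x, ((((φ (b x)) ^ (-(co l x))).1 y : Multiplicative ℤ)).toAdd =
        if x = y then -(co l x) else 0 := by
      intro x
      rw [hb x, Prod.pow_fst, Pi.pow_apply, toAdd_zpow]
      change -(co l x) • Multiplicative.toAdd
        ((Pi.mulSingle x (Multiplicative.ofAdd 1) : j → Multiplicative ℤ) y) = _
      by_cases hxy : x = y
      · subst hxy
        simp
      · rw [Pi.mulSingle_eq_of_ne (Ne.symm hxy)]
        simp [hxy]
    simp only [h5]
    rw [Finset.sum_ite_eq' Finset.univ y]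
    simp [co]
  have h6 : l' ^ Q = 1 := by
    apply φ.injective
    rw [map_pow, map_one]
    refine Prod.ext ?_ ?_
    · rw [Prod.pow_fst, h2, one_pow]; rfl
    · rw [Prod.pow_snd]
      funext i
      rw [Pi.pow_apply]
      apply Multiplicative.toAdd.injective
      rw [toAdd_pow, nsmul_eq_mul]
      have : ((Q : ℕ) : ZMod (p i ^ e i)) = 0 := by
        rw [ZMod.natCast_eq_zero_iff]
        exact Finset.dvd_prod_of_mem (fun i => p i ^ e i) (Finset.mem_univ i)
      rw [this, zero_mul]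
      rfl
  rw [h1, ← map_pow, h6, map_one]

theorem char_root (Δ : Type) [Group Δ] [Group.FG Δ] :
    ∃ T : ℕ, 0 < T ∧ ∀ d : ℕ, 0 < d → ∀ ψ : Δ →* ℂˣ, ∃ τ : Δ →* ℂˣ,
      ∀ g, (ψ g * (τ g ^ d)⁻¹) ^ T = 1 := by
  have hfg : Group.FG (Abelianization Δ) :=
    inferInstanceAs (Group.FG (Δ ⧸ commutator Δ))
  obtain ⟨T, hT, h⟩ := char_root_comm (Abelianization Δ)
  refine ⟨T, hT, fun d hd ψ => ?_⟩
  obtain ⟨τ, hτ⟩ := h d hd (Abelianization.lift ψ)
  refine ⟨τ.comp Abelianization.of, fun g => ?_⟩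
  have := hτ (Abelianization.of g)
  rwa [Abelianization.lift_apply_of] at this

end Vale.Agent.P002
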