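import Vale.Agent.P002.PMono

/-!
# Monomial representations
-/

namespace Vale.Agent.P002

open Matrix

/-- monomial representations -/
def MonoR {Γ : Type} [Group Γ] {n : ℕ} (ρ : Γ →* Matrix (Fin n) (Fin n) ℂ) : Prop :=
  ∀ γ j, ∃ i, ∀ i', i' ≠ i → ρ γ i' j = 0

theorem finite_hom {Γ G : Type} [Group Γ] [Group.FG Γ] [Group G] [Finite G] :
    Finite (Γ →* G) := by
  obtain ⟨S, hS, hSf⟩ := Group.fg_iff.mp (inferInstance : Group.FG Γ)
  have : Finite S := hSf
  refine Finite.of_injective (fun f : Γ →* G => fun s : S => f s) ?_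
  intro f f' h
  refine MonoidHom.ext fun g => ?_
  have hg : g ∈ Subgroup.closure S := by rw [hS]; trivial
  have h1 : Subgroup.closure S ≤ f.eqLocus f' := (Subgroup.closure_le _).mpr fun s hs =>
    congrFun h ⟨s, hs⟩
  exact h1 hg

section perm
variable {Γ : Type} [Group Γ] {n : ℕ}

/-- permutation matrices -/
noncomputable def permR (σ : Γ →* Equiv.Perm (Fin n)) : Γ →* Matrix (Fin n) (Fin n) ℂ where
  toFun g := Matrix.of fun i j => if i = σ g j then 1 else 0
  map_one' := by
    ext i j
    simp [Matrix.one_apply]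
  map_mul' g h := by
    ext i j
    simp [Matrix.mul_apply]

theorem permR_apply (σ : Γ →* Equiv.Perm (Fin n)) (g : Γ) (i j : Fin n) :
    permR σ g i j = if i = σ g j then 1 else 0 := rfl

theorem permR_lab (σ : Γ →* Equiv.Perm (Fin n)) : Lab (permR σ) σ id := by
  intro g i j h
  rw [permR_apply] at h
  by_contra hc
  exact h (if_neg hc)

theorem permR_pow (σ : Γ →* Equiv.Perm (Fin n)) (g : Γ) :
    permR σ g ^ (Nat.card (Equiv.Perm (Fin n))) = 1 := by
  rw [← map_pow]
  have h1 : σ (g ^ Nat.card (Equiv.Perm (Fin n))) = 1 := by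
    rw [map_pow, pow_card_eq_one']
  ext i j
  rw [permR_apply, h1, Equiv.Perm.one_apply]
  by_cases hij : i = j
  · rw [if_pos hij, hij, Matrix.one_apply_eq]
  · rw [if_neg hij, Matrix.one_apply_ne hij]

end perm

theorem tb_mono {Γ : Type} [Group Γ] [Group.FG Γ] {n : ℕ}
    (h : ∀ ρ : Γ →* Matrix (Fin n) (Fin n) ℂ, Irr ρ → ∃ ρ', Eqv ρ ρ' ∧ MonoR ρ') : TB Γ n := by
  classical
  refine ⟨Nat.card (Equiv.Perm (Fin n)), ⊥, Γ →* Equiv.Perm (Fin n), permR, fun _ => Fin n,
    fun σ => σ, fun _ => id, Nat.card_pos, inferInstance, finite_hom, fun _ => inferInstance,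
    permR_lab, permR_pow, ?_, ?_⟩
  · intro σ g i j
    rw [permR_apply]
    split_ifs
    · exact OInt.one
    · exact OInt.zero
  · intro V hV
    obtain ⟨V', hE, hm⟩ := h V hV
    have hinv : ∀ g, V' g⁻¹ * V' g = 1 := fun g => by rw [← map_mul, inv_mul_cancel, map_one]
    have hne : ∀ g j, ∃ i, V' g i j ≠ 0 := by
      intro g j
      by_contra hc
      push Not at hc
      have h4 := congrFun (congrFun (hinv g) j) j
      rw [Matrix.mul_apply, Matrix.one_apply_eq] at h4
      rw [Finset.sum_eq_zero fun i _ => by rw [hc i, mul_zero]] at h4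
      exact zero_ne_one h4
    choose s hs using hne
    have hs' : ∀ g i j, V' g i j ≠ 0 → i = s g j := by
      intro g i j hij
      obtain ⟨i0, hi0⟩ := hm g j
      have h1 : i = i0 := by
        by_contra hc
        exact hij (hi0 i hc)
      have h2 : s g j = i0 := by
        by_contra hc
        exact hs g j (hi0 _ hc)
      rw [h1, h2]
    have hone : ∀ j, s 1 j = j := by
      intro j
      refine (hs' 1 j j ?_).symm
      rw [map_one, Matrix.one_apply_eq]
      exact one_ne_zero
    have hval : ∀ g h' j, V' (g * h') (s g (s h' j)) j = V' g (s g (s h' j)) (s h' j) *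
        V' h' (s h' j) j := by
      intro g h' j
      rw [map_mul, Matrix.mul_apply, Finset.sum_eq_single (s h' j)]
      · intro l _ hl
        have : V' h' l j = 0 := by
          by_contra hc
          exact hl (hs' h' l j hc)
        rw [this, mul_zero]
      · intro hc
        exact absurd (Finset.mem_univ _) hc
    have hmul : ∀ g h' j, s (g * h') j = s g (s h' j) := by
      intro g h' j
      refine (hs' (g * h') _ j ?_).symm
      rw [hval]
      exact mul_ne_zero (hs _ _) (hs _ _)
    let σ : Γ →* Equiv.Perm (Fin n) :=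
      { toFun := fun g => ⟨s g, s g⁻¹, fun j => by rw [← hmul, inv_mul_cancel, hone],
          fun j => by rw [← hmul, mul_inv_cancel, hone]⟩
        map_one' := Equiv.ext fun j => hone j
        map_mul' := fun g h' => Equiv.ext fun j => hmul g h' j }
    have hσ : ∀ g j, σ g j = s g j := fun g j => rfl
    refine ⟨σ, V', fun g j => Units.mk0 (V' g (s g j) j) (hs g j), ?_, ?_, hE⟩
    · intro g h' j
      apply Units.ext
      rw [Units.val_mul]
      show V' (g * h') (s (g * h') j) j = V' g (s g (s h' j)) (s h' j) * V' h' (s h' j) j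
      rw [hmul, hval]
    · intro g i j
      rw [permR_apply, hσ]
      show V' g i j = V' g (s g j) j * _
      by_cases hij : i = s g j
      · rw [if_pos hij, mul_one, hij]
      · rw [if_neg hij, mul_zero]
        by_contra hc
        exact hij (hs' g i j hc)

end Vale.Agent.P002
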