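import Vale.Agent.P002.PTBn
import Vale.Agent.P002.PNilp

/-!
P002: irreducible representations of a fixed dimension of a virtually nilpotent group are spanned
by simultaneous eigenvectors of a fixed normal subgroup of finite index.
-/

namespace Vale.Agent.P002

open Matrix

namespace PVN

open PNilp

/-- a basis permuted up to scalars gives a permutation representation -/
theorem perm_of_mono {G E : Type} [Group G] [AddCommGroup E] [Module ℂ E]
    (π : G →* Module.End ℂ E) {a : ℕ} (b : Module.Basis (Fin a) ℂ E)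
    (hb : ∀ g i, ∃ (j : Fin a) (c : ℂ), π g (b i) = c • b j) :
    ∃ σ : G →* Equiv.Perm (Fin a), ∀ g i, ∃ c : ℂ, π g (b i) = c • b (σ g i) := by
  classical
  choose s c hs using hb
  have hc : ∀ g i, c g i ≠ 0 := by
    intro g i h0
    have h1 := hs g i
    rw [h0, zero_smul] at h1
    have h2 := inv_apply π g (b i)
    rw [h1, map_zero] at h2
    exact b.ne_zero i h2.symm
  have huniq : ∀ (i j : Fin a) (x y : ℂ), x ≠ 0 → x • b i = y • b j → i = j := by
    intro i j x y hx h
    by_contra hij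
    have h1 := congrArg (fun v => b.repr v i) h
    simp only [map_smul, Module.Basis.repr_self, Finsupp.smul_single, smul_eq_mul, mul_one,
      Finsupp.single_eq_same] at h1
    rw [Finsupp.single_eq_of_ne hij] at h1
    exact hx h1
  have hone : ∀ i, s 1 i = i := by
    intro i
    refine (huniq i (s 1 i) 1 (c 1 i) one_ne_zero ?_).symm
    rw [← hs, map_one, one_smul, Module.End.one_apply]
  have hmul : ∀ g h i, s (g * h) i = s g (s h i) := by
    intro g h i
    refine huniq _ _ (c (g * h) i) (c h i * c g (s h i)) (hc _ _) ?_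
    rw [← hs, map_mul, Module.End.mul_apply, hs h, map_smul, hs g, smul_smul]
  let σ : G →* Equiv.Perm (Fin a) :=
    { toFun := fun g => ⟨s g, s g⁻¹, fun j => by rw [← hmul, inv_mul_cancel, hone],
        fun j => by rw [← hmul, mul_inv_cancel, hone]⟩
      map_one' := Equiv.ext fun j => hone j
      map_mul' := fun g h' => Equiv.ext fun j => hmul g h' j }
  exact ⟨σ, fun g i => ⟨c g i, hs g i⟩⟩

/-- a nonzero common eigenvector of a fixed subgroup of finite index -/
theorem eigen_aux {G : Type} [Group G] [Group.IsNilpotent G] {n : ℕ} (hn : 0 < n)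
    (π : G →* Module.End ℂ (Fin n → ℂ)) :
    ∃ v : Fin n → ℂ, v ≠ 0 ∧ ∀ g : G,
      (∀ (a : Fin (n + 1)) (f : G →* Equiv.Perm (Fin a)), f g = 1) → ∃ c : ℂ, π g v = c • v := by
  classical
  have : Nonempty (Fin n) := ⟨⟨0, hn⟩⟩
  have hwf : WellFounded ((· < ·) : Submodule ℂ (Fin n → ℂ) → _ → Prop) := wellFounded_lt
  obtain ⟨W, ⟨hW0, hWinv⟩, hmin⟩ := hwf.has_min
    {W : Submodule ℂ (Fin n → ℂ) | W ≠ ⊥ ∧ ∀ g, ∀ v ∈ W, π g v ∈ W}
    ⟨⊤, top_ne_bot, fun g v _ => Submodule.mem_top⟩
  let πW : G →* Module.End ℂ W :=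
    { toFun := fun h => (π h).restrict (hWinv h)
      map_one' := by
        ext v
        simp
      map_mul' := fun g h => by
        ext v
        simp }
  have hπW : ∀ (h : G) (v : W), ((πW h v : W) : Fin n → ℂ) = π h (v : Fin n → ℂ) :=
    fun h v => rfl
  have hirr : IrrE πW := by
    refine ⟨(Submodule.nontrivial_iff_ne_bot).mpr hW0, fun V hV => ?_⟩
    by_cases hVb : V = ⊥
    · exact Or.inl hVb
    · right
      have h1 : V.map W.subtype ≠ ⊥ := by
        intro h
        apply hVb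
        rw [eq_bot_iff]
        intro v hv
        have h5 : (v : Fin n → ℂ) ∈ V.map W.subtype := ⟨v, hv, rfl⟩
        rw [h, Submodule.mem_bot] at h5
        rw [Submodule.mem_bot]
        exact Subtype.ext h5
      have h2 : ∀ g, ∀ v ∈ V.map W.subtype, π g v ∈ V.map W.subtype := by
        rintro g _ ⟨w, hw, rfl⟩
        exact ⟨πW g w, hV g w hw, rfl⟩
      have h3 : V.map W.subtype ≤ W := Submodule.map_subtype_le _ _
      have h4 : ¬ V.map W.subtype < W := hmin _ ⟨h1, h2⟩
      have h5 : V.map W.subtype = W := by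
        by_contra hne
        exact h4 (lt_of_le_of_ne h3 hne)
      rw [eq_top_iff]
      intro v _
      have h6 : (v : Fin n → ℂ) ∈ V.map W.subtype := by
        rw [h5]
        exact v.2
      obtain ⟨w, hw, hwv⟩ := h6
      have : w = v := Subtype.ext hwv
      rwa [← this]
  obtain ⟨ι, b, hb⟩ := mono_aux _ G W πW le_rfl hirr
  have : Fintype ι := FiniteDimensional.fintypeBasisIndex b
  have hcard : Fintype.card ι = Module.finrank ℂ W := (Module.finrank_eq_card_basis b).symm
  have hle : Module.finrank ℂ W ≤ n := by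
    have := Submodule.finrank_le W
    rwa [Module.finrank_fin_fun] at this
  have hpos : 0 < Module.finrank ℂ W := by
    have := hirr.1
    exact Module.finrank_pos
  let b' : Module.Basis (Fin (Module.finrank ℂ W)) ℂ W :=
    b.reindex (Fintype.equivFinOfCardEq hcard)
  have hb' : ∀ γ j, ∃ (i : Fin (Module.finrank ℂ W)) (c : ℂ), πW γ (b' j) = c • b' i := by
    intro γ j
    obtain ⟨i, c, hc⟩ := hb γ ((Fintype.equivFinOfCardEq hcard).symm j)
    refine ⟨Fintype.equivFinOfCardEq hcard i, c, ?_⟩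
    simp only [b', Module.Basis.reindex_apply, Equiv.symm_apply_apply]
    exact hc
  obtain ⟨σ, hσ⟩ := perm_of_mono πW b' hb'
  refine ⟨(b' ⟨0, hpos⟩ : W), ?_, fun g hg => ?_⟩
  · intro h0
    exact b'.ne_zero ⟨0, hpos⟩ (Subtype.ext h0)
  · have h1 := hg ⟨Module.finrank ℂ W, by omega⟩ σ
    obtain ⟨c, hc⟩ := hσ g ⟨0, hpos⟩
    refine ⟨c, ?_⟩
    rw [h1, Equiv.Perm.one_apply] at hc
    rw [← hπW, hc, Submodule.coe_smul]

end PVN

theorem vnil_eigen {Γ : Type} [Group Γ] [Group.FG Γ] (N : Subgroup Γ) [N.FiniteIndex]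
    (hN : Group.IsNilpotent N) (n : ℕ) :
    ∃ Γ₀ : Subgroup Γ, Γ₀.Normal ∧ Γ₀.FiniteIndex ∧ ∀ V : Γ →* Matrix (Fin n) (Fin n) ℂ, Irr V →
      Submodule.span ℂ {v : Fin n → ℂ | ∀ h ∈ Γ₀, ∃ c : ℂ, (V h).mulVec v = c • v} = ⊤ := by
  classical
  have hfg : Group.FG N := Subgroup.fg_of_index_ne_zero N
  let N₀ : Subgroup N := ⨅ (a : Fin (n + 1)), ⨅ (f : N →* Equiv.Perm (Fin a)), f.ker
  have hN₀ : N₀.FiniteIndex := by
    refine Subgroup.finiteIndex_iInf fun a => ?_
    have : Finite (N →* Equiv.Perm (Fin a)) := finite_hom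
    exact Subgroup.finiteIndex_iInf fun f => inferInstance
  have hmem : ∀ g, g ∈ N₀ → ∀ (a : Fin (n + 1)) (f : N →* Equiv.Perm (Fin a)), f g = 1 := by
    intro g hg a f
    exact MonoidHom.mem_ker.mp ((Subgroup.mem_iInf.mp ((Subgroup.mem_iInf.mp hg) a)) f)
  let M : Subgroup Γ := N₀.map N.subtype
  have hM : M.FiniteIndex := by
    constructor
    rw [Subgroup.index_map_subtype]
    exact mul_ne_zero hN₀.index_ne_zero Subgroup.FiniteIndex.index_ne_zero
  refine ⟨M.normalCore, inferInstance, inferInstance, fun V hV => ?_⟩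
  let S : Set (Fin n → ℂ) := {v | ∀ h ∈ M.normalCore, ∃ c : ℂ, (V h).mulVec v = c • v}
  have hinv : ∀ γ, ∀ v ∈ Submodule.span ℂ S, (V γ).mulVec v ∈ Submodule.span ℂ S := by
    intro γ v hv
    have h1 : (Submodule.span ℂ S).map (Matrix.mulVecLin (V γ)) ≤ Submodule.span ℂ S := by
      rw [Submodule.map_span, Submodule.span_le]
      rintro _ ⟨w, hw, rfl⟩
      apply Submodule.subset_span
      intro h hh
      have hconj : γ⁻¹ * h * γ ∈ M.normalCore := by
        have := (inferInstance : M.normalCore.Normal).conj_mem h hh γ⁻¹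
        rwa [inv_inv] at this
      obtain ⟨c, hc⟩ := hw _ hconj
      refine ⟨c, ?_⟩
      rw [Matrix.mulVecLin_apply, Matrix.mulVec_mulVec, ← map_mul]
      have e : h * γ = γ * (γ⁻¹ * h * γ) := by group
      rw [e, map_mul, ← Matrix.mulVec_mulVec, hc, Matrix.mulVec_smul]
    exact h1 (Submodule.mem_map_of_mem hv)
  rcases hV.2 _ hinv with h | h
  · exfalso
    have hn : 0 < n := by
      obtain ⟨i⟩ := hV.1
      exact i.pos
    let π : N →* Module.End ℂ (Fin n → ℂ) :=
      ((Matrix.toLinAlgEquiv' : Matrix (Fin n) (Fin n) ℂ ≃ₐ[ℂ] _).toRingEquiv.toMonoidHom.comp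
        V).comp N.subtype
    have hπ : ∀ γ : N, ∀ v, π γ v = (V γ).mulVec v := fun γ v => rfl
    obtain ⟨v, hv0, hv⟩ := PVN.eigen_aux hn π
    have hvS : v ∈ S := by
      intro x hx
      obtain ⟨y, hy, rfl⟩ := Subgroup.normalCore_le M hx
      obtain ⟨c, hc⟩ := hv y (hmem y hy)
      exact ⟨c, hc⟩
    have : v ∈ Submodule.span ℂ S := Submodule.subset_span hvS
    rw [h, Submodule.mem_bot] at this
    exact hv0 this
  · exact h

end Vale.Agent.P002
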