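import Mathlib

/-!
# The ring of all algebraic integers is Bezout; lattices over it are free
-/

namespace Vale.Agent.P002

open Matrix

namespace PZbar

/-- the ring of all algebraic integers -/
abbrev Zb : Subalgebra ℤ ℂ := integralClosure ℤ ℂ

private theorem field_pow (K : IntermediateField ℚ ℂ) [NumberField K] (a b : NumberField.RingOfIntegers K)
    (h0 : ¬ (a = 0 ∧ b = 0)) :
    ∃ (h : ℕ) (α : NumberField.RingOfIntegers K), 0 < h ∧ α ≠ 0 ∧
      Ideal.span {a, b} ^ h = Ideal.span {α} := by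
  have hI : Ideal.span {a, b} ≠ (⊥ : Ideal (NumberField.RingOfIntegers K)) := by
    intro h
    rw [Ideal.span_eq_bot] at h
    exact h0 ⟨h a (by simp), h b (by simp)⟩
  have hI' : Ideal.span {a, b} ∈ nonZeroDivisors (Ideal (NumberField.RingOfIntegers K)) :=
    mem_nonZeroDivisors_of_ne_zero hI
  refine ⟨Fintype.card (ClassGroup (NumberField.RingOfIntegers K)), ?_⟩
  have h1 : ClassGroup.mk0 ⟨Ideal.span {a, b}, hI'⟩ ^
      Fintype.card (ClassGroup (NumberField.RingOfIntegers K)) = 1 := pow_card_eq_one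
  rw [← map_pow] at h1
  have h2 := (ClassGroup.mk0_eq_one_iff (pow_mem hI' _)).mp h1
  obtain ⟨α, hα⟩ := h2
  refine ⟨α, Fintype.card_pos, ?_, hα⟩
  rintro rfl
  have h3 := pow_ne_zero (Fintype.card (ClassGroup (NumberField.RingOfIntegers K))) hI
  apply h3
  rw [hα]
  simp

/-- the embedding of the integers of a number field -/
private noncomputable def emb (K : IntermediateField ℚ ℂ) :
    NumberField.RingOfIntegers K →+* Zb :=
  ((algebraMap K ℂ).comp (algebraMap (NumberField.RingOfIntegers K) K)).codRestrict Zb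
    fun x => (NumberField.RingOfIntegers.isIntegral_coe x).map (algebraMap K ℂ).toIntAlgHom

private theorem bez_pair (a b : Zb) : (Ideal.span {a, b}).IsPrincipal := by
  by_cases h0 : a = 0 ∧ b = 0
  · obtain ⟨rfl, rfl⟩ := h0
    exact ⟨0, by simp⟩
  let K : IntermediateField ℚ ℂ := IntermediateField.adjoin ℚ {(a : ℂ), (b : ℂ)}
  have hfd : FiniteDimensional ℚ K := by
    refine IntermediateField.finiteDimensional_adjoin ?_
    rintro x (rfl | rfl)
    · exact a.2.tower_top
    · exact b.2.tower_top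
  have hnf : NumberField K := { }
  have haK : (a : ℂ) ∈ K := IntermediateField.subset_adjoin _ _ (by simp)
  have hbK : (b : ℂ) ∈ K := IntermediateField.subset_adjoin _ _ (by simp)
  have hinj : Function.Injective (algebraMap K ℂ) := (algebraMap K ℂ).injective
  let a0 : NumberField.RingOfIntegers K := ⟨⟨a, haK⟩,
    (isIntegral_algHom_iff (algebraMap K ℂ).toIntAlgHom hinj).mp a.2⟩
  let b0 : NumberField.RingOfIntegers K := ⟨⟨b, hbK⟩,
    (isIntegral_algHom_iff (algebraMap K ℂ).toIntAlgHom hinj).mp b.2⟩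
  have ha0 : emb K a0 = a := Subtype.ext rfl
  have hb0 : emb K b0 = b := Subtype.ext rfl
  have hembinj : Function.Injective (emb K) := by
    intro x y hxy
    have h1 := congrArg (fun z : Zb => (z : ℂ)) hxy
    exact NumberField.RingOfIntegers.coe_injective (hinj h1)
  have h00 : ¬ (a0 = 0 ∧ b0 = 0) := by
    rintro ⟨h1, h2⟩
    apply h0
    rw [← ha0, ← hb0, h1, h2, map_zero]
    exact ⟨rfl, rfl⟩
  obtain ⟨h, α, hh, hα, hp⟩ := field_pow K a0 b0 h00
  have hp2 : Ideal.span {a, b} ^ h = Ideal.span {emb K α} := by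
    have h1 := congrArg (Ideal.map (emb K)) hp
    rw [Ideal.map_pow, Ideal.map_span, Ideal.map_span, Set.image_pair, Set.image_singleton, ha0,
      hb0] at h1
    exact h1
  obtain ⟨β, hβ⟩ : ∃ β : ℂ, β ^ h = (emb K α : ℂ) :=
    IsAlgClosed.exists_pow_nat_eq _ hh
  have hβi : IsIntegral ℤ β := by
    refine IsIntegral.of_pow hh ?_
    rw [hβ]
    exact (emb K α).2
  let B : Zb := ⟨β, hβi⟩
  have hB : B ^ h = emb K α := Subtype.ext hβ
  have hα0 : emb K α ≠ 0 := fun h1 => hα (hembinj (by rw [h1, map_zero]))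
  have hB0 : B ≠ 0 := by
    rintro h1
    rw [h1, zero_pow hh.ne'] at hB
    exact hα0 hB.symm
  rw [← hB] at hp2
  have hβ0 : β ≠ 0 := fun h1 => hB0 (Subtype.ext h1)
  -- divisibility
  have hdvd : ∀ c ∈ Ideal.span {a, b}, ∃ c' : Zb, c = B * c' := by
    intro c hc
    have h1 : c ^ h ∈ Ideal.span {B ^ h} := by
      rw [← hp2]
      exact Ideal.pow_mem_pow hc h
    obtain ⟨e, he⟩ := Ideal.mem_span_singleton'.mp h1
    have h2 : IsIntegral ℤ ((c : ℂ) / β) := by
      refine IsIntegral.of_pow hh ?_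
      have h3 : ((c : ℂ) / β) ^ h = (e : ℂ) := by
        have h4 := congrArg (fun z : Zb => (z : ℂ)) he
        simp only [MulMemClass.coe_mul, SubmonoidClass.coe_pow] at h4
        rw [div_pow, ← h4, mul_div_assoc]
        have : (B : ℂ) ^ h / β ^ h = 1 := div_self (pow_ne_zero _ hβ0)
        rw [this, mul_one]
      rw [h3]
      exact e.2
    refine ⟨⟨(c : ℂ) / β, h2⟩, Subtype.ext ?_⟩
    show (c : ℂ) = β * ((c : ℂ) / β)
    rw [mul_div_cancel₀ _ hβ0]
  obtain ⟨a', ha'⟩ := hdvd a (Ideal.subset_span (by simp))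
  obtain ⟨b', hb'⟩ := hdvd b (Ideal.subset_span (by simp))
  have hspan : Ideal.span {a, b} = Ideal.span {B} * Ideal.span {a', b'} := by
    rw [Ideal.span_mul_span', Set.singleton_mul, Set.image_pair, ← ha', ← hb']
  rw [hspan, mul_pow, Ideal.span_singleton_pow] at hp2
  have htop : Ideal.span {a', b'} ^ h = ⊤ := by
    refine Ideal.span_singleton_mul_right_injective (pow_ne_zero h hB0) ?_
    show Ideal.span {B ^ h} * _ = Ideal.span {B ^ h} * ⊤
    rw [hp2, Ideal.mul_top]
  have htop' : Ideal.span {a', b'} = ⊤ := by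
    rw [eq_top_iff, ← htop]
    exact Ideal.pow_le_self hh.ne'
  rw [htop', Ideal.mul_top] at hspan
  rw [hspan]
  exact ⟨B, rfl⟩

instance : IsBezout Zb := by
  rw [IsBezout.iff_span_pair_isPrincipal]
  exact bez_pair

private theorem princ (N : Submodule Zb ℂ) (hfg : N.FG) (halg : ∀ x ∈ N, IsAlgebraic ℚ x) :
    ∃ d ∈ N, ∀ x ∈ N, ∃ r : Zb, x = (r : ℂ) * d := by
  classical
  obtain ⟨S, rfl⟩ := hfg
  have halg' : ∀ z ∈ S, ∃ y : ℤ, y ≠ 0 ∧ IsIntegral ℤ (y • z) := fun z hz =>
    ((IsFractionRing.isAlgebraic_iff ℤ ℚ ℂ).mpr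
      (halg z (Submodule.subset_span hz))).exists_integral_multiple
  choose! y hy0 hyi using halg'
  let Y : ℤ := ∏ z ∈ S, y z
  have hY0 : Y ≠ 0 := Finset.prod_ne_zero_iff.mpr hy0
  have hYC : (Y : ℂ) ≠ 0 := Int.cast_ne_zero.mpr hY0
  have hYi : ∀ z ∈ S, IsIntegral ℤ ((Y : ℂ) * z) := by
    intro z hz
    have h1 : (Y : ℂ) * z = (∏ w ∈ S.erase z, y w) • (y z • z) := by
      rw [zsmul_eq_mul, zsmul_eq_mul, ← mul_assoc, ← Int.cast_mul, Finset.prod_erase_mul _ _ hz]
    rw [h1]
    exact (hyi z hz).smul _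
  let L : ℂ →ₗ[Zb] ℂ := (LinearMap.mulLeft ℂ (Y : ℂ)).restrictScalars Zb
  have hL : ∀ x, L x = Y * x := fun x => rfl
  let ι : Zb →ₗ[Zb] ℂ := Algebra.linearMap Zb ℂ
  have hι : ∀ x, ι x = (x : ℂ) := fun x => rfl
  have hιinj : Function.Injective ι := Subtype.val_injective
  set N : Submodule Zb ℂ := Submodule.span Zb (S : Set ℂ) with hN
  let J : Ideal Zb := (N.map L).comap ι
  have hle : N.map L ≤ LinearMap.range ι := by
    rw [hN, Submodule.map_span, Submodule.span_le]
    rintro _ ⟨z, hz, rfl⟩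
    exact ⟨⟨_, hYi z hz⟩, rfl⟩
  have hJmap : Submodule.map ι J = N.map L := by
    rw [Submodule.map_comap_eq, inf_eq_right.mpr hle]
  have hJfg : J.FG := by
    refine Submodule.fg_of_fg_map_injective ι hιinj ?_
    rw [hJmap]
    exact Submodule.FG.map L ⟨S, rfl⟩
  obtain ⟨d0, hd0⟩ := IsBezout.isPrincipal_of_FG J hJfg
  have hd0J : d0 ∈ J := by
    rw [hd0]
    exact Submodule.mem_span_singleton_self d0
  obtain ⟨d, hd, hdd⟩ := (show ι d0 ∈ N.map L from hd0J)
  refine ⟨d, hd, fun x hx => ?_⟩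
  have h1 : L x ∈ N.map L := ⟨x, hx, rfl⟩
  obtain ⟨c, hc⟩ := hle h1
  have hcJ : c ∈ J := by
    show ι c ∈ N.map L
    rw [hc]
    exact h1
  rw [hd0] at hcJ
  obtain ⟨r, hr⟩ := Submodule.mem_span_singleton.mp hcJ
  refine ⟨r, mul_left_cancel₀ hYC ?_⟩
  rw [hL] at hc hdd
  rw [← hc, ← hr, mul_left_comm, hdd]
  rfl

private theorem lat (m : ℕ) : ∀ M : Submodule Zb (Fin m → ℂ), M.FG →
    (∀ v ∈ M, ∀ i, IsAlgebraic ℚ (v i)) →
    ∃ b : Fin m → (Fin m → ℂ), M = Submodule.span Zb (Set.range b) := by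
  induction m with
  | zero =>
    intro M _ _
    exact ⟨0, Subsingleton.elim _ _⟩
  | succ m ih =>
    intro M hfg halg
    let π : (Fin (m + 1) → ℂ) →ₗ[Zb] ℂ := LinearMap.proj 0
    obtain ⟨d, hd, hdall⟩ := princ (M.map π) (hfg.map π)
      (by rintro _ ⟨v, hv, rfl⟩; exact halg v hv 0)
    obtain ⟨v0, hv0, hv0d⟩ := hd
    have hv0d' : v0 0 = d := hv0d
    let ρ : (Fin (m + 1) → ℂ) →ₗ[Zb] (Fin (m + 1) → ℂ) :=
      { toFun := fun v => v - (v 0 / d) • v0
        map_add' := by
          intro v w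
          ext i
          simp only [Pi.add_apply, Pi.sub_apply, Pi.smul_apply, smul_eq_mul]
          ring
        map_smul' := by
          intro r v
          ext i
          simp only [Pi.sub_apply, Pi.smul_apply, smul_eq_mul, RingHom.id_apply,
            Subalgebra.smul_def]
          ring }
    have hρ : ∀ v, ρ v = v - (v 0 / d) • v0 := fun v => rfl
    have hr : ∀ v ∈ M, ∃ r : Zb, v 0 / d = (r : ℂ) := by
      intro v hv
      obtain ⟨r, hr⟩ := hdall (v 0) ⟨v, hv, rfl⟩
      by_cases hd0 : d = 0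
      · exact ⟨0, by rw [hd0, div_zero]; rfl⟩
      · exact ⟨r, by rw [hr, mul_div_assoc, div_self hd0, mul_one]⟩
    have hρM : ∀ v ∈ M, ρ v ∈ M := by
      intro v hv
      obtain ⟨r, hr'⟩ := hr v hv
      rw [hρ, hr']
      exact M.sub_mem hv (M.smul_mem r hv0)
    have hρ0 : ∀ v ∈ M, (ρ v) 0 = 0 := by
      intro v hv
      rw [hρ, Pi.sub_apply, Pi.smul_apply, smul_eq_mul, hv0d']
      obtain ⟨r, hr'⟩ := hdall (v 0) ⟨v, hv, rfl⟩
      by_cases hd0 : d = 0
      · rw [hr', hd0]; simp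
      · rw [div_mul_cancel₀ _ hd0, sub_self]
    let τ : (Fin (m + 1) → ℂ) →ₗ[Zb] (Fin m → ℂ) := LinearMap.pi fun i => LinearMap.proj i.succ
    let κ : (Fin m → ℂ) →ₗ[Zb] (Fin (m + 1) → ℂ) :=
      { toFun := fun v => Fin.cons 0 v
        map_add' := by
          intro v w
          ext i
          refine Fin.cases ?_ (fun j => ?_) i
          · simp
          · simp
        map_smul' := by
          intro r v
          ext i
          refine Fin.cases ?_ (fun j => ?_) i
          · simp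
          · simp }
    have hκτ : ∀ v : Fin (m + 1) → ℂ, v 0 = 0 → κ (τ v) = v := by
      intro v hv
      ext i
      refine Fin.cases ?_ (fun j => ?_) i
      · exact hv.symm
      · rfl
    obtain ⟨b', hb'⟩ := ih (M.map (τ ∘ₗ ρ)) (hfg.map _) (by
      rintro _ ⟨v, hv, rfl⟩ i
      exact halg (ρ v) (hρM v hv) i.succ)
    refine ⟨Fin.cons v0 fun j => κ (b' j), le_antisymm ?_ ?_⟩
    · intro v hv
      obtain ⟨r, hr'⟩ := hr v hv
      have h1 : v = r • v0 + κ ((τ ∘ₗ ρ) v) := by
        rw [LinearMap.comp_apply, hκτ _ (hρ0 v hv), hρ, hr']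
        show v = r • v0 + (v - r • v0)
        abel
      rw [h1]
      refine Submodule.add_mem _ (Submodule.smul_mem _ _ (Submodule.subset_span ⟨0, rfl⟩)) ?_
      have h2 : (τ ∘ₗ ρ) v ∈ Submodule.span Zb (Set.range b') := by
        rw [← hb']
        exact ⟨v, hv, rfl⟩
      have h3 : κ ((τ ∘ₗ ρ) v) ∈ (Submodule.span Zb (Set.range b')).map κ := ⟨_, h2, rfl⟩
      rw [Submodule.map_span] at h3
      refine Submodule.span_mono ?_ h3
      rintro _ ⟨_, ⟨j, rfl⟩, rfl⟩
      exact ⟨j.succ, rfl⟩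
    · rw [Submodule.span_le]
      rintro _ ⟨i, rfl⟩
      refine Fin.cases ?_ (fun j => ?_) i
      · exact hv0
      · have h2 : b' j ∈ M.map (τ ∘ₗ ρ) := by
          rw [hb']
          exact Submodule.subset_span ⟨j, rfl⟩
        obtain ⟨v, hv, hv'⟩ := h2
        show κ (b' j) ∈ M
        rw [← hv', LinearMap.comp_apply, hκτ _ (hρ0 v hv)]
        exact hρM v hv

end PZbar

/-- a lattice over the ring of all algebraic integers has a basis -/
theorem zbar_basis {m : ℕ} (S : Finset (Fin m → ℂ)) (halg : ∀ v ∈ S, ∀ i, IsAlgebraic ℚ (v i))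
    (hspan : Submodule.span ℂ (S : Set (Fin m → ℂ)) = ⊤) :
    ∃ h : Matrix (Fin m) (Fin m) ℂ, IsUnit h.det ∧ (∀ i j, IsAlgebraic ℚ (h i j)) ∧
      (∀ v ∈ S, ∀ i, IsIntegral ℤ ((h⁻¹).mulVec v i)) ∧
      ∀ j, ∃ z : (Fin m → ℂ) → ℂ, (∀ v, IsIntegral ℤ (z v)) ∧
        (fun i => h i j) = ∑ v ∈ S, z v • v := by
  classical
  obtain ⟨b, hb⟩ := PZbar.lat m (Submodule.span PZbar.Zb (S : Set (Fin m → ℂ))) ⟨S, rfl⟩ (by
    intro v hv
    induction hv using Submodule.span_induction with
    | mem v hv => exact halg v hv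
    | zero => exact fun i => isAlgebraic_zero
    | add v w _ _ hv hw => exact fun i => (hv i).add (hw i)
    | smul r v _ hv =>
      intro i
      have h1 : IsAlgebraic ℚ (r : ℂ) := (r.2.tower_top (A := ℚ)).isAlgebraic
      exact h1.mul (hv i))
  have hbS : ∀ v ∈ S, ∃ c : Fin m → PZbar.Zb, ∑ j, c j • b j = v := by
    intro v hv
    have h1 : v ∈ Submodule.span PZbar.Zb (Set.range b) := by
      rw [← hb]
      exact Submodule.subset_span hv
    exact Submodule.mem_span_range_iff_exists_fun _ |>.mp h1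
  have htop : ⊤ ≤ Submodule.span ℂ (Set.range b) := by
    rw [← hspan, Submodule.span_le]
    intro v hv
    obtain ⟨c, hc⟩ := hbS v hv
    rw [← hc]
    exact Submodule.sum_mem _ fun j _ => Submodule.smul_mem _ ((c j : PZbar.Zb) : ℂ)
      (Submodule.subset_span ⟨j, rfl⟩)
  have hli : LinearIndependent ℂ b :=
    linearIndependent_of_top_le_span_of_card_eq_finrank htop (by simp)
  let h : Matrix (Fin m) (Fin m) ℂ := Matrix.of fun i j => b j i
  have hunit : IsUnit h := by
    rw [← Matrix.linearIndependent_cols_iff_isUnit]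
    exact hli
  have hdet : IsUnit h.det := (Matrix.isUnit_iff_isUnit_det _).mp hunit
  have hbM : ∀ j, b j ∈ Submodule.span PZbar.Zb (S : Set (Fin m → ℂ)) := fun j => by
    rw [hb]
    exact Submodule.subset_span ⟨j, rfl⟩
  refine ⟨h, hdet, ?_, ?_, ?_⟩
  · intro i j
    show IsAlgebraic ℚ (b j i)
    have h1 : ∀ v ∈ Submodule.span PZbar.Zb (S : Set (Fin m → ℂ)), ∀ i, IsAlgebraic ℚ (v i) := by
      intro v hv
      induction hv using Submodule.span_induction with
      | mem v hv => exact halg v hv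
      | zero => exact fun i => isAlgebraic_zero
      | add v w _ _ hv hw => exact fun i => (hv i).add (hw i)
      | smul r v _ hv =>
        intro i
        have h1 : IsAlgebraic ℚ (r : ℂ) := (r.2.tower_top (A := ℚ)).isAlgebraic
        exact h1.mul (hv i)
    exact h1 _ (hbM j) i
  · intro v hv i
    obtain ⟨c, hc⟩ := hbS v hv
    have h1 : v = h.mulVec fun j => (c j : ℂ) := by
      rw [← hc]
      ext i
      rw [Finset.sum_apply, Matrix.mulVec, dotProduct]
      refine Finset.sum_congr rfl fun j _ => ?_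
      show ((c j : PZbar.Zb) : ℂ) * b j i = b j i * (c j : ℂ)
      ring
    have h2 : (h⁻¹).mulVec v = fun j => (c j : ℂ) := by
      rw [h1, Matrix.mulVec_mulVec, Matrix.nonsing_inv_mul _ hdet, Matrix.one_mulVec]
    rw [h2]
    exact (c i).2
  · intro j
    obtain ⟨f, _, hf⟩ := Submodule.mem_span_finset.mp (hbM j)
    exact ⟨fun v => (f v : ℂ), fun v => (f v).2, hf.symm⟩

end Vale.Agent.P002
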