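import Vale.Agent.P002.OpenStep

namespace Vale.Agent.P002

open Matrix Topology Polynomial

section rankone

variable {n : Type*} [Fintype n] [DecidableEq n]

theorem det_rank_one_field {K : Type*} [Field K] (A : Matrix n n K) (hA : A.det ≠ 0)
    (u v : n → K) : (A + vecMulVec u v).det = A.det + v ⬝ᵥ (A.adjugate *ᵥ u) := by
  have hU : IsUnit A.det := isUnit_iff_ne_zero.mpr hA
  rw [vecMulVec_eq Unit, det_add_replicateCol_mul_replicateRow hU]
  rw [det_unique (1 + replicateRow Unit v * A⁻¹ * replicateCol Unit u)]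
  have h1 : (replicateRow Unit v * A⁻¹ * replicateCol Unit u) default default =
      v ⬝ᵥ (A⁻¹ *ᵥ u) := by
    rw [Matrix.mul_assoc]
    simp [Matrix.mul_apply, dotProduct, Matrix.mulVec]
  rw [Matrix.add_apply, h1, Matrix.inv_def, Ring.inverse_eq_inv', smul_mulVec, dotProduct_smul,
    smul_eq_mul, one_apply_eq, mul_add, mul_one, ← mul_assoc, mul_inv_cancel₀ hA, one_mul]

theorem det_rank_one_domain {R : Type*} [CommRing R] [IsDomain R] (A : Matrix n n R)
    (hA : A.det ≠ 0) (u v : n → R) :
    (A + vecMulVec u v).det = A.det + v ⬝ᵥ (A.adjugate *ᵥ u) := by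
  have hinj : Function.Injective (algebraMap R (FractionRing R)) :=
    IsFractionRing.injective R (FractionRing R)
  apply hinj
  have h1 : ((algebraMap R (FractionRing R)).mapMatrix A).det ≠ 0 := by
    rw [← RingHom.map_det]
    intro h
    exact hA (hinj (by rw [h, map_zero]))
  have h2 := det_rank_one_field ((algebraMap R (FractionRing R)).mapMatrix A) h1
    (fun i => algebraMap R (FractionRing R) (u i)) (fun i => algebraMap R (FractionRing R) (v i))
  rw [RingHom.map_det, map_add (algebraMap R (FractionRing R)), RingHom.map_det]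
  have e1 : (algebraMap R (FractionRing R)).mapMatrix (A + vecMulVec u v) =
      (algebraMap R (FractionRing R)).mapMatrix A +
        vecMulVec (fun i => algebraMap R (FractionRing R) (u i))
          (fun i => algebraMap R (FractionRing R) (v i)) := by
    ext i j
    simp [vecMulVec_apply]
  rw [e1, h2, ← RingHom.map_adjugate]
  congr 1
  simp only [dotProduct, mulVec, map_sum, map_mul, RingHom.mapMatrix_apply, map_apply]

theorem det_rank_one {R : Type*} [CommRing R] [IsDomain R] (A : Matrix n n R)
    (u v : n → R) :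
    (A + vecMulVec u v).det = A.det + v ⬝ᵥ (A.adjugate *ᵥ u) := by
  have h1 : (charmatrix (-A)).det ≠ 0 := by
    have : (-A).charpoly.Monic := charpoly_monic _
    exact this.ne_zero
  have h2 := det_rank_one_domain (charmatrix (-A)) h1 (fun i => C (u i)) (fun i => C (v i))
  have h3 := congrArg (Polynomial.evalRingHom (0 : R)) h2
  rw [RingHom.map_det, map_add (Polynomial.evalRingHom (0 : R)) (charmatrix (-A)).det,
    RingHom.map_det] at h3
  have e0 : (Polynomial.evalRingHom (0 : R)).mapMatrix (charmatrix (-A)) = A := by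
    ext i j
    simp only [RingHom.mapMatrix_apply, map_apply, charmatrix_apply, Polynomial.coe_evalRingHom]
    by_cases h : i = j
    · subst h; simp
    · simp [Matrix.diagonal_apply_ne _ h]
  have e1 : (Polynomial.evalRingHom (0 : R)).mapMatrix
      (charmatrix (-A) + vecMulVec (fun i => C (u i)) (fun i => C (v i))) =
      A + vecMulVec u v := by
    rw [map_add, e0]
    congr 1
    ext i j
    simp [vecMulVec_apply]
  rw [e1, e0] at h3
  rw [h3]
  congr 1
  simp only [dotProduct, mulVec, map_sum, map_mul]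
  apply Finset.sum_congr rfl
  intro i _
  congr 1
  · simp
  · apply Finset.sum_congr rfl
    intro j _
    congr 1
    · have := congrFun (congrFun (RingHom.map_adjugate (Polynomial.evalRingHom (0 : R))
        (charmatrix (-A))) i) j
      rw [e0] at this
      exact this
    · simp

end rankone

section charp

variable {r : ℕ}

theorem charpoly_add_rank_one (M : Mat r) (u v : Fin r → ℂ) :
    (M + vecMulVec u v).charpoly = M.charpoly -
      (fun i => C (v i)) ⬝ᵥ ((charmatrix M).adjugate *ᵥ (fun i => C (u i))) := by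
  unfold Matrix.charpoly
  have h1 : charmatrix (M + vecMulVec u v) =
      charmatrix M + vecMulVec (fun i => - C (u i)) (fun i => C (v i)) := by
    ext i j : 2
    simp only [charmatrix_apply, Matrix.add_apply, vecMulVec_apply, map_add, map_mul]
    rw [← sub_sub, neg_mul, ← sub_eq_add_neg]
  rw [h1, det_rank_one, sub_eq_add_neg]
  congr 1
  have h2 : (fun i => - C (u i)) = -(fun i => C (u i)) := rfl
  rw [h2, mulVec_neg, dotProduct_neg]

theorem charpoly_ext_of (M N : Mat r) (h0 : M.det = N.det)
    (h : ∀ k : Fin r, (k : ℕ) ≠ 0 → M.charpoly.coeff k = N.charpoly.coeff k) :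
    M.charpoly = N.charpoly := by
  ext k
  have hM : M.charpoly.natDegree = r := by simp
  have hN : N.charpoly.natDegree = r := by simp
  have mM : M.charpoly.Monic := charpoly_monic _
  have mN : N.charpoly.Monic := charpoly_monic _
  rcases lt_trichotomy k r with hk | hk | hk
  · rcases Nat.eq_zero_or_pos k with h1 | h1
    · subst h1
      have e1 := Matrix.det_eq_sign_charpoly_coeff M
      have e2 := Matrix.det_eq_sign_charpoly_coeff N
      rw [e1, e2] at h0
      exact mul_left_cancel₀ (pow_ne_zero _ (by norm_num)) h0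
    · exact h ⟨k, hk⟩ (by simpa using h1.ne')
  · subst hk
    have e1 := mM.coeff_natDegree
    have e2 := mN.coeff_natDegree
    rw [hM] at e1
    rw [hN] at e2
    rw [e1, e2]
  · rw [coeff_eq_zero_of_natDegree_lt (by rw [hM]; exact hk),
      coeff_eq_zero_of_natDegree_lt (by rw [hN]; exact hk)]

noncomputable def rhsVec (y a : Mat r) (d : ℂ) : Fin r → ℂ := fun k =>
  if (k : ℕ) = 0 then d - a.det else ((y * a).charpoly - a.charpoly).coeff k

theorem solve_point (y a : Mat r) (v : Fin r → ℂ) (d : ℂ) (hy : y.det = 1) (hr : 0 < r)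
    (hv : sysMat y a *ᵥ v = rhsVec y a d) :
    (y * (a + vecMulVec (fun _ => 1) v)).charpoly = (a + vecMulVec (fun _ => 1) v).charpoly ∧
      (a + vecMulVec (fun _ => 1) v).det = d := by
  constructor
  · apply charpoly_ext_of
    · rw [det_mul, hy, one_mul]
    · intro k hk
      have h1 := congrFun hv k
      simp only [rhsVec, hk, if_false, sysMat, mulVec, dotProduct, Matrix.of_apply] at h1
      have e1 : y * (a + vecMulVec (fun _ => 1) v) =
          y * a + vecMulVec (y *ᵥ (fun _ => 1)) v := by
        rw [Matrix.mul_add]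
        congr 1
        ext i j
        simp [Matrix.mul_apply, vecMulVec_apply, mulVec, dotProduct, Finset.sum_mul]
      rw [e1, charpoly_add_rank_one, charpoly_add_rank_one]
      have h2 : ((y * a).charpoly - a.charpoly).coeff k =
          ((fun i => C (v i)) ⬝ᵥ ((charmatrix (y * a)).adjugate *ᵥ
            (fun i => C ((y *ᵥ (fun _ => 1)) i)))).coeff k -
          ((fun i => C (v i)) ⬝ᵥ ((charmatrix a).adjugate *ᵥ
            (fun _ => C (1 : ℂ)))).coeff k := by
        rw [← h1, ← coeff_sub]
        simp only [dotProduct]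
        rw [← Finset.sum_sub_distrib, finsetSum_coeff]
        apply Finset.sum_congr rfl
        intro j _
        rw [← mul_sub, coeff_C_mul, mul_comm]
        simp only [mulVec, dotProduct, map_one]
      rw [coeff_sub] at h2
      rw [coeff_sub, coeff_sub]
      linear_combination h2
  · have h1 := congrFun hv ⟨0, hr⟩
    simp only [rhsVec, if_true, sysMat, mulVec, dotProduct, Matrix.of_apply] at h1
    rw [det_rank_one]
    have h2 : v ⬝ᵥ (a.adjugate *ᵥ fun _ => 1) = d - a.det := by
      rw [← h1]
      simp only [dotProduct, mulVec]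
      apply Finset.sum_congr rfl
      intro j _
      rw [mul_comm]
    rw [h2]; ring

end charp

section kry

variable {r : ℕ}

noncomputable def cmpn (p : ℂ[X]) : Mat r := Matrix.of fun i j =>
  if (j : ℕ) + 1 < r then (if (i : ℕ) = j + 1 then 1 else 0) else - p.coeff i

theorem pow_eq_of_charpoly (a : Mat r) :
    a ^ r = - ∑ k : Fin r, a.charpoly.coeff k • a ^ (k : ℕ) := by
  have h := Matrix.aeval_self_charpoly a
  rw [Polynomial.aeval_eq_sum_range] at h
  have hd : a.charpoly.natDegree = r := by simp
  have hm : a.charpoly.coeff r = 1 := by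
    have := (charpoly_monic a).coeff_natDegree
    rwa [hd] at this
  rw [hd, Finset.sum_range_succ, hm, one_smul] at h
  rw [Finset.sum_range] at h
  exact eq_neg_of_add_eq_zero_right h

theorem mul_krylov (a : Mat r) (v : Fin r → ℂ) :
    a * krylov a v = krylov a v * cmpn a.charpoly := by
  ext i j
  have hL : (a * krylov a v) i j = ((a ^ ((j : ℕ) + 1)) *ᵥ v) i := by
    rw [pow_succ', ← mulVec_mulVec]
    rfl
  rw [hL]
  by_cases hj : (j : ℕ) + 1 < r
  · rw [Matrix.mul_apply]
    rw [Finset.sum_eq_single (⟨(j : ℕ) + 1, hj⟩ : Fin r)]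
    · simp [krylov, cmpn, hj]
    · intro b _ hb
      have : (b : ℕ) ≠ j + 1 := fun h => hb (Fin.ext h)
      simp [cmpn, hj, this]
    · intro h; exact absurd (Finset.mem_univ _) h
  · have hj2 : (j : ℕ) + 1 = r := by have := j.2; omega
    rw [hj2, pow_eq_of_charpoly, neg_mulVec, sum_mulVec, Matrix.mul_apply]
    simp only [Pi.neg_apply, Finset.sum_apply, smul_mulVec, Pi.smul_apply, smul_eq_mul, cmpn,
      Matrix.of_apply, hj, if_false, krylov]
    rw [← Finset.sum_neg_distrib]
    apply Finset.sum_congr rfl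
    intro k _
    ring

theorem krylov_intertwine (a m : Mat r) (v w : Fin r → ℂ) (hK : IsUnit (krylov a v).det)
    (hc : m.charpoly = a.charpoly) :
    (krylov m w * (krylov a v)⁻¹) * a = m * (krylov m w * (krylov a v)⁻¹) := by
  have h1 : (krylov m w * (krylov a v)⁻¹) * a * krylov a v =
      m * (krylov m w * (krylov a v)⁻¹) * krylov a v := by
    rw [Matrix.mul_assoc _ a, mul_krylov, Matrix.mul_assoc (krylov m w),
      Matrix.nonsing_inv_mul_cancel_left _ _ hK, ← hc, ← mul_krylov, Matrix.mul_assoc m,
      Matrix.mul_assoc (krylov m w), Matrix.nonsing_inv_mul _ hK, Matrix.mul_one]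
  have h2 := congrArg (fun M => M * (krylov a v)⁻¹) h1
  simp only [Matrix.mul_assoc, Matrix.mul_nonsing_inv _ hK, Matrix.mul_one] at h2
  simpa only [Matrix.mul_assoc] using h2

theorem krylov_conj (a b m : Mat r) (v : Fin r → ℂ) (h : m * b = b * a)
    (hK : IsUnit (krylov a v).det) :
    krylov m (b *ᵥ v) * (krylov a v)⁻¹ = b := by
  have hp : ∀ j : ℕ, m ^ j * b = b * a ^ j := by
    intro j
    induction j with
    | zero => simp
    | succ j ih => rw [pow_succ, Matrix.mul_assoc, h, ← Matrix.mul_assoc, ih, Matrix.mul_assoc,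
        ← pow_succ]
  have h1 : krylov m (b *ᵥ v) = b * krylov a v := by
    ext i j
    have : (b * krylov a v) i j = (b *ᵥ ((a ^ (j : ℕ)) *ᵥ v)) i := rfl
    rw [this, mulVec_mulVec, ← hp, ← mulVec_mulVec]
    rfl
  rw [h1, Matrix.mul_assoc, Matrix.mul_nonsing_inv _ hK, Matrix.mul_one]

theorem conj_of_mul_cm (y a b : Mat r) (h : y * cm (a, b) = 1) (ha : IsUnit a.det)
    (hb : IsUnit b.det) : (y * a) * b = b * a := by
  unfold cm at h
  simp only at h
  calc (y * a) * b = (y * (a * b * a⁻¹ * b⁻¹)) * (b * a) := by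
        simp only [Matrix.mul_assoc]
        rw [Matrix.nonsing_inv_mul_cancel_left _ _ hb, Matrix.nonsing_inv_mul _ ha,
          Matrix.mul_one]
    _ = b * a := by rw [h, Matrix.one_mul]

theorem mul_cm_of_conj (y a b : Mat r) (h : (y * a) * b = b * a) (ha : IsUnit a.det)
    (hb : IsUnit b.det) : y * cm (a, b) = 1 := by
  unfold cm
  simp only
  calc y * (a * b * a⁻¹ * b⁻¹) = ((y * a) * b) * a⁻¹ * b⁻¹ := by
        simp only [Matrix.mul_assoc]
    _ = b * (a * a⁻¹) * b⁻¹ := by rw [h]; simp only [Matrix.mul_assoc]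
    _ = 1 := by rw [Matrix.mul_nonsing_inv _ ha, Matrix.mul_one, Matrix.mul_nonsing_inv _ hb]

theorem charpoly_of_conj (y a b : Mat r) (h : (y * a) * b = b * a) (hb : IsUnit b.det) :
    (y * a).charpoly = a.charpoly := by
  have h1 : y * a = b * (a * b⁻¹) := by
    calc y * a = (y * a) * (b * b⁻¹) := by rw [Matrix.mul_nonsing_inv _ hb, Matrix.mul_one]
      _ = ((y * a) * b) * b⁻¹ := by rw [Matrix.mul_assoc (y * a)]
      _ = _ := by rw [h, Matrix.mul_assoc]
  rw [h1, Matrix.charpoly_mul_comm, Matrix.mul_assoc, Matrix.nonsing_inv_mul _ hb, Matrix.mul_one]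

end kry

end Vale.Agent.P002
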