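import Vale.Agent.P002.Param

namespace Vale.Agent.P002

open Matrix Topology Polynomial

section subalg

variable {𝓑 : Subalgebra ℂ (ℂ → ℂ)} {r : ℕ}

def Ent (𝓑 : Subalgebra ℂ (ℂ → ℂ)) {m n : Type*} (M : ℂ → Matrix m n ℂ) : Prop :=
  ∀ i j, (fun s => M s i j) ∈ 𝓑

def VEnt (𝓑 : Subalgebra ℂ (ℂ → ℂ)) {m : Type*} (v : ℂ → m → ℂ) : Prop :=
  ∀ i, (fun s => v s i) ∈ 𝓑

noncomputable def evh (𝓑 : Subalgebra ℂ (ℂ → ℂ)) (s : ℂ) : 𝓑 →+* ℂ :=
  (Pi.evalRingHom (fun _ : ℂ => ℂ) s).comp 𝓑.val.toRingHom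

theorem evh_apply (s : ℂ) (h : 𝓑) : evh 𝓑 s h = h.1 s := rfl

noncomputable def lft {M : ℂ → Mat r} (h : Ent 𝓑 M) : Matrix (Fin r) (Fin r) 𝓑 :=
  Matrix.of fun i j => ⟨fun s => M s i j, h i j⟩

theorem lft_map {M : ℂ → Mat r} (h : Ent 𝓑 M) (s : ℂ) :
    (evh 𝓑 s).mapMatrix (lft h) = M s := rfl

theorem mem_const (c : ℂ) : (fun _ : ℂ => c) ∈ 𝓑 := 𝓑.algebraMap_mem c

theorem mem_add {f g : ℂ → ℂ} (hf : f ∈ 𝓑) (hg : g ∈ 𝓑) : (fun s => f s + g s) ∈ 𝓑 :=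
  𝓑.add_mem hf hg

theorem mem_sub {f g : ℂ → ℂ} (hf : f ∈ 𝓑) (hg : g ∈ 𝓑) : (fun s => f s - g s) ∈ 𝓑 :=
  𝓑.sub_mem hf hg

theorem mem_mul {f g : ℂ → ℂ} (hf : f ∈ 𝓑) (hg : g ∈ 𝓑) : (fun s => f s * g s) ∈ 𝓑 :=
  𝓑.mul_mem hf hg

theorem mem_sum {ι : Type*} (t : Finset ι) {f : ι → ℂ → ℂ} (hf : ∀ i ∈ t, f i ∈ 𝓑) :
    (fun s => ∑ i ∈ t, f i s) ∈ 𝓑 := by
  have h := 𝓑.sum_mem hf
  convert h using 1
  ext x; simp

theorem Ent.mul {m n k : Type*} [Fintype n] {M : ℂ → Matrix m n ℂ} {N : ℂ → Matrix n k ℂ}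
    (hM : Ent 𝓑 M) (hN : Ent 𝓑 N) : Ent 𝓑 (fun s => M s * N s) := fun i j => by
  simp only [Matrix.mul_apply]
  exact mem_sum _ fun l _ => mem_mul (hM _ _) (hN _ _)

theorem Ent.add {m n : Type*} {M N : ℂ → Matrix m n ℂ}
    (hM : Ent 𝓑 M) (hN : Ent 𝓑 N) : Ent 𝓑 (fun s => M s + N s) := fun i j =>
  mem_add (hM i j) (hN i j)

theorem Ent.smul {m n : Type*} {f : ℂ → ℂ} {M : ℂ → Matrix m n ℂ} (hf : f ∈ 𝓑)
    (hM : Ent 𝓑 M) : Ent 𝓑 (fun s => f s • M s) := fun i j =>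
  mem_mul hf (hM i j)

theorem Ent.const {m n : Type*} (M : Matrix m n ℂ) : Ent 𝓑 (fun _ => M) := fun _ _ =>
  mem_const _

theorem Ent.pow {M : ℂ → Mat r} (hM : Ent 𝓑 M) (N : ℕ) : Ent 𝓑 (fun s => M s ^ N) := by
  induction N with
  | zero => simpa using Ent.const (𝓑 := 𝓑) (1 : Mat r)
  | succ N ih => simpa [pow_succ] using ih.mul hM

theorem Ent.mulVec {m n : Type*} [Fintype n] {M : ℂ → Matrix m n ℂ} {v : ℂ → n → ℂ}
    (hM : Ent 𝓑 M) (hv : VEnt 𝓑 v) : VEnt 𝓑 (fun s => M s *ᵥ v s) := fun i => by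
  simp only [Matrix.mulVec, dotProduct]
  exact mem_sum _ fun l _ => mem_mul (hM _ _) (hv _)

theorem VEnt.const {m : Type*} (v : m → ℂ) : VEnt 𝓑 (fun _ => v) := fun _ => mem_const _

theorem VEnt.add {m : Type*} {v w : ℂ → m → ℂ} (hv : VEnt 𝓑 v) (hw : VEnt 𝓑 w) :
    VEnt 𝓑 (fun s => v s + w s) := fun i => mem_add (hv i) (hw i)

theorem VEnt.smul {m : Type*} {f : ℂ → ℂ} {v : ℂ → m → ℂ} (hf : f ∈ 𝓑) (hv : VEnt 𝓑 v) :
    VEnt 𝓑 (fun s => f s • v s) := fun i => mem_mul hf (hv i)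

theorem Ent.vecMulVec {m n : Type*} {v : ℂ → m → ℂ} {w : ℂ → n → ℂ} (hv : VEnt 𝓑 v)
    (hw : VEnt 𝓑 w) : Ent 𝓑 (fun s => vecMulVec (v s) (w s)) := fun i j => by
  simp only [vecMulVec_apply]
  exact mem_mul (hv i) (hw j)

theorem Ent.det {M : ℂ → Mat r} (hM : Ent 𝓑 M) : (fun s => (M s).det) ∈ 𝓑 := by
  have h : (fun s => (M s).det) = (lft hM).det.1 := by
    funext s
    rw [← lft_map hM s, ← RingHom.map_det]
    rfl
  rw [h]
  exact (lft hM).det.2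

theorem Ent.adjugate {M : ℂ → Mat r} (hM : Ent 𝓑 M) : Ent 𝓑 (fun s => (M s).adjugate) := by
  intro i j
  have h : (fun s => (M s).adjugate i j) = ((lft hM).adjugate i j).1 := by
    funext s
    rw [← lft_map hM s, ← RingHom.map_adjugate]
    rfl
  rw [h]
  exact ((lft hM).adjugate i j).2

theorem charmatrix_lft {M : ℂ → Mat r} (hM : Ent 𝓑 M) (s : ℂ) :
    (Polynomial.mapRingHom (evh 𝓑 s)).mapMatrix (charmatrix (lft hM)) = charmatrix (M s) :=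
  (charmatrix_map (lft hM) (evh 𝓑 s)).symm

theorem Ent.charpoly_coeff {M : ℂ → Mat r} (hM : Ent 𝓑 M) (k : ℕ) :
    (fun s => (M s).charpoly.coeff k) ∈ 𝓑 := by
  have h : (fun s => (M s).charpoly.coeff k) = ((lft hM).charpoly.coeff k).1 := by
    funext s
    have h1 : M s = (lft hM).map (evh 𝓑 s) := rfl
    rw [h1, Matrix.charpoly_map, Polynomial.coeff_map]
    rfl
  rw [h]
  exact ((lft hM).charpoly.coeff k).2

theorem Ent.adj_coeff {M : ℂ → Mat r} (hM : Ent 𝓑 M) (i j : Fin r) (k : ℕ) :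
    (fun s => ((charmatrix (M s)).adjugate i j).coeff k) ∈ 𝓑 := by
  have h : (fun s => ((charmatrix (M s)).adjugate i j).coeff k) =
      (((charmatrix (lft hM)).adjugate i j).coeff k).1 := by
    funext s
    have h1 := congrFun (congrFun (RingHom.map_adjugate (Polynomial.mapRingHom (evh 𝓑 s))
      (charmatrix (lft hM))) i) j
    rw [charmatrix_lft hM s] at h1
    rw [← h1, RingHom.mapMatrix_apply, Matrix.map_apply, Polynomial.coe_mapRingHom,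
      Polynomial.coeff_map]
    rfl
  rw [h]
  exact (((charmatrix (lft hM)).adjugate i j).coeff k).2

theorem Ent.sysMat {y a : ℂ → Mat r} (hy : Ent 𝓑 y) (ha : Ent 𝓑 a) :
    Ent 𝓑 (fun s => sysMat (y s) (a s)) := by
  intro k j
  by_cases hk : (k : ℕ) = 0
  · simp only [Vale.Agent.P002.sysMat, Matrix.of_apply, hk, if_true]
    exact (Ent.mulVec ha.adjugate (VEnt.const _)) j
  · simp only [Vale.Agent.P002.sysMat, Matrix.of_apply, hk, if_false, coeff_sub]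
    apply mem_sub
    · simp only [Matrix.mulVec, dotProduct, finsetSum_coeff, coeff_mul_C]
      refine mem_sum _ fun l _ => mem_mul (Ent.adj_coeff (hy.mul ha) _ _ _) ?_
      simp only [mul_one]
      exact mem_sum _ fun l' _ => hy _ _
    · simp only [Matrix.mulVec, dotProduct, finsetSum_coeff, mul_one]
      exact mem_sum _ fun l _ => Ent.adj_coeff ha _ _ _

theorem Ent.krylov {a : ℂ → Mat r} {v : ℂ → Fin r → ℂ} (ha : Ent 𝓑 a) (hv : VEnt 𝓑 v) :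
    Ent 𝓑 (fun s => krylov (a s) (v s)) := fun i j => by
  simp only [Vale.Agent.P002.krylov, Matrix.of_apply]
  exact (Ent.mulVec (ha.pow _) hv) i

theorem VEnt.rhsVec {y a : ℂ → Mat r} {d : ℂ → ℂ} (hy : Ent 𝓑 y) (ha : Ent 𝓑 a) (hd : d ∈ 𝓑) :
    VEnt 𝓑 (fun s => rhsVec (y s) (a s) (d s)) := by
  intro k
  by_cases hk : (k : ℕ) = 0
  · simp only [Vale.Agent.P002.rhsVec, hk, if_true]
    exact mem_sub hd ha.det
  · simp only [Vale.Agent.P002.rhsVec, hk, if_false, coeff_sub]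
    exact mem_sub ((hy.mul ha).charpoly_coeff _) (ha.charpoly_coeff _)

variable {P : (ℂ → ℂ) → Prop} (hP : ∀ h ∈ 𝓑, P h → (fun s => (h s)⁻¹) ∈ 𝓑)

include hP in
theorem Ent.inv {M : ℂ → Mat r} (hM : Ent 𝓑 M) (h : P (fun s => (M s).det)) :
    Ent 𝓑 (fun s => (M s)⁻¹) := fun i j => by
  simp only [Matrix.inv_def, Ring.inverse_eq_inv', Matrix.smul_apply, smul_eq_mul]
  exact mem_mul (hP _ hM.det h) (hM.adjugate i j)

include hP in
theorem ent_cm {p : ℂ → Mat r × Mat r} (h1 : Ent 𝓑 (fun s => (p s).1))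
    (h2 : Ent 𝓑 (fun s => (p s).2)) (p1 : P (fun s => (p s).1.det)) (p2 : P (fun s => (p s).2.det)) :
    Ent 𝓑 (fun s => cm (p s)) := by
  unfold cm
  exact ((h1.mul h2).mul (h1.inv hP p1)).mul (h2.inv hP p2)

include hP in
theorem ent_Kp {g : ℕ} {x : ℂ → Tup g r} (h1 : ∀ i, Ent 𝓑 (fun s => (x s i).1))
    (h2 : ∀ i, Ent 𝓑 (fun s => (x s i).2)) (p1 : ∀ i, P (fun s => (x s i).1.det))
    (p2 : ∀ i, P (fun s => (x s i).2.det)) : Ent 𝓑 (fun s => Kp (x s)) := by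
  induction g with
  | zero =>
    have : (fun s => Kp (x s)) = fun _ => (1 : Mat r) := by
      funext s; simp [Kp]
    rw [this]
    exact Ent.const _
  | succ g ih =>
    have : (fun s => Kp (x s)) = fun s => cm (x s 0) * Kp (fun i : Fin g => x s i.succ) := by
      funext s
      unfold Kp
      rw [List.ofFn_succ, List.prod_cons]
    rw [this]
    exact (ent_cm hP (h1 0) (h2 0) (p1 0) (p2 0)).mul
      (ih (fun i => h1 i.succ) (fun i => h2 i.succ) (fun i => p1 i.succ) (fun i => p2 i.succ))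

end subalg

section lent

variable {𝓑 : Subalgebra ℂ (ℂ → ℂ)}

def LEnt (𝓑 : Subalgebra ℂ (ℂ → ℂ)) {E : Type*} [AddCommGroup E] [Module ℂ E] (T : ℂ → E) :
    Prop := ∀ l : E →ₗ[ℂ] ℂ, (fun s => l (T s)) ∈ 𝓑

theorem lEnt_prodMk {E E' : Type*} [AddCommGroup E] [Module ℂ E] [AddCommGroup E'] [Module ℂ E']
    {S : ℂ → E} {T : ℂ → E'} (hS : LEnt 𝓑 S) (hT : LEnt 𝓑 T) :
    LEnt 𝓑 (fun x => (S x, T x)) := fun l => by
  have h := mem_add (hS (l.comp (LinearMap.inl ℂ E E'))) (hT (l.comp (LinearMap.inr ℂ E E')))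
  convert h using 1
  ext x
  simp only [LinearMap.comp_apply, LinearMap.inl_apply, LinearMap.inr_apply]
  rw [← map_add]; simp

theorem lEnt_pi {ι : Type*} [Fintype ι] [DecidableEq ι] {F : ι → Type*}
    [∀ i, AddCommGroup (F i)] [∀ i, Module ℂ (F i)] {T : ℂ → (i : ι) → F i}
    (hT : ∀ i, LEnt 𝓑 (fun x => T x i)) : LEnt 𝓑 T := fun l => by
  have h := mem_sum (𝓑 := 𝓑) Finset.univ
    (f := fun i x => (l.comp (LinearMap.single ℂ F i)) (T x i)) (fun i _ => hT i _)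
  convert h using 1
  ext x
  simp only [LinearMap.comp_apply]
  rw [← map_sum]
  congr 1
  exact (LinearMap.sum_single_apply F (T x)).symm

theorem lEnt_of_ent {n m : Type*} [Fintype n] [DecidableEq n] [Fintype m] [DecidableEq m]
    {T : ℂ → Matrix n m ℂ} (h : Ent 𝓑 T) : LEnt 𝓑 T := fun l => by
  have h2 := mem_sum (𝓑 := 𝓑) (Finset.univ : Finset (n × m))
    (f := fun p x => T x p.1 p.2 * l (Matrix.single p.1 p.2 1))
    (fun p _ => mem_mul (h p.1 p.2) (mem_const _))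
  convert h2 using 1
  ext x
  conv_lhs => rw [Matrix.matrix_eq_sum_single (T x)]
  rw [map_sum, Fintype.sum_prod_type]
  refine Finset.sum_congr rfl fun i _ => ?_
  rw [map_sum]
  refine Finset.sum_congr rfl fun j _ => ?_
  have : Matrix.single i j (T x i j) = (T x i j) • Matrix.single i j (1 : ℂ) := by
    simp
  rw [this, map_smul, smul_eq_mul]

theorem polyFun_lEnt {E : Type*} [AddCommGroup E] [Module ℂ E] {f : E → ℂ} (hf : f ∈ PolyFun E)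
    {T : ℂ → E} (hT : LEnt 𝓑 T) : (fun s => f (T s)) ∈ 𝓑 := by
  unfold PolyFun at hf
  induction hf using Algebra.adjoin_induction with
  | mem x hx =>
    obtain ⟨l, rfl⟩ := hx
    exact hT l
  | algebraMap c => exact mem_const c
  | add f g _ _ hf hg => exact mem_add hf hg
  | mul f g _ _ hf hg => exact mem_mul hf hg

end lent

section path

variable {g r : ℕ}

noncomputable def pRho (x0 x1 : Tup (g + 1) r) (s : ℂ) : Tup g r := fun i =>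
  ((1 - s) • (x0 i.castSucc).1 + s • (x1 i.castSucc).1,
    (1 - s) • (x0 i.castSucc).2 + s • (x1 i.castSucc).2)

noncomputable def pA (x0 x1 : Tup (g + 1) r) (s : ℂ) : Mat r :=
  (1 - s) • (x0 (Fin.last g)).1 + s • (x1 (Fin.last g)).1

noncomputable def pY (x0 x1 : Tup (g + 1) r) (s : ℂ) : Mat r := Kp (pRho x0 x1 s)

noncomputable def pD (x0 x1 : Tup (g + 1) r) (s : ℂ) : ℂ :=
  (1 - s) * (x0 (Fin.last g)).1.det + s * (x1 (Fin.last g)).1.det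

noncomputable def pS (x0 x1 : Tup (g + 1) r) (s : ℂ) : Mat r :=
  sysMat (pY x0 x1 s) (pA x0 x1 s)

noncomputable def pV (x0 x1 : Tup (g + 1) r) (s : ℂ) : Fin r → ℂ :=
  (pS x0 x1 s)⁻¹ *ᵥ rhsVec (pY x0 x1 s) (pA x0 x1 s) (pD x0 x1 s)

noncomputable def pAA (x0 x1 : Tup (g + 1) r) (s : ℂ) : Mat r :=
  pA x0 x1 s + vecMulVec (fun _ => 1) (pV x0 x1 s)

noncomputable def pW (x0 x1 : Tup (g + 1) r) (s : ℂ) : Fin r → ℂ :=
  (1 - s) • ((x0 (Fin.last g)).2 *ᵥ fun _ => 1) + s • ((x1 (Fin.last g)).2 *ᵥ fun _ => 1)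

noncomputable def pK (x0 x1 : Tup (g + 1) r) (s : ℂ) : Mat r :=
  krylov (pAA x0 x1 s) (fun _ => 1)

noncomputable def pB (x0 x1 : Tup (g + 1) r) (s : ℂ) : Mat r :=
  krylov (pY x0 x1 s * pAA x0 x1 s) (pW x0 x1 s) * (pK x0 x1 s)⁻¹

noncomputable def pX (x0 x1 : Tup (g + 1) r) (s : ℂ) : Tup (g + 1) r :=
  Fin.snoc (α := fun _ => Mat r × Mat r) (pRho x0 x1 s) (pAA x0 x1 s, pB x0 x1 s)

theorem Kp_last (x : Tup (g + 1) r) :
    Kp x = Kp (fun i : Fin g => x i.castSucc) * cm (x (Fin.last g)) := by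
  rw [Kp_snoc_eq, Kp_eq, cm_eq]

theorem det_Kp (x : Tup g r) (hx : Inv x) : (Kp x).det = 1 := by
  rw [Kp_eq]; exact det_kpA x hx

theorem pEnd (x0 x1 X : Tup (g + 1) r) (s : ℂ) (h1 : pRho x0 x1 s = fun i => X i.castSucc)
    (h2 : pA x0 x1 s = (X (Fin.last g)).1) (h3 : pD x0 x1 s = (X (Fin.last g)).1.det)
    (h4 : pW x0 x1 s = (X (Fin.last g)).2 *ᵥ fun _ => 1) (hX : Inv X) (hk : Kp X = 1)
    (hg : Good (X (Fin.last g))) :
    (pS x0 x1 s).det ≠ 0 ∧ (pK x0 x1 s).det ≠ 0 ∧ pX x0 x1 s = X := by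
  have hk2 : pY x0 x1 s * cm (X (Fin.last g)) = 1 := by
    rw [← hk, Kp_last, pY, h1]
  have hy : pY x0 x1 s = (cm (X (Fin.last g)))⁻¹ := (Matrix.inv_eq_left_inv hk2).symm
  have hS : (pS x0 x1 s).det ≠ 0 := by
    rw [pS, hy, h2]; exact hg.1
  have ha := (hX (Fin.last g)).1
  have hb := (hX (Fin.last g)).2
  have hconj := conj_of_mul_cm _ (X (Fin.last g)).1 (X (Fin.last g)).2 hk2 ha hb
  have hch := charpoly_of_conj _ _ _ hconj hb
  have hV : pV x0 x1 s = 0 := by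
    rw [pV]
    have : rhsVec (pY x0 x1 s) (pA x0 x1 s) (pD x0 x1 s) = 0 := by
      funext k
      rw [rhsVec, h2, h3, hch]
      by_cases hk0 : (k : ℕ) = 0
      · simp [hk0]
      · simp [hk0]
    rw [this, mulVec_zero]
  have hAA : pAA x0 x1 s = (X (Fin.last g)).1 := by
    rw [pAA, hV, h2]
    ext i j
    simp
  have hK : (pK x0 x1 s).det ≠ 0 := by
    rw [pK, hAA]; exact hg.2
  refine ⟨hS, hK, ?_⟩
  have hB : pB x0 x1 s = (X (Fin.last g)).2 := by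
    rw [pB, pK, hAA, h4]
    exact krylov_conj _ _ _ _ hconj (isUnit_iff_ne_zero.mpr hg.2)
  rw [pX, hAA, hB, h1]
  funext i
  refine Fin.lastCases ?_ ?_ i
  · simp
  · intro j; simp

theorem pValid (hr : 0 < r) (x0 x1 : Tup (g + 1) r) (s : ℂ) (h1 : Inv (pRho x0 x1 s))
    (h2 : (pS x0 x1 s).det ≠ 0) (h3 : (pK x0 x1 s).det ≠ 0) (h4 : (pAA x0 x1 s).det ≠ 0)
    (h5 : (pB x0 x1 s).det ≠ 0) : Kp (pX x0 x1 s) = 1 := by
  have hy : (pY x0 x1 s).det = 1 := det_Kp _ h1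
  have hv : sysMat (pY x0 x1 s) (pA x0 x1 s) *ᵥ pV x0 x1 s =
      rhsVec (pY x0 x1 s) (pA x0 x1 s) (pD x0 x1 s) := by
    rw [pV, mulVec_mulVec]
    have : sysMat (pY x0 x1 s) (pA x0 x1 s) * (pS x0 x1 s)⁻¹ = 1 :=
      Matrix.mul_nonsing_inv _ (isUnit_iff_ne_zero.mpr h2)
    rw [this, one_mulVec]
  obtain ⟨hch, -⟩ := solve_point _ _ _ _ hy hr hv
  have hi := krylov_intertwine (pAA x0 x1 s) (pY x0 x1 s * pAA x0 x1 s) (fun _ => 1)
    (pW x0 x1 s) (isUnit_iff_ne_zero.mpr h3) hch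
  have hm := mul_cm_of_conj (pY x0 x1 s) (pAA x0 x1 s) (pB x0 x1 s) hi.symm
    (isUnit_iff_ne_zero.mpr h4) (isUnit_iff_ne_zero.mpr h5)
  rw [Kp_last]
  simpa [pX, pY] using hm

variable {𝓑 : Subalgebra ℂ (ℂ → ℂ)} {P : (ℂ → ℂ) → Prop}

theorem pEnt (hP : ∀ h ∈ 𝓑, P h → (fun s => (h s)⁻¹) ∈ 𝓑) (hid : (fun s : ℂ => s) ∈ 𝓑)
    (x0 x1 : Tup (g + 1) r) (h1 : ∀ i, P (fun s => (pRho x0 x1 s i).1.det))
    (h2 : ∀ i, P (fun s => (pRho x0 x1 s i).2.det)) (h3 : P (fun s => (pS x0 x1 s).det))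
    (h4 : P (fun s => (pK x0 x1 s).det)) :
    LEnt 𝓑 (pX x0 x1) ∧ Ent 𝓑 (pS x0 x1) ∧ Ent 𝓑 (pK x0 x1) ∧ Ent 𝓑 (pAA x0 x1) ∧
      Ent 𝓑 (pB x0 x1) ∧ (∀ i, Ent 𝓑 (fun s => (pRho x0 x1 s i).1)) ∧
      (∀ i, Ent 𝓑 (fun s => (pRho x0 x1 s i).2)) := by
  have hid' : (fun s : ℂ => 1 - s) ∈ 𝓑 := mem_sub (mem_const 1) hid
  have e1 : ∀ i, Ent 𝓑 (fun s => (pRho x0 x1 s i).1) := fun i =>
    (Ent.smul hid' (Ent.const _)).add (Ent.smul hid (Ent.const _))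
  have e2 : ∀ i, Ent 𝓑 (fun s => (pRho x0 x1 s i).2) := fun i =>
    (Ent.smul hid' (Ent.const _)).add (Ent.smul hid (Ent.const _))
  have e3 : Ent 𝓑 (pY x0 x1) := ent_Kp hP e1 e2 h1 h2
  have e4 : Ent 𝓑 (pA x0 x1) :=
    (Ent.smul hid' (Ent.const _)).add (Ent.smul hid (Ent.const _))
  have e5 : pD x0 x1 ∈ 𝓑 :=
    mem_add (mem_mul hid' (mem_const _)) (mem_mul hid (mem_const _))
  have e6 : Ent 𝓑 (pS x0 x1) := Ent.sysMat e3 e4
  have e7 : VEnt 𝓑 (pV x0 x1) := Ent.mulVec (e6.inv hP h3) (VEnt.rhsVec e3 e4 e5)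
  have e8 : Ent 𝓑 (pAA x0 x1) := e4.add (Ent.vecMulVec (VEnt.const _) e7)
  have e9 : VEnt 𝓑 (pW x0 x1) :=
    (VEnt.smul hid' (VEnt.const _)).add (VEnt.smul hid (VEnt.const _))
  have e10 : Ent 𝓑 (pK x0 x1) := Ent.krylov e8 (VEnt.const _)
  have e11 : Ent 𝓑 (pB x0 x1) := (Ent.krylov (e3.mul e8) e9).mul (e10.inv hP h4)
  refine ⟨?_, e6, e10, e8, e11, e1, e2⟩
  refine lEnt_pi fun i => ?_
  refine Fin.lastCases ?_ ?_ i
  · have : (fun s => pX x0 x1 s (Fin.last g)) = fun s => (pAA x0 x1 s, pB x0 x1 s) := by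
      funext s; simp [pX]
    rw [this]
    exact lEnt_prodMk (lEnt_of_ent e8) (lEnt_of_ent e11)
  · intro j
    have : (fun s => pX x0 x1 s j.castSucc) =
        fun s => ((pRho x0 x1 s j).1, (pRho x0 x1 s j).2) := by
      funext s; simp [pX]
    rw [this]
    exact lEnt_prodMk (lEnt_of_ent (e1 j)) (lEnt_of_ent (e2 j))

end path

end Vale.Agent.P002
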