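import Mathlib

namespace Vale.Agent.P002

open Matrix

abbrev Mat (r : ℕ) := Matrix (Fin r) (Fin r) ℂ

def PolyFun (E : Type*) [AddCommGroup E] [Module ℂ E] : Subalgebra ℂ (E → ℂ) :=
  Algebra.adjoin ℂ (Set.range (fun l : E →ₗ[ℂ] ℂ => (l : E → ℂ)))

def PolyMap {E E' : Type*} [AddCommGroup E] [Module ℂ E] [AddCommGroup E'] [Module ℂ E']
    (T : E → E') : Prop :=
  ∀ l : E' →ₗ[ℂ] ℂ, (fun x => l (T x)) ∈ PolyFun E

section
variable {E E' E'' : Type*} [AddCommGroup E] [Module ℂ E] [AddCommGroup E'] [Module ℂ E']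
  [AddCommGroup E''] [Module ℂ E'']

theorem polyFun_linear (l : E →ₗ[ℂ] ℂ) : (fun x => l x) ∈ PolyFun E :=
  Algebra.subset_adjoin ⟨l, rfl⟩

theorem polyFun_const (c : ℂ) : (fun _ : E => c) ∈ PolyFun E :=
  (PolyFun E).algebraMap_mem c

theorem polyFun_add {f g : E → ℂ} (hf : f ∈ PolyFun E) (hg : g ∈ PolyFun E) :
    (fun x => f x + g x) ∈ PolyFun E := (PolyFun E).add_mem hf hg

theorem polyFun_sub {f g : E → ℂ} (hf : f ∈ PolyFun E) (hg : g ∈ PolyFun E) :
    (fun x => f x - g x) ∈ PolyFun E := (PolyFun E).sub_mem hf hg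

theorem polyFun_neg {f : E → ℂ} (hf : f ∈ PolyFun E) :
    (fun x => - f x) ∈ PolyFun E := (PolyFun E).neg_mem hf

theorem polyFun_mul {f g : E → ℂ} (hf : f ∈ PolyFun E) (hg : g ∈ PolyFun E) :
    (fun x => f x * g x) ∈ PolyFun E := (PolyFun E).mul_mem hf hg

theorem polyFun_pow {f : E → ℂ} (hf : f ∈ PolyFun E) (n : ℕ) :
    (fun x => f x ^ n) ∈ PolyFun E := (PolyFun E).pow_mem hf n

theorem polyFun_sum {ι : Type*} (s : Finset ι) {f : ι → E → ℂ}
    (hf : ∀ i ∈ s, f i ∈ PolyFun E) : (fun x => ∑ i ∈ s, f i x) ∈ PolyFun E := by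
  have h := (PolyFun E).sum_mem hf
  convert h using 1
  ext x; simp

theorem polyFun_prod {ι : Type*} (s : Finset ι) {f : ι → E → ℂ}
    (hf : ∀ i ∈ s, f i ∈ PolyFun E) : (fun x => ∏ i ∈ s, f i x) ∈ PolyFun E := by
  have h := (PolyFun E).prod_mem hf
  convert h using 1
  ext x; simp

theorem polyFun_comp {f : E' → ℂ} (hf : f ∈ PolyFun E') {T : E → E'} (hT : PolyMap T) :
    (fun x => f (T x)) ∈ PolyFun E := by
  unfold PolyFun at hf
  induction hf using Algebra.adjoin_induction with
  | mem x hx =>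
    obtain ⟨l, rfl⟩ := hx
    exact hT l
  | algebraMap c => exact polyFun_const c
  | add f g _ _ hf hg => exact polyFun_add hf hg
  | mul f g _ _ hf hg => exact polyFun_mul hf hg

theorem polyMap_comp {S : E' → E''} {T : E → E'} (hS : PolyMap S) (hT : PolyMap T) :
    PolyMap (fun x => S (T x)) := fun l => polyFun_comp (hS l) hT

theorem polyMap_linear (T : E →ₗ[ℂ] E') : PolyMap (fun x => T x) := fun l =>
  polyFun_linear (l.comp T)

theorem polyMap_id : PolyMap (fun x : E => x) := polyMap_linear LinearMap.id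

theorem polyMap_const (c : E') : PolyMap (fun _ : E => c) := fun l => polyFun_const (l c)

theorem polyMap_add {S T : E → E'} (hS : PolyMap S) (hT : PolyMap T) :
    PolyMap (fun x => S x + T x) := fun l => by
  simpa using polyFun_add (hS l) (hT l)

theorem polyMap_sub {S T : E → E'} (hS : PolyMap S) (hT : PolyMap T) :
    PolyMap (fun x => S x - T x) := fun l => by
  simpa using polyFun_sub (hS l) (hT l)

theorem polyMap_smul {f : E → ℂ} {T : E → E'} (hf : f ∈ PolyFun E) (hT : PolyMap T) :
    PolyMap (fun x => f x • T x) := fun l => by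
  simpa using polyFun_mul hf (hT l)

theorem polyMap_sum {ι : Type*} (s : Finset ι) {T : ι → E → E'}
    (hT : ∀ i ∈ s, PolyMap (T i)) : PolyMap (fun x => ∑ i ∈ s, T i x) := fun l => by
  simpa using polyFun_sum s (fun i hi => hT i hi l)

theorem polyMap_prodMk {S : E → E'} {T : E → E''} (hS : PolyMap S) (hT : PolyMap T) :
    PolyMap (fun x => (S x, T x)) := fun l => by
  have h := polyFun_add (hS (l.comp (LinearMap.inl ℂ E' E''))) (hT (l.comp (LinearMap.inr ℂ E' E'')))
  convert h using 1
  ext x
  simp only [LinearMap.comp_apply, LinearMap.inl_apply, LinearMap.inr_apply]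
  rw [← map_add]; simp

theorem polyMap_fst {S : E → E' × E''} (hS : PolyMap S) : PolyMap (fun x => (S x).1) := fun l =>
  hS (l.comp (LinearMap.fst ℂ E' E''))

theorem polyMap_snd {S : E → E' × E''} (hS : PolyMap S) : PolyMap (fun x => (S x).2) := fun l =>
  hS (l.comp (LinearMap.snd ℂ E' E''))

theorem polyMap_pi {ι : Type*} [Fintype ι] [DecidableEq ι] {F : ι → Type*}
    [∀ i, AddCommGroup (F i)] [∀ i, Module ℂ (F i)] {T : E → (i : ι) → F i}
    (hT : ∀ i, PolyMap (fun x => T x i)) : PolyMap T := fun l => by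
  have h := polyFun_sum Finset.univ
    (f := fun i x => (l.comp (LinearMap.single ℂ F i)) (T x i)) (fun i _ => hT i _)
  convert h using 1
  ext x
  simp only [LinearMap.comp_apply]
  rw [← map_sum]
  congr 1
  exact (LinearMap.sum_single_apply F (T x)).symm

theorem polyMap_apply {ι : Type*} {F : ι → Type*}
    [∀ i, AddCommGroup (F i)] [∀ i, Module ℂ (F i)] {T : E → (i : ι) → F i}
    (hT : PolyMap T) (i : ι) : PolyMap (fun x => T x i) := fun l =>
  hT (l.comp (LinearMap.proj i))

end

section mat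
variable {E : Type*} [AddCommGroup E] [Module ℂ E] {n m k : Type*} [Fintype n] [DecidableEq n]
  [Fintype m] [DecidableEq m] [Fintype k] [DecidableEq k]

theorem polyFun_entry {T : E → Matrix n m ℂ} (hT : PolyMap T) (i : n) (j : m) :
    (fun x => T x i j) ∈ PolyFun E := hT (Matrix.entryLinearMap ℂ ℂ i j)

theorem polyMap_of_entry {T : E → Matrix n m ℂ}
    (h : ∀ i j, (fun x => T x i j) ∈ PolyFun E) : PolyMap T := fun l => by
  have h2 := polyFun_sum (Finset.univ : Finset (n × m))
    (f := fun p x => T x p.1 p.2 * l (Matrix.single p.1 p.2 1))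
    (fun p _ => polyFun_mul (h p.1 p.2) (polyFun_const _))
  convert h2 using 1
  ext x
  conv_lhs => rw [Matrix.matrix_eq_sum_single (T x)]
  rw [map_sum, Fintype.sum_prod_type]
  refine Finset.sum_congr rfl fun i _ => ?_
  rw [map_sum]
  refine Finset.sum_congr rfl fun j _ => ?_
  have : Matrix.single i j (T x i j) = (T x i j) • Matrix.single i j (1 : ℂ) := by
    simp
  rw [this, map_smul, smul_eq_mul]

theorem polyMap_mul {S : E → Matrix n m ℂ} {T : E → Matrix m k ℂ} (hS : PolyMap S)
    (hT : PolyMap T) : PolyMap (fun x => S x * T x) := polyMap_of_entry fun i j => by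
  simp only [Matrix.mul_apply]
  exact polyFun_sum _ fun l _ => polyFun_mul (polyFun_entry hS _ _) (polyFun_entry hT _ _)

theorem polyMap_pow {S : E → Matrix n n ℂ} (hS : PolyMap S) (N : ℕ) :
    PolyMap (fun x => S x ^ N) := by
  induction N with
  | zero => simpa using polyMap_const (E := E) (1 : Matrix n n ℂ)
  | succ N ih => simpa [pow_succ] using polyMap_mul ih hS

theorem polyFun_det {S : E → Matrix n n ℂ} (hS : PolyMap S) :
    (fun x => (S x).det) ∈ PolyFun E := by
  simp only [Matrix.det_apply']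
  exact polyFun_sum _ fun l _ => polyFun_mul (polyFun_const _)
    (polyFun_prod _ fun i _ => polyFun_entry hS _ _)

theorem polyMap_adjugate {S : E → Matrix n n ℂ} (hS : PolyMap S) :
    PolyMap (fun x => (S x).adjugate) := polyMap_of_entry fun i j => by
  simp only [Matrix.adjugate_apply]
  refine polyFun_det (polyMap_of_entry fun a b => ?_)
  by_cases h : a = j
  · subst h
    simpa using polyFun_const _
  · simpa [Matrix.updateRow_ne h] using polyFun_entry hS _ _

theorem polyFun_trace {S : E → Matrix n n ℂ} (hS : PolyMap S) :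
    (fun x => (S x).trace) ∈ PolyFun E := by
  simp only [Matrix.trace, Matrix.diag]
  exact polyFun_sum _ fun i _ => polyFun_entry hS _ _

end mat

section top
variable {E : Type*} [AddCommGroup E] [Module ℂ E] [TopologicalSpace E] [IsTopologicalAddGroup E]
  [ContinuousSMul ℂ E] [T2Space E] [FiniteDimensional ℂ E]

theorem polyFun_continuous {f : E → ℂ} (hf : f ∈ PolyFun E) : Continuous f := by
  unfold PolyFun at hf
  induction hf using Algebra.adjoin_induction with
  | mem x hx =>
    obtain ⟨l, rfl⟩ := hx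
    exact l.continuous_of_finiteDimensional
  | algebraMap c => exact continuous_const
  | add f g _ _ hf hg => exact hf.add hg
  | mul f g _ _ hf hg => exact hf.mul hg

end top

theorem polyFun_contDiff {E : Type*} [NormedAddCommGroup E] [NormedSpace ℂ E]
    [FiniteDimensional ℂ E] {f : E → ℂ} (hf : f ∈ PolyFun E) {N : WithTop ℕ∞} :
    ContDiff ℂ N f := by
  unfold PolyFun at hf
  induction hf using Algebra.adjoin_induction with
  | mem x hx =>
    obtain ⟨l, rfl⟩ := hx
    exact (LinearMap.toContinuousLinearMap l).contDiff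
  | algebraMap c => exact contDiff_const
  | add f g _ _ hf hg => exact hf.add hg
  | mul f g _ _ hf hg => exact hf.mul hg

end Vale.Agent.P002
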