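import Vale.Agent.P002.Moves
import Vale.Agent.P002.OpenStep

namespace Vale.Agent.P002

open Topology

section ring
variable {R : Type*} [Ring R]

/-- move F1 -/
noncomputable def f1 (m : ℕ) (p : R × R) (t : R) : R × R :=
  (p.1 * t, p.2 * p.1 ^ m * Ring.inverse (p.1 * t) ^ m)

noncomputable def f2 (p : R × R) (t : R) : R × R := (p.1, p.2 * t)

noncomputable def h2m (m : ℕ) (p : R × R) (t : R) : R × R :=
  (t * p.1, p.2 * p.1 ^ m * Ring.inverse t * Ring.inverse (t * p.1) ^ m)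

noncomputable def f3 (m : ℕ) (q : (R × R) × (R × R)) (t : R) : (R × R) × (R × R) :=
  ((q.1.1, t * q.1.2), h2m m q.2 t)

noncomputable def f4 (m : ℕ) (q : (R × R) × (R × R)) (t : R) : (R × R) × (R × R) :=
  ((q.1.1 * Ring.inverse t, t * q.1.2), h2m m q.2 t)

noncomputable def e1 (m : ℕ) (p : R × R) : R := p.2 * p.1 ^ m

noncomputable def e3 (m : ℕ) (q : (R × R) × (R × R)) : R :=
  q.1.2 * Ring.inverse q.1.1 * Ring.inverse q.1.2 * q.2.1 * q.2.2 * q.2.1 ^ m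

noncomputable def e4 (m : ℕ) (q : (R × R) × (R × R)) : R :=
  Ring.inverse q.1.1 * Ring.inverse q.1.2 * q.2.1 * q.2.2 * q.2.1 ^ m

def UP (p : R × R) : Prop := IsUnit p.1 ∧ IsUnit p.2

theorem UP.f1 {m : ℕ} {p : R × R} {t : R} (hp : UP p) (ht : IsUnit t) : UP (f1 m p t) :=
  ⟨hp.1.mul ht, (hp.2.mul (hp.1.pow m)).mul ((hp.1.mul ht).ringInverse.pow m)⟩

theorem UP.f2 {p : R × R} {t : R} (hp : UP p) (ht : IsUnit t) : UP (f2 p t) :=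
  ⟨hp.1, hp.2.mul ht⟩

theorem UP.h2m {m : ℕ} {p : R × R} {t : R} (hp : UP p) (ht : IsUnit t) : UP (h2m m p t) :=
  ⟨ht.mul hp.1, ((hp.2.mul (hp.1.pow m)).mul ht.ringInverse).mul ((ht.mul hp.1).ringInverse.pow m)⟩

theorem cmA_f1 {m : ℕ} {p : R × R} {t : R} (hp : UP p) (ht : IsUnit t)
    (hc : Commute t (e1 m p)) : cmA (f1 m p t) = cmA p := by
  obtain ⟨a, b⟩ := p
  obtain ⟨⟨a, rfl⟩, ⟨b, rfl⟩⟩ := hp
  obtain ⟨t, rfl⟩ := ht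
  have hc' : Commute t (b * a ^ m) := by
    apply Units.ext
    simpa [e1] using hc.eq
  have h := congrArg Units.val (grp_F1 a b t m hc')
  simp only [cmA, f1]
  simp only [← Units.val_mul, ← Units.val_pow_eq_pow_val, Ring.inverse_unit]
  exact h

theorem cmA_f2 {p : R × R} {t : R} (hp : UP p) (ht : IsUnit t)
    (hc : Commute t p.1) : cmA (f2 p t) = cmA p := by
  obtain ⟨a, b⟩ := p
  obtain ⟨⟨a, rfl⟩, ⟨b, rfl⟩⟩ := hp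
  obtain ⟨t, rfl⟩ := ht
  have hc' : Commute t a := by
    apply Units.ext
    simpa using hc.eq
  have h := congrArg Units.val (grp_F2 a b t hc')
  simp only [cmA, f2]
  simp only [← Units.val_mul, Ring.inverse_unit]
  exact h

theorem cmA_f3 {m : ℕ} {q : (R × R) × (R × R)} {t : R} (hp : UP q.1) (hp2 : UP q.2)
    (ht : IsUnit t) (hc : Commute t (e3 m q)) :
    cmA (f3 m q t).1 * cmA (f3 m q t).2 = cmA q.1 * cmA q.2 := by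
  obtain ⟨⟨a1, b1⟩, ⟨a2, b2⟩⟩ := q
  obtain ⟨⟨a1, rfl⟩, ⟨b1, rfl⟩⟩ := hp
  obtain ⟨⟨a2, rfl⟩, ⟨b2, rfl⟩⟩ := hp2
  obtain ⟨t, rfl⟩ := ht
  have hc' : Commute t (b1 * a1⁻¹ * b1⁻¹ * a2 * b2 * a2 ^ m) := by
    apply Units.ext
    simpa [e3] using hc.eq
  have h := congrArg Units.val (grp_F3 a1 b1 a2 b2 t m hc')
  simp only [cmA, f3, h2m]
  simp only [← Units.val_mul, ← Units.val_pow_eq_pow_val, Ring.inverse_unit]
  exact h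

theorem cmA_f4 {m : ℕ} {q : (R × R) × (R × R)} {t : R} (hp : UP q.1) (hp2 : UP q.2)
    (ht : IsUnit t) (hc : Commute t (e4 m q)) :
    cmA (f4 m q t).1 * cmA (f4 m q t).2 = cmA q.1 * cmA q.2 := by
  obtain ⟨⟨a1, b1⟩, ⟨a2, b2⟩⟩ := q
  obtain ⟨⟨a1, rfl⟩, ⟨b1, rfl⟩⟩ := hp
  obtain ⟨⟨a2, rfl⟩, ⟨b2, rfl⟩⟩ := hp2
  obtain ⟨t, rfl⟩ := ht
  have hc' : Commute t (a1⁻¹ * b1⁻¹ * a2 * b2 * a2 ^ m) := by
    apply Units.ext
    simpa [e4] using hc.eq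
  have h := congrArg Units.val (grp_F4 a1 b1 a2 b2 t m hc')
  simp only [cmA, f4, h2m]
  simp only [← Units.val_mul, ← Units.val_pow_eq_pow_val, Ring.inverse_unit]
  exact h

/-- invariance of e3, e4 and reversal -/
theorem grp_e3 {G : Type*} [Group G] (a1 b1 a2 b2 t : G) (m : ℕ)
    (ht : Commute t (b1 * a1⁻¹ * b1⁻¹ * a2 * b2 * a2 ^ m)) :
    (t * b1) * a1⁻¹ * (t * b1)⁻¹ * (t * a2) * (b2 * a2 ^ m * t⁻¹ * (t * a2)⁻¹ ^ m) *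
      (t * a2) ^ m = b1 * a1⁻¹ * b1⁻¹ * a2 * b2 * a2 ^ m := by
  have h2 : (t * a2)⁻¹ ^ m * (t * a2) ^ m = 1 := by rw [inv_pow, inv_mul_cancel]
  have h : t * (b1 * a1⁻¹ * b1⁻¹ * a2 * b2 * a2 ^ m) * t⁻¹ =
      b1 * a1⁻¹ * b1⁻¹ * a2 * b2 * a2 ^ m := by rw [ht.eq]; group
  calc (t * b1) * a1⁻¹ * (t * b1)⁻¹ * (t * a2) * (b2 * a2 ^ m * t⁻¹ * (t * a2)⁻¹ ^ m) *
      (t * a2) ^ m = (t * b1) * a1⁻¹ * (t * b1)⁻¹ * (t * a2) * (b2 * a2 ^ m * t⁻¹) *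
        ((t * a2)⁻¹ ^ m * (t * a2) ^ m) := by simp only [mul_assoc]
    _ = t * (b1 * a1⁻¹ * b1⁻¹ * a2 * b2 * a2 ^ m) * t⁻¹ := by
      rw [h2]
      simp only [_root_.mul_inv_rev, mul_assoc, inv_mul_cancel_left, mul_one]
    _ = _ := h

theorem grp_e4 {G : Type*} [Group G] (a1 b1 a2 b2 t : G) (m : ℕ)
    (ht : Commute t (a1⁻¹ * b1⁻¹ * a2 * b2 * a2 ^ m)) :
    (a1 * t⁻¹)⁻¹ * (t * b1)⁻¹ * (t * a2) * (b2 * a2 ^ m * t⁻¹ * (t * a2)⁻¹ ^ m) *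
      (t * a2) ^ m = a1⁻¹ * b1⁻¹ * a2 * b2 * a2 ^ m := by
  have h2 : (t * a2)⁻¹ ^ m * (t * a2) ^ m = 1 := by rw [inv_pow, inv_mul_cancel]
  have h : t * (a1⁻¹ * b1⁻¹ * a2 * b2 * a2 ^ m) * t⁻¹ =
      a1⁻¹ * b1⁻¹ * a2 * b2 * a2 ^ m := by rw [ht.eq]; group
  calc (a1 * t⁻¹)⁻¹ * (t * b1)⁻¹ * (t * a2) * (b2 * a2 ^ m * t⁻¹ * (t * a2)⁻¹ ^ m) *
      (t * a2) ^ m = (a1 * t⁻¹)⁻¹ * (t * b1)⁻¹ * (t * a2) * (b2 * a2 ^ m * t⁻¹) *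
        ((t * a2)⁻¹ ^ m * (t * a2) ^ m) := by simp only [mul_assoc]
    _ = t * (a1⁻¹ * b1⁻¹ * a2 * b2 * a2 ^ m) * t⁻¹ := by
      rw [h2]
      simp only [_root_.mul_inv_rev, mul_assoc, inv_mul_cancel_left, mul_one, inv_inv]
    _ = _ := h

theorem e3_f3 {m : ℕ} {q : (R × R) × (R × R)} {t : R} (hp : UP q.1) (hp2 : UP q.2)
    (ht : IsUnit t) (hc : Commute t (e3 m q)) : e3 m (f3 m q t) = e3 m q := by
  obtain ⟨⟨a1, b1⟩, ⟨a2, b2⟩⟩ := q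
  obtain ⟨⟨a1, rfl⟩, ⟨b1, rfl⟩⟩ := hp
  obtain ⟨⟨a2, rfl⟩, ⟨b2, rfl⟩⟩ := hp2
  obtain ⟨t, rfl⟩ := ht
  have hc' : Commute t (b1 * a1⁻¹ * b1⁻¹ * a2 * b2 * a2 ^ m) := by
    apply Units.ext
    simpa [e3] using hc.eq
  have h := congrArg Units.val (grp_e3 a1 b1 a2 b2 t m hc')
  simp only [e3, f3, h2m]
  simp only [← Units.val_mul, ← Units.val_pow_eq_pow_val, Ring.inverse_unit]
  exact h

theorem e4_f4 {m : ℕ} {q : (R × R) × (R × R)} {t : R} (hp : UP q.1) (hp2 : UP q.2)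
    (ht : IsUnit t) (hc : Commute t (e4 m q)) : e4 m (f4 m q t) = e4 m q := by
  obtain ⟨⟨a1, b1⟩, ⟨a2, b2⟩⟩ := q
  obtain ⟨⟨a1, rfl⟩, ⟨b1, rfl⟩⟩ := hp
  obtain ⟨⟨a2, rfl⟩, ⟨b2, rfl⟩⟩ := hp2
  obtain ⟨t, rfl⟩ := ht
  have hc' : Commute t (a1⁻¹ * b1⁻¹ * a2 * b2 * a2 ^ m) := by
    apply Units.ext
    simpa [e4] using hc.eq
  have h := congrArg Units.val (grp_e4 a1 b1 a2 b2 t m hc')
  simp only [e4, f4, h2m]
  simp only [← Units.val_mul, ← Units.val_pow_eq_pow_val, Ring.inverse_unit]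
  exact h

theorem grp_rev {G : Type*} [Group G] (a2 b2 t : G) (m : ℕ) :
    (b2 * a2 ^ m * t⁻¹ * (t * a2)⁻¹ ^ m) * (t * a2) ^ m * t * (t⁻¹ * (t * a2))⁻¹ ^ m = b2 := by
  have h2 : (t * a2)⁻¹ ^ m * (t * a2) ^ m = 1 := by rw [inv_pow, inv_mul_cancel]
  rw [inv_mul_cancel_left]
  calc (b2 * a2 ^ m * t⁻¹ * (t * a2)⁻¹ ^ m) * (t * a2) ^ m * t * a2⁻¹ ^ m
      = b2 * a2 ^ m * t⁻¹ * ((t * a2)⁻¹ ^ m * (t * a2) ^ m) * t * a2⁻¹ ^ m := by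
        simp only [mul_assoc]
    _ = b2 * (a2 ^ m * a2⁻¹ ^ m) := by
        rw [h2]; simp only [mul_assoc, one_mul, inv_mul_cancel_left]
    _ = b2 := by rw [inv_pow, mul_inv_cancel, mul_one]

theorem h2m_rev {m : ℕ} {p : R × R} {t : R} (hp : UP p) (ht : IsUnit t) :
    h2m m (h2m m p t) (Ring.inverse t) = p := by
  obtain ⟨a, b⟩ := p
  obtain ⟨⟨a, rfl⟩, ⟨b, rfl⟩⟩ := hp
  obtain ⟨t, rfl⟩ := ht
  have h := congrArg Units.val (grp_rev a b t m)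
  simp only [h2m]
  simp only [← Units.val_mul, ← Units.val_pow_eq_pow_val, Ring.inverse_unit, inv_inv]
  refine Prod.ext ?_ ?_
  · simp only [inv_mul_cancel_left]
  · exact h

theorem f3_rev {m : ℕ} {q : (R × R) × (R × R)} {t : R} (hp2 : UP q.2)
    (ht : IsUnit t) : f3 m (f3 m q t) (Ring.inverse t) = q := by
  simp only [f3]
  rw [h2m_rev hp2 ht, ← mul_assoc, Ring.inverse_mul_cancel _ ht, one_mul]

theorem f4_rev {m : ℕ} {q : (R × R) × (R × R)} {t : R} (hp2 : UP q.2)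
    (ht : IsUnit t) : f4 m (f4 m q t) (Ring.inverse t) = q := by
  simp only [f4]
  rw [h2m_rev hp2 ht, ← mul_assoc, Ring.inverse_mul_cancel _ ht, one_mul, mul_assoc]
  obtain ⟨t, rfl⟩ := ht
  simp [Ring.inverse_unit]

end ring

end Vale.Agent.P002
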