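import Vale.Agent.P002.Defs

namespace Vale.Agent.P002

open Matrix Polynomial

noncomputable def gramMat {r : ℕ} (m : Mat r) : Mat r :=
  Matrix.of fun i j : Fin r => (m ^ ((i : ℕ) + (j : ℕ))).trace

noncomputable def gram {r : ℕ} (m : Mat r) : ℂ := (gramMat m).det

theorem gram_polyFun {E : Type*} [AddCommGroup E] [Module ℂ E] {r : ℕ} {S : E → Mat r}
    (hS : PolyMap S) : (fun x => gram (S x)) ∈ PolyFun E :=
  polyFun_det (polyMap_of_entry fun i j => by
    simpa [gramMat] using polyFun_trace (polyMap_pow hS _))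

theorem conj_pow {r : ℕ} (h d : Mat r) (hh : IsUnit h.det) (k : ℕ) :
    (h * d * h⁻¹) ^ k = h * d ^ k * h⁻¹ := by
  induction k with
  | zero => simp [Matrix.mul_nonsing_inv _ hh]
  | succ k ih =>
    rw [pow_succ, ih, pow_succ]
    calc h * d ^ k * h⁻¹ * (h * d * h⁻¹) = h * d ^ k * (h⁻¹ * h) * d * h⁻¹ := by
          simp only [Matrix.mul_assoc]
      _ = _ := by rw [Matrix.nonsing_inv_mul _ hh]; simp only [Matrix.mul_assoc, Matrix.mul_one]

theorem gram_of_diag {r : ℕ} (h : Mat r) (lam : Fin r → ℂ) (hh : IsUnit h.det) :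
    gram (h * diagonal lam * h⁻¹) = (vandermonde lam).det ^ 2 := by
  have : gramMat (h * diagonal lam * h⁻¹) = (vandermonde lam)ᵀ * vandermonde lam := by
    ext i j
    simp only [gramMat, Matrix.of_apply, conj_pow h _ hh]
    rw [Matrix.trace_mul_comm, ← Matrix.mul_assoc, Matrix.nonsing_inv_mul _ hh, Matrix.one_mul,
      Matrix.diagonal_pow, Matrix.trace_diagonal, Matrix.mul_apply]
    refine Finset.sum_congr rfl fun k _ => ?_
    simp [vandermonde_apply, pow_add]
  rw [gram, this, Matrix.det_mul, Matrix.det_transpose, sq]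

theorem gram_ne_zero_of_diag {r : ℕ} (h : Mat r) (lam : Fin r → ℂ) (hh : IsUnit h.det)
    (hl : Function.Injective lam) : gram (h * diagonal lam * h⁻¹) ≠ 0 := by
  rw [gram_of_diag h lam hh]
  exact pow_ne_zero _ (det_vandermonde_ne_zero_iff.mpr hl)

theorem roots_nodup_of_gram {r : ℕ} (m : Mat r) (hm : gram m ≠ 0) : m.charpoly.roots.Nodup := by
  classical
  by_contra hnd
  set q : ℂ[X] := ∏ a ∈ m.charpoly.roots.toFinset, (X - C a) with hq
  have hqmonic : q.Monic := monic_prod_of_monic _ _ (fun a _ => monic_X_sub_C a)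
  have hdeg : q.natDegree = m.charpoly.roots.toFinset.card := by
    rw [hq, natDegree_prod_of_monic _ _ (fun a _ => monic_X_sub_C a)]
    simp
  have hcard : m.charpoly.roots.card = r := by
    have h1 := splits_iff_card_roots.mp (IsAlgClosed.splits m.charpoly)
    rw [h1, Matrix.charpoly_natDegree_eq_dim, Fintype.card_fin]
  have hlt : q.natDegree < r := by
    rw [hdeg]
    refine lt_of_lt_of_eq ?_ hcard
    exact lt_of_le_of_ne (Multiset.toFinset_card_le _)
      (fun h => hnd (Multiset.toFinset_card_eq_card_iff_nodup.mp h))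
  have hdvd : m.charpoly ∣ q ^ r := by
    have h1 : m.charpoly = (m.charpoly.roots.map (fun a => X - C a)).prod :=
      (IsAlgClosed.splits m.charpoly).eq_prod_roots_of_monic (Matrix.charpoly_monic m)
    rw [h1, Finset.prod_multiset_map_count, hq, ← Finset.prod_pow]
    refine Finset.prod_dvd_prod_of_dvd _ _ fun a _ => pow_dvd_pow _ ?_
    exact (Multiset.count_le_card _ _).trans hcard.le
  have hnil : IsNilpotent (aeval m q) := by
    refine ⟨r, ?_⟩
    rw [← map_pow]
    obtain ⟨s, hs⟩ := hdvd
    rw [hs, map_mul, Matrix.aeval_self_charpoly, zero_mul]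
  have htr : ∀ i : ℕ, (m ^ i * aeval m q).trace = 0 := by
    intro i
    have hc : Commute (m ^ i) (aeval m q) := by
      refine Commute.pow_left ?_ i
      have h := congrArg (aeval m) (mul_comm X q)
      simp only [map_mul, aeval_X] at h
      exact h
    have h2 : IsNilpotent (m ^ i * aeval m q) := hc.isNilpotent_mul_left hnil
    exact (Matrix.isNilpotent_trace_of_isNilpotent h2).eq_zero
  have hvec : (gramMat m).mulVec (fun j : Fin r => q.coeff j) = 0 := by
    ext i
    have := htr i
    rw [aeval_eq_sum_range' hlt, Finset.mul_sum, Matrix.trace_sum, Finset.sum_range] at this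
    simp only [Matrix.mulVec, dotProduct, gramMat, Matrix.of_apply, Pi.zero_apply]
    rw [← this]
    refine Finset.sum_congr rfl fun j _ => ?_
    rw [Algebra.mul_smul_comm, Matrix.trace_smul, ← pow_add, smul_eq_mul, mul_comm]
  have hne : (fun j : Fin r => q.coeff j) ≠ 0 := by
    intro h0
    have := congrFun h0 ⟨q.natDegree, hlt⟩
    simp only [Pi.zero_apply] at this
    rw [show q.coeff q.natDegree = 1 from hqmonic] at this
    exact one_ne_zero this
  exact hm (Matrix.exists_mulVec_eq_zero_iff.mp ⟨_, hne, hvec⟩)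

theorem exists_diag_of_gram_ne_zero {r : ℕ} (m : Mat r) (hm : gram m ≠ 0) :
    ∃ (h : Mat r) (lam : Fin r → ℂ), IsUnit h.det ∧ Function.Injective lam ∧
      m = h * diagonal lam * h⁻¹ := by
  classical
  have hnd := roots_nodup_of_gram m hm
  have hcard : m.charpoly.roots.card = r := by
    have h1 := splits_iff_card_roots.mp (IsAlgClosed.splits m.charpoly)
    rw [h1, Matrix.charpoly_natDegree_eq_dim, Fintype.card_fin]
  have hcard2 : m.charpoly.roots.toFinset.card = r := by
    rw [Multiset.toFinset_card_of_nodup hnd, hcard]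
  let e := (Finset.equivFinOfCardEq hcard2).symm
  let lam : Fin r → ℂ := fun i => (e i : ℂ)
  have hlam : Function.Injective lam := fun i j hij => e.injective (Subtype.ext hij)
  have hroot : ∀ i, m.charpoly.IsRoot (lam i) := fun i => by
    have := (e i).2
    rw [Multiset.mem_toFinset, mem_roots (Matrix.charpoly_monic m).ne_zero] at this
    exact this
  have hev : ∀ i, ∃ v : Fin r → ℂ, v ≠ 0 ∧ (scalar (Fin r) (lam i) - m).mulVec v = 0 := by
    intro i
    rw [Matrix.exists_mulVec_eq_zero_iff]
    have := hroot i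
    rwa [IsRoot, Matrix.eval_charpoly] at this
  choose v hv0 hv using hev
  have hv' : ∀ i, m.mulVec (v i) = lam i • v i := fun i => by
    have := hv i
    rw [Matrix.sub_mulVec, sub_eq_zero] at this
    rw [← this]
    ext j
    simp [Matrix.mulVec, dotProduct, Matrix.scalar_apply, Matrix.diagonal_apply]
  have hli : LinearIndependent ℂ v := by
    refine Module.End.eigenvectors_linearIndependent' (Matrix.toLin' m) lam hlam v fun i => ?_
    rw [Module.End.hasEigenvector_iff, Module.End.mem_eigenspace_iff]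
    exact ⟨by rw [Matrix.toLin'_apply]; exact hv' i, hv0 i⟩
  let h : Mat r := Matrix.of fun i j => v j i
  have hh : IsUnit h.det := by
    rw [← Matrix.isUnit_iff_isUnit_det, ← Matrix.linearIndependent_cols_iff_isUnit]
    exact hli
  refine ⟨h, lam, hh, hlam, ?_⟩
  have hmh : m * h = h * diagonal lam := by
    ext i j
    rw [Matrix.mul_diagonal]
    have := congrFun (hv' j) i
    simp only [Matrix.mulVec, dotProduct, Pi.smul_apply, smul_eq_mul] at this
    rw [Matrix.mul_apply]
    simp only [h, Matrix.of_apply]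
    rw [this, mul_comm]
  rw [← hmh, Matrix.mul_assoc, Matrix.mul_nonsing_inv _ hh, Matrix.mul_one]

theorem diag_of_commute {r : ℕ} (h : Mat r) (lam : Fin r → ℂ) (hh : IsUnit h.det)
    (hl : Function.Injective lam) (t : Mat r) (ht : Commute t (h * diagonal lam * h⁻¹)) :
    t = h * diagonal (fun i => (h⁻¹ * t * h) i i) * h⁻¹ := by
  have h1 : Commute (h⁻¹ * t * h) (diagonal lam) := by
    have := ht.eq
    unfold Commute SemiconjBy
    calc h⁻¹ * t * h * diagonal lam = h⁻¹ * (t * (h * diagonal lam * h⁻¹)) * h := by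
          simp only [Matrix.mul_assoc, Matrix.nonsing_inv_mul _ hh, Matrix.mul_one]
      _ = h⁻¹ * ((h * diagonal lam * h⁻¹) * t) * h := by rw [this]
      _ = (h⁻¹ * h) * diagonal lam * (h⁻¹ * t * h) := by simp only [Matrix.mul_assoc]
      _ = _ := by rw [Matrix.nonsing_inv_mul _ hh, Matrix.one_mul]
  have h2 : h⁻¹ * t * h = diagonal (fun i => (h⁻¹ * t * h) i i) := by
    ext i j
    by_cases hij : i = j
    · subst hij; simp
    · rw [Matrix.diagonal_apply_ne _ hij]
      have := congrFun (congrFun h1.eq i) j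
      rw [Matrix.mul_diagonal, Matrix.diagonal_mul] at this
      have h3 : (lam j - lam i) * (h⁻¹ * t * h) i j = 0 := by
        rw [sub_mul, mul_comm, this]; ring
      rcases mul_eq_zero.mp h3 with h4 | h4
      · exact absurd (hl (sub_eq_zero.mp h4)).symm hij
      · exact h4
  rw [← h2]
  calc t = (h * h⁻¹) * t * (h * h⁻¹) := by rw [Matrix.mul_nonsing_inv _ hh]; simp
    _ = _ := by simp only [Matrix.mul_assoc]

theorem exists_poly_of_commute {r : ℕ} (m : Mat r) (hm : gram m ≠ 0) (t : Mat r)
    (ht : Commute t m) : ∃ f : Fin r → ℂ, t = ∑ j, f j • m ^ (j : ℕ) := by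
  obtain ⟨h, lam, hh, hl, rfl⟩ := exists_diag_of_gram_ne_zero m hm
  set tau : Fin r → ℂ := fun i => (h⁻¹ * t * h) i i with htau
  have hV : IsUnit (vandermonde lam).det := (det_vandermonde_ne_zero_iff.mpr hl).isUnit
  refine ⟨(vandermonde lam)⁻¹.mulVec tau, ?_⟩
  set f := (vandermonde lam)⁻¹.mulVec tau with hf
  have hVf : (vandermonde lam).mulVec f = tau := by
    rw [hf, Matrix.mulVec_mulVec, Matrix.mul_nonsing_inv _ hV, Matrix.one_mulVec]
  rw [diag_of_commute h lam hh hl t ht]
  simp only [conj_pow h _ hh, Matrix.diagonal_pow]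
  have : ∑ j : Fin r, f j • (h * diagonal (lam ^ (j : ℕ)) * h⁻¹) =
      h * (∑ j : Fin r, f j • diagonal (lam ^ (j : ℕ))) * h⁻¹ := by
    rw [Finset.mul_sum, Finset.sum_mul]
    refine Finset.sum_congr rfl fun j _ => ?_
    rw [Algebra.mul_smul_comm, Algebra.smul_mul_assoc]
  rw [this]
  congr 2
  ext i j
  by_cases hij : i = j
  · subst hij
    have h5 := congrFun hVf i
    simp only [Matrix.mulVec, dotProduct, vandermonde_apply] at h5
    rw [Matrix.diagonal_apply_eq, Matrix.sum_apply]
    simp only [Matrix.smul_apply, Matrix.diagonal_apply_eq, Pi.pow_apply, smul_eq_mul]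
    change tau i = _
    rw [← h5]
    exact Finset.sum_congr rfl fun j _ => mul_comm _ _
  · rw [Matrix.diagonal_apply_ne _ hij, Matrix.sum_apply]
    symm
    exact Finset.sum_eq_zero fun k _ => by
      rw [Matrix.smul_apply, Matrix.diagonal_apply_ne _ hij, smul_zero]

end Vale.Agent.P002
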