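import Vale.Agent.P002.MC

namespace Vale.Agent.P002

open Topology Filter

theorem param_cover2 {X M P : Type*} [NormedAddCommGroup X] [NormedSpace ℂ X] [CompleteSpace X]
    [NormedAddCommGroup M] [NormedSpace ℂ M] [CompleteSpace M]
    [NormedAddCommGroup P] [NormedSpace ℂ P] [CompleteSpace P]
    {F : X × P → M} {F' : X × P →L[ℂ] M} {x0 : X} {p0 : P}
    (hF : HasStrictFDerivAt F F' (x0, p0)) (hs : ∀ m, ∃ p, F' (0, p) = m)
    {V : Set (X × P)} (hV : V ∈ 𝓝 (x0, p0)) :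
    ∀ᶠ q in 𝓝 (x0, F (x0, p0)), ∃ p, (q.1, p) ∈ V ∧ F (q.1, p) = q.2 := by
  let Θ : X × P → X × M := fun q => (q.1, F q)
  let Θ' : X × P →L[ℂ] X × M := (ContinuousLinearMap.fst ℂ X P).prod F'
  have hΘ : HasStrictFDerivAt Θ Θ' (x0, p0) := hasStrictFDerivAt_fst.prodMk hF
  have hsurj : Θ'.range = ⊤ := by
    rw [eq_top_iff]
    rintro ⟨x, m⟩ -
    obtain ⟨p, hp⟩ := hs (m - F' (x, 0))
    refine ⟨(x, p), ?_⟩
    have h1 : ((x, p) : X × P) = (x, 0) + (0, p) := by simp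
    have h2 : F' (x, p) = m := by
      rw [h1, map_add, hp]; abel
    exact Prod.ext rfl h2
  have hmap := hΘ.map_nhds_eq_of_surj hsurj
  have himg : Θ '' V ∈ 𝓝 (x0, F (x0, p0)) := by
    have : Θ (x0, p0) = (x0, F (x0, p0)) := rfl
    rw [← this, ← hmap]
    exact image_mem_map hV
  filter_upwards [himg] with q hq
  obtain ⟨⟨x', p⟩, hv, he⟩ := hq
  have e1 : x' = q.1 := congrArg Prod.fst he
  subst e1
  exact ⟨p, hv, congrArg Prod.snd he⟩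

theorem fiber_cover2 {E F P : Type*} [NormedAddCommGroup E] [NormedSpace ℂ E]
    [FiniteDimensional ℂ E] [NormedAddCommGroup F] [NormedSpace ℂ F]
    [NormedAddCommGroup P] [NormedSpace ℂ P] [FiniteDimensional ℂ P]
    {G : E → F} {G' : E →L[ℂ] F} {x0 : E} (hG : HasStrictFDerivAt G G' x0)
    {Φ : E × P → E} {Φ' : E × P →L[ℂ] E} (hΦ : HasStrictFDerivAt Φ Φ' (x0, 0))
    (h0 : Φ (x0, 0) = x0)
    (hker : ∀ v, G' v = 0 → ∃ s, Φ' (0, s) = v)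
    (hconst : ∀ᶠ p in 𝓝 (x0, (0 : P)), G (Φ p) = G p.1)
    {V : Set (E × P)} (hV : V ∈ 𝓝 (x0, (0 : P))) :
    ∀ᶠ q in 𝓝 (x0, x0), G q.1 = G q.2 → ∃ s, (q.1, s) ∈ V ∧ Φ (q.1, s) = q.2 := by
  have : CompleteSpace E := FiniteDimensional.complete ℂ E
  have : CompleteSpace P := FiniteDimensional.complete ℂ P
  obtain ⟨Q, hQ⟩ := Submodule.exists_isCompl (LinearMap.ker (G' : E →ₗ[ℂ] F))
  have : CompleteSpace Q := FiniteDimensional.complete ℂ Q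
  let Θ : E × (P × Q) → E := fun p => Φ (p.1, p.2.1) + (p.2.2 : E)
  let pr : E × (P × Q) →L[ℂ] E × P :=
    (ContinuousLinearMap.fst ℂ E (P × Q)).prod
      ((ContinuousLinearMap.fst ℂ P Q).comp (ContinuousLinearMap.snd ℂ E (P × Q)))
  let pq : E × (P × Q) →L[ℂ] E :=
    Q.subtypeL.comp ((ContinuousLinearMap.snd ℂ P Q).comp (ContinuousLinearMap.snd ℂ E (P × Q)))
  have hpr0 : pr (x0, ((0 : P), (0 : Q))) = (x0, 0) := rfl
  have hΦpr : HasStrictFDerivAt (fun p => Φ (pr p)) (Φ'.comp pr) (x0, ((0 : P), (0 : Q))) := by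
    refine HasStrictFDerivAt.comp (g := Φ) (f := pr) (x0, ((0 : P), (0 : Q))) ?_
      pr.hasStrictFDerivAt
    rw [hpr0]; exact hΦ
  have hΘ : HasStrictFDerivAt Θ (Φ'.comp pr + pq) (x0, ((0 : P), (0 : Q))) :=
    hΦpr.add pq.hasStrictFDerivAt
  have hΘ0 : Θ (x0, ((0 : P), (0 : Q))) = x0 := by simp [Θ, h0]
  have hsurj : ∀ v, ∃ p, (Φ'.comp pr + pq) (0, p) = v := by
    intro v
    have hv : v ∈ LinearMap.ker (G' : E →ₗ[ℂ] F) ⊔ Q := by rw [hQ.sup_eq_top]; trivial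
    obtain ⟨k, hk, q, hq, rfl⟩ := Submodule.mem_sup.mp hv
    obtain ⟨s, hs⟩ := hker k hk
    exact ⟨(s, ⟨q, hq⟩), by simp [pr, pq, hs]⟩
  -- antilipschitz on Q
  have hinj : LinearMap.ker ((G'.comp Q.subtypeL : Q →L[ℂ] F) : Q →ₗ[ℂ] F) = ⊥ := by
    rw [LinearMap.ker_eq_bot']
    intro q hq
    have h1 : (q : E) ∈ LinearMap.ker (G' : E →ₗ[ℂ] F) := hq
    have h2 := Submodule.disjoint_def.mp hQ.disjoint _ h1 q.2
    exact Subtype.ext h2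
  obtain ⟨K, hKpos, hK⟩ := (G'.comp Q.subtypeL).exists_antilipschitzWith hinj
  have hKq : ∀ q : Q, ‖q‖ ≤ K * ‖G' (q : E)‖ := fun q => by
    have := hK.le_mul_dist q 0
    simpa using this
  set c : NNReal := K⁻¹ / 2 with hc
  have hcpos : 0 < c := by positivity
  obtain ⟨S, hS, hSa⟩ := hG.approximates_deriv_on_nhds (Or.inr hcpos)
  have hΦc : ContinuousAt (fun p => Φ (pr p)) (x0, ((0 : P), (0 : Q))) := hΦpr.continuousAt
  have hprc : ContinuousAt pr (x0, ((0 : P), (0 : Q))) := pr.continuous.continuousAt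
  have hN : {p : E × (P × Q) | pr p ∈ V ∧ G (Φ (pr p)) = G p.1 ∧ Φ (pr p) ∈ S ∧ Θ p ∈ S} ∈
      𝓝 (x0, ((0 : P), (0 : Q))) := by
    have e1 : ∀ᶠ p in 𝓝 (x0, ((0 : P), (0 : Q))), pr p ∈ V :=
      hprc.eventually (p := fun y => y ∈ V) hV
    have e2 : ∀ᶠ p in 𝓝 (x0, ((0 : P), (0 : Q))), G (Φ (pr p)) = G p.1 :=
      hprc.eventually (p := fun y => G (Φ y) = G y.1) hconst
    have e3 : ∀ᶠ p in 𝓝 (x0, ((0 : P), (0 : Q))), Φ (pr p) ∈ S := by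
      apply hΦc.eventually (p := fun y => y ∈ S)
      have : (fun p => Φ (pr p)) (x0, ((0 : P), (0 : Q))) = x0 := by
        show Φ (pr (x0, ((0 : P), (0 : Q)))) = x0
        rw [hpr0, h0]
      rw [this]; exact hS
    have e4 : ∀ᶠ p in 𝓝 (x0, ((0 : P), (0 : Q))), Θ p ∈ S := by
      apply hΘ.continuousAt.eventually (p := fun y => y ∈ S)
      rw [hΘ0]; exact hS
    filter_upwards [e1, e2, e3, e4] with p h1 h2 h3 h4 using ⟨h1, h2, h3, h4⟩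
  have key := param_cover2 hΘ hsurj hN
  rw [hΘ0] at key
  filter_upwards [key] with q hq hGq
  obtain ⟨⟨s, y⟩, ⟨h1, h2, h3, h4⟩, h5⟩ := hq
  refine ⟨s, h1, ?_⟩
  have key2 := hSa _ h4 _ h3
  have hdiff : Θ (q.1, (s, y)) - Φ (pr (q.1, (s, y))) = (y : E) := by simp [Θ, pr]
  have hGy : G (Θ (q.1, (s, y))) = G (Φ (pr (q.1, (s, y)))) := by
    rw [h2, h5]; exact hGq.symm
  rw [hdiff, hGy, sub_self, zero_sub, norm_neg] at key2
  have hle := hKq y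
  have h5' : ‖y‖ ≤ (K : ℝ) * (c * ‖y‖) := hle.trans (mul_le_mul_of_nonneg_left key2 K.2)
  have h6 : (K : ℝ) * c = 1 / 2 := by
    rw [hc]; push_cast
    have : (K : ℝ) ≠ 0 := by exact_mod_cast hKpos.ne'
    field_simp
  have h7 : ‖y‖ = 0 := by
    have h8 : ‖y‖ ≤ (1 / 2) * ‖y‖ := by
      calc ‖y‖ ≤ (K : ℝ) * (c * ‖y‖) := h5'
        _ = (1 / 2) * ‖y‖ := by rw [← mul_assoc, h6]
    have := norm_nonneg y
    linarith
  have h9 : y = 0 := norm_eq_zero.mp h7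
  rw [← h5, h9]
  simp [Θ]

theorem link_cover2 {X M : Type*} [NormedAddCommGroup X] [NormedSpace ℂ X] [CompleteSpace X]
    [NormedAddCommGroup M] [NormedSpace ℂ M] [CompleteSpace M] {n : ℕ} {v : Fin n → X}
    {Φ : X × (Fin n → ℂ) → X} {x0 : X} (h0 : Φ (x0, 0) = x0)
    (hΦ : HasStrictFDerivAt Φ (multiDer v) (x0, 0)) {G : X → M} {G' : X →L[ℂ] M}
    (hG : HasStrictFDerivAt G G' x0)
    (hs : ∀ m, ∃ (s : Fin n → ℂ) (κ : ℂ), ∑ j, s j • G' (v j) + κ • G x0 = m)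
    {V : Set (X × (Fin n → ℂ))} (hV : V ∈ 𝓝 (x0, (0 : Fin n → ℂ))) {W : Set ℂ}
    (hW : W ∈ 𝓝 (1 : ℂ)) :
    ∀ᶠ q in 𝓝 (x0, G x0), ∃ (s : Fin n → ℂ) (κ : ℂ),
      (q.1, s) ∈ V ∧ κ ∈ W ∧ κ • G (Φ (q.1, s)) = q.2 := by
  let pr : X × ((Fin n → ℂ) × ℂ) →L[ℂ] X × (Fin n → ℂ) :=
    (ContinuousLinearMap.fst ℂ X ((Fin n → ℂ) × ℂ)).prod
      ((ContinuousLinearMap.fst ℂ (Fin n → ℂ) ℂ).comp
        (ContinuousLinearMap.snd ℂ X ((Fin n → ℂ) × ℂ)))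
  let pk : X × ((Fin n → ℂ) × ℂ) →L[ℂ] ℂ :=
      ((ContinuousLinearMap.snd ℂ (Fin n → ℂ) ℂ).comp
        (ContinuousLinearMap.snd ℂ X ((Fin n → ℂ) × ℂ)))
  have hpr : pr (x0, ((0 : Fin n → ℂ), (1 : ℂ))) = (x0, 0) := rfl
  have hpk : pk (x0, ((0 : Fin n → ℂ), (1 : ℂ))) = 1 := rfl
  have hval : Φ (pr (x0, ((0 : Fin n → ℂ), (1 : ℂ)))) = x0 := by rw [hpr, h0]
  have hA : HasStrictFDerivAt (fun q : X × ((Fin n → ℂ) × ℂ) => Φ (pr q))
      ((multiDer v).comp pr) (x0, ((0 : Fin n → ℂ), (1 : ℂ))) := by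
    refine HasStrictFDerivAt.comp (g := Φ) (f := pr) (x0, ((0 : Fin n → ℂ), (1 : ℂ))) ?_
      pr.hasStrictFDerivAt
    rw [hpr]; exact hΦ
  have hB : HasStrictFDerivAt (fun q : X × ((Fin n → ℂ) × ℂ) => G (Φ (pr q)))
      (G'.comp ((multiDer v).comp pr)) (x0, ((0 : Fin n → ℂ), (1 : ℂ))) := by
    refine HasStrictFDerivAt.comp (g := G) (f := fun q : X × ((Fin n → ℂ) × ℂ) => Φ (pr q))
      (x0, ((0 : Fin n → ℂ), (1 : ℂ))) ?_ hA
    rw [hval]; exact hG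
  have hF0 := (pk.hasStrictFDerivAt (x := (x0, ((0 : Fin n → ℂ), (1 : ℂ))))).smul hB
  rw [hpk, hval, one_smul] at hF0
  have hF : HasStrictFDerivAt (fun q : X × ((Fin n → ℂ) × ℂ) => pk q • G (Φ (pr q)))
    (G'.comp ((multiDer v).comp pr) + pk.smulRight (G x0)) (x0, ((0 : Fin n → ℂ), (1 : ℂ))) := hF0
  have hsurj : ∀ m, ∃ p, (G'.comp ((multiDer v).comp pr) + pk.smulRight (G x0)) (0, p) = m := by
    intro m
    obtain ⟨s, κ, h⟩ := hs m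
    refine ⟨(s, κ), ?_⟩
    have h5 : pr (0, (s, κ)) = (0, s) := rfl
    have h6 : pk (0, (s, κ)) = κ := rfl
    rw [_root_.add_apply, ContinuousLinearMap.smulRight_apply, ContinuousLinearMap.comp_apply,
      ContinuousLinearMap.comp_apply, h5, h6, multiDer_apply, zero_add, map_sum, ← h]
    simp
  have hV' : {q : X × ((Fin n → ℂ) × ℂ) | pr q ∈ V ∧ pk q ∈ W} ∈
      𝓝 (x0, ((0 : Fin n → ℂ), (1 : ℂ))) := by
    have d1 : ∀ᶠ q in 𝓝 (x0, ((0 : Fin n → ℂ), (1 : ℂ))), pr q ∈ V :=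
      pr.continuous.continuousAt.eventually (p := fun y => y ∈ V) hV
    have d4 : ∀ᶠ q in 𝓝 (x0, ((0 : Fin n → ℂ), (1 : ℂ))), pk q ∈ W :=
      pk.continuous.continuousAt.eventually (p := fun y => y ∈ W) hW
    filter_upwards [d1, d4] with q a d using ⟨a, d⟩
  have key := param_cover2 (x0 := x0) (p0 := ((0 : Fin n → ℂ), (1 : ℂ))) hF hsurj hV'
  have h8 : pk (x0, ((0 : Fin n → ℂ), (1 : ℂ))) • G (Φ (pr (x0, ((0 : Fin n → ℂ), (1 : ℂ))))) =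
      G x0 := by
    rw [hpk, hval, one_smul]
  rw [h8] at key
  filter_upwards [key] with q hq
  obtain ⟨p, ⟨hr1, hr2⟩, hp⟩ := hq
  exact ⟨p.1, p.2, hr1, hr2, hp⟩

end Vale.Agent.P002
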