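import Vale.Agent.P002.Spectral

namespace Vale.Agent.P002

open Matrix NumberField

theorem polyFun_eq_eval {r : ℕ} {G : (Fin r → ℂ) → ℂ} (hG : G ∈ PolyFun (Fin r → ℂ)) :
    ∃ P : MvPolynomial (Fin r) ℂ, ∀ τ, G τ = MvPolynomial.eval τ P := by
  unfold PolyFun at hG
  induction hG using Algebra.adjoin_induction with
  | mem x hx =>
    obtain ⟨l, rfl⟩ := hx
    refine ⟨∑ i, MvPolynomial.C (l (Pi.single i 1)) * MvPolynomial.X i, fun τ => ?_⟩
    rw [map_sum]
    simp only [map_mul, MvPolynomial.eval_C, MvPolynomial.eval_X]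
    conv_lhs => rw [← Finset.univ_sum_single τ]
    rw [map_sum]
    refine Finset.sum_congr rfl fun i _ => ?_
    have : (Pi.single i (τ i) : Fin r → ℂ) = τ i • Pi.single i 1 := by
      rw [← Pi.single_smul]; simp
    rw [this, map_smul, smul_eq_mul, mul_comm]
  | algebraMap c => exact ⟨MvPolynomial.C c, fun τ => by simp⟩
  | add f g _ _ hf hg =>
    obtain ⟨P, hP⟩ := hf
    obtain ⟨Q, hQ⟩ := hg
    exact ⟨P + Q, fun τ => by rw [map_add, ← hP, ← hQ]; rfl⟩
  | mul f g _ _ hf hg =>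
    obtain ⟨P, hP⟩ := hf
    obtain ⟨Q, hQ⟩ := hg
    exact ⟨P * Q, fun τ => by rw [map_mul, ← hP, ← hQ]; rfl⟩

theorem mvPoly_zero_of_monoid {r : ℕ} {G : Type*} [Monoid G] (τ : G →* (Fin r → ℂ))
    (hτ : ∀ g i, τ g i ≠ 0)
    (hsep : ∀ n : Fin r → ℤ, n ≠ 0 → ∃ g, ∏ i, (τ g i) ^ (n i) ≠ 1)
    (P : MvPolynomial (Fin r) ℂ) (hP : ∀ g, MvPolynomial.eval (τ g) P = 0) : P = 0 := by
  classical
  let χ : (Fin r →₀ ℕ) → (G →* ℂ) := fun m =>
    { toFun := fun g => ∏ i, (τ g i) ^ (m i)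
      map_one' := by simp
      map_mul' := fun a b => by
        simp only [map_mul, Pi.mul_apply, mul_pow, Finset.prod_mul_distrib] }
  have hinj : Function.Injective χ := by
    intro m m' hmm
    by_contra hne
    have hn : (fun i => (m i : ℤ) - (m' i : ℤ)) ≠ 0 := by
      intro h
      apply hne
      ext i
      have := congrFun h i
      simp only [Pi.zero_apply, sub_eq_zero] at this
      exact_mod_cast this
    obtain ⟨g, hg⟩ := hsep _ hn
    apply hg
    have h1 := DFunLike.congr_fun hmm g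
    simp only [χ, MonoidHom.coe_mk, OneHom.coe_mk] at h1
    have h2 : ∏ i, (τ g i) ^ ((m i : ℤ) - (m' i : ℤ)) =
        (∏ i, (τ g i) ^ (m i)) / ∏ i, (τ g i) ^ (m' i) := by
      rw [← Finset.prod_div_distrib]
      refine Finset.prod_congr rfl fun i _ => ?_
      rw [zpow_sub₀ (hτ g i), zpow_natCast, zpow_natCast]
    rw [h2, h1]
    exact div_self (Finset.prod_ne_zero_iff.mpr fun i _ => pow_ne_zero _ (hτ g i))
  have hli := (linearIndependent_monoidHom G ℂ).comp χ hinj
  rw [linearIndependent_iff'] at hli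
  ext m
  by_cases hm : m ∈ P.support
  · rw [MvPolynomial.coeff_zero]
    refine hli P.support (fun m => MvPolynomial.coeff m P) ?_ m hm
    funext g
    have := hP g
    rw [MvPolynomial.eval_eq'] at this
    rw [Finset.sum_apply]
    simpa [χ] using this
  · rw [MvPolynomial.coeff_zero]
    exact MvPolynomial.notMem_support_iff.mp hm

theorem emb_mul {L : Type*} [Field L] [NumberField L] {r : ℕ} (φ : L →+* ℂ)
    (A B : Matrix (Fin r) (Fin r) (𝓞 L)) : emb φ (A * B) = emb φ A * emb φ B :=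
  Matrix.map_mul

theorem emb_one {L : Type*} [Field L] [NumberField L] {r : ℕ} (φ : L →+* ℂ) :
    emb φ (1 : Matrix (Fin r) (Fin r) (𝓞 L)) = 1 :=
  Matrix.map_one _ (map_zero _) (map_one _)

theorem emb_det {L : Type*} [Field L] [NumberField L] {r : ℕ} (φ : L →+* ℂ)
    (A : Matrix (Fin r) (Fin r) (𝓞 L)) :
    (emb φ A).det = (φ.comp (algebraMap (𝓞 L) L)) A.det :=
  (RingHom.map_det (φ.comp (algebraMap (𝓞 L) L)) A).symm

theorem sl_mul {R : Type*} [CommRing R] {r : ℕ} (A B : SpecialLinearGroup (Fin r) R) :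
    (A * B).1 = A.1 * B.1 := rfl

theorem sl_one {R : Type*} [CommRing R] {r : ℕ} : (1 : SpecialLinearGroup (Fin r) R).1 = 1 := rfl

theorem unit_density_of_key {L : Type*} [Field L] [NumberField L] (φ : L →+* ℂ)
    {r : ℕ} (c : Matrix (Fin r) (Fin r) (𝓞 L)) (h : Mat r) (hh : IsUnit h.det)
    (lam : Fin r → ℂ) (hlam : Function.Injective lam)
    (hc : emb φ c = h * diagonal lam * h⁻¹)
    (key : ∀ n : Fin r → ℤ, n ≠ 0 → ∃ (t : SpecialLinearGroup (Fin r) (𝓞 L)) (κ : ℂ), κ ≠ 0 ∧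
      Commute t.1 c ∧ ∏ i, (κ * (h⁻¹ * emb φ t.1 * h) i i) ^ (n i) ≠ 1)
    (F : Mat r → ℂ) (hF : F ∈ PolyFun (Mat r))
    (hv : ∀ t : SpecialLinearGroup (Fin r) (𝓞 L), Commute (t : Matrix (Fin r) (Fin r) (𝓞 L)) c →
      ∀ κ : ℂ, κ ≠ 0 → F (κ • emb φ t) = 0)
    (t : Mat r) (ht : Commute t (emb φ c)) : F t = 0 := by
  have hdiag : ∀ s : Matrix (Fin r) (Fin r) (𝓞 L), Commute s c →
      emb φ s = h * diagonal (fun i => (h⁻¹ * emb φ s * h) i i) * h⁻¹ := by
    intro s hs
    apply diag_of_commute h lam hh hlam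
    rw [← hc]
    unfold Commute SemiconjBy
    rw [← emb_mul, ← emb_mul, hs.eq]
  have hconj : ∀ s : Matrix (Fin r) (Fin r) (𝓞 L), Commute s c →
      h⁻¹ * emb φ s * h = diagonal (fun i => (h⁻¹ * emb φ s * h) i i) := by
    intro s hs
    have hD : ∀ D : Mat r, h⁻¹ * (h * D * h⁻¹) * h = D := by
      intro D
      calc h⁻¹ * (h * D * h⁻¹) * h = (h⁻¹ * h) * D * (h⁻¹ * h) := by
            simp only [Matrix.mul_assoc]
        _ = D := by rw [Matrix.nonsing_inv_mul _ hh, Matrix.one_mul, Matrix.mul_one]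
    conv_lhs => rw [hdiag s hs]
    rw [hD]
  let H : Subgroup (SpecialLinearGroup (Fin r) (𝓞 L)) :=
    { carrier := {s | Commute s.1 c}
      mul_mem' := fun {a b} ha hb => by
        show Commute (a.1 * b.1) c
        exact Commute.mul_left ha hb
      one_mem' := by
        show Commute (1 : Matrix (Fin r) (Fin r) (𝓞 L)) c
        exact Commute.one_left c
      inv_mem' := fun {a} ha => by
        show Commute (a⁻¹).1 c
        have e1 : a.1 * (a⁻¹).1 = 1 := congrArg Subtype.val (mul_inv_cancel a)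
        have e2 : (a⁻¹).1 * a.1 = 1 := congrArg Subtype.val (inv_mul_cancel a)
        have ha' : a.1 * c = c * a.1 := ha
        unfold Commute SemiconjBy
        calc (a⁻¹).1 * c = (a⁻¹).1 * c * (a.1 * (a⁻¹).1) := by rw [e1, mul_one]
          _ = (a⁻¹).1 * (c * a.1) * (a⁻¹).1 := by noncomm_ring
          _ = ((a⁻¹).1 * a.1) * c * (a⁻¹).1 := by rw [← ha']; noncomm_ring
          _ = c * (a⁻¹).1 := by rw [e2, one_mul] }
  let τ : ℂˣ × H →* (Fin r → ℂ) :=
    { toFun := fun g i => (g.1 : ℂ) * (h⁻¹ * emb φ g.2.1.1 * h) i i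
      map_one' := by
        funext i
        have e0 : h⁻¹ * emb φ (1 : ℂˣ × H).2.1.1 * h = 1 := by
          have : emb φ (1 : ℂˣ × H).2.1.1 = 1 := emb_one φ
          rw [this, Matrix.mul_one, Matrix.nonsing_inv_mul _ hh]
        rw [e0, one_apply_eq]
        simp
      map_mul' := fun a b => by
        funext i
        have e0 : emb φ (a * b).2.1.1 = emb φ a.2.1.1 * emb φ b.2.1.1 := emb_mul φ _ _
        have e1 : h⁻¹ * emb φ (a * b).2.1.1 * h =
            (h⁻¹ * emb φ a.2.1.1 * h) * (h⁻¹ * emb φ b.2.1.1 * h) := by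
          rw [e0]
          simp only [Matrix.mul_assoc]
          rw [Matrix.mul_nonsing_inv_cancel_left _ _ hh]
        rw [e1, hconj _ a.2.2, hconj _ b.2.2, diagonal_mul_diagonal, diagonal_apply_eq]
        simp only [Prod.fst_mul, Units.val_mul, Pi.mul_apply, diagonal_apply_eq]
        ring }
  have hFτ : ∃ P : MvPolynomial (Fin r) ℂ, ∀ v : Fin r → ℂ,
      F (h * diagonal v * h⁻¹) = MvPolynomial.eval v P := by
    apply polyFun_eq_eval (G := fun v => F (h * diagonal v * h⁻¹))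
    refine polyFun_comp hF (T := fun v : Fin r → ℂ => h * diagonal v * h⁻¹) ?_
    refine polyMap_mul (polyMap_mul (polyMap_const h) ?_) (polyMap_const _)
    exact polyMap_linear (Matrix.diagonalLinearMap (Fin r) ℂ ℂ)
  obtain ⟨P, hP⟩ := hFτ
  have hP0 : P = 0 := by
    refine mvPoly_zero_of_monoid τ ?_ ?_ P ?_
    · intro g i
      refine mul_ne_zero g.1.ne_zero ?_
      have h1 : (h⁻¹ * emb φ g.2.1.1 * h).det ≠ 0 := by
        rw [det_mul, det_mul, emb_det, g.2.1.2, map_one, mul_one, ← det_mul,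
          Matrix.nonsing_inv_mul _ hh, det_one]
        exact one_ne_zero
      rw [hconj _ g.2.2, det_diagonal] at h1
      exact (Finset.prod_ne_zero_iff.mp h1) i (Finset.mem_univ i)
    · intro n hn
      obtain ⟨s, κ, hκ, hs, hne⟩ := key n hn
      exact ⟨(Units.mk0 κ hκ, ⟨s, hs⟩), hne⟩
    · intro g
      rw [← hP]
      have e1 : h * diagonal (τ g) * h⁻¹ = (g.1 : ℂ) • emb φ g.2.1.1 := by
        conv_rhs => rw [hdiag _ g.2.2]
        rw [← Matrix.smul_mul, ← Matrix.mul_smul]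
        congr 2
        ext i j
        by_cases hij : i = j
        · subst hij
          simp [τ]
        · simp [Matrix.diagonal_apply_ne _ hij]
      rw [e1]
      exact hv g.2.1 g.2.2 _ g.1.ne_zero
  have e1 := diag_of_commute h lam hh hlam t (by rw [← hc]; exact ht)
  rw [e1, hP, hP0, map_zero]

end Vale.Agent.P002
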