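import Vale.Agent.P002.ZFam
import Vale.Agent.P002.Assemble

namespace Vale.Agent.P002

open Matrix NumberField Topology Filter

section base
variable {r : ℕ} [NeZero r]

theorem qf_all {g : ℕ} {W : Set (Tup (g + 1) r)} (hMC : MoveClosed W) {x y : Tup (g + 1) r}
    (hx : x ∈ W) (hall : ∀ i, QF i (x i) (y i)) : y ∈ W := by
  have hrep : ∀ k : ℕ, k ≤ g + 1 →
      (fun i : Fin (g + 1) => if (i : ℕ) < k then y i else x i) ∈ W := by
    intro k
    induction k with
    | zero => intro _; simpa using hx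
    | succ k ih =>
      intro hk
      have h1 := ih (by omega)
      set z : Tup (g + 1) r := fun i => if (i : ℕ) < k then y i else x i with hz
      have h2 := (hall ⟨k, hk⟩).2 W hMC z (by
        have : Function.update z ⟨k, hk⟩ (x ⟨k, hk⟩) = z := by
          funext j
          by_cases hj : j = ⟨k, hk⟩
          · subst hj; simp [hz]
          · simp [Function.update_of_ne hj]
        rw [this]; exact h1)
      convert h2 using 1
      funext j
      by_cases hj : j = ⟨k, hk⟩
      · subst hj; simp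
      · rw [Function.update_of_ne hj]
        have hjk : (j : ℕ) ≠ k := fun h => hj (Fin.ext h)
        have : (j : ℕ) < k + 1 ↔ (j : ℕ) < k := by omega
        simp only [hz, this]
  have := hrep (g + 1) le_rfl
  convert this using 1
  funext i
  rw [if_pos i.2]

theorem mono0_mul (d d' : Fin r → ℂ) : (mono 0 d * mono 0 d' : Mat r) = mono 0 (d * d') := by
  rw [mono_mul]
  simp only [add_zero]
  rfl

theorem mono0_adj {w : Fin r → ℂ} (hw : ∀ i, w i ≠ 0) :
    Pr (mono 0 w : Mat r).adjugate (mono 0 w⁻¹) := by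
  have h1 := Pr.of_inv (mono_isUnit 0 w hw)
  rw [mono_inv 0 w hw] at h1
  have e : (mono (-0) (fun i => (w (i - 0))⁻¹) : Mat r) = mono 0 w⁻¹ := by
    congr 1
    · simp
    · funext i; simp
  rwa [e] at h1

theorem AAm_mono : ∀ (n : ℕ) (α : Fin n → Fin r → ℂ),
    AAm n (fun i => (mono 0 (α i) : Mat r)) = mono 0 (∏ i, α i)
  | 0, α => by simp [AAm, mono_zero_one]
  | n + 1, α => by
    simp only [AAm]
    rw [AAm_mono n (fun i => α i.succ), mono0_mul, Fin.prod_univ_succ, mul_comm]

theorem uum_mono : ∀ (n : ℕ) (α : Fin n → Fin r → ℂ) (_ : ∀ i j, α i j ≠ 0) (i : Fin n),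
    ∃ w : Fin r → ℂ, (∀ j, w j ≠ 0) ∧ uum n (fun i => (mono 0 (α i) : Mat r)) i = mono 0 w
  | 0, _, _, i => i.elim0
  | n + 1, α, hα, i => by
    refine Fin.cases ?_ (fun i => ?_) i
    · simp only [uum, Fin.cons_zero]
      refine ⟨∏ i, α (Fin.succ i), fun j => ?_, AAm_mono n _⟩
      rw [Finset.prod_apply]
      exact Finset.prod_ne_zero_iff.mpr fun i _ => hα _ _
    · simp only [uum, Fin.cons_succ]
      exact uum_mono n _ (fun i j => hα i.succ j) i

/-- the starting tuple: handles `(α_i, P)` and last handle `(P, ∏ α_i)` -/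
noncomputable def startX {n : ℕ} (α : Fin n → Fin r → ℂ) : Fin (n + 1) → Mat r :=
  Fin.snoc (α := fun _ => Mat r) (fun i => mono 0 (α i)) (mono 1 1)

noncomputable def startT {n : ℕ} (α d : Fin n → Fin r → ℂ) : Tup (n + 1) r :=
  Fin.snoc (α := fun _ => Mat r × Mat r) (fun i => (mono 0 (α i), mono 1 (d i)))
    (mono 1 1, mono 0 (∏ i, α i))

theorem fam_start {n : ℕ} (α : Fin n → Fin r → ℂ) (hα : ∀ i j, α i j ≠ 0) :
    ∃ d : Fin n → Fin r → ℂ, (∀ i j, d i j ≠ 0) ∧
      PrT (famG (fun M : Mat r => M.adjugate) (startX α)) (startT α d) := by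
  have hcs : (fun i : Fin n => startX α i.castSucc) = fun i => mono 0 (α i) :=
    funext fun i => by simp only [startX, Fin.snoc_castSucc]
  have hl : startX α (Fin.last n) = mono 1 1 := by simp only [startX, Fin.snoc_last]
  choose w hw hw' using uum_mono n α hα
  refine ⟨fun i j => w i j * α i (j + 1) * (w i (j + 1))⁻¹, fun i j =>
    mul_ne_zero (mul_ne_zero (hw i j) (hα _ _)) (inv_ne_zero (hw _ _)), fun i => ?_⟩
  refine Fin.lastCases ?_ (fun i => ?_) i
  · rw [famG_last, hcs, hl, AAm_mono]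
    simp only [startT, Fin.snoc_last]
    exact ⟨Pr.refl _, Pr.refl _⟩
  · rw [famG_castSucc, hcs, hl, hw' i]
    have h0 : startX α i.castSucc = mono 0 (α i) := by simp only [startX, Fin.snoc_castSucc]
    rw [h0]
    simp only [startT, Fin.snoc_castSucc]
    constructor
    · have h1 := (Pr.refl (mono 0 (w i) * mono 0 (α i) : Mat r)).mul (mono0_adj (hw i))
      rw [mono0_mul, mono0_mul] at h1
      rw [mono0_mul]
      have e : w i * α i * (w i)⁻¹ = α i := by
        funext j
        simp only [Pi.mul_apply, Pi.inv_apply]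
        field_simp [hw i j]
      rwa [e] at h1
    · have h1 := (Pr.refl (mono 0 (w i) * (mono 1 1 * mono 0 (α i)) : Mat r)).mul
        (mono0_adj (hw i))
      have e : (mono 0 (w i) * (mono 1 1 * mono 0 (α i)) * mono 0 (w i)⁻¹ : Mat r) =
          mono 1 (fun j => w i j * α i (j + 1) * (w i (j + 1))⁻¹) := by
        rw [mono_mul, mono_mul, mono_mul]
        congr 1
        · simp
        · funext j
          simp
      rw [← e]
      exact h1

theorem up_mono {α d : Fin r → ℂ} (k l : Fin r) (hα : ∀ i, α i ≠ 0) (hd : ∀ i, d i ≠ 0) :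
    UP ((mono k α : Mat r), (mono l d : Mat r)) := ⟨mono_isUnit' k α hα, mono_isUnit' l d hd⟩

/-- changing the monomial matrix of a handle -/
theorem qf_diag {g : ℕ} (i : Fin g) {α d d' : Fin r → ℂ} (hα : Function.Injective α)
    (hα0 : ∀ j, α j ≠ 0) (hd : ∀ j, d j ≠ 0) (hd' : ∀ j, d' j ≠ 0) :
    QF i ((mono 0 α : Mat r), mono 1 d) (mono 0 α, mono 1 d') := by
  set c : Fin r → ℂ := fun j => (d (j - 1))⁻¹ * d' (j - 1) with hc
  have hc0 : ∀ j, c j ≠ 0 := fun j => mul_ne_zero (inv_ne_zero (hd _)) (hd' _)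
  have h := qrelF_f2 i ((mono 0 α : Mat r), mono 1 d) (up_mono 0 1 hα0 hd) (gram_diag hα)
    (mono 0 c) (mono_isUnit' 0 c hc0) (by
      show mono 0 c * mono 0 α = mono 0 α * mono 0 c
      rw [mono0_mul, mono0_mul, mul_comm])
  have e : f2 ((mono 0 α : Mat r), mono 1 d) (mono 0 c) = (mono 0 α, mono 1 d') := by
    simp only [f2, mono_mul]
    congr 1
    have : (fun i => d i * c (i + 1)) = d' := by
      funext j
      simp only [hc, add_sub_cancel_right]
      rw [← mul_assoc, mul_inv_cancel₀ (hd j), one_mul]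
    rw [add_zero, this]
  rwa [e] at h

/-- turning the last handle `(P, A)` into `(A⁻¹, P)` -/
theorem qf_turn {g : ℕ} (i : Fin g) {A : Fin r → ℂ} (hA : Function.Injective A)
    (hA0 : ∀ j, A j ≠ 0) :
    QF i ((mono 1 1 : Mat r), mono 0 A) (mono 0 A⁻¹, mono 1 1) := by
  have h1' : ∀ j : Fin r, (1 : Fin r → ℂ) j ≠ 0 := fun _ => one_ne_zero
  -- first step: (P, A) to (P, A P)
  have h1 := qrelF_f2 i ((mono 1 1 : Mat r), mono 0 A) (up_mono 1 0 h1' hA0)
    (gram_mono_one_ne_zero 1 h1') (mono 1 1) (mono_isUnit' 1 1 h1') (Commute.refl _)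
  have e1 : f2 ((mono 1 1 : Mat r), mono 0 A) (mono 1 1) = (mono 1 1, mono 1 A) := by
    simp only [f2, mono_mul]
    congr 1
    rw [zero_add]
    congr 1
    funext j
    simp
  rw [e1] at h1
  -- second step: (P, A P) to (A⁻¹, A P)
  have h2 := qrelF_f1 i 0 ((mono 1 1 : Mat r), mono 1 A) (up_mono 1 1 h1' hA0)
    (by simpa [Vale.Agent.P002.e1] using gram_mono_one_ne_zero A hA0) (Ring.inverse (mono 1 A))
    (mono_isUnit' 1 A hA0).ringInverse (by
      have : Vale.Agent.P002.e1 0 ((mono 1 1 : Mat r), (mono 1 A : Mat r)) = mono 1 A := by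
        simp [Vale.Agent.P002.e1]
      rw [this]
      exact commute_ringInverse (mono_isUnit' 1 A hA0) (Commute.refl _))
  have e2 : f1 0 ((mono 1 1 : Mat r), mono 1 A) (Ring.inverse (mono 1 A)) =
      (mono 0 A⁻¹, mono 1 A) := by
    simp only [f1, pow_zero, mul_one]
    congr 1
    rw [ringInverse_mono 1 A hA0, mono_mul]
    congr 1
    · simp
    · funext j
      simp
  rw [e2] at h2
  -- third step
  have h3 := qf_diag i (α := A⁻¹) (d := A) (d' := 1)
    (fun a b h => hA (inv_injective (by simpa using h))) (fun j => inv_ne_zero (hA0 j)) hA0 h1'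
  exact (h1.trans' i _ _ _ h2).trans' i _ _ _ h3

theorem start_to_base {n : ℕ} {W : Set (Tup (n + 1) r)} (hW : MoveClosed W)
    {α d : Fin n → Fin r → ℂ} (hα : ∀ i, BaseCond (α i)) (hd : ∀ i j, d i j ≠ 0)
    (hA : Function.Injective (∏ i, α i)) (hx : startT α d ∈ W) :
    basePt (Fin.snoc (α := fun _ => Fin r → ℂ) α (∏ i, α i)⁻¹) ∈ W := by
  refine qf_all hW hx fun i => ?_
  refine Fin.lastCases ?_ (fun i => ?_) i
  · simp only [startT, basePt, Fin.snoc_last]
    refine qf_turn _ hA fun j => ?_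
    rw [Finset.prod_apply]
    exact Finset.prod_ne_zero_iff.mpr fun i _ => (hα i).ne j
  · simp only [startT, basePt, Fin.snoc_castSucc]
    exact qf_diag _ (hα i).inj (hα i).ne (hd i) fun _ => one_ne_zero

end base

section main
variable {L : Type*} [Field L] [NumberField L] (φ : L →+* ℂ) {r : ℕ} [NeZero r]

/-- the base point is joined to a generic point inside the closure of the cone -/
theorem base_reach {n : ℕ} (hn : 1 ≤ n) {α : Fin n → Fin r → ℂ} (hα : ∀ i, BaseCond (α i))
    (hA : Function.Injective (∏ i, α i)) :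
    ∃ y : Tup (n + 1) r, GenPt y ∧ (∀ i, ∃ a b : Fin r → ℂ, y i = (diagonal a, diagonal b)) ∧
      y ∈ WW φ (n + 1) r ∧
      basePt (Fin.snoc (α := fun _ => Fin r → ℂ) α (∏ i, α i)⁻¹) ∈ Reach φ y := by
  obtain ⟨p, hp, hind⟩ := exists_primes (n + 1) r
  obtain ⟨d, hd, hpr⟩ := fam_start α fun i j => (hα i).ne j
  have hy := genPt_y0 hn hp hind
  refine ⟨y0 p, hy, ?_, ?_, ?_⟩
  · intro i
    exact ⟨_, _, rfl⟩
  · exact WW_pr φ (fam_WW φ fun l => diagonal (p l)) (PrT.symm (fam_y0 hp))
  · refine start_to_base (moveClosed_reach φ hy) hα hd hA ?_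
    set Φ : ℂ → Tup (n + 1) r := fun s =>
      famG (fun M : Mat r => M.adjugate) fun l => (1 - s) • startX α l + s • diagonal (p l) with hΦ
    refine ⟨Φ, ?_, ?_, ?_, ?_⟩
    · refine polyMap_comp polyMap_fam (polyMap_pi fun l => ?_)
      exact polyMap_add (polyMap_smul (polyFun_sub (polyFun_const 1)
        (polyFun_linear LinearMap.id)) (polyMap_const _))
        (polyMap_smul (polyFun_linear LinearMap.id) (polyMap_const _))
    · intro s
      exact fam_WW φ _
    · have e : Φ 0 = famG (fun M : Mat r => M.adjugate) (startX α) := by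
        simp [hΦ]
      rw [e]
      exact hpr.symm
    · have e : Φ 1 = famG (fun M : Mat r => M.adjugate) fun l => diagonal (p l) := by
        simp [hΦ]
      rw [e]
      exact fam_y0 hp

end main

end Vale.Agent.P002
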