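import Vale.Agent.P002.ZBase

namespace Vale.Agent.P002

open Matrix NumberField Topology Filter

section data
variable {r : ℕ} [NeZero r]

theorem base_data (n : ℕ) (hn : 1 ≤ n) : ∃ α : Fin n → Fin r → ℂ, (∀ i, BaseCond (α i)) ∧
    Function.Injective (∏ i, α i) ∧
    (∀ i, BaseCond ((Fin.snoc (α := fun _ => Fin r → ℂ) α (∏ i, α i)⁻¹ :
      Fin (n + 1) → Fin r → ℂ) i)) ∧
    (∀ (k : ℕ) (hk : k + 1 < n + 1),
      Linked ((Fin.snoc (α := fun _ => Fin r → ℂ) α (∏ i, α i)⁻¹ :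
        Fin (n + 1) → Fin r → ℂ) ⟨k, by omega⟩)
        ((Fin.snoc (α := fun _ => Fin r → ℂ) α (∏ i, α i)⁻¹ :
        Fin (n + 1) → Fin r → ℂ) ⟨k + 1, hk⟩)) ∧
    kpA (basePt (Fin.snoc (α := fun _ => Fin r → ℂ) α (∏ i, α i)⁻¹ :
      Fin (n + 1) → Fin r → ℂ)) = 1 := by
  have h0 : (2 : ℂ) ≠ 0 := two_ne_zero
  have h1 : ‖(2 : ℂ)‖ ≠ 1 := by norm_num
  set m : Fin (n + 1) → ℤ := fun i => if i = Fin.last n then -(n : ℤ) else 1 with hm
  have hm0 : ∀ i, m i ≠ 0 := by
    intro i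
    simp only [hm]
    split_ifs
    · omega
    · norm_num
  have hprod : (∏ _i : Fin n, bα (r := r) 2 1) = bα 2 n := by
    funext j
    rw [Finset.prod_const, Finset.card_univ, Fintype.card_fin, Pi.pow_apply]
    unfold bα
    rw [← zpow_natCast, ← _root_.zpow_mul]
    congr 1
    ring
  have hsnoc : (Fin.snoc (α := fun _ => Fin r → ℂ) (fun _ : Fin n => bα 2 1)
      (∏ _i : Fin n, bα (r := r) 2 1)⁻¹ : Fin (n + 1) → Fin r → ℂ) = fun i => bα 2 (m i) := by
    funext i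
    refine Fin.lastCases ?_ (fun i => ?_) i
    · rw [Fin.snoc_last, hprod]
      funext j
      simp only [hm, if_true, Pi.inv_apply]
      rw [bα_neg]
    · rw [Fin.snoc_castSucc]
      simp only [hm, if_neg (Fin.castSucc_lt_last i).ne]
  have hsum : ∑ i, m i = 0 := by
    rw [Fin.sum_univ_castSucc]
    have h1 : ∀ i : Fin n, m i.castSucc = 1 := fun i => by
      simp only [hm, if_neg (Fin.castSucc_lt_last i).ne]
    have h2 : m (Fin.last n) = -(n : ℤ) := by simp [hm]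
    rw [h2, Finset.sum_congr rfl fun i _ => h1 i]
    simp
  refine ⟨fun _ => bα 2 1, fun _ => baseCond_bα h0 h1 one_ne_zero, ?_, ?_, ?_, ?_⟩
  · rw [hprod]
    exact (baseCond_bα h0 h1 (by exact_mod_cast (by omega : n ≠ 0))).inj
  · intro i
    rw [hsnoc]
    exact baseCond_bα h0 h1 (hm0 i)
  · intro k hk
    rw [hsnoc]
    exact linked_bα h0 h1 (hm0 _)
  · rw [hsnoc, base_kp h0, hsum, ← mono_zero_one]
    congr 1
    funext j
    simp [bα]

theorem burn_scalar (p : Mat r × Mat r) (h : burn p ≠ 0) (M : Mat r) (h1 : Commute M p.1)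
    (h2 : Commute M p.2) : ∃ c : ℂ, M = c • (1 : Mat r) := by
  let S : Submodule ℂ (Mat r) :=
    { carrier := {N | Commute M N}
      add_mem' := fun {a b} ha hb => Commute.add_right ha hb
      zero_mem' := Commute.zero_right M
      smul_mem' := fun c N hN => Commute.smul_right hN c }
  have hS : S = ⊤ := burn_span p h S fun i j => (h1.pow_right i).mul_right (h2.pow_right j)
  have h3 : M ∈ Set.range (Matrix.scalar (Fin r)) := by
    refine Matrix.mem_range_scalar_of_commute_single fun i j _ => ?_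
    have : Matrix.single i j (1 : ℂ) ∈ S := by rw [hS]; trivial
    exact Commute.symm this
  obtain ⟨c, hc⟩ := h3
  refine ⟨c, ?_⟩
  rw [← hc]
  ext i j
  simp [Matrix.scalar_apply, Matrix.diagonal_apply, Matrix.one_apply]

theorem exists_root_inv (r : ℕ) [NeZero r] (z : ℂ) (hz : z ≠ 0) : ∃ κ : ℂ, κ ≠ 0 ∧ κ ^ r * z = 1 := by
  obtain ⟨κ, hκ⟩ := IsAlgClosed.exists_pow_nat_eq z⁻¹ (NeZero.pos r)
  refine ⟨κ, ?_, ?_⟩
  · rintro rfl
    rw [zero_pow (NeZero.ne r)] at hκ
    exact inv_ne_zero hz hκ.symm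
  · rw [hκ, inv_mul_cancel₀ hz]

/-- a diagonal tuple normalised to determinant one -/
theorem diag_norm {g : ℕ} {y : Tup g r} (hi : Inv y)
    (hd : ∀ i, ∃ a b : Fin r → ℂ, y i = (diagonal a, diagonal b)) :
    ∃ z : Tup g r, PrT z y ∧ (∀ i, (z i).1.det = 1 ∧ (z i).2.det = 1) ∧ Kp z = 1 := by
  choose κ hκ hκ' using fun i => exists_root_inv r (y i).1.det (hi i).1.ne_zero
  choose μ hμ hμ' using fun i => exists_root_inv r (y i).2.det (hi i).2.ne_zero
  have hdet1 : ∀ i, (κ i • (y i).1).det = 1 := fun i => by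
    rw [Matrix.det_smul, Fintype.card_fin, hκ']
  have hdet2 : ∀ i, (μ i • (y i).2).det = 1 := fun i => by
    rw [Matrix.det_smul, Fintype.card_fin, hμ']
  refine ⟨fun i => (κ i • (y i).1, μ i • (y i).2), fun i => ⟨⟨κ i, hκ i, rfl⟩, ⟨μ i, hμ i, rfl⟩⟩,
    fun i => ⟨hdet1 i, hdet2 i⟩, ?_⟩
  unfold Kp
  refine List.prod_eq_one fun M hM => ?_
  obtain ⟨i, rfl⟩ := List.mem_ofFn.mp hM
  obtain ⟨a, b, hab⟩ := hd i
  have hc : Commute (κ i • (y i).1) (μ i • (y i).2) := by
    rw [hab]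
    refine Commute.smul_left (Commute.smul_right ?_ _) _
    show diagonal a * diagonal b = diagonal b * diagonal a
    rw [Matrix.diagonal_mul_diagonal, Matrix.diagonal_mul_diagonal]
    congr 1
    funext j
    exact mul_comm _ _
  show κ i • (y i).1 * μ i • (y i).2 * (κ i • (y i).1)⁻¹ * (μ i • (y i).2)⁻¹ = 1
  rw [hc.eq, Matrix.mul_assoc (μ i • (y i).2), Matrix.mul_nonsing_inv _ (by rw [hdet1]; simp),
    mul_one, Matrix.mul_nonsing_inv _ (by rw [hdet2]; simp)]

end data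

section main
variable {L : Type*} [Field L] [NumberField L] (φ : L →+* ℂ) {g r : ℕ} [NeZero r]

/-- a polynomial function vanishing on the cone over the integral representations whose first handle
generates the matrix algebra and whose generators have generic spectrum vanishes on all
representations -/
theorem cone_Z (N : ℕ) (F : Tup (g + 2) r → ℂ) (hF : F ∈ PolyFun (Tup (g + 2) r))
    (hv : ∀ c ∈ Cone φ (g + 2) r, burn (c 0) ≠ 0 →
      (∀ i, gprod N (c i).1 ≠ 0 ∧ gprod N (c i).2 ≠ 0) → F c = 0)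
    (x : Tup (g + 2) r) (hx : ∀ i, (x i).1.det = 1 ∧ (x i).2.det = 1) (hk : Kp x = 1) :
    F x = 0 := by
  obtain ⟨α, hα, hA, hα', hl, hkp⟩ := base_data (r := r) (g + 1) (by omega)
  set α' : Fin (g + 2) → Fin r → ℂ := Fin.snoc (α := fun _ => Fin r → ℂ) α (∏ i, α i)⁻¹ with hα'def
  obtain ⟨y, hy, hyd, hyW, hbase⟩ := base_reach φ (by omega : 1 ≤ g + 1) hα hA
  -- the function `Π`
  set G : Tup (g + 2) r → ℂ := fun z => ∏ i, (gprod N (z i).1 * gprod N (z i).2) with hG
  have hGp : G ∈ PolyFun (Tup (g + 2) r) := by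
    refine polyFun_prod _ fun i _ => polyFun_mul ?_ ?_
    · exact gprod_polyFun N (poly1 polyMap_id i)
    · exact gprod_polyFun N (poly2 polyMap_id i)
  have hFW : ∀ z ∈ WW φ (g + 2) r, burn (z 0) ≠ 0 → G z ≠ 0 → F z = 0 := by
    intro z hz hb hGz
    have h1 := hz (fun z => F z * (burn (z 0) * G z))
      (polyFun_mul hF (polyFun_mul (burn_polyFun 0) hGp)) (fun c hc => by
        by_cases hb : burn (c 0) = 0
        · simp [hb]
        by_cases hg : G c = 0
        · simp [hg]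
        have h2 : ∀ i, gprod N (c i).1 ≠ 0 ∧ gprod N (c i).2 ≠ 0 := fun i =>
          mul_ne_zero_iff.mp (Finset.prod_ne_zero_iff.mp hg i (Finset.mem_univ i))
        simp [hv c hc hb h2])
    exact (mul_eq_zero.mp h1).resolve_right (mul_ne_zero hb hGz)
  -- near the base point every representation lies in the closure
  have hnear : ∀ᶠ z in 𝓝 (basePt α'), Kp z = 1 → z ∈ WW φ (g + 2) r := by
    have h1 := chain2_final hα' hl
    rw [nhds_prod_eq] at h1
    have h2 := h1.curry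
    have h3 : ∀ᶠ z in 𝓝 (basePt α'), kpA z = kpA (basePt α') → ∀ W, MoveClosed W →
        basePt α' ∈ W → z ∈ W := by
      filter_upwards [h2] with z hz
      exact hz.self_of_nhds
    filter_upwards [h3] with z hz hkz
    exact reach_sub φ (hz (by rw [hkp, ← Kp_eq]; exact hkz) _ (moveClosed_reach φ hy) hbase)
  have hburn : ∀ᶠ z in 𝓝 (basePt α'), burn (z 0) ≠ 0 :=
    (polyFun_continuous (burn_polyFun (r := r) (g := g + 2) 0)).continuousAt.eventually_ne
      (burn_base (hα' 0).inj)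
  have hinv0 : Inv (basePt α') := fun i =>
    ⟨mono_isUnit 0 _ (hα' _).ne, mono_isUnit 1 1 fun _ => one_ne_zero⟩
  have hinv : ∀ᶠ z in 𝓝 (basePt α'), Inv z := isOpen_inv.mem_nhds hinv0
  have hgood0 : Good (basePt α' (Fin.last (g + 1))) := good_base _ (hα' _).ne (hα' _).inj
  -- the function `G` does not vanish near the base point
  have hfreq : ∃ᶠ z in 𝓝 (basePt α'), Kp z = 1 ∧ G z ≠ 0 := by
    intro hcon
    have h1 : ∀ᶠ z in 𝓝 (basePt α'), Kp z = 1 → G z = 0 := by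
      filter_upwards [hcon] with z hz hkz
      by_contra h
      exact hz ⟨hkz, h⟩
    obtain ⟨z, hzy, hz1, hzk⟩ := diag_norm hy.inv (fun i => by
      have h2 := hyd i
      exact h2)
    have h2 := ltg_all (basePt α') hinv0 (by rw [Kp_eq]; exact hkp) hgood0 G hGp h1 z hz1 hzk
    refine Finset.prod_ne_zero_iff.mpr (fun i _ => ?_) h2
    refine mul_ne_zero (gprod_pr (hzy i).1 N ((hy.g2 i).gprod N))
      (gprod_pr (hzy i).2 N ?_)
    have h3 := (hy.g1 i 0).gprod N
    simpa [eF1] using h3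
  obtain ⟨z, ⟨hzk, hzG⟩, hz1, hzb, hzi⟩ := (hfreq.and_eventually
    (hnear.eventually_nhds.and (hburn.and hinv))).exists
  -- a good point nearby
  have hU : {u : Tup (g + 2) r | G u ≠ 0 ∧ burn (u 0) ≠ 0 ∧ Inv u ∧
      ∀ᶠ v in 𝓝 u, Kp v = 1 → v ∈ WW φ (g + 2) r} ∈ 𝓝 z := by
    have c1 : ∀ᶠ u in 𝓝 z, G u ≠ 0 := (polyFun_continuous hGp).continuousAt.eventually_ne hzG
    have c2 : ∀ᶠ u in 𝓝 z, burn (u 0) ≠ 0 :=
      (polyFun_continuous (burn_polyFun (r := r) (g := g + 2) 0)).continuousAt.eventually_ne hzb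
    have c3 : ∀ᶠ u in 𝓝 z, Inv u := isOpen_inv.mem_nhds hzi
    filter_upwards [c1, c2, c3, hz1.eventually_nhds] with u a b c d using ⟨a, b, c, d⟩
  have h3 := open_step z hzi hzk (fun M hM => burn_scalar (z 0) hzb M (hM 0).1 (hM 0).2) _ hU
  have h4 : ∃ᶠ q in 𝓝 (z (Fin.last (g + 1))), Good q :=
    good_dense (z (Fin.last (g + 1))) (basePt α' (Fin.last (g + 1))) (hzi _) (hinv0 _) hgood0
  obtain ⟨q, hq, u, ⟨huG, hub, hui, hun⟩, huq, huk⟩ := (h4.and_eventually h3).exists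
  refine ltg_all u hui huk (by rw [huq]; exact hq) F hF ?_ x hx hk
  have c1 : ∀ᶠ v in 𝓝 u, G v ≠ 0 := (polyFun_continuous hGp).continuousAt.eventually_ne huG
  have c2 : ∀ᶠ v in 𝓝 u, burn (v 0) ≠ 0 :=
    (polyFun_continuous (burn_polyFun (r := r) (g := g + 2) 0)).continuousAt.eventually_ne hub
  filter_upwards [c1, c2, hun] with v a b c hkv
  exact hFW v (c hkv) b a

end main

end Vale.Agent.P002
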