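import Vale.Agent.P002.ZMoves
import Vale.Agent.P002.ZDense

namespace Vale.Agent.P002

open Matrix NumberField

section fam
variable {M : Type*} [Monoid M]

def AAm : (n : ℕ) → (Fin n → M) → M
  | 0, _ => 1
  | n + 1, a => AAm n (fun i => a i.succ) * a 0

def uum : (n : ℕ) → (Fin n → M) → Fin n → M
  | 0, _ => fun i => i.elim0
  | n + 1, a => Fin.cons (AAm n (fun i => a i.succ)) (uum n (fun i => a i.succ))

/-- a family of tuples with product of commutators one -/
def famG (inv : M → M) {n : ℕ} (x : Fin (n + 1) → M) : Fin (n + 1) → M × M :=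
  Fin.snoc (α := fun _ => M × M)
    (fun i : Fin n => (uum n (fun i => x i.castSucc) i * x i.castSucc *
        inv (uum n (fun i => x i.castSucc) i),
      uum n (fun i => x i.castSucc) i * (x (Fin.last n) * x i.castSucc) *
        inv (uum n (fun i => x i.castSucc) i)))
    (x (Fin.last n), AAm n fun i => x i.castSucc)

theorem famG_castSucc (inv : M → M) {n : ℕ} (x : Fin (n + 1) → M) (i : Fin n) :
    famG inv x i.castSucc = (uum n (fun i => x i.castSucc) i * x i.castSucc *
        inv (uum n (fun i => x i.castSucc) i),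
      uum n (fun i => x i.castSucc) i * (x (Fin.last n) * x i.castSucc) *
        inv (uum n (fun i => x i.castSucc) i)) := by
  simp only [famG, Fin.snoc_castSucc]

theorem famG_last (inv : M → M) {n : ℕ} (x : Fin (n + 1) → M) :
    famG inv x (Fin.last n) = (x (Fin.last n), AAm n fun i => x i.castSucc) := by
  simp only [famG, Fin.snoc_last]

theorem fam_comm {G : Type*} [Group G] : ∀ (n : ℕ) (a : Fin n → G) (b : G),
    (List.ofFn fun i => (uum n a i * a i * (uum n a i)⁻¹) * (uum n a i * (b * a i) * (uum n a i)⁻¹) *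
      (uum n a i * a i * (uum n a i)⁻¹)⁻¹ * (uum n a i * (b * a i) * (uum n a i)⁻¹)⁻¹).prod =
    AAm n a * b * (AAm n a)⁻¹ * b⁻¹
  | 0, a, b => by simp [AAm]
  | n + 1, a, b => by
    rw [List.ofFn_succ, List.prod_cons]
    have ih := fam_comm n (fun i => a i.succ) b
    have h1 : ∀ i : Fin n, uum (n + 1) a i.succ = uum n (fun i => a i.succ) i := fun i => by
      simp only [uum, Fin.cons_succ]
    have h0 : uum (n + 1) a 0 = AAm n (fun i => a i.succ) := by
      simp only [uum, Fin.cons_zero]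
    simp only [h1]
    rw [ih, h0]
    simp only [AAm]
    group

theorem fam_rel {G : Type*} [Group G] {n : ℕ} (x : Fin (n + 1) → G) :
    (List.ofFn fun i => (famG (·⁻¹) x i).1 * (famG (·⁻¹) x i).2 * (famG (·⁻¹) x i).1⁻¹ *
      (famG (·⁻¹) x i).2⁻¹).prod = 1 := by
  rw [List.ofFn_succ', List.concat_eq_append, List.prod_append, List.prod_singleton]
  simp only [famG_castSucc, famG_last]
  rw [fam_comm n (fun i => x i.castSucc) (x (Fin.last n))]
  group

end fam

section emb
variable {L : Type*} [Field L] [NumberField L] (φ : L →+* ℂ) {r : ℕ}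

theorem AAm_pr : ∀ (n : ℕ) (a : Fin n → Mat r) (A : Fin n → SpecialLinearGroup (Fin r) (𝓞 L)),
    (∀ i, Pr (a i) (emb φ (A i).1)) → Pr (AAm n a) (emb φ (AAm n A).1)
  | 0, a, A, _ => by
    refine ⟨1, one_ne_zero, ?_⟩
    rw [one_smul]
    show (1 : Mat r) = emb φ (1 : Matrix (Fin r) (Fin r) (𝓞 L))
    unfold emb
    exact (Matrix.map_one _ (map_zero _) (map_one _)).symm
  | n + 1, a, A, h => by
    have h1 := (AAm_pr n (fun i => a i.succ) (fun i => A i.succ) (fun i => h i.succ)).mul (h 0)
    rw [← emb_mul] at h1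
    exact h1

theorem uum_pr : ∀ (n : ℕ) (a : Fin n → Mat r) (A : Fin n → SpecialLinearGroup (Fin r) (𝓞 L)),
    (∀ i, Pr (a i) (emb φ (A i).1)) → ∀ i, Pr (uum n a i) (emb φ (uum n A i).1)
  | 0, _, _, _, i => i.elim0
  | n + 1, a, A, h, i => by
    refine Fin.cases ?_ (fun i => ?_) i
    · simp only [uum, Fin.cons_zero]
      exact AAm_pr φ n _ _ fun i => h i.succ
    · simp only [uum, Fin.cons_succ]
      exact uum_pr n _ _ (fun i => h i.succ) i

theorem fam_cone {n : ℕ} (x : Fin (n + 1) → Mat r)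
    (A : Fin (n + 1) → SpecialLinearGroup (Fin r) (𝓞 L)) (h : ∀ i, Pr (x i) (emb φ (A i).1)) :
    famG (fun M : Mat r => M.adjugate) x ∈ Cone φ (n + 1) r := by
  rw [cone_iff]
  refine ⟨famG (·⁻¹) A, fam_rel A, fun i => ?_⟩
  refine Fin.lastCases ?_ (fun i => ?_) i
  · rw [famG_last, famG_last]
    exact ⟨h _, AAm_pr φ n _ _ fun i => h i.castSucc⟩
  · rw [famG_castSucc, famG_castSucc]
    have hu := uum_pr φ n (fun i => x i.castSucc) (fun i => A i.castSucc) (fun i => h i.castSucc) i
    have hu' := hu.adj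
    rw [← emb_inv] at hu'
    have h1 := (hu.mul (h i.castSucc)).mul hu'
    have h2 := (hu.mul ((h (Fin.last n)).mul (h i.castSucc))).mul hu'
    rw [← emb_mul, ← emb_mul] at h1
    rw [← emb_mul, ← emb_mul, ← emb_mul] at h2
    exact ⟨h1, h2⟩

theorem polyMap_AAm {E : Type*} [AddCommGroup E] [Module ℂ E] : ∀ (n : ℕ) {S : E → Fin n → Mat r},
    PolyMap S → PolyMap (fun x => AAm n (S x))
  | 0, _, _ => polyMap_const _
  | n + 1, S, hS => by
    have h1 := polyMap_AAm n (S := fun x i => S x i.succ)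
      (polyMap_pi fun i => polyMap_apply hS i.succ)
    exact polyMap_mul h1 (polyMap_apply hS 0)

theorem polyMap_uum {E : Type*} [AddCommGroup E] [Module ℂ E] : ∀ (n : ℕ) {S : E → Fin n → Mat r},
    PolyMap S → ∀ i, PolyMap (fun x => uum n (S x) i)
  | 0, _, _, i => i.elim0
  | n + 1, S, hS, i => by
    refine Fin.cases ?_ (fun i => ?_) i
    · simp only [uum, Fin.cons_zero]
      exact polyMap_AAm n (polyMap_pi fun i => polyMap_apply hS i.succ)
    · simp only [uum, Fin.cons_succ]
      exact polyMap_uum n (polyMap_pi fun i => polyMap_apply hS i.succ) i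

theorem polyMap_fam {n : ℕ} :
    PolyMap (fun x : Fin (n + 1) → Mat r => famG (fun M : Mat r => M.adjugate) x) := by
  have hS : PolyMap (fun x : Fin (n + 1) → Mat r => fun i : Fin n => x i.castSucc) :=
    polyMap_pi fun i => polyMap_apply polyMap_id i.castSucc
  refine polyMap_pi fun i => ?_
  refine Fin.lastCases ?_ (fun i => ?_) i
  · simp only [famG_last]
    exact polyMap_prodMk (polyMap_apply polyMap_id _) (polyMap_AAm n hS)
  · simp only [famG_castSucc]
    have hu := polyMap_uum n hS i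
    exact polyMap_prodMk (polyMap_mul (polyMap_mul hu (polyMap_apply polyMap_id _))
      (polyMap_adjugate hu)) (polyMap_mul (polyMap_mul hu (polyMap_mul (polyMap_apply polyMap_id _)
        (polyMap_apply polyMap_id _))) (polyMap_adjugate hu))

theorem fam_WW {n : ℕ} (x : Fin (n + 1) → Mat r) :
    famG (fun M : Mat r => M.adjugate) x ∈ WW φ (n + 1) r := by
  intro F hF hv
  refine mat_dense_pi φ (fun x => F (famG (fun M : Mat r => M.adjugate) x))
    (polyFun_comp hF polyMap_fam) ?_ x
  intro A κ hκ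
  exact hv _ (fam_cone φ _ A fun i => ⟨κ i, hκ i, rfl⟩)

end emb

section gen
variable {k r : ℕ} {p : Fin k → Fin r → ℂ}

/-- monomials in the generic diagonal matrices -/
noncomputable def mon (p : Fin k → Fin r → ℂ) (z : Fin k → ℤ) : Mat r :=
  diagonal fun j => ∏ l, p l j ^ z l

theorem mon_add (hp : ∀ l j, p l j ≠ 0) (z z' : Fin k → ℤ) :
    mon p z * mon p z' = mon p (z + z') := by
  unfold mon
  rw [Matrix.diagonal_mul_diagonal]
  congr 1
  funext j
  rw [← Finset.prod_mul_distrib]
  exact Finset.prod_congr rfl fun l _ => by rw [Pi.add_apply, zpow_add₀ (hp l j)]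

theorem mon_zero : mon p 0 = 1 := by
  unfold mon
  simp

theorem mon_pow (hp : ∀ l j, p l j ≠ 0) (z : Fin k → ℤ) (m : ℕ) :
    mon p z ^ m = mon p ((m : ℤ) • z) := by
  induction m with
  | zero => simp [mon_zero]
  | succ m ih => rw [pow_succ, ih, mon_add hp, Nat.cast_succ, add_smul, one_smul]

theorem mon_det (hp : ∀ l j, p l j ≠ 0) (z : Fin k → ℤ) : IsUnit (mon p z).det := by
  unfold mon
  rw [Matrix.det_diagonal]
  exact (Finset.prod_ne_zero_iff.mpr fun j _ =>
    Finset.prod_ne_zero_iff.mpr fun l _ => zpow_ne_zero _ (hp l j)).isUnit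

theorem mon_adj (hp : ∀ l j, p l j ≠ 0) (z : Fin k → ℤ) :
    Pr (mon p z).adjugate (mon p (-z)) := by
  have h1 : (mon p z)⁻¹ = mon p (-z) := by
    apply Matrix.inv_eq_right_inv
    rw [mon_add hp, add_neg_cancel, mon_zero]
  rw [← h1]
  exact Pr.of_inv (mon_det hp z)

theorem mon_gen (hp : ∀ l j, p l j ≠ 0)
    (hind : ∀ z : Fin k → ℤ, z ≠ 0 → ∀ β β' : Fin r → ℕ,
      ∏ j, (∏ l, p l j ^ z l) ^ β j = ∏ j, (∏ l, p l j ^ z l) ^ β' j → β = β')
    {z : Fin k → ℤ} (hz : z ≠ 0) : Gen (mon p z) := by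
  have e1 : mon p z = (1 : Mat r) * diagonal (fun j => ∏ l, p l j ^ z l) * (1 : Mat r)⁻¹ := by
    simp [mon]
  have h1 : IsUnit (1 : Mat r).det := by simp
  refine ⟨?_, fun d => ?_⟩
  · rw [e1]
    refine gram_ne_zero_of_diag _ _ h1 ?_
    intro i j hij
    have h2 := hind z hz (Pi.single i 1) (Pi.single j 1) (by
      rw [Finset.prod_eq_single i, Finset.prod_eq_single j]
      · simpa using hij
      · intro b _ hb; simp [hb]
      · simp
      · intro b _ hb; simp [hb]
      · simp)
    by_contra hne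
    have h3 := congrFun h2 i
    simp [hne] at h3
  · rw [e1]
    exact (gramD_diag_iff d 1 _ h1).mpr fun β β' _ _ h => hind z hz β β' h

theorem AAm_mon (hp : ∀ l j, p l j ≠ 0) : ∀ (n : ℕ) (z : Fin n → Fin k → ℤ),
    AAm n (fun i => mon p (z i)) = mon p (∑ i, z i)
  | 0, z => by simp [AAm, mon_zero]
  | n + 1, z => by
    simp only [AAm]
    rw [AAm_mon hp n (fun i => z i.succ), mon_add hp, Fin.sum_univ_succ, add_comm]

theorem uum_mon (hp : ∀ l j, p l j ≠ 0) : ∀ (n : ℕ) (z : Fin n → Fin k → ℤ) (i : Fin n),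
    ∃ w, uum n (fun i => mon p (z i)) i = mon p w
  | 0, _, i => i.elim0
  | n + 1, z, i => by
    refine Fin.cases ?_ (fun i => ?_) i
    · simp only [uum, Fin.cons_zero]
      exact ⟨_, AAm_mon hp n _⟩
    · simp only [uum, Fin.cons_succ]
      exact uum_mon hp n _ i

end gen

section genpt
variable {n r : ℕ} {p : Fin (n + 1) → Fin r → ℂ}

/-- exponents of the generic point -/
def βe (n : ℕ) : Fin (n + 1) → Fin (n + 1) → ℤ :=
  Fin.snoc (α := fun _ => Fin (n + 1) → ℤ)
    (fun i : Fin n => Pi.single (Fin.last n) 1 + Pi.single i.castSucc 1)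
    (∑ l : Fin n, Pi.single l.castSucc 1)

noncomputable def y0 (p : Fin (n + 1) → Fin r → ℂ) : Tup (n + 1) r :=
  fun i => (mon p (Pi.single i 1), mon p (βe n i))

theorem mon_single (l : Fin (n + 1)) : mon p (Pi.single l 1) = diagonal (p l) := by
  unfold mon
  congr 1
  funext j
  rw [Finset.prod_eq_single l]
  · simp
  · intro b _ hb; simp [hb]
  · simp

theorem conj_mon (hp : ∀ l j, p l j ≠ 0) (w z : Fin (n + 1) → ℤ) :
    Pr (mon p w * mon p z * (mon p w).adjugate) (mon p z) := by
  have h1 := (Pr.refl (mon p w * mon p z)).mul (mon_adj hp w)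
  rw [mon_add hp, mon_add hp] at h1
  rw [mon_add hp]
  have e : w + z + -w = z := by abel
  rwa [e] at h1

theorem fam_y0 (hp : ∀ l j, p l j ≠ 0) :
    PrT (famG (fun M : Mat r => M.adjugate) fun l => diagonal (p l)) (y0 p) := by
  have e0 : (fun l => diagonal (p l) : Fin (n + 1) → Mat r) = fun l => mon p (Pi.single l 1) :=
    funext fun l => (mon_single l).symm
  rw [e0]
  intro i
  refine Fin.lastCases ?_ (fun i => ?_) i
  · rw [famG_last]
    simp only [y0, βe, Fin.snoc_last]
    rw [AAm_mon hp]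
    exact ⟨Pr.refl _, Pr.refl _⟩
  · rw [famG_castSucc]
    simp only [y0, βe, Fin.snoc_castSucc]
    obtain ⟨w, hw⟩ := uum_mon hp n (fun i : Fin n => Pi.single i.castSucc 1) i
    rw [hw, mon_add hp (Pi.single (Fin.last n) 1)]
    exact ⟨conj_mon hp _ _, conj_mon hp _ _⟩

theorem βe_castSucc_last (i : Fin n) : βe n i.castSucc (Fin.last n) = 1 := by
  simp [βe, (Fin.castSucc_lt_last i).ne']

theorem βe_last_castSucc (i : Fin n) : βe n (Fin.last n) i.castSucc = 1 := by
  simp only [βe, Fin.snoc_last, Finset.sum_apply]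
  rw [Finset.sum_eq_single i]
  · simp
  · intro b _ hb
    exact Pi.single_eq_of_ne (fun h => hb (Fin.castSucc_injective n h).symm) _
  · simp

theorem βe_last_last : βe n (Fin.last n) (Fin.last n) = 0 := by
  simp only [βe, Fin.snoc_last, Finset.sum_apply]
  exact Finset.sum_eq_zero fun b _ => Pi.single_eq_of_ne (Fin.castSucc_lt_last b).ne' _

theorem βe_castSucc_castSucc (i j : Fin n) :
    βe n i.castSucc j.castSucc = if i = j then 1 else 0 := by
  simp only [βe, Fin.snoc_castSucc, Pi.add_apply]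
  rw [Pi.single_eq_of_ne (Fin.castSucc_lt_last j).ne, zero_add]
  by_cases h : i = j
  · subst h; simp
  · rw [if_neg h]
    exact Pi.single_eq_of_ne (fun h' => h (Fin.castSucc_injective n h').symm) _

theorem genPt_y0 (hn : 1 ≤ n) (hp : ∀ l j, p l j ≠ 0)
    (hind : ∀ z : Fin (n + 1) → ℤ, z ≠ 0 → ∀ β β' : Fin r → ℕ,
      ∏ j, (∏ l, p l j ^ z l) ^ β j = ∏ j, (∏ l, p l j ^ z l) ^ β' j → β = β') :
    GenPt (y0 p) where
  inv := fun i => ⟨mon_det hp _, mon_det hp _⟩
  g2 := fun i => mon_gen hp hind (by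
    intro h
    have := congrFun h i
    simp at this)
  g1 := fun i m => by
    have h1 : eF1 i m (y0 p) = mon p (βe n i + (m : ℤ) • Pi.single i 1) := by
      simp only [eF1, y0, mon_pow hp, mon_add hp]
    rw [h1]
    refine mon_gen hp hind ?_
    revert m
    refine Fin.lastCases ?_ (fun i => ?_) i
    · intro m h1 h
      have := congrFun h (⟨0, by omega⟩ : Fin n).castSucc
      rw [Pi.add_apply, βe_last_castSucc, Pi.smul_apply,
        Pi.single_eq_of_ne (Fin.castSucc_lt_last _).ne] at this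
      simp at this
    · intro m h1 h
      have := congrFun h (Fin.last n)
      rw [Pi.add_apply, βe_castSucc_last, Pi.smul_apply,
        Pi.single_eq_of_ne (Fin.castSucc_lt_last _).ne'] at this
      simp at this
  g3 := fun i i' hi m => by
    obtain ⟨i, rfl⟩ : ∃ i0 : Fin n, i = i0.castSucc := ⟨⟨i, by have := i'.2; omega⟩, rfl⟩
    have h1 : Pr (eF3 i.castSucc i' m (y0 p)) (mon p (βe n i.castSucc + -Pi.single i.castSucc 1 +
        -βe n i.castSucc + Pi.single i' 1 + βe n i' + (m : ℤ) • Pi.single i' 1)) := by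
      have h2 := (((((Pr.refl (mon p (βe n i.castSucc))).mul
        (mon_adj hp (Pi.single i.castSucc 1))).mul (mon_adj hp (βe n i.castSucc))).mul
        (Pr.refl (mon p (Pi.single i' 1)))).mul (Pr.refl (mon p (βe n i')))).mul
        ((Pr.refl (mon p (Pi.single i' 1))).pow m)
      rw [mon_pow hp, mon_add hp, mon_add hp, mon_add hp, mon_add hp, mon_add hp] at h2
      rw [← mon_pow hp] at h2
      exact h2
    refine (mon_gen hp hind ?_).pr h1
    intro h
    have h3 := congrFun h (Fin.last n)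
    simp only [Pi.add_apply, Pi.neg_apply, Pi.smul_apply, smul_eq_mul, Pi.zero_apply] at h3
    revert h3
    refine Fin.lastCases ?_ (fun i' => ?_) i'
    · rw [βe_castSucc_last, βe_last_last, Pi.single_eq_same,
        Pi.single_eq_of_ne (Fin.castSucc_lt_last _).ne']
      intro h3
      have : (0 : ℤ) ≤ m := Int.natCast_nonneg m
      omega
    · rw [βe_castSucc_last, βe_castSucc_last,
        Pi.single_eq_of_ne (Fin.castSucc_lt_last _).ne', Pi.single_eq_of_ne (Fin.castSucc_lt_last _).ne']
      intro h3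
      simp at h3
  g4 := fun i i' hi m => by
    obtain ⟨i, rfl⟩ : ∃ i0 : Fin n, i = i0.castSucc := ⟨⟨i, by have := i'.2; omega⟩, rfl⟩
    have h1 : Pr (eF4 i.castSucc i' m (y0 p)) (mon p (-Pi.single i.castSucc 1 +
        -βe n i.castSucc + Pi.single i' 1 + βe n i' + (m : ℤ) • Pi.single i' 1)) := by
      have h2 := ((((mon_adj hp (Pi.single i.castSucc 1)).mul (mon_adj hp (βe n i.castSucc))).mul
        (Pr.refl (mon p (Pi.single i' 1)))).mul (Pr.refl (mon p (βe n i')))).mul
        ((Pr.refl (mon p (Pi.single i' 1))).pow m)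
      rw [mon_pow hp, mon_add hp, mon_add hp, mon_add hp, mon_add hp] at h2
      rw [← mon_pow hp] at h2
      exact h2
    refine (mon_gen hp hind ?_).pr h1
    intro h
    revert h hi
    refine Fin.lastCases ?_ (fun i' => ?_) i'
    · intro hi h
      have h3 := congrFun h i.castSucc
      simp only [Pi.add_apply, Pi.neg_apply, Pi.smul_apply, smul_eq_mul, Pi.zero_apply] at h3
      rw [βe_castSucc_castSucc, βe_last_castSucc, Pi.single_eq_same, if_pos rfl,
        Pi.single_eq_of_ne (Fin.castSucc_lt_last _).ne] at h3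
      simp at h3
    · intro hi h
      have hne : i ≠ i' := by
        intro h'
        rw [h'] at hi
        simp at hi
      have h3 := congrFun h i'.castSucc
      simp only [Pi.add_apply, Pi.neg_apply, Pi.smul_apply, smul_eq_mul, Pi.zero_apply] at h3
      rw [βe_castSucc_castSucc, βe_castSucc_castSucc, Pi.single_eq_same, if_pos rfl, if_neg hne,
        Pi.single_eq_of_ne (fun h' => hne (Fin.castSucc_injective n h').symm)] at h3
      have : (0 : ℤ) ≤ m := Int.natCast_nonneg m
      omega

end genpt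

end Vale.Agent.P002
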