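import Vale.Agent.P002.ZMoves
import Vale.Agent.P002.ConeToSL

namespace Vale.Agent.P002

open Matrix NumberField

section sl
variable {L : Type*} [Field L] [NumberField L] (φ : L →+* ℂ) {g r : ℕ}

/-- the tuples given by integral representations -/
def Rint (g r : ℕ) : Set (Tup g r) :=
  {y | ∃ σ : Fin g → SpecialLinearGroup (Fin r) (𝓞 L) × SpecialLinearGroup (Fin r) (𝓞 L),
    IsIntRep σ ∧ y = fun i => (emb φ (σ i).1.1, emb φ (σ i).2.1)}

theorem csAct_mul (κ κ' : Fin g × Bool → ℂ) (x : Tup g r) :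
    csAct κ (csAct κ' x) = csAct (fun v => κ v * κ' v) x := by
  funext i
  simp only [csAct, smul_smul]

theorem csAct_one (x : Tup g r) : csAct (fun _ => 1) x = x := by
  funext i
  simp only [csAct, one_smul]

theorem polyMap_csAct (κ : Fin g × Bool → ℂ) : PolyMap (csAct κ : Tup g r → Tup g r) :=
  polyMap_pi fun i => polyMap_prodMk
    (polyMap_smul (polyFun_const _) (poly1 polyMap_id i))
    (polyMap_smul (polyFun_const _) (poly2 polyMap_id i))

/-- the element whose powers multiply the generator `v` -/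
def eV (v : Fin g × Bool) (y : Tup g r) : Mat r := if v.2 then (y v.1).1 else (y v.1).2

theorem polyMap_eV (v : Fin g × Bool) : PolyMap (eV v : Tup g r → Mat r) := by
  unfold eV
  by_cases h : v.2 = true
  · simp only [h, if_true]
    exact poly1 polyMap_id v.1
  · simp only [h]
    exact poly2 polyMap_id v.1

/-- multiplication of the generator `v` by a matrix on the right -/
def mV (v : Fin g × Bool) (p : Tup g r × Mat r) : Tup g r :=
  Function.update p.1 v.1 (if v.2 then ((p.1 v.1).1, (p.1 v.1).2 * p.2)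
    else ((p.1 v.1).1 * p.2, (p.1 v.1).2))

theorem polyMap_mV (v : Fin g × Bool) : PolyMap (mV v : Tup g r × Mat r → Tup g r) := by
  have h1 := poly1 (polyMap_fst' (E := Tup g r) (E' := Mat r)) v.1
  have h2 := poly2 (polyMap_fst' (E := Tup g r) (E' := Mat r)) v.1
  have h3 := polyMap_snd' (E := Tup g r) (E' := Mat r)
  refine polyMap_update1 polyMap_fst' v.1 ?_
  by_cases h : v.2 = true
  · simp only [h, if_true]
    exact polyMap_prodMk h1 (polyMap_mul h2 h3)
  · simp only [h]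
    exact polyMap_prodMk (polyMap_mul h1 h3) h2

theorem mV_scalar (v : Fin g × Bool) (y : Tup g r) (w : ℂ) :
    mV v (y, w • (1 : Mat r)) = csAct (Function.update (fun _ => 1) v w) y := by
  obtain ⟨i, b⟩ := v
  funext j
  by_cases hj : j = i
  · subst hj
    cases b
    · simp [mV, csAct]
    · simp [mV, csAct]
  · have h1 : ∀ b', (j, b') ≠ (i, b) := fun b' h => hj (congrArg Prod.fst h)
    simp only [mV, csAct, Function.update_of_ne hj, Function.update_of_ne (h1 _), one_smul]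

theorem grp_F1' {G : Type*} [Group G] (a b t : G) (ht : Commute t b) :
    (a * t) * b * (a * t)⁻¹ * b⁻¹ = a * b * a⁻¹ * b⁻¹ := by
  have := ht.eq
  calc (a * t) * b * (a * t)⁻¹ * b⁻¹ = a * (t * b) * t⁻¹ * a⁻¹ * b⁻¹ := by group
    _ = a * (b * t) * t⁻¹ * a⁻¹ * b⁻¹ := by rw [this]
    _ = _ := by group

theorem mV_int (v : Fin g × Bool) {y : Tup g r} (hy : y ∈ Rint φ g r) (k : ℕ) :
    mV v (y, eV v y ^ k) ∈ Rint φ g r := by
  obtain ⟨σ, hσ, rfl⟩ := hy
  obtain ⟨i, b⟩ := v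
  cases b
  · refine ⟨Function.update σ i ((σ i).1 * (σ i).2 ^ k, (σ i).2),
      intRep_update σ hσ i _ (grp_F1' _ _ _ ((Commute.refl _).pow_left k)), ?_⟩
    funext j
    by_cases hj : j = i
    · subst hj
      simp [mV, eV, emb_mul, emb_pow]
    · simp [mV, Function.update_of_ne hj]
  · refine ⟨Function.update σ i ((σ i).1, (σ i).2 * (σ i).1 ^ k),
      intRep_update σ hσ i _ (grp_F2 _ _ _ ((Commute.refl _).pow_left k)), ?_⟩
    funext j
    by_cases hj : j = i
    · subst hj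
      simp [mV, eV, emb_mul, emb_pow]
    · simp [mV, Function.update_of_ne hj]

theorem eV_det (v : Fin g × Bool) {y : Tup g r} (hy : y ∈ Rint φ g r) : (eV v y).det = 1 := by
  obtain ⟨σ, hσ, rfl⟩ := hy
  unfold eV
  split_ifs
  · simp only [emb_det, (σ v.1).1.2, map_one]
  · simp only [emb_det, (σ v.1).2.2, map_one]

/-- one scaling step -/
theorem scal_step (hr : 0 < r) (v : Fin g × Bool) {h : Tup g r → ℂ} (hh : h ∈ PolyFun (Tup g r))
    (hv : ∀ y ∈ Rint φ g r, h y = 0) : ∃ D, ∀ y ∈ Rint φ g r, gprod D (eV v y) ≠ 0 →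
      ∀ w : ℂ, w ^ r = 1 → h (csAct (Function.update (fun _ => 1) v w) y) = 0 := by
  obtain ⟨D, hD⟩ := deg_bound (polyFun_comp hh (polyMap_mV v))
  refine ⟨r * D, fun y hy hg w hw => ?_⟩
  obtain ⟨hgr, hgD⟩ := gprod_ne hg
  obtain ⟨h0, lam, hh0, hl, hd⟩ := exists_diag_of_gram_ne_zero (eV v y) hgr
  obtain ⟨Q, hQD, hQ⟩ := hD y h0 h0⁻¹
  have hp : ∏ i, lam i = 1 := by
    rw [← eV_det φ v hy, hd, Matrix.det_mul, Matrix.det_mul, Matrix.det_diagonal,
      Matrix.det_nonsing_inv, mul_right_comm, Ring.mul_inverse_cancel _ hh0, one_mul]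
  have hQ0 := lemC' hr hp (fun d hd' => by
    have := hgD d hd'
    rw [hd] at this
    exact (gramD_diag_iff d h0 lam hh0).mp this) Q hQD (fun k => by
    rw [← hQ]
    have h2 : h0 * diagonal (fun i => lam i ^ k) * h0⁻¹ = eV v y ^ k := by
      rw [hd, conj_pow h0 _ hh0, Matrix.diagonal_pow]
      rfl
    rw [h2]
    exact hv _ (mV_int φ v hy k)) w hw
  rw [← hQ] at hQ0
  have h3 : h0 * diagonal (fun _ => w) * h0⁻¹ = w • (1 : Mat r) := by
    have : (diagonal (fun _ => w) : Mat r) = w • (1 : Mat r) := by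
      ext a b
      by_cases hab : a = b
      · subst hab; simp
      · simp [hab]
    rw [this, Algebra.mul_smul_comm, Algebra.smul_mul_assoc, mul_one, Matrix.mul_nonsing_inv _ hh0]
  rw [h3, mV_scalar] at hQ0
  exact hQ0

theorem eV_csAct (v : Fin g × Bool) (κ : Fin g × Bool → ℂ) (hκ : ∀ v, κ v ≠ 0) (y : Tup g r) :
    Pr (eV v (csAct κ y)) (eV v y) := by
  unfold eV csAct
  split_ifs
  · exact ⟨_, hκ _, rfl⟩
  · exact ⟨_, hκ _, rfl⟩

theorem gprod_mono {D N : ℕ} (h : D ≤ N) {e : Mat r} (he : gprod N e ≠ 0) : gprod D e ≠ 0 := by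
  obtain ⟨h1, h2⟩ := gprod_ne he
  exact mul_ne_zero h1 (Finset.prod_ne_zero_iff.mpr fun d hd =>
    h2 d (by have := Finset.mem_range.mp hd; omega))

/-- iterating over a finite set of generators -/
theorem scal_set (hr : 0 < r) {f : Tup g r → ℂ} (hf : f ∈ PolyFun (Tup g r))
    (hv : ∀ y ∈ Rint φ g r, f y = 0) (κ : Fin g × Bool → ℂ) (hκ : ∀ v, κ v ^ r = 1)
    (S : Finset (Fin g × Bool)) : ∃ N, ∀ y ∈ Rint φ g r, (∀ v, gprod N (eV v y) ≠ 0) →
      f (csAct (fun v => if v ∈ S then κ v else 1) y) = 0 := by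
  classical
  -- stronger statement: a polynomial function vanishing on all integral representations
  have hκ0 : ∀ v, κ v ≠ 0 := fun v h => by
    have := hκ v
    rw [h, zero_pow hr.ne'] at this
    exact zero_ne_one this
  have key : ∃ G : Tup g r → ℂ, G ∈ PolyFun (Tup g r) ∧ (∃ N, ∀ y, (∀ v, gprod N (eV v y) ≠ 0) →
      G y ≠ 0) ∧ ∀ y ∈ Rint φ g r, f (csAct (fun v => if v ∈ S then κ v else 1) y) * G y = 0 := by
    induction S using Finset.induction_on with
    | empty =>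
      refine ⟨fun _ => 1, polyFun_const 1, ⟨0, fun _ _ => one_ne_zero⟩, fun y hy => ?_⟩
      simp only [Finset.notMem_empty, if_false, csAct_one, mul_one]
      exact hv y hy
    | insert v S hvS ih =>
      obtain ⟨G, hG, ⟨N, hN⟩, hfG⟩ := ih
      have hp : (fun y : Tup g r => f (csAct (fun v => if v ∈ S then κ v else 1) y) * G y) ∈
          PolyFun (Tup g r) := polyFun_mul (polyFun_comp hf (polyMap_csAct _)) hG
      obtain ⟨D, hD⟩ := scal_step φ hr v hp hfG
      set κ' : Fin g × Bool → ℂ := Function.update (fun _ => 1) v (κ v) with hκ'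
      have hκ'0 : ∀ u, κ' u ≠ 0 := by
        intro u
        by_cases hu : u = v
        · subst hu; simp [hκ', hκ0]
        · simp [hκ', Function.update_of_ne hu]
      refine ⟨fun y => G (csAct κ' y) * gprod D (eV v y), polyFun_mul
        (polyFun_comp hG (polyMap_csAct κ')) (gprod_polyFun D (polyMap_eV v)),
        ⟨max N D, fun y hy => ?_⟩, fun y hy => ?_⟩
      · refine mul_ne_zero (hN _ fun u => ?_) (gprod_mono (le_max_right N D) (hy v))
        exact gprod_pr (eV_csAct u κ' hκ'0 y) N (gprod_mono (le_max_left N D) (hy u))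
      · by_cases h0 : gprod D (eV v y) = 0
        · simp [h0]
        · have h1 := hD y hy h0 (κ v) (hκ v)
          rw [csAct_mul] at h1
          have h2 : (fun u => (if u ∈ S then κ u else 1) * κ' u) =
              fun u => if u ∈ insert v S then κ u else 1 := by
            funext u
            by_cases hu : u = v
            · subst hu
              simp [hκ', hvS]
            · simp [hκ', Function.update_of_ne hu, hu]
          rw [h2] at h1
          rw [← mul_assoc, h1, zero_mul]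
  obtain ⟨G, -, ⟨N, hN⟩, hfG⟩ := key
  exact ⟨N, fun y hy hgy => (mul_eq_zero.mp (hfG y hy)).resolve_right (hN y hgy)⟩

theorem scal_twist (hr : 0 < r) {ω : ℂ} (hω : ω ^ r = 1) (f : Tup g r → ℂ)
    (hf : f ∈ PolyFun (Tup g r)) (hv : ∀ y ∈ Rint φ g r, f y = 0) :
    ∃ N, ∀ y ∈ Rint φ g r, (∀ i, gprod N (y i).1 ≠ 0 ∧ gprod N (y i).2 ≠ 0) →
      ∀ t : Fin g × Bool → ℕ, f (csAct (fun v => ω ^ t v) y) = 0 := by
  classical
  have h1 : ∀ t : Fin g × Bool → Fin r, ∃ N, ∀ y ∈ Rint φ g r, (∀ v, gprod N (eV v y) ≠ 0) →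
      f (csAct (fun v => ω ^ (t v : ℕ)) y) = 0 := by
    intro t
    obtain ⟨N, hN⟩ := scal_set φ hr hf hv (fun v => ω ^ (t v : ℕ)) (fun v => by
      rw [← pow_mul, mul_comm, pow_mul, hω, one_pow]) Finset.univ
    refine ⟨N, fun y hy hg => ?_⟩
    have := hN y hy hg
    simpa using this
  choose N hN using h1
  refine ⟨Finset.univ.sup N, fun y hy hg t => ?_⟩
  set t' : Fin g × Bool → Fin r := fun v => ⟨t v % r, Nat.mod_lt _ hr⟩ with ht'
  have e : (fun v => ω ^ t v) = fun v => ω ^ (t' v : ℕ) := by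
    funext v
    simp only [ht']
    conv_lhs => rw [← Nat.div_add_mod (t v) r, pow_add, pow_mul, hω, one_pow, one_mul]
  rw [e]
  refine hN t' y hy fun v => ?_
  have h2 : N t' ≤ Finset.univ.sup N := Finset.le_sup (Finset.mem_univ t')
  refine gprod_mono h2 ?_
  unfold eV
  split_ifs
  · exact (hg _).1
  · exact (hg _).2

theorem sl_of_cone_Z (hr : 0 < r) (Q : Tup g r → ℂ) (hQp : Q ∈ PolyFun (Tup g r))
    (hQ : ∀ κ : Fin g × Bool → ℂ, (∀ v, κ v ≠ 0) → ∀ x, Q x ≠ 0 → Q (csAct κ x) ≠ 0)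
    (f : Tup g r → ℂ) (hf : f ∈ PolyFun (Tup g r))
    (hv : ∀ σ : Fin g → SpecialLinearGroup (Fin r) (𝓞 L) × SpecialLinearGroup (Fin r) (𝓞 L),
      IsIntRep σ → Q (fun i => (emb φ (σ i).1.1, emb φ (σ i).2.1)) ≠ 0 →
      f (fun i => (emb φ (σ i).1.1, emb φ (σ i).2.1)) = 0)
    (x : Tup g r) (hdet : ∀ i, (x i).1.det = 1 ∧ (x i).2.det = 1)
    (hx : ∀ N, ∀ F ∈ PolyFun (Tup g r), (∀ c ∈ Cone φ g r, Q c ≠ 0 →
      (∀ i, gprod N (c i).1 ≠ 0 ∧ gprod N (c i).2 ≠ 0) → F c = 0) → F x = 0) : f x = 0 := by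
  have hω : IsPrimitiveRoot (Complex.exp (2 * Real.pi * Complex.I / r)) r :=
    Complex.isPrimitiveRoot_exp r hr.ne'
  set ω : ℂ := Complex.exp (2 * Real.pi * Complex.I / r) with hωdef
  have hω0 : ω ≠ 0 := hω.ne_zero hr.ne'
  obtain ⟨N, hN⟩ := scal_twist φ hr hω.pow_eq_one (fun y => f y * Q y) (polyFun_mul hf hQp) (by
    rintro y ⟨σ, hσ, rfl⟩
    by_cases hq : Q (fun i => (emb φ (σ i).1.1, emb φ (σ i).2.1)) = 0
    · simp [hq]
    · simp [hv σ hσ hq])
  set S : Set (Tup g r) := {z | ∃ y ∈ Rint φ g r, Q y ≠ 0 ∧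
    (∀ i, gprod N (y i).1 ≠ 0 ∧ gprod N (y i).2 ≠ 0) ∧
    ∃ t : Fin g × Bool → ℕ, z = csAct (fun v => ω ^ t v) y} with hS
  refine cs_main hr ω hω S ?_ ?_ f hf ?_ x ?_ ?_
  · rintro z ⟨y, ⟨σ, hσ, rfl⟩, -, -, t, rfl⟩ v
    have e1 : (ω ^ t v) ^ r = 1 := by
      rw [← pow_mul, mul_comm, pow_mul, hω.pow_eq_one, one_pow]
    rw [cs_det_act, e1, one_mul]
    obtain ⟨i, b⟩ := v
    cases b
    · show (emb φ (σ i).1.1).det = 1
      rw [emb_det, (σ i).1.2, map_one]
    · show (emb φ (σ i).2.1).det = 1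
      rw [emb_det, (σ i).2.2, map_one]
  · rintro z ⟨y, hy, hq, hg, t, rfl⟩ t'
    refine ⟨y, hy, hq, hg, fun v => t' v + t v, ?_⟩
    rw [csAct_mul]
    congr 1
    funext v
    rw [pow_add]
  · rintro z ⟨y, hy, hq, hg, t, rfl⟩
    have h1 := hN y hy hg t
    exact (mul_eq_zero.mp h1).resolve_right (hQ _ (fun v => pow_ne_zero _ hω0) y hq)
  · rintro ⟨i, b⟩
    cases b
    · exact (hdet i).1
    · exact (hdet i).2
  · intro F hF hFc
    refine hx N F hF ?_
    rintro c ⟨σ, hσ, κ, μ, hκ, hμ, hc⟩ hqc hgc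
    have hc' : c = csAct (fun v => if v.2 then μ v.1 else κ v.1)
        (fun i => (emb φ (σ i).1.1, emb φ (σ i).2.1)) := by
      funext i
      rw [hc i]
      simp [csAct]
    have hκμ : ∀ v : Fin g × Bool, (if v.2 then μ v.1 else κ v.1) ≠ 0 := by
      rintro ⟨i, β⟩
      cases β
      · exact hκ i
      · exact hμ i
    have hback : (fun i => (emb φ (σ i).1.1, emb φ (σ i).2.1)) =
        csAct (fun v => (if v.2 then μ v.1 else κ v.1)⁻¹) c := by
      funext i
      simp [csAct, hc i, smul_smul, inv_mul_cancel₀ (hκ i), inv_mul_cancel₀ (hμ i)]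
    have hq : Q (fun i => (emb φ (σ i).1.1, emb φ (σ i).2.1)) ≠ 0 := by
      rw [hback]
      exact hQ _ (fun v => inv_ne_zero (hκμ v)) c hqc
    have hg : ∀ i, gprod N (emb φ (σ i).1.1) ≠ 0 ∧ gprod N (emb φ (σ i).2.1) ≠ 0 := by
      intro i
      have e := congrFun hback i
      have e1 : emb φ (σ i).1.1 = (κ i)⁻¹ • (c i).1 := congrArg Prod.fst e
      have e2 : emb φ (σ i).2.1 = (μ i)⁻¹ • (c i).2 := congrArg Prod.snd e
      exact ⟨gprod_pr ⟨_, inv_ne_zero (hκ i), e1⟩ N (hgc i).1,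
        gprod_pr ⟨_, inv_ne_zero (hμ i), e2⟩ N (hgc i).2⟩
    rw [hc']
    refine hFc _ ⟨_, ⟨σ, hσ, rfl⟩, hq, hg, fun _ => 0, ?_⟩ _ hκμ
    simp only [pow_zero, csAct_one]

end sl

end Vale.Agent.P002
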