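import Vale.Agent.P002.ZCone
import Vale.Agent.P002.ZSl

namespace Vale.Agent.P002

open Matrix NumberField

section main
variable {L : Type*} [Field L] [NumberField L] (φ : L →+* ℂ) {g r : ℕ} [NeZero r]

theorem burn_csAct {g : ℕ} (κ : Fin (g + 1) × Bool → ℂ) (hκ : ∀ v, κ v ≠ 0)
    (x : Tup (g + 1) r) (h : burn (x 0) ≠ 0) : burn (csAct κ x 0) ≠ 0 :=
  burn_smul (x 0) _ _ (hκ _) (hκ _) h

/-- over every number field, the integral representations of a closed surface group of genus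
`g + 2` whose first handle generates the matrix algebra are Zariski dense -/
theorem tuple_dense_Z (f : Tup (g + 2) r → ℂ) (hf : f ∈ PolyFun (Tup (g + 2) r))
    (hv : ∀ σ : Fin (g + 2) → SpecialLinearGroup (Fin r) (𝓞 L) × SpecialLinearGroup (Fin r) (𝓞 L),
      IsIntRep σ → burn (emb φ (σ 0).1.1, emb φ (σ 0).2.1) ≠ 0 →
      f (fun i => (emb φ (σ i).1.1, emb φ (σ i).2.1)) = 0)
    (x : Tup (g + 2) r) (hx : ∀ i, (x i).1.det = 1 ∧ (x i).2.det = 1) (hk : Kp x = 1) :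
    f x = 0 :=
  sl_of_cone_Z φ (NeZero.pos r) (fun y => burn (y 0)) (burn_polyFun 0)
    (fun κ hκ y hy => burn_csAct κ hκ y hy) f hf hv x hx
    (fun N F hF hFc => cone_Z φ N F hF hFc x hx hk)

end main

/-- the `SL_r(ℤ)`-representations of a closed surface group of genus `g + 2` whose first handle
generates the matrix algebra are Zariski dense -/
theorem tuple_dense_int {g r : ℕ} [NeZero r] (f : Tup (g + 2) r → ℂ)
    (hf : f ∈ PolyFun (Tup (g + 2) r))
    (hv : ∀ σ : Fin (g + 2) → SpecialLinearGroup (Fin r) ℤ × SpecialLinearGroup (Fin r) ℤ,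
      (List.ofFn fun i => (σ i).1 * (σ i).2 * (σ i).1⁻¹ * (σ i).2⁻¹).prod = 1 →
      burn ((σ 0).1.1.map (Int.castRingHom ℂ), (σ 0).2.1.map (Int.castRingHom ℂ)) ≠ 0 →
      f (fun i => ((σ i).1.1.map (Int.castRingHom ℂ), (σ i).2.1.map (Int.castRingHom ℂ))) = 0)
    (x : Tup (g + 2) r) (hx : ∀ i, (x i).1.det = 1 ∧ (x i).2.det = 1) (hk : Kp x = 1) :
    f x = 0 := by
  refine tuple_dense_Z (algebraMap ℚ ℂ) f hf (fun σ hσ hb => ?_) x hx hk
  set e : 𝓞 ℚ →+* ℤ := (Rat.ringOfIntegersEquiv : 𝓞 ℚ ≃+* ℤ).toRingHom with he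
  set σ' : Fin (g + 2) → SpecialLinearGroup (Fin r) ℤ × SpecialLinearGroup (Fin r) ℤ :=
    fun i => (SpecialLinearGroup.map e (σ i).1, SpecialLinearGroup.map e (σ i).2) with hσ'
  have hcast : ∀ z : 𝓞 ℚ, (algebraMap ℚ ℂ) (algebraMap (𝓞 ℚ) ℚ z) = ((e z : ℤ) : ℂ) := by
    intro z
    have h1 : algebraMap (𝓞 ℚ) ℚ z = ((e z : ℤ) : ℚ) := by
      have h2 : ((Rat.ringOfIntegersEquiv : 𝓞 ℚ ≃+* ℤ).symm (e z)) = z :=
        (Rat.ringOfIntegersEquiv : 𝓞 ℚ ≃+* ℤ).symm_apply_apply z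
      conv_lhs => rw [← h2]
      have h3 : ∀ n : ℤ, (Rat.ringOfIntegersEquiv : 𝓞 ℚ ≃+* ℤ).symm n = (n : 𝓞 ℚ) := fun n =>
        map_intCast _ n
      rw [h3, map_intCast]
    rw [h1]
    simp
  have hemb : ∀ A : SpecialLinearGroup (Fin r) (𝓞 ℚ), emb (algebraMap ℚ ℂ) A.1 =
      (SpecialLinearGroup.map e A).1.map (Int.castRingHom ℂ) := by
    intro A
    ext i j
    simp only [emb, Matrix.map_apply, RingHom.comp_apply]
    exact hcast _
  have h := hv σ' (by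
    have h1 := congrArg (SpecialLinearGroup.map e) hσ
    rw [map_one, map_list_prod, List.map_ofFn] at h1
    rw [← h1]
    congr 2
    funext i
    simp [hσ', Function.comp])
  simp only [hσ', ← hemb] at h
  exact h hb

end Vale.Agent.P002
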