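import Vale.Agent.P002.ZTwist
import Vale.Agent.P002.ZFam

namespace Vale.Agent.P002

open Matrix NumberField

theorem lemC2 {r D : ℕ} {lam : Fin r → ℂ} (hp : ∏ i, lam i = 1)
    (hind : ∀ d ≤ r * D, ∀ β β' : Fin r → ℕ, ∑ i, β i = d → ∑ i, β' i = d →
      ∏ i, lam i ^ β i = ∏ i, lam i ^ β' i → β = β')
    (Q : MvPolynomial (Fin r) ℂ) (hQ : Q.totalDegree ≤ D)
    (hv : ∀ k : ℕ, MvPolynomial.eval (fun i => lam i ^ k) Q = 0)
    (μ : Fin r → ℂ) (hμ : ∏ i, μ i = 1) : MvPolynomial.eval μ Q = 0 := by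
  classical
  rcases Nat.eq_zero_or_pos r with hr0 | hr
  · subst hr0
    have h1 := hv 0
    have h2 : (fun i => lam i ^ 0) = μ := Subsingleton.elim _ _
    rwa [h2] at h1
  let val : (Fin r →₀ ℕ) → ℂ := fun m => ∏ i, lam i ^ m i
  have hdeg : ∀ m ∈ Q.support, ∑ i, m i ≤ D := by
    intro m hm
    have h1 := MvPolynomial.le_totalDegree hm
    rw [Finsupp.sum_fintype _ _ (fun _ => rfl)] at h1
    exact h1.trans hQ
  have hmod : ∀ m ∈ Q.support, ∀ m' ∈ Q.support, val m = val m' →
      ∑ i, m' i ≤ ∑ i, m i → ∏ i, μ i ^ m i = ∏ i, μ i ^ m' i := by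
    intro m hm m' hm' hval hle
    obtain ⟨t, ht⟩ := Nat.exists_eq_add_of_le hle
    have h1 : ∏ i, lam i ^ (r * m i) = ∏ i, lam i ^ (r * m' i + t) := by
      have h2 : ∏ i, lam i ^ (r * m i) = (∏ i, lam i ^ m i) ^ r := by
        rw [← Finset.prod_pow]
        exact Finset.prod_congr rfl fun i _ => by rw [← pow_mul, mul_comm]
      have h3 : ∏ i, lam i ^ (r * m' i + t) = (∏ i, lam i ^ m' i) ^ r * (∏ i, lam i) ^ t := by
        rw [← Finset.prod_pow, ← Finset.prod_pow, ← Finset.prod_mul_distrib]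
        exact Finset.prod_congr rfl fun i _ => by rw [← pow_mul, pow_add, mul_comm r]
      rw [h2, h3, hp, one_pow, mul_one]
      exact congrArg (fun x => x ^ r) hval
    have h4 := hind (r * ∑ i, m i) (Nat.mul_le_mul_left r (hdeg m hm)) (fun i => r * m i)
      (fun i => r * m' i + t) (by rw [Finset.mul_sum])
      (by rw [Finset.sum_add_distrib, ← Finset.mul_sum, ht]; simp [mul_add]) h1
    have h5 : ∀ i, r * m i = r * m' i + t := fun i => congrFun h4 i
    have h6 : r ∣ t := by
      have h7 : r ∣ r * m' ⟨0, hr⟩ + t := ⟨m ⟨0, hr⟩, (h5 ⟨0, hr⟩).symm⟩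
      exact (Nat.dvd_add_right (Dvd.intro _ rfl)).mp h7
    obtain ⟨u, hu⟩ := h6
    have h8 : ∀ i, m i = m' i + u := fun i => by
      have h9 := h5 i
      rw [hu, ← mul_add] at h9
      exact Nat.eq_of_mul_eq_mul_left hr h9
    calc ∏ i, μ i ^ m i = ∏ i, (μ i ^ m' i * μ i ^ u) :=
          Finset.prod_congr rfl fun i _ => by rw [h8 i, pow_add]
      _ = (∏ i, μ i ^ m' i) * (∏ i, μ i) ^ u := by
          rw [Finset.prod_mul_distrib, Finset.prod_pow]
      _ = ∏ i, μ i ^ m' i := by rw [hμ, one_pow, mul_one]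
  have hmod' : ∀ m ∈ Q.support, ∀ m' ∈ Q.support, val m = val m' →
      ∏ i, μ i ^ m i = ∏ i, μ i ^ m' i := by
    intro m hm m' hm' hval
    rcases le_total (∑ i, m' i) (∑ i, m i) with h | h
    · exact hmod m hm m' hm' hval h
    · exact (hmod m' hm' m hm hval.symm h).symm
  let V : Finset ℂ := Q.support.image val
  let φ : ℂ → (Multiplicative ℕ →* ℂ) := fun v =>
    { toFun := fun x => v ^ (Multiplicative.toAdd x)
      map_one' := by simp
      map_mul' := fun x y => by simp only [toAdd_mul, pow_add] }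
  have hinj : Function.Injective (fun v : V => φ v) := by
    intro v v' h
    have h1 := congrArg (fun f => f (Multiplicative.ofAdd 1)) h
    simp only [φ, MonoidHom.coe_mk, OneHom.coe_mk, toAdd_ofAdd, pow_one] at h1
    exact Subtype.ext h1
  have hli := (linearIndependent_monoidHom (Multiplicative ℕ) ℂ).comp _ hinj
  rw [Fintype.linearIndependent_iff] at hli
  have hzero := hli (fun v => ∑ m ∈ Q.support with val m = v, Q.coeff m) (by
    funext x
    have h1 := hv (Multiplicative.toAdd x)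
    rw [MvPolynomial.eval_eq'] at h1
    rw [← Finset.sum_fiberwise_of_maps_to (t := V) (g := val)
      (fun m hm => Finset.mem_image_of_mem _ hm), ← Finset.sum_coe_sort V] at h1
    rw [Finset.sum_apply, Pi.zero_apply, ← h1]
    refine Finset.sum_congr rfl fun v _ => ?_
    simp only [Function.comp, Pi.smul_apply, smul_eq_mul, φ, MonoidHom.coe_mk, OneHom.coe_mk]
    rw [Finset.sum_mul]
    refine Finset.sum_congr rfl fun m hm => ?_
    rw [Finset.mem_filter] at hm
    congr 1
    rw [← hm.2]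
    simp only [val]
    rw [← Finset.prod_pow]
    refine Finset.prod_congr rfl fun i _ => ?_
    rw [← pow_mul, ← pow_mul, mul_comm])
  rw [MvPolynomial.eval_eq', ← Finset.sum_fiberwise_of_maps_to (t := V) (g := val)
      (fun m hm => Finset.mem_image_of_mem _ hm)]
  refine Finset.sum_eq_zero fun v hvV => ?_
  obtain ⟨m0, hm0, hv0⟩ := Finset.mem_image.mp hvV
  have h1 : ∀ m ∈ Q.support.filter (fun m => val m = v),
      Q.coeff m * ∏ i, μ i ^ m i = Q.coeff m * ∏ i, μ i ^ m0 i := by
    intro m hm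
    rw [Finset.mem_filter] at hm
    rw [hmod' m hm.1 m0 hm0 (hm.2.trans hv0.symm)]
  rw [Finset.sum_congr rfl h1, ← Finset.sum_mul, hzero ⟨v, hvV⟩, zero_mul]

theorem exists_gen_SL {L : Type*} [Field L] [NumberField L] (φ : L →+* ℂ) {r : ℕ} (N : ℕ) :
    ∃ E : SpecialLinearGroup (Fin r) (𝓞 L), gprod N (emb φ E.1) ≠ 0 := by
  by_contra hcon
  push Not at hcon
  have h1 : ∀ M : Mat r, gprod N M = 0 := by
    refine mat_dense φ (fun M => gprod N M) (gprod_polyFun N polyMap_id) ?_
    intro A κ hκ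
    by_contra hne
    refine gprod_pr (A := emb φ A.1) (B := κ • emb φ A.1) ?_ N hne (hcon A)
    exact ⟨κ⁻¹, inv_ne_zero hκ, by rw [smul_smul, inv_mul_cancel₀ hκ, one_smul]⟩
  obtain ⟨p, hp, hind⟩ := exists_primes 1 r
  have hz : (fun _ : Fin 1 => (1 : ℤ)) ≠ 0 := fun h => by
    have := congrFun h 0
    simp at this
  exact (mon_gen hp hind hz).gprod N (h1 _)

theorem torus_dense {L : Type*} [Field L] [NumberField L] (φ : L →+* ℂ) {k r : ℕ}
    (P : (Fin k → Mat r) → ℂ) (hP : P ∈ PolyFun (Fin k → Mat r))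
    (hinv : ∀ h : Mat r, IsUnit h.det → ∀ ν : Fin k → Fin r → ℂ, (∀ i, ∏ j, ν i j = 1) →
      P (fun i => h * diagonal (ν i) * h⁻¹) = P (fun i => diagonal (ν i)))
    (hv : ∀ A : Fin k → SpecialLinearGroup (Fin r) (𝓞 L), (∀ i j, Commute (A i) (A j)) →
      (∃ h0 : Mat r, IsUnit h0.det ∧ ∃ ν : Fin k → Fin r → ℂ,
        ∀ i, emb φ (A i).1 = h0 * diagonal (ν i) * h0⁻¹) → P (fun i => emb φ (A i).1) = 0)
    (h : Mat r) (hh : IsUnit h.det) (μ : Fin k → Fin r → ℂ) (hμ : ∀ i, ∏ j, μ i j = 1) :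
    P (fun i => h * diagonal (μ i) * h⁻¹) = 0 := by
  classical
  -- degree bound in each coordinate
  have hdeg : ∀ i : Fin k, ∃ D : ℕ, ∀ z : Fin k → Mat r, ∃ Q : MvPolynomial (Fin r) ℂ,
      Q.totalDegree ≤ D ∧ ∀ ν : Fin r → ℂ,
        P (Function.update z i (diagonal ν)) = MvPolynomial.eval ν Q := by
    intro i
    have hG : (fun zt : (Fin k → Mat r) × Mat r => P (Function.update zt.1 i zt.2)) ∈
        PolyFun ((Fin k → Mat r) × Mat r) := by
      refine polyFun_comp hP (polyMap_pi fun j => ?_)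
      by_cases hj : j = i
      · subst hj
        simpa using polyMap_snd polyMap_id
      · simpa [Function.update_of_ne hj] using polyMap_apply (polyMap_fst polyMap_id) j
    obtain ⟨D, hD⟩ := deg_bound hG
    refine ⟨D, fun z => ?_⟩
    obtain ⟨Q, hQ, hQ'⟩ := hD z 1 1
    refine ⟨Q, hQ, fun ν => ?_⟩
    rw [← hQ' ν]
    simp
  choose Dg hDg using hdeg
  obtain ⟨E, hE⟩ := exists_gen_SL φ (r := r) (r * ∑ i, Dg i)
  obtain ⟨hgr, hgD⟩ := gprod_ne hE
  obtain ⟨h0, lam, hh0, _, hd⟩ := exists_diag_of_gram_ne_zero _ hgr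
  have hprod : ∏ i, lam i = 1 := by
    have h1 : (emb φ E.1).det = ∏ i, lam i := by
      rw [hd, Matrix.det_mul, Matrix.det_mul, Matrix.det_diagonal, Matrix.det_nonsing_inv,
        mul_right_comm, Ring.mul_inverse_cancel _ hh0, one_mul]
    rw [← h1, emb_det, E.2, map_one]
  have hind : ∀ d ≤ r * ∑ i, Dg i, ∀ β β' : Fin r → ℕ, ∑ i, β i = d → ∑ i, β' i = d →
      ∏ i, lam i ^ β i = ∏ i, lam i ^ β' i → β = β' := by
    intro d hd'
    have := hgD d hd'
    rw [hd] at this
    exact (gramD_diag_iff d h0 lam hh0).mp this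
  have hpowE : ∀ n : ℕ, emb φ (E ^ n).1 = h0 * diagonal (fun j => lam j ^ n) * h0⁻¹ := by
    intro n
    have h1 : emb φ (E ^ n).1 = (emb φ E.1) ^ n := by
      rw [← emb_pow]
      congr 1
    rw [h1, hd, conj_pow h0 _ hh0, Matrix.diagonal_pow]
    rfl
  have key : ∀ s : Finset (Fin k), ∀ ν : Fin k → Fin r → ℂ, (∀ i ∈ s, ∏ j, ν i j = 1) →
      (∀ i ∉ s, ∃ n : ℕ, ν i = fun j => lam j ^ n) → P (fun i => diagonal (ν i)) = 0 := by
    intro s
    induction s using Finset.induction_on with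
    | empty =>
      intro ν _ hν
      have hν' : ∀ i, ∃ n : ℕ, ν i = fun j => lam j ^ n := fun i => hν i (by simp)
      choose n hn using hν'
      have h1 : ∀ i, ∏ j, ν i j = 1 := fun i => by
        rw [hn i]
        show ∏ j, lam j ^ n i = 1
        rw [Finset.prod_pow, hprod, one_pow]
      rw [← hinv h0 hh0 ν h1]
      have h2 : (fun i => h0 * diagonal (ν i) * h0⁻¹) = fun i => emb φ (E ^ n i).1 := by
        funext i
        rw [hn i, hpowE]
      rw [h2]
      exact hv (fun i => E ^ n i) (fun i j => (Commute.refl E).pow_pow _ _)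
        ⟨h0, hh0, ν, fun i => (congrFun h2 i).symm⟩
    | insert a s ha ih =>
      intro ν h1 h2
      obtain ⟨Q, hQd, hQ⟩ := hDg a (fun i => diagonal (ν i))
      have hle : Dg a ≤ ∑ i, Dg i := Finset.single_le_sum (fun _ _ => Nat.zero_le _)
        (Finset.mem_univ a)
      have h3 := lemC2 hprod hind Q (hQd.trans hle) (fun n => by
        rw [← hQ]
        have h4 : Function.update (fun i => (diagonal (ν i) : Mat r)) a
            (diagonal fun j => lam j ^ n) =
            fun i => diagonal (Function.update ν a (fun j => lam j ^ n) i) := by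
          funext i
          by_cases hi : i = a
          · subst hi; simp
          · simp [Function.update_of_ne hi]
        rw [h4]
        refine ih _ ?_ ?_
        · intro i hi
          have hia : i ≠ a := fun h => ha (h ▸ hi)
          rw [Function.update_of_ne hia]
          exact h1 i (Finset.mem_insert_of_mem hi)
        · intro i hi
          by_cases hia : i = a
          · subst hia
            exact ⟨n, by rw [Function.update_self]⟩
          · rw [Function.update_of_ne hia]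
            exact h2 i (by simp [hia, hi])) (ν a) (h1 a (Finset.mem_insert_self a s))
      rw [← hQ] at h3
      have h5 : Function.update (fun i => (diagonal (ν i) : Mat r)) a (diagonal (ν a)) =
          fun i => diagonal (ν i) := Function.update_eq_self a _
      rwa [h5] at h3
  rw [hinv h hh μ hμ]
  exact key Finset.univ μ (fun i _ => hμ i) (fun i hi => absurd (Finset.mem_univ i) hi)

/-- common eigenvectors -/
def comEig {ι : Type*} {r : ℕ} (M : ι → Mat r) : Set (Fin r → ℂ) :=
  {v | ∃ χ : ι → ℂ, ∀ i, (M i).mulVec v = χ i • v}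

theorem diag_of_comEig {ι : Type*} {r : ℕ} (M : ι → Mat r)
    (hspan : Submodule.span ℂ (comEig M) = ⊤) :
    ∃ h : Mat r, IsUnit h.det ∧ ∃ μ : ι → Fin r → ℂ, ∀ i, M i = h * diagonal (μ i) * h⁻¹ := by
  classical
  obtain ⟨b, hbS, hbspan, hbli⟩ := exists_linearIndependent ℂ (comEig M)
  rw [hspan] at hbspan
  let B0 : Module.Basis b ℂ (Fin r → ℂ) := Module.Basis.mk hbli (by
    rw [Subtype.range_coe, hbspan])
  haveI : Finite b := Module.Finite.finite_basis B0
  haveI := Fintype.ofFinite b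
  have hcard : Fintype.card b = Fintype.card (Fin r) := by
    rw [← Module.finrank_eq_card_basis B0, Module.finrank_fintype_fun_eq_card]
  let e : b ≃ Fin r := Fintype.equivOfCardEq hcard |>.trans (Equiv.refl _)
  let B : Module.Basis (Fin r) ℂ (Fin r → ℂ) := B0.reindex e
  have hB : ∀ j, B j ∈ comEig M := by
    intro j
    have : B j = ((e.symm j : b) : Fin r → ℂ) := by
      simp [B, B0]
    rw [this]
    exact hbS (e.symm j).2
  choose χ hχ using hB
  let h : Mat r := (Pi.basisFun ℂ (Fin r)).toMatrix B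
  have hh : ∀ a j, h a j = B j a := fun a j => by
    simp [h, Module.Basis.toMatrix_apply]
  have h1 : h * B.toMatrix (Pi.basisFun ℂ (Fin r)) = 1 :=
    Module.Basis.toMatrix_mul_toMatrix_flip _ _
  have hunit : IsUnit h.det := Matrix.isUnit_det_of_right_inverse h1
  refine ⟨h, hunit, fun i j => χ j i, fun i => ?_⟩
  have h2 : M i * h = h * diagonal (fun j => χ j i) := by
    ext a j
    rw [Matrix.mul_diagonal, hh]
    have h3 := congrFun (hχ j i) a
    rw [Pi.smul_apply, smul_eq_mul, Matrix.mulVec, dotProduct] at h3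
    rw [Matrix.mul_apply]
    simp only [hh]
    rw [h3, mul_comm]
  rw [← h2, Matrix.mul_assoc, Matrix.mul_nonsing_inv _ hunit, Matrix.mul_one]

theorem simul_diag {ι : Type*} {r : ℕ} (M : ι → Mat r) (hcomm : ∀ i j, Commute (M i) (M j))
    (hss : ∀ V : Submodule ℂ (Fin r → ℂ), (∀ i, ∀ v ∈ V, (M i).mulVec v ∈ V) →
      ∃ W : Submodule ℂ (Fin r → ℂ), (∀ i, ∀ v ∈ W, (M i).mulVec v ∈ W) ∧ IsCompl V W) :
    ∃ h : Mat r, IsUnit h.det ∧ ∃ μ : ι → Fin r → ℂ, ∀ i, M i = h * diagonal (μ i) * h⁻¹ := by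
  classical
  refine diag_of_comEig M ?_
  have hinvU : ∀ i, ∀ v ∈ Submodule.span ℂ (comEig M), (M i).mulVec v ∈
      Submodule.span ℂ (comEig M) := by
    intro i v hv
    induction hv using Submodule.span_induction with
    | mem x hx =>
      obtain ⟨χ, hχ⟩ := id hx
      rw [hχ i]
      exact Submodule.smul_mem _ _ (Submodule.subset_span hx)
    | zero => rw [Matrix.mulVec_zero]; exact Submodule.zero_mem _
    | add x y _ _ hx hy => rw [Matrix.mulVec_add]; exact Submodule.add_mem _ hx hy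
    | smul c x _ hx => rw [Matrix.mulVec_smul]; exact Submodule.smul_mem _ _ hx
  obtain ⟨W, hW, hc⟩ := hss _ hinvU
  by_cases hW0 : W = ⊥
  · rw [hW0] at hc
    have h1 := hc.sup_eq_top
    rwa [sup_bot_eq] at h1
  exfalso
  -- minimal nonzero invariant submodule
  let S : Set (Submodule ℂ (Fin r → ℂ)) :=
    {V | V ≠ ⊥ ∧ V ≤ W ∧ ∀ i, ∀ v ∈ V, (M i).mulVec v ∈ V}
  have hSne : S.Nonempty := ⟨W, hW0, le_rfl, hW⟩
  obtain ⟨V, ⟨hV0, hVW, hVinv⟩, hmin⟩ :=
    (wellFounded_lt (α := Submodule ℂ (Fin r → ℂ))).has_min S hSne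
  haveI : Nontrivial V := Submodule.nontrivial_iff_ne_bot.mpr hV0
  have hsc : ∀ i, ∃ c : ℂ, ∀ v ∈ V, (M i).mulVec v = c • v := by
    intro i
    let f : Module.End ℂ V := ((M i).mulVecLin).restrict (hVinv i)
    obtain ⟨c, hc'⟩ := Module.End.exists_eigenvalue f
    obtain ⟨w, hw⟩ := hc'.exists_hasEigenvector
    refine ⟨c, ?_⟩
    let V' : Submodule ℂ (Fin r → ℂ) := V ⊓ LinearMap.ker ((M i).mulVecLin - c • LinearMap.id)
    have hmem : ∀ v, v ∈ V' ↔ v ∈ V ∧ (M i).mulVec v = c • v := by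
      intro v
      simp only [V', Submodule.mem_inf, LinearMap.mem_ker, LinearMap.sub_apply,
        Matrix.mulVecLin_apply, LinearMap.smul_apply, LinearMap.id_apply, sub_eq_zero]
    have hV'S : V' ∈ S := by
      refine ⟨?_, inf_le_left.trans hVW, ?_⟩
      · intro hbot
        have h1 : (w : Fin r → ℂ) ∈ V' := by
          rw [hmem]
          refine ⟨w.2, ?_⟩
          have h2 := hw.apply_eq_smul
          exact congrArg Subtype.val h2
        rw [hbot, Submodule.mem_bot] at h1
        exact hw.2 (Subtype.ext h1)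
      · intro j v hv
        rw [hmem] at hv ⊢
        refine ⟨hVinv j v hv.1, ?_⟩
        rw [Matrix.mulVec_mulVec, (hcomm i j).eq, ← Matrix.mulVec_mulVec, hv.2,
          Matrix.mulVec_smul]
    have hnot := hmin V' hV'S
    have heq : V' = V := by
      by_contra hne
      exact hnot (lt_of_le_of_ne inf_le_left hne)
    intro v hv
    rw [← heq, hmem] at hv
    exact hv.2
  choose c hc' using hsc
  obtain ⟨v, hv, hv0⟩ := V.ne_bot_iff.mp hV0
  have h1 : v ∈ Submodule.span ℂ (comEig M) := Submodule.subset_span ⟨c, fun i => hc' i v hv⟩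
  exact hv0 (Submodule.disjoint_def.mp hc.disjoint v h1 (hVW hv))

theorem diag_complement {ι : Type*} {r : ℕ} (M : ι → Mat r) (h0 : Mat r) (hh : IsUnit h0.det)
    (ν : ι → Fin r → ℂ) (hM : ∀ i, M i = h0 * diagonal (ν i) * h0⁻¹)
    (V : Submodule ℂ (Fin r → ℂ)) (_hV : ∀ i, ∀ v ∈ V, (M i).mulVec v ∈ V) :
    ∃ W : Submodule ℂ (Fin r → ℂ), (∀ i, ∀ v ∈ W, (M i).mulVec v ∈ W) ∧ IsCompl V W := by
  classical
  let b : Fin r → Fin r → ℂ := fun j => h0.mulVec (Pi.single j 1)
  have hb : ∀ i j, (M i).mulVec (b j) = ν i j • b j := by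
    intro i j
    simp only [b]
    rw [hM i, Matrix.mulVec_mulVec, Matrix.mul_assoc, Matrix.nonsing_inv_mul _ hh, Matrix.mul_one,
      ← Matrix.mulVec_mulVec]
    have h1 : (diagonal (ν i)).mulVec (Pi.single j 1) = ν i j • (Pi.single j 1 : Fin r → ℂ) := by
      ext a
      rw [Matrix.mulVec_diagonal]
      by_cases ha : a = j
      · subst ha; simp
      · simp [ha]
    rw [h1, Matrix.mulVec_smul]
  have hbspan : Submodule.span ℂ (Set.range b) = ⊤ := by
    rw [eq_top_iff]
    intro v _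
    have h1 : v = ∑ j, (h0⁻¹.mulVec v) j • b j := by
      have h2 : v = h0.mulVec (h0⁻¹.mulVec v) := by
        rw [Matrix.mulVec_mulVec, Matrix.mul_nonsing_inv _ hh, Matrix.one_mulVec]
      conv_lhs => rw [h2]
      conv_lhs => rw [pi_eq_sum_univ' (h0⁻¹.mulVec v)]
      rw [Matrix.mulVec_sum]
      refine Finset.sum_congr rfl fun j _ => ?_
      rw [Matrix.mulVec_smul]
    rw [h1]
    exact Submodule.sum_mem _ fun j _ => Submodule.smul_mem _ _
      (Submodule.subset_span ⟨j, rfl⟩)
  obtain ⟨J, hJ, hmax⟩ := Finset.exists_max_image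
    (Finset.univ.filter fun J : Finset (Fin r) =>
      Disjoint V (Submodule.span ℂ (b '' (J : Set (Fin r))))) Finset.card
    ⟨∅, by simp⟩
  rw [Finset.mem_filter] at hJ
  refine ⟨Submodule.span ℂ (b '' (J : Set (Fin r))), ?_, hJ.2, ?_⟩
  · intro i v hv
    induction hv using Submodule.span_induction with
    | mem x hx =>
      obtain ⟨j, hj, rfl⟩ := hx
      rw [hb i j]
      exact Submodule.smul_mem _ _ (Submodule.subset_span ⟨j, hj, rfl⟩)
    | zero => rw [Matrix.mulVec_zero]; exact Submodule.zero_mem _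
    | add x y _ _ hx hy => rw [Matrix.mulVec_add]; exact Submodule.add_mem _ hx hy
    | smul c x _ hx => rw [Matrix.mulVec_smul]; exact Submodule.smul_mem _ _ hx
  · rw [codisjoint_iff]
    by_contra hne
    obtain ⟨j, hj⟩ : ∃ j, b j ∉ V ⊔ Submodule.span ℂ (b '' (J : Set (Fin r))) := by
      by_contra hall
      push Not at hall
      apply hne
      rw [eq_top_iff, ← hbspan]
      exact Submodule.span_le.mpr (by rintro _ ⟨j, rfl⟩; exact hall j)
    have hjJ : j ∉ J := fun h => hj (Submodule.mem_sup_right (Submodule.subset_span ⟨j, h, rfl⟩))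
    have hdis : Disjoint V (Submodule.span ℂ (b '' ((insert j J : Finset (Fin r)) : Set (Fin r)))) := by
      rw [Submodule.disjoint_def]
      intro v hv hv'
      rw [Finset.coe_insert, Set.image_insert_eq, Submodule.mem_span_insert] at hv'
      obtain ⟨c, w, hw, rfl⟩ := hv'
      by_cases hc0 : c = 0
      · subst hc0
        rw [zero_smul, zero_add] at hv ⊢
        exact Submodule.disjoint_def.mp hJ.2 w hv hw
      · exfalso
        apply hj
        have h2 : b j = c⁻¹ • (c • b j + w) + (-c⁻¹) • w := by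
          rw [smul_add, smul_smul, inv_mul_cancel₀ hc0, one_smul, neg_smul]
          abel
        rw [h2]
        exact Submodule.add_mem _ (Submodule.mem_sup_left (Submodule.smul_mem _ _ hv))
          (Submodule.mem_sup_right (Submodule.smul_mem _ _ hw))
    have h3 := hmax (insert j J) (by rw [Finset.mem_filter]; exact ⟨Finset.mem_univ _, hdis⟩)
    rw [Finset.card_insert_of_notMem hjJ] at h3
    omega

end Vale.Agent.P002
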