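import Vale.Agent.P002.ZFinal
import Vale.Agent.P002.ZTorus
import Vale.Agent.P002.Final

namespace Vale.Agent.P002

open Matrix NumberField

theorem final_int (g r : ℕ) (hr : 0 < r)
    (P : MvPolynomial ((Fin (g + 2) × Bool) × Fin r × Fin r) ℂ)
    (hv : ∀ σ : Fin (g + 2) × Bool → SpecialLinearGroup (Fin r) ℤ,
      (List.ofFn fun i => σ (i, false) * σ (i, true) * (σ (i, false))⁻¹ * (σ (i, true))⁻¹).prod
        = 1 →
      (∀ V : Submodule ℂ (Fin r → ℂ), (∀ k, ∀ v ∈ V,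
        ((σ k).1.map (Int.castRingHom ℂ)).mulVec v ∈ V) → V = ⊥ ∨ V = ⊤) →
      MvPolynomial.eval (fun k => (((σ k.1).1 k.2.1 k.2.2 : ℤ) : ℂ)) P = 0)
    (τ : Fin (g + 2) × Bool → SpecialLinearGroup (Fin r) ℂ)
    (hτ : (List.ofFn fun i =>
      τ (i, false) * τ (i, true) * (τ (i, false))⁻¹ * (τ (i, true))⁻¹).prod = 1) :
    MvPolynomial.eval (fun k => (τ k.1).1 k.2.1 k.2.2) P = 0 := by
  have : NeZero r := ⟨hr.ne'⟩
  set c : Tup (g + 2) r → (Fin (g + 2) × Bool) × Fin r × Fin r → ℂ :=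
    fun x k => if k.1.2 then (x k.1.1).2 k.2.1 k.2.2 else (x k.1.1).1 k.2.1 k.2.2 with hc
  have hpoly : (fun x : Tup (g + 2) r => MvPolynomial.eval (c x) P) ∈ PolyFun (Tup (g + 2) r) := by
    refine polyFun_eval c (fun k => ?_) P
    obtain ⟨⟨i, b⟩, a, a'⟩ := k
    have h1 : PolyMap (fun x : Tup (g + 2) r => (x i).1) := polyMap_fst (polyMap_apply polyMap_id i)
    have h2 : PolyMap (fun x : Tup (g + 2) r => (x i).2) := polyMap_snd (polyMap_apply polyMap_id i)
    cases b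
    · simpa [hc] using polyFun_entry h1 a a'
    · simpa [hc] using polyFun_entry h2 a a'
  have h1 := tuple_dense_int (g := g) (fun x => MvPolynomial.eval (c x) P) hpoly
    (fun σ hσ hb => ?_) (fun i => ((τ (i, false)).1, (τ (i, true)).1)) (fun i => ⟨(τ _).2, (τ _).2⟩) ?_
  · convert h1 using 2
    congr 1
    funext k
    obtain ⟨⟨i, b⟩, a, a'⟩ := k
    cases b <;> simp [hc]
  · have h2 := hv (fun k => if k.2 then (σ k.1).2 else (σ k.1).1) (by simpa using hσ)
      (fun V hV => burn_irr _ hb V (fun v hvV => by simpa using hV (0, false) v hvV)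
        (fun v hvV => by simpa using hV (0, true) v hvV))
    convert h2 using 2
    congr 1
    funext k
    obtain ⟨⟨i, b⟩, a, a'⟩ := k
    cases b <;> simp [hc]
  · have h3 := congrArg (fun A : SpecialLinearGroup (Fin r) ℂ => A.1) hτ
    simp only [sl_coe_prod, List.map_ofFn] at h3
    rw [Kp, ← Matrix.SpecialLinearGroup.coe_one, ← h3]
    congr 2
    funext i
    simp only [cm, Function.comp, Matrix.SpecialLinearGroup.coe_mul, sl_coe_inv]

/-- integral commuting tuples: an invariant polynomial vanishing at the simultaneously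
diagonalisable commuting tuples in `SL_r(ℤ)` vanishes at all simultaneously diagonalisable
tuples of determinant one -/
theorem final_torus (k r : ℕ) (P : MvPolynomial (Fin k × Fin r × Fin r) ℂ)
    (hinv : ∀ (h : Mat r), IsUnit h.det → ∀ ν : Fin k → Fin r → ℂ, (∀ i, ∏ j, ν i j = 1) →
      MvPolynomial.eval (fun p : Fin k × Fin r × Fin r =>
        (h * diagonal (ν p.1) * h⁻¹) p.2.1 p.2.2) P =
      MvPolynomial.eval (fun p : Fin k × Fin r × Fin r =>
        (diagonal (ν p.1) : Mat r) p.2.1 p.2.2) P)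
    (hv : ∀ A : Fin k → SpecialLinearGroup (Fin r) ℤ, (∀ i j, Commute (A i) (A j)) →
      (∃ h0 : Mat r, IsUnit h0.det ∧ ∃ ν : Fin k → Fin r → ℂ,
        ∀ i, (A i).1.map (Int.castRingHom ℂ) = h0 * diagonal (ν i) * h0⁻¹) →
      MvPolynomial.eval (fun p : Fin k × Fin r × Fin r => (((A p.1).1 p.2.1 p.2.2 : ℤ) : ℂ)) P = 0)
    (x : Fin k → Mat r) (hx : ∀ i, (x i).det = 1)
    (hd : ∃ h0 : Mat r, IsUnit h0.det ∧ ∃ ν : Fin k → Fin r → ℂ,
        ∀ i, x i = h0 * diagonal (ν i) * h0⁻¹) :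
    MvPolynomial.eval (fun p : Fin k × Fin r × Fin r => (x p.1) p.2.1 p.2.2) P = 0 := by
  obtain ⟨h0, hh0, ν, hν⟩ := hd
  have hν1 : ∀ i, ∏ j, ν i j = 1 := fun i => by
    have h1 := hx i
    rwa [hν, Matrix.det_mul, Matrix.det_mul, Matrix.det_diagonal, Matrix.det_nonsing_inv,
      mul_right_comm, Ring.mul_inverse_cancel _ hh0, one_mul] at h1
  have hp : (fun x : Fin k → Mat r =>
      MvPolynomial.eval (fun p : Fin k × Fin r × Fin r => (x p.1) p.2.1 p.2.2) P) ∈
      PolyFun (Fin k → Mat r) := by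
    refine polyFun_eval (fun (x : Fin k → Mat r) (p : Fin k × Fin r × Fin r) =>
      (x p.1) p.2.1 p.2.2) (fun p => ?_) P
    exact polyFun_entry (polyMap_apply polyMap_id p.1) _ _
  have key := torus_dense (algebraMap ℚ ℂ) _ hp (fun h hh ν hν => hinv h hh ν hν) ?_ h0 hh0 ν hν1
  · have e : x = fun i => h0 * diagonal (ν i) * h0⁻¹ := funext hν
    rw [e]
    exact key
  · intro A hA hdA
    set e : 𝓞 ℚ →+* ℤ := (Rat.ringOfIntegersEquiv : 𝓞 ℚ ≃+* ℤ).toRingHom with he
    have hcast : ∀ z : 𝓞 ℚ, (algebraMap ℚ ℂ) (algebraMap (𝓞 ℚ) ℚ z) = ((e z : ℤ) : ℂ) := by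
      intro z
      have h1 : algebraMap (𝓞 ℚ) ℚ z = ((e z : ℤ) : ℚ) := by
        have h2 : ((Rat.ringOfIntegersEquiv : 𝓞 ℚ ≃+* ℤ).symm (e z)) = z :=
          (Rat.ringOfIntegersEquiv : 𝓞 ℚ ≃+* ℤ).symm_apply_apply z
        conv_lhs => rw [← h2]
        have h3 : ∀ n : ℤ, (Rat.ringOfIntegersEquiv : 𝓞 ℚ ≃+* ℤ).symm n = (n : 𝓞 ℚ) := fun n =>
          map_intCast _ n
        rw [h3, map_intCast]
      rw [h1]
      simp
    have hemb : ∀ A : SpecialLinearGroup (Fin r) (𝓞 ℚ), emb (algebraMap ℚ ℂ) A.1 =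
        (SpecialLinearGroup.map e A).1.map (Int.castRingHom ℂ) := by
      intro A
      ext i j
      simp only [emb, Matrix.map_apply, RingHom.comp_apply]
      exact hcast _
    simp only [hemb] at hdA
    have h2 := hv (fun i => SpecialLinearGroup.map e (A i)) (fun i j => (hA i j).map _) hdA
    simp only [hemb]
    exact h2

end Vale.Agent.P002
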