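import Vale.Agent.P002.Spectral

namespace Vale.Agent.P002

open Matrix

noncomputable def gramD {r : ℕ} (d : ℕ) (e : Mat r) : ℂ :=
  (Matrix.of fun i j : Fin (Finset.piAntidiag (Finset.univ : Finset (Fin r)) d).card =>
    ((e ^ ((i : ℕ) + (j : ℕ))).trace) ^ d).det

theorem gramD_polyFun {E : Type*} [AddCommGroup E] [Module ℂ E] {r : ℕ} (d : ℕ) {S : E → Mat r}
    (hS : PolyMap S) : (fun x => gramD d (S x)) ∈ PolyFun E :=
  polyFun_det (polyMap_of_entry fun i j => by
    simpa using polyFun_pow (polyFun_trace (polyMap_pow hS _)) d)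

theorem gramD_diag_iff {r : ℕ} (d : ℕ) (h : Mat r) (lam : Fin r → ℂ) (hh : IsUnit h.det) :
    gramD d (h * diagonal lam * h⁻¹) ≠ 0 ↔
      ∀ β β' : Fin r → ℕ, ∑ i, β i = d → ∑ i, β' i = d →
        ∏ i, lam i ^ β i = ∏ i, lam i ^ β' i → β = β' := by
  classical
  set s := Finset.piAntidiag (Finset.univ : Finset (Fin r)) d with hs
  let e : s ≃ Fin s.card := Finset.equivFin s
  let ν : Fin s.card → ℂ := fun k => ∏ i, lam i ^ ((e.symm k : Fin r → ℕ) i)
  let w : Fin s.card → ℂ := fun k =>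
    (Nat.multinomial (Finset.univ : Finset (Fin r)) (e.symm k : Fin r → ℕ) : ℂ)
  have hmat : (Matrix.of fun i j : Fin s.card =>
      (((h * diagonal lam * h⁻¹) ^ ((i : ℕ) + (j : ℕ))).trace) ^ d)
      = (vandermonde ν)ᵀ * diagonal w * vandermonde ν := by
    ext i j
    simp only [Matrix.of_apply, conj_pow h _ hh]
    rw [Matrix.trace_mul_comm, ← Matrix.mul_assoc, Matrix.nonsing_inv_mul _ hh, Matrix.one_mul,
      Matrix.diagonal_pow, Matrix.trace_diagonal, Finset.sum_pow_eq_sum_piAntidiag,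
      Matrix.mul_apply, ← hs, ← Finset.sum_coe_sort s]
    rw [← e.symm.sum_comp]
    refine Finset.sum_congr rfl fun k _ => ?_
    rw [Matrix.mul_diagonal, Matrix.transpose_apply, vandermonde_apply, vandermonde_apply]
    have h1 : ∏ x, ((lam ^ ((i : ℕ) + (j : ℕ))) x) ^ ((e.symm k : Fin r → ℕ) x)
        = ν k ^ ((i : ℕ) + (j : ℕ)) := by
      simp only [ν, ← Finset.prod_pow, Pi.pow_apply]
      refine Finset.prod_congr rfl fun x _ => ?_
      rw [← pow_mul, ← pow_mul, mul_comm]
    rw [h1, pow_add]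
    simp only [w]
    ring
  have hw : ∏ k, w k ≠ 0 := by
    refine Finset.prod_ne_zero_iff.mpr fun k _ => ?_
    have : 0 < Nat.multinomial (Finset.univ : Finset (Fin r)) (e.symm k : Fin r → ℕ) :=
      Nat.multinomial_pos _ _
    simp only [w]
    exact_mod_cast this.ne'
  have hdet : gramD d (h * diagonal lam * h⁻¹) = (vandermonde ν).det ^ 2 * ∏ k, w k := by
    unfold gramD
    rw [← hs, hmat, Matrix.det_mul, Matrix.det_mul, Matrix.det_transpose, Matrix.det_diagonal]
    ring
  rw [hdet]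
  have hmem : ∀ β : Fin r → ℕ, β ∈ s ↔ ∑ i, β i = d := by
    intro β
    rw [hs, Finset.mem_piAntidiag]
    constructor
    · exact fun h => h.1
    · exact fun h => ⟨h, fun i _ => Finset.mem_univ i⟩
  constructor
  · intro hne β β' hβ hβ' heq
    have hV : (vandermonde ν).det ≠ 0 := by
      intro h0
      rw [h0] at hne
      simp at hne
    have hinj := det_vandermonde_ne_zero_iff.mp hV
    have h1 : ν (e ⟨β, (hmem β).mpr hβ⟩) = ν (e ⟨β', (hmem β').mpr hβ'⟩) := by
      simp only [ν, Equiv.symm_apply_apply]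
      exact heq
    have h2 := e.injective (hinj h1)
    exact congrArg Subtype.val h2
  · intro hall
    have hinj : Function.Injective ν := by
      intro k k' hk
      have := hall (e.symm k) (e.symm k') ((hmem _).mp (e.symm k).2) ((hmem _).mp (e.symm k').2) hk
      exact e.symm.injective (Subtype.ext this)
    exact mul_ne_zero (pow_ne_zero _ (det_vandermonde_ne_zero_iff.mpr hinj)) hw

theorem gramD_smul {r : ℕ} (d : ℕ) (e : Mat r) {s : ℂ} (hs : s ≠ 0) :
    gramD d (s • e) ≠ 0 ↔ gramD d e ≠ 0 := by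
  classical
  set n := (Finset.piAntidiag (Finset.univ : Finset (Fin r)) d).card with hn
  let a : Fin n → ℂ := fun i => s ^ ((i : ℕ) * d)
  have ha : ∏ i, a i ≠ 0 := Finset.prod_ne_zero_iff.mpr fun i _ => pow_ne_zero _ hs
  have h1 : (Matrix.of fun i j : Fin n => (((s • e) ^ ((i : ℕ) + (j : ℕ))).trace) ^ d)
      = diagonal a * (Matrix.of fun i j : Fin n => ((e ^ ((i : ℕ) + (j : ℕ))).trace) ^ d)
        * diagonal a := by
    ext i j
    rw [Matrix.mul_diagonal, Matrix.diagonal_mul]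
    simp only [Matrix.of_apply, smul_pow, Matrix.trace_smul, smul_eq_mul, a]
    rw [mul_pow, ← pow_mul, add_mul, pow_add]
    ring
  have h2 : gramD d (s • e) = (∏ i, a i) ^ 2 * gramD d e := by
    unfold gramD
    rw [← hn, h1, Matrix.det_mul, Matrix.det_mul, Matrix.det_diagonal]
    ring
  rw [h2]
  constructor
  · exact fun h => right_ne_zero_of_mul h
  · exact fun h => mul_ne_zero (pow_ne_zero _ ha) h

theorem padicValRat_prod {ι : Type*} (q : ℕ) [Fact q.Prime] (s : Finset ι) (f : ι → ℚ)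
    (hf : ∀ i ∈ s, f i ≠ 0) : padicValRat q (∏ i ∈ s, f i) = ∑ i ∈ s, padicValRat q (f i) := by
  classical
  induction s using Finset.induction_on with
  | empty => simp
  | insert a s ha ih =>
    rw [Finset.prod_insert ha, Finset.sum_insert ha, padicValRat.mul (hf a (by simp))
      (Finset.prod_ne_zero_iff.mpr fun i hi => hf i (by simp [hi])),
      ih fun i hi => hf i (by simp [hi])]

theorem exists_primes (k r : ℕ) : ∃ p : Fin k → Fin r → ℂ, (∀ l j, p l j ≠ 0) ∧
    ∀ z : Fin k → ℤ, z ≠ 0 → ∀ β β' : Fin r → ℕ,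
      ∏ j, (∏ l, p l j ^ z l) ^ β j = ∏ j, (∏ l, p l j ^ z l) ^ β' j → β = β' := by
  classical
  let P : Fin k → Fin r → ℕ := fun l j => Nat.nth Nat.Prime (finProdFinEquiv (l, j))
  have hP : ∀ l j, (P l j).Prime := fun l j => Nat.prime_nth_prime _
  have hinj : ∀ l j l' j', P l j = P l' j' → l = l' ∧ j = j' := by
    intro l j l' j' h
    have h1 := Nat.nth_injective Nat.infinite_setOfPred_prime h
    have h2 := finProdFinEquiv.injective (Fin.ext h1)
    exact ⟨congrArg Prod.fst h2, congrArg Prod.snd h2⟩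
  refine ⟨fun l j => (P l j : ℂ), fun l j => Nat.cast_ne_zero.mpr (hP l j).ne_zero, ?_⟩
  intro z hz β β' heq
  have hQ : ∏ j, (∏ l, (P l j : ℚ) ^ z l) ^ β j = ∏ j, (∏ l, (P l j : ℚ) ^ z l) ^ β' j := by
    have h := heq
    have hcast : ∀ γ : Fin r → ℕ, ∏ j, (∏ l, (P l j : ℂ) ^ z l) ^ γ j
        = ((∏ j, (∏ l, (P l j : ℚ) ^ z l) ^ γ j : ℚ) : ℂ) := by
      intro γ
      push_cast
      rfl
    rw [hcast, hcast] at h
    exact_mod_cast h
  obtain ⟨l0, hl0⟩ : ∃ l, z l ≠ 0 := by
    by_contra hcon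
    push Not at hcon
    exact hz (funext hcon)
  have hne : ∀ l j, (P l j : ℚ) ≠ 0 := fun l j => by exact_mod_cast (hP l j).ne_zero
  have hval : ∀ (j0 : Fin r) (γ : Fin r → ℕ),
      padicValRat (P l0 j0) (∏ j, (∏ l, (P l j : ℚ) ^ z l) ^ γ j) = γ j0 * z l0 := by
    intro j0 γ
    have : Fact (P l0 j0).Prime := ⟨hP l0 j0⟩
    rw [padicValRat_prod _ _ _ (fun j _ => pow_ne_zero _ (Finset.prod_ne_zero_iff.mpr
      fun l _ => zpow_ne_zero _ (hne l j)))]
    have h1 : ∀ j, padicValRat (P l0 j0) ((∏ l, (P l j : ℚ) ^ z l) ^ γ j)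
        = if j = j0 then (γ j0 : ℤ) * z l0 else 0 := by
      intro j
      rw [padicValRat.pow, padicValRat_prod _ _ _ (fun l _ => zpow_ne_zero _ (hne l j))]
      have h2 : ∀ l, padicValRat (P l0 j0) ((P l j : ℚ) ^ z l)
          = if l = l0 ∧ j = j0 then z l0 else 0 := by
        intro l
        rw [padicValRat.zpow]
        by_cases h : l = l0 ∧ j = j0
        · rw [if_pos h, h.1, h.2, padicValRat.self (hP l0 j0).one_lt, mul_one]
        · rw [if_neg h]
          have hpq : P l0 j0 ≠ P l j := fun h' => h (by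
            obtain ⟨a, b⟩ := hinj _ _ _ _ h'
            exact ⟨a.symm, b.symm⟩)
          have : Fact (P l j).Prime := ⟨hP l j⟩
          rw [padicValRat.of_nat, padicValNat_primes hpq]
          simp
      simp only [h2]
      by_cases hj : j = j0
      · subst hj
        simp
      · simp [hj]
    simp only [h1]
    simp
  funext j0
  have h1 := hval j0 β
  rw [hQ, hval j0 β'] at h1
  have h2 := mul_right_cancel₀ (b := z l0) hl0 h1
  exact_mod_cast h2.symm

theorem lemC {r D : ℕ} {lam : Fin r → ℂ} (_h0 : ∀ i, lam i ≠ 0)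
    (hind : ∀ d ≤ D, ∀ β β' : Fin r → ℕ, ∑ i, β i = d → ∑ i, β' i = d →
      ∏ i, lam i ^ β i = ∏ i, lam i ^ β' i → β = β')
    (Q : MvPolynomial (Fin r) ℂ) (hQ : Q.totalDegree ≤ D)
    (hv : ∀ (κ : ℂ) (k : ℕ), κ ≠ 0 → MvPolynomial.eval (fun i => κ * lam i ^ k) Q = 0) :
    Q = 0 := by
  classical
  let φ : (Fin r →₀ ℕ) → (Multiplicative ℕ × Multiplicative ℕ →* ℂ) := fun m =>
    { toFun := fun x => ((2 : ℂ) ^ (∑ i, m i)) ^ (Multiplicative.toAdd x.1)
        * (∏ i, lam i ^ m i) ^ (Multiplicative.toAdd x.2)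
      map_one' := by simp
      map_mul' := fun x y => by
        simp only [Prod.fst_mul, Prod.snd_mul, toAdd_mul, pow_add]
        ring }
  have hdeg : ∀ m ∈ Q.support, ∑ i, m i ≤ D := by
    intro m hm
    have h1 := MvPolynomial.le_totalDegree hm
    rw [Finsupp.sum_fintype _ _ (fun _ => rfl)] at h1
    exact h1.trans hQ
  have hinj : Function.Injective (fun m : Q.support => φ m) := by
    intro m m' h
    have h1 := congrArg (fun f => f (Multiplicative.ofAdd 1, 1)) h
    have h2 := congrArg (fun f => f (1, Multiplicative.ofAdd 1)) h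
    simp only [φ, MonoidHom.coe_mk, OneHom.coe_mk, toAdd_ofAdd, toAdd_one, pow_zero, pow_one,
      mul_one, one_mul] at h1 h2
    have h3 : ∑ i, (m : Fin r →₀ ℕ) i = ∑ i, (m' : Fin r →₀ ℕ) i := by
      have h4 : ((2 ^ (∑ i, (m : Fin r →₀ ℕ) i) : ℕ) : ℂ)
          = ((2 ^ (∑ i, (m' : Fin r →₀ ℕ) i) : ℕ) : ℂ) := by
        push_cast
        exact h1
      exact Nat.pow_right_injective (le_refl 2) (by exact_mod_cast h4)
    have h5 := hind _ (hdeg m m.2) (fun i => (m : Fin r →₀ ℕ) i) (fun i => (m' : Fin r →₀ ℕ) i)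
      rfl h3.symm h2
    exact Subtype.ext (Finsupp.ext fun i => congrFun h5 i)
  have hli := (linearIndependent_monoidHom (Multiplicative ℕ × Multiplicative ℕ) ℂ).comp _ hinj
  rw [Fintype.linearIndependent_iff] at hli
  have hzero := hli (fun m => Q.coeff m) (by
    funext x
    have h1 := hv ((2 : ℂ) ^ (Multiplicative.toAdd x.1)) (Multiplicative.toAdd x.2)
      (pow_ne_zero _ two_ne_zero)
    rw [MvPolynomial.eval_eq'] at h1
    rw [← Finset.sum_coe_sort Q.support] at h1
    rw [Finset.sum_apply, Pi.zero_apply, ← h1]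
    refine Finset.sum_congr rfl fun m _ => ?_
    simp only [Function.comp, Pi.smul_apply, smul_eq_mul, φ, MonoidHom.coe_mk, OneHom.coe_mk]
    congr 1
    simp only [mul_pow, Finset.prod_mul_distrib, Finset.prod_pow_eq_pow_sum]
    congr 1
    · rw [← pow_mul, ← pow_mul, mul_comm]
    · rw [← Finset.prod_pow]
      refine Finset.prod_congr rfl fun i _ => ?_
      rw [← pow_mul, ← pow_mul, mul_comm])
  rw [← MvPolynomial.support_eq_empty]
  by_contra hne
  obtain ⟨m, hm⟩ := Finset.nonempty_iff_ne_empty.mpr hne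
  exact (MvPolynomial.mem_support_iff.mp hm) (hzero ⟨m, hm⟩)

theorem lemC' {r D : ℕ} (hr : 0 < r) {lam : Fin r → ℂ} (hp : ∏ i, lam i = 1)
    (hind : ∀ d ≤ r * D, ∀ β β' : Fin r → ℕ, ∑ i, β i = d → ∑ i, β' i = d →
      ∏ i, lam i ^ β i = ∏ i, lam i ^ β' i → β = β')
    (Q : MvPolynomial (Fin r) ℂ) (hQ : Q.totalDegree ≤ D)
    (hv : ∀ k : ℕ, MvPolynomial.eval (fun i => lam i ^ k) Q = 0)
    (w : ℂ) (hw : w ^ r = 1) : MvPolynomial.eval (fun _ => w) Q = 0 := by
  classical
  let val : (Fin r →₀ ℕ) → ℂ := fun m => ∏ i, lam i ^ m i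
  have hdeg : ∀ m ∈ Q.support, ∑ i, m i ≤ D := by
    intro m hm
    have h1 := MvPolynomial.le_totalDegree hm
    rw [Finsupp.sum_fintype _ _ (fun _ => rfl)] at h1
    exact h1.trans hQ
  -- within a group the degree is constant modulo `r`
  have hmod : ∀ m ∈ Q.support, ∀ m' ∈ Q.support, val m = val m' →
      ∑ i, m' i ≤ ∑ i, m i → w ^ (∑ i, m i) = w ^ (∑ i, m' i) := by
    intro m hm m' hm' hval hle
    obtain ⟨t, ht⟩ := Nat.exists_eq_add_of_le hle
    have h1 : ∏ i, lam i ^ (r * m i) = ∏ i, lam i ^ (r * m' i + t) := by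
      have h2 : ∏ i, lam i ^ (r * m i) = (∏ i, lam i ^ m i) ^ r := by
        rw [← Finset.prod_pow]
        exact Finset.prod_congr rfl fun i _ => by rw [← pow_mul, mul_comm]
      have h3 : ∏ i, lam i ^ (r * m' i + t) = (∏ i, lam i ^ m' i) ^ r * (∏ i, lam i) ^ t := by
        rw [← Finset.prod_pow, ← Finset.prod_pow, ← Finset.prod_mul_distrib]
        exact Finset.prod_congr rfl fun i _ => by rw [← pow_mul, pow_add, mul_comm r]
      rw [h2, h3, hp, one_pow, mul_one]
      exact congrArg (fun x => x ^ r) hval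
    have h4 := hind (r * ∑ i, m i) (Nat.mul_le_mul_left r (hdeg m hm)) (fun i => r * m i)
      (fun i => r * m' i + t) (by rw [Finset.mul_sum])
      (by rw [Finset.sum_add_distrib, ← Finset.mul_sum, ht]; simp [mul_add]) h1
    have h5 : r * m ⟨0, hr⟩ = r * m' ⟨0, hr⟩ + t := congrFun h4 ⟨0, hr⟩
    have h6 : r ∣ t := by
      have h7 : r ∣ r * m' ⟨0, hr⟩ + t := ⟨m ⟨0, hr⟩, h5.symm⟩
      exact (Nat.dvd_add_right (Dvd.intro _ rfl)).mp h7
    obtain ⟨u, hu⟩ := h6
    rw [ht, pow_add, hu, pow_mul, hw, one_pow, mul_one]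
  have hmod' : ∀ m ∈ Q.support, ∀ m' ∈ Q.support, val m = val m' →
      w ^ (∑ i, m i) = w ^ (∑ i, m' i) := by
    intro m hm m' hm' hval
    rcases le_total (∑ i, m' i) (∑ i, m i) with h | h
    · exact hmod m hm m' hm' hval h
    · exact (hmod m' hm' m hm hval.symm h).symm
  let V : Finset ℂ := Q.support.image val
  let φ : ℂ → (Multiplicative ℕ →* ℂ) := fun v =>
    { toFun := fun x => v ^ (Multiplicative.toAdd x)
      map_one' := by simp
      map_mul' := fun x y => by simp only [toAdd_mul, pow_add] }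
  have hinj : Function.Injective (fun v : V => φ v) := by
    intro v v' h
    have h1 := congrArg (fun f => f (Multiplicative.ofAdd 1)) h
    simp only [φ, MonoidHom.coe_mk, OneHom.coe_mk, toAdd_ofAdd, pow_one] at h1
    exact Subtype.ext h1
  have hli := (linearIndependent_monoidHom (Multiplicative ℕ) ℂ).comp _ hinj
  rw [Fintype.linearIndependent_iff] at hli
  have hzero := hli (fun v => ∑ m ∈ Q.support with val m = v, Q.coeff m) (by
    funext x
    have h1 := hv (Multiplicative.toAdd x)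
    rw [MvPolynomial.eval_eq'] at h1
    rw [← Finset.sum_fiberwise_of_maps_to (t := V) (g := val)
      (fun m hm => Finset.mem_image_of_mem _ hm), ← Finset.sum_coe_sort V] at h1
    rw [Finset.sum_apply, Pi.zero_apply, ← h1]
    refine Finset.sum_congr rfl fun v _ => ?_
    simp only [Function.comp, Pi.smul_apply, smul_eq_mul, φ, MonoidHom.coe_mk, OneHom.coe_mk]
    rw [Finset.sum_mul]
    refine Finset.sum_congr rfl fun m hm => ?_
    rw [Finset.mem_filter] at hm
    congr 1
    rw [← hm.2]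
    simp only [val]
    rw [← Finset.prod_pow]
    refine Finset.prod_congr rfl fun i _ => ?_
    rw [← pow_mul, ← pow_mul, mul_comm])
  rw [MvPolynomial.eval_eq', ← Finset.sum_fiberwise_of_maps_to (t := V) (g := val)
      (fun m hm => Finset.mem_image_of_mem _ hm)]
  refine Finset.sum_eq_zero fun v hvV => ?_
  obtain ⟨m0, hm0, hv0⟩ := Finset.mem_image.mp hvV
  have h1 : ∀ m ∈ Q.support.filter (fun m => val m = v),
      Q.coeff m * ∏ i, w ^ m i = Q.coeff m * w ^ (∑ i, m0 i) := by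
    intro m hm
    rw [Finset.mem_filter] at hm
    rw [Finset.prod_pow_eq_pow_sum, hmod' m hm.1 m0 hm0 (hm.2.trans hv0.symm)]
  rw [Finset.sum_congr rfl h1, ← Finset.sum_mul, hzero ⟨v, hvV⟩, zero_mul]

end Vale.Agent.P002
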