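import Vale.Agent.P002.ZTwist
import Vale.Agent.P002.Chain2

namespace Vale.Agent.P002

open Matrix NumberField

section cones
variable {L : Type*} [Field L] [NumberField L] (φ : L →+* ℂ) {g r : ℕ}

theorem coneF1 (i : Fin g) (m : ℕ) : ConeTw φ (eF1 i m : Tup g r → Mat r) (pF1 i m) := by
  intro c hc
  obtain ⟨σ, hσ, h⟩ := (cone_iff φ c).mp hc
  obtain ⟨s, hs, hs'⟩ := (h i).2.mul ((h i).1.pow m)
  refine ⟨(σ i).2 * (σ i).1 ^ m, s, hs, ?_, ?_⟩
  · rw [show ((σ i).2 * (σ i).1 ^ m).1 = (σ i).2.1 * (σ i).1.1 ^ m by simp, emb_mul, emb_pow]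
    exact hs'
  intro t ht' κ hκ
  rw [cone_iff]
  refine ⟨Function.update σ i ((σ i).1 * t, (σ i).2 * (σ i).1 ^ m * ((σ i).1 * t)⁻¹ ^ m),
    intRep_update σ hσ i _ (grp_F1 _ _ _ m ht'), fun j => ?_⟩
  by_cases hj : j = i
  · subst hj
    simp only [pF1, Function.update_self]
    have ht1 : Pr (κ • emb φ t.1) (emb φ t.1) := ⟨κ, hκ, rfl⟩
    have h1 : Pr ((c j).1 * κ • emb φ t.1) (emb φ ((σ j).1 * t).1) := by
      have := (h j).1.mul ht1
      rwa [← emb_mul] at this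
    refine ⟨h1, ?_⟩
    have h2 := ((h j).2.mul ((h j).1.pow m)).mul (h1.adj.pow m)
    rw [← emb_inv, ← emb_pow, ← emb_pow, ← emb_mul, ← emb_mul] at h2
    exact h2
  · simp only [pF1, Function.update_of_ne hj]
    exact h j

theorem coneF2 (i : Fin g) : ConeTw φ (fun x : Tup g r => (x i).1) (pF2 i) := by
  intro c hc
  obtain ⟨σ, hσ, h⟩ := (cone_iff φ c).mp hc
  obtain ⟨s, hs, hs'⟩ := (h i).1
  refine ⟨(σ i).1, s, hs, hs', ?_⟩
  intro t ht' κ hκ
  rw [cone_iff]
  refine ⟨Function.update σ i ((σ i).1, (σ i).2 * t),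
    intRep_update σ hσ i _ (grp_F2 _ _ _ ht'), fun j => ?_⟩
  by_cases hj : j = i
  · subst hj
    simp only [pF2, Function.update_self]
    have ht1 : Pr (κ • emb φ t.1) (emb φ t.1) := ⟨κ, hκ, rfl⟩
    refine ⟨(h j).1, ?_⟩
    have := (h j).2.mul ht1
    rwa [← emb_mul] at this
  · simp only [pF2, Function.update_of_ne hj]
    exact h j

theorem coneF3 (i i' : Fin g) (hi : (i' : ℕ) = i + 1) (m : ℕ) :
    ConeTw φ (eF3 i i' m : Tup g r → Mat r) (pF3 i i' m) := by
  intro c hc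
  have hne : i ≠ i' := fun h => by rw [h] at hi; omega
  obtain ⟨σ, hσ, h⟩ := (cone_iff φ c).mp hc
  have he : Pr (eF3 i i' m c) (emb φ ((σ i).2 * (σ i).1⁻¹ * (σ i).2⁻¹ * (σ i').1 * (σ i').2 *
      (σ i').1 ^ m).1) := by
    have := (((((h i).2.mul (h i).1.adj).mul (h i).2.adj).mul (h i').1).mul (h i').2).mul
      ((h i').1.pow m)
    rw [← emb_inv, ← emb_inv, ← emb_pow, ← emb_mul, ← emb_mul, ← emb_mul, ← emb_mul,
      ← emb_mul] at this
    exact this
  obtain ⟨s, hs, hs'⟩ := he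
  refine ⟨_, s, hs, hs', ?_⟩
  intro t ht' κ hκ
  rw [cone_iff]
  refine ⟨Function.update (Function.update σ i ((σ i).1, t * (σ i).2)) i'
    (t * (σ i').1, (σ i').2 * (σ i').1 ^ m * t⁻¹ * (t * (σ i').1)⁻¹ ^ m),
    intRep_update2 σ hσ i i' hi _ _ (grp_F3 _ _ _ _ _ m ht'), fun j => ?_⟩
  have ht1 : Pr (κ • emb φ t.1) (emb φ t.1) := ⟨κ, hκ, rfl⟩
  by_cases hj : j = i'
  · subst hj
    simp only [pF3, Function.update_self]
    have h1 : Pr (κ • emb φ t.1 * (c j).1) (emb φ (t * (σ j).1).1) := by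
      have := ht1.mul (h j).1
      rwa [← emb_mul] at this
    refine ⟨h1, ?_⟩
    have h2 := ((((h j).2.mul ((h j).1.pow m)).mul ht1.adj)).mul (h1.adj.pow m)
    rw [← emb_inv, ← emb_inv, ← emb_pow, ← emb_pow, ← emb_mul, ← emb_mul, ← emb_mul] at h2
    exact h2
  · by_cases hj' : j = i
    · subst hj'
      simp only [pF3, Function.update_of_ne hj, Function.update_self]
      refine ⟨(h j).1, ?_⟩
      have := ht1.mul (h j).2
      rwa [← emb_mul] at this
    · simp only [pF3, Function.update_of_ne hj, Function.update_of_ne hj']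
      exact h j

theorem coneF4 (i i' : Fin g) (hi : (i' : ℕ) = i + 1) (m : ℕ) :
    ConeTw φ (eF4 i i' m : Tup g r → Mat r) (pF4 i i' m) := by
  intro c hc
  have hne : i ≠ i' := fun h => by rw [h] at hi; omega
  obtain ⟨σ, hσ, h⟩ := (cone_iff φ c).mp hc
  have he : Pr (eF4 i i' m c) (emb φ ((σ i).1⁻¹ * (σ i).2⁻¹ * (σ i').1 * (σ i').2 *
      (σ i').1 ^ m).1) := by
    have := ((((h i).1.adj).mul (h i).2.adj).mul (h i').1).mul (h i').2 |>.mul
      ((h i').1.pow m)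
    rw [← emb_inv, ← emb_inv, ← emb_pow, ← emb_mul, ← emb_mul, ← emb_mul, ← emb_mul] at this
    exact this
  obtain ⟨s, hs, hs'⟩ := he
  refine ⟨_, s, hs, hs', ?_⟩
  intro t ht' κ hκ
  rw [cone_iff]
  refine ⟨Function.update (Function.update σ i ((σ i).1 * t⁻¹, t * (σ i).2)) i'
    (t * (σ i').1, (σ i').2 * (σ i').1 ^ m * t⁻¹ * (t * (σ i').1)⁻¹ ^ m),
    intRep_update2 σ hσ i i' hi _ _ (grp_F4 _ _ _ _ _ m ht'), fun j => ?_⟩
  have ht1 : Pr (κ • emb φ t.1) (emb φ t.1) := ⟨κ, hκ, rfl⟩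
  by_cases hj : j = i'
  · subst hj
    simp only [pF4, Function.update_self]
    have h1 : Pr (κ • emb φ t.1 * (c j).1) (emb φ (t * (σ j).1).1) := by
      have := ht1.mul (h j).1
      rwa [← emb_mul] at this
    refine ⟨h1, ?_⟩
    have h2 := ((((h j).2.mul ((h j).1.pow m)).mul ht1.adj)).mul (h1.adj.pow m)
    rw [← emb_inv, ← emb_inv, ← emb_pow, ← emb_pow, ← emb_mul, ← emb_mul, ← emb_mul] at h2
    exact h2
  · by_cases hj' : j = i
    · subst hj'
      simp only [pF4, Function.update_of_ne hj, Function.update_self]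
      constructor
      · have := (h j).1.mul ht1.adj
        rwa [← emb_inv, ← emb_mul] at this
      · have := ht1.mul (h j).2
        rwa [← emb_mul] at this
    · simp only [pF4, Function.update_of_ne hj, Function.update_of_ne hj']
      exact h j

end cones

section prt
variable {g r : ℕ}

/-- projective equality of tuples -/
def PrT (x y : Tup g r) : Prop := ∀ i, Pr (x i).1 (y i).1 ∧ Pr (x i).2 (y i).2

theorem PrT.refl (x : Tup g r) : PrT x x := fun _ => ⟨Pr.refl _, Pr.refl _⟩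

theorem PrT.symm {x y : Tup g r} (h : PrT x y) : PrT y x := fun i => ⟨(h i).1.symm, (h i).2.symm⟩

theorem PrT.trans {x y z : Tup g r} (h : PrT x y) (h' : PrT y z) : PrT x z := fun i =>
  ⟨(h i).1.trans (h' i).1, (h i).2.trans (h' i).2⟩

theorem PrT.update {x y : Tup g r} (h : PrT x y) (i : Fin g) {p q : Mat r × Mat r}
    (h1 : Pr p.1 q.1) (h2 : Pr p.2 q.2) : PrT (Function.update x i p) (Function.update y i q) := by
  intro j
  by_cases hj : j = i
  · subst hj; simp only [Function.update_self]; exact ⟨h1, h2⟩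
  · simp only [Function.update_of_ne hj]; exact h j

theorem pF1_pr {x y : Tup g r} (h : PrT x y) (i : Fin g) (m : ℕ) {t t' : Mat r} (ht : Pr t t') :
    PrT (pF1 i m (x, t)) (pF1 i m (y, t')) :=
  h.update i ((h i).1.mul ht) (((h i).2.mul ((h i).1.pow m)).mul (((h i).1.mul ht).adj.pow m))

theorem pF2_pr {x y : Tup g r} (h : PrT x y) (i : Fin g) {t t' : Mat r} (ht : Pr t t') :
    PrT (pF2 i (x, t)) (pF2 i (y, t')) :=
  h.update i (h i).1 ((h i).2.mul ht)

theorem pF3_pr {x y : Tup g r} (h : PrT x y) (i i' : Fin g) (m : ℕ) {t t' : Mat r} (ht : Pr t t') :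
    PrT (pF3 i i' m (x, t)) (pF3 i i' m (y, t')) := by
  refine PrT.update (PrT.update h i ?_ ?_) i' ?_ ?_
  · exact (h i).1
  · exact ht.mul (h i).2
  · exact ht.mul (h i').1
  · exact (((h i').2.mul ((h i').1.pow m)).mul ht.adj).mul ((ht.mul (h i').1).adj.pow m)

theorem pF4_pr {x y : Tup g r} (h : PrT x y) (i i' : Fin g) (m : ℕ) {t t' : Mat r} (ht : Pr t t') :
    PrT (pF4 i i' m (x, t)) (pF4 i i' m (y, t')) := by
  refine PrT.update (PrT.update h i ?_ ?_) i' ?_ ?_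
  · exact (h i).1.mul ht.adj
  · exact ht.mul (h i).2
  · exact ht.mul (h i').1
  · exact (((h i').2.mul ((h i').1.pow m)).mul ht.adj).mul ((ht.mul (h i').1).adj.pow m)

theorem eF1_pr {x y : Tup g r} (h : PrT x y) (i : Fin g) (m : ℕ) : Pr (eF1 i m x) (eF1 i m y) :=
  (h i).2.mul ((h i).1.pow m)

theorem eF3_pr {x y : Tup g r} (h : PrT x y) (i i' : Fin g) (m : ℕ) :
    Pr (eF3 i i' m x) (eF3 i i' m y) :=
  (((((h i).2.mul (h i).1.adj).mul (h i).2.adj).mul (h i').1).mul (h i').2).mul ((h i').1.pow m)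

theorem eF4_pr {x y : Tup g r} (h : PrT x y) (i i' : Fin g) (m : ℕ) :
    Pr (eF4 i i' m x) (eF4 i i' m y) :=
  ((((h i).1.adj.mul (h i).2.adj).mul (h i').1).mul (h i').2).mul ((h i').1.pow m)

theorem mul_adj_pow {a b : Mat r} (ha : IsUnit a.det) (m : ℕ) :
    Pr (b * a ^ m * a.adjugate ^ m) b := by
  refine ⟨a.det ^ m, pow_ne_zero _ ha.ne_zero, ?_⟩
  have h1 : a ^ m * a.adjugate ^ m = a.det ^ m • (1 : Mat r) := by
    have hc : Commute a a.adjugate := by
      unfold Commute SemiconjBy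
      rw [Matrix.mul_adjugate, Matrix.adjugate_mul]
    rw [← hc.mul_pow, Matrix.mul_adjugate, smul_pow, one_pow]
  rw [Matrix.mul_assoc, h1, Algebra.mul_smul_comm, mul_one]

theorem pF1_one {x : Tup g r} (hx : Inv x) (i : Fin g) (m : ℕ) : PrT (pF1 i m (x, 1)) x := by
  intro j
  by_cases hj : j = i
  · subst hj
    simp only [pF1, Function.update_self, mul_one]
    exact ⟨Pr.refl _, mul_adj_pow (hx j).1 m⟩
  · simp only [pF1, Function.update_of_ne hj]
    exact ⟨Pr.refl _, Pr.refl _⟩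

theorem pF2_one (x : Tup g r) (i : Fin g) : PrT (pF2 i (x, 1)) x := by
  intro j
  by_cases hj : j = i
  · subst hj
    simp only [pF2, Function.update_self, mul_one]
    exact ⟨Pr.refl _, Pr.refl _⟩
  · simp only [pF2, Function.update_of_ne hj]
    exact ⟨Pr.refl _, Pr.refl _⟩

theorem pF3_one {x : Tup g r} (hx : Inv x) (i i' : Fin g) (m : ℕ) :
    PrT (pF3 i i' m (x, 1)) x := by
  intro j
  by_cases hj : j = i'
  · subst hj
    simp only [pF3, Function.update_self, one_mul, Matrix.adjugate_one, mul_one]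
    exact ⟨Pr.refl _, mul_adj_pow (hx j).1 m⟩
  · by_cases hj' : j = i
    · subst hj'
      simp only [pF3, Function.update_of_ne hj, Function.update_self, one_mul]
      exact ⟨Pr.refl _, Pr.refl _⟩
    · simp only [pF3, Function.update_of_ne hj, Function.update_of_ne hj']
      exact ⟨Pr.refl _, Pr.refl _⟩

theorem pF4_one {x : Tup g r} (hx : Inv x) (i i' : Fin g) (m : ℕ) :
    PrT (pF4 i i' m (x, 1)) x := by
  intro j
  by_cases hj : j = i'
  · subst hj
    simp only [pF4, Function.update_self, one_mul, Matrix.adjugate_one, mul_one]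
    exact ⟨Pr.refl _, mul_adj_pow (hx j).1 m⟩
  · by_cases hj' : j = i
    · subst hj'
      simp only [pF4, Function.update_of_ne hj, Function.update_self, one_mul,
        Matrix.adjugate_one, mul_one]
      exact ⟨Pr.refl _, Pr.refl _⟩
    · simp only [pF4, Function.update_of_ne hj, Function.update_of_ne hj']
      exact ⟨Pr.refl _, Pr.refl _⟩

/-- all the twisting elements of the tuple are generic -/
structure GenPt (y : Tup g r) : Prop where
  inv : Inv y
  g1 : ∀ (i : Fin g) (m : ℕ), Gen (eF1 i m y)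
  g2 : ∀ (i : Fin g), Gen (y i).1
  g3 : ∀ (i i' : Fin g), (i' : ℕ) = i + 1 → ∀ m : ℕ, Gen (eF3 i i' m y)
  g4 : ∀ (i i' : Fin g), (i' : ℕ) = i + 1 → ∀ m : ℕ, Gen (eF4 i i' m y)

end prt

section reach
variable {L : Type*} [Field L] [NumberField L] (φ : L →+* ℂ) {g r : ℕ}

/-- the tuples joined to `y` by a polynomial curve inside the closure of the cone -/
def Reach (y : Tup g r) : Set (Tup g r) :=
  {x | ∃ Φ : ℂ → Tup g r, PolyMap Φ ∧ (∀ s, Φ s ∈ WW φ g r) ∧ PrT x (Φ 0) ∧ PrT (Φ 1) y}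

theorem reach_sub {y x : Tup g r} (hx : x ∈ Reach φ y) : x ∈ WW φ g r := by
  obtain ⟨Φ, _, hW, h0, _⟩ := hx
  exact WW_pr φ (hW 0) h0

theorem reach_move [NeZero r] {y : Tup g r} {e : Tup g r → Mat r} (he : PolyMap e)
    {T : Tup g r × Mat r → Tup g r} (hT : PolyMap T) (hcone : ConeTw φ e T)
    (hepr : ∀ x x' : Tup g r, PrT x x' → Pr (e x) (e x'))
    (hTpr : ∀ x x' : Tup g r, PrT x x' → ∀ t : Mat r, PrT (T (x, t)) (T (x', t)))
    (hy1 : Gen (e y)) (hone : PrT (T (y, 1)) y) {x : Tup g r} (hx : x ∈ Reach φ y)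
    (hg : gram (e x) ≠ 0) {t : Mat r} (ht : Commute t (e x)) : T (x, t) ∈ Reach φ y := by
  obtain ⟨Φ, hΦ, hW, h0, h1⟩ := hx
  have hg0 : gram (e (Φ 0)) ≠ 0 := (hepr _ _ h0).symm.gram_ne hg
  have ht0 : Commute t (e (Φ 0)) := (hepr _ _ h0).symm.commute ht
  obtain ⟨f, hf⟩ := exists_poly_of_commute (e (Φ 0)) hg0 t ht0
  set c : Fin r → ℂ → ℂ := fun j s => (1 - s) * f j + s * (if j = 0 then 1 else 0) with hc
  have hcp : ∀ j, c j ∈ PolyFun ℂ := fun j =>
    polyFun_add (polyFun_mul (polyFun_sub (polyFun_const 1) (polyFun_linear LinearMap.id))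
      (polyFun_const _)) (polyFun_mul (polyFun_linear LinearMap.id) (polyFun_const _))
  refine ⟨fun s => T (Φ s, ∑ j : Fin r, c j s • (e (Φ s)) ^ (j : ℕ)), ?_, ?_, ?_, ?_⟩
  · exact polyMap_comp hT (polyMap_prodMk hΦ (polyMap_sum _ fun j _ =>
      polyMap_smul (hcp j) (polyMap_pow (polyMap_comp he hΦ) _)))
  · intro s
    exact twist_curve φ he hT hcone hΦ hW (hy1.pr (hepr _ _ h1)) hcp s
  · have e1 : ∑ j : Fin r, c j 0 • (e (Φ 0)) ^ (j : ℕ) = t := by
      rw [hf]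
      refine Finset.sum_congr rfl fun j _ => ?_
      simp [hc]
    show PrT (T (x, t)) (T (Φ 0, ∑ j : Fin r, c j 0 • (e (Φ 0)) ^ (j : ℕ)))
    rw [e1]
    exact hTpr _ _ h0 t
  · have e1 : ∑ j : Fin r, c j 1 • (e (Φ 1)) ^ (j : ℕ) = 1 := by
      rw [Finset.sum_eq_single (0 : Fin r)]
      · simp [hc]
      · intro j _ hj
        simp [hc, hj]
      · simp
    show PrT (T (Φ 1, ∑ j : Fin r, c j 1 • (e (Φ 1)) ^ (j : ℕ))) y
    rw [e1]
    exact (hTpr _ _ h1 1).trans hone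

theorem moveClosed_reach [NeZero r] {y : Tup g r} (hy : GenPt y) : MoveClosed (Reach φ y) where
  pr := by
    rintro x z ⟨Φ, hΦ, hW, h0, h1⟩ h
    exact ⟨Φ, hΦ, hW, PrT.trans h h0, h1⟩
  m1 := fun i m _ hx hg t _ ht => reach_move φ (polyMap_eF1 i m) (polyMap_pF1 i m) (coneF1 φ i m)
    (fun _ _ h => eF1_pr h i m) (fun _ _ h t => pF1_pr h i m (Pr.refl t)) (hy.g1 i m)
    (pF1_one hy.inv i m) hx hg ht
  m2 := fun i _ hx hg t _ ht => reach_move φ (e := fun x : Tup g r => (x i).1)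
    (poly1 polyMap_id i) (polyMap_pF2 i) (coneF2 φ i)
    (fun _ _ h => (h i).1) (fun _ _ h t => pF2_pr h i (Pr.refl t)) (hy.g2 i)
    (pF2_one y i) hx hg ht
  m3 := fun i i' hi m _ hx hg t _ ht => reach_move φ (polyMap_eF3 i i' m) (polyMap_pF3 i i' m)
    (coneF3 φ i i' hi m) (fun _ _ h => eF3_pr h i i' m)
    (fun _ _ h t => pF3_pr h i i' m (Pr.refl t)) (hy.g3 i i' hi m) (pF3_one hy.inv i i' m) hx hg ht
  m4 := fun i i' hi m _ hx hg t _ ht => reach_move φ (polyMap_eF4 i i' m) (polyMap_pF4 i i' m)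
    (coneF4 φ i i' hi m) (fun _ _ h => eF4_pr h i i' m)
    (fun _ _ h t => pF4_pr h i i' m (Pr.refl t)) (hy.g4 i i' hi m) (pF4_one hy.inv i i' m) hx hg ht

end reach

end Vale.Agent.P002
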