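import Vale.Agent.P002.ZGram
import Vale.Agent.P002.BBase

namespace Vale.Agent.P002

open Matrix NumberField

section deg
variable {E : Type*} [AddCommGroup E] [Module ℂ E] {r : ℕ}

/-- uniform degree bound for a polynomial function restricted to diagonalised families -/
theorem deg_bound {G : E × Mat r → ℂ} (hG : G ∈ PolyFun (E × Mat r)) :
    ∃ D : ℕ, ∀ (z : E) (h h' : Mat r), ∃ Q : MvPolynomial (Fin r) ℂ, Q.totalDegree ≤ D ∧
      ∀ μ : Fin r → ℂ, G (z, h * diagonal μ * h') = MvPolynomial.eval μ Q := by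
  unfold PolyFun at hG
  induction hG using Algebra.adjoin_induction with
  | mem x hx =>
    obtain ⟨l, rfl⟩ := hx
    refine ⟨1, fun z h h' => ⟨MvPolynomial.C (l (z, 0)) +
      ∑ i, MvPolynomial.C (l (0, h * Matrix.single i i 1 * h')) * MvPolynomial.X i, ?_, ?_⟩⟩
    · refine (MvPolynomial.totalDegree_add _ _).trans (max_le (by simp) ?_)
      refine MvPolynomial.totalDegree_finsetSum_le fun i _ => ?_
      refine (MvPolynomial.totalDegree_mul _ _).trans ?_
      rw [MvPolynomial.totalDegree_C, zero_add]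
      exact (MvPolynomial.totalDegree_X i).le
    · intro μ
      simp only [map_add, MvPolynomial.eval_C, map_sum, map_mul, MvPolynomial.eval_X]
      have e1 : (z, h * diagonal μ * h') = (z, (0 : Mat r)) +
          ∑ i, μ i • ((0 : E), h * Matrix.single i i (1 : ℂ) * h') := by
        refine Prod.ext ?_ ?_
        · simp [Prod.fst_sum]
        · simp only [Prod.snd_add, Prod.snd_sum, Prod.smul_snd, zero_add]
          have e2 : (diagonal μ : Mat r) = ∑ i, μ i • Matrix.single i i (1 : ℂ) := by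
            ext a b
            rw [Matrix.sum_apply]
            simp only [Matrix.smul_apply, Matrix.single_apply, smul_eq_mul, mul_ite, mul_one,
              mul_zero, Matrix.diagonal_apply]
            by_cases hab : a = b
            · subst hab; simp
            · rw [if_neg hab]
              symm
              apply Finset.sum_eq_zero
              intro i _
              rw [if_neg]
              rintro ⟨h1, h2⟩
              exact hab (h1.symm.trans h2)
          rw [e2, Finset.mul_sum, Finset.sum_mul]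
          refine Finset.sum_congr rfl fun i _ => ?_
          rw [Algebra.mul_smul_comm, Algebra.smul_mul_assoc]
      rw [e1, map_add, map_sum]
      congr 1
      refine Finset.sum_congr rfl fun i _ => ?_
      rw [map_smul, smul_eq_mul, mul_comm]
  | algebraMap c =>
    exact ⟨0, fun z h h' => ⟨MvPolynomial.C c, by simp, fun μ => by simp⟩⟩
  | add f g _ _ hf hg =>
    obtain ⟨D, hD⟩ := hf
    obtain ⟨D', hD'⟩ := hg
    refine ⟨max D D', fun z h h' => ?_⟩
    obtain ⟨Q, hQ, hQ'⟩ := hD z h h'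
    obtain ⟨R, hR, hR'⟩ := hD' z h h'
    refine ⟨Q + R, (MvPolynomial.totalDegree_add _ _).trans (max_le_max hQ hR), fun μ => ?_⟩
    rw [Pi.add_apply, hQ', hR', map_add]
  | mul f g _ _ hf hg =>
    obtain ⟨D, hD⟩ := hf
    obtain ⟨D', hD'⟩ := hg
    refine ⟨D + D', fun z h h' => ?_⟩
    obtain ⟨Q, hQ, hQ'⟩ := hD z h h'
    obtain ⟨R, hR, hR'⟩ := hD' z h h'
    refine ⟨Q * R, (MvPolynomial.totalDegree_mul _ _).trans (add_le_add hQ hR), fun μ => ?_⟩
    rw [Pi.mul_apply, hQ', hR', map_mul]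

theorem polyFun_mul_zero {a b : ℂ → ℂ} (ha : a ∈ PolyFun ℂ) (hb : b ∈ PolyFun ℂ)
    (h : ∀ s, a s * b s = 0) {s0 : ℂ} (h0 : a s0 ≠ 0) (s : ℂ) : b s = 0 := by
  obtain ⟨p, hp⟩ := polyFun_line_poly ha
  obtain ⟨q, hq⟩ := polyFun_line_poly hb
  have hpq : p * q = 0 := by
    apply Polynomial.funext
    intro x
    rw [Polynomial.eval_mul, ← hp, ← hq, h, Polynomial.eval_zero]
  have hp0 : p ≠ 0 := by
    rintro rfl
    exact h0 (by rw [hp, Polynomial.eval_zero])
  rw [hq, (mul_eq_zero.mp hpq).resolve_left hp0, Polynomial.eval_zero]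

end deg

/-- product of the gram functions up to degree `D` -/
noncomputable def gprod {r : ℕ} (D : ℕ) (e : Mat r) : ℂ :=
  gram e * ∏ d ∈ Finset.range (D + 1), gramD d e

/-- genericity: distinct eigenvalues without relations of equal degree -/
def Gen {r : ℕ} (e : Mat r) : Prop := gram e ≠ 0 ∧ ∀ d, gramD d e ≠ 0

theorem gprod_polyFun {E : Type*} [AddCommGroup E] [Module ℂ E] {r : ℕ} (D : ℕ) {S : E → Mat r}
    (hS : PolyMap S) : (fun x => gprod D (S x)) ∈ PolyFun E :=
  polyFun_mul (gram_polyFun hS) (polyFun_prod _ fun d _ => gramD_polyFun d hS)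

theorem gprod_ne {r : ℕ} {D : ℕ} {e : Mat r} (h : gprod D e ≠ 0) :
    gram e ≠ 0 ∧ ∀ d ≤ D, gramD d e ≠ 0 :=
  ⟨left_ne_zero_of_mul h, fun d hd => Finset.prod_ne_zero_iff.mp (right_ne_zero_of_mul h) d
    (Finset.mem_range.mpr (by omega))⟩

theorem Gen.gprod {r : ℕ} {e : Mat r} (h : Gen e) (D : ℕ) : gprod D e ≠ 0 :=
  mul_ne_zero h.1 (Finset.prod_ne_zero_iff.mpr fun d _ => h.2 d)

theorem gramD_pr {r : ℕ} {A B : Mat r} (h : Pr A B) (d : ℕ) (hB : gramD d B ≠ 0) :
    gramD d A ≠ 0 := by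
  obtain ⟨s, hs, rfl⟩ := h
  exact (gramD_smul d B hs).mpr hB

theorem gprod_pr {r : ℕ} {A B : Mat r} (h : Pr A B) (D : ℕ) (hB : gprod D B ≠ 0) :
    Vale.Agent.P002.gprod D A ≠ 0 := by
  obtain ⟨h1, h2⟩ := gprod_ne hB
  exact mul_ne_zero (h.gram_ne h1) (Finset.prod_ne_zero_iff.mpr fun d hd =>
    gramD_pr h d (h2 d (by have := Finset.mem_range.mp hd; omega)))

theorem Gen.pr {r : ℕ} {A B : Mat r} (hB : Gen B) (h : Pr A B) : Gen A :=
  ⟨h.gram_ne hB.1, fun d => gramD_pr h d (hB.2 d)⟩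

section twist
variable {L : Type*} [Field L] [NumberField L] (φ : L →+* ℂ) {g r : ℕ}

/-- the data of a twist at the level of the cone -/
def ConeTw (e : Tup g r → Mat r) (T : Tup g r × Mat r → Tup g r) : Prop :=
  ∀ c ∈ Cone φ g r, ∃ (E : SpecialLinearGroup (Fin r) (𝓞 L)) (s : ℂ), s ≠ 0 ∧
      e c = s • emb φ E.1 ∧ ∀ t : SpecialLinearGroup (Fin r) (𝓞 L), Commute t E →
        ∀ κ : ℂ, κ ≠ 0 → T (c, κ • emb φ t.1) ∈ Cone φ g r

theorem twist_cone {e : Tup g r → Mat r} {T : Tup g r × Mat r → Tup g r} (hT : PolyMap T)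
    (hcone : ConeTw φ e T) {F : Tup g r → ℂ} (hF : F ∈ PolyFun (Tup g r))
    (hv : ∀ c ∈ Cone φ g r, F c = 0) :
    ∃ D, ∀ c ∈ Cone φ g r, gprod D (e c) ≠ 0 → ∀ t, Commute t (e c) → F (T (c, t)) = 0 := by
  obtain ⟨D, hD⟩ := deg_bound (polyFun_comp hF hT)
  refine ⟨D, fun c hc hg t ht => ?_⟩
  obtain ⟨E, s, hs, hes, htw⟩ := hcone c hc
  obtain ⟨hgr, hgD⟩ := gprod_ne hg
  obtain ⟨h, lam, hh, hl, hd⟩ := exists_diag_of_gram_ne_zero (e c) hgr
  obtain ⟨Q, hQD, hQ⟩ := hD c h h⁻¹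
  have hdet : (e c).det ≠ 0 := by
    rw [hes, Matrix.det_smul, emb_det, E.2, map_one, mul_one]
    exact pow_ne_zero _ hs
  have h0 : ∀ i, lam i ≠ 0 := by
    have h1 : (e c).det = ∏ i, lam i := by
      rw [hd, Matrix.det_mul, Matrix.det_mul, Matrix.det_diagonal, Matrix.det_nonsing_inv,
        mul_right_comm, Ring.mul_inverse_cancel _ hh, one_mul]
    rw [h1] at hdet
    intro i
    exact Finset.prod_ne_zero_iff.mp hdet i (Finset.mem_univ i)
  have hpow : ∀ (κ : ℂ) (k : ℕ), h * diagonal (fun i => κ * lam i ^ k) * h⁻¹ = κ • (e c) ^ k := by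
    intro κ k
    rw [hd, conj_pow h _ hh, Matrix.diagonal_pow]
    have : (diagonal (fun i => κ * lam i ^ k) : Mat r) = κ • diagonal (lam ^ k) := by
      ext a b
      by_cases hab : a = b
      · subst hab; simp
      · simp [hab]
    rw [this, Algebra.mul_smul_comm, Algebra.smul_mul_assoc]
  have hQ0 : Q = 0 := by
    refine lemC h0 (fun d hd' => ?_) Q hQD fun κ k hκ => ?_
    · have := hgD d hd'
      rw [hd] at this
      exact (gramD_diag_iff d h lam hh).mp this
    · rw [← hQ, hpow]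
      have h2 : κ • (e c) ^ k = (κ * s ^ k) • emb φ (E ^ k).1 := by
        rw [hes, smul_pow, smul_smul]
        congr 1
        rw [← emb_pow]
        congr 1
      rw [h2]
      exact hv _ (htw (E ^ k) ((Commute.refl E).pow_left k) _ (mul_ne_zero hκ (pow_ne_zero _ hs)))
  have ht' := ht
  rw [hd] at ht'
  rw [diag_of_commute h lam hh hl t ht', hQ, hQ0, map_zero]

theorem twist_curve {e : Tup g r → Mat r} (he : PolyMap e) {T : Tup g r × Mat r → Tup g r}
    (hT : PolyMap T) (hcone : ConeTw φ e T) {Φ : ℂ → Tup g r} (hΦ : PolyMap Φ)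
    (hW : ∀ s, Φ s ∈ WW φ g r) (h1 : Gen (e (Φ 1))) {f : Fin r → ℂ → ℂ}
    (hf : ∀ j, f j ∈ PolyFun ℂ) (s : ℂ) :
    T (Φ s, ∑ j : Fin r, f j s • (e (Φ s)) ^ (j : ℕ)) ∈ WW φ g r := by
  intro F hF hv
  obtain ⟨D, hD⟩ := twist_cone φ hT hcone hF hv
  have hA : ∀ z ∈ WW φ g r, ∀ c : Fin r → ℂ,
      gprod D (e z) * F (T (z, ∑ j : Fin r, c j • (e z) ^ (j : ℕ))) = 0 := by
    intro z hz c
    refine hz (fun z => gprod D (e z) * F (T (z, ∑ j : Fin r, c j • (e z) ^ (j : ℕ))))
      (polyFun_mul (gprod_polyFun D he) (polyFun_comp hF (polyMap_comp hT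
        (polyMap_prodMk polyMap_id (polyMap_sum _ fun j _ => polyMap_smul (polyFun_const (c j))
          (polyMap_pow he _)))))) ?_
    intro y hy
    by_cases h0 : gprod D (e y) = 0
    · simp [h0]
    · simp only [mul_eq_zero]
      right
      refine hD y hy h0 _ ?_
      exact Commute.sum_left _ _ _ fun j _ => (Commute.pow_left (Commute.refl _) _).smul_left _
  have hp1 : (fun s => gprod D (e (Φ s))) ∈ PolyFun ℂ := gprod_polyFun D (polyMap_comp he hΦ)
  have hp2 : (fun s => F (T (Φ s, ∑ j : Fin r, f j s • (e (Φ s)) ^ (j : ℕ)))) ∈ PolyFun ℂ :=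
    polyFun_comp hF (polyMap_comp hT (polyMap_prodMk hΦ (polyMap_sum _ fun j _ =>
      polyMap_smul (hf j) (polyMap_pow (polyMap_comp he hΦ) _))))
  exact polyFun_mul_zero hp1 hp2 (fun s => hA (Φ s) (hW s) fun j => f j s) (h1.gprod D) s

end twist

end Vale.Agent.P002
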